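import Vale.Agent.Lib.P328.Bit.AnnealWords

/-!
# P328, bit model: the constant of the estimate (part of module ANNEALF)

`logCF`: the fixed point logarithm of `betaC c * exp (-phiMin r) * detT * (4 S ^ 4) ^ D / ∏ r_i !`.
`logCF_apx`: the value up to `20 (n m + 1)` elementary errors.
-/

namespace Vale.Agent.Lib.P328.Bit.AnnealAux

open Finset

/-- The input of the program. -/
abbrev Inp := List ℤ × List ℤ

/-- The word `n m`. -/
noncomputable def DW (S : ℕ) (x : Inp) : ℤ := cmul S (((x.2.take S).length : ℤ)) (((x.1.take S).length : ℤ))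

theorem DW_rep : DRep DW := (DRep.lengthS DRep.snd).mul (DRep.lengthS DRep.fst)

/-- The term `Σ_j (c_j log c_j - log c_j !)`. -/
noncomputable def P1 (S : ℕ) (x : Inp) : ℤ := sumL S x.2 (fun a => csub S (xlogF S a) (lfF S a))

/-- The term `log N ! - N log N`. -/
noncomputable def P2 (S : ℕ) (x : Inp) : ℤ :=
  csub S (lfF S (sumL S x.2 (fun a => a))) (xlogF S (sumL S x.2 (fun a => a)))

/-- The term `Σ_i (r_i log r_i - r_i - log r_i !)`. -/
noncomputable def P3 (S : ℕ) (x : Inp) : ℤ :=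
  sumL S x.1 (fun a => csub S (csub S (xlogF S a) (fint S a)) (lfF S a))

/-- The double sum of the logarithms of `scF`. -/
noncomputable def P4a (S : ℕ) (x : Inp) : ℤ :=
  sumL S x.2 (fun a => sumL S x.1 (fun b => lFw S (DW S x) b a))

/-- The row sum of the logarithms of `scF` at the largest column. -/
noncomputable def P4b (S : ℕ) (x : Inp) : ℤ :=
  sumL S x.1 (fun b => lFw S (DW S x) b (maxL S x.2))

/-- The column sum of the logarithms of `scF` at the largest row. -/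
noncomputable def P4c (S : ℕ) (x : Inp) : ℤ :=
  sumL S x.2 (fun a => lFw S (DW S x) (maxL S x.1) a)

/-- The logarithm of `scF` at the largest row and column. -/
noncomputable def P4d (S : ℕ) (x : Inp) : ℤ := lFw S (DW S x) (maxL S x.1) (maxL S x.2)

/-- The sum of the logarithms of `scS` over the columns. -/
noncomputable def P4e (S : ℕ) (x : Inp) : ℤ := sumL S x.2 (fun a => lSw S (DW S x) a)

/-- The logarithm of `scS` at the largest column. -/
noncomputable def P4f (S : ℕ) (x : Inp) : ℤ := lSw S (DW S x) (maxL S x.2)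

/-- The sum of the logarithms of `scS` over the rows. -/
noncomputable def P4g (S : ℕ) (x : Inp) : ℤ := sumL S x.1 (fun b => lSw S (DW S x) b)

/-- The logarithm of `detT`. -/
noncomputable def P4 (S : ℕ) (x : Inp) : ℤ :=
  cadd S (csub S (cadd S (cadd S (csub S (csub S (P4a S x) (P4b S x)) (P4c S x)) (P4d S x)) (P4e S x)) (P4f S x))
    (P4g S x)

/-- The term `D log (4 S ^ 4)`. -/
noncomputable def P5 (S : ℕ) (x : Inp) : ℤ := cmul S (DW S x) (intLog S (fourS4 S))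

/-- The constant. -/
noncomputable def logCF (S : ℕ) (x : Inp) : ℤ :=
  cadd S (cadd S (cadd S (P1 S x) (P2 S x)) (P3 S x)) (cadd S (P4 S x) (P5 S x))

/-! ### Programs -/

theorem P1_rep : DRep P1 := by
  have hf : DRep (α := Inp × ℤ) (β := ℤ) fun S y => csub S (xlogF S y.2) (lfF S y.2) :=
    (xlogF_rep DRep.snd).sub (lfF_rep DRep.snd)
  exact sumL_rep (l := fun _ (x : Inp) => x.2) (f := fun S (y : Inp × ℤ) => csub S (xlogF S y.2) (lfF S y.2))
    DRep.snd hf

theorem sumC_rep : DRep (α := Inp) (β := ℤ) fun S x => sumL S x.2 (fun a => a) :=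
  sumL_rep (l := fun _ (x : Inp) => x.2) (f := fun _ (y : Inp × ℤ) => y.2) DRep.snd DRep.snd

theorem P2_rep : DRep P2 := (lfF_rep sumC_rep).sub (xlogF_rep sumC_rep)

theorem P3_rep : DRep P3 := by
  have hf : DRep (α := Inp × ℤ) (β := ℤ) fun S y => csub S (csub S (xlogF S y.2) (fint S y.2)) (lfF S y.2) :=
    ((xlogF_rep DRep.snd).sub (fint_rep DRep.snd)).sub (lfF_rep DRep.snd)
  exact sumL_rep (l := fun _ (x : Inp) => x.1)
    (f := fun S (y : Inp × ℤ) => csub S (csub S (xlogF S y.2) (fint S y.2)) (lfF S y.2)) DRep.fst hf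

theorem P4a_rep : DRep P4a := by
  have hD : DRep (α := (Inp × ℤ) × ℤ) (β := ℤ) fun S z => DW S z.1.1 :=
    (DRep.fst.comp DRep.fst).comp DW_rep
  have hb : DRep (α := (Inp × ℤ) × ℤ) (β := ℤ) fun _ z => z.1.2 := DRep.fst.comp DRep.snd
  have hterm : DRep (α := (Inp × ℤ) × ℤ) (β := ℤ) fun S z => lFw S (DW S z.1.1) z.2 z.1.2 :=
    lFw_rep hD DRep.snd hb
  have hl : DRep (α := Inp × ℤ) (β := List ℤ) fun _ y => y.1.1 := DRep.fst.comp DRep.fst
  have hinner : DRep (α := Inp × ℤ) (β := ℤ) fun S y => sumL S y.1.1 (fun b => lFw S (DW S y.1) b y.2) :=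
    sumL_rep (l := fun _ (y : Inp × ℤ) => y.1.1)
      (f := fun S (z : (Inp × ℤ) × ℤ) => lFw S (DW S z.1.1) z.2 z.1.2) hl hterm
  exact sumL_rep (l := fun _ (x : Inp) => x.2)
    (f := fun S (y : Inp × ℤ) => sumL S y.1.1 (fun b => lFw S (DW S y.1) b y.2)) DRep.snd hinner

theorem maxR_rep : DRep (α := Inp) (β := ℤ) fun S x => maxL S x.1 := maxL_rep DRep.fst

theorem maxC_rep : DRep (α := Inp) (β := ℤ) fun S x => maxL S x.2 := maxL_rep DRep.snd

theorem DW1_rep : DRep (α := Inp × ℤ) (β := ℤ) fun S y => DW S y.1 := DRep.fst.comp DW_rep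

theorem P4b_rep : DRep P4b := by
  have hM : DRep (α := Inp × ℤ) (β := ℤ) fun S y => maxL S y.1.2 := DRep.fst.comp maxC_rep
  have hf : DRep (α := Inp × ℤ) (β := ℤ) fun S y => lFw S (DW S y.1) y.2 (maxL S y.1.2) :=
    lFw_rep DW1_rep DRep.snd hM
  exact sumL_rep (l := fun _ (x : Inp) => x.1)
    (f := fun S (y : Inp × ℤ) => lFw S (DW S y.1) y.2 (maxL S y.1.2)) DRep.fst hf

theorem P4c_rep : DRep P4c := by
  have hM : DRep (α := Inp × ℤ) (β := ℤ) fun S y => maxL S y.1.1 := DRep.fst.comp maxR_rep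
  have hf : DRep (α := Inp × ℤ) (β := ℤ) fun S y => lFw S (DW S y.1) (maxL S y.1.1) y.2 :=
    lFw_rep DW1_rep hM DRep.snd
  exact sumL_rep (l := fun _ (x : Inp) => x.2)
    (f := fun S (y : Inp × ℤ) => lFw S (DW S y.1) (maxL S y.1.1) y.2) DRep.snd hf

theorem P4d_rep : DRep P4d := lFw_rep DW_rep maxR_rep maxC_rep

theorem P4e_rep : DRep P4e := by
  have hf : DRep (α := Inp × ℤ) (β := ℤ) fun S y => lSw S (DW S y.1) y.2 := lSw_rep DW1_rep DRep.snd
  exact sumL_rep (l := fun _ (x : Inp) => x.2) (f := fun S (y : Inp × ℤ) => lSw S (DW S y.1) y.2) DRep.snd hf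

theorem P4f_rep : DRep P4f := lSw_rep DW_rep maxC_rep

theorem P4g_rep : DRep P4g := by
  have hf : DRep (α := Inp × ℤ) (β := ℤ) fun S y => lSw S (DW S y.1) y.2 := lSw_rep DW1_rep DRep.snd
  exact sumL_rep (l := fun _ (x : Inp) => x.1) (f := fun S (y : Inp × ℤ) => lSw S (DW S y.1) y.2) DRep.fst hf

theorem P4_rep : DRep P4 :=
  ((((((P4a_rep.sub P4b_rep).sub P4c_rep).add P4d_rep).add P4e_rep).sub P4f_rep).add P4g_rep)

theorem P5_rep : DRep P5 := DW_rep.mul (intLog_rep fourS4_rep)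

theorem logCF_rep : DRep logCF :=
  ((P1_rep.add P2_rep).add P3_rep).add (P4_rep.add P5_rep)

/-! ### The real numbers -/

variable {m n : ℕ}

/-- The logarithm of `scF`. -/
noncomputable def lsc (D a b : ℕ) : ℝ :=
  Real.log ((min a b + 1 : ℕ) : ℝ) - Real.log ((2 * D ^ 2 : ℕ) : ℝ)

/-- The logarithm of `scS`. -/
noncomputable def lss (D a : ℕ) : ℝ :=
  Real.log (1 + Real.sqrt a) - Real.log ((16 * D ^ 2 : ℕ) : ℝ)

/-- The logarithm of `detT`. -/
noncomputable def t4 (r : Fin m → ℕ) (c : Fin n → ℕ) (i0 : Fin m) (j0 : Fin n) : ℝ :=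
  (∑ j, ∑ i, lsc (n * m) (r i) (c j)) - (∑ i, lsc (n * m) (r i) (c j0)) - (∑ j, lsc (n * m) (r i0) (c j))
    + lsc (n * m) (r i0) (c j0) + (∑ j, lss (n * m) (c j)) - lss (n * m) (c j0) + (∑ i, lss (n * m) (r i))

/-- The true value of the constant. -/
noncomputable def logCtrue (S : ℕ) (r : Fin m → ℕ) (c : Fin n → ℕ) (i0 : Fin m) (j0 : Fin n) : ℝ :=
  (∑ j, ((c j : ℝ) * Real.log (c j) - Real.log ((c j).factorial : ℝ)))
    + (Real.log ((∑ j, c j).factorial : ℝ) - ((∑ j, c j : ℕ) : ℝ) * Real.log ((∑ j, c j : ℕ) : ℝ))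
    + (∑ i, ((r i : ℝ) * Real.log (r i) - (r i : ℝ) - Real.log ((r i).factorial : ℝ)))
    + (t4 r c i0 j0 + (((n * m : ℕ) : ℝ) * Real.log ((4 * S ^ 4 : ℕ) : ℝ)))

section Spec

variable {S : ℕ} (hS : 1000000 ≤ S) {r : Fin m → ℕ} {c : Fin n → ℕ} {i0 : Fin m} {j0 : Fin n}
  (hm : 0 < m) (hn : 0 < n) (hDS : 20 * (n * m + 1) ≤ S) (hr : ∀ i, r i ≤ 2 ^ S)
  (hc : ∀ j, c j ≤ 2 ^ S) (hN : ∑ j, c j ≤ 2 ^ S) (hi0 : ∀ i, r i ≤ r i0) (hj0 : ∀ j, c j ≤ c j0)

include hS hm hn hDS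

omit hn hm hDS in
theorem S_sq_facts (hk : 20 * (n * m + 1) ≤ S) : 20 * (n * m + 1) ≤ S ^ 2 := by
  have h : S ≤ S ^ 2 := Nat.le_self_pow (by norm_num) S
  omega

omit hS hn hDS in
theorem n_le_D : n ≤ n * m := Nat.le_mul_of_pos_right _ hm

omit hS hm hDS in
theorem m_le_D : m ≤ n * m := Nat.le_mul_of_pos_left _ hn

theorem DW_nat : DW S (lN r, lN c) = ((n * m : ℕ) : ℤ) := by
  have h1 := n_le_D (n := n) hm
  have h2 := m_le_D (m := m) hn
  have hSS := two_pow_S_le hS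
  have hlt : S < 2 ^ S := Nat.lt_two_pow_self
  have hlenr : (((lN r).take S).length : ℤ) = (m : ℤ) := by
    rw [List.length_take, lN_length, min_eq_right (by omega)]
  have hlenc : (((lN c).take S).length : ℤ) = (n : ℤ) := by
    rw [List.length_take, lN_length, min_eq_right (by omega)]
  unfold DW
  simp only
  rw [hlenr, hlenc]
  exact cmul_nat hS (by omega) (by omega) (by omega)

include hr hc hN hi0 hj0

theorem P1_apx : Apx S (P1 S (lN r, lN c))
    (∑ j, ((c j : ℝ) * Real.log (c j) - Real.log ((c j).factorial : ℝ))) (2 * (n * m)) := by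
  have h1 := n_le_D (n := n) hm
  have h2 := sumL_fin hS (k := n) (by omega) c (fun a => csub S (xlogF S a) (lfF S a))
    (fun a => (a : ℝ) * Real.log a - Real.log (a.factorial : ℝ)) (1 + 1)
    (fun j => (xlogF_apx hS (hc j)).sub hS (lfF_apx hS (hc j)) (by
      have : 2 ≤ S ^ 2 := by
        have := two_mul_S_le hS
        omega
      omega)) (by
      have := S_sq_facts hS hDS
      omega)
  exact h2.mono hS (by omega)

theorem P2_apx : Apx S (P2 S (lN r, lN c))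
    (Real.log ((∑ j, c j).factorial : ℝ) - ((∑ j, c j : ℕ) : ℝ) * Real.log ((∑ j, c j : ℕ) : ℝ)) 2 := by
  have h1 := n_le_D (n := n) hm
  have hw := sumNat_fin hS (k := n) (by omega) c hN
  unfold P2
  simp only
  rw [hw]
  exact (lfF_apx hS hN).sub hS (xlogF_apx hS hN) (by
    have := S_sq_facts hS hDS
    omega)

theorem P3_apx : Apx S (P3 S (lN r, lN c))
    (∑ i, ((r i : ℝ) * Real.log (r i) - (r i : ℝ) - Real.log ((r i).factorial : ℝ))) (3 * (n * m)) := by
  have h1 := m_le_D (m := m) hn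
  have h0 : 3 ≤ S ^ 2 := by
    have := two_mul_S_le hS
    omega
  have h2 := sumL_fin hS (k := m) (by omega) r (fun a => csub S (csub S (xlogF S a) (fint S a)) (lfF S a))
    (fun a => (a : ℝ) * Real.log a - (a : ℝ) - Real.log (a.factorial : ℝ)) (1 + 1 + 1)
    (fun i => ((xlogF_apx hS (hr i)).sub hS (fint_apx hS (hr i)) (by omega)).sub hS (lfF_apx hS (hr i))
      (by omega)) (by
      have := S_sq_facts hS hDS
      omega)
  exact h2.mono hS (by omega)

theorem D_facts : n * m ≤ S ∧ 1 ≤ n * m := by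
  have h1 := n_le_D (n := n) hm
  omega

theorem P4a_apx : Apx S (P4a S (lN r, lN c)) (∑ j, ∑ i, lsc (n * m) (r i) (c j)) (2 * (n * m)) := by
  obtain ⟨hD1, hD0⟩ := D_facts hS hm hn hDS hr hc hN hi0 hj0
  have h1 := n_le_D (n := n) hm
  have h3 := m_le_D (m := m) hn
  have hsq := S_sq_facts hS hDS
  unfold P4a
  simp only
  rw [DW_nat hS hm hn hDS]
  have hmul : n * (m * 2) = 2 * (n * m) := by ring
  have hinner : ∀ j, Apx S (sumL S (lN r) (fun b => lFw S ((n * m : ℕ) : ℤ) b ((c j : ℕ) : ℤ)))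
      (∑ i, lsc (n * m) (r i) (c j)) (m * 2) := by
    intro j
    have hmn : m * 2 ≤ 2 * (n * m) := by omega
    exact sumL_fin hS (k := m) (by omega) r (fun b => lFw S ((n * m : ℕ) : ℤ) b ((c j : ℕ) : ℤ))
      (fun a => lsc (n * m) a (c j)) 2 (fun i => lFw_apx hS hD1 hD0 (hr i) (hc j)) (by omega)
  have h2 := sumL_fin hS (k := n) (by omega) c
    (fun a => sumL S (lN r) (fun b => lFw S ((n * m : ℕ) : ℤ) b a))
    (fun a => ∑ i, lsc (n * m) (r i) a) (m * 2) hinner (by omega)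
  rw [hmul] at h2
  exact h2

theorem P4b_apx : Apx S (P4b S (lN r, lN c)) (∑ i, lsc (n * m) (r i) (c j0)) (2 * (n * m)) := by
  obtain ⟨hD1, hD0⟩ := D_facts hS hm hn hDS hr hc hN hi0 hj0
  have h1 := n_le_D (n := n) hm
  have h3 := m_le_D (m := m) hn
  have hsq := S_sq_facts hS hDS
  unfold P4b
  simp only
  rw [DW_nat hS hm hn hDS, maxL_nat hS (by omega) c hc j0 hj0]
  have h2 := sumL_fin hS (k := m) (by omega) r (fun b => lFw S ((n * m : ℕ) : ℤ) b ((c j0 : ℕ) : ℤ))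
      (fun a => lsc (n * m) a (c j0)) 2 (fun i => lFw_apx hS hD1 hD0 (hr i) (hc j0)) (by omega)
  exact h2.mono hS (by omega)

theorem P4c_apx : Apx S (P4c S (lN r, lN c)) (∑ j, lsc (n * m) (r i0) (c j)) (2 * (n * m)) := by
  obtain ⟨hD1, hD0⟩ := D_facts hS hm hn hDS hr hc hN hi0 hj0
  have h1 := n_le_D (n := n) hm
  have h3 := m_le_D (m := m) hn
  have hsq := S_sq_facts hS hDS
  unfold P4c
  simp only
  rw [DW_nat hS hm hn hDS, maxL_nat hS (by omega) r hr i0 hi0]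
  have h2 := sumL_fin hS (k := n) (by omega) c (fun a => lFw S ((n * m : ℕ) : ℤ) ((r i0 : ℕ) : ℤ) a)
      (fun a => lsc (n * m) (r i0) a) 2 (fun j => lFw_apx hS hD1 hD0 (hr i0) (hc j)) (by omega)
  exact h2.mono hS (by omega)

theorem P4d_apx : Apx S (P4d S (lN r, lN c)) (lsc (n * m) (r i0) (c j0)) 2 := by
  obtain ⟨hD1, hD0⟩ := D_facts hS hm hn hDS hr hc hN hi0 hj0
  have h1 := n_le_D (n := n) hm
  have h3 := m_le_D (m := m) hn
  unfold P4d
  simp only
  rw [DW_nat hS hm hn hDS, maxL_nat hS (by omega) c hc j0 hj0, maxL_nat hS (by omega) r hr i0 hi0]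
  exact lFw_apx hS hD1 hD0 (hr i0) (hc j0)

theorem P4e_apx : Apx S (P4e S (lN r, lN c)) (∑ j, lss (n * m) (c j)) (2 * (n * m)) := by
  obtain ⟨hD1, hD0⟩ := D_facts hS hm hn hDS hr hc hN hi0 hj0
  have h1 := n_le_D (n := n) hm
  have hsq := S_sq_facts hS hDS
  unfold P4e
  simp only
  rw [DW_nat hS hm hn hDS]
  have h2 := sumL_fin hS (k := n) (by omega) c (fun a => lSw S ((n * m : ℕ) : ℤ) a)
      (fun a => lss (n * m) a) 2 (fun j => lSw_apx hS hD1 hD0 (hc j)) (by omega)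
  exact h2.mono hS (by omega)

theorem P4f_apx : Apx S (P4f S (lN r, lN c)) (lss (n * m) (c j0)) 2 := by
  obtain ⟨hD1, hD0⟩ := D_facts hS hm hn hDS hr hc hN hi0 hj0
  have h1 := n_le_D (n := n) hm
  unfold P4f
  simp only
  rw [DW_nat hS hm hn hDS, maxL_nat hS (by omega) c hc j0 hj0]
  exact lSw_apx hS hD1 hD0 (hc j0)

theorem P4g_apx : Apx S (P4g S (lN r, lN c)) (∑ i, lss (n * m) (r i)) (2 * (n * m)) := by
  obtain ⟨hD1, hD0⟩ := D_facts hS hm hn hDS hr hc hN hi0 hj0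
  have h3 := m_le_D (m := m) hn
  have hsq := S_sq_facts hS hDS
  unfold P4g
  simp only
  rw [DW_nat hS hm hn hDS]
  have h2 := sumL_fin hS (k := m) (by omega) r (fun a => lSw S ((n * m : ℕ) : ℤ) a)
      (fun a => lss (n * m) a) 2 (fun i => lSw_apx hS hD1 hD0 (hr i)) (by omega)
  exact h2.mono hS (by omega)

theorem P4_apx : Apx S (P4 S (lN r, lN c)) (t4 r c i0 j0) (2 * (n * m) + 2 * (n * m) + 2 * (n * m) + 2 + 2 * (n * m) + 2 + 2 * (n * m)) := by
  have hsq := S_sq_facts hS hDS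
  have ha := P4a_apx hS hm hn hDS hr hc hN hi0 hj0
  have hb := P4b_apx hS hm hn hDS hr hc hN hi0 hj0
  have hc' := P4c_apx hS hm hn hDS hr hc hN hi0 hj0
  have hd := P4d_apx hS hm hn hDS hr hc hN hi0 hj0
  have he := P4e_apx hS hm hn hDS hr hc hN hi0 hj0
  have hf := P4f_apx hS hm hn hDS hr hc hN hi0 hj0
  have hg := P4g_apx hS hm hn hDS hr hc hN hi0 hj0
  unfold P4 t4
  exact ((((((ha.sub hS hb (by omega)).sub hS hc' (by omega)).add hS hd (by omega)).add hS he (by omega)).sub hS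
    hf (by omega)).add hS hg (by omega))

theorem P5_apx : Apx S (P5 S (lN r, lN c)) (((n * m : ℕ) : ℝ) * Real.log ((4 * S ^ 4 : ℕ) : ℝ)) 1 := by
  obtain ⟨hD1, hD0⟩ := D_facts hS hm hn hDS hr hc hN hi0 hj0
  unfold P5
  rw [DW_nat hS hm hn hDS]
  exact D_log_apx hS hD1

/-- **The constant.** -/
theorem logCF_apx : Apx S (logCF S (lN r, lN c)) (logCtrue S r c i0 j0) (20 * (n * m + 1)) := by
  have hsq := S_sq_facts hS hDS
  have h1 := P1_apx hS hm hn hDS hr hc hN hi0 hj0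
  have h2 := P2_apx hS hm hn hDS hr hc hN hi0 hj0
  have h3 := P3_apx hS hm hn hDS hr hc hN hi0 hj0
  have h4 := P4_apx hS hm hn hDS hr hc hN hi0 hj0
  have h5 := P5_apx hS hm hn hDS hr hc hN hi0 hj0
  unfold logCF logCtrue
  exact (((h1.add hS h2 (by omega)).add hS h3 (by omega)).add hS (h4.add hS h5 (by omega)) (by omega)).mono hS
    (by omega)

end Spec

end Vale.Agent.Lib.P328.Bit.AnnealAux
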