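import Vale.Agent.Lib.P328.Bit.AnnealConst

/-!
# P328, bit model: the exponential of the constant of the estimate (part of module ANNEALF)
-/

namespace Vale.Agent.Lib.P328.Bit.AnnealAux

open Finset Vale.Agent.Lib.P328.Cap Vale.Agent.Lib.P328.Samp

variable {m n : ℕ}

theorem D_pos_real (hm : 0 < m) (hn : 0 < n) : (0 : ℝ) < (n : ℝ) * m := by positivity

/-- The exponential of the logarithm of `scF`. -/
theorem exp_lsc (hm : 0 < m) (hn : 0 < n) (r : Fin m → ℕ) (c : Fin n → ℕ) (j : Fin n) (i : Fin m) :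
    Real.exp (lsc (n * m) (r i) (c j)) = scF r c j i := by
  have hD := D_pos_real hm hn
  have h1 : (0 : ℝ) < ((min (r i) (c j) + 1 : ℕ) : ℝ) := by positivity
  have h2 : ((2 * (n * m) ^ 2 : ℕ) : ℝ) = 2 * ((n : ℝ) * m) ^ 2 := by push_cast; ring
  have h3 : (0 : ℝ) < ((2 * (n * m) ^ 2 : ℕ) : ℝ) := by
    rw [h2]
    positivity
  unfold lsc scF
  rw [Real.exp_sub, Real.exp_log h1, Real.exp_log h3, h2]
  congr 1
  push_cast
  rfl

/-- The exponential of the logarithm of `scS`. -/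
theorem exp_lss (hm : 0 < m) (hn : 0 < n) (x : ℕ) :
    Real.exp (lss (n * m) x) = scS m n x := by
  have hD := D_pos_real hm hn
  have h1 : (0 : ℝ) < 1 + Real.sqrt x := by
    have := Real.sqrt_nonneg (x : ℝ)
    linarith
  have h2 : ((16 * (n * m) ^ 2 : ℕ) : ℝ) = 16 * ((n : ℝ) * m) ^ 2 := by push_cast; ring
  have h3 : (0 : ℝ) < ((16 * (n * m) ^ 2 : ℕ) : ℝ) := by
    rw [h2]
    positivity
  unfold lss scS
  rw [Real.exp_sub, Real.exp_log h1, Real.exp_log h3, h2]

/-- The exponential of the logarithm of `detT`. -/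
theorem exp_t4 (hm : 0 < m) (hn : 0 < n) (r : Fin m → ℕ) (c : Fin n → ℕ) (i0 : Fin m) (j0 : Fin n) :
    Real.exp (t4 r c i0 j0) = detT i0 j0 r c := by
  have e1 : t4 r c i0 j0 = (∑ j ∈ univ.erase j0, ∑ i ∈ univ.erase i0, lsc (n * m) (r i) (c j))
      + (∑ j ∈ univ.erase j0, lss (n * m) (c j)) + ∑ i, lss (n * m) (r i) := by
    have h1 : ∀ j, ∑ i ∈ univ.erase i0, lsc (n * m) (r i) (c j)
        = (∑ i, lsc (n * m) (r i) (c j)) - lsc (n * m) (r i0) (c j) := fun j =>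
      Finset.sum_erase_eq_sub (mem_univ i0)
    have h2 : ∑ j ∈ univ.erase j0, ∑ i ∈ univ.erase i0, lsc (n * m) (r i) (c j)
        = (∑ j, ∑ i, lsc (n * m) (r i) (c j)) - (∑ i, lsc (n * m) (r i) (c j0))
          - (∑ j, lsc (n * m) (r i0) (c j)) + lsc (n * m) (r i0) (c j0) := by
      rw [Finset.sum_erase_eq_sub (mem_univ j0)]
      simp only [h1]
      rw [Finset.sum_sub_distrib]
      ring
    have h3 : ∑ j ∈ univ.erase j0, lss (n * m) (c j) = (∑ j, lss (n * m) (c j)) - lss (n * m) (c j0) :=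
      Finset.sum_erase_eq_sub (mem_univ j0)
    rw [h2, h3]
    unfold t4
    ring
  rw [e1, Real.exp_add, Real.exp_add, Real.exp_sum, Real.exp_sum, Real.exp_sum]
  unfold detT
  congr 1
  · congr 1
    · refine Finset.prod_congr rfl fun j _ => ?_
      rw [Real.exp_sum]
      exact Finset.prod_congr rfl fun i _ => exp_lsc hm hn r c j i
    · exact Finset.prod_congr rfl fun j _ => exp_lss hm hn (c j)
  · exact Finset.prod_congr rfl fun i _ => exp_lss hm hn (r i)

/-- The exponential of the logarithm of `betaC`. -/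
theorem exp_beta (hn : 0 < n) (c : Fin n → ℕ) (hc : ∀ j, 0 < c j) :
    Real.exp ((∑ j, ((c j : ℝ) * Real.log (c j) - Real.log ((c j).factorial : ℝ)))
      + (Real.log ((∑ j, c j).factorial : ℝ) - ((∑ j, c j : ℕ) : ℝ) * Real.log ((∑ j, c j : ℕ) : ℝ)))
      = betaC c := by
  have hN : 0 < ∑ j, c j := by
    have h1 : c ⟨0, hn⟩ ≤ ∑ j, c j := Finset.single_le_sum (fun _ _ => Nat.zero_le _) (mem_univ _)
    have := hc ⟨0, hn⟩
    omega
  have hNr : (0 : ℝ) < ((∑ j, c j : ℕ) : ℝ) := by exact_mod_cast hN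
  have hfac : ∀ k : ℕ, (0 : ℝ) < (k.factorial : ℝ) := fun k => by exact_mod_cast Nat.factorial_pos k
  have hpow : ∀ {x : ℝ} (k : ℕ), 0 < x → Real.exp ((k : ℝ) * Real.log x) = x ^ k := by
    intro x k hx
    rw [mul_comm, Real.exp_mul, Real.exp_log hx, Real.rpow_natCast]
  unfold betaC
  rw [Real.exp_add, Real.exp_sum, Real.exp_sub, Real.exp_log (hfac _), hpow _ hNr, mul_comm]
  congr 1
  refine Finset.prod_congr rfl fun j _ => ?_
  have hcj : (0 : ℝ) < (c j : ℝ) := by exact_mod_cast hc j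
  rw [Real.exp_sub, Real.exp_log (hfac _), hpow _ hcj]

/-- The exponential of the constant. -/
theorem exp_logCtrue {S : ℕ} (hS : 1000000 ≤ S) (hm : 0 < m) (hn : 0 < n) (r : Fin m → ℕ) (c : Fin n → ℕ)
    (i0 : Fin m) (j0 : Fin n) (hc : ∀ j, 0 < c j) :
    Real.exp (logCtrue S r c i0 j0) = betaC c * Real.exp (-phiMin r) * detT i0 j0 r c
      * (4 * (S : ℝ) ^ 4) ^ (n * m) / ∏ i, ((r i).factorial : ℝ) := by
  have hfac : ∀ k : ℕ, (0 : ℝ) < (k.factorial : ℝ) := fun k => by exact_mod_cast Nat.factorial_pos k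
  have hS0 : (0 : ℝ) < (S : ℝ) := by
    have : 0 < S := by omega
    exact_mod_cast this
  have h3 : (∑ i, ((r i : ℝ) * Real.log (r i) - (r i : ℝ) - Real.log ((r i).factorial : ℝ)))
      = -phiMin r - ∑ i, Real.log ((r i).factorial : ℝ) := by
    unfold phiMin
    rw [← Finset.sum_neg_distrib, ← Finset.sum_sub_distrib]
    refine Finset.sum_congr rfl fun i _ => ?_
    ring
  have h4 : Real.exp (∑ i, Real.log ((r i).factorial : ℝ)) = ∏ i, ((r i).factorial : ℝ) := by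
    rw [Real.exp_sum]
    exact Finset.prod_congr rfl fun i _ => Real.exp_log (hfac _)
  have h5 : Real.exp (((n * m : ℕ) : ℝ) * Real.log ((4 * S ^ 4 : ℕ) : ℝ)) = (4 * (S : ℝ) ^ 4) ^ (n * m) := by
    have h6 : ((4 * S ^ 4 : ℕ) : ℝ) = 4 * (S : ℝ) ^ 4 := by push_cast; ring
    rw [h6, mul_comm, Real.exp_mul, Real.exp_log (by positivity), Real.rpow_natCast]
  unfold logCtrue
  rw [h3, Real.exp_add, Real.exp_add, exp_beta hn c hc, Real.exp_sub, h4, Real.exp_add, exp_t4 hm hn, h5]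
  ring

end Vale.Agent.Lib.P328.Bit.AnnealAux
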