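import Mathlib

/-!
# P328, bit model: independent samples in a loop (part of module ANNEALF)

`runLaw`: the law of a state updated `T` times with independent samples, where the law of the sample and the
update may depend on the round. `piP`: the law of the array of samples, with the product formula `piP_apply`.
`runLaw_eq_map`: the state is a function of the array of samples.
-/

namespace Vale.Agent.Lib.P328.Bit.AnnealAux

variable {A σ : Type}

/-- The law of the array of the samples of the first `T` rounds. -/
noncomputable def piP (μ : ℕ → PMF A) : (T : ℕ) → PMF (Fin T → A)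
  | 0 => PMF.pure Fin.elim0
  | T + 1 => (piP μ T).bind fun ω => (μ T).bind fun a => PMF.pure (Fin.snoc (α := fun _ => A) ω a)

/-- The law of the state after `T` rounds. -/
noncomputable def runLaw (μ : ℕ → PMF A) (u : ℕ → σ → A → σ) (s0 : σ) : ℕ → PMF σ
  | 0 => PMF.pure s0
  | T + 1 => (runLaw μ u s0 T).bind fun s => (μ T).bind fun a => PMF.pure (u T s a)

/-- The state after `T` rounds as a function of the samples. -/
def foldU (u : ℕ → σ → A → σ) (s0 : σ) : (T : ℕ) → (Fin T → A) → σ
  | 0, _ => s0
  | T + 1, ω => u T (foldU u s0 T (Fin.init ω)) (ω (Fin.last T))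

theorem foldU_snoc (u : ℕ → σ → A → σ) (s0 : σ) (T : ℕ) (ω : Fin T → A) (a : A) :
    foldU u s0 (T + 1) (Fin.snoc (α := fun _ => A) ω a) = u T (foldU u s0 T ω) a := by
  show u T (foldU u s0 T (Fin.init (Fin.snoc (α := fun _ => A) ω a)))
    ((Fin.snoc (α := fun _ => A) ω a) (Fin.last T)) = _
  rw [Fin.init_snoc, Fin.snoc_last]

theorem runLaw_eq_map (μ : ℕ → PMF A) (u : ℕ → σ → A → σ) (s0 : σ) (T : ℕ) :
    runLaw μ u s0 T = (piP μ T).map (foldU u s0 T) := by
  induction T with
  | zero =>
    show PMF.pure s0 = (PMF.pure Fin.elim0).map _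
    rw [PMF.pure_map]
    rfl
  | succ T ih =>
    show (runLaw μ u s0 T).bind _ = ((piP μ T).bind _).map _
    rw [ih]
    unfold PMF.map
    rw [PMF.bind_bind, PMF.bind_bind]
    refine congrArg _ (funext fun ω => ?_)
    simp only [Function.comp, PMF.pure_bind, PMF.bind_bind]
    refine congrArg _ (funext fun a => ?_)
    rw [foldU_snoc]

theorem piP_apply (μ : ℕ → PMF A) (T : ℕ) (ω : Fin T → A) :
    piP μ T ω = ∏ t : Fin T, μ t (ω t) := by
  classical
  induction T with
  | zero =>
    have h : ω = Fin.elim0 := Subsingleton.elim _ _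
    subst h
    show (PMF.pure Fin.elim0) _ = _
    simp [PMF.pure_apply]
  | succ T ih =>
    show ((piP μ T).bind _) ω = _
    rw [PMF.bind_apply, tsum_eq_single (Fin.init ω)]
    · rw [PMF.bind_apply, tsum_eq_single (ω (Fin.last T))]
      · rw [PMF.pure_apply, if_pos (Fin.snoc_init_self ω).symm, mul_one, ih,
          Fin.prod_univ_castSucc]
        rfl
      · intro a ha
        rw [PMF.pure_apply, if_neg, mul_zero]
        intro h
        apply ha
        rw [h, Fin.snoc_last]
    · intro ω' hω'
      have h0 : ((μ T).bind fun a => PMF.pure (Fin.snoc (α := fun _ => A) ω' a)) ω = 0 := by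
        rw [PMF.bind_apply]
        refine ENNReal.tsum_eq_zero.2 fun a => ?_
        rw [PMF.pure_apply, if_neg, mul_zero]
        intro h
        apply hω'
        rw [h, Fin.init_snoc]
      rw [h0, mul_zero]

/-- The law of a loop in which the update does not change the law of the sample. -/
theorem iterate_eq_runLaw (μ : PMF A) (u : σ → A → σ) (s0 : σ) (T : ℕ) :
    (fun ν : PMF σ => ν.bind fun s => μ.bind fun a => PMF.pure (u s a))^[T] (PMF.pure s0)
      = runLaw (fun _ => μ) (fun _ => u) s0 T := by
  induction T with
  | zero => rfl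
  | succ T ih =>
    rw [Function.iterate_succ_apply', ih]
    rfl

/-- Integer sums in a loop: the state is the sum of the samples when the update is the addition. -/
theorem foldU_add (h : ℕ → A → ℤ) (T : ℕ) (ω : Fin T → A) :
    foldU (fun t (s : ℤ) a => s + h t a) 0 T ω = ∑ t : Fin T, h t (ω t) := by
  induction T with
  | zero => rfl
  | succ T ih =>
    show foldU _ 0 T (Fin.init ω) + h T (ω (Fin.last T)) = _
    rw [ih, Fin.sum_univ_castSucc]
    rfl

end Vale.Agent.Lib.P328.Bit.AnnealAux
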