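import Vale.Agent.Lib.P328.Bit.AnnealExp

/-!
# P328, bit model: one sample and the average of samples in fixed point (part of module ANNEALF)
-/

namespace Vale.Agent.Lib.P328.Bit.AnnealAux

variable {S : ℕ}

/-- The tiny error of the exponential. -/
noncomputable def etaF (S : ℕ) : ℝ := (1 / 2 : ℝ) ^ (S ^ 5 / 2)

theorem eta_pos : 0 < etaF S := by
  unfold etaF
  positivity

/-- Division by a positive natural number changes the value by at most one unit. -/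
theorem val_ediv_close (w : ℤ) (K : ℕ) (hK : 0 < K) : |val S (w / (K : ℤ)) - val S w / K| ≤ ulp S := by
  have hK' : (0 : ℤ) < (K : ℤ) := by exact_mod_cast hK
  have h1 : w / (K : ℤ) * K ≤ w := Int.ediv_mul_le _ hK'.ne'
  have h2 : w < (w / (K : ℤ) + 1) * K := Int.lt_ediv_add_one_mul_self _ hK'
  obtain ⟨q, hq⟩ : ∃ q : ℤ, q = w / (K : ℤ) := ⟨_, rfl⟩
  rw [← hq] at h1 h2 ⊢
  have hKr : (0 : ℝ) < (K : ℝ) := by exact_mod_cast hK
  have h3 : (q : ℝ) * K ≤ (w : ℝ) := by exact_mod_cast h1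
  have h4 : (w : ℝ) < ((q : ℝ) + 1) * K := by exact_mod_cast h2
  have hP : (0 : ℝ) < 2 ^ prec S := by positivity
  unfold val ulp
  have h5 : (q : ℝ) / 2 ^ prec S - (w : ℝ) / 2 ^ prec S / K = ((q : ℝ) * K - w) / (K * 2 ^ prec S) := by
    field_simp
  rw [h5, abs_le]
  constructor
  · rw [le_div_iff₀ (by positivity)]
    have h6 : -(1 / 2 ^ prec S) * ((K : ℝ) * 2 ^ prec S) = -(K : ℝ) := by
      field_simp
    rw [h6]
    linarith
  · rw [div_le_iff₀ (by positivity)]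
    have h6 : 1 / 2 ^ prec S * ((K : ℝ) * 2 ^ prec S) = (K : ℝ) := by
      field_simp
    rw [h6]
    nlinarith

section

variable (hS : 1000000 ≤ S)

include hS

/-- Division by a power of the parameter. -/
theorem cdiv_pow_eq {w : ℤ} (hw : |w| ≤ 2 ^ wid S) {e : ℕ} (he : e ≤ 10000) :
    cdiv S w (clamp S ((S : ℤ) ^ e)) = w / ((S ^ e : ℕ) : ℤ) := by
  have h1 := spow_eq hS he
  have h2 : (S : ℤ) ^ e = ((S ^ e : ℕ) : ℤ) := by push_cast; ring
  have hpos : (0 : ℤ) < ((S ^ e : ℕ) : ℤ) := by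
    have : 0 < S ^ e := Nat.pow_pos (by omega)
    exact_mod_cast this
  have h3 : |w / ((S ^ e : ℕ) : ℤ)| ≤ 2 ^ wid S := (Int.abs_ediv_le_abs _ _).trans hw
  unfold cdiv
  rw [h1, h1, clamp_eq hS hw, h2, clamp_eq hS h3]

omit hS in
theorem ulp_le_eta : ulp S ≤ etaF S := by
  unfold ulp etaF prec
  rw [one_div, ← inv_pow, ← one_div]
  exact pow_le_pow_of_le_one (by norm_num) (by norm_num) (Nat.div_le_self _ _)

omit hS in
theorem eta_le_tau : etaF S ≤ tauF S := by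
  unfold etaF tauF
  refine pow_le_pow_of_le_one (by norm_num) (by norm_num) ?_
  exact Nat.div_le_div_left (by norm_num) (by norm_num)

theorem val_neg_eq {q : ℤ} (h : |q| ≤ 2 ^ wid S) : csub S 0 q = -q ∧ val S (-q) = -val S q := by
  have h0 : clamp S 0 = 0 := clamp_eq hS (by simp)
  have h1 : clamp S (-q) = -q := clamp_eq hS (by rwa [abs_neg])
  constructor
  · unfold csub
    rw [h0, clamp_eq hS h, zero_sub, h1]
  · unfold val
    push_cast
    ring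

/-- The value of a sample. -/
theorem sample_close {ψ : ℤ} (hg0 : -1 ≤ val S ψ) (hg1 : val S ψ ≤ (S : ℝ) ^ 32) :
    |val S (fexp S (csub S 0 (cdiv S ψ (clamp S ((S : ℤ) ^ 34)))))
        - Real.exp (-(val S ψ) / (S : ℝ) ^ 34)| ≤ 7 * etaF S := by
  have hSr := S_pos_real hS
  have hS1 : (1 : ℝ) ≤ S := by linarith
  have hS0 : (0 : ℝ) < S := by linarith
  have hK : 0 < S ^ 34 := Nat.pow_pos (by omega)
  have hKr : ((S ^ 34 : ℕ) : ℝ) = (S : ℝ) ^ 34 := by push_cast; ring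
  have hKp : (0 : ℝ) < (S : ℝ) ^ 34 := by positivity
  have hBig : (S : ℝ) ^ 32 + 1 ≤ Big S := by
    have h1 : (S : ℝ) ^ 32 ≤ (2 ^ S) ^ 32 := pow_le_pow_left₀ hS0.le (nat_lt_two S).le 32
    have h2 : ((2 : ℝ) ^ S) ^ 32 = 2 ^ (S * 32) := (pow_mul _ _ _).symm
    have h3 : (2 : ℝ) ^ (S * 32 + 1) ≤ 2 ^ (S ^ 4) := pow_le_pow_right₀ (by norm_num) (by
      have h4 : S ^ 4 = S * S ^ 3 := by ring
      rw [h4]
      have h5 : S ≤ S ^ 3 := Nat.le_self_pow (by norm_num) S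
      have h6 : S * 33 ≤ S * S ^ 3 := Nat.mul_le_mul_left _ (by omega)
      omega)
    rw [pow_succ] at h3
    have h7 : (1 : ℝ) ≤ 2 ^ (S * 32) := one_le_pow₀ (by norm_num)
    unfold Big
    linarith
  have hψBig : |val S ψ| ≤ Big S := by
    rw [abs_le]
    have h0 : (0 : ℝ) ≤ (S : ℝ) ^ 32 := by positivity
    constructor <;> linarith
  have hψw : |ψ| ≤ 2 ^ wid S := by
    obtain ⟨h1, h2, h3⟩ := pow_facts hS
    refine (abs_le_of_val hψBig).trans (pow_le_pow_right₀ (by norm_num) ?_)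
    unfold wid
    omega
  rw [cdiv_pow_eq hS hψw (by norm_num)]
  obtain ⟨q, hq⟩ : ∃ q : ℤ, q = ψ / ((S ^ 34 : ℕ) : ℤ) := ⟨_, rfl⟩
  rw [← hq]
  have hqw : |q| ≤ 2 ^ wid S := by
    rw [hq]
    exact (Int.abs_ediv_le_abs _ _).trans hψw
  obtain ⟨hneg, hneg2⟩ := val_neg_eq hS hqw
  rw [hneg]
  have hclose := val_ediv_close (S := S) ψ (S ^ 34) hK
  rw [← hq, hKr] at hclose
  have hul : ulp S ≤ etaF S := ulp_le_eta
  have hu1 : ulp S ≤ 1 / 2 := by
    unfold ulp prec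
    rw [one_div, ← inv_pow, ← one_div]
    calc (1 / 2 : ℝ) ^ (S ^ 5) ≤ (1 / 2 : ℝ) ^ 1 :=
          pow_le_pow_of_le_one (by norm_num) (by norm_num) (Nat.one_le_pow _ _ (by omega))
      _ = 1 / 2 := by norm_num
  have hg2 : val S ψ / (S : ℝ) ^ 34 ≤ 1 / 4 := by
    rw [div_le_iff₀ hKp]
    have h3 : (S : ℝ) ^ 34 = (S : ℝ) ^ 32 * (S : ℝ) ^ 2 := by ring
    have h4 : (4 : ℝ) ≤ (S : ℝ) ^ 2 := by nlinarith
    have h5 : (0 : ℝ) ≤ (S : ℝ) ^ 32 := by positivity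
    nlinarith
  have hg3 : -(1 / 4) ≤ val S ψ / (S : ℝ) ^ 34 := by
    rw [le_div_iff₀ hKp]
    have h3 : (S : ℝ) ≤ (S : ℝ) ^ 34 := le_self_pow₀ hS1 (by norm_num)
    linarith
  have hc' := abs_le.1 hclose
  have hq1 : |val S q| ≤ 1 := by
    rw [abs_le]
    constructor <;> linarith [hc'.1, hc'.2]
  have hvq : |val S (-q)| ≤ (S : ℝ) ^ 3 := by
    rw [hneg2, abs_neg]
    have h3 : (1 : ℝ) ≤ (S : ℝ) ^ 3 := one_le_pow₀ hS1
    linarith
  have hf := fexp_spec hS hvq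
  have h5 : etaF S = (1 / 2 : ℝ) ^ (S ^ 5 / 2) := rfl
  rw [← h5, hneg2] at hf
  have hexp : |Real.exp (-val S q) - Real.exp (-val S ψ / (S : ℝ) ^ 34)| ≤ 6 * ulp S := by
    have h6 : -val S q = -val S ψ / (S : ℝ) ^ 34 + (val S ψ / (S : ℝ) ^ 34 - val S q) := by ring
    rw [h6, Real.exp_add]
    have h7 : Real.exp (-val S ψ / (S : ℝ) ^ 34) * Real.exp (val S ψ / (S : ℝ) ^ 34 - val S q)
        - Real.exp (-val S ψ / (S : ℝ) ^ 34)
        = Real.exp (-val S ψ / (S : ℝ) ^ 34) * (Real.exp (val S ψ / (S : ℝ) ^ 34 - val S q) - 1) := by ring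
    rw [h7, abs_mul, abs_of_pos (Real.exp_pos _)]
    have h8 : |val S ψ / (S : ℝ) ^ 34 - val S q| ≤ ulp S := by
      rw [abs_sub_comm]
      exact hclose
    have h9 : |val S ψ / (S : ℝ) ^ 34 - val S q| ≤ 1 := by linarith
    have h10 := Real.abs_exp_sub_one_le h9
    have h11 : Real.exp (-val S ψ / (S : ℝ) ^ 34) ≤ 3 := by
      have h12 : -val S ψ / (S : ℝ) ^ 34 ≤ 1 := by
        have : -val S ψ / (S : ℝ) ^ 34 = -(val S ψ / (S : ℝ) ^ 34) := by ring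
        rw [this]
        linarith
      have h13 : Real.exp (-val S ψ / (S : ℝ) ^ 34) ≤ Real.exp 1 := Real.exp_le_exp.2 h12
      have h14 := Real.exp_one_lt_d9
      linarith
    calc _ ≤ 3 * (2 * ulp S) := mul_le_mul h11 (h10.trans (by linarith)) (abs_nonneg _) (by norm_num)
      _ = 6 * ulp S := by ring
  have h15 := abs_sub_le (val S (fexp S (-q))) (Real.exp (-val S q)) (Real.exp (-val S ψ / (S : ℝ) ^ 34))
  linarith

/-- The bounds for a value close to an exponential: `E` in `[3/4, 2]` -/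
theorem exp_bounds {g : ℝ} (hg0 : -1 ≤ g) (hg1 : g ≤ (S : ℝ) ^ 32) :
    3 / 4 ≤ Real.exp (-g / (S : ℝ) ^ 34) ∧ Real.exp (-g / (S : ℝ) ^ 34) ≤ 2 := by
  have hSr := S_pos_real hS
  have hS1 : (1 : ℝ) ≤ S := by linarith
  have hKp : (0 : ℝ) < (S : ℝ) ^ 34 := by positivity
  have h1 : -(1 / 4 : ℝ) ≤ -g / (S : ℝ) ^ 34 := by
    rw [le_div_iff₀ hKp]
    have h3 : (S : ℝ) ^ 34 = (S : ℝ) ^ 32 * (S : ℝ) ^ 2 := by ring
    have h4 : (4 : ℝ) ≤ (S : ℝ) ^ 2 := by nlinarith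
    have h5 : (0 : ℝ) ≤ (S : ℝ) ^ 32 := by positivity
    nlinarith
  have h2 : -g / (S : ℝ) ^ 34 ≤ 1 / 2 := by
    rw [div_le_iff₀ hKp]
    have h3 : (S : ℝ) ≤ (S : ℝ) ^ 34 := le_self_pow₀ hS1 (by norm_num)
    linarith
  constructor
  · have h3 := Real.add_one_le_exp (-g / (S : ℝ) ^ 34)
    linarith
  · have h3 : Real.exp (-g / (S : ℝ) ^ 34) ≤ Real.exp (1 / 2) := Real.exp_le_exp.2 h2
    have h4 : Real.exp (1 / 2) ≤ 2 := by
      have h5 : Real.exp (1 / 2) ^ 2 = Real.exp 1 := by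
        rw [← Real.exp_nat_mul]
        norm_num
      have h6 := Real.exp_one_lt_d9
      have h7 := Real.exp_pos (1 / 2)
      nlinarith
    linarith

omit hS in
/-- A word of value at most `3` in absolute value has few bits. -/
theorem word_le_of_val {w : ℤ} (h : |val S w| ≤ 3) : |w| ≤ 3 * 2 ^ (S ^ 5) := by
  have hP : (0 : ℝ) < 2 ^ prec S := by positivity
  unfold val at h
  rw [abs_div, abs_of_pos hP, div_le_iff₀ hP] at h
  unfold prec at h
  have h1 : ((|w| : ℤ) : ℝ) ≤ ((3 * 2 ^ (S ^ 5) : ℤ) : ℝ) := by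
    push_cast
    exact h
  exact_mod_cast h1

/-- Sums of many words of value at most `3`. -/
theorem word_count_le {T : ℕ} (hT : T ≤ S ^ 76) : (T : ℤ) * (3 * 2 ^ (S ^ 5)) ≤ 2 ^ wid S := by
  have h1 : S < 2 ^ S := Nat.lt_two_pow_self
  have h2 : T ≤ (2 ^ S) ^ 76 := hT.trans (Nat.pow_le_pow_left h1.le 76)
  have h3 : (2 ^ S) ^ 76 = 2 ^ (S * 76) := (pow_mul 2 S 76).symm
  have h4 : (T : ℤ) ≤ 2 ^ (S * 76) := by
    rw [h3] at h2
    exact_mod_cast h2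
  have h5 : (3 : ℤ) ≤ 2 ^ 2 := by norm_num
  have h6 : (T : ℤ) * (3 * 2 ^ (S ^ 5)) ≤ 2 ^ (S * 76) * (2 ^ 2 * 2 ^ (S ^ 5)) :=
    mul_le_mul h4 (mul_le_mul_of_nonneg_right h5 (by positivity)) (by positivity) (by positivity)
  refine h6.trans ?_
  rw [← pow_add, ← pow_add]
  refine pow_le_pow_right₀ (by norm_num) ?_
  unfold wid
  have h7 : S ^ 6 = S * S ^ 5 := by ring
  have h8 : 2 * S ^ 5 ≤ S * S ^ 5 := Nat.mul_le_mul_right _ (by omega)
  have h9 : S * 78 ≤ S * S ^ 4 := Nat.mul_le_mul_left _ (by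
    have h10 : S ≤ S ^ 4 := Nat.le_self_pow (by norm_num) S
    omega)
  have h11 : S * S ^ 4 = S ^ 5 := by ring
  omega

/-- The tiny error against a power of the parameter. -/
theorem tau_le_pow : tauF S ≤ 1 / (S : ℝ) ^ 100 := by
  have hSr := S_pos_real hS
  have hS0 : (0 : ℝ) < (S : ℝ) := by linarith
  have h1 : (S : ℝ) ^ 100 ≤ (2 : ℝ) ^ (100 * S) := by
    rw [mul_comm, pow_mul]
    exact pow_le_pow_left₀ hS0.le (nat_lt_two S).le 100
  have h2 : 100 * S ≤ S ^ 5 / 4 := by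
    rw [Nat.le_div_iff_mul_le (by norm_num)]
    have h3 : S ^ 5 = S * S ^ 4 := by ring
    rw [h3]
    have h4 : S ≤ S ^ 4 := Nat.le_self_pow (by norm_num) S
    calc 100 * S * 4 = S * 400 := by ring
      _ ≤ S * S ^ 4 := Nat.mul_le_mul_left _ (by omega)
  rw [le_div_iff₀ (by positivity)]
  have h5 : tauF S * (2 : ℝ) ^ (100 * S) ≤ 1 := by
    unfold tauF
    have h7 : (2 : ℝ) ^ (100 * S) ≤ (2 : ℝ) ^ (S ^ 5 / 4) := pow_le_pow_right₀ (by norm_num) h2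
    have h8 : (1 / 2 : ℝ) ^ (S ^ 5 / 4) * (2 : ℝ) ^ (S ^ 5 / 4) = 1 := by
      rw [← mul_pow]
      norm_num
    have h9 : (0 : ℝ) ≤ (1 / 2 : ℝ) ^ (S ^ 5 / 4) := by positivity
    calc _ ≤ (1 / 2 : ℝ) ^ (S ^ 5 / 4) * (2 : ℝ) ^ (S ^ 5 / 4) := mul_le_mul_of_nonneg_left h7 h9
      _ = 1 := h8
  have h10 : (0 : ℝ) ≤ tauF S := tau_pos.le
  calc _ ≤ tauF S * (2 : ℝ) ^ (100 * S) := mul_le_mul_of_nonneg_left h1 h10
    _ ≤ 1 := h5

/-- The logarithm of the average of many samples. -/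
theorem level_close (X : Fin (S ^ 76) → ℤ) (E : Fin (S ^ 76) → ℝ) (hE : ∀ t, 3 / 4 ≤ E t ∧ E t ≤ 2)
    (hX : ∀ t, |val S (X t) - E t| ≤ 7 * etaF S) :
    |val S (flog S (cdiv S (∑ t, X t) (clamp S ((S : ℤ) ^ 76))))
        - Real.log (((S ^ 76 : ℕ) : ℝ)⁻¹ * ∑ t, E t)| ≤ 17 * tauF S
    ∧ |val S (flog S (cdiv S (∑ t, X t) (clamp S ((S : ℤ) ^ 76))))| ≤ 3 := by
  have hτ := tau_le_pow hS
  have hSr := S_pos_real hS
  have hS1 : (1 : ℝ) ≤ S := by linarith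
  have hτ0 : 0 < tauF S := tau_pos
  have hτsmall : tauF S ≤ 1 / 1000 := by
    refine hτ.trans ?_
    rw [div_le_div_iff₀ (by positivity) (by norm_num), one_mul, one_mul]
    have h1 : (S : ℝ) ≤ (S : ℝ) ^ 100 := le_self_pow₀ hS1 (by norm_num)
    linarith
  have hη : etaF S ≤ tauF S := eta_le_tau
  have hη0 : 0 < etaF S := eta_pos
  have hul : ulp S ≤ etaF S := ulp_le_eta
  have hT : 0 < S ^ 76 := Nat.pow_pos (by omega)
  have hTr : (0 : ℝ) < ((S ^ 76 : ℕ) : ℝ) := by exact_mod_cast hT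
  have hXs : ∀ t, |val S (X t)| ≤ 3 := by
    intro t
    have h1 := abs_le.1 (hX t)
    obtain ⟨h2, h3⟩ := hE t
    rw [abs_le]
    constructor <;> linarith [h1.1, h1.2]
  have hXw : ∀ t, |X t| ≤ 3 * 2 ^ (S ^ 5) := fun t => word_le_of_val (hXs t)
  have hsum : |∑ t, X t| ≤ 2 ^ wid S := by
    refine (Finset.abs_sum_le_sum_abs _ _).trans ?_
    refine (Finset.sum_le_card_nsmul _ _ (3 * 2 ^ (S ^ 5)) fun t _ => hXw t).trans ?_
    have := word_count_le hS (T := S ^ 76) le_rfl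
    simpa using this
  rw [cdiv_pow_eq hS hsum (by norm_num)]
  obtain ⟨A, hA⟩ : ∃ A : ℤ, A = (∑ t, X t) / ((S ^ 76 : ℕ) : ℤ) := ⟨_, rfl⟩
  rw [← hA]
  have h1 := val_ediv_close (S := S) (∑ t, X t) (S ^ 76) hT
  rw [← hA] at h1
  have hvsum : val S (∑ t, X t) = ∑ t, val S (X t) := by
    unfold val
    push_cast
    rw [Finset.sum_div]
  have hcard : ∑ _t : Fin (S ^ 76), (1 : ℝ) = ((S ^ 76 : ℕ) : ℝ) := by
    simp
  obtain ⟨Ab, hAb⟩ : ∃ Ab : ℝ, Ab = ((S ^ 76 : ℕ) : ℝ)⁻¹ * ∑ t, E t := ⟨_, rfl⟩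
  rw [← hAb]
  have hAb0 : 3 / 4 ≤ Ab := by
    rw [hAb, inv_mul_eq_div, le_div_iff₀ hTr, ← hcard, Finset.mul_sum]
    refine Finset.sum_le_sum fun t _ => ?_
    have := (hE t).1
    linarith
  have hAb1 : Ab ≤ 2 := by
    rw [hAb, inv_mul_eq_div, div_le_iff₀ hTr, ← hcard, Finset.mul_sum]
    refine Finset.sum_le_sum fun t _ => ?_
    have := (hE t).2
    linarith
  have h2 : |val S (∑ t, X t) / ((S ^ 76 : ℕ) : ℝ) - Ab| ≤ 7 * etaF S := by
    have h3 : val S (∑ t, X t) / ((S ^ 76 : ℕ) : ℝ) - Ab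
        = (∑ t, (val S (X t) - E t)) / ((S ^ 76 : ℕ) : ℝ) := by
      rw [hAb, hvsum, Finset.sum_sub_distrib, inv_mul_eq_div]
      ring
    rw [h3, abs_div, abs_of_pos hTr, div_le_iff₀ hTr]
    refine (Finset.abs_sum_le_sum_abs _ _).trans ?_
    refine (Finset.sum_le_card_nsmul _ _ (7 * etaF S) fun t _ => hX t).trans ?_
    simp only [Finset.card_univ, Fintype.card_fin, nsmul_eq_mul]
    exact le_of_eq (mul_comm _ _)
  have h4 : |val S A - Ab| ≤ 8 * etaF S := by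
    have h5 := abs_sub_le (val S A) (val S (∑ t, X t) / ((S ^ 76 : ℕ) : ℝ)) Ab
    linarith
  have h4' := abs_le.1 h4
  have hA0 : 1 / 2 ≤ val S A := by linarith [h4'.1]
  have hA1 : val S A ≤ 3 := by linarith [h4'.2]
  have hfl := flog_spec (x := A) hS (by
    have : (1 / 2 : ℝ) ^ (S ^ 3) ≤ (1 / 2) ^ 1 :=
      pow_le_pow_of_le_one (by norm_num) (by norm_num) (Nat.one_le_pow _ _ (by omega))
    linarith) (by
    have h6 : (2 : ℝ) ^ 2 ≤ 2 ^ (S ^ 3) := pow_le_pow_right₀ (by norm_num) (by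
      have h7 : S ≤ S ^ 3 := Nat.le_self_pow (by norm_num) S
      omega)
    linarith)
  have hτs : (1 / 2 : ℝ) ^ (S ^ 5 / 4) = tauF S := rfl
  rw [hτs] at hfl
  have hlip := log_lip hA0 (show 1 / 2 ≤ Ab by linarith)
  have hmain : |val S (flog S A) - Real.log Ab| ≤ 17 * tauF S := by
    have h8 := abs_sub_le (val S (flog S A)) (Real.log (val S A)) (Real.log Ab)
    linarith
  refine ⟨hmain, ?_⟩
  have hlog : |Real.log Ab| ≤ 1 := by
    rw [abs_le]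
    constructor
    · have h9 := Real.one_sub_inv_le_log_of_pos (show 0 < Ab by linarith)
      have h10 : Ab⁻¹ ≤ 4 / 3 := by
        rw [inv_le_comm₀ (by linarith) (by norm_num)]
        norm_num
        linarith
      linarith
    · have h9 := Real.log_le_sub_one_of_pos (show 0 < Ab by linarith)
      linarith
  have h11 := abs_le.1 hmain
  have h12 := abs_le.1 hlog
  rw [abs_le]
  constructor <;> linarith [h11.1, h11.2, h12.1, h12.2]

end

end Vale.Agent.Lib.P328.Bit.AnnealAux
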