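import Vale.Agent.Lib.P328.Bit.FExp

/-!
# P328, bit model: random bits and coins with computed probabilities (module COIN)

`bitsF S`: the `S ^ 2` fair bits as a number (`Rep.bits 2`), uniform on `0, …, 2 ^ (S ^ 2) - 1`: no saturation since `2 ^ (S ^ 2) ≤ 2 ^ wid S`. Induction on the number of rounds: after `k` rounds uniform on `0, …, 2 ^ k - 1`.

`coinF S w`: draw `U = bitsF S`; output `1` iff `U * 2 ^ (prec S - S ^ 2) < w`, else `0`. So the probability is `⌈w / 2 ^ (prec - S^2)⌉ / 2 ^ (S^2)`, clipped to `[0, 1]`.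

`coinExpF S L`: a coin with probability `min 1 (exp (val L))`: if `0 ≤ L`: one. If `val L < -S ^ 3`: zero. Else `coinF (fexp L)`.
-/

namespace Vale.Agent.Lib.P328.Bit

variable {α : Type} [Enc α]

namespace CoinAux

/-- Composition of a deterministic function with a randomized function. -/
theorem comp_of_drep {β γ : Type} [Enc β] [Enc γ] {h : ℕ → α → β} {g : ℕ → β → PMF γ}
    (hh : DRep h) (hg : Rep g) : Rep fun S x => g S (h S x) := by
  obtain ⟨q, hq⟩ := hh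
  obtain ⟨p, hp⟩ := hg
  refine ⟨.comp q p, fun S x => ?_⟩
  show (sem q S (enc x)).bind (sem p S) = _
  rw [hq, PMF.pure_bind, hp]

/-- The law of a function of a fair coin. -/
theorem coinZ_map_apply (h : ℤ → ℤ) (u : ℤ) :
    (Rep.coinZ.map h) u = 2⁻¹ * ((if u = h 1 then 1 else 0) + (if u = h 0 then 1 else 0)) := by
  unfold Rep.coinZ
  rw [PMF.map_comp, PMF.map_apply, tsum_fintype, Fintype.sum_bool]
  have e : ∀ b : Bool, PMF.uniformOfFintype Bool b = 2⁻¹ := by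
    intro b
    simp [PMF.uniformOfFintype_apply]
  simp only [Function.comp, e, if_true, Bool.false_eq_true, if_false]
  rw [mul_add]
  congr 1 <;> split_ifs <;> simp

theorem pow_le_wid {S : ℕ} (hS : 1000000 ≤ S) {e : ℕ} (he : e ≤ 6) : S ^ e ≤ wid S := by
  unfold wid
  exact Nat.pow_le_pow_right (by omega) he

/-- No saturation below `2 ^ (S ^ 2)`. -/
theorem clamp_small {S : ℕ} (hS : 1000000 ≤ S) {z : ℤ} {e : ℕ} (he : e ≤ 6) (h : |z| ≤ 2 ^ (S ^ e)) :
    clamp S z = z := by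
  refine clamp_eq hS (h.trans ?_)
  exact pow_le_pow_right₀ (by norm_num) (pow_le_wid hS he)

theorem cadd_small {S : ℕ} (hS : 1000000 ≤ S) {k : ℕ} {s b : ℤ} (hk : k + 1 ≤ S ^ 2) (h0 : 0 ≤ s)
    (h1 : s < 2 ^ k) (hb0 : 0 ≤ b) (hb1 : b ≤ 1) : cadd S (cadd S s s) b = 2 * s + b := by
  have hp : (2 : ℤ) ^ (k + 1) ≤ 2 ^ (S ^ 2) := pow_le_pow_right₀ (by norm_num) hk
  have hp2 : (2 : ℤ) ^ (k + 1) = 2 * 2 ^ k := by ring
  have hb : clamp S b = b := clamp_small hS (e := 2) (by norm_num) (by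
    rw [abs_of_nonneg hb0]
    have : (1 : ℤ) ≤ 2 ^ k := one_le_pow₀ (by norm_num)
    omega)
  have hs : clamp S s = s := clamp_small hS (e := 2) (by norm_num) (by
    rw [abs_of_nonneg h0]
    omega)
  have hss : clamp S (s + s) = s + s := clamp_small hS (e := 2) (by norm_num) (by
    rw [abs_of_nonneg (by omega)]
    omega)
  have hsb : clamp S (s + s + b) = s + s + b := clamp_small hS (e := 2) (by norm_num) (by
    rw [abs_of_nonneg (by omega)]
    omega)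
  unfold cadd
  rw [hs, hss, hss, hb, hsb]
  ring

/-- The law after `k` rounds. -/
theorem bits_law {S : ℕ} (hS : 1000000 ≤ S) (k : ℕ) (hk : k ≤ S ^ 2) (u : ℤ) :
    ((fun μ : PMF ℤ => μ.bind fun s => Rep.coinZ.map fun b => cadd S (cadd S s s) b)^[k] (PMF.pure 0)) u
      = if 0 ≤ u ∧ u < 2 ^ k then ((2 : ENNReal) ^ k)⁻¹ else 0 := by
  induction k generalizing u with
  | zero =>
    rw [Function.iterate_zero, id, PMF.pure_apply]
    by_cases h : u = 0
    · subst h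
      simp
    · have h3 : ¬ (0 ≤ u ∧ u < 2 ^ 0) := by
        rintro ⟨h1, h2⟩
        have : u < 1 := by simpa using h2
        omega
      rw [if_neg h, if_neg h3]
  | succ k ih =>
    have hk' : k ≤ S ^ 2 := by omega
    rw [Function.iterate_succ_apply', PMF.bind_apply, tsum_eq_single (u / 2)]
    · rw [ih hk', coinZ_map_apply]
      by_cases hu : 0 ≤ u ∧ u < 2 ^ (k + 1)
      · obtain ⟨hu0, hu1⟩ := hu
        have h20 : 0 ≤ u / 2 := by omega
        have hp2 : (2 : ℤ) ^ (k + 1) = 2 * 2 ^ k := by ring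
        have h21 : u / 2 < 2 ^ k := by omega
        have e1 : cadd S (cadd S (u / 2) (u / 2)) 1 = 2 * (u / 2) + 1 :=
          cadd_small hS hk h20 h21 (by norm_num) (by norm_num)
        have e0 : cadd S (cadd S (u / 2) (u / 2)) 0 = 2 * (u / 2) + 0 :=
          cadd_small hS hk h20 h21 (by norm_num) (by norm_num)
        have i1 : (if 0 ≤ u / 2 ∧ u / 2 < 2 ^ k then ((2 : ENNReal) ^ k)⁻¹ else 0) = ((2 : ENNReal) ^ k)⁻¹ :=
          if_pos ⟨h20, h21⟩
        have i2 : (if 0 ≤ u ∧ u < 2 ^ (k + 1) then ((2 : ENNReal) ^ (k + 1))⁻¹ else 0)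
            = ((2 : ENNReal) ^ (k + 1))⁻¹ := if_pos ⟨hu0, hu1⟩
        rw [e1, e0, i1, i2, pow_succ, ENNReal.mul_inv (by simp) (by simp)]
        have hsum : ((if u = 2 * (u / 2) + 1 then 1 else 0) + (if u = 2 * (u / 2) + 0 then 1 else 0) : ENNReal) = 1 := by
          by_cases hodd : u % 2 = 0
          · have n1 : ¬ u = 2 * (u / 2) + 1 := by omega
            have n0 : u = 2 * (u / 2) + 0 := by omega
            rw [if_neg n1, if_pos n0]
            simp
          · have n1 : u = 2 * (u / 2) + 1 := by omega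
            have n0 : ¬ u = 2 * (u / 2) + 0 := by omega
            rw [if_pos n1, if_neg n0]
            simp
        rw [hsum, mul_one]
      · have hne : ¬ (0 ≤ u / 2 ∧ u / 2 < 2 ^ k) := by
          rintro ⟨h1, h2⟩
          apply hu
          have hp2 : (2 : ℤ) ^ (k + 1) = 2 * 2 ^ k := by ring
          constructor <;> omega
        rw [if_neg hne, if_neg hu, zero_mul]
    · intro s hs
      rw [ih hk']
      by_cases hr : 0 ≤ s ∧ s < 2 ^ k
      · obtain ⟨h1, h2⟩ := hr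
        rw [coinZ_map_apply]
        have e1 : cadd S (cadd S s s) 1 = 2 * s + 1 :=
          cadd_small hS hk h1 h2 (by norm_num) (by norm_num)
        have e0 : cadd S (cadd S s s) 0 = 2 * s + 0 :=
          cadd_small hS hk h1 h2 (by norm_num) (by norm_num)
        have n1 : ¬ u = 2 * s + 1 := by omega
        have n0 : ¬ u = 2 * s + 0 := by omega
        rw [e1, e0, if_neg n1, if_neg n0]
        simp
      · rw [if_neg hr, zero_mul]

end CoinAux

open CoinAux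

/-- The `S ^ 2` fair bits as a number. -/
noncomputable def bitsF (S : ℕ) : PMF ℤ :=
  (fun μ : PMF ℤ => μ.bind fun s => Rep.coinZ.map fun b => cadd S (cadd S s s) b)^[S ^ 2] (PMF.pure 0)

theorem bitsF_rep : Rep (α := α) (β := ℤ) fun S _ => bitsF S :=
  Rep.bits 2

/-- The bits are uniform. -/
theorem bitsF_apply {S : ℕ} (hS : 1000000 ≤ S) (u : ℤ) :
    bitsF S u = if 0 ≤ u ∧ u < 2 ^ (S ^ 2) then ((2 : ENNReal) ^ (S ^ 2))⁻¹ else 0 :=
  bits_law hS (S ^ 2) le_rfl u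

/-! ### The coin -/

namespace CoinAux

/-- The word `2 ^ (S ^ 2)`. -/
def twoS (S : ℕ) : ℤ := (fun s => cadd S s s)^[S ^ 2] 1

theorem twoS_rep : DRep (α := α) (β := ℤ) fun S _ => twoS S := by
  have hb : DRep (α := ℤ × ℤ) (β := ℤ) fun S y => cadd S y.2 y.2 := DRep.snd.add DRep.snd
  have h := DRep.iterPow (α := ℤ) (β := ℤ) 2 hb
  have h2 : DRep (α := α) (β := ℤ × ℤ) fun _ _ => ((1 : ℤ), (1 : ℤ)) := DRep.one.pair DRep.one
  exact h2.comp h

theorem twoS_iter {S : ℕ} (hS : 1000000 ≤ S) (k : ℕ) (hk : k ≤ S ^ 2) :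
    (fun s => cadd S s s)^[k] (1 : ℤ) = 2 ^ k := by
  induction k with
  | zero => simp
  | succ k ih =>
    rw [Function.iterate_succ_apply', ih (by omega)]
    have hp : (2 : ℤ) ^ (k + 1) ≤ 2 ^ (S ^ 2) := pow_le_pow_right₀ (by norm_num) hk
    have hp2 : (2 : ℤ) ^ (k + 1) = 2 * 2 ^ k := by ring
    have h0 : (1 : ℤ) ≤ 2 ^ k := one_le_pow₀ (by norm_num)
    have h1 : clamp S ((2 : ℤ) ^ k) = 2 ^ k := clamp_small hS (e := 2) (by norm_num) (by
      rw [abs_of_nonneg (by omega)]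
      omega)
    have h2 : clamp S ((2 : ℤ) ^ k + 2 ^ k) = 2 ^ k + 2 ^ k := clamp_small hS (e := 2) (by norm_num) (by
      rw [abs_of_nonneg (by omega)]
      omega)
    unfold cadd
    rw [h1, h2, hp2]
    ring

theorem twoS_eq {S : ℕ} (hS : 1000000 ≤ S) : twoS S = 2 ^ (S ^ 2) :=
  twoS_iter hS (S ^ 2) le_rfl

/-- The word `2 ^ (S ^ 5 - S ^ 2)`. -/
def coinP (S : ℕ) : ℤ := cdiv S (fone S) (twoS S)

theorem coinP_rep : DRep (α := α) (β := ℤ) fun S _ => coinP S := fone_rep.div twoS_rep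

theorem two_le {S : ℕ} (hS : 1000000 ≤ S) : S ^ 2 ≤ S ^ 5 :=
  Nat.pow_le_pow_right (by omega) (by norm_num)

theorem coinP_eq {S : ℕ} (hS : 1000000 ≤ S) : coinP S = 2 ^ (S ^ 5 - S ^ 2) := by
  have h1 : clamp S (fone S) = fone S := by
    refine clamp_small hS (e := 5) (by norm_num) ?_
    unfold fone prec
    rw [abs_of_nonneg (by positivity)]
  have h2 : clamp S ((2 : ℤ) ^ (S ^ 2)) = 2 ^ (S ^ 2) := by
    refine clamp_small hS (e := 2) (by norm_num) ?_
    rw [abs_of_nonneg (by positivity)]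
  have hsplit : (2 : ℤ) ^ (S ^ 5) = 2 ^ (S ^ 5 - S ^ 2) * 2 ^ (S ^ 2) := by
    rw [← pow_add, Nat.sub_add_cancel (two_le hS)]
  have h3 : (2 : ℤ) ^ (S ^ 5) / 2 ^ (S ^ 2) = 2 ^ (S ^ 5 - S ^ 2) := by
    rw [hsplit]
    exact Int.mul_ediv_cancel _ (by positivity)
  have h4 : clamp S ((2 : ℤ) ^ (S ^ 5 - S ^ 2)) = 2 ^ (S ^ 5 - S ^ 2) := by
    refine clamp_small hS (e := 5) (by norm_num) ?_
    rw [abs_of_nonneg (by positivity)]
    exact pow_le_pow_right₀ (by norm_num) (Nat.sub_le _ _)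
  unfold coinP cdiv
  rw [twoS_eq hS, h1, h2]
  unfold fone prec
  rw [h3, h4]

/-- The test of a coin: input `(w, U)`. -/
noncomputable def coinTest (S : ℕ) (x : ℤ × ℤ) : ℤ :=
  if 0 < csub S x.1 (cmul S x.2 (coinP S)) then 1 else 0

theorem coinTest_rep : DRep (α := ℤ × ℤ) (β := ℤ) coinTest :=
  DRep.ite (DRep.fst.sub (DRep.snd.mul coinP_rep)) DRep.one DRep.zero

theorem clamp_pos_iff {S : ℕ} {z : ℤ} : 0 < clamp S z ↔ 0 < z := by
  have h : (0 : ℤ) < 2 ^ wid S := by positivity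
  unfold clamp
  constructor
  · intro h1
    rcases lt_max_iff.1 h1 with h2 | h2
    · omega
    · exact (lt_min_iff.1 h2).1
  · intro h1
    exact lt_max_of_lt_right (lt_min h1 h)

theorem clamp_le_self_of_pos {S : ℕ} {z : ℤ} (hz : 0 ≤ z) : clamp S z ≤ z := by
  have h : (0 : ℤ) < 2 ^ wid S := by positivity
  unfold clamp
  exact max_le (by omega) (min_le_left _ _)

/-- The test, in range. -/
theorem coinTest_eq {S : ℕ} (hS : 1000000 ≤ S) (w U : ℤ) (h0 : 0 ≤ U) (h1 : U < 2 ^ (S ^ 2)) :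
    coinTest S (w, U) = if U * 2 ^ (S ^ 5 - S ^ 2) < clamp S w then 1 else 0 := by
  have hP : (0 : ℤ) < 2 ^ (S ^ 5 - S ^ 2) := by positivity
  have hmul : U * 2 ^ (S ^ 5 - S ^ 2) ≤ 2 ^ (S ^ 5) := by
    have hsplit : (2 : ℤ) ^ (S ^ 5) = 2 ^ (S ^ 2) * 2 ^ (S ^ 5 - S ^ 2) := by
      rw [← pow_add, Nat.add_sub_cancel' (two_le hS)]
    rw [hsplit]
    exact mul_le_mul_of_nonneg_right h1.le hP.le
  have hPle : (2 : ℤ) ^ (S ^ 5 - S ^ 2) ≤ 2 ^ (S ^ 5) :=
    pow_le_pow_right₀ (by norm_num) (Nat.sub_le _ _)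
  have hU : clamp S U = U := by
    refine clamp_small hS (e := 2) (by norm_num) ?_
    rw [abs_of_nonneg h0]
    exact h1.le
  have hPc : clamp S ((2 : ℤ) ^ (S ^ 5 - S ^ 2)) = 2 ^ (S ^ 5 - S ^ 2) := by
    refine clamp_small hS (e := 5) (by norm_num) ?_
    rw [abs_of_nonneg hP.le]
    exact hPle
  have hm : clamp S (U * 2 ^ (S ^ 5 - S ^ 2)) = U * 2 ^ (S ^ 5 - S ^ 2) := by
    refine clamp_small hS (e := 5) (by norm_num) ?_
    rw [abs_of_nonneg (mul_nonneg h0 hP.le)]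
    exact hmul
  have hc : cmul S U (coinP S) = U * 2 ^ (S ^ 5 - S ^ 2) := by
    unfold cmul
    rw [coinP_eq hS, hU, hPc, hm]
  unfold coinTest
  simp only
  unfold csub
  rw [hc, hm]
  have hiff : 0 < clamp S (clamp S w - U * 2 ^ (S ^ 5 - S ^ 2)) ↔ U * 2 ^ (S ^ 5 - S ^ 2) < clamp S w := by
    rw [clamp_pos_iff, sub_pos]
  simp only [hiff]

end CoinAux

/-- A coin with probability the value of `w`, clipped to `[0, 1]`. -/
noncomputable def coinF (S : ℕ) (w : ℤ) : PMF ℤ :=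
  (bitsF S).bind fun U => PMF.pure (coinTest S (w, U))

theorem coinF_rep : Rep coinF :=
  Rep.bind (f := fun S (_ : ℤ) => bitsF S) (g := fun S y => PMF.pure (coinTest S y)) bitsF_rep
    (Rep.ofD coinTest_rep)

theorem coinF_support {S : ℕ} (_hS : 1000000 ≤ S) (w v : ℤ) (h : coinF S w v ≠ 0) : v = 0 ∨ v = 1 := by
  have h1 : v ∈ (coinF S w).support := (PMF.mem_support_iff _ _).2 h
  unfold coinF at h1
  obtain ⟨U, _, hU⟩ := (PMF.mem_support_bind_iff _ _ _).1 h1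
  rw [PMF.support_pure, Set.mem_singleton_iff] at hU
  unfold coinTest at hU
  simp only at hU
  split_ifs at hU
  · exact Or.inr hU
  · exact Or.inl hU

namespace CoinAux

/-- The count: the probability of the value one. -/
noncomputable def coinCount (S : ℕ) (w : ℤ) : ℕ :=
  ((Finset.Ico (0 : ℤ) (2 ^ (S ^ 2))).filter fun U => U * 2 ^ (S ^ 5 - S ^ 2) < clamp S w).card

theorem coinF_one {S : ℕ} (hS : 1000000 ≤ S) (w : ℤ) :
    coinF S w 1 = (coinCount S w : ENNReal) * ((2 : ENNReal) ^ (S ^ 2))⁻¹ := by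
  unfold coinF coinCount
  rw [PMF.bind_apply, tsum_eq_sum (s := Finset.Ico (0 : ℤ) (2 ^ (S ^ 2)))]
  · have h : ∀ U ∈ Finset.Ico (0 : ℤ) (2 ^ (S ^ 2)),
        bitsF S U * (PMF.pure (coinTest S (w, U))) 1 =
          if U * 2 ^ (S ^ 5 - S ^ 2) < clamp S w then ((2 : ENNReal) ^ (S ^ 2))⁻¹ else 0 := by
      intro U hU
      obtain ⟨h0, h1⟩ := Finset.mem_Ico.1 hU
      rw [bitsF_apply hS, if_pos ⟨h0, h1⟩, coinTest_eq hS w U h0 h1, PMF.pure_apply]
      by_cases ht : U * 2 ^ (S ^ 5 - S ^ 2) < clamp S w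
      · simp [ht]
      · simp [ht]
    rw [Finset.sum_congr rfl h, ← Finset.sum_filter, Finset.sum_const, nsmul_eq_mul]
  · intro U hU
    have hr : ¬ (0 ≤ U ∧ U < 2 ^ (S ^ 2)) := fun h => hU (Finset.mem_Ico.2 h)
    rw [bitsF_apply hS, if_neg hr, zero_mul]

theorem coinF_one_real {S : ℕ} (hS : 1000000 ≤ S) (w : ℤ) :
    (coinF S w 1).toReal = (coinCount S w : ℝ) * (1 / 2 : ℝ) ^ (S ^ 2) := by
  rw [coinF_one hS, ENNReal.toReal_mul, ENNReal.toReal_natCast, ENNReal.toReal_inv,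
    ENNReal.toReal_pow]
  simp

end CoinAux

namespace CoinAux

theorem val_le_zero {S : ℕ} {w : ℤ} (h : w ≤ 0) : val S w ≤ 0 := by
  unfold val
  have : (w : ℝ) ≤ 0 := by exact_mod_cast h
  exact div_nonpos_of_nonpos_of_nonneg this (by positivity)

theorem one_le_val {S : ℕ} {w : ℤ} (h : 2 ^ (S ^ 5) ≤ w) : 1 ≤ val S w := by
  unfold val prec
  rw [one_le_div (by positivity)]
  exact_mod_cast h

theorem clamp_nonpos {S : ℕ} {w : ℤ} (h : w ≤ 0) : clamp S w ≤ 0 := by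
  have hp : (0 : ℤ) < 2 ^ wid S := by positivity
  unfold clamp
  exact max_le (by omega) (le_trans (min_le_left _ _) h)

theorem clamp_ge {S : ℕ} (hS : 1000000 ≤ S) {w : ℤ} (h : 2 ^ (S ^ 5) ≤ w) : 2 ^ (S ^ 5) ≤ clamp S w := by
  have hp : (2 : ℤ) ^ (S ^ 5) ≤ 2 ^ wid S := pow_le_pow_right₀ (by norm_num) (pow_le_wid hS (by norm_num))
  unfold clamp
  exact le_max_of_le_right (le_min h hp)

theorem count_zero {S : ℕ} {w : ℤ} (h : w ≤ 0) : coinCount S w = 0 := by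
  unfold coinCount
  rw [Finset.card_eq_zero, Finset.filter_eq_empty_iff]
  intro U hU
  have h0 := (Finset.mem_Ico.1 hU).1
  have h1 : 0 ≤ U * 2 ^ (S ^ 5 - S ^ 2) := mul_nonneg h0 (by positivity)
  have h2 := clamp_nonpos (S := S) h
  omega

theorem count_full {S : ℕ} (hS : 1000000 ≤ S) {w : ℤ} (h : 2 ^ (S ^ 5) ≤ w) :
    (coinCount S w : ℝ) = 2 ^ (S ^ 2) := by
  have hall : (Finset.Ico (0 : ℤ) (2 ^ (S ^ 2))).filter (fun U => U * 2 ^ (S ^ 5 - S ^ 2) < clamp S w)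
      = Finset.Ico (0 : ℤ) (2 ^ (S ^ 2)) := by
    apply Finset.filter_true_of_mem
    intro U hU
    have h1 := (Finset.mem_Ico.1 hU).2
    have hsplit : (2 : ℤ) ^ (S ^ 5) = 2 ^ (S ^ 2) * 2 ^ (S ^ 5 - S ^ 2) := by
      rw [← pow_add, Nat.add_sub_cancel' (two_le hS)]
    have hP : (0 : ℤ) < 2 ^ (S ^ 5 - S ^ 2) := by positivity
    have h2 : U * 2 ^ (S ^ 5 - S ^ 2) < 2 ^ (S ^ 2) * 2 ^ (S ^ 5 - S ^ 2) :=
      mul_lt_mul_of_pos_right h1 hP
    have h3 := clamp_ge hS h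
    omega
  unfold coinCount
  rw [hall, Int.card_Ico, sub_zero]
  have h4 : (((2 : ℤ) ^ (S ^ 2)).toNat : ℤ) = 2 ^ (S ^ 2) := Int.toNat_of_nonneg (by positivity)
  have h5 : (((2 : ℤ) ^ (S ^ 2)).toNat : ℝ) = (((((2 : ℤ) ^ (S ^ 2)).toNat : ℤ)) : ℝ) := by
    norm_cast
  rw [h5, h4]
  norm_cast

/-- The middle case: the count is the ceiling. -/
theorem count_mid {S : ℕ} (hS : 1000000 ≤ S) {w : ℤ} (h0 : 0 < w) (h1 : w < 2 ^ (S ^ 5)) :
    ∃ c : ℤ, (coinCount S w : ℝ) = c ∧ w ≤ c * 2 ^ (S ^ 5 - S ^ 2) ∧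
      (c - 1) * 2 ^ (S ^ 5 - S ^ 2) < w := by
  have hP : (0 : ℤ) < 2 ^ (S ^ 5 - S ^ 2) := by positivity
  obtain ⟨P, hPdef⟩ : ∃ P : ℤ, P = 2 ^ (S ^ 5 - S ^ 2) := ⟨_, rfl⟩
  rw [← hPdef] at hP
  have hc : clamp S w = w := by
    refine clamp_small hS (e := 5) (by norm_num) ?_
    rw [abs_of_nonneg h0.le]
    exact h1.le
  have hsplit : (2 : ℤ) ^ (S ^ 5) = 2 ^ (S ^ 2) * P := by
    rw [hPdef, ← pow_add, Nat.add_sub_cancel' (two_le hS)]
  refine ⟨(w - 1) / P + 1, ?_, ?_, ?_⟩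
  · have hset : (Finset.Ico (0 : ℤ) (2 ^ (S ^ 2))).filter (fun U => U * 2 ^ (S ^ 5 - S ^ 2) < clamp S w)
        = Finset.Ico (0 : ℤ) ((w - 1) / P + 1) := by
      ext U
      rw [Finset.mem_filter, Finset.mem_Ico, Finset.mem_Ico, hc, ← hPdef]
      have hdiv : U ≤ (w - 1) / P ↔ U * P ≤ w - 1 := Int.le_ediv_iff_mul_le hP
      constructor
      · rintro ⟨⟨h2, _⟩, h4⟩
        refine ⟨h2, ?_⟩
        have : U * P ≤ w - 1 := by omega
        have := hdiv.2 this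
        omega
      · rintro ⟨h2, h3⟩
        have h4 : U ≤ (w - 1) / P := by omega
        have h5 := hdiv.1 h4
        refine ⟨⟨h2, ?_⟩, by omega⟩
        have h6 : (w - 1) / P < 2 ^ (S ^ 2) := by
          rw [Int.ediv_lt_iff_lt_mul hP]
          rw [hsplit] at h1
          omega
        omega
    unfold coinCount
    rw [hset, Int.card_Ico, sub_zero]
    have hnn : 0 ≤ (w - 1) / P + 1 := by
      have : 0 ≤ (w - 1) / P := Int.ediv_nonneg (by omega) hP.le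
      omega
    have h4 : (((w - 1) / P + 1).toNat : ℤ) = (w - 1) / P + 1 := Int.toNat_of_nonneg hnn
    have h5 : ((((w - 1) / P + 1).toNat : ℕ) : ℝ) = ((((((w - 1) / P + 1).toNat : ℕ) : ℤ)) : ℝ) := by
      norm_cast
    rw [h5, h4]
  · rw [← hPdef]
    have := Int.lt_ediv_add_one_mul_self (w - 1) hP
    omega
  · rw [← hPdef]
    have h7 : (w - 1) / P * P ≤ w - 1 := Int.ediv_mul_le _ hP.ne'
    have : ((w - 1) / P + 1 - 1) * P = (w - 1) / P * P := by ring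
    omega

theorem half_pow_pos (n : ℕ) : (0 : ℝ) < (1 / 2 : ℝ) ^ n := by positivity

end CoinAux

theorem coinF_spec {S : ℕ} (hS : 1000000 ≤ S) (w : ℤ) :
    |(coinF S w 1).toReal - max 0 (min 1 (val S w))| ≤ (1 / 2 : ℝ) ^ (S ^ 2) := by
  have hpos := half_pow_pos (S ^ 2)
  rw [coinF_one_real hS]
  by_cases h0 : w ≤ 0
  · rw [count_zero h0]
    have h1 : val S w ≤ 0 := val_le_zero h0
    have h2 : min 1 (val S w) = val S w := min_eq_right (by linarith)
    rw [h2, max_eq_left h1]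
    simp
  push Not at h0
  by_cases h1 : 2 ^ (S ^ 5) ≤ w
  · rw [count_full hS h1]
    have h2 := one_le_val (S := S) h1
    rw [min_eq_left h2, max_eq_right (by norm_num)]
    have h3 : (2 : ℝ) ^ (S ^ 2) * (1 / 2 : ℝ) ^ (S ^ 2) = 1 := by
      rw [← mul_pow]
      norm_num
    rw [h3]
    simp
  push Not at h1
  obtain ⟨c, hc, hc1, hc2⟩ := count_mid hS h0 h1
  rw [hc]
  -- real numbers
  have hA : (0 : ℝ) < (2 : ℝ) ^ (S ^ 2) := by positivity
  have hP : (0 : ℝ) < (2 : ℝ) ^ (S ^ 5 - S ^ 2) := by positivity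
  have hsplit : (2 : ℝ) ^ (S ^ 5) = (2 : ℝ) ^ (S ^ 2) * (2 : ℝ) ^ (S ^ 5 - S ^ 2) := by
    rw [← pow_add, Nat.add_sub_cancel' (two_le hS)]
  have hval : val S w = (w : ℝ) / ((2 : ℝ) ^ (S ^ 2) * (2 : ℝ) ^ (S ^ 5 - S ^ 2)) := by
    unfold val prec
    rw [hsplit]
  have hw0 : (0 : ℝ) < (w : ℝ) := by exact_mod_cast h0
  have hw1 : (w : ℝ) < (2 : ℝ) ^ (S ^ 2) * (2 : ℝ) ^ (S ^ 5 - S ^ 2) := by
    rw [← hsplit]
    exact_mod_cast h1
  have hv0 : 0 ≤ val S w := by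
    rw [hval]
    positivity
  have hv1 : val S w ≤ 1 := by
    rw [hval, div_le_one (by positivity)]
    exact hw1.le
  rw [min_eq_right hv1, max_eq_right hv0, hval]
  have hr1 : (w : ℝ) ≤ (c : ℝ) * (2 : ℝ) ^ (S ^ 5 - S ^ 2) := by
    exact_mod_cast hc1
  have hr2 : ((c : ℝ) - 1) * (2 : ℝ) ^ (S ^ 5 - S ^ 2) < (w : ℝ) := by
    exact_mod_cast hc2
  have hhalf : (1 / 2 : ℝ) ^ (S ^ 2) = 1 / (2 : ℝ) ^ (S ^ 2) := by
    rw [one_div, one_div, inv_pow]
  have hdiff : (c : ℝ) * (1 / 2 : ℝ) ^ (S ^ 2) - (w : ℝ) / ((2 : ℝ) ^ (S ^ 2) * (2 : ℝ) ^ (S ^ 5 - S ^ 2))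
      = ((c : ℝ) * (2 : ℝ) ^ (S ^ 5 - S ^ 2) - (w : ℝ)) / ((2 : ℝ) ^ (S ^ 2) * (2 : ℝ) ^ (S ^ 5 - S ^ 2)) := by
    rw [hhalf]
    field_simp
  rw [hdiff, abs_of_nonneg (div_nonneg (by linarith) (by positivity)), div_le_iff₀ (by positivity), hhalf]
  have h5 : 1 / (2 : ℝ) ^ (S ^ 2) * ((2 : ℝ) ^ (S ^ 2) * (2 : ℝ) ^ (S ^ 5 - S ^ 2)) = (2 : ℝ) ^ (S ^ 5 - S ^ 2) := by
    field_simp
  rw [h5]
  linarith

/-! ### The coin with probability an exponential -/

/-- A coin with probability `min 1 (exp (val L))`. -/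
noncomputable def coinExpF (S : ℕ) (L : ℤ) : PMF ℤ :=
  if 0 < cadd S L 1 then PMF.pure 1
  else if 0 < csub S (loLog S) L then PMF.pure 0
  else coinF S (fexp S L)

theorem coinExpF_rep : Rep coinExpF := by
  have hhi : DRep (α := ℤ) (β := ℤ) fun S _ => hiLog S := (spow_rep 3).mul fone_rep
  have hlo : DRep (α := ℤ) (β := ℤ) fun S _ => loLog S := DRep.zero.sub hhi
  have hc1 : DRep (α := ℤ) (β := ℤ) fun S L => cadd S L 1 := DRep.id'.add DRep.one
  have hc2 : DRep (α := ℤ) (β := ℤ) fun S L => csub S (loLog S) L := hlo.sub DRep.id'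
  have hf : Rep (α := ℤ) (β := ℤ) fun S L => coinF S (fexp S L) :=
    comp_of_drep (fexp_rep DRep.id') coinF_rep
  exact Rep.ite hc1 (Rep.ofD DRep.one) (Rep.ite hc2 (Rep.ofD DRep.zero) hf)

theorem coinExpF_support {S : ℕ} (hS : 1000000 ≤ S) (L v : ℤ) (h : coinExpF S L v ≠ 0) :
    v = 0 ∨ v = 1 := by
  unfold coinExpF at h
  split_ifs at h
  · rw [PMF.pure_apply] at h
    by_cases e : v = 1
    · exact Or.inr e
    · simp [e] at h
  · rw [PMF.pure_apply] at h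
    by_cases e : v = 0
    · exact Or.inl e
    · simp [e] at h
  · exact coinF_support hS _ _ h

namespace CoinAux

theorem cadd_one_pos_iff {S : ℕ} (hS : 1000000 ≤ S) (L : ℤ) : 0 < cadd S L 1 ↔ 0 ≤ L := by
  have hW : (1 : ℤ) ≤ 2 ^ wid S := one_le_pow₀ (by norm_num)
  have h1 : clamp S 1 = 1 := clamp_eq hS (by simpa using hW)
  unfold cadd
  rw [clamp_pos_iff, h1]
  constructor
  · intro h
    by_contra hL
    push Not at hL
    have := clamp_nonpos (S := S) (w := L + 1) (by omega)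
    have h2 : clamp S L ≤ -1 := by
      unfold clamp
      apply max_le
      · have : (1 : ℤ) ≤ 2 ^ wid S := hW
        omega
      · exact le_trans (min_le_left _ _) (by omega)
    omega
  · intro h
    have h2 : 0 ≤ clamp S L := by
      unfold clamp
      exact le_max_of_le_right (le_min h (by omega))
    omega

/-- The lower end of the domain. -/
theorem loLog_eq {S : ℕ} (hS : 1000000 ≤ S) : loLog S = -((S : ℤ) ^ 3 * 2 ^ (S ^ 5)) := by
  have hS3 : (S : ℤ) ^ 3 ≤ 2 ^ (S ^ 5) := by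
    have h1 : S < 2 ^ S := Nat.lt_two_pow_self
    have h2 : S ^ 3 ≤ (2 ^ S) ^ 3 := Nat.pow_le_pow_left h1.le 3
    have h3 : (2 ^ S) ^ 3 = 2 ^ (S * 3) := (pow_mul 2 S 3).symm
    have h4 : S * 3 ≤ S ^ 5 := by
      have : S * 3 ≤ S * S ^ 4 :=
        Nat.mul_le_mul_left _ (by
          have h5 : 3 ≤ S := by omega
          exact le_trans h5 (Nat.le_self_pow (by norm_num) S))
      calc S * 3 ≤ S * S ^ 4 := this
        _ = S ^ 5 := by ring
    have h6 : (2 : ℕ) ^ (S * 3) ≤ 2 ^ (S ^ 5) := Nat.pow_le_pow_right (by norm_num) h4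
    have h7 : S ^ 3 ≤ 2 ^ (S ^ 5) := by omega
    exact_mod_cast h7
  have hS0 : (0 : ℤ) ≤ (S : ℤ) ^ 3 := by positivity
  have hP : (0 : ℤ) < 2 ^ (S ^ 5) := by positivity
  have hmul : (S : ℤ) ^ 3 * 2 ^ (S ^ 5) ≤ 2 ^ (S ^ 5 + S ^ 5) := by
    rw [pow_add]
    exact mul_le_mul_of_nonneg_right hS3 hP.le
  have hle : S ^ 5 + S ^ 5 ≤ wid S := by
    unfold wid
    have h1 : S ^ 6 = S * S ^ 5 := by ring
    have h2 : 2 * S ^ 5 ≤ S * S ^ 5 := Nat.mul_le_mul_right _ (by omega)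
    omega
  have hW : (2 : ℤ) ^ (S ^ 5 + S ^ 5) ≤ 2 ^ wid S := pow_le_pow_right₀ (by norm_num) hle
  have h0 : (0 : ℤ) ≤ (S : ℤ) ^ 3 * 2 ^ (S ^ 5) := by positivity
  have hc1 : clamp S ((S : ℤ) ^ 3) = (S : ℤ) ^ 3 := by
    refine clamp_small hS (e := 5) (by norm_num) ?_
    rw [abs_of_nonneg hS0]
    exact hS3
  have hc2 : clamp S (fone S) = fone S := by
    refine clamp_small hS (e := 5) (by norm_num) ?_
    unfold fone prec
    rw [abs_of_nonneg hP.le]
  have hc3 : clamp S ((S : ℤ) ^ 3 * 2 ^ (S ^ 5)) = (S : ℤ) ^ 3 * 2 ^ (S ^ 5) := by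
    refine clamp_eq hS ?_
    rw [abs_of_nonneg h0]
    exact hmul.trans hW
  have hhi : hiLog S = (S : ℤ) ^ 3 * 2 ^ (S ^ 5) := by
    unfold hiLog cmul
    rw [hc1, hc1, hc2]
    unfold fone prec
    rw [hc3]
  have hc4 : clamp S 0 = 0 := by
    refine clamp_eq hS ?_
    simp
  have hc5 : clamp S (-((S : ℤ) ^ 3 * 2 ^ (S ^ 5))) = -((S : ℤ) ^ 3 * 2 ^ (S ^ 5)) := by
    refine clamp_eq hS ?_
    rw [abs_neg, abs_of_nonneg h0]
    exact hmul.trans hW
  unfold loLog csub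
  rw [hhi, hc4, hc3, zero_sub, hc5]

theorem lo_test {S : ℕ} (hS : 1000000 ≤ S) (L : ℤ) :
    0 < csub S (loLog S) L ↔ val S L < -(S : ℝ) ^ 3 := by
  have hlo := loLog_eq hS
  have hval : val S L < -(S : ℝ) ^ 3 ↔ L < loLog S := by
    rw [hlo]
    unfold val prec
    have hP : (0 : ℝ) < 2 ^ (S ^ 5) := by positivity
    rw [div_lt_iff₀ hP]
    constructor
    · intro h
      have : ((L : ℤ) : ℝ) < ((-((S : ℤ) ^ 3 * 2 ^ (S ^ 5)) : ℤ) : ℝ) := by
        push_cast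
        linarith
      exact_mod_cast this
    · intro h
      have : ((L : ℤ) : ℝ) < ((-((S : ℤ) ^ 3 * 2 ^ (S ^ 5)) : ℤ) : ℝ) := by
        exact_mod_cast h
      push_cast at this
      linarith
  rw [hval]
  have hW : (2 : ℤ) ^ (S ^ 5 + S ^ 5) ≤ 2 ^ wid S := by
    refine pow_le_pow_right₀ (by norm_num) ?_
    unfold wid
    have h1 : S ^ 6 = S * S ^ 5 := by ring
    have h2 : 2 * S ^ 5 ≤ S * S ^ 5 := Nat.mul_le_mul_right _ (by omega)
    omega
  have hS3 : (S : ℤ) ^ 3 * 2 ^ (S ^ 5) < 2 ^ (S ^ 5 + S ^ 5) := by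
    rw [pow_add]
    have hP : (0 : ℤ) < 2 ^ (S ^ 5) := by positivity
    refine mul_lt_mul_of_pos_right ?_ hP
    have h1 : S < 2 ^ S := Nat.lt_two_pow_self
    have h2 : S ^ 3 < (2 ^ S) ^ 3 := Nat.pow_lt_pow_left h1 (by norm_num)
    have h3 : (2 ^ S) ^ 3 = 2 ^ (S * 3) := (pow_mul 2 S 3).symm
    have h4 : S * 3 ≤ S ^ 5 := by
      have : S * 3 ≤ S * S ^ 4 :=
        Nat.mul_le_mul_left _ (by
          have h5 : 3 ≤ S := by omega
          exact le_trans h5 (Nat.le_self_pow (by norm_num) S))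
      calc S * 3 ≤ S * S ^ 4 := this
        _ = S ^ 5 := by ring
    have h6 : (2 : ℕ) ^ (S * 3) ≤ 2 ^ (S ^ 5) := Nat.pow_le_pow_right (by norm_num) h4
    have h7 : S ^ 3 < 2 ^ (S ^ 5) := by omega
    exact_mod_cast h7
  have hlo_gt : -(2 : ℤ) ^ wid S < loLog S := by
    rw [hlo]
    omega
  have hc : clamp S (loLog S) = loLog S := by
    refine clamp_eq hS ?_
    rw [abs_le]
    rw [hlo]
    have : (0 : ℤ) ≤ (S : ℤ) ^ 3 * 2 ^ (S ^ 5) := by positivity
    constructor <;> omega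
  unfold csub
  rw [clamp_pos_iff, hc, sub_pos]
  constructor
  · intro h
    by_contra hL
    push Not at hL
    have h2 : loLog S ≤ clamp S L := by
      unfold clamp
      refine le_max_of_le_right (le_min hL ?_)
      rw [hlo]
      have : (0 : ℤ) ≤ (S : ℤ) ^ 3 * 2 ^ (S ^ 5) := by positivity
      have : (0 : ℤ) < 2 ^ wid S := by positivity
      omega
    omega
  · intro h
    unfold clamp
    exact max_lt hlo_gt (min_lt_of_left_lt h)

/-- The projection to `[0, 1]` is a contraction. -/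
theorem clip_close {y e : ℝ} (h0 : 0 ≤ e) (h1 : e ≤ 1) : |max 0 (min 1 y) - e| ≤ |y - e| := by
  rcases le_total y 1 with hy | hy
  · rw [min_eq_right hy]
    rcases le_total y 0 with hy0 | hy0
    · rw [max_eq_left hy0, abs_of_nonpos (by linarith), abs_of_nonpos (by linarith)]
      linarith
    · rw [max_eq_right hy0]
  · rw [min_eq_left hy, max_eq_right (by norm_num), abs_of_nonneg (by linarith), abs_of_nonneg (by linarith)]
    linarith

theorem exp_small {S : ℕ} (hS : 1000000 ≤ S) : Real.exp (-(S : ℝ) ^ 3) ≤ (1 / 2 : ℝ) ^ (S ^ 2) := by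
  have h1 : Real.exp (-1) ≤ 1 / 2 := by
    rw [Real.exp_neg, one_div]
    refine inv_anti₀ (by norm_num) ?_
    have := Real.exp_one_gt_d9
    linarith
  have h2 : Real.exp (-(S : ℝ) ^ 3) = Real.exp (-1) ^ (S ^ 3) := by
    rw [← Real.exp_nat_mul]
    congr 1
    push_cast
    ring
  rw [h2]
  have h3 := pow_le_pow_left₀ (Real.exp_pos _).le h1 (S ^ 3)
  refine h3.trans ?_
  exact pow_le_pow_of_le_one (by norm_num) (by norm_num) (Nat.pow_le_pow_right (by omega) (by norm_num))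

end CoinAux

theorem coinExpF_spec {S : ℕ} (hS : 1000000 ≤ S) (L : ℤ) :
    |(coinExpF S L 1).toReal - min 1 (Real.exp (val S L))| ≤ 2 * (1 / 2 : ℝ) ^ (S ^ 2) := by
  have hpos := half_pow_pos (S ^ 2)
  unfold coinExpF
  by_cases h1 : 0 < cadd S L 1
  · rw [if_pos h1]
    have hL := (cadd_one_pos_iff hS L).1 h1
    have hv : 0 ≤ val S L := by
      unfold val
      have : (0 : ℝ) ≤ (L : ℝ) := by exact_mod_cast hL
      positivity
    have he : 1 ≤ Real.exp (val S L) := Real.one_le_exp hv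
    rw [min_eq_left he, PMF.pure_apply, if_pos rfl]
    simp
  rw [if_neg h1]
  have hL : L < 0 := by
    have := (cadd_one_pos_iff hS L).not.1 h1
    omega
  have hv : val S L < 0 := by
    unfold val
    have : (L : ℝ) < 0 := by exact_mod_cast hL
    exact div_neg_of_neg_of_pos this (by positivity)
  have he1 : Real.exp (val S L) < 1 := by
    rw [← Real.exp_zero]
    exact Real.exp_lt_exp.2 hv
  rw [min_eq_right he1.le]
  by_cases h2 : 0 < csub S (loLog S) L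
  · rw [if_pos h2]
    have h3 := (lo_test hS L).1 h2
    have h4 : (PMF.pure (0 : ℤ)) 1 = 0 := by
      rw [PMF.pure_apply, if_neg (by norm_num)]
    rw [h4, ENNReal.toReal_zero, zero_sub, abs_neg, abs_of_pos (Real.exp_pos _)]
    have h5 : Real.exp (val S L) ≤ Real.exp (-(S : ℝ) ^ 3) := Real.exp_le_exp.2 h3.le
    linarith [exp_small hS]
  rw [if_neg h2]
  have h3 : ¬ val S L < -(S : ℝ) ^ 3 := fun h => h2 ((lo_test hS L).2 h)
  push Not at h3
  have habs : |val S L| ≤ (S : ℝ) ^ 3 := by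
    rw [abs_le]
    constructor
    · exact h3
    · have : (0 : ℝ) ≤ (S : ℝ) ^ 3 := by positivity
      linarith
  have h4 := fexp_spec hS habs
  have h5 := coinF_spec hS (fexp S L)
  have h6 := clip_close (y := val S (fexp S L)) (Real.exp_pos (val S L)).le he1.le
  have h7 : (1 / 2 : ℝ) ^ (S ^ 5 / 2) ≤ (1 / 2 : ℝ) ^ (S ^ 2) := by
    refine pow_le_pow_of_le_one (by norm_num) (by norm_num) ?_
    rw [Nat.le_div_iff_mul_le (by norm_num)]
    have h8 : S ^ 5 = S ^ 2 * S ^ 3 := by ring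
    rw [h8]
    refine Nat.mul_le_mul_left _ ?_
    have h9 : S ≤ S ^ 3 := Nat.le_self_pow (by norm_num) S
    omega
  have h8 := abs_sub_le ((coinF S (fexp S L) 1).toReal) (max 0 (min 1 (val S (fexp S L)))) (Real.exp (val S L))
  linarith

end Vale.Agent.Lib.P328.Bit
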