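import Vale.Agent.Lib.P328.Bit.ChainG
import Vale.Agent.Lib.P328.Bit.Coin
import Vale.Agent.Lib.P328.Samp.QGrid

/-!
# P328, bit model: tools for the chain (module CHAINF)

Laws of independent lists (`seqP`), pulling a law back along an injective map, the total variation of a product,
the proposal of the chain as a program and its law.
-/

namespace Vale.Agent.Lib.P328.Bit

open Finset Vale.Agent.Lib.P328.Cap Vale.Agent.Lib.P328.Fpras Vale.Agent.Lib.P328.Samp

namespace ChainFAux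

/-! ### Independent lists -/

theorem seqP_nil_apply {β : Type} (t : List β) : seqP ([] : List (PMF β)) t = if t = [] then 1 else 0 := by
  simp only [seqP, PMF.pure_apply]
  congr

theorem seqP_cons_apply {β : Type} (μ : PMF β) (L : List (PMF β)) (a : β) (t : List β) :
    seqP (μ :: L) (a :: t) = μ a * seqP L t := by
  classical
  simp only [seqP]
  rw [PMF.bind_apply, tsum_eq_single a]
  · congr 1
    rw [PMF.bind_apply, tsum_eq_single t]
    · simp [PMF.pure_apply]
    · intro t' ht'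
      have : a :: t ≠ a :: t' := fun e => ht' (List.tail_eq_of_cons_eq e).symm
      simp [PMF.pure_apply, this]
  · intro a' ha'
    have : ((seqP L).bind fun t' => PMF.pure (a' :: t')) (a :: t) = 0 := by
      rw [PMF.bind_apply]
      refine ENNReal.tsum_eq_zero.2 fun t' => ?_
      have : a :: t ≠ a' :: t' := fun e => ha' (List.head_eq_of_cons_eq e).symm
      simp [PMF.pure_apply, this]
    rw [this, mul_zero]

theorem seqP_cons_nil {β : Type} (μ : PMF β) (L : List (PMF β)) : seqP (μ :: L) [] = 0 := by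
  classical
  simp only [seqP]
  rw [PMF.bind_apply]
  refine ENNReal.tsum_eq_zero.2 fun a => ?_
  have : ((seqP L).bind fun t' => PMF.pure (a :: t')) [] = 0 := by
    rw [PMF.bind_apply]
    refine ENNReal.tsum_eq_zero.2 fun t' => ?_
    simp [PMF.pure_apply]
  rw [this, mul_zero]

/-- Lists of positive probability have the right length. -/
theorem seqP_length {β : Type} (L : List (PMF β)) (t : List β) (h : seqP L t ≠ 0) :
    t.length = L.length := by
  induction L generalizing t with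
  | nil =>
    rw [seqP_nil_apply] at h
    by_cases e : t = []
    · simp [e]
    · simp [e] at h
  | cons μ L ih =>
    cases t with
    | nil => exact absurd (seqP_cons_nil μ L) h
    | cons a t =>
      rw [seqP_cons_apply] at h
      have := ih t (right_ne_zero_of_mul h)
      simp [this]

/-- The law of a list of independent samples. -/
theorem seqP_ofFn_apply {β : Type} {k : ℕ} (P : Fin k → PMF β) (t : Fin k → β) :
    seqP (List.ofFn P) (List.ofFn t) = ∏ i, P i (t i) := by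
  induction k with
  | zero => simp [seqP_nil_apply]
  | succ k ih =>
    rw [List.ofFn_succ, List.ofFn_succ, seqP_cons_apply, ih, Fin.prod_univ_succ]

/-- A list of the right length is a function. -/
theorem exists_ofFn {β : Type} {k : ℕ} (t : List β) (h : t.length = k) :
    ∃ f : Fin k → β, t = List.ofFn f := by
  subst h
  exact ⟨t.get, (List.ofFn_get t).symm⟩

/-! ### Pulling a law back along an injective map -/

/-- A law supported on the image of an injective map, on the source. -/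
noncomputable def pull {Z β : Type} (φ : Z → β) (hφ : Function.Injective φ) (ν : PMF β)
    (h : ∀ x, (∀ z, x ≠ φ z) → ν x = 0) : PMF Z :=
  ⟨fun z => ν (φ z), by
    have e : ∑' z, ν (φ z) = ∑' x, ν x := hφ.tsum_eq (by
      intro x hx
      by_contra hn
      exact hx (h x fun z e => hn ⟨z, e.symm⟩))
    exact ENNReal.summable.hasSum_iff.2 (e.trans ν.tsum_coe)⟩

theorem pull_apply {Z β : Type} (φ : Z → β) (hφ : Function.Injective φ) (ν : PMF β)
    (h : ∀ x, (∀ z, x ≠ φ z) → ν x = 0) (z : Z) : pull φ hφ ν h z = ν (φ z) := rfl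

theorem pull_map {Z β : Type} (φ : Z → β) (hφ : Function.Injective φ) (ν : PMF β)
    (h : ∀ x, (∀ z, x ≠ φ z) → ν x = 0) : (pull φ hφ ν h).map φ = ν := by
  classical
  ext x
  rw [PMF.map_apply]
  by_cases hx : ∃ z, x = φ z
  · obtain ⟨z, rfl⟩ := hx
    rw [tsum_eq_single z]
    · simp [pull_apply]
    · intro z' hz'
      have : φ z ≠ φ z' := fun e => hz' (hφ e).symm
      simp [this]
  · push Not at hx
    rw [h x hx]
    refine ENNReal.tsum_eq_zero.2 fun z => ?_
    simp [hx z]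

/-- The iterates of a kernel on the image. -/
theorem iterate_map {Z β : Type} (φ : Z → β) (f : Z → PMF Z) (g : β → PMF β)
    (h : ∀ z, (f z).map φ = g (φ z)) (T : ℕ) (z : Z) :
    (fun μ : PMF β => μ.bind g)^[T] (PMF.pure (φ z))
      = ((fun μ : PMF Z => μ.bind f)^[T] (PMF.pure z)).map φ := by
  induction T with
  | zero => simp [PMF.pure_map]
  | succ T ih =>
    rw [Function.iterate_succ_apply', Function.iterate_succ_apply', ih, PMF.map_bind, PMF.bind_map]
    refine congrArg _ (funext fun a => ?_)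
    rw [h]
    rfl

/-- The row of a kernel sums to one. -/
theorem pmf_sum_toReal {Z : Type} [Fintype Z] (μ : PMF Z) : ∑ z, (μ z).toReal = 1 := by
  have h := μ.tsum_coe
  rw [tsum_fintype] at h
  rw [← ENNReal.toReal_sum (fun a _ => μ.apply_ne_top a), h]
  simp

/-! ### Total variation of products -/

section Prod

variable {ι κ : Type} [Fintype ι] [DecidableEq ι] [Fintype κ]

/-- A step of the hybrid argument. -/
theorem hybrid_step (a b : ι → κ → ℝ) (ha0 : ∀ i v, 0 ≤ a i v) (hb0 : ∀ i v, 0 ≤ b i v)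
    (ha1 : ∀ i, ∑ v, a i v ≤ 1) (hb1 : ∀ i, ∑ v, b i v ≤ 1) (s : Finset ι) (i0 : ι) (hi0 : i0 ∉ s) :
    ∑ z : ι → κ, |∏ i, (if i ∈ insert i0 s then a i (z i) else b i (z i))
        - ∏ i, (if i ∈ s then a i (z i) else b i (z i))|
      ≤ ∑ v, |a i0 v - b i0 v| := by
  set c : ι → κ → ℝ := fun i v => if i = i0 then |a i0 v - b i0 v|
    else if i ∈ s then a i v else b i v with hc
  have hc0 : ∀ i v, 0 ≤ c i v := by
    intro i v
    simp only [hc]
    split_ifs
    · exact abs_nonneg _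
    · exact ha0 _ _
    · exact hb0 _ _
  have hterm : ∀ z : ι → κ, |∏ i, (if i ∈ insert i0 s then a i (z i) else b i (z i))
        - ∏ i, (if i ∈ s then a i (z i) else b i (z i))| = ∏ i, c i (z i) := by
    intro z
    have e1 : ∏ i, (if i ∈ insert i0 s then a i (z i) else b i (z i))
        = a i0 (z i0) * ∏ i ∈ univ.erase i0, (if i ∈ s then a i (z i) else b i (z i)) := by
      rw [← Finset.mul_prod_erase univ _ (Finset.mem_univ i0), if_pos (Finset.mem_insert_self _ _)]
      congr 1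
      refine Finset.prod_congr rfl fun i hi => ?_
      have : i ≠ i0 := Finset.ne_of_mem_erase hi
      simp [Finset.mem_insert, this]
    have e2 : ∏ i, (if i ∈ s then a i (z i) else b i (z i))
        = b i0 (z i0) * ∏ i ∈ univ.erase i0, (if i ∈ s then a i (z i) else b i (z i)) := by
      rw [← Finset.mul_prod_erase univ _ (Finset.mem_univ i0), if_neg hi0]
    have e3 : ∏ i, c i (z i)
        = |a i0 (z i0) - b i0 (z i0)| * ∏ i ∈ univ.erase i0, (if i ∈ s then a i (z i) else b i (z i)) := by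
      rw [← Finset.mul_prod_erase univ _ (Finset.mem_univ i0)]
      simp only [hc, if_true]
      congr 1
      refine Finset.prod_congr rfl fun i hi => ?_
      have : i ≠ i0 := Finset.ne_of_mem_erase hi
      simp [this]
    rw [e1, e2, e3, ← sub_mul, abs_mul]
    congr 1
    refine abs_of_nonneg (Finset.prod_nonneg fun i _ => ?_)
    split_ifs
    · exact ha0 _ _
    · exact hb0 _ _
  simp only [hterm]
  have hprod : ∑ z : ι → κ, ∏ i, c i (z i) = ∏ i, ∑ v, c i v := by
    rw [Finset.prod_univ_sum, Fintype.piFinset_univ]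
  rw [hprod, ← Finset.mul_prod_erase univ _ (Finset.mem_univ i0)]
  have h0 : ∑ v, c i0 v = ∑ v, |a i0 v - b i0 v| := by
    simp [hc]
  rw [h0]
  refine mul_le_of_le_one_right (Finset.sum_nonneg fun v _ => abs_nonneg _) ?_
  refine Finset.prod_le_one (fun i _ => Finset.sum_nonneg fun v _ => hc0 i v) fun i hi => ?_
  have : i ≠ i0 := Finset.ne_of_mem_erase hi
  simp only [hc, if_neg this]
  by_cases his : i ∈ s
  · simp only [his, if_true]
    exact ha1 i
  · simp only [his, if_false]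
    exact hb1 i

/-- **Total variation of a product of sub-probability vectors.** -/
theorem prod_tv (a b : ι → κ → ℝ) (ha0 : ∀ i v, 0 ≤ a i v) (hb0 : ∀ i v, 0 ≤ b i v)
    (ha1 : ∀ i, ∑ v, a i v ≤ 1) (hb1 : ∀ i, ∑ v, b i v ≤ 1) :
    ∑ z : ι → κ, |∏ i, a i (z i) - ∏ i, b i (z i)| ≤ ∑ i, ∑ v, |a i v - b i v| := by
  have key : ∀ s : Finset ι, ∑ z : ι → κ,
      |∏ i, (if i ∈ s then a i (z i) else b i (z i)) - ∏ i, b i (z i)|
        ≤ ∑ i ∈ s, ∑ v, |a i v - b i v| := by
    intro s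
    induction s using Finset.induction_on with
    | empty => simp
    | insert i0 s hi0 ih =>
      rw [Finset.sum_insert hi0]
      have h := hybrid_step a b ha0 hb0 ha1 hb1 s i0 hi0
      calc _ ≤ ∑ z : ι → κ, (|∏ i, (if i ∈ insert i0 s then a i (z i) else b i (z i))
              - ∏ i, (if i ∈ s then a i (z i) else b i (z i))|
            + |∏ i, (if i ∈ s then a i (z i) else b i (z i)) - ∏ i, b i (z i)|) :=
            Finset.sum_le_sum fun z _ => abs_sub_le _ _ _
        _ ≤ _ := by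
            rw [Finset.sum_add_distrib]
            exact add_le_add h ih
  have := key univ
  simpa using this

end Prod

/-! ### A move of one coordinate -/

section Move

/-- The label bound is small. -/
theorem cellM_small {S : ℕ} (hS : 1000000 ≤ S) : (cellM S : ℤ) + 1 ≤ 2 ^ (S ^ 2) := by
  have h1 : S < 2 ^ S := Nat.lt_two_pow_self
  have h2 : S ^ 56 ≤ (2 ^ S) ^ 56 := Nat.pow_le_pow_left h1.le _
  have h3 : (2 ^ S) ^ 56 = 2 ^ (S * 56) := (pow_mul _ _ _).symm
  have h4 : cellM S + 1 ≤ 2 ^ (S * 56 + 3) := by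
    unfold cellM
    have h5 : 2 ^ (S * 56 + 3) = 8 * 2 ^ (S * 56) := by ring
    have h6 : 1 ≤ 2 ^ (S * 56) := Nat.one_le_two_pow
    omega
  have h7 : S * 56 + 3 ≤ S ^ 2 := by nlinarith
  have h8 : cellM S + 1 ≤ 2 ^ (S ^ 2) := h4.trans (Nat.pow_le_pow_right (by norm_num) h7)
  exact_mod_cast h8

/-- One move as a function of the random number `U`. -/
def moveG (S : ℕ) (x : ℤ × ℤ) (U : ℤ) : ℤ :=
  if 0 < csub S x.1 U then cadd S x.2 1 else if 0 < csub S (cadd S x.1 x.1) U then csub S x.2 1 else x.2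

/-- A move of one coordinate. -/
noncomputable def moveF (S : ℕ) (x : ℤ × ℤ) : PMF ℤ :=
  (bitsF S).bind fun U => PMF.pure (moveG S x U)

theorem moveF_rep : Rep moveF := by
  have hd : DRep (α := (ℤ × ℤ) × ℤ) (β := ℤ) fun S y => moveG S y.1 y.2 := by
    have h1 : DRep (α := (ℤ × ℤ) × ℤ) (β := ℤ) fun _ y => y.1.1 := DRep.fst.comp DRep.fst
    have h2 : DRep (α := (ℤ × ℤ) × ℤ) (β := ℤ) fun _ y => y.1.2 := DRep.fst.comp DRep.snd
    exact DRep.ite (h1.sub DRep.snd) (h2.add DRep.one)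
      (DRep.ite ((h1.add h1).sub DRep.snd) (h2.sub DRep.one) h2)
  exact Rep.bind (f := fun S _ => bitsF S) bitsF_rep (Rep.ofD hd)

variable {S : ℕ}

theorem moveG_eq (hS : 1000000 ≤ S) {pt a U : ℤ} (h0 : 0 ≤ pt) (h2 : 2 * pt ≤ 2 ^ (S ^ 2)) (hU0 : 0 ≤ U)
    (hU : U < 2 ^ (S ^ 2)) (ha0 : 0 ≤ a) (ha : a < cellM S) :
    moveG S (pt, a) U = if U < pt then a + 1 else if U < 2 * pt then a - 1 else a := by
  have hN := cellM_small hS
  have hc : ∀ z : ℤ, -2 ^ (S ^ 2) ≤ z → z ≤ 2 ^ (S ^ 2) → clamp S z = z := by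
    intro z h1 h2
    exact CoinAux.clamp_small hS (e := 2) (by norm_num) (abs_le.2 ⟨h1, h2⟩)
  have hNpos : (0 : ℤ) < 2 ^ (S ^ 2) := by positivity
  have e1 : csub S pt U = pt - U := by
    unfold csub
    rw [hc pt (by linarith) (by linarith), hc U (by linarith) (by linarith),
      hc (pt - U) (by linarith) (by linarith)]
  have e2 : cadd S pt pt = 2 * pt := by
    unfold cadd
    rw [hc pt (by linarith) (by linarith), hc (pt + pt) (by linarith) (by linarith)]
    ring
  have e3 : csub S (2 * pt) U = 2 * pt - U := by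
    unfold csub
    rw [hc (2 * pt) (by linarith) (by linarith), hc U (by linarith) (by linarith),
      hc (2 * pt - U) (by linarith) (by linarith)]
  have h1c : clamp S 1 = 1 := clamp_one S
  have e4 : cadd S a 1 = a + 1 := by
    unfold cadd
    rw [hc a (by linarith) (by linarith), h1c, hc (a + 1) (by linarith) (by linarith)]
  have e5 : csub S a 1 = a - 1 := by
    unfold csub
    rw [hc a (by linarith) (by linarith), h1c, hc (a - 1) (by linarith) (by linarith)]
  unfold moveG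
  simp only [e1, e2, e3, e4, e5, sub_pos]

theorem moveF_count (hS : 1000000 ≤ S) (x : ℤ × ℤ) (b : ℤ) :
    (moveF S x b).toReal
      = ((((Finset.Ico (0 : ℤ) (2 ^ (S ^ 2))).filter fun U => b = moveG S x U).card : ℕ) : ℝ)
        * (1 / 2 : ℝ) ^ (S ^ 2) := by
  classical
  have h : moveF S x b = (((Finset.Ico (0 : ℤ) (2 ^ (S ^ 2))).filter fun U => b = moveG S x U).card : ENNReal)
      * ((2 : ENNReal) ^ (S ^ 2))⁻¹ := by
    unfold moveF
    rw [PMF.bind_apply, tsum_eq_sum (s := Finset.Ico (0 : ℤ) (2 ^ (S ^ 2)))]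
    · have h : ∀ U ∈ Finset.Ico (0 : ℤ) (2 ^ (S ^ 2)),
          bitsF S U * (PMF.pure (moveG S x U)) b =
            if b = moveG S x U then ((2 : ENNReal) ^ (S ^ 2))⁻¹ else 0 := by
        intro U hU
        obtain ⟨h0, h1⟩ := Finset.mem_Ico.1 hU
        rw [bitsF_apply hS, if_pos ⟨h0, h1⟩, PMF.pure_apply]
        by_cases ht : b = moveG S x U
        · simp [ht]
        · simp [ht]
      rw [Finset.sum_congr rfl h, ← Finset.sum_filter, Finset.sum_const, nsmul_eq_mul]
    · intro U hU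
      have hr : ¬ (0 ≤ U ∧ U < 2 ^ (S ^ 2)) := fun h => hU (Finset.mem_Ico.2 h)
      rw [bitsF_apply hS, if_neg hr, zero_mul]
  rw [h, ENNReal.toReal_mul, ENNReal.toReal_natCast, ENNReal.toReal_inv, ENNReal.toReal_pow]
  simp

/-- **The law of a move on labels.** -/
theorem moveF_real (hS : 1000000 ≤ S) {pt : ℤ} (h0 : 0 ≤ pt) (h2 : 2 * pt ≤ 2 ^ (S ^ 2))
    (a b : Fin (cellM S)) :
    (moveF S (pt, ((a : ℕ) : ℤ)) ((b : ℕ) : ℤ)).toReal
      = propStep ((pt : ℝ) * (1 / 2 : ℝ) ^ (S ^ 2)) a b := by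
  classical
  rw [moveF_count hS]
  have ha0 : (0 : ℤ) ≤ ((a : ℕ) : ℤ) := Int.natCast_nonneg _
  have ha : ((a : ℕ) : ℤ) < cellM S := by exact_mod_cast a.2
  have hN : (0 : ℤ) < 2 ^ (S ^ 2) := by positivity
  have hR : (2 : ℝ) ^ (S ^ 2) * (1 / 2 : ℝ) ^ (S ^ 2) = 1 := by
    rw [← mul_pow]
    norm_num
  have hf : ∀ v : ℤ, (Finset.Ico (0 : ℤ) (2 ^ (S ^ 2))).filter (fun U => v = moveG S (pt, ((a : ℕ) : ℤ)) U)
      = (Finset.Ico (0 : ℤ) (2 ^ (S ^ 2))).filter (fun U => v = if U < pt then ((a : ℕ) : ℤ) + 1 else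
        if U < 2 * pt then ((a : ℕ) : ℤ) - 1 else ((a : ℕ) : ℤ)) := by
    intro v
    refine Finset.filter_congr fun U hU => ?_
    obtain ⟨h3, h4⟩ := Finset.mem_Ico.1 hU
    rw [moveG_eq hS h0 h2 h3 h4 ha0 ha]
  rw [hf]
  unfold propStep
  by_cases hab : a = b
  · subst hab
    rw [if_pos rfl]
    have e : (Finset.Ico (0 : ℤ) (2 ^ (S ^ 2))).filter (fun U => ((a : ℕ) : ℤ) = if U < pt then ((a : ℕ) : ℤ) + 1 else
        if U < 2 * pt then ((a : ℕ) : ℤ) - 1 else ((a : ℕ) : ℤ)) = Finset.Ico (2 * pt) (2 ^ (S ^ 2)) := by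
      ext U
      simp only [Finset.mem_filter, Finset.mem_Ico]
      split_ifs <;> constructor <;> intro h <;> omega
    rw [e, Int.card_Ico]
    have : (((2 ^ (S ^ 2) - 2 * pt).toNat : ℕ) : ℝ) = (2 : ℝ) ^ (S ^ 2) - 2 * pt := by
      have h5 : (((2 ^ (S ^ 2) - 2 * pt).toNat : ℕ) : ℤ) = 2 ^ (S ^ 2) - 2 * pt :=
        Int.toNat_of_nonneg (by linarith)
      have h6 : (((2 ^ (S ^ 2) - 2 * pt).toNat : ℕ) : ℝ)
          = (((((2 ^ (S ^ 2) - 2 * pt).toNat : ℕ) : ℤ)) : ℝ) := by push_cast; rfl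
      rw [h6, h5]
      push_cast
      ring
    rw [this, sub_mul, hR]
    ring
  rw [if_neg hab]
  have hab' : ((a : ℕ) : ℤ) ≠ ((b : ℕ) : ℤ) := fun e => hab (Fin.ext (by exact_mod_cast e))
  by_cases hup : (a : ℕ) + 1 = b
  · rw [if_pos (Or.inl hup)]
    have hb : ((b : ℕ) : ℤ) = ((a : ℕ) : ℤ) + 1 := by omega
    have e : (Finset.Ico (0 : ℤ) (2 ^ (S ^ 2))).filter (fun U => ((b : ℕ) : ℤ) = if U < pt then ((a : ℕ) : ℤ) + 1 else
        if U < 2 * pt then ((a : ℕ) : ℤ) - 1 else ((a : ℕ) : ℤ)) = Finset.Ico 0 pt := by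
      ext U
      simp only [Finset.mem_filter, Finset.mem_Ico]
      split_ifs <;> constructor <;> intro h <;> omega
    rw [e, Int.card_Ico]
    have : (((pt - 0).toNat : ℕ) : ℝ) = pt := by
      have h5 : (((pt - 0).toNat : ℕ) : ℤ) = pt := by
        rw [Int.toNat_of_nonneg (by linarith)]
        ring
      exact_mod_cast h5
    rw [this]
  by_cases hdn : (b : ℕ) + 1 = a
  · rw [if_pos (Or.inr hdn)]
    have hb : ((b : ℕ) : ℤ) = ((a : ℕ) : ℤ) - 1 := by omega
    have e : (Finset.Ico (0 : ℤ) (2 ^ (S ^ 2))).filter (fun U => ((b : ℕ) : ℤ) = if U < pt then ((a : ℕ) : ℤ) + 1 else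
        if U < 2 * pt then ((a : ℕ) : ℤ) - 1 else ((a : ℕ) : ℤ)) = Finset.Ico pt (2 * pt) := by
      ext U
      simp only [Finset.mem_filter, Finset.mem_Ico]
      split_ifs <;> constructor <;> intro h <;> omega
    rw [e, Int.card_Ico]
    have : (((2 * pt - pt).toNat : ℕ) : ℝ) = pt := by
      have h5 : (((2 * pt - pt).toNat : ℕ) : ℤ) = pt := by
        rw [Int.toNat_of_nonneg (by linarith)]
        ring
      exact_mod_cast h5
    rw [this]
  · rw [if_neg (by tauto)]
    have e : (Finset.Ico (0 : ℤ) (2 ^ (S ^ 2))).filter (fun U => ((b : ℕ) : ℤ) = if U < pt then ((a : ℕ) : ℤ) + 1 else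
        if U < 2 * pt then ((a : ℕ) : ℤ) - 1 else ((a : ℕ) : ℤ)) = ∅ := by
      ext U
      simp only [Finset.mem_filter, Finset.mem_Ico, Finset.notMem_empty, iff_false, not_and]
      intro _
      split_ifs <;> omega
    rw [e]
    simp

end Move

/-! ### The proposal -/

section Proposal

variable {S m n : ℕ}

/-- The proposal: each coordinate of each column moves. -/
noncomputable def propF (S : ℕ) (x : ℤ × List (List ℤ)) : PMF (List (List ℤ)) :=
  seqP ((x.2.take S).map fun col => seqP ((col.take S).map fun v => moveF S (x.1, v)))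

theorem propF_rep : Rep propF := by
  have h1 : Rep (α := ((ℤ × List (List ℤ)) × List ℤ) × ℤ) (β := ℤ) fun S y => moveF S (y.1.1.1, y.2) :=
    CoinAux.comp_of_drep (((DRep.fst.comp DRep.fst).comp DRep.fst).pair DRep.snd) moveF_rep
  have h2 : Rep (α := (ℤ × List (List ℤ)) × List ℤ) (β := List ℤ)
      fun S y => seqP ((y.2.take S).map fun v => moveF S (y.1.1, v)) :=
    Rep.mapS (l := fun _ y => y.2) DRep.snd h1
  exact Rep.mapS (l := fun _ x => x.2) DRep.snd h2

theorem lZ_injective {M : ℕ} : Function.Injective (lZ : (Fin n × Fin m → Fin M) → List (List ℤ)) := by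
  intro z z' h
  unfold lZ at h
  have h1 := List.ofFn_injective h
  funext k
  have h2 := List.ofFn_injective (congrFun h1 k.1)
  have h3 := congrFun h2 k.2
  exact Fin.ext (by exact_mod_cast h3)

theorem propF_lZ (hn : n ≤ S) (hm : m ≤ S) {M : ℕ} (pt : ℤ) (z : Fin n × Fin m → Fin M) :
    propF S (pt, lZ z) = seqP (List.ofFn fun j => seqP (List.ofFn fun i => moveF S (pt, ((z (j, i) : ℕ) : ℤ)))) := by
  unfold propF lZ
  simp only
  rw [List.take_of_length_le (by simpa using hn), List.map_ofFn]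
  congr 2
  funext j
  simp only [Function.comp]
  rw [List.take_of_length_le (by simpa using hm), List.map_ofFn]
  rfl

/-- The proposal at a point of the grid. -/
theorem propF_apply (hn : n ≤ S) (hm : m ≤ S) {M : ℕ} (pt : ℤ) (z t : Fin n × Fin m → Fin M) :
    propF S (pt, lZ z) (lZ t) = ∏ k, moveF S (pt, ((z k : ℕ) : ℤ)) ((t k : ℕ) : ℤ) := by
  rw [propF_lZ hn hm]
  unfold lZ
  rw [seqP_ofFn_apply, Fintype.prod_prod_type]
  refine Finset.prod_congr rfl fun j _ => ?_
  rw [seqP_ofFn_apply]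

/-- **The law of the proposal on the grid.** -/
theorem propF_real (hS : 1000000 ≤ S) (hn : n ≤ S) (hm : m ≤ S) {pt : ℤ} (h0 : 0 ≤ pt)
    (h2 : 2 * pt ≤ 2 ^ (S ^ 2)) (z t : Fin n × Fin m → Fin (cellM S)) :
    (propF S (pt, lZ z) (lZ t)).toReal = prop ((pt : ℝ) * (1 / 2 : ℝ) ^ (S ^ 2)) z t := by
  rw [propF_apply hn hm, ENNReal.toReal_prod]
  unfold prop
  refine Finset.prod_congr rfl fun k _ => ?_
  exact moveF_real hS h0 h2 _ _

/-- The proposal gives matrices of the right shape. -/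
theorem propF_shape (hn : n ≤ S) (hm : m ≤ S) {M : ℕ} (pt : ℤ) (z : Fin n × Fin m → Fin M)
    (l : List (List ℤ)) (h : propF S (pt, lZ z) l ≠ 0) :
    ∃ x : Fin n → Fin m → ℤ, l = List.ofFn fun j => List.ofFn (x j) := by
  rw [propF_lZ hn hm] at h
  have h1 := seqP_length _ _ h
  simp only [List.length_ofFn] at h1
  obtain ⟨f, rfl⟩ := exists_ofFn l h1
  rw [seqP_ofFn_apply, Finset.prod_ne_zero_iff] at h
  have h3 : ∀ j, ∃ x : Fin m → ℤ, f j = List.ofFn x := by
    intro j
    have h4 := seqP_length _ _ (h j (Finset.mem_univ j))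
    simp only [List.length_ofFn] at h4
    exact exists_ofFn _ h4
  choose x hx using h3
  refine ⟨x, ?_⟩
  congr 1
  funext j
  exact hx j

end Proposal

/-! ### The test of a matrix -/

section Test

variable {S m n : ℕ}

theorem foldl_test {γ : Type} (T : γ → Prop) [DecidablePred T] (l : List γ) (s : ℤ) :
    0 < l.foldl (fun s a => if T a then s else 0) s ↔ 0 < s ∧ ∀ a ∈ l, T a := by
  induction l generalizing s with
  | nil => simp
  | cons a l ih =>
    rw [List.foldl_cons, ih]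
    by_cases h : T a
    · simp [h]
    · simp [h]

/-- The number of labels as a word. -/
noncomputable def cellW (S : ℕ) : ℤ := cadd S (cmul S (clamp S 4) (clamp S ((S : ℤ) ^ 56))) 1

theorem cellW_rep {α : Type} [Enc α] : DRep (α := α) (β := ℤ) fun S _ => cellW S :=
  ((DRep.natConst 4).mul (spow_rep 56)).add DRep.one

theorem cellW_eq (hS : 1000000 ≤ S) : cellW S = cellM S := by
  have hN := cellM_small hS
  have hp : (0 : ℤ) ≤ (S : ℤ) ^ 56 := by positivity
  have hM : (cellM S : ℤ) = 4 * (S : ℤ) ^ 56 + 1 := by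
    unfold cellM
    push_cast
    ring
  have hNpos : (0 : ℤ) < 2 ^ (S ^ 2) := by positivity
  have hc : ∀ z : ℤ, 0 ≤ z → z ≤ 2 ^ (S ^ 2) → clamp S z = z := by
    intro z h1 h2
    exact CoinAux.clamp_small hS (e := 2) (by norm_num) (abs_le.2 ⟨by linarith, h2⟩)
  have hp1 : (1 : ℤ) ≤ (S : ℤ) ^ 56 := one_le_pow₀ (by omega)
  have e4 : clamp S 4 = 4 := hc 4 (by norm_num) (by linarith)
  have e56 : clamp S ((S : ℤ) ^ 56) = (S : ℤ) ^ 56 := hc _ hp (by linarith)
  have e5 : clamp S (4 * (S : ℤ) ^ 56) = 4 * (S : ℤ) ^ 56 := hc _ (by positivity) (by linarith)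
  have e6 : clamp S (4 * (S : ℤ) ^ 56 + 1) = 4 * (S : ℤ) ^ 56 + 1 := hc _ (by positivity) (by linarith)
  unfold cellW cmul cadd
  simp only [e4, e56, e5, clamp_one, e6]
  rw [hM]

/-- The test of an entry. -/
noncomputable def entryT (S : ℕ) (v : ℤ) : ℤ := if 0 < cadd S v 1 then csub S (cellW S) v else 0

theorem entryT_pos_iff (hS : 1000000 ≤ S) (v : ℤ) : 0 < entryT S v ↔ 0 ≤ v ∧ v < cellM S := by
  have hN := cellM_small hS
  have hW : (2 : ℤ) ^ (S ^ 2) ≤ 2 ^ wid S := pow_le_pow_right₀ (by norm_num) (CoinAux.pow_le_wid hS (by norm_num))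
  have hM0 : (0 : ℤ) ≤ cellM S := Int.natCast_nonneg _
  unfold entryT
  by_cases h : 0 ≤ v
  · rw [if_pos ((CoinAux.cadd_one_pos_iff hS v).2 h)]
    unfold csub
    rw [CoinAux.clamp_pos_iff, cellW_eq hS, clamp_of_abs_le (z := (cellM S : ℤ))
      (by rw [abs_of_nonneg hM0]; linarith)]
    unfold clamp
    constructor
    · intro h1
      refine ⟨h, ?_⟩
      by_contra h2
      have h3 : (cellM S : ℤ) ≤ v := by omega
      have h4 : (cellM S : ℤ) ≤ min v (2 ^ wid S) := le_min h3 (by linarith)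
      have h5 : (cellM S : ℤ) ≤ max (-(2 ^ wid S)) (min v (2 ^ wid S)) := le_max_of_le_right h4
      omega
    · rintro ⟨_, h1⟩
      have h2 : min v (2 ^ wid S) = v := min_eq_left (by linarith)
      have h3 : max (-(2 ^ wid S)) v = v := max_eq_right (by
        have : (0 : ℤ) < 2 ^ wid S := by positivity
        linarith)
      rw [h2, h3]
      linarith
  · rw [if_neg (fun h1 => h ((CoinAux.cadd_one_pos_iff hS v).1 h1))]
    simp [h]

theorem entryT_rep : DRep entryT :=
  DRep.ite (DRep.id'.add DRep.one) (cellW_rep.sub DRep.id') DRep.zero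

/-- The test of a column. -/
noncomputable def okCol (S : ℕ) (col : List ℤ) : ℤ :=
  (col.take S).foldl (fun s v => if 0 < entryT S v then s else 0) 1

theorem okCol_rep : DRep okCol :=
  DRep.foldS (l := fun _ x => x) (i := fun _ _ => (1 : ℤ))
    (f := fun S y => if 0 < entryT S y.2.2 then y.2.1 else 0) DRep.id' DRep.one
    (DRep.ite ((DRep.snd.comp DRep.snd).comp entryT_rep) (DRep.snd.comp DRep.fst) DRep.zero)

/-- The test of a matrix. -/
noncomputable def okF (S : ℕ) (t : List (List ℤ)) : ℤ :=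
  (t.take S).foldl (fun s col => if 0 < okCol S col then s else 0) 1

theorem okF_rep : DRep okF :=
  DRep.foldS (l := fun _ x => x) (i := fun _ _ => (1 : ℤ))
    (f := fun S y => if 0 < okCol S y.2.2 then y.2.1 else 0) DRep.id' DRep.one
    (DRep.ite ((DRep.snd.comp DRep.snd).comp okCol_rep) (DRep.snd.comp DRep.fst) DRep.zero)

theorem okCol_ofFn (hS : 1000000 ≤ S) (hm : m ≤ S) (x : Fin m → ℤ) :
    0 < okCol S (List.ofFn x) ↔ ∀ i, 0 ≤ x i ∧ x i < cellM S := by
  unfold okCol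
  rw [List.take_of_length_le (by simpa using hm), foldl_test (fun v => 0 < entryT S v)]
  simp [List.mem_ofFn, entryT_pos_iff hS]

theorem okF_ofFn (hS : 1000000 ≤ S) (hn : n ≤ S) (hm : m ≤ S) (x : Fin n → Fin m → ℤ) :
    0 < okF S (List.ofFn fun j => List.ofFn (x j)) ↔ ∀ j i, 0 ≤ x j i ∧ x j i < cellM S := by
  unfold okF
  rw [List.take_of_length_le (by simpa using hn), foldl_test (fun v => 0 < okCol S v)]
  simp only [zero_lt_one, true_and, List.mem_ofFn]
  constructor
  · intro h j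
    exact (okCol_ofFn hS hm (x j)).1 (h _ ⟨j, rfl⟩)
  · rintro h _ ⟨j, rfl⟩
    exact (okCol_ofFn hS hm (x j)).2 (h j)

/-- A point of the grid passes the test. -/
theorem okF_lZ (hS : 1000000 ≤ S) (hn : n ≤ S) (hm : m ≤ S) (t : Fin n × Fin m → Fin (cellM S)) :
    0 < okF S (lZ t) := by
  unfold lZ
  rw [okF_ofFn hS hn hm]
  intro j i
  exact ⟨Int.natCast_nonneg _, by exact_mod_cast (t (j, i)).2⟩

/-- A matrix of the right shape which passes the test is a point of the grid. -/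
theorem okF_grid (hS : 1000000 ≤ S) (hn : n ≤ S) (hm : m ≤ S) (x : Fin n → Fin m → ℤ)
    (h : 0 < okF S (List.ofFn fun j => List.ofFn (x j))) :
    ∃ t : Fin n × Fin m → Fin (cellM S), (List.ofFn fun j => List.ofFn (x j)) = lZ t := by
  rw [okF_ofFn hS hn hm] at h
  have hb : ∀ k : Fin n × Fin m, (x k.1 k.2).toNat < cellM S := by
    intro k
    have h1 := h k.1 k.2
    omega
  refine ⟨fun k => ⟨(x k.1 k.2).toNat, hb k⟩, ?_⟩
  unfold lZ
  congr 1
  funext j
  congr 1
  funext i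
  simp only
  exact (Int.toNat_of_nonneg (h j i).1).symm

end Test

/-! ### One step -/

section Step

variable {S m n : ℕ}

theorem coinZ_bind_apply {β : Type} (g : ℤ → PMF β) (x : β) :
    (Rep.coinZ.bind g) x = 2⁻¹ * g 1 x + 2⁻¹ * g 0 x := by
  unfold Rep.coinZ
  rw [PMF.bind_map, PMF.bind_apply, tsum_fintype, Fintype.sum_bool]
  have e : ∀ b : Bool, PMF.uniformOfFintype Bool b = 2⁻¹ := by
    intro b
    simp [PMF.uniformOfFintype_apply]
  simp [e]

/-- After the proposal: the test of the grid and the acceptance coin. -/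
noncomputable def acceptG (S : ℕ) (A : List (List ℤ) → List (List ℤ) → ℤ) (z t : List (List ℤ)) :
    PMF (List (List ℤ)) :=
  if 0 < okF S t then (coinExpF S (A z t)).bind fun u => if 0 < u then PMF.pure t else PMF.pure z
  else PMF.pure z

/-- One step of the chain: `A z t` is the logarithm of the acceptance probability. -/
noncomputable def stepG (S : ℕ) (pt : ℤ) (A : List (List ℤ) → List (List ℤ) → ℤ) (z : List (List ℤ)) :
    PMF (List (List ℤ)) :=
  Rep.coinZ.bind fun b => if 0 < b then PMF.pure z else (propF S (pt, z)).bind fun t => acceptG S A z t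

theorem acceptG_zero (A : List (List ℤ) → List (List ℤ) → ℤ) {z t x : List (List ℤ)} (h1 : x ≠ z)
    (h2 : x ≠ t) : acceptG S A z t x = 0 := by
  classical
  unfold acceptG
  split_ifs
  · rw [PMF.bind_apply]
    refine ENNReal.tsum_eq_zero.2 fun u => ?_
    split_ifs
    · simp [PMF.pure_apply, h2]
    · simp [PMF.pure_apply, h1]
  · simp [PMF.pure_apply, h1]

theorem acceptG_self (hS : 1000000 ≤ S) (A : List (List ℤ) → List (List ℤ) → ℤ) {z t : List (List ℤ)}
    (h : 0 < okF S t) (hz : t ≠ z) : acceptG S A z t t = coinExpF S (A z t) 1 := by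
  classical
  unfold acceptG
  rw [if_pos h, PMF.bind_apply, tsum_eq_single 1]
  · simp [PMF.pure_apply]
  · intro u hu
    by_cases hc : coinExpF S (A z t) u = 0
    · simp [hc]
    · rcases coinExpF_support hS _ _ hc with rfl | rfl
      · simp [PMF.pure_apply, hz]
      · exact absurd rfl hu

theorem acceptG_fail {A : List (List ℤ) → List (List ℤ) → ℤ} {z t x : List (List ℤ)}
    (h : ¬ 0 < okF S t) (hx : x ≠ z) : acceptG S A z t x = 0 := by
  classical
  unfold acceptG
  rw [if_neg h]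
  simp [PMF.pure_apply, hx]

/-- The chain stays on the grid. -/
theorem stepG_support (hS : 1000000 ≤ S) (hn : n ≤ S) (hm : m ≤ S) (pt : ℤ)
    (A : List (List ℤ) → List (List ℤ) → ℤ) (z : Fin n × Fin m → Fin (cellM S)) (x : List (List ℤ))
    (hx : ∀ t : Fin n × Fin m → Fin (cellM S), x ≠ lZ t) : stepG S pt A (lZ z) x = 0 := by
  classical
  unfold stepG
  rw [coinZ_bind_apply]
  have hxz : x ≠ lZ z := hx z
  have h1 : (if (0 : ℤ) < 1 then PMF.pure (lZ z)
      else (propF S (pt, lZ z)).bind fun t => acceptG S A (lZ z) t) x = 0 := by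
    rw [if_pos (by norm_num)]
    simp [PMF.pure_apply, hxz]
  have h0 : (if (0 : ℤ) < 0 then PMF.pure (lZ z)
      else (propF S (pt, lZ z)).bind fun t => acceptG S A (lZ z) t) x = 0 := by
    rw [if_neg (by norm_num), PMF.bind_apply]
    refine ENNReal.tsum_eq_zero.2 fun t => ?_
    by_cases ht : x = t
    · subst ht
      by_cases hp : propF S (pt, lZ z) x = 0
      · simp [hp]
      · obtain ⟨y, hy⟩ := propF_shape hn hm pt z x hp
        have hok : ¬ 0 < okF S x := by
          intro hok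
          rw [hy] at hok
          obtain ⟨t, ht⟩ := okF_grid hS hn hm y hok
          exact hx t (hy.trans ht)
        rw [acceptG_fail hok hxz, mul_zero]
    · rw [acceptG_zero A hxz ht, mul_zero]
  rw [h1, h0]
  simp

/-- The law of a step off the diagonal. -/
theorem stepG_off (hS : 1000000 ≤ S) (hn : n ≤ S) (hm : m ≤ S) (pt : ℤ)
    (A : List (List ℤ) → List (List ℤ) → ℤ) (z t : Fin n × Fin m → Fin (cellM S)) (hzt : t ≠ z) :
    stepG S pt A (lZ z) (lZ t)
      = 2⁻¹ * (propF S (pt, lZ z) (lZ t) * coinExpF S (A (lZ z) (lZ t)) 1) := by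
  classical
  have hne : lZ t ≠ lZ z := fun e => hzt (lZ_injective e)
  unfold stepG
  rw [coinZ_bind_apply, if_pos (by norm_num), if_neg (by norm_num), PMF.pure_apply, if_neg hne,
    mul_zero, zero_add, PMF.bind_apply, tsum_eq_single (lZ t)]
  · rw [acceptG_self hS A (okF_lZ hS hn hm t) hne]
  · intro t' ht'
    rw [acceptG_zero A hne (Ne.symm ht'), mul_zero]

/-- The kernel of the chain on the grid. -/
noncomputable def kerG (hS : 1000000 ≤ S) (hn : n ≤ S) (hm : m ≤ S) (pt : ℤ)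
    (A : List (List ℤ) → List (List ℤ) → ℤ) (z : Fin n × Fin m → Fin (cellM S)) :
    PMF (Fin n × Fin m → Fin (cellM S)) :=
  pull lZ lZ_injective (stepG S pt A (lZ z)) (stepG_support hS hn hm pt A z)

theorem kerG_map (hS : 1000000 ≤ S) (hn : n ≤ S) (hm : m ≤ S) (pt : ℤ)
    (A : List (List ℤ) → List (List ℤ) → ℤ) (z : Fin n × Fin m → Fin (cellM S)) :
    (kerG hS hn hm pt A z).map lZ = stepG S pt A (lZ z) :=
  pull_map _ _ _ _

/-- The law of the kernel off the diagonal, in real numbers. -/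
theorem kerG_off (hS : 1000000 ≤ S) (hn : n ≤ S) (hm : m ≤ S) {pt : ℤ} (h0 : 0 ≤ pt)
    (h2 : 2 * pt ≤ 2 ^ (S ^ 2)) (A : List (List ℤ) → List (List ℤ) → ℤ)
    (z t : Fin n × Fin m → Fin (cellM S)) (hzt : t ≠ z) :
    (kerG hS hn hm pt A z t).toReal
      = (1 / 2) * prop ((pt : ℝ) * (1 / 2 : ℝ) ^ (S ^ 2)) z t * (coinExpF S (A (lZ z) (lZ t)) 1).toReal := by
  unfold kerG
  rw [pull_apply, stepG_off hS hn hm pt A z t hzt, ENNReal.toReal_mul, ENNReal.toReal_mul,
    propF_real hS hn hm h0 h2, ENNReal.toReal_inv]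
  simp
  ring

end Step

/-! ### Closeness of the rows -/

section Row

variable {ι : Type} [Fintype ι] [DecidableEq ι] {M : ℕ}

theorem propStep_diff (p p' : ℝ) (a v : Fin M) :
    |propStep p' a v - propStep p a v| = 4 * |p' - p| * propStep (1 / 4) a v := by
  unfold propStep
  split_ifs
  · have : 1 - 2 * p' - (1 - 2 * p) = -2 * (p' - p) := by ring
    rw [this, abs_mul]
    norm_num
    ring
  · ring_nf
  · simp

theorem propStep_tv (p p' : ℝ) (a : Fin M) :
    ∑ v, |propStep p' a v - propStep p a v| ≤ 4 * |p' - p| := by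
  simp only [propStep_diff]
  rw [← Finset.mul_sum]
  have h1 := sum_propStep_le (p := 1 / 4) (by norm_num) a
  have h2 : 0 ≤ 4 * |p' - p| := by positivity
  nlinarith

theorem prop_tv {p p' : ℝ} (hp0 : 0 ≤ p) (hp1 : p ≤ 1 / 2) (hp0' : 0 ≤ p') (hp1' : p' ≤ 1 / 2)
    (z : ι → Fin M) :
    ∑ t, |prop p' z t - prop p z t| ≤ Fintype.card ι * (4 * |p' - p|) := by
  have h := prod_tv (fun i v => propStep p' (z i) v) (fun i v => propStep p (z i) v)
    (fun i v => propStep_nonneg hp0' hp1' _ _) (fun i v => propStep_nonneg hp0 hp1 _ _)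
    (fun i => sum_propStep_le hp0' _) (fun i => sum_propStep_le hp0 _)
  unfold prop
  refine h.trans ?_
  calc ∑ i, ∑ v, |propStep p' (z i) v - propStep p (z i) v| ≤ ∑ _i : ι, 4 * |p' - p| :=
        Finset.sum_le_sum fun i _ => propStep_tv p p' _
    _ = _ := by
        simp

/-- **A row of the chain and the row of the ideal chain.** -/
theorem row_close {p p' ε : ℝ} (hp0 : 0 ≤ p) (hp1 : p ≤ 1 / 2) (hp0' : 0 ≤ p') (hp1' : p' ≤ 1 / 2)
    {w : (ι → Fin M) → ℝ} (hw : ∀ z, 0 < w z) (z : ι → Fin M) (Q acc : (ι → Fin M) → ℝ)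
    (hQ1 : ∑ t, Q t = 1) (hQ : ∀ t, t ≠ z → Q t = (1 / 2) * prop p' z t * acc t)
    (hacc0 : ∀ t, 0 ≤ acc t) (hacc1 : ∀ t, acc t ≤ 1)
    (hε : ∀ t, t ≠ z → |acc t - min 1 (w t / w z)| ≤ ε) (hε0 : 0 ≤ ε) :
    ∑ t, |Q t - gridP p w z t| ≤ Fintype.card ι * (4 * |p' - p|) + ε := by
  have hP := (Matrix.mem_rowStochastic_iff_sum.1 (q_gridP_mem (M := M) (w := w) hp0 hp1 hw)).2 z
  have hmain : ∑ t ∈ univ.erase z, |Q t - gridP p w z t|
      ≤ (1 / 2) * (Fintype.card ι * (4 * |p' - p|) + ε) := by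
    have hb : ∀ t ∈ univ.erase z, |Q t - gridP p w z t|
        ≤ (1 / 2) * (|prop p' z t - prop p z t| + prop p z t * ε) := by
      intro t ht
      have htz : t ≠ z := Finset.ne_of_mem_erase ht
      have hgrid : gridP p w z t = (1 / 2) * prop p z t * min 1 (w t / w z) := by
        unfold gridP
        rw [if_neg (Ne.symm htz)]
      rw [hQ t htz, hgrid]
      have e : (1 / 2) * prop p' z t * acc t - (1 / 2) * prop p z t * min 1 (w t / w z)
          = (1 / 2) * ((prop p' z t - prop p z t) * acc t + prop p z t * (acc t - min 1 (w t / w z))) := by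
        ring
      rw [e, abs_mul, abs_of_nonneg (by norm_num : (0 : ℝ) ≤ 1 / 2)]
      refine mul_le_mul_of_nonneg_left ?_ (by norm_num)
      refine (abs_add_le _ _).trans (add_le_add ?_ ?_)
      · rw [abs_mul, abs_of_nonneg (hacc0 t)]
        exact mul_le_of_le_one_right (abs_nonneg _) (hacc1 t)
      · rw [abs_mul, abs_of_nonneg (prop_nonneg hp0 hp1 z t)]
        exact mul_le_mul_of_nonneg_left (hε t htz) (prop_nonneg hp0 hp1 z t)
    refine (Finset.sum_le_sum hb).trans ?_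
    rw [← Finset.mul_sum, Finset.sum_add_distrib, ← Finset.sum_mul]
    refine mul_le_mul_of_nonneg_left (add_le_add ?_ ?_) (by norm_num)
    · refine (Finset.sum_le_sum_of_subset_of_nonneg (Finset.subset_univ _) fun t _ _ => abs_nonneg _).trans ?_
      exact prop_tv hp0 hp1 hp0' hp1' z
    · have h1 : ∑ t ∈ univ.erase z, prop p z t ≤ ∑ t, prop p z t :=
        Finset.sum_le_sum_of_subset_of_nonneg (Finset.subset_univ _) fun t _ _ => prop_nonneg hp0 hp1 z t
      have h2 := sum_prop_le (ι := ι) hp0 hp1 z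
      have h3 : ∑ t ∈ univ.erase z, prop p z t ≤ 1 := h1.trans h2
      nlinarith
  have hsplit : ∀ f : (ι → Fin M) → ℝ, ∑ t, f t = f z + ∑ t ∈ univ.erase z, f t := fun f =>
    (Finset.add_sum_erase univ f (Finset.mem_univ z)).symm
  have hdiag : |Q z - gridP p w z z| ≤ ∑ t ∈ univ.erase z, |Q t - gridP p w z t| := by
    have h1 := hsplit Q
    have h2 : ∑ t, gridP p w z t = gridP p w z z + ∑ t ∈ univ.erase z, gridP p w z t :=
      hsplit (fun t => gridP p w z t)
    rw [hQ1] at h1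
    rw [hP] at h2
    have e : Q z - gridP p w z z = -∑ t ∈ univ.erase z, (Q t - gridP p w z t) := by
      rw [Finset.sum_sub_distrib]
      linarith
    rw [e, abs_neg]
    exact Finset.abs_sum_le_sum_abs _ _
  rw [hsplit fun t => |Q t - gridP p w z t|]
  linarith

end Row

/-! ### The chain -/

section Chain

variable {S m n : ℕ} {r : Fin m → ℕ} {c : Fin n → ℕ}

/-- The acceptance probability is a Lipschitz function of its logarithm. -/
theorem min_exp_lip (x y : ℝ) : |min 1 (Real.exp x) - min 1 (Real.exp y)| ≤ |x - y| := by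
  wlog h : x ≤ y generalizing x y
  · rw [abs_sub_comm, abs_sub_comm x y]
    exact this y x (le_of_not_ge h)
  have hm : min 1 (Real.exp x) ≤ min 1 (Real.exp y) := min_le_min le_rfl (Real.exp_le_exp.2 h)
  rw [abs_of_nonpos (sub_nonpos.2 hm), abs_of_nonpos (sub_nonpos.2 h)]
  by_cases hy : y ≤ 0
  · rw [min_eq_right (Real.exp_le_one_iff.2 hy), min_eq_right (Real.exp_le_one_iff.2 (h.trans hy))]
    have h1 := Real.add_one_le_exp (x - y)
    have h2 : Real.exp x = Real.exp (x - y) * Real.exp y := by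
      rw [← Real.exp_add]
      ring_nf
    have h3 : Real.exp y ≤ 1 := Real.exp_le_one_iff.2 hy
    have h4 : 0 < Real.exp y := Real.exp_pos y
    have h5 : y - x ≥ 0 := by linarith
    rw [h2]
    nlinarith
  · have hy' : 0 ≤ y := (not_le.1 hy).le
    rw [min_eq_left (Real.one_le_exp hy')]
    by_cases hx : x ≤ 0
    · rw [min_eq_right (Real.exp_le_one_iff.2 hx)]
      have := Real.add_one_le_exp x
      linarith
    · rw [min_eq_left (Real.one_le_exp (not_le.1 hx).le)]
      linarith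

/-- The final number. -/
theorem chain_numeric (hS : 1000000 ≤ S) {D : ℝ} (hD : D ≤ S) :
    (S : ℝ) ^ 150 * (D * (4 * (1 / 2 : ℝ) ^ (S ^ 2)) + 3 * (1 / 2 : ℝ) ^ (S ^ 2))
      ≤ Real.exp (-(S : ℝ)) := by
  have hS1 : (1000000 : ℝ) ≤ S := by exact_mod_cast hS
  have h2 : (2 : ℝ) ^ (S ^ 2) * (1 / 2 : ℝ) ^ (S ^ 2) = 1 := by
    rw [← mul_pow]
    norm_num
  have hq : (0 : ℝ) < (1 / 2 : ℝ) ^ (S ^ 2) := by positivity
  have h3 : (S : ℝ) < 2 ^ S := by exact_mod_cast (Nat.lt_two_pow_self (n := S))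
  have h4 : Real.exp 1 ≤ 4 := by
    have := Real.exp_one_lt_d9
    linarith
  have h5 : Real.exp (S : ℝ) ≤ ((2 : ℝ) ^ S) ^ 2 := by
    have e1 : Real.exp (S : ℝ) = Real.exp 1 ^ S := by
      rw [← Real.exp_nat_mul]
      simp
    have e2 : ((2 : ℝ) ^ S) ^ 2 = 4 ^ S := by
      rw [← pow_mul, mul_comm, pow_mul]
      norm_num
    rw [e1, e2]
    exact pow_le_pow_left₀ (Real.exp_pos 1).le h4 _
  have h6 : (S : ℝ) ^ 152 ≤ ((2 : ℝ) ^ S) ^ 152 :=
    pow_le_pow_left₀ (by positivity) h3.le _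
  have h7 : ((2 : ℝ) ^ S) ^ 154 ≤ (2 : ℝ) ^ (S ^ 2) := by
    rw [← pow_mul]
    refine pow_le_pow_right₀ (by norm_num) ?_
    nlinarith
  have h8 : Real.exp (S : ℝ) * (S : ℝ) ^ 152 ≤ (2 : ℝ) ^ (S ^ 2) := by
    calc Real.exp (S : ℝ) * (S : ℝ) ^ 152 ≤ ((2 : ℝ) ^ S) ^ 2 * ((2 : ℝ) ^ S) ^ 152 :=
          mul_le_mul h5 h6 (by positivity) (by positivity)
      _ = ((2 : ℝ) ^ S) ^ 154 := by ring
      _ ≤ _ := h7
  have h9 : (S : ℝ) ^ 150 * (D * (4 * (1 / 2 : ℝ) ^ (S ^ 2)) + 3 * (1 / 2 : ℝ) ^ (S ^ 2))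
      ≤ (S : ℝ) ^ 152 * (1 / 2 : ℝ) ^ (S ^ 2) := by
    have e : (S : ℝ) ^ 152 = (S : ℝ) ^ 150 * (S * S) := by ring
    rw [e, mul_assoc]
    refine mul_le_mul_of_nonneg_left ?_ (by positivity)
    have h10 : D * 4 + 3 ≤ S * S := by nlinarith
    have e2 : D * (4 * (1 / 2 : ℝ) ^ (S ^ 2)) + 3 * (1 / 2 : ℝ) ^ (S ^ 2)
        = (D * 4 + 3) * (1 / 2 : ℝ) ^ (S ^ 2) := by ring
    rw [e2]
    exact mul_le_mul_of_nonneg_right h10 hq.le
  refine h9.trans ?_
  rw [Real.exp_neg, ← one_div, le_div_iff₀ (Real.exp_pos _)]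
  calc (S : ℝ) ^ 152 * (1 / 2 : ℝ) ^ (S ^ 2) * Real.exp (S : ℝ)
      = (Real.exp (S : ℝ) * (S : ℝ) ^ 152) * (1 / 2 : ℝ) ^ (S ^ 2) := by ring
    _ ≤ (2 : ℝ) ^ (S ^ 2) * (1 / 2 : ℝ) ^ (S ^ 2) := mul_le_mul_of_nonneg_right h8 hq.le
    _ = 1 := h2

theorem nodeOK_sizes (h : NodeOK S r c) : n ≤ S ∧ m ≤ S ∧ (n : ℝ) * m ≤ S ∧ (1 : ℝ) ≤ (n : ℝ) * m := by
  have h1 : (10 : ℝ) ^ 6 * ((n : ℝ) * m + 1) ^ 2 ≤ S := h.hW
  have hn1 : (1 : ℝ) ≤ n := by exact_mod_cast h.hn
  have hm1 : (1 : ℝ) ≤ m := by exact_mod_cast h.hm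
  have hD1 : (1 : ℝ) ≤ (n : ℝ) * m := by nlinarith
  have hD : (n : ℝ) * m ≤ S := by nlinarith
  refine ⟨?_, ?_, hD, hD1⟩
  · have : (n : ℝ) ≤ S := by nlinarith
    exact_mod_cast this
  · have : (m : ℝ) ≤ S := by nlinarith
    exact_mod_cast this

/-- **The law of the chain, for a general potential.** -/
theorem chain_generic (h : NodeOK S r c) (A : List (List ℤ) → List (List ℤ) → ℤ)
    {g : (Fin n × Fin m → Fin (cellM S)) → ℝ}
    (hg : ∀ z, ∀ u : Fin n × Fin m → ℝ, (∀ k, 0 ≤ u k ∧ u k ≤ 1) →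
      |g z - psiE S (iMax h.hm r) (jMax h.hn c) r c (cellPt S z u)| ≤ 3 / (S : ℝ) ^ 25)
    (hgb : ∀ z, -1 ≤ g z ∧ g z ≤ (S : ℝ) ^ 32) {a : ℝ} (ha0 : 0 ≤ a) (ha1 : a ≤ 1)
    (hA : ∀ z t : Fin n × Fin m → Fin (cellM S),
      |val S (A (lZ z) (lZ t)) - (-a * g t - -a * g z)| ≤ ulp S) :
    ∃ μ : PMF (Fin n × Fin m → Fin (cellM S)),
      (fun ν : PMF (List (List ℤ)) => ν.bind (stepG S (2 ^ (S ^ 2) / (4 * ((n : ℤ) * (m : ℤ)))) A))^[S ^ 150]
          (PMF.pure (lZ (zStart (Fin n × Fin m) S))) = μ.map lZ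
      ∧ ∑ z, |(μ z).toReal - Real.exp (-a * g z) / ∑ z', Real.exp (-a * g z')|
        ≤ 2 * Real.exp (-(S : ℝ)) := by
  have hS := h.S_ge
  obtain ⟨hn, hm, hDS, hD1⟩ := nodeOK_sizes h
  set pt : ℤ := 2 ^ (S ^ 2) / (4 * ((n : ℤ) * (m : ℤ))) with hpt
  set D : ℤ := (n : ℤ) * (m : ℤ) with hDdef
  have hDR : (D : ℝ) = (n : ℝ) * m := by
    simp [hDdef]
  have hD1Z : (1 : ℤ) ≤ D := by
    have : (1 : ℝ) ≤ (D : ℝ) := by rw [hDR]; exact hD1
    exact_mod_cast this
  have hNpos : (0 : ℤ) < 2 ^ (S ^ 2) := by positivity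
  have h0 : 0 ≤ pt := Int.ediv_nonneg hNpos.le (by linarith)
  have hpt1 : pt * (4 * D) ≤ 2 ^ (S ^ 2) := Int.ediv_mul_le _ (by linarith)
  have hpt2 : 2 ^ (S ^ 2) < (pt + 1) * (4 * D) := by
    have := Int.lt_ediv_add_one_mul_self (2 ^ (S ^ 2)) (show (0 : ℤ) < 4 * D by linarith)
    exact this
  have h2 : 2 * pt ≤ 2 ^ (S ^ 2) := by nlinarith
  set f := kerG hS hn hm pt A with hf
  set q : ℝ := (1 / 2 : ℝ) ^ (S ^ 2) with hq
  have hqpos : 0 < q := by positivity
  have hNq : (2 : ℝ) ^ (S ^ 2) * q = 1 := by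
    rw [hq, ← mul_pow]
    norm_num
  set p' : ℝ := (pt : ℝ) * q with hp'
  set p : ℝ := 1 / (4 * ((n : ℝ) * m)) with hp
  have hDpos : (0 : ℝ) < (n : ℝ) * m := by linarith
  have hpt1R : (pt : ℝ) * (4 * ((n : ℝ) * m)) ≤ 2 ^ (S ^ 2) := by
    have : ((pt * (4 * D) : ℤ) : ℝ) ≤ ((2 ^ (S ^ 2) : ℤ) : ℝ) := by exact_mod_cast hpt1
    push_cast at this
    rw [hDR] at this
    exact this
  have hpt2R : (2 : ℝ) ^ (S ^ 2) < ((pt : ℝ) + 1) * (4 * ((n : ℝ) * m)) := by
    have : ((2 ^ (S ^ 2) : ℤ) : ℝ) < (((pt + 1) * (4 * D) : ℤ) : ℝ) := by exact_mod_cast hpt2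
    push_cast at this
    rw [hDR] at this
    exact this
  have hpp4 : p * (4 * ((n : ℝ) * m)) = 1 := by
    rw [hp]
    exact div_mul_cancel₀ 1 (by positivity)
  have hp0 : 0 ≤ p := by rw [hp]; positivity
  have hp1 : p ≤ 1 / 2 := by
    rw [hp, div_le_div_iff₀ (by positivity) (by norm_num)]
    linarith
  have hle : p' ≤ p := by
    have : p' * (4 * ((n : ℝ) * m)) ≤ p * (4 * ((n : ℝ) * m)) := by
      rw [hpp4, hp']
      calc (pt : ℝ) * q * (4 * ((n : ℝ) * m)) = ((pt : ℝ) * (4 * ((n : ℝ) * m))) * q := by ring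
        _ ≤ 2 ^ (S ^ 2) * q := mul_le_mul_of_nonneg_right hpt1R hqpos.le
        _ = 1 := hNq
    exact le_of_mul_le_mul_right this (by positivity)
  have hge : p - q ≤ p' := by
    have : (p - q) * (4 * ((n : ℝ) * m)) ≤ p' * (4 * ((n : ℝ) * m)) := by
      have e : (p - q) * (4 * ((n : ℝ) * m)) = 1 - q * (4 * ((n : ℝ) * m)) := by
        rw [sub_mul, hpp4]
      rw [e, hp']
      have h3 := mul_le_mul_of_nonneg_right hpt2R.le hqpos.le
      rw [hNq] at h3
      nlinarith
    exact le_of_mul_le_mul_right this (by positivity)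
  have hp0' : 0 ≤ p' := by rw [hp']; have : (0 : ℝ) ≤ pt := by exact_mod_cast h0
                           positivity
  have hp1' : p' ≤ 1 / 2 := hle.trans hp1
  have hpp : |p' - p| ≤ q := by
    rw [abs_le]
    constructor <;> linarith
  set w : (Fin n × Fin m → Fin (cellM S)) → ℝ := fun z => Real.exp (-a * g z) with hw
  have hwpos : ∀ z, 0 < w z := fun z => Real.exp_pos _
  set Q : Matrix (Fin n × Fin m → Fin (cellM S)) (Fin n × Fin m → Fin (cellM S)) ℝ :=
    Matrix.of fun x y => (f x y).toReal with hQ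
  set P := gridP p w with hP
  have hPm := Matrix.mem_rowStochastic_iff_sum.1 (q_gridP_mem (ι := Fin n × Fin m) (M := cellM S) (w := w) hp0 hp1 hwpos)
  have hP0 : ∀ x y, 0 ≤ P x y := hPm.1
  have hP1 : ∀ x, ∑ y, P x y = 1 := hPm.2
  have hQ0 : ∀ x y, 0 ≤ Q x y := fun x y => ENNReal.toReal_nonneg
  have hQ1 : ∀ x, ∑ y, Q x y = 1 := fun x => pmf_sum_toReal (f x)
  have hhalf : ulp S ≤ q := by
    unfold ulp prec
    rw [hq, one_div, one_div, inv_pow]
    refine inv_anti₀ (by positivity) (pow_le_pow_right₀ (by norm_num) ?_)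
    exact Nat.pow_le_pow_right (by omega) (by norm_num)
  have hrow : ∀ x, ∑ y, |Q x y - P x y| ≤ (n : ℝ) * m * (4 * q) + 3 * q := by
    intro x
    have hr := row_close (ι := Fin n × Fin m) (M := cellM S) (p := p) (p' := p') (ε := 3 * q) hp0 hp1 hp0' hp1' hwpos x
      (Q x) (fun t => (coinExpF S (A (lZ x) (lZ t)) 1).toReal) (hQ1 x)
      (fun t ht => kerG_off hS hn hm h0 h2 A x t ht)
      (fun t => ENNReal.toReal_nonneg)
      (fun t => by
        have h3 : coinExpF S (A (lZ x) (lZ t)) 1 ≤ 1 := PMF.coe_le_one _ _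
        have h4 := ENNReal.toReal_mono ENNReal.one_ne_top h3
        simpa using h4)
      (fun t _ => by
        have h3 := coinExpF_spec hS (A (lZ x) (lZ t))
        have h4 : w t / w x = Real.exp (-a * g t - -a * g x) := by
          rw [Real.exp_sub]
        have h5 := min_exp_lip (val S (A (lZ x) (lZ t))) (-a * g t - -a * g x)
        have h6 := (hA x t)
        rw [h4]
        have h7 := abs_sub_le ((coinExpF S (A (lZ x) (lZ t)) 1).toReal)
          (min 1 (Real.exp (val S (A (lZ x) (lZ t))))) (min 1 (Real.exp (-a * g t - -a * g x)))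
        linarith)
      (by positivity)
    have hcard : ((Fintype.card (Fin n × Fin m) : ℕ) : ℝ) = (n : ℝ) * m := by
      simp [Fintype.card_prod]
    rw [hcard] at hr
    refine hr.trans ?_
    have : (n : ℝ) * m * (4 * |p' - p|) ≤ (n : ℝ) * m * (4 * q) :=
      mul_le_mul_of_nonneg_left (by linarith) hDpos.le
    linarith
  have hpow := matrix_pow_close hP0 hP1 hQ0 hQ1 hrow (S ^ 150) (zStart _ S)
  have htv := chain_tv_g (h.inst) h.hW h.hm h.hn (g := g) hg hgb ha0 ha1 (T := S ^ 150) (le_of_eq rfl)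
  refine ⟨(fun μ : PMF (Fin n × Fin m → Fin (cellM S)) => μ.bind f)^[S ^ 150] (PMF.pure (zStart _ S)), ?_, ?_⟩
  · exact iterate_map lZ f _ (fun z => kerG_map hS hn hm pt A z) (S ^ 150) (zStart _ S)
  have hnum := chain_numeric hS (D := (n : ℝ) * m) hDS
  have hterm : ∀ z, |(((fun μ : PMF (Fin n × Fin m → Fin (cellM S)) => μ.bind f)^[S ^ 150] (PMF.pure (zStart _ S))) z).toReal
        - Real.exp (-a * g z) / ∑ z', Real.exp (-a * g z')|
      ≤ |(Q ^ (S ^ 150)) (zStart _ S) z - (P ^ (S ^ 150)) (zStart _ S) z|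
        + |(P ^ (S ^ 150)) (zStart _ S) z - Real.exp (-a * g z) / ∑ z', Real.exp (-a * g z')| := by
    intro z
    rw [iter_eq_pow f (S ^ 150) (zStart _ S) z]
    exact abs_sub_le _ _ _
  refine (Finset.sum_le_sum fun z _ => hterm z).trans ?_
  rw [Finset.sum_add_distrib]
  have hT : ((S ^ 150 : ℕ) : ℝ) = (S : ℝ) ^ 150 := by push_cast; rfl
  rw [hT] at hpow
  linarith

end Chain

end ChainFAux

end Vale.Agent.Lib.P328.Bit
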