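import Vale.Agent.Lib.P328.Bit.Code

/-!
# P328, bit model: mixing for any weights close to the convex potential (module CHAING)

The proof of `chain_tv` in `Samp/PsiNum` with `g` in place of `psiCell`; `T ≥ chainT W` instead of `T = chainT W` (monotone: `(1 - x) ^ T`). It uses only `psiCell_close`, `psiCell_bounds`.
Also: the law of a chain whose kernel is close to `gridP` at each state.
-/

namespace Vale.Agent.Lib.P328.Bit

open Finset Vale.Agent.Lib.P328.Cap Vale.Agent.Lib.P328.Fpras Vale.Agent.Lib.P328.Samp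

variable {m n : ℕ} {i0 : Fin m} {j0 : Fin n} {r : Fin m → ℕ} {c : Fin n → ℕ}

/-- The contraction over `T` rounds. -/
theorem chainG_pow {W T : ℕ} {D M : ℝ} (hx1 : (1 : ℝ) ≤ W) (hD1 : 1 ≤ D)
    (hDsq : 1000000 * D ^ 2 ≤ W) (hMeq : M = 4 * (W : ℝ) ^ 56 + 1) (hT : chainT W ≤ T) :
    (1 - 1 / (16384 * D ^ 2 * M ^ 2)) ^ T ≤ Real.exp (-(W : ℝ) ^ 37) := by
  have hMge : 1 ≤ M := by
    rw [hMeq]; have : 0 ≤ (W : ℝ) ^ 56 := by positivity
    linarith
  have hMle : M ≤ 5 * (W : ℝ) ^ 56 := by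
    rw [hMeq]; linarith [one_le_pow₀ (n := 56) hx1]
  set q : ℝ := 1 / (16384 * D ^ 2 * M ^ 2) with hq
  have hqpos : 0 < q := by rw [hq]; positivity
  have hden : 16384 * D ^ 2 * M ^ 2 ≤ (W : ℝ) ^ 113 := by
    have h1 : M ^ 2 ≤ 25 * (W : ℝ) ^ 112 := by
      calc M ^ 2 ≤ (5 * (W : ℝ) ^ 56) ^ 2 := by
            apply pow_le_pow_left₀ (by linarith) hMle
        _ = 25 * (W : ℝ) ^ 112 := by ring
    have h2 : D ^ 2 ≤ W / 1000000 := by
      rw [le_div_iff₀ (by norm_num)]; linarith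
    calc 16384 * D ^ 2 * M ^ 2 ≤ 16384 * ((W : ℝ) / 1000000) * (25 * (W : ℝ) ^ 112) := by
          gcongr
      _ ≤ (W : ℝ) ^ 113 := by
          have : (W : ℝ) ^ 113 = W * (W : ℝ) ^ 112 := by ring
          rw [this]
          have h3 : 0 ≤ (W : ℝ) * (W : ℝ) ^ 112 := by positivity
          nlinarith
  have hden1 : 1 ≤ 16384 * D ^ 2 * M ^ 2 := by
    have h1 : 1 ≤ D ^ 2 := one_le_pow₀ hD1
    have h2 : 1 ≤ M ^ 2 := one_le_pow₀ hMge
    nlinarith
  have hq1 : q ≤ 1 := by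
    rw [hq, div_le_one (by positivity)]; exact hden1
  have h1 : 1 - q ≤ Real.exp (-q) := Real.one_sub_le_exp_neg q
  have h2 : (1 - q) ^ T ≤ Real.exp (-q) ^ T :=
    pow_le_pow_left₀ (by linarith) h1 _
  refine le_trans h2 ?_
  rw [← Real.exp_nat_mul]
  apply Real.exp_le_exp.mpr
  have h3 : (W : ℝ) ^ 150 ≤ (T : ℝ) := by
    have : ((chainT W : ℕ) : ℝ) ≤ (T : ℝ) := by exact_mod_cast hT
    have h5 : ((chainT W : ℕ) : ℝ) = (W : ℝ) ^ 150 := by unfold chainT; push_cast; ring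
    linarith
  have h4 : (W : ℝ) ^ 37 ≤ (W : ℝ) ^ 150 * q := by
    rw [hq, mul_one_div, le_div_iff₀ (by positivity)]
    calc (W : ℝ) ^ 37 * (16384 * D ^ 2 * M ^ 2) ≤ (W : ℝ) ^ 37 * (W : ℝ) ^ 113 := by gcongr
      _ = (W : ℝ) ^ 150 := by ring
  have h6 : (W : ℝ) ^ 150 * q ≤ (T : ℝ) * q := mul_le_mul_of_nonneg_right h3 hqpos.le
  have : (T : ℝ) * -q = -((T : ℝ) * q) := by ring
  rw [this]
  linarith

/-- The ratio of the total weight to the weight of a point. -/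
theorem chainG_ratio {m n W : ℕ} {a : ℝ} (hx0 : (0 : ℝ) < W) (hx5 : (5 : ℝ) ≤ W)
    (hD : ((n : ℝ) * m) ≤ W) {g : (Fin n × Fin m → Fin (cellM W)) → ℝ}
    (hgb : ∀ z, -1 ≤ g z ∧ g z ≤ (W : ℝ) ^ 32) (ha0 : 0 ≤ a) (ha1 : a ≤ 1)
    (z0 : Fin n × Fin m → Fin (cellM W)) :
    (∑ z', Real.exp (-a * g z')) / Real.exp (-a * g z0)
      ≤ Real.exp (57 * (W : ℝ) ^ 2 + 1 + (W : ℝ) ^ 32) := by
  set w : (Fin n × Fin m → Fin (cellM W)) → ℝ := fun z => Real.exp (-a * g z) with hw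
  have hwpos : ∀ z, 0 < w z := fun z => Real.exp_pos _
  have hx1 : (1 : ℝ) ≤ W := by linarith
  set M : ℝ := (cellM W : ℝ) with hM
  have hMeq : M = 4 * (W : ℝ) ^ 56 + 1 := psi_cellM_cast W
  have hMge : 1 ≤ M := by
    rw [hMeq]; have : 0 ≤ (W : ℝ) ^ 56 := by positivity
    linarith
  have hMle : M ≤ 5 * (W : ℝ) ^ 56 := by
    rw [hMeq]; linarith [one_le_pow₀ (n := 56) hx1]
  have hw0 : w z0 ≥ Real.exp (-(W : ℝ) ^ 32) := by
    apply Real.exp_le_exp.mpr
    have h1 := (hgb z0).2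
    have h2 : (0 : ℝ) ≤ (W : ℝ) ^ 32 := by positivity
    nlinarith
  have hwle : ∀ z, w z ≤ Real.exp 1 := by
    intro z
    apply Real.exp_le_exp.mpr
    have h1 := (hgb z).1
    nlinarith
  have hsum : ∑ z', w z' ≤ Real.exp (57 * (W : ℝ) ^ 2 + 1) := by
    have hcardS : ∑ z' : Fin n × Fin m → Fin (cellM W), w z'
        ≤ (Fintype.card (Fin n × Fin m → Fin (cellM W)) : ℝ) * Real.exp 1 := by
      have := Finset.sum_le_card_nsmul (univ : Finset (Fin n × Fin m → Fin (cellM W))) w (Real.exp 1)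
        (fun z _ => hwle z)
      simpa [nsmul_eq_mul, Finset.card_univ] using this
    refine le_trans hcardS ?_
    have hcc : ((Fintype.card (Fin n × Fin m → Fin (cellM W)) : ℕ) : ℝ) = M ^ (n * m) := by
      simp [Fintype.card_prod, hM]
    rw [hcc, Real.exp_add]
    apply mul_le_mul_of_nonneg_right _ (Real.exp_pos _).le
    have hMexp : M ≤ Real.exp (57 * (W : ℝ)) := by
      have h1 : (W : ℝ) ≤ Real.exp W := by linarith [Real.add_one_le_exp (W : ℝ)]
      have h2 : (W : ℝ) ^ 57 ≤ Real.exp (W : ℝ) ^ 57 := pow_le_pow_left₀ hx0.le h1 _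
      rw [← Real.exp_nat_mul] at h2
      have h3 : M ≤ (W : ℝ) ^ 57 := by
        have : (W : ℝ) ^ 57 = W * (W : ℝ) ^ 56 := by ring
        rw [this]
        have h4 : 5 * (W : ℝ) ^ 56 ≤ W * (W : ℝ) ^ 56 :=
          mul_le_mul_of_nonneg_right (by linarith) (by positivity)
        linarith
      refine le_trans h3 (le_trans h2 (le_of_eq ?_))
      norm_num
    calc M ^ (n * m) ≤ Real.exp (57 * (W : ℝ)) ^ (n * m) := pow_le_pow_left₀ (by linarith) hMexp _
      _ = Real.exp (((n * m : ℕ) : ℝ) * (57 * (W : ℝ))) := by rw [← Real.exp_nat_mul]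
      _ ≤ Real.exp (57 * (W : ℝ) ^ 2) := by
          apply Real.exp_le_exp.mpr
          have : ((n * m : ℕ) : ℝ) = (n : ℝ) * m := by push_cast; ring
          rw [this]
          nlinarith
  have hpos0 := hwpos z0
  rw [div_le_iff₀ hpos0]
  have h1 : Real.exp (57 * (W : ℝ) ^ 2 + 1 + (W : ℝ) ^ 32)
      = Real.exp (57 * (W : ℝ) ^ 2 + 1) * Real.exp ((W : ℝ) ^ 32) := by rw [Real.exp_add]
  rw [h1]
  have h2 : 1 ≤ Real.exp ((W : ℝ) ^ 32) * w z0 := by
    have h3 : Real.exp ((W : ℝ) ^ 32) * Real.exp (-(W : ℝ) ^ 32) = 1 := by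
      rw [← Real.exp_add]; simp
    have h4 := mul_le_mul_of_nonneg_left hw0 (Real.exp_pos ((W : ℝ) ^ 32)).le
    linarith
  calc ∑ z', w z' ≤ Real.exp (57 * (W : ℝ) ^ 2 + 1) := hsum
    _ ≤ Real.exp (57 * (W : ℝ) ^ 2 + 1) * (Real.exp ((W : ℝ) ^ 32) * w z0) :=
        le_mul_of_one_le_right (Real.exp_pos _).le h2
    _ = _ := by ring

/-- The final number. -/
theorem chainG_final {W : ℝ} (hx : 100 ≤ W) :
    Real.exp (-W ^ 37) * Real.exp (57 * W ^ 2 + 1 + W ^ 32) ≤ Real.exp (-W) ^ 2 := by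
  have hx1 : (1 : ℝ) ≤ W := by linarith
  rw [← Real.exp_add, ← Real.exp_nat_mul]
  apply Real.exp_le_exp.mpr
  have h1 : W ^ 2 ≤ W ^ 36 := psi_x_pow_mono hx1 (by norm_num)
  have h2 : W ^ 32 ≤ W ^ 36 := psi_x_pow_mono hx1 (by norm_num)
  have h3 : (1 : ℝ) ≤ W ^ 36 := one_le_pow₀ hx1
  have h4 : W ^ 1 ≤ W ^ 36 := psi_x_pow_mono hx1 (by norm_num)
  have h5 : W ^ 37 = W * W ^ 36 := by ring
  have h6 : 100 * W ^ 36 ≤ W * W ^ 36 :=
    mul_le_mul_of_nonneg_right (by linarith) (by positivity)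
  push_cast
  nlinarith [pow_one W]

/-- Mixing. -/
theorem chain_tv_g (h : InstOK i0 j0 r c) {W : ℕ} (hW : WOK m n W) (hm : 0 < m) (hn : 0 < n)
    {g : (Fin n × Fin m → Fin (cellM W)) → ℝ}
    (hg : ∀ z, ∀ u : Fin n × Fin m → ℝ, (∀ k, 0 ≤ u k ∧ u k ≤ 1) →
      |g z - psiE W i0 j0 r c (cellPt W z u)| ≤ 3 / (W : ℝ) ^ 25)
    (hgb : ∀ z, -1 ≤ g z ∧ g z ≤ (W : ℝ) ^ 32) {a : ℝ} (ha0 : 0 ≤ a) (ha1 : a ≤ 1) {T : ℕ}
    (hT : chainT W ≤ T) :
    ∑ z, |(gridP (1 / (4 * ((n : ℝ) * m))) (fun z' => Real.exp (-a * g z')) ^ T) (zStart _ W) z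
        - Real.exp (-a * g z) / ∑ z', Real.exp (-a * g z')|
      ≤ Real.exp (-(W : ℝ)) := by
  have : Nonempty (Fin n × Fin m) := ⟨(j0, i0)⟩
  have hx := hW.x_ge i0 j0
  have hx1 : (1 : ℝ) ≤ W := by linarith
  have hx0 : (0 : ℝ) < W := by linarith
  set w : (Fin n × Fin m → Fin (cellM W)) → ℝ :=
    fun z => Real.exp (-a * g z) with hw
  have hwpos : ∀ z, 0 < w z := fun z => Real.exp_pos _
  have hclose : ∀ z, ∀ x ∈ unitCell z, |Real.log (w z) + psiGrid W i0 j0 r c a x| ≤ 1 / 8 := by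
    intro z x hxz
    set u : Fin n × Fin m → ℝ := fun k => x k - ((z k : ℕ) : ℝ) with hu
    have hu01 : ∀ k, 0 ≤ u k ∧ u k ≤ 1 := by
      intro k
      have := hxz k
      simp only [hu]
      constructor <;> linarith [this.1, this.2]
    have h1 := hg z u hu01
    have h2 : (fun k => -rQ W + cellD W * x k) = cellPt W z u := by
      ext k
      simp only [cellPt, hu]
      ring
    simp only [hw, Real.log_exp, psiGrid]
    rw [h2]
    have h3 : -a * g z + a * psiE W i0 j0 r c (cellPt W z u)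
        = -(a * (g z - psiE W i0 j0 r c (cellPt W z u))) := by ring
    rw [h3, abs_neg, abs_mul, abs_of_nonneg ha0]
    have h4 : (3 : ℝ) / (W : ℝ) ^ 25 ≤ 1 / 8 := by
      rw [div_le_div_iff₀ (by positivity) (by norm_num)]
      have : (W : ℝ) ^ 1 ≤ (W : ℝ) ^ 25 := psi_x_pow_mono hx1 (by norm_num)
      nlinarith [pow_one (W : ℝ)]
    have h5 := abs_nonneg (g z - psiE W i0 j0 r c (cellPt W z u))
    nlinarith
  have hT' := grid_tv (ι := Fin n × Fin m) (M := cellM W) (psi_cellM_pos W)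
    (psiGrid_convex h hW ha0) (psiGrid_continuous h hW a) hwpos hclose (zStart _ W) T
  have hcard : (Fintype.card (Fin n × Fin m) : ℝ) = (n : ℝ) * m := by
    simp [Fintype.card_prod]
  rw [hcard] at hT'
  refine le_trans hT' ?_
  rw [Real.sqrt_le_iff]
  refine ⟨(Real.exp_pos _).le, ?_⟩
  have hD1 : 1 ≤ (n : ℝ) * m := psi_one_le_D i0 j0
  have hDsq : 1000000 * ((n : ℝ) * m) ^ 2 ≤ W := hW.D_sq_le i0 j0
  have hDW : (n : ℝ) * m ≤ W := by have := hW.D_le i0 j0; nlinarith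
  have hq0 : 0 < 1 / (16384 * ((n : ℝ) * m) ^ 2 * ((cellM W : ℕ) : ℝ) ^ 2) := by
    have : (0 : ℝ) < ((cellM W : ℕ) : ℝ) := by exact_mod_cast psi_cellM_pos W
    positivity
  have hqle : 1 / (16384 * ((n : ℝ) * m) ^ 2 * ((cellM W : ℕ) : ℝ) ^ 2) ≤ 1 := by
    have hM1 : (1 : ℝ) ≤ ((cellM W : ℕ) : ℝ) := by exact_mod_cast psi_cellM_pos W
    have h1 : 1 ≤ ((n : ℝ) * m) ^ 2 := one_le_pow₀ hD1
    have h2 : 1 ≤ ((cellM W : ℕ) : ℝ) ^ 2 := one_le_pow₀ hM1
    rw [div_le_one (by positivity)]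
    nlinarith
  have hpow := chainG_pow (W := W) (T := T) (D := (n : ℝ) * m) (M := ((cellM W : ℕ) : ℝ)) hx1 hD1
    hDsq (psi_cellM_cast W) hT
  have hratio := chainG_ratio (W := W) (a := a) hx0 (by linarith) hDW hgb ha0 ha1 (zStart _ W)
  have hS0 : 0 ≤ (∑ z', w z') / w (zStart _ W) :=
    div_nonneg (Finset.sum_nonneg fun z _ => (hwpos z).le) (hwpos _).le
  calc (1 - 1 / (16384 * ((n : ℝ) * m) ^ 2 * ((cellM W : ℕ) : ℝ) ^ 2)) ^ T
        * ((∑ z', w z') / w (zStart _ W))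
      ≤ Real.exp (-(W : ℝ) ^ 37) * Real.exp (57 * (W : ℝ) ^ 2 + 1 + (W : ℝ) ^ 32) :=
        mul_le_mul hpow hratio hS0 (Real.exp_pos _).le
    _ ≤ Real.exp (-(W : ℝ)) ^ 2 := chainG_final (by linarith)

/-- Powers of a stochastic matrix are stochastic. -/
theorem matrix_pow_stoch {Z : Type} [Fintype Z] [DecidableEq Z] {P : Matrix Z Z ℝ}
    (hP0 : ∀ x y, 0 ≤ P x y) (hP1 : ∀ x, ∑ y, P x y = 1) (T : ℕ) :
    (∀ x y, 0 ≤ (P ^ T) x y) ∧ ∀ x, ∑ y, (P ^ T) x y = 1 := by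
  induction T with
  | zero =>
    refine ⟨fun x y => ?_, fun x => ?_⟩
    · simp only [pow_zero, Matrix.one_apply]
      split_ifs <;> norm_num
    · simp [Matrix.one_apply]
  | succ T ih =>
    refine ⟨fun x y => ?_, fun x => ?_⟩
    · rw [pow_succ, Matrix.mul_apply]
      exact Finset.sum_nonneg fun a _ => mul_nonneg (ih.1 x a) (hP0 a y)
    · rw [pow_succ]
      simp only [Matrix.mul_apply]
      rw [Finset.sum_comm]
      have : ∀ a, ∑ y, (P ^ T) x a * P a y = (P ^ T) x a := fun a => by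
        rw [← Finset.mul_sum, hP1, mul_one]
      simp only [this]
      exact ih.2 x

/-- Stochastic matrices which are close have close powers. -/
theorem matrix_pow_close {Z : Type} [Fintype Z] [DecidableEq Z] {P Q : Matrix Z Z ℝ}
    (hP0 : ∀ x y, 0 ≤ P x y) (hP1 : ∀ x, ∑ y, P x y = 1) (hQ0 : ∀ x y, 0 ≤ Q x y)
    (hQ1 : ∀ x, ∑ y, Q x y = 1) {ζ : ℝ} (hc : ∀ x, ∑ y, |Q x y - P x y| ≤ ζ) (T : ℕ) (x : Z) :
    ∑ y, |(Q ^ T) x y - (P ^ T) x y| ≤ T * ζ := by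
  induction T with
  | zero =>
    simp [Matrix.one_apply]
  | succ T ih =>
    have hstep : ∀ y, |(Q ^ (T + 1)) x y - (P ^ (T + 1)) x y|
        ≤ ∑ a, |(Q ^ T) x a - (P ^ T) x a| * Q a y + ∑ a, (P ^ T) x a * |Q a y - P a y| := by
      intro y
      rw [pow_succ, pow_succ, Matrix.mul_apply, Matrix.mul_apply]
      have e : ∑ a, (Q ^ T) x a * Q a y - ∑ a, (P ^ T) x a * P a y
          = ∑ a, (((Q ^ T) x a - (P ^ T) x a) * Q a y + (P ^ T) x a * (Q a y - P a y)) := by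
        rw [← Finset.sum_sub_distrib]
        refine Finset.sum_congr rfl fun a _ => ?_
        ring
      rw [e, ← Finset.sum_add_distrib]
      refine (Finset.abs_sum_le_sum_abs _ _).trans (Finset.sum_le_sum fun a _ => ?_)
      refine (abs_add_le _ _).trans (le_of_eq ?_)
      rw [abs_mul, abs_mul, abs_of_nonneg (hQ0 a y), abs_of_nonneg ((matrix_pow_stoch hP0 hP1 T).1 x a)]
    calc ∑ y, |(Q ^ (T + 1)) x y - (P ^ (T + 1)) x y|
        ≤ ∑ y, (∑ a, |(Q ^ T) x a - (P ^ T) x a| * Q a y + ∑ a, (P ^ T) x a * |Q a y - P a y|) :=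
          Finset.sum_le_sum fun y _ => hstep y
      _ = ∑ a, |(Q ^ T) x a - (P ^ T) x a| + ∑ a, (P ^ T) x a * ∑ y, |Q a y - P a y| := by
          rw [Finset.sum_add_distrib, Finset.sum_comm]
          congr 1
          · refine Finset.sum_congr rfl fun a _ => ?_
            rw [← Finset.mul_sum, hQ1, mul_one]
          · rw [Finset.sum_comm]
            refine Finset.sum_congr rfl fun a _ => ?_
            rw [Finset.mul_sum]
      _ ≤ T * ζ + ∑ a, (P ^ T) x a * ζ := by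
          refine add_le_add ih (Finset.sum_le_sum fun a _ => ?_)
          exact mul_le_mul_of_nonneg_left (hc a) ((matrix_pow_stoch hP0 hP1 T).1 x a)
      _ = ((T + 1 : ℕ) : ℝ) * ζ := by
          rw [← Finset.sum_mul, (matrix_pow_stoch hP0 hP1 T).2 x]
          push_cast
          ring

/-- The iterates of a kernel given by laws are the powers of the matrix. -/
theorem iter_eq_pow {Z : Type} [Fintype Z] [DecidableEq Z] (f : Z → PMF Z) (T : ℕ) (x y : Z) :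
    ((fun μ : PMF Z => μ.bind f)^[T] (PMF.pure x) y).toReal
      = ((Matrix.of fun a b => (f a b).toReal) ^ T) x y := by
  induction T generalizing y with
  | zero =>
    simp only [Function.iterate_zero, id_eq, pow_zero, Matrix.one_apply, PMF.pure_apply]
    by_cases h : x = y
    · simp [h]
    · simp [h, eq_comm]
  | succ T ih =>
    rw [Function.iterate_succ_apply', pow_succ, Matrix.mul_apply, PMF.bind_apply, tsum_fintype,
      ENNReal.toReal_sum]
    · refine Finset.sum_congr rfl fun a _ => ?_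
      rw [ENNReal.toReal_mul, ih a]
      rfl
    · intro a _
      exact ENNReal.mul_ne_top (PMF.apply_ne_top _ _) (PMF.apply_ne_top _ _)

end Vale.Agent.Lib.P328.Bit
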