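import Vale.Agent.Lib.P328.Bit.PsiF
import Vale.Agent.Lib.P328.Bit.ChainG
import Vale.Agent.Lib.P328.Bit.ChainFAux

/-!
# P328, bit model: the chain (module CHAINF)

`chainF S (r, c, k)`: start at the zero cube; `S ^ 150` rounds (`Rep.iterPow`, a cube is a list of lists of words) of this step, at the level `a = k / S ^ 34`:
one coin: with probability one half stay. Else each coordinate draws `S ^ 2` uniform bits `U`; with `p̃ = ⌊2 ^ (S^2) / (4 D)⌋`: if `U < p̃` the coordinate goes up, if `U < 2 p̃` down, otherwise it stays (`moveF`, `propF`). If the new point `z'` leaves the grid: stay (`okF`). Otherwise compute `Δ = a * (psiF z' - psiF z)` and move with the coin `coinExpF (-Δ)` (`acceptG`).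

Law: `Q z z' = (1/2) * prop p' z z' * acc z z'` for `z' ≠ z` (`kerG_off`), with `|p' - 1/(4D)| ≤ 2^(-S^2)`, `|acc - min 1 (w z' / w z)| ≤ 3 * 2^(-S^2)`, `w = exp (-a g)`, `g = gF`.
`Σ_z' |Q z z' - gridP z z'| ≤ 4 D 2^(-S^2) + 3 * 2^(-S^2)` using for products: `Σ_z' |∏ a_i (z'_i) - ∏ b_i (z'_i)| ≤ Σ_i Σ_v |a_i v - b_i v|` for sub-probability vectors (`prod_tv`, `row_close`). `matrix_pow_close`, `iter_eq_pow`, `chain_tv_g` with `hg := gF_close`, `gF_bounds` (`chain_generic`).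
Total: `exp (-S) + S^150 ζ ≤ 2 exp (-S)`.
-/

namespace Vale.Agent.Lib.P328.Bit

open Finset Vale.Agent.Lib.P328.Cap Vale.Agent.Lib.P328.Fpras Vale.Agent.Lib.P328.Samp

variable {m n : ℕ}

namespace ChainFAux

/-- The input of the chain. -/
abbrev XT : Type := List ℤ × List ℤ × ℤ

/-- A cube. -/
abbrev ZT : Type := List (List ℤ)

/-- The probability of a move up, as a word. -/
noncomputable def ptF (S : ℕ) (x : XT) : ℤ :=
  cdiv S (CoinAux.twoS S) (cmul S (clamp S 4) (cmul S ((x.2.1.take S).length : ℤ) ((x.1.take S).length : ℤ)))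

theorem ptF_rep : DRep ptF := by
  have h1 : DRep (α := XT) (β := ℤ) fun S x => ((x.2.1.take S).length : ℤ) :=
    DRep.lengthS (l := fun _ (x : XT) => x.2.1) (DRep.snd.comp DRep.fst)
  have h2 : DRep (α := XT) (β := ℤ) fun S x => ((x.1.take S).length : ℤ) :=
    DRep.lengthS (l := fun _ (x : XT) => x.1) DRep.fst
  exact CoinAux.twoS_rep.div ((DRep.natConst 4).mul (h1.mul h2))

/-- The logarithm of the acceptance probability. -/
noncomputable def logAcc (S : ℕ) (x : XT) (z t : ZT) : ℤ :=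
  csub S 0 (cdiv S (cmul S x.2.2 (csub S (psiF S x.1 x.2.1 t) (psiF S x.1 x.2.1 z))) (clamp S ((S : ℤ) ^ 34)))

theorem logAcc_rep {α : Type} [Enc α] {fx : ℕ → α → XT} {fz ft : ℕ → α → ZT}
    (hx : DRep fx) (hz : DRep fz) (ht : DRep ft) :
    DRep fun S v => logAcc S (fx S v) (fz S v) (ft S v) := by
  have h1 : DRep fun S v => (fx S v).1 := hx.comp DRep.fst
  have h2 : DRep fun S v => (fx S v).2.1 := (hx.comp DRep.snd).comp DRep.fst
  have h3 : DRep fun S v => (fx S v).2.2 := (hx.comp DRep.snd).comp DRep.snd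
  exact DRep.zero.sub ((h3.mul ((psiF_rep h1 h2 ht).sub (psiF_rep h1 h2 hz))).div (spow_rep 34))

/-- The first cube. -/
def z0F (S : ℕ) (x : XT) : ZT :=
  (x.2.1.take S).map fun _ => (x.1.take S).map fun _ => 0

theorem z0F_rep : DRep z0F := by
  have h1 : DRep (α := XT × ℤ) (β := List ℤ) fun S y => (y.1.1.take S).map fun _ => 0 :=
    DRep.mapS (l := fun _ (y : XT × ℤ) => y.1.1) (f := fun _ _ => 0) (DRep.fst.comp DRep.fst) DRep.zero
  exact DRep.mapS (l := fun _ (x : XT) => x.2.1) (DRep.snd.comp DRep.fst) h1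

/-- One step of the chain. -/
noncomputable def stepF (S : ℕ) (y : XT × ZT) : PMF ZT :=
  stepG S (ptF S y.1) (logAcc S y.1) y.2

theorem stepF_rep : Rep stepF := by
  have hacc : Rep (α := ((XT × ZT) × ℤ) × ZT) (β := ZT)
      fun S v => acceptG S (logAcc S v.1.1.1) v.1.1.2 v.2 := by
    have hx : DRep (α := ((XT × ZT) × ℤ) × ZT) (β := XT) fun _ v => v.1.1.1 :=
      (DRep.fst.comp DRep.fst).comp DRep.fst
    have hz : DRep (α := ((XT × ZT) × ℤ) × ZT) (β := ZT) fun _ v => v.1.1.2 :=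
      (DRep.fst.comp DRep.fst).comp DRep.snd
    have hc : Rep (α := ((XT × ZT) × ℤ) × ZT) (β := ℤ)
        fun S v => coinExpF S (logAcc S v.1.1.1 v.1.1.2 v.2) :=
      CoinAux.comp_of_drep (logAcc_rep hx hz DRep.snd) coinExpF_rep
    have hb : Rep (α := ((XT × ZT) × ℤ) × ZT) (β := ZT)
        fun S v => (coinExpF S (logAcc S v.1.1.1 v.1.1.2 v.2)).bind
          fun u => if 0 < u then PMF.pure v.2 else PMF.pure v.1.1.2 :=
      Rep.bind (g := fun _ (w : (((XT × ZT) × ℤ) × ZT) × ℤ) =>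
          if 0 < w.2 then PMF.pure w.1.2 else PMF.pure w.1.1.1.2) hc
        (Rep.ite DRep.snd (Rep.ofD (DRep.fst.comp DRep.snd))
          (Rep.ofD ((DRep.fst.comp DRep.fst).comp ((DRep.fst.comp DRep.snd)))))
    exact Rep.ite (c := fun S v => okF S v.2) (DRep.snd.comp okF_rep) hb (Rep.ofD hz)
  have hprop : Rep (α := (XT × ZT) × ℤ) (β := ZT) fun S w => propF S (ptF S w.1.1, w.1.2) :=
    CoinAux.comp_of_drep ((((DRep.fst.comp DRep.fst).comp ptF_rep)).pair (DRep.fst.comp DRep.snd)) propF_rep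
  have hmain : Rep (α := (XT × ZT) × ℤ) (β := ZT) fun S w =>
      if 0 < w.2 then PMF.pure w.1.2 else (propF S (ptF S w.1.1, w.1.2)).bind
        fun t => acceptG S (logAcc S w.1.1) w.1.2 t :=
    Rep.ite DRep.snd (Rep.ofD (DRep.fst.comp DRep.snd)) (Rep.bind hprop hacc)
  exact Rep.bind (f := fun _ _ => Rep.coinZ) Rep.coin hmain

/-- The acceptance in numbers. -/
theorem logAcc_close {S : ℕ} (hS : 1000000 ≤ S) {ψz ψt : ℤ} {k : ℕ} (hk : k ≤ S ^ 34)
    (hz : -1 ≤ val S ψz ∧ val S ψz ≤ (S : ℝ) ^ 32) (ht : -1 ≤ val S ψt ∧ val S ψt ≤ (S : ℝ) ^ 32) :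
    |val S (csub S 0 (cdiv S (cmul S (k : ℤ) (csub S ψt ψz)) (clamp S ((S : ℤ) ^ 34))))
      - (-((k : ℝ) / (S : ℝ) ^ 34) * val S ψt - -((k : ℝ) / (S : ℝ) ^ 34) * val S ψz)| ≤ ulp S := by
  have hS1 : (1000000 : ℝ) ≤ S := by exact_mod_cast hS
  set P : ℝ := 2 ^ prec S with hP
  have hPpos : 0 < P := by positivity
  have hpow1 : (1 : ℝ) ≤ (S : ℝ) ^ 32 := one_le_pow₀ (by linarith)
  have hbd : ∀ ψ : ℤ, -1 ≤ val S ψ ∧ val S ψ ≤ (S : ℝ) ^ 32 → |ψ| ≤ (S : ℤ) ^ 32 * 2 ^ prec S := by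
    intro ψ h
    have h1 : |(ψ : ℝ)| ≤ (S : ℝ) ^ 32 * P := by
      unfold val at h
      rw [abs_le]
      have h2 := h.1
      have h3 := h.2
      rw [le_div_iff₀ hPpos] at h2
      rw [div_le_iff₀ hPpos] at h3
      constructor <;> nlinarith
    have h2 : ((|ψ| : ℤ) : ℝ) ≤ (((S : ℤ) ^ 32 * 2 ^ prec S : ℤ) : ℝ) := by
      push_cast
      exact h1
    exact_mod_cast h2
  have hbz := hbd ψz hz
  have hbt := hbd ψt ht
  set B : ℤ := (S : ℤ) ^ 32 * 2 ^ prec S with hB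
  have hBpos : 0 ≤ B := by positivity
  -- the size of the words
  have hWB : (S : ℤ) ^ 34 * (2 * B) + 1 ≤ 2 ^ wid S := by
    have h2 : (S : ℤ) ≤ 2 ^ S := by exact_mod_cast (Nat.lt_two_pow_self (n := S)).le
    have h3 : (S : ℤ) ^ 66 ≤ 2 ^ (S * 66) := by
      rw [pow_mul]
      exact pow_le_pow_left₀ (by positivity) h2 _
    have h4 : (S : ℤ) ^ 34 * (2 * B) = 2 * ((S : ℤ) ^ 66 * 2 ^ prec S) := by
      rw [hB]
      ring
    rw [h4]
    have h5 : S * 66 + prec S + 2 ≤ wid S := by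
      unfold wid prec
      have h6 : S ^ 6 = S * S ^ 5 := by ring
      have h7 : 1 ≤ S ^ 4 := Nat.one_le_pow _ _ (by omega)
      have h8 : S ^ 5 = S * S ^ 4 := by ring
      have h9 : 1000 * S ^ 5 ≤ S * S ^ 5 := Nat.mul_le_mul_right _ (by omega)
      have h10 : S * 1 ≤ S * S ^ 4 := Nat.mul_le_mul_left _ h7
      omega
    have h11 : (2 : ℤ) ^ (S * 66 + prec S + 2) ≤ 2 ^ wid S := pow_le_pow_right₀ (by norm_num) h5
    have h12 : (2 : ℤ) ^ (S * 66 + prec S + 2) = 4 * (2 ^ (S * 66) * 2 ^ prec S) := by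
      ring
    have h13 : (S : ℤ) ^ 66 * 2 ^ prec S ≤ 2 ^ (S * 66) * 2 ^ prec S :=
      mul_le_mul_of_nonneg_right h3 (by positivity)
    have h14 : (1 : ℤ) ≤ 2 ^ (S * 66) * 2 ^ prec S := by
      have h15 : (1 : ℤ) ≤ 2 ^ (S * 66) := one_le_pow₀ (by norm_num)
      have h16 : (1 : ℤ) ≤ 2 ^ prec S := one_le_pow₀ (by norm_num)
      nlinarith
    omega
  have hS34 : (1 : ℤ) ≤ (S : ℤ) ^ 34 := one_le_pow₀ (by omega)
  have hBW : 2 * B + 1 ≤ 2 ^ wid S := by nlinarith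
  have hc : ∀ z : ℤ, |z| ≤ (S : ℤ) ^ 34 * (2 * B) + 1 → clamp S z = z := fun z h =>
    clamp_of_abs_le (h.trans hWB)
  have hc' : ∀ z : ℤ, |z| ≤ 2 * B + 1 → clamp S z = z := fun z h =>
    clamp_of_abs_le (h.trans hBW)
  have e1 : clamp S ψt = ψt := hc' _ (by linarith)
  have e2 : clamp S ψz = ψz := hc' _ (by linarith)
  set d : ℤ := ψt - ψz with hd
  have hdB : |d| ≤ 2 * B := by
    rw [hd]
    have := abs_sub ψt ψz
    linarith
  have e3 : clamp S d = d := hc' _ (by linarith)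
  have e4 : csub S ψt ψz = d := by
    unfold csub
    rw [e1, e2, e3]
  have hkZ : (k : ℤ) ≤ (S : ℤ) ^ 34 := by exact_mod_cast hk
  have hk0 : (0 : ℤ) ≤ k := Int.natCast_nonneg _
  have e5 : clamp S (k : ℤ) = k := by
    refine hc _ ?_
    rw [abs_of_nonneg hk0]
    have hA1 : (1 : ℤ) ≤ (S : ℤ) ^ 32 := one_le_pow₀ (by omega)
    have hA2 : (1 : ℤ) ≤ 2 ^ prec S := one_le_pow₀ (by norm_num)
    have hB1 : (1 : ℤ) ≤ B := by
      rw [hB]
      nlinarith
    have hA3 : (S : ℤ) ^ 34 * 1 ≤ (S : ℤ) ^ 34 * (2 * B) :=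
      mul_le_mul_of_nonneg_left (by linarith) (by linarith)
    linarith
  have hkd : |(k : ℤ) * d| ≤ (S : ℤ) ^ 34 * (2 * B) := by
    rw [abs_mul, abs_of_nonneg hk0]
    exact mul_le_mul hkZ hdB (abs_nonneg _) (by positivity)
  have e6 : clamp S ((k : ℤ) * d) = (k : ℤ) * d := hc _ (by linarith)
  have e7 : cmul S (k : ℤ) d = (k : ℤ) * d := by
    unfold cmul
    rw [e5, e3, e6]
  have e8 : clamp S (clamp S ((S : ℤ) ^ 34)) = (S : ℤ) ^ 34 := by
    rw [spow_eq hS (by norm_num), spow_eq hS (by norm_num)]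
  set E : ℤ := ((k : ℤ) * d) / (S : ℤ) ^ 34 with hE
  have hE1 : E * (S : ℤ) ^ 34 ≤ (k : ℤ) * d := Int.ediv_mul_le _ (by omega)
  have hE2 : (k : ℤ) * d < (E + 1) * (S : ℤ) ^ 34 := Int.lt_ediv_add_one_mul_self _ (by omega)
  have hEb : |E| ≤ 2 * B + 1 := by
    have h1 : |(k : ℤ) * d| ≤ (S : ℤ) ^ 34 * (2 * B) := hkd
    rw [abs_le] at h1 ⊢
    constructor
    · by_contra h
      have h2 : E + 1 ≤ -(2 * B + 1) + 1 := by omega
      have h3 : (E + 1) * (S : ℤ) ^ 34 ≤ (-(2 * B)) * (S : ℤ) ^ 34 := by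
        apply mul_le_mul_of_nonneg_right <;> linarith
      nlinarith
    · by_contra h
      have h2 : 2 * B + 2 ≤ E := by omega
      have h3 : (2 * B + 2) * (S : ℤ) ^ 34 ≤ E * (S : ℤ) ^ 34 :=
        mul_le_mul_of_nonneg_right h2 (by linarith)
      nlinarith
  have e9 : clamp S E = E := hc' _ hEb
  have e10 : cdiv S ((k : ℤ) * d) (clamp S ((S : ℤ) ^ 34)) = E := by
    unfold cdiv
    rw [e6, e8, ← hE, e9]
  have e11 : csub S 0 E = -E := by
    unfold csub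
    have h0 : clamp S 0 = 0 := clamp_of_abs_le (by simp)
    have h1 : clamp S (0 - E) = 0 - E := hc' _ (by simpa using hEb)
    rw [e9, h0, h1]
    ring
  rw [e4, e7, e10, e11]
  -- real numbers
  have hSR : (0 : ℝ) < (S : ℝ) ^ 34 := by positivity
  set q : ℝ := ((k : ℝ) * (d : ℝ)) / (S : ℝ) ^ 34 with hq
  have hq1 : (E : ℝ) ≤ q := by
    rw [hq, le_div_iff₀ hSR]
    have : ((E * (S : ℤ) ^ 34 : ℤ) : ℝ) ≤ (((k : ℤ) * d : ℤ) : ℝ) := by exact_mod_cast hE1
    push_cast at this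
    exact this
  have hq2 : q < (E : ℝ) + 1 := by
    rw [hq, div_lt_iff₀ hSR]
    have : (((k : ℤ) * d : ℤ) : ℝ) < (((E + 1) * (S : ℤ) ^ 34 : ℤ) : ℝ) := by exact_mod_cast hE2
    push_cast at this
    exact this
  have hval : val S (-E) - (-((k : ℝ) / (S : ℝ) ^ 34) * val S ψt - -((k : ℝ) / (S : ℝ) ^ 34) * val S ψz)
      = (q - (E : ℝ)) / P := by
    unfold val
    rw [hq, hd]
    push_cast
    field_simp
    ring
  rw [hval, abs_div, abs_of_pos hPpos, abs_of_nonneg (by linarith)]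
  unfold ulp
  rw [div_le_div_iff_of_pos_right hPpos]
  linarith

end ChainFAux

open ChainFAux in
/-- The chain at the level `k / S ^ 34`; input `(r, c, k)`. -/
noncomputable def chainF (S : ℕ) (x : List ℤ × List ℤ × ℤ) : PMF (List (List ℤ)) :=
  (fun μ : PMF (List (List ℤ)) => μ.bind fun s => stepF S (x, s))^[S ^ 150] (PMF.pure (z0F S x))

open ChainFAux in
theorem chainF_rep : Rep chainF :=
  CoinAux.comp_of_drep (h := fun S (x : XT) => (x, z0F S x))
    (g := fun S (x : XT × ZT) => (fun μ : PMF ZT => μ.bind fun s => stepF S (x.1, s))^[S ^ 150] (PMF.pure x.2))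
    (DRep.id'.pair z0F_rep) (Rep.iterPow (α := XT) (β := ZT) 150 stepF_rep)

namespace ChainFAux

variable {S : ℕ} {r : Fin m → ℕ} {c : Fin n → ℕ}

theorem ptF_eq (h : NodeOK S r c) (k : ℤ) :
    ptF S (lN r, lN c, k) = 2 ^ (S ^ 2) / (4 * ((n : ℤ) * (m : ℤ))) := by
  have hS := h.S_ge
  obtain ⟨hn, hm, hDS, hD1⟩ := nodeOK_sizes h
  have hl1 : ((lN c).take S).length = n := by
    unfold lN
    simp [hn]
  have hl2 : ((lN r).take S).length = m := by
    unfold lN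
    simp [hm]
  unfold ptF
  simp only [hl1, hl2]
  rw [CoinAux.twoS_eq hS]
  have hcl : ∀ z : ℤ, |z| ≤ 2 ^ (S ^ 2) → clamp S z = z := fun z hz =>
    CoinAux.clamp_small hS (e := 2) (by norm_num) hz
  have hN : (S : ℤ) ≤ 2 ^ S := by exact_mod_cast (Nat.lt_two_pow_self (n := S)).le
  have hSS : (2 : ℤ) ^ S * 2 ^ S ≤ 2 ^ (S ^ 2) := by
    rw [← pow_add]
    refine pow_le_pow_right₀ (by norm_num) ?_
    nlinarith
  have hnZ : (n : ℤ) ≤ S := by exact_mod_cast hn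
  have hmZ : (m : ℤ) ≤ S := by exact_mod_cast hm
  have hn0 : (0 : ℤ) ≤ n := Int.natCast_nonneg _
  have hm0 : (0 : ℤ) ≤ m := Int.natCast_nonneg _
  have hnm : (n : ℤ) * m ≤ S := by
    have : ((n : ℤ) * m : ℝ) ≤ S := by exact_mod_cast hDS
    exact_mod_cast this
  have hnm0 : (0 : ℤ) ≤ (n : ℤ) * m := mul_nonneg hn0 hm0
  have hSge : (1000000 : ℤ) ≤ S := by exact_mod_cast hS
  have hle : (4 : ℤ) * S ≤ 2 ^ (S ^ 2) := by
    have h2 : (4 : ℤ) ≤ 2 ^ S := by nlinarith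
    calc (4 : ℤ) * S ≤ 2 ^ S * 2 ^ S := mul_le_mul h2 hN (by omega) (by positivity)
      _ ≤ _ := hSS
  have e1 : clamp S (n : ℤ) = n := hcl _ (by rw [abs_of_nonneg hn0]; linarith)
  have e2 : clamp S (m : ℤ) = m := hcl _ (by rw [abs_of_nonneg hm0]; linarith)
  have e3 : clamp S ((n : ℤ) * m) = (n : ℤ) * m := hcl _ (by rw [abs_of_nonneg hnm0]; linarith)
  have e4 : clamp S 4 = 4 := hcl _ (by norm_num; linarith)
  have e5 : clamp S (4 * ((n : ℤ) * m)) = 4 * ((n : ℤ) * m) := hcl _ (by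
    rw [abs_of_nonneg (by linarith)]
    linarith)
  have e6 : clamp S ((2 : ℤ) ^ (S ^ 2)) = 2 ^ (S ^ 2) := hcl _ (by
    rw [abs_of_nonneg (by positivity)])
  have hq : |(2 : ℤ) ^ (S ^ 2) / (4 * ((n : ℤ) * m))| ≤ 2 ^ (S ^ 2) := by
    have hD1Z : (1 : ℤ) ≤ (n : ℤ) * m := by
      have : (1 : ℝ) ≤ ((n : ℤ) * m : ℝ) := by exact_mod_cast hD1
      exact_mod_cast this
    have h0 : 0 ≤ (2 : ℤ) ^ (S ^ 2) / (4 * ((n : ℤ) * m)) :=
      Int.ediv_nonneg (by positivity) (by linarith)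
    rw [abs_of_nonneg h0]
    exact Int.ediv_le_self _ (by positivity)
  have e7 := hcl _ hq
  unfold cdiv cmul
  simp only [e1, e2, e3, e4, e5, e6, e7]

theorem z0F_eq (h : NodeOK S r c) (k : ℤ) : z0F S (lN r, lN c, k) = lZ (zStart (Fin n × Fin m) S) := by
  obtain ⟨hn, hm, _, _⟩ := nodeOK_sizes h
  unfold z0F lZ lN zStart
  simp only
  rw [List.take_of_length_le (by simpa using hm), List.take_of_length_le (by simpa using hn)]
  simp [List.map_ofFn, Function.comp_def]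

end ChainFAux

open ChainFAux in
/-- **The law of the chain.** -/
theorem chainF_spec {S : ℕ} {r : Fin m → ℕ} {c : Fin n → ℕ} (h : NodeOK S r c) (k : ℕ) (hk : k ≤ S ^ 34) :
    ∃ μ : PMF (Fin n × Fin m → Fin (cellM S)),
      chainF S (lN r, lN c, (k : ℤ)) = μ.map lZ
      ∧ ∑ z, |(μ z).toReal - Real.exp (-(((k : ℝ) / (S : ℝ) ^ 34) * gF S r c z))
            / ∑ z', Real.exp (-(((k : ℝ) / (S : ℝ) ^ 34) * gF S r c z'))|
        ≤ 2 * Real.exp (-(S : ℝ)) := by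
  have hS := h.S_ge
  have hSpos : (0 : ℝ) < (S : ℝ) ^ 34 := by
    have : (0 : ℝ) < S := by exact_mod_cast (by omega : 0 < S)
    positivity
  have ha0 : (0 : ℝ) ≤ (k : ℝ) / (S : ℝ) ^ 34 := by positivity
  have ha1 : (k : ℝ) / (S : ℝ) ^ 34 ≤ 1 := by
    rw [div_le_one hSpos]
    exact_mod_cast hk
  obtain ⟨μ, h1, h2⟩ := chain_generic h (logAcc S (lN r, lN c, (k : ℤ))) (g := gF S r c) (a := (k : ℝ) / (S : ℝ) ^ 34)
    (gF_close h) (gF_bounds h) ha0 ha1
    (fun z t => logAcc_close hS hk (gF_bounds h z) (gF_bounds h t))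
  refine ⟨μ, ?_, ?_⟩
  · rw [← h1]
    unfold chainF stepF
    simp only
    rw [z0F_eq h, ptF_eq h]
  · simpa only [neg_mul] using h2

end Vale.Agent.Lib.P328.Bit
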