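import Vale.Agent.Lib.P328.Bit.AnnealG
import Vale.Agent.Lib.P328.Bit.ChainF
import Vale.Agent.Lib.P328.Bit.AnnealSample
import Vale.Agent.Lib.P328.Bit.AnnealLaw

/-!
# P328, bit model: the estimate at the root by a program (module ANNEALF)

`annealF S (r, c)`: for `k < S ^ 34`: `S ^ 76` independent runs of `chainF (r, c, k)`, each giving `X = fexp (-psiF z / S ^ 34)`; `A_k` = their sum, `S^-76` times; `l = Σ_k flog A_k`. Output: `l + logC`, where `logC = logCF` is the fixed point value of the logarithm of `betaC c * exp (-phiMin r) * detT * (4 S ^ 4) ^ D / ∏ r_i !`.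
Numbers: `g ∈ [-1, S^32]`, `K = S^34`: `X ∈ [1/2, 3]`, and the sums do not saturate. `A_k ∈ [1/2, 3]`.
For every array of samples `ω`, the output `y(ω)` satisfies `|y(ω) - log (estG ω)| ≤ 1/S^40`.
The law of the array: the loops are independent runs, so the law of the output is the image of the product law `∏ k, ∏ s, μ_k (ω k s)`.
`annealS S δ ≤ S^76` if `log (4/δ) ≤ S`. Then `annealG_close` with `ε/2`, `hL` from `chainF_spec`.
-/

namespace Vale.Agent.Lib.P328.Bit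

open Finset MeasureTheory Vale.Agent.Lib.P328.Cap Vale.Agent.Lib.P328.Fpras Vale.Agent.Lib.P328.Samp
open scoped ENNReal

namespace AnnealAux

/-- One sample. -/
noncomputable def sampleF (S : ℕ) (x : Inp) (z : List (List ℤ)) : ℤ :=
  fexp S (csub S 0 (cdiv S (psiF S x.1 x.2 z) (clamp S ((S : ℤ) ^ 34))))

theorem sampleF_rep : DRep (α := Inp × List (List ℤ)) (β := ℤ) fun S y => sampleF S y.1 y.2 := by
  have h1 : DRep (α := Inp × List (List ℤ)) (β := List ℤ) fun _ y => y.1.1 := DRep.fst.comp DRep.fst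
  have h2 : DRep (α := Inp × List (List ℤ)) (β := List ℤ) fun _ y => y.1.2 := DRep.fst.comp DRep.snd
  have h3 : DRep (α := Inp × List (List ℤ)) (β := ℤ) fun S y => psiF S y.1.1 y.1.2 y.2 :=
    psiF_rep h1 h2 DRep.snd
  exact fexp_rep (DRep.zero.sub (h3.div (spow_rep 34)))

/-- Composition of a deterministic function with a randomized function. -/
theorem rep_comp_d {α β γ : Type} [Enc α] [Enc β] [Enc γ] {h : ℕ → α → β} {g : ℕ → β → PMF γ}
    (hh : DRep h) (hg : Rep g) : Rep fun S x => g S (h S x) := by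
  obtain ⟨q, hq⟩ := hh
  obtain ⟨p, hp⟩ := hg
  refine ⟨.comp q p, fun S x => ?_⟩
  show (sem q S (enc x)).bind (sem p S) = _
  rw [hq, PMF.pure_bind, hp]

/-- One round of the loop over the samples of a level. Input: `((r, c), k)`, the sum. -/
noncomputable def innerStep (S : ℕ) (y : (Inp × ℤ) × ℤ) : PMF ℤ :=
  (chainF S (y.1.1.1, y.1.1.2, y.1.2)).bind fun z => PMF.pure (cadd S y.2 (sampleF S y.1.1 z))

theorem innerStep_rep : Rep innerStep := by
  have h1 : DRep (α := (Inp × ℤ) × ℤ) (β := List ℤ × List ℤ × ℤ)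
      fun _ y => (y.1.1.1, y.1.1.2, y.1.2) :=
    ((DRep.fst.comp DRep.fst).comp DRep.fst).pair
      (((DRep.fst.comp DRep.fst).comp DRep.snd).pair (DRep.fst.comp DRep.snd))
  have h2 : Rep (α := (Inp × ℤ) × ℤ) (β := List (List ℤ))
      fun S y => chainF S (y.1.1.1, y.1.1.2, y.1.2) := rep_comp_d h1 chainF_rep
  have h3 : DRep (α := ((Inp × ℤ) × ℤ) × List (List ℤ)) (β := Inp × List (List ℤ))
      fun _ p => (p.1.1.1, p.2) :=
    ((DRep.fst.comp DRep.fst).comp DRep.fst).pair DRep.snd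
  have h4 : DRep (α := ((Inp × ℤ) × ℤ) × List (List ℤ)) (β := ℤ)
      fun S p => cadd S p.1.2 (sampleF S p.1.1.1 p.2) :=
    (DRep.fst.comp DRep.snd).add (h3.comp sampleF_rep)
  exact Rep.bind h2 (Rep.ofD h4)

/-- The sum of the samples of a level. Input: `((r, c), k)`, the initial sum. -/
noncomputable def innerLoop (S : ℕ) (x : (Inp × ℤ) × ℤ) : PMF ℤ :=
  (fun μ : PMF ℤ => μ.bind fun s => innerStep S (x.1, s))^[S ^ 76] (PMF.pure x.2)

theorem innerLoop_rep : Rep innerLoop := Rep.iterPow 76 innerStep_rep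

/-- The logarithm of the average. -/
noncomputable def avgF (S : ℕ) (s : ℤ) : ℤ := flog S (cdiv S s (clamp S ((S : ℤ) ^ 76)))

theorem avgF_rep : DRep avgF := flog_rep (DRep.id'.div (spow_rep 76))

/-- The logarithm of the average at a level. Input: `((r, c), k)`. -/
noncomputable def levelF (S : ℕ) (x : Inp × ℤ) : PMF ℤ :=
  (innerLoop S (x, 0)).bind fun s => PMF.pure (avgF S s)

theorem levelF_rep : Rep levelF := by
  have h1 : DRep (α := Inp × ℤ) (β := (Inp × ℤ) × ℤ) fun _ x => (x, 0) := DRep.id'.pair DRep.zero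
  have h2 : Rep (α := Inp × ℤ) (β := ℤ) fun S x => innerLoop S (x, 0) := rep_comp_d h1 innerLoop_rep
  have h3 : DRep (α := (Inp × ℤ) × ℤ) (β := ℤ) fun S p => avgF S p.2 := DRep.snd.comp avgF_rep
  exact Rep.bind h2 (Rep.ofD h3)

/-- One round of the loop over the levels. Input: `(r, c)`, the state `(k, l)`. -/
noncomputable def outerStep (S : ℕ) (y : Inp × (ℤ × ℤ)) : PMF (ℤ × ℤ) :=
  (levelF S (y.1, y.2.1)).bind fun a => PMF.pure (cadd S y.2.1 1, cadd S y.2.2 a)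

theorem outerStep_rep : Rep outerStep := by
  have h1 : DRep (α := Inp × (ℤ × ℤ)) (β := Inp × ℤ) fun _ y => (y.1, y.2.1) :=
    DRep.fst.pair (DRep.snd.comp DRep.fst)
  have h2 : Rep (α := Inp × (ℤ × ℤ)) (β := ℤ) fun S y => levelF S (y.1, y.2.1) := rep_comp_d h1 levelF_rep
  have h3 : DRep (α := (Inp × (ℤ × ℤ)) × ℤ) (β := ℤ × ℤ)
      fun S p => (cadd S p.1.2.1 1, cadd S p.1.2.2 p.2) :=
    (((DRep.fst.comp DRep.snd).comp DRep.fst).add DRep.one).pair
      (((DRep.fst.comp DRep.snd).comp DRep.snd).add DRep.snd)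
  exact Rep.bind h2 (Rep.ofD h3)

/-- The loop over the levels. -/
noncomputable def outerLoop (S : ℕ) (x : Inp × (ℤ × ℤ)) : PMF (ℤ × ℤ) :=
  (fun μ : PMF (ℤ × ℤ) => μ.bind fun s => outerStep S (x.1, s))^[S ^ 34] (PMF.pure x.2)

theorem outerLoop_rep : Rep outerLoop := Rep.iterPow 34 outerStep_rep

end AnnealAux

open AnnealAux

variable {m n : ℕ}

/-- The logarithm of the estimate of `Aval r c`. -/
noncomputable def annealF (S : ℕ) (x : List ℤ × List ℤ) : PMF ℤ :=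
  (outerLoop S (x, (0, 0))).bind fun st => PMF.pure (cadd S st.2 (logCF S x))

theorem annealF_rep : Rep annealF := by
  have h1 : DRep (α := Inp) (β := Inp × (ℤ × ℤ)) fun _ x => (x, ((0 : ℤ), (0 : ℤ))) :=
    DRep.id'.pair (DRep.zero.pair DRep.zero)
  have h2 : Rep (α := Inp) (β := ℤ × ℤ) fun S x => outerLoop S (x, (0, 0)) := rep_comp_d h1 outerLoop_rep
  have h3 : DRep (α := Inp × (ℤ × ℤ)) (β := ℤ) fun S p => cadd S p.2.2 (logCF S p.1) :=
    (DRep.snd.comp DRep.snd).add (DRep.fst.comp logCF_rep)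
  exact Rep.bind h2 (Rep.ofD h3)

namespace AnnealAux

section Law

variable {S : ℕ} {Z : Type} {x : Inp} {lz : Z → List (List ℤ)}

theorem innerStep_eq {k s : ℤ} {μ0 : PMF Z} (hμ : chainF S (x.1, x.2, k) = μ0.map lz) :
    innerStep S ((x, k), s) = μ0.bind fun a => PMF.pure (cadd S s (sampleF S x (lz a))) := by
  unfold innerStep
  simp only
  rw [hμ]
  unfold PMF.map
  rw [PMF.bind_bind]
  simp only [Function.comp, PMF.pure_bind]

theorem innerLoop_eq {k : ℤ} {μ0 : PMF Z} (hμ : chainF S (x.1, x.2, k) = μ0.map lz) :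
    innerLoop S ((x, k), 0) = (piP (fun _ => μ0) (S ^ 76)).map
      (foldU (fun _ s a => cadd S s (sampleF S x (lz a))) 0 (S ^ 76)) := by
  have hfun : (fun ν : PMF ℤ => ν.bind fun s => innerStep S ((x, k), s))
      = fun ν : PMF ℤ => ν.bind fun s => μ0.bind fun a =>
        PMF.pure ((fun s a => cadd S s (sampleF S x (lz a))) s a) := by
    funext ν
    congr 1
    funext s
    exact innerStep_eq hμ
  show (fun ν : PMF ℤ => ν.bind fun s => innerStep S ((x, k), s))^[S ^ 76] (PMF.pure 0) = _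
  rw [hfun, iterate_eq_runLaw, runLaw_eq_map]

/-- The output of a level as a function of the samples. -/
noncomputable def levF (S : ℕ) (h : Z → ℤ) (ω : Fin (S ^ 76) → Z) : ℤ :=
  avgF S (foldU (fun _ s a => cadd S s (h a)) 0 (S ^ 76) ω)

theorem levelF_eq {k : ℤ} {μ0 : PMF Z} (hμ : chainF S (x.1, x.2, k) = μ0.map lz) :
    levelF S (x, k) = (piP (fun _ => μ0) (S ^ 76)).map (levF S fun a => sampleF S x (lz a)) := by
  unfold levelF
  rw [innerLoop_eq hμ]
  unfold PMF.map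
  rw [PMF.bind_bind]
  simp only [Function.comp, PMF.pure_bind]
  rfl

/-- The state of the loop over the levels. -/
theorem outer_iter (hS : 1000000 ≤ S) {μ : ℕ → PMF Z}
    (hμ : ∀ k : ℕ, k ≤ S ^ 34 → chainF S (x.1, x.2, (k : ℤ)) = (μ k).map lz) (T : ℕ) (hT : T ≤ S ^ 34) :
    (fun ν : PMF (ℤ × ℤ) => ν.bind fun st => outerStep S (x, st))^[T] (PMF.pure (0, 0))
      = (runLaw (fun k => piP (fun _ => μ k) (S ^ 76))
          (fun _ l ω => cadd S l (levF S (fun a => sampleF S x (lz a)) ω)) 0 T).map fun l => ((T : ℤ), l) := by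
  induction T with
  | zero =>
    show PMF.pure (0, 0) = (PMF.pure 0).map _
    rw [PMF.pure_map]
    rfl
  | succ T ih =>
    rw [Function.iterate_succ_apply', ih (by omega)]
    show ((runLaw _ _ 0 T).map _).bind _ = ((runLaw _ _ 0 T).bind _).map _
    unfold PMF.map
    rw [PMF.bind_bind, PMF.bind_bind]
    refine congrArg _ (funext fun l => ?_)
    simp only [Function.comp, PMF.pure_bind]
    unfold outerStep
    simp only
    rw [levelF_eq (hμ T (by omega))]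
    unfold PMF.map
    rw [PMF.bind_bind, PMF.bind_bind]
    refine congrArg _ (funext fun ω => ?_)
    simp only [Function.comp, PMF.pure_bind]
    have hle : T + 1 ≤ 2 ^ (S ^ 2) := by
      have h1 : S < 2 ^ S := Nat.lt_two_pow_self
      have h2 : S ^ 34 ≤ (2 ^ S) ^ 34 := Nat.pow_le_pow_left h1.le 34
      have h3 : (2 ^ S) ^ 34 = 2 ^ (S * 34) := (pow_mul 2 S 34).symm
      have h4 : 2 ^ (S * 34) ≤ 2 ^ (S ^ 2) := Nat.pow_le_pow_right (by norm_num) (by
        have h5 : S ^ 2 = S * S := by ring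
        rw [h5]
        exact Nat.mul_le_mul_left _ (by omega))
      omega
    have hc := cadd_nat hS (a := T) (b := 1) hle
    have hc' : cadd S (T : ℤ) 1 = ((T + 1 : ℕ) : ℤ) := by simpa using hc
    rw [hc']

/-- The law of the program. -/
theorem annealF_law (hS : 1000000 ≤ S) {μ : ℕ → PMF Z}
    (hμ : ∀ k : ℕ, k ≤ S ^ 34 → chainF S (x.1, x.2, (k : ℤ)) = (μ k).map lz) :
    annealF S x = (piP (fun k => piP (fun _ => μ k) (S ^ 76)) (S ^ 34)).map fun ω =>
      cadd S (foldU (fun _ l ω' => cadd S l (levF S (fun a => sampleF S x (lz a)) ω')) 0 (S ^ 34) ω)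
        (logCF S x) := by
  unfold annealF
  have h1 := outer_iter hS hμ (S ^ 34) le_rfl
  have h2 : outerLoop S (x, (0, 0))
      = (fun ν : PMF (ℤ × ℤ) => ν.bind fun st => outerStep S (x, st))^[S ^ 34] (PMF.pure (0, 0)) := rfl
  rw [h2, h1, runLaw_eq_map]
  unfold PMF.map
  rw [PMF.bind_bind, PMF.bind_bind]
  refine congrArg _ (funext fun ω => ?_)
  simp only [Function.comp, PMF.pure_bind]

/-- Integer sums in a loop without saturation. -/
theorem foldU_cadd {A : Type} (hS : 1000000 ≤ S) (h : ℕ → A → ℤ) {B : ℤ} (hB0 : 0 ≤ B)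
    (hB : ∀ t a, |h t a| ≤ B) (T : ℕ) (hT : (T : ℤ) * B ≤ 2 ^ wid S) (ω : Fin T → A) :
    foldU (fun t s a => cadd S s (h t a)) 0 T ω = ∑ t : Fin T, h t (ω t)
      ∧ |∑ t : Fin T, h t (ω t)| ≤ (T : ℤ) * B := by
  induction T with
  | zero => simp [foldU]
  | succ T ih =>
    push_cast at hT
    have hT1 : (T : ℤ) * B ≤ 2 ^ wid S := by nlinarith
    obtain ⟨h1, h2⟩ := ih hT1 (Fin.init ω)
    have h3 : ∑ t : Fin (T + 1), h t (ω t)
        = ∑ t : Fin T, h t (Fin.init ω t) + h T (ω (Fin.last T)) := by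
      rw [Fin.sum_univ_castSucc]
      rfl
    have hx := hB T (ω (Fin.last T))
    have hbd : |∑ t : Fin T, h t (Fin.init ω t) + h T (ω (Fin.last T))| ≤ ((T : ℤ) + 1) * B := by
      refine (abs_add_le _ _).trans ?_
      linarith
    have hstep : foldU (fun t s a => cadd S s (h t a)) 0 (T + 1) ω
        = cadd S (foldU (fun t s a => cadd S s (h t a)) 0 T (Fin.init ω)) (h T (ω (Fin.last T))) := rfl
    have hT2 : B ≤ 2 ^ wid S := by nlinarith
    rw [hstep, h1, h3]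
    refine ⟨?_, by push_cast; exact hbd⟩
    unfold cadd
    rw [clamp_eq hS (h2.trans hT1), clamp_eq hS (hx.trans hT2), clamp_eq hS (hbd.trans hT)]

end Law

section Det

variable {S : ℕ} {Z : Type}

/-- **The output as a function of the samples.** -/
theorem det_main (hS : 1000000 ≤ S) (h : Z → ℤ) (E : Z → ℝ) (hE : ∀ a, 3 / 4 ≤ E a ∧ E a ≤ 2)
    (hX : ∀ a, |val S (h a) - E a| ≤ 7 * etaF S) {C : ℤ} {Ct : ℝ} (hC1 : |val S C - Ct| ≤ 2 / (S : ℝ) ^ 41)
    (hC2 : |val S C| ≤ Big S) (ω : Fin (S ^ 34) → Fin (S ^ 76) → Z) :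
    |val S (cadd S (foldU (fun _ l ω' => cadd S l (levF S h ω')) 0 (S ^ 34) ω) C)
        - (∑ k, Real.log (((S ^ 76 : ℕ) : ℝ)⁻¹ * ∑ s, E (ω k s)) + Ct)| ≤ 1 / (S : ℝ) ^ 40 := by
  have hSr := S_pos_real hS
  have hS1 : (1 : ℝ) ≤ S := by linarith
  have hS0 : (0 : ℝ) < S := by linarith
  have hτ := tau_le_pow hS
  have hτ0 : 0 < tauF S := tau_pos
  have hη : etaF S ≤ tauF S := eta_le_tau
  have hτ1 : tauF S ≤ 1 / 100 := by
    refine hτ.trans ?_
    rw [div_le_div_iff₀ (by positivity) (by norm_num), one_mul, one_mul]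
    have h1 : (S : ℝ) ≤ (S : ℝ) ^ 100 := le_self_pow₀ hS1 (by norm_num)
    linarith
  obtain ⟨B, hBdef⟩ : ∃ B : ℤ, B = 3 * 2 ^ (S ^ 5) := ⟨_, rfl⟩
  have hB0 : 0 ≤ B := by
    rw [hBdef]
    positivity
  have hval3 : ∀ a, |val S (h a)| ≤ 3 := by
    intro a
    have h1 := abs_le.1 (hX a)
    obtain ⟨h2, h3⟩ := hE a
    rw [abs_le]
    constructor <;> linarith [h1.1, h1.2]
  have hh : ∀ (t : ℕ) a, |(fun (_ : ℕ) a => h a) t a| ≤ B := by
    intro t a
    rw [hBdef]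
    exact word_le_of_val (hval3 a)
  have hinner : ∀ ω' : Fin (S ^ 76) → Z, levF S h ω' = avgF S (∑ t, h (ω' t)) := by
    intro ω'
    have hT : ((S ^ 76 : ℕ) : ℤ) * B ≤ 2 ^ wid S := by
      rw [hBdef]
      exact word_count_le hS le_rfl
    have := (foldU_cadd hS (fun _ a => h a) hB0 hh (S ^ 76) hT ω').1
    unfold levF
    rw [this]
  have hlev : ∀ ω' : Fin (S ^ 76) → Z,
      |val S (levF S h ω') - Real.log (((S ^ 76 : ℕ) : ℝ)⁻¹ * ∑ s, E (ω' s))| ≤ 17 * tauF S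
      ∧ |val S (levF S h ω')| ≤ 3 := by
    intro ω'
    rw [hinner]
    exact level_close hS (fun t => h (ω' t)) (fun t => E (ω' t)) (fun t => hE _) (fun t => hX _)
  have hF : ∀ (t : ℕ) (ω' : Fin (S ^ 76) → Z), |(fun (_ : ℕ) ω' => levF S h ω') t ω'| ≤ B := by
    intro t ω'
    rw [hBdef]
    exact word_le_of_val (hlev ω').2
  have hKle : S ^ 34 ≤ S ^ 76 := Nat.pow_le_pow_right (by omega) (by norm_num)
  have hT : ((S ^ 34 : ℕ) : ℤ) * B ≤ 2 ^ wid S := by
    rw [hBdef]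
    exact word_count_le hS hKle
  have houter := (foldU_cadd hS (fun _ ω' => levF S h ω') hB0 hF (S ^ 34) hT ω).1
  rw [houter]
  obtain ⟨y1, hy1⟩ : ∃ y1 : ℤ, y1 = ∑ k, levF S h (ω k) := ⟨_, rfl⟩
  rw [← hy1]
  have hvy : val S y1 = ∑ k, val S (levF S h (ω k)) := by
    unfold val
    rw [hy1]
    push_cast
    rw [Finset.sum_div]
  have hK : (Fintype.card (Fin (S ^ 34)) : ℝ) = (S : ℝ) ^ 34 := by
    simp
  have hy1close : |val S y1 - ∑ k, Real.log (((S ^ 76 : ℕ) : ℝ)⁻¹ * ∑ s, E (ω k s))|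
      ≤ (S : ℝ) ^ 34 * (17 * tauF S) := by
    rw [hvy, ← Finset.sum_sub_distrib]
    refine (Finset.abs_sum_le_sum_abs _ _).trans ?_
    refine (Finset.sum_le_card_nsmul _ _ (17 * tauF S) fun k _ => (hlev (ω k)).1).trans ?_
    rw [nsmul_eq_mul, Finset.card_univ, hK]
  have hy1big : |val S y1| ≤ Big S := by
    rw [hvy]
    refine (Finset.abs_sum_le_sum_abs _ _).trans ?_
    refine (Finset.sum_le_card_nsmul _ _ 3 fun k _ => (hlev (ω k)).2).trans ?_
    rw [nsmul_eq_mul, Finset.card_univ, hK]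
    have h1 : (S : ℝ) ^ 34 ≤ (2 ^ S) ^ 34 := pow_le_pow_left₀ hS0.le (nat_lt_two S).le 34
    have h2 : ((2 : ℝ) ^ S) ^ 34 = 2 ^ (S * 34) := (pow_mul _ _ _).symm
    have h3 : (2 : ℝ) ^ (S * 34 + 2) ≤ 2 ^ (S ^ 4) := pow_le_pow_right₀ (by norm_num) (by
      have h4 : S ^ 4 = S * S ^ 3 := by ring
      rw [h4]
      have h5 : S ≤ S ^ 3 := Nat.le_self_pow (by norm_num) S
      have h6 : S * 35 ≤ S * S ^ 3 := Nat.mul_le_mul_left _ (by omega)
      omega)
    rw [pow_add] at h3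
    unfold Big
    nlinarith
  rw [val_add hS hy1big hC2]
  have hfinal : (S : ℝ) ^ 34 * (17 * tauF S) + 2 / (S : ℝ) ^ 41 ≤ 1 / (S : ℝ) ^ 40 := by
    have h1 : (S : ℝ) ^ 34 * (17 * tauF S) ≤ (S : ℝ) ^ 34 * (17 * (1 / (S : ℝ) ^ 100)) :=
      mul_le_mul_of_nonneg_left (by linarith) (by positivity)
    have h2 : (S : ℝ) ^ 34 * (17 * (1 / (S : ℝ) ^ 100)) ≤ 1 / (S : ℝ) ^ 41 := by
      have h3 : (S : ℝ) ^ 34 * (17 * (1 / (S : ℝ) ^ 100)) = 17 / (S : ℝ) ^ 66 := by
        field_simp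
      rw [h3, div_le_div_iff₀ (by positivity) (by positivity), one_mul]
      have h4 : (S : ℝ) ^ 66 = (S : ℝ) ^ 41 * (S : ℝ) ^ 25 := by ring
      rw [h4, mul_comm]
      have h5 : (S : ℝ) ≤ (S : ℝ) ^ 25 := le_self_pow₀ hS1 (by norm_num)
      have h6 : (17 : ℝ) ≤ (S : ℝ) ^ 25 := by linarith
      exact mul_le_mul_of_nonneg_left h6 (by positivity)
    have h7 : 3 / (S : ℝ) ^ 41 ≤ 1 / (S : ℝ) ^ 40 := by
      rw [div_le_div_iff₀ (by positivity) (by positivity), one_mul]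
      have h8 : (S : ℝ) ^ 41 = (S : ℝ) ^ 40 * S := by ring
      rw [h8, mul_comm]
      exact mul_le_mul_of_nonneg_left (by linarith) (by positivity)
    have h9 : 1 / (S : ℝ) ^ 41 + 2 / (S : ℝ) ^ 41 = 3 / (S : ℝ) ^ 41 := by ring
    linarith
  have hsplit : val S y1 + val S C - (∑ k, Real.log (((S ^ 76 : ℕ) : ℝ)⁻¹ * ∑ s, E (ω k s)) + Ct)
      = (val S y1 - ∑ k, Real.log (((S ^ 76 : ℕ) : ℝ)⁻¹ * ∑ s, E (ω k s))) + (val S C - Ct) := by ring
  rw [hsplit]
  refine (abs_add_le _ _).trans ?_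
  linarith

end Det

end AnnealAux

namespace AnnealAux

section Final

variable {S : ℕ} {r : Fin m → ℕ} {c : Fin n → ℕ}

theorem annealK_cast (S : ℕ) : ((annealK S : ℕ) : ℝ) = (S : ℝ) ^ 34 := by
  unfold annealK
  push_cast
  ring

/-- The estimate is the exponential of the constant and of the logarithms of the averages. -/
theorem estG_eq (hS : 1000000 ≤ S) (hm : 0 < m) (hn : 0 < n) (hc : ∀ j, 0 < c j) (i0 : Fin m) (j0 : Fin n)
    (g : (Fin n × Fin m → Fin (cellM S)) → ℝ) (Sa : ℕ) (ω : Anneal n m S (annealK S) Sa)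
    (hpos : ∀ k, 0 < (Sa : ℝ)⁻¹ * ∑ s, Real.exp (-(g (ω k s)) / (annealK S : ℝ))) :
    estG S i0 j0 r c g Sa ω = Real.exp
      (∑ k, Real.log ((Sa : ℝ)⁻¹ * ∑ s, Real.exp (-(g (ω k s)) / (annealK S : ℝ))) + logCtrue S r c i0 j0) := by
  have hS0 : (0 : ℝ) < S := by
    have := S_pos_real hS
    linarith
  have hM : (0 : ℝ) < (cellM S : ℝ) := by
    unfold cellM
    positivity
  have hD : cellD S ^ (n * m) * (cellM S : ℝ) ^ (n * m) = (4 * (S : ℝ) ^ 4) ^ (n * m) := by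
    rw [← mul_pow]
    congr 1
    unfold cellD rQ
    field_simp
    ring
  rw [Real.exp_add, Real.exp_sum, exp_logCtrue hS hm hn r c i0 j0 hc]
  have hP : ∏ k, Real.exp (Real.log ((Sa : ℝ)⁻¹ * ∑ s, Real.exp (-(g (ω k s)) / (annealK S : ℝ))))
      = ∏ k, ((Sa : ℝ)⁻¹ * ∑ s, Real.exp (-(g (ω k s)) / (annealK S : ℝ))) :=
    Finset.prod_congr rfl fun k _ => Real.exp_log (hpos k)
  rw [hP]
  unfold estG
  rw [← hD]
  ring

/-- The final arithmetic. -/
theorem final_arith (hS : 1000000 ≤ S) {G A Y ys ε : ℝ} (hG : G = Real.exp ys)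
    (hY : |Y - ys| ≤ 1 / (S : ℝ) ^ 40) (hε0 : 2 / (S : ℝ) ≤ ε) (hε1 : ε ≤ 1)
    (hgood : |G - A| ≤ ε / 2 / 4 * A) : |Real.exp Y - A| ≤ ε / 4 * A := by
  have hSr := S_pos_real hS
  have hS1 : (1 : ℝ) ≤ S := by linarith
  have hS0 : (0 : ℝ) < S := by linarith
  have hε : 0 < ε := lt_of_lt_of_le (by positivity) hε0
  have hA : 0 ≤ A := by
    by_contra hneg
    push Not at hneg
    have h1 : ε / 2 / 4 * A < 0 := mul_neg_of_pos_of_neg (by positivity) hneg
    have h2 := abs_nonneg (G - A)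
    linarith
  have hG0 : 0 < G := by
    rw [hG]
    exact Real.exp_pos _
  have h3 := abs_le.1 hgood
  have hG2 : G ≤ 2 * A := by
    have : ε / 2 / 4 * A ≤ A := by
      have h4 : ε / 2 / 4 ≤ 1 := by linarith
      exact mul_le_of_le_one_left hA h4
    linarith [h3.2]
  have h5 : Real.exp Y = G * Real.exp (Y - ys) := by
    rw [hG, ← Real.exp_add]
    congr 1
    ring
  have h6 : |Y - ys| ≤ 1 := by
    refine hY.trans ?_
    rw [div_le_one (by positivity)]
    exact one_le_pow₀ hS1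
  have h7 := Real.abs_exp_sub_one_le h6
  have h8 : |Real.exp Y - G| ≤ 2 * A * (2 * (1 / (S : ℝ) ^ 40)) := by
    have h9 : Real.exp Y - G = G * (Real.exp (Y - ys) - 1) := by
      rw [h5]
      ring
    rw [h9, abs_mul, abs_of_pos hG0]
    exact mul_le_mul hG2 (h7.trans (by linarith)) (abs_nonneg _) (by linarith)
  have h10 : 2 * A * (2 * (1 / (S : ℝ) ^ 40)) ≤ ε / 2 / 4 * A := by
    have h11 : 4 * (1 / (S : ℝ) ^ 40) ≤ ε / 8 := by
      have h12 : 1 / (S : ℝ) ≤ ε / 2 := by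
        have : 2 / (S : ℝ) = 2 * (1 / (S : ℝ)) := by ring
        linarith
      have h13 : 4 * (1 / (S : ℝ) ^ 40) ≤ (1 / (S : ℝ)) / 4 := by
        rw [div_div, mul_one_div, div_le_div_iff₀ (by positivity) (by positivity)]
        have h14 : (S : ℝ) ^ 40 = (S : ℝ) * (S : ℝ) ^ 39 := by ring
        rw [h14]
        have h15 : (S : ℝ) ≤ (S : ℝ) ^ 39 := le_self_pow₀ hS1 (by norm_num)
        have h16 : (16 : ℝ) ≤ (S : ℝ) ^ 39 := by linarith
        nlinarith [mul_le_mul_of_nonneg_left h16 hS0.le]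
      linarith
    have h17 : ε / 2 / 4 = ε / 8 := by ring
    rw [h17]
    calc 2 * A * (2 * (1 / (S : ℝ) ^ 40)) = (4 * (1 / (S : ℝ) ^ 40)) * A := by ring
      _ ≤ ε / 8 * A := mul_le_mul_of_nonneg_right h11 hA
  have h18 := abs_sub_le (Real.exp Y) G A
  have h19 : ε / 4 * A = ε / 2 / 4 * A + ε / 2 / 4 * A := by ring
  linarith

end Final

end AnnealAux

/-- **The estimate at the root.** -/
theorem annealF_spec {S : ℕ} {r : Fin m → ℕ} {c : Fin n → ℕ} (h : NodeOK S r c) {ε δ : ℝ}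
    (hε0 : 2 / (S : ℝ) ≤ ε) (hε1 : ε ≤ 1) (hδ0 : 0 < δ) (hδ1 : δ ≤ 1) (hδS : Real.log (4 / δ) ≤ S) :
    ENNReal.ofReal (1 - δ) ≤ (annealF S (lN r, lN c)).toOuterMeasure
      {y | |Real.exp (val S y) - Aval r c| ≤ ε / 4 * Aval r c} := by
  classical
  have hS : 1000000 ≤ S := h.S_ge
  have hSr := S_pos_real hS
  have hS1 : (1 : ℝ) ≤ S := by linarith
  have hS0 : (0 : ℝ) < S := by linarith
  have hm := h.hm
  have hn := h.hn
  -- the laws of the runs
  have hex : ∀ k : ℕ, ∃ μ : PMF (Fin n × Fin m → Fin (cellM S)), k ≤ S ^ 34 →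
      chainF S (lN r, lN c, (k : ℤ)) = μ.map lZ
      ∧ ∑ z, |(μ z).toReal - Real.exp (-(((k : ℝ) / (S : ℝ) ^ 34) * gF S r c z))
            / ∑ z', Real.exp (-(((k : ℝ) / (S : ℝ) ^ 34) * gF S r c z'))|
        ≤ 2 * Real.exp (-(S : ℝ)) := by
    intro k
    by_cases hk : k ≤ S ^ 34
    · obtain ⟨μ, hμ⟩ := chainF_spec h k hk
      exact ⟨μ, fun _ => hμ⟩
    · obtain ⟨μ, _⟩ := chainF_spec h 0 (Nat.zero_le _)
      exact ⟨μ, fun hk' => absurd hk' hk⟩
  choose μ hμ using hex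
  have hSa : annealS S δ ≤ S ^ 76 := by
    unfold annealS
    apply Nat.ceil_le.2
    push_cast
    have h1 : Real.log (4 / δ) + S ≤ (S : ℝ) ^ 2 := by nlinarith
    have h2 : (S : ℝ) ^ 76 = (S : ℝ) ^ 74 * (S : ℝ) ^ 2 := by ring
    rw [h2]
    exact mul_le_mul_of_nonneg_left h1 (by positivity)
  have hA := annealG_close (h.inst) h.hW hm hn (W := S) (g := gF S r c)
    (fun z u hu => gF_close h z hu) (fun z => gF_bounds h z)
    (L := fun k z => (μ (k : ℕ) z).toReal) (fun _ _ => ENNReal.toReal_nonneg)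
    (by
      intro k
      have h1 : ∑ z, μ (k : ℕ) z = 1 :=
        (tsum_fintype (L := SummationFilter.unconditional _) (⇑(μ (k : ℕ)))).symm.trans (μ (k : ℕ)).tsum_coe
      rw [← ENNReal.toReal_sum (fun z _ => PMF.apply_ne_top _ z), h1]
      rfl)
    (by
      intro k
      rw [annealK_cast]
      exact (hμ (k : ℕ) (Nat.le_of_lt k.2)).2)
    (ε := ε / 2) (δ := δ) (by
      have : 2 / (S : ℝ) = 2 * (1 / (S : ℝ)) := by ring
      linarith) (by linarith) hδ0 hδ1 (Sa := S ^ 76) hSa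
  have hA' : 1 - δ ≤ ∑ ω : Fin (S ^ 34) → Fin (S ^ 76) → Fin n × Fin m → Fin (cellM S),
      (∏ k : Fin (S ^ 34), ∏ s : Fin (S ^ 76), (μ (k : ℕ) (ω k s)).toReal) *
        if |estG S (iMax hm r) (jMax hn c) r c (gF S r c) (S ^ 76) ω - Aval r c| ≤ ε / 2 / 4 * Aval r c
        then 1 else 0 := hA
  have hlaw := annealF_law (x := (lN r, lN c)) (lz := lZ) hS (μ := μ) (fun k hk => (hμ k hk).1)
  -- the constant
  have hDr : (1 : ℝ) ≤ (n : ℝ) * m + 1 := by
    have : (0 : ℝ) ≤ (n : ℝ) * m := by positivity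
    linarith
  have hDS : 20 * (n * m + 1) ≤ S := by
    have h1 : (10 : ℝ) ^ 6 * ((n : ℝ) * m + 1) ^ 2 ≤ S := h.hW
    have h2 : (20 : ℝ) * ((n : ℝ) * m + 1) ≤ S := by nlinarith
    exact_mod_cast h2
  have hN := h.hN
  have hrle : ∀ i, r i ≤ 2 ^ S := fun i =>
    (Finset.single_le_sum (f := r) (fun _ _ => Nat.zero_le _) (mem_univ i)).trans hN.le
  have hcle : ∀ j, c j ≤ 2 ^ S := fun j => by
    have h1 := Finset.single_le_sum (f := c) (fun _ _ => Nat.zero_le _) (mem_univ j)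
    rw [← h.hsum] at h1
    exact h1.trans hN.le
  have hNc : ∑ j, c j ≤ 2 ^ S := by
    rw [← h.hsum]
    exact hN.le
  have hC := logCF_apx (i0 := iMax hm r) (j0 := jMax hn c) hS hm hn hDS hrle hcle hNc (iMax_spec hm r)
    (jMax_spec hn c)
  have hsq : 20 * (n * m + 1) ≤ S ^ 2 := S_sq_facts hS hDS
  have hC1 : |val S (logCF S (lN r, lN c)) - logCtrue S r c (iMax hm r) (jMax hn c)| ≤ 2 / (S : ℝ) ^ 41 := by
    refine hC.1.trans ?_
    have h1 : ((20 * (n * m + 1) : ℕ) : ℝ) ≤ S := by exact_mod_cast hDS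
    have h2 : (0 : ℝ) < e0 S := e0_pos hS
    refine (mul_le_mul_of_nonneg_right h1 h2.le).trans (le_of_eq ?_)
    unfold e0
    field_simp
  have hC2 := hC.val_le hS hsq
  -- the measure
  rw [hlaw, PMF.toOuterMeasure_map_apply, PMF.toOuterMeasure_apply, tsum_fintype]
  refine (ENNReal.ofReal_le_ofReal hA').trans ?_
  rw [ENNReal.ofReal_sum_of_nonneg (fun ω _ => by positivity)]
  refine Finset.sum_le_sum fun ω _ => ?_
  by_cases hgood : |estG S (iMax hm r) (jMax hn c) r c (gF S r c) (S ^ 76) ω - Aval r c|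
      ≤ ε / 2 / 4 * Aval r c
  · rw [if_pos hgood, mul_one]
    -- the output of the program
    have hE : ∀ a, 3 / 4 ≤ Real.exp (-(gF S r c a) / (S : ℝ) ^ 34) ∧ Real.exp (-(gF S r c a) / (S : ℝ) ^ 34) ≤ 2 :=
      fun a => exp_bounds hS (gF_bounds h a).1 (gF_bounds h a).2
    have hX : ∀ a : Fin n × Fin m → Fin (cellM S), |val S (sampleF S (lN r, lN c) (lZ a))
        - Real.exp (-(gF S r c a) / (S : ℝ) ^ 34)| ≤ 7 * etaF S :=
      fun a => sample_close hS (gF_bounds h a).1 (gF_bounds h a).2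
    have hdet := det_main hS (fun a : Fin n × Fin m → Fin (cellM S) => sampleF S (lN r, lN c) (lZ a))
      (fun a => Real.exp (-(gF S r c a) / (S : ℝ) ^ 34)) hE hX hC1 hC2 ω
    have hpos : ∀ k, 0 < ((S ^ 76 : ℕ) : ℝ)⁻¹ * ∑ s, Real.exp (-(gF S r c (ω k s)) / (annealK S : ℝ)) := by
      intro k
      have h0 : 0 < S ^ 76 := Nat.pow_pos (by omega)
      have h1 : (0 : ℝ) < ((S ^ 76 : ℕ) : ℝ) := by exact_mod_cast h0
      have h2 : (Finset.univ : Finset (Fin (S ^ 76))).Nonempty := ⟨⟨0, h0⟩, mem_univ _⟩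
      exact mul_pos (inv_pos.2 h1) (Finset.sum_pos (fun s _ => Real.exp_pos _) h2)
    have hG := estG_eq (r := r) (c := c) hS hm hn h.hc (iMax hm r) (jMax hn c) (gF S r c) (S ^ 76) ω hpos
    rw [annealK_cast] at hG
    have hmem : ω ∈ (fun ω : Fin (S ^ 34) → Fin (S ^ 76) → Fin n × Fin m → Fin (cellM S) =>
        cadd S (foldU (fun _ l ω' => cadd S l (levF S (fun a => sampleF S (lN r, lN c) (lZ a)) ω')) 0 (S ^ 34) ω)
          (logCF S (lN r, lN c))) ⁻¹' {y | |Real.exp (val S y) - Aval r c| ≤ ε / 4 * Aval r c} :=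
      final_arith hS hG hdet hε0 hε1 hgood
    rw [Set.indicator_of_mem hmem, piP_apply]
    rw [ENNReal.ofReal_prod_of_nonneg (fun k _ => by positivity)]
    refine Finset.prod_le_prod' fun k _ => ?_
    rw [ENNReal.ofReal_prod_of_nonneg (fun s _ => ENNReal.toReal_nonneg), piP_apply]
    refine Finset.prod_le_prod' fun s _ => ?_
    rw [ENNReal.ofReal_toReal (PMF.apply_ne_top _ _)]
  · rw [if_neg hgood, mul_zero, ENNReal.ofReal_zero]
    exact zero_le

end Vale.Agent.Lib.P328.Bit
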