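import Vale.Agent.Lib.P328.Bit.LawG
import Vale.Agent.Lib.P328.Samp.Anneal

/-!
# P328, bit model: annealing for any weights close to the convex potential (module ANNEALG)

`annealEst_close` of `Samp/Anneal` with `g` for `psiCell`, `sum_close_g`, and laws `L k` at the levels, with `Σ_z |L k z - π_k z| ≤ τ`, `τ = 2 exp (-W)`, and `Sa ≥ annealS W δ` samples. `anneal_generic` applies as it stands.
-/

namespace Vale.Agent.Lib.P328.Bit

open Finset MeasureTheory Vale.Agent.Lib.P328.Cap Vale.Agent.Lib.P328.Fpras Vale.Agent.Lib.P328.Samp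
open scoped ENNReal

variable {m n : ℕ} {i0 : Fin m} {j0 : Fin n} {r : Fin m → ℕ} {c : Fin n → ℕ}

/-- The estimate of `Aval r c` with weights `g`. -/
noncomputable def estG (W : ℕ) (i0 : Fin m) (j0 : Fin n) (r : Fin m → ℕ) (c : Fin n → ℕ)
    (g : (Fin n × Fin m → Fin (cellM W)) → ℝ) (Sa : ℕ) (ω : Anneal n m W (annealK W) Sa) : ℝ :=
  betaC c * Real.exp (-phiMin r) * detT i0 j0 r c * cellD W ^ (n * m)
    * ((cellM W : ℝ) ^ (n * m) * ∏ k, ((Sa : ℝ)⁻¹ * ∑ s, Real.exp (-(g (ω k s)) / (annealK W : ℝ))))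
    / (∏ i, (Nat.factorial (r i) : ℝ))

theorem anneal_tau_two {W K : ℝ} (hW6 : (10 : ℝ) ^ 6 ≤ W) (hKr : K = W ^ 34) {ε ξ : ℝ}
    (hε0 : 1 / W ≤ ε) (hξ : ξ = ε / 8 / (32 * K)) :
    K * (4 * (ξ + 2 * (2 * Real.exp (-W)))) ≤ ε / 8 / 2 := by
  have hWpos : 0 < W := lt_of_lt_of_le (by norm_num) hW6
  have hKpos : 0 < K := by
    rw [hKr]
    positivity
  have hexp := pow_le_exp_of_large hW6
  have hexpp := Real.exp_pos W
  have e1 : K * (4 * ξ) = ε / 8 / 8 := by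
    rw [hξ]
    field_simp
    ring
  have e2 : K * Real.exp (-W) * W ≤ 1 / 1000 := by
    rw [hKr, Real.exp_neg, mul_assoc, mul_comm ((Real.exp W)⁻¹), ← mul_assoc, ← div_eq_mul_inv,
      div_le_iff₀ hexpp]
    have : W ^ 34 * W = W ^ 35 := by ring
    rw [this]
    linarith
  have e4 : K * Real.exp (-W) ≤ (1 / 1000) * (1 / W) := by
    rw [mul_one_div, le_div_iff₀ hWpos]
    exact e2
  have e5 : 0 < 1 / W := by positivity
  have e6 : K * (4 * (ξ + 2 * (2 * Real.exp (-W)))) = K * (4 * ξ) + 16 * (K * Real.exp (-W)) := by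
    ring
  rw [e6, e1]
  nlinarith

theorem estG_eq_aux (W : ℕ) (i0 : Fin m) (j0 : Fin n) (r : Fin m → ℕ) (c : Fin n → ℕ)
    (g : (Fin n × Fin m → Fin (cellM W)) → ℝ) (Sa : ℕ) (ω : Anneal n m W (annealK W) Sa) :
    estG W i0 j0 r c g Sa ω = betaC c * ((detT i0 j0 r c * Real.exp (-phiMin r) * cellD W ^ (n * m))
      * ((Fintype.card (Fin n × Fin m → Fin (cellM W)) : ℝ)
        * ∏ k, ((Sa : ℝ)⁻¹ * ∑ s, Real.exp (-(g (ω k s)) / (annealK W : ℝ)))))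
      / ∏ i, (Nat.factorial (r i) : ℝ) := by
  unfold estG
  rw [card_cells]
  ring

/-- **The estimate at the root.** -/
theorem annealG_close (h : InstOK i0 j0 r c) {W : ℕ} (hW : WOK m n W) (hm : 0 < m) (hn : 0 < n)
    {g : (Fin n × Fin m → Fin (cellM W)) → ℝ} (hg : GClose W i0 j0 r c g)
    (hgb : ∀ z, -1 ≤ g z ∧ g z ≤ (W : ℝ) ^ 32)
    {L : Fin (annealK W) → (Fin n × Fin m → Fin (cellM W)) → ℝ} (hL0 : ∀ k z, 0 ≤ L k z)
    (hL1 : ∀ k, ∑ z, L k z = 1)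
    (hL : ∀ k : Fin (annealK W), ∑ z, |L k z - Real.exp (-(((k : ℕ) : ℝ) / (annealK W : ℝ) * g z))
        / ∑ z', Real.exp (-(((k : ℕ) : ℝ) / (annealK W : ℝ) * g z'))| ≤ 2 * Real.exp (-(W : ℝ)))
    {ε δ : ℝ} (hε0 : 1 / (W : ℝ) ≤ ε) (hε1 : ε ≤ 1) (hδ0 : 0 < δ) (hδ1 : δ ≤ 1) {Sa : ℕ}
    (hSa : annealS W δ ≤ Sa) :
    1 - δ ≤ ∑ ω : Anneal n m W (annealK W) Sa, (∏ k, ∏ s, L k (ω k s))
      * if |estG W i0 j0 r c g Sa ω - Aval r c| ≤ ε / 4 * Aval r c then 1 else 0 := by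
  classical
  -- the size of `W`
  have hW6 : (10 : ℝ) ^ 6 ≤ (W : ℝ) := by
    have hD : (0 : ℝ) ≤ (n : ℝ) * m := by positivity
    have h1 : (1 : ℝ) ≤ ((n : ℝ) * m + 1) ^ 2 := by nlinarith
    have h2 : 10 ^ 6 * ((n : ℝ) * m + 1) ^ 2 ≤ W := hW
    nlinarith
  have hWpos : (0 : ℝ) < W := lt_of_lt_of_le (by norm_num) hW6
  have hWn : 0 < W := by exact_mod_cast hWpos
  have hW1 : (1 : ℝ) ≤ W := by linarith [(by norm_num : (1 : ℝ) ≤ 10 ^ 6)]
  have hKr : (annealK W : ℝ) = (W : ℝ) ^ 34 := by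
    simp [annealK]
  have hK0 : 0 < annealK W := by
    simp only [annealK]
    positivity
  have hKpos : (0 : ℝ) < annealK W := by exact_mod_cast hK0
  -- the hypotheses of the generic theorem
  have hb : ∀ z, |g z| ≤ (W : ℝ) ^ 32 + 1 := by
    intro z
    obtain ⟨h1, h2⟩ := hgb z
    have h3 : (0 : ℝ) < (W : ℝ) ^ 32 := by positivity
    rw [abs_le]
    constructor <;> linarith
  have hKG : 2 * ((W : ℝ) ^ 32 + 1) ≤ annealK W := by
    rw [hKr]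
    have h1 : (W : ℝ) ^ 34 = (W : ℝ) ^ 32 * (W : ℝ) ^ 2 := by ring
    have h2 : (1 : ℝ) ≤ (W : ℝ) ^ 32 := one_le_pow₀ hW1
    have h3 : (4 : ℝ) ≤ (W : ℝ) ^ 2 := by nlinarith
    rw [h1]
    nlinarith
  have hlog : 0 ≤ Real.log (4 / δ) := by
    apply Real.log_nonneg
    rw [le_div_iff₀ hδ0]
    linarith
  have hSr : (W : ℝ) ^ 74 * (Real.log (4 / δ) + W) ≤ (Sa : ℝ) :=
    (Nat.le_ceil _).trans (by exact_mod_cast hSa : ((annealS W δ : ℕ) : ℝ) ≤ (Sa : ℝ))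
  have hS0 : 0 < Sa := by
    have h1 : 0 < (W : ℝ) ^ 74 * (Real.log (4 / δ) + W) := by positivity
    have h2 : (0 : ℝ) < Sa := lt_of_lt_of_le h1 hSr
    exact_mod_cast h2
  have hLtv : ∀ k : Fin (annealK W), ∑ z, |L k z - Real.exp (-(((k : ℕ) : ℝ) / annealK W) * g z)
      / ∑ z', Real.exp (-(((k : ℕ) : ℝ) / annealK W) * g z')| ≤ 2 * Real.exp (-(W : ℝ)) := by
    intro k
    simpa only [neg_mul] using hL k
  have hε0' : 0 < ε := lt_of_lt_of_le (by positivity) hε0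
  set ξ := ε / 8 / (32 * (annealK W : ℝ)) with hξ
  have hξ0 : 0 < ξ := by positivity
  have hτ := anneal_tau_two hW6 hKr hε0 hξ
  have hδ' := anneal_delta hW6 hKr hε0 hξ hδ0 hlog hSr
  have : Nonempty (Fin n × Fin m → Fin (cellM W)) := ⟨zStart _ W⟩
  have main := anneal_generic (g := g) (G := (W : ℝ) ^ 32 + 1) hb hK0 hKG hS0 hL0 hL1
    (τ := 2 * Real.exp (-(W : ℝ))) (ξ := ξ) (ε := ε / 8) (δ := δ)
    (by have := Real.exp_pos (-(W : ℝ)); positivity) hξ0 hLtv hτ (by linarith) hδ'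
  refine main.trans (Finset.sum_le_sum fun ω _ => ?_)
  have hw : 0 ≤ ∏ k, ∏ s, L k (ω k s) :=
    Finset.prod_nonneg fun k _ => Finset.prod_nonneg fun s _ => hL0 _ _
  refine mul_le_mul_of_nonneg_left ?_ hw
  by_cases hgood : |(Fintype.card (Fin n × Fin m → Fin (cellM W)) : ℝ)
      * ∏ k, ((Sa : ℝ)⁻¹ * ∑ s, Real.exp (-(g (ω k s)) / annealK W)) - ∑ z, Real.exp (-(g z))|
        ≤ ε / 8 * ∑ z, Real.exp (-(g z))
  · rw [if_pos hgood, if_pos]
    have hη : 20 / (W : ℝ) ^ 24 ≤ ε / 16 := by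
      have h1 : 1 / (W : ℝ) / 16 ≤ ε / 16 := by linarith
      refine le_trans ?_ h1
      rw [div_div, div_le_div_iff₀ (by positivity) (by positivity)]
      have h2 : (W : ℝ) ^ 24 = (W : ℝ) ^ 23 * W := by ring
      have h3 : (320 : ℝ) ≤ (W : ℝ) ^ 23 := by
        have h4 : (W : ℝ) ≤ (W : ℝ) ^ 23 := by
          calc (W : ℝ) = (W : ℝ) ^ 1 := (pow_one _).symm
            _ ≤ (W : ℝ) ^ 23 := pow_le_pow_right₀ hW1 (by norm_num)
        linarith [(by norm_num : (320 : ℝ) ≤ 10 ^ 6)]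
      rw [h2]
      nlinarith
    have hI0 : 0 ≤ (∫⁻ t, wmat t * capa r c t).toReal := ENNReal.toReal_nonneg
    have hsc' := (sum_close_g h hW hm hn hg).trans (mul_le_mul_of_nonneg_right hη hI0)
    have hC0 : 0 ≤ detT i0 j0 r c * Real.exp (-phiMin r) * cellD W ^ (n * m) := by
      have h1 := detT_pos i0 j0 r c
      have h2 := cellD_pos hWn
      positivity
    have hFpos : 0 < ∏ i, (Nat.factorial (r i) : ℝ) :=
      Finset.prod_pos fun i _ => by exact_mod_cast Nat.factorial_pos _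
    rw [estG_eq_aux, Aval_eq]
    exact anneal_det hC0 hI0 hFpos (betaC_nonneg c) hε0' hε1 hgood hsc'
  · rw [if_neg hgood]
    split_ifs <;> norm_num

end Vale.Agent.Lib.P328.Bit
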