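import Vale.Agent.Lib.P328.Bit.Fixed

/-!
# P328, bit model: exponential, logarithm, square root (module FEXP)

`fexp`: for `|val x| ≤ S ^ 3`. With `N = 2 ^ (S^5)` the word `u₀ = N ^ 2 + x` is the number `1 + val x / N` in the scale `N ^ 2`.
`S ^ 5` squarings in the scale `N ^ 2` (rounded down) give `(1 + val x / N) ^ N`; each squaring at most doubles the
error (relative to `max 1 value`), and adds one unit of the scale `N ^ 2`; so the final error is at most `2 N / N ^ 2`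
relative to `exp (val x)`. The last step rounds to the scale `N`. All words are at most `2 ^ (6 S ^ 5)`.

`flog`: bisection: invariant `fexp lo ≤ x < fexp hi`, start `lo = -S ^ 3`, `hi = S ^ 3`, `S ^ 5` halvings. No monotonicity of `fexp`
is used: the result satisfies `exp(lo) - ζ ≤ val x`, `val x < exp(hi) + ζ`.

`fsqrt`: bisection on words: largest `w` with `w * w ≤ x * 2 ^ prec`, in `S ^ 6` rounds.
-/

namespace Vale.Agent.Lib.P328.Bit

variable {α : Type} [Enc α]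

/-- The square of the scale: the word `2 ^ (2 S ^ 5)`. -/
def fbig (S : ℕ) : ℤ := cmul S (fone S) (fone S)

/-- One squaring in the scale `fbig`. -/
def sqStep (S : ℕ) (u : ℤ) : ℤ := cdiv S (cmul S u u) (fbig S)

/-- The exponential. -/
def fexp (S : ℕ) (x : ℤ) : ℤ :=
  cdiv S ((fun s => sqStep S s)^[S ^ 5] (cadd S (fbig S) x)) (fone S)

/-- The midpoint. -/
def midS (S : ℕ) (st : ℤ × ℤ) : ℤ := cdiv S (cadd S st.1 st.2) (cadd S 1 1)

/-- One step of the bisection for the logarithm. -/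
def logStep (S : ℕ) (y : ℤ × (ℤ × ℤ)) : ℤ × ℤ :=
  if 0 < csub S (cadd S y.1 1) (fexp S (midS S y.2)) then (midS S y.2, y.2.2) else (y.2.1, midS S y.2)

/-- The upper end of the domain of the bisection for the logarithm. -/
def hiLog (S : ℕ) : ℤ := cmul S (clamp S ((S : ℤ) ^ 3)) (fone S)

/-- The lower end of the domain of the bisection for the logarithm. -/
def loLog (S : ℕ) : ℤ := csub S 0 (hiLog S)

/-- The logarithm. -/
def flog (S : ℕ) (x : ℤ) : ℤ :=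
  ((fun st => logStep S (x, st))^[S ^ 5] (loLog S, hiLog S)).1

/-- One step of the bisection for the square root. -/
def sqrtStep (S : ℕ) (y : ℤ × (ℤ × ℤ)) : ℤ × ℤ :=
  if 0 < csub S (cadd S y.1 1) (cmul S (midS S y.2) (midS S y.2)) then (midS S y.2, y.2.2)
  else (y.2.1, midS S y.2)

/-- The square root. -/
def fsqrt (S : ℕ) (x : ℤ) : ℤ :=
  ((fun st => sqrtStep S (cmul S x (fone S), st))^[S ^ 6] (0, fbig S)).1

/-! ### Programs -/

theorem fbig_rep : DRep (α := α) (β := ℤ) fun S _ => fbig S := fone_rep.mul fone_rep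

theorem sqStep_rep : DRep (α := ℤ) (β := ℤ) fun S x => sqStep S x :=
  (DRep.id'.mul DRep.id').div fbig_rep

theorem fexp_rep0 : DRep (α := ℤ) (β := ℤ) fun S x => fexp S x := by
  have hb : DRep (α := ℤ × ℤ) (β := ℤ) fun S y => sqStep S y.2 :=
    DRep.snd.comp sqStep_rep
  have h := DRep.iterPow (α := ℤ) (β := ℤ) 5 hb
  have h2 : DRep (α := ℤ) (β := ℤ × ℤ) fun S x => (x, cadd S (fbig S) x) :=
    DRep.id'.pair (fbig_rep.add DRep.id')
  exact (h2.comp h).div fone_rep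

theorem fexp_rep {f : ℕ → α → ℤ} (hf : DRep f) : DRep fun S x => fexp S (f S x) :=
  hf.comp fexp_rep0

theorem midS_rep : DRep (α := ℤ × (ℤ × ℤ)) (β := ℤ) fun S y => midS S y.2 :=
  (((DRep.snd.comp DRep.fst)).add (DRep.snd.comp DRep.snd)).div (DRep.one.add DRep.one)

theorem logStep_rep : DRep (α := ℤ × (ℤ × ℤ)) (β := ℤ × ℤ) fun S y => logStep S y := by
  have hc : DRep (α := ℤ × (ℤ × ℤ)) (β := ℤ)
      fun S y => csub S (cadd S y.1 1) (fexp S (midS S y.2)) :=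
    (DRep.fst.add DRep.one).sub (fexp_rep midS_rep)
  have h1 : DRep (α := ℤ × (ℤ × ℤ)) (β := ℤ × ℤ) fun S y => (midS S y.2, y.2.2) :=
    midS_rep.pair (DRep.snd.comp DRep.snd)
  have h2 : DRep (α := ℤ × (ℤ × ℤ)) (β := ℤ × ℤ) fun S y => (y.2.1, midS S y.2) :=
    (DRep.snd.comp DRep.fst).pair midS_rep
  exact hc.ite h1 h2

theorem sqrtStep_rep : DRep (α := ℤ × (ℤ × ℤ)) (β := ℤ × ℤ) fun S y => sqrtStep S y := by
  have hc : DRep (α := ℤ × (ℤ × ℤ)) (β := ℤ)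
      fun S y => csub S (cadd S y.1 1) (cmul S (midS S y.2) (midS S y.2)) :=
    (DRep.fst.add DRep.one).sub (midS_rep.mul midS_rep)
  have h1 : DRep (α := ℤ × (ℤ × ℤ)) (β := ℤ × ℤ) fun S y => (midS S y.2, y.2.2) :=
    midS_rep.pair (DRep.snd.comp DRep.snd)
  have h2 : DRep (α := ℤ × (ℤ × ℤ)) (β := ℤ × ℤ) fun S y => (y.2.1, midS S y.2) :=
    (DRep.snd.comp DRep.fst).pair midS_rep
  exact hc.ite h1 h2

theorem flog_rep0 : DRep (α := ℤ) (β := ℤ) fun S x => flog S x := by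
  have h := DRep.iterPow (α := ℤ) (β := ℤ × ℤ) 5 logStep_rep
  have hhi : DRep (α := ℤ) (β := ℤ) fun S _ => hiLog S := (spow_rep 3).mul fone_rep
  have hlo : DRep (α := ℤ) (β := ℤ) fun S _ => loLog S := DRep.zero.sub hhi
  have h2 : DRep (α := ℤ) (β := ℤ × (ℤ × ℤ)) fun S x => (x, (loLog S, hiLog S)) :=
    DRep.id'.pair (hlo.pair hhi)
  exact (h2.comp h).comp DRep.fst

theorem flog_rep {f : ℕ → α → ℤ} (hf : DRep f) : DRep fun S x => flog S (f S x) :=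
  hf.comp flog_rep0

theorem fsqrt_rep0 : DRep (α := ℤ) (β := ℤ) fun S x => fsqrt S x := by
  have h := DRep.iterPow (α := ℤ) (β := ℤ × ℤ) 6 sqrtStep_rep
  have h2 : DRep (α := ℤ) (β := ℤ × (ℤ × ℤ))
      fun S x => (cmul S x (fone S), ((0 : ℤ), fbig S)) :=
    (DRep.id'.mul fone_rep).pair (DRep.zero.pair fbig_rep)
  exact (h2.comp h).comp DRep.fst

theorem fsqrt_rep {f : ℕ → α → ℤ} (hf : DRep f) : DRep fun S x => fsqrt S (f S x) :=
  hf.comp fsqrt_rep0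

variable {S : ℕ} {x : ℤ}

namespace FExpAux

/-! ### Words -/

lemma cadd_eq (hS : 1000000 ≤ S) {a b : ℤ} (ha : |a| ≤ 2 ^ wid S) (hb : |b| ≤ 2 ^ wid S)
    (hab : |a + b| ≤ 2 ^ wid S) : cadd S a b = a + b := by
  unfold cadd
  rw [clamp_eq hS ha, clamp_eq hS hb, clamp_eq hS hab]

lemma csub_eq (hS : 1000000 ≤ S) {a b : ℤ} (ha : |a| ≤ 2 ^ wid S) (hb : |b| ≤ 2 ^ wid S)
    (hab : |a - b| ≤ 2 ^ wid S) : csub S a b = a - b := by
  unfold csub
  rw [clamp_eq hS ha, clamp_eq hS hb, clamp_eq hS hab]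

lemma cmul_eq (hS : 1000000 ≤ S) {a b : ℤ} (ha : |a| ≤ 2 ^ wid S) (hb : |b| ≤ 2 ^ wid S)
    (hab : |a * b| ≤ 2 ^ wid S) : cmul S a b = a * b := by
  unfold cmul
  rw [clamp_eq hS ha, clamp_eq hS hb, clamp_eq hS hab]

lemma cdiv_eq (hS : 1000000 ≤ S) {a b : ℤ} (ha : |a| ≤ 2 ^ wid S) (hb : |b| ≤ 2 ^ wid S) :
    cdiv S a b = a / b := by
  unfold cdiv
  rw [clamp_eq hS ha, clamp_eq hS hb]
  exact clamp_eq hS ((Int.abs_ediv_le_abs a b).trans ha)

lemma abs_two_pow_le {m n : ℕ} (h : m ≤ n) : |(2 : ℤ) ^ m| ≤ 2 ^ n := by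
  rw [abs_of_pos (by positivity)]
  exact pow_le_pow_right₀ (by norm_num) h

/-- The arithmetic facts on the exponents. -/
lemma exps (hS : 1000000 ≤ S) :
    6 * S ^ 5 ≤ S ^ 6 ∧ 100 * S ^ 3 ≤ S ^ 5 ∧ S ≤ S ^ 3 ∧ 100 * S ^ 4 ≤ S ^ 5 ∧ 1000000 ≤ S := by
  refine ⟨?_, ?_, ?_, ?_, hS⟩
  · have : S ^ 6 = S ^ 5 * S := by ring
    rw [this]
    nlinarith [Nat.zero_le (S ^ 5)]
  · have : S ^ 5 = S ^ 3 * (S * S) := by ring
    rw [this]
    have h : 100 ≤ S * S := by nlinarith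
    nlinarith [Nat.zero_le (S ^ 3)]
  · have : S ^ 3 = S * (S * S) := by ring
    rw [this]
    have h : 1 ≤ S * S := by nlinarith
    nlinarith
  · have : S ^ 5 = S ^ 4 * S := by ring
    rw [this]
    nlinarith [Nat.zero_le (S ^ 4)]

lemma fone_eq : fone S = 2 ^ (S ^ 5) := rfl

lemma fbig_eq (hS : 1000000 ≤ S) : fbig S = 2 ^ (2 * S ^ 5) := by
  obtain ⟨h1, -, -, -, -⟩ := exps hS
  have e : (2 : ℤ) ^ (S ^ 5) * 2 ^ (S ^ 5) = 2 ^ (2 * S ^ 5) := by
    rw [← pow_add]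
    congr 1
    ring
  unfold fbig
  rw [fone_eq, cmul_eq hS (abs_two_pow_le (by unfold wid; omega)) (abs_two_pow_le (by unfold wid; omega)),
    e]
  rw [e]
  exact abs_two_pow_le (by unfold wid; omega)

lemma ediv_real (a b : ℤ) (hb : 0 < b) :
    (a : ℝ) / b - 1 < ((a / b : ℤ) : ℝ) ∧ ((a / b : ℤ) : ℝ) ≤ (a : ℝ) / b := by
  have h1 := Int.mul_ediv_add_emod a b
  have h2 := Int.emod_nonneg a hb.ne'
  have h3 := Int.emod_lt_of_pos a hb
  have hbR : (0 : ℝ) < b := by exact_mod_cast hb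
  have e : (a : ℝ) = b * ((a / b : ℤ) : ℝ) + ((a % b : ℤ) : ℝ) := by exact_mod_cast h1.symm
  have h2R : (0 : ℝ) ≤ ((a % b : ℤ) : ℝ) := by exact_mod_cast h2
  have h3R : ((a % b : ℤ) : ℝ) < b := by exact_mod_cast h3
  constructor
  · rw [sub_lt_iff_lt_add, div_lt_iff₀ hbR]
    nlinarith
  · rw [le_div_iff₀ hbR]
    nlinarith

/-! ### Real numbers -/

lemma exp_nat_le (n : ℕ) : Real.exp n ≤ 2 ^ (2 * n) := by
  rw [← Real.exp_one_pow, pow_mul]
  apply pow_le_pow_left₀ (Real.exp_pos _).le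
  have := Real.exp_one_lt_d9
  norm_num
  linarith

lemma two_pow_lt_exp {n : ℕ} (hn : 4 ≤ n) : 2 ^ (n + 1) ≤ Real.exp n := by
  rw [← Real.exp_one_pow]
  have h1 : (5 / 2 : ℝ) ≤ Real.exp 1 := by
    have := Real.exp_one_gt_d9
    linarith
  have h2 : (5 / 2 : ℝ) ^ n ≤ Real.exp 1 ^ n := pow_le_pow_left₀ (by norm_num) h1 n
  have h3 : (2 : ℝ) ≤ (5 / 4 : ℝ) ^ n := by
    calc (2 : ℝ) ≤ (5 / 4 : ℝ) ^ 4 := by norm_num
      _ ≤ (5 / 4 : ℝ) ^ n := pow_le_pow_right₀ (by norm_num) hn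
  have h4 : (5 / 2 : ℝ) ^ n = 2 ^ n * (5 / 4 : ℝ) ^ n := by
    rw [← mul_pow]
    norm_num
  rw [pow_succ]
  calc (2 : ℝ) ^ n * 2 ≤ 2 ^ n * (5 / 4 : ℝ) ^ n :=
        mul_le_mul_of_nonneg_left h3 (by positivity)
    _ = (5 / 2 : ℝ) ^ n := h4.symm
    _ ≤ _ := h2

lemma nat_le_two_pow (n : ℕ) : (n : ℝ) ≤ 2 ^ n := by
  exact_mod_cast (Nat.lt_two_pow_self (n := n)).le

lemma one_error_step {v T M c η θ : ℝ} (hη : 0 < η) (hM : 1 ≤ M) (hT : |T| ≤ M) (hc0 : 0 ≤ c)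
    (hcη : c ^ 2 * η ≤ 1) (h : |v - T| ≤ c * η * M) (hθ0 : 0 ≤ θ) (hθ1 : θ ≤ 1) :
    |v ^ 2 - θ * η - T ^ 2| ≤ (2 * c + 2) * η * M ^ 2 := by
  have hE : 0 ≤ c * η * M := by positivity
  have h1 : |v + T| ≤ c * η * M + 2 * M := by
    have e : v + T = (v - T) + 2 * T := by ring
    rw [e]
    refine (abs_add_le _ _).trans ?_
    rw [abs_mul, abs_of_pos (by norm_num : (0 : ℝ) < 2)]
    linarith
  have h2 : |v ^ 2 - T ^ 2| ≤ (c * η * M) * (c * η * M + 2 * M) := by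
    have e : v ^ 2 - T ^ 2 = (v - T) * (v + T) := by ring
    rw [e, abs_mul]
    exact mul_le_mul h h1 (abs_nonneg _) hE
  have h3 : |θ * η| ≤ η := by
    rw [abs_of_nonneg (by positivity)]
    nlinarith
  have e : v ^ 2 - θ * η - T ^ 2 = (v ^ 2 - T ^ 2) - θ * η := by ring
  rw [e]
  refine (abs_sub _ _).trans ?_
  have h4 : (c * η * M) * (c * η * M + 2 * M) + η ≤ (2 * c + 2) * η * M ^ 2 := by
    have hM2 : 1 ≤ M ^ 2 := by nlinarith
    have e2 : (2 * c + 2) * η * M ^ 2 - ((c * η * M) * (c * η * M + 2 * M) + η)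
        = η * (M ^ 2 * (2 - c ^ 2 * η) - 1) := by ring
    have h5 : 0 ≤ η * (M ^ 2 * (2 - c ^ 2 * η) - 1) := by
      apply mul_nonneg hη.le
      nlinarith
    linarith
  linarith

/-- The iterates of the squaring. -/
def U (S : ℕ) (x : ℤ) (k : ℕ) : ℤ := (fun s => sqStep S s)^[k] (cadd S (fbig S) x)

/-- The number `1 + a` in the scale. -/
noncomputable def aX (S : ℕ) (x : ℤ) : ℝ := (x : ℝ) / 2 ^ (2 * S ^ 5)

lemma aX_eq (S : ℕ) (x : ℤ) : aX S x * 2 ^ (S ^ 5) = val S x := by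
  unfold aX val prec
  rw [two_mul, pow_add]
  field_simp

lemma abs_aX (hS : 1000000 ≤ S) (hx : |val S x| ≤ (S : ℝ) ^ 3) :
    |aX S x| * 2 ^ (S ^ 5) ≤ (S : ℝ) ^ 3 := by
  have h := aX_eq S x
  rw [← h, abs_mul, abs_of_pos (by positivity : (0 : ℝ) < 2 ^ (S ^ 5))] at hx
  exact hx

lemma M_le (hS : 1000000 ≤ S) (hx : |val S x| ≤ (S : ℝ) ^ 3) {k : ℕ} (hk : k ≤ S ^ 5) :
    (1 + |aX S x|) ^ (2 ^ k) ≤ 2 ^ (2 * S ^ 3) := by
  have h1 : (1 + |aX S x|) ≤ Real.exp (|aX S x|) := by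
    have := Real.add_one_le_exp (|aX S x|)
    linarith
  have h2 : (1 + |aX S x|) ^ (2 ^ k) ≤ Real.exp (|aX S x|) ^ (2 ^ k) :=
    pow_le_pow_left₀ (by positivity) h1 _
  have h3 : Real.exp (|aX S x|) ^ (2 ^ k) = Real.exp (((2 ^ k : ℕ) : ℝ) * |aX S x|) :=
    (Real.exp_nat_mul _ _).symm
  have h4 : ((2 ^ k : ℕ) : ℝ) * |aX S x| ≤ (S : ℝ) ^ 3 := by
    have h5 := abs_aX hS hx
    have h6 : ((2 ^ k : ℕ) : ℝ) ≤ 2 ^ (S ^ 5) := by
      push_cast
      exact pow_le_pow_right₀ (by norm_num) hk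
    nlinarith [abs_nonneg (aX S x)]
  have h7 : Real.exp ((S : ℝ) ^ 3) ≤ 2 ^ (2 * S ^ 3) := by
    have := exp_nat_le (S ^ 3)
    push_cast at this
    exact this
  calc _ ≤ _ := h2
    _ = _ := h3
    _ ≤ Real.exp ((S : ℝ) ^ 3) := Real.exp_le_exp.2 h4
    _ ≤ _ := h7

/-- The invariant of the squarings, at step `k`. -/
def SqInv (S : ℕ) (x : ℤ) (k : ℕ) : Prop :=
  0 ≤ U S x k ∧
    |((U S x k : ℤ) : ℝ) / 2 ^ (2 * S ^ 5) - (1 + aX S x) ^ (2 ^ k)| ≤
      (2 ^ (k + 1) - 2) * (1 / 2 ^ (2 * S ^ 5)) * (1 + |aX S x|) ^ (2 ^ k)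

lemma U_le_of_inv (hS : 1000000 ≤ S) (hx : |val S x| ≤ (S : ℝ) ^ 3) {k : ℕ} (hk : k ≤ S ^ 5)
    (h : SqInv S x k) : U S x k ≤ 2 ^ (3 * S ^ 5) := by
  obtain ⟨h0, h1⟩ := h
  obtain ⟨-, h2, h3, -, -⟩ := exps hS
  have hM := M_le hS hx hk
  have hM1 : 1 ≤ (1 + |aX S x|) ^ (2 ^ k) := one_le_pow₀ (by linarith [abs_nonneg (aX S x)])
  have hT : |(1 + aX S x) ^ (2 ^ k)| ≤ (1 + |aX S x|) ^ (2 ^ k) := by
    rw [abs_pow]
    apply pow_le_pow_left₀ (abs_nonneg _)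
    have := abs_add_le (1 : ℝ) (aX S x)
    rwa [abs_one] at this
  have hc : ((2 : ℝ) ^ (k + 1) - 2) * (1 / 2 ^ (2 * S ^ 5)) ≤ 1 := by
    have h5 : (2 : ℝ) ^ (k + 1) ≤ 2 ^ (2 * S ^ 5) := pow_le_pow_right₀ (by norm_num) (by omega)
    have h6 : (0 : ℝ) < 2 ^ (2 * S ^ 5) := by positivity
    rw [mul_one_div, div_le_one h6]
    linarith
  have h7 : |((U S x k : ℤ) : ℝ) / 2 ^ (2 * S ^ 5)| ≤ 2 * (1 + |aX S x|) ^ (2 ^ k) := by
    have e : ((U S x k : ℤ) : ℝ) / 2 ^ (2 * S ^ 5) =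
        (((U S x k : ℤ) : ℝ) / 2 ^ (2 * S ^ 5) - (1 + aX S x) ^ (2 ^ k)) + (1 + aX S x) ^ (2 ^ k) := by
      ring
    rw [e]
    refine (abs_add_le _ _).trans ?_
    have h8 : (2 ^ (k + 1) - 2) * (1 / 2 ^ (2 * S ^ 5)) * (1 + |aX S x|) ^ (2 ^ k)
        ≤ 1 * (1 + |aX S x|) ^ (2 ^ k) := mul_le_mul_of_nonneg_right hc (by linarith)
    linarith
  have h8 : ((U S x k : ℤ) : ℝ) ≤ 2 ^ (3 * S ^ 5) := by
    have h9 : ((U S x k : ℤ) : ℝ) / 2 ^ (2 * S ^ 5) ≤ 2 * 2 ^ (2 * S ^ 3) := by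
      refine (le_abs_self _).trans (h7.trans ?_)
      linarith
    have h10 : (0 : ℝ) < 2 ^ (2 * S ^ 5) := by positivity
    rw [div_le_iff₀ h10] at h9
    refine h9.trans ?_
    have e : (2 : ℝ) * 2 ^ (2 * S ^ 3) * 2 ^ (2 * S ^ 5) = 2 ^ (1 + 2 * S ^ 3 + 2 * S ^ 5) := by
      rw [pow_add, pow_add]
      ring
    rw [e]
    exact pow_le_pow_right₀ (by norm_num) (by omega)
  have : ((U S x k : ℤ) : ℝ) ≤ (((2 : ℤ) ^ (3 * S ^ 5) : ℤ) : ℝ) := by
    push_cast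
    exact h8
  exact_mod_cast this

lemma sqStep_eq (hS : 1000000 ≤ S) {u : ℤ} (h0 : 0 ≤ u) (h1 : u ≤ 2 ^ (3 * S ^ 5)) :
    sqStep S u = u * u / 2 ^ (2 * S ^ 5) := by
  obtain ⟨h6, -, -, -, -⟩ := exps hS
  have hu : |u| ≤ 2 ^ wid S := by
    rw [abs_of_nonneg h0]
    exact h1.trans (pow_le_pow_right₀ (by norm_num) (by unfold wid; omega))
  have huu : |u * u| ≤ 2 ^ wid S := by
    rw [abs_of_nonneg (mul_nonneg h0 h0)]
    have : u * u ≤ 2 ^ (3 * S ^ 5) * 2 ^ (3 * S ^ 5) := mul_le_mul h1 h1 h0 (by positivity)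
    refine this.trans ?_
    rw [← pow_add]
    exact pow_le_pow_right₀ (by norm_num) (by unfold wid; omega)
  unfold sqStep
  rw [fbig_eq hS, cmul_eq hS hu hu huu]
  exact cdiv_eq hS huu (abs_two_pow_le (by unfold wid; omega))

lemma sq_inv (hS : 1000000 ≤ S) (hx : |val S x| ≤ (S : ℝ) ^ 3) (k : ℕ) (hk : k ≤ S ^ 5) :
    SqInv S x k := by
  obtain ⟨h6, h53, h31, -, -⟩ := exps hS
  induction k with
  | zero =>
    have hxW : |x| ≤ 2 ^ (2 * S ^ 5 - 1) := by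
      have h1 : |(x : ℝ)| ≤ (S : ℝ) ^ 3 * 2 ^ (S ^ 5) := by
        have h2 := hx
        unfold val prec at h2
        rw [abs_div, abs_of_pos (by positivity : (0 : ℝ) < 2 ^ (S ^ 5)),
          div_le_iff₀ (by positivity)] at h2
        exact h2
      have h3 : (S : ℝ) ^ 3 ≤ 2 ^ (3 * S) := by
        rw [mul_comm, pow_mul]
        exact pow_le_pow_left₀ (by positivity) (nat_le_two_pow S) 3
      have h4 : |(x : ℝ)| ≤ 2 ^ (2 * S ^ 5 - 1) := by
        refine h1.trans ?_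
        calc (S : ℝ) ^ 3 * 2 ^ (S ^ 5) ≤ 2 ^ (3 * S) * 2 ^ (S ^ 5) :=
              mul_le_mul_of_nonneg_right h3 (by positivity)
          _ = 2 ^ (3 * S + S ^ 5) := by rw [pow_add]
          _ ≤ _ := pow_le_pow_right₀ (by norm_num) (by omega)
      have : ((|x| : ℤ) : ℝ) ≤ (((2 : ℤ) ^ (2 * S ^ 5 - 1) : ℤ) : ℝ) := by
        push_cast
        exact h4
      exact_mod_cast this
    have hP : (2 : ℤ) ^ (2 * S ^ 5) = 2 * 2 ^ (2 * S ^ 5 - 1) := by
      rw [← pow_succ']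
      congr 1
      omega
    have hpos : (0 : ℤ) < 2 ^ (2 * S ^ 5 - 1) := by positivity
    have hx1 := abs_le.1 hxW
    have hU : U S x 0 = 2 ^ (2 * S ^ 5) + x := by
      show cadd S (fbig S) x = _
      rw [fbig_eq hS]
      apply cadd_eq hS (abs_two_pow_le (by unfold wid; omega))
      · refine hxW.trans (pow_le_pow_right₀ (by norm_num) (by unfold wid; omega))
      · rw [abs_of_nonneg (by rw [hP]; linarith)]
        have : (2 : ℤ) ^ (2 * S ^ 5) + x ≤ 2 ^ (2 * S ^ 5 + 1) := by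
          rw [pow_succ (2 : ℤ) (2 * S ^ 5), hP]
          linarith
        refine this.trans (pow_le_pow_right₀ (by norm_num) (by unfold wid; omega))
    refine ⟨by rw [hU, hP]; linarith, ?_⟩
    rw [hU]
    have h5 : (0 : ℝ) < 2 ^ (2 * S ^ 5) := by positivity
    have e : (((2 ^ (2 * S ^ 5) + x : ℤ)) : ℝ) / 2 ^ (2 * S ^ 5) = 1 + aX S x := by
      unfold aX
      push_cast
      field_simp
    rw [e]
    simp
  | succ k ih =>
    have hk' : k ≤ S ^ 5 := by omega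
    obtain ⟨h0, h1⟩ := ih hk'
    have hle := U_le_of_inv hS hx hk' ⟨h0, h1⟩
    have hU : U S x (k + 1) = U S x k * U S x k / 2 ^ (2 * S ^ 5) := by
      unfold U
      rw [Function.iterate_succ_apply']
      exact sqStep_eq hS h0 hle
    have hP : (0 : ℤ) < 2 ^ (2 * S ^ 5) := by positivity
    refine ⟨by rw [hU]; exact Int.ediv_nonneg (mul_nonneg h0 h0) hP.le, ?_⟩
    obtain ⟨h2, h3⟩ := ediv_real (U S x k * U S x k) (2 ^ (2 * S ^ 5)) hP
    rw [hU]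
    set u : ℝ := ((U S x k : ℤ) : ℝ) with hu
    set N2 : ℝ := 2 ^ (2 * S ^ 5) with hN2
    have hN2pos : 0 < N2 := by positivity
    set q : ℝ := (((U S x k * U S x k / 2 ^ (2 * S ^ 5) : ℤ)) : ℝ) with hq
    have hcast : ((U S x k * U S x k : ℤ) : ℝ) / (((2 : ℤ) ^ (2 * S ^ 5) : ℤ) : ℝ) = u * u / N2 := by
      push_cast
      rfl
    rw [hcast] at h2 h3
    set θ : ℝ := u * u / N2 - q with hθ
    have hθ0 : 0 ≤ θ := by rw [hθ]; linarith
    have hθ1 : θ ≤ 1 := by rw [hθ]; linarith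
    have hval : q / N2 = (u / N2) ^ 2 - θ * (1 / N2) := by
      rw [hθ]
      field_simp
      ring
    set a : ℝ := aX S x with ha
    have hT : (1 + a) ^ (2 ^ (k + 1)) = ((1 + a) ^ (2 ^ k)) ^ 2 := by
      rw [← pow_mul, pow_succ]
    have hM : (1 + |a|) ^ (2 ^ (k + 1)) = ((1 + |a|) ^ (2 ^ k)) ^ 2 := by
      rw [← pow_mul, pow_succ]
    rw [hval, hT, hM]
    have hc2 : (2 : ℝ) ^ (k + 1 + 1) - 2 = 2 * (2 ^ (k + 1) - 2) + 2 := by
      rw [pow_succ (2 : ℝ) (k + 1)]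
      ring
    rw [hc2]
    apply one_error_step (by positivity) (one_le_pow₀ (by linarith [abs_nonneg a])) ?_ ?_ ?_ h1 hθ0 hθ1
    · rw [abs_pow]
      apply pow_le_pow_left₀ (abs_nonneg _)
      have := abs_add_le (1 : ℝ) a
      rwa [abs_one] at this
    · have : (2 : ℝ) ≤ 2 ^ (k + 1) := by
        calc (2 : ℝ) = 2 ^ 1 := by norm_num
          _ ≤ _ := pow_le_pow_right₀ (by norm_num) (by omega)
      linarith
    · have h7 : (2 : ℝ) ≤ 2 ^ (k + 1) := by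
        calc (2 : ℝ) = 2 ^ 1 := by norm_num
          _ ≤ _ := pow_le_pow_right₀ (by norm_num) (by omega)
      have h8 : (2 : ℝ) ^ (k + 1) ≤ 2 ^ (S ^ 5) := pow_le_pow_right₀ (by norm_num) hk
      have h9 : ((2 : ℝ) ^ (k + 1) - 2) ^ 2 ≤ (2 ^ (S ^ 5)) ^ 2 :=
        pow_le_pow_left₀ (by linarith) (by linarith) 2
      have h10 : ((2 : ℝ) ^ (S ^ 5)) ^ 2 = N2 := by
        rw [hN2, ← pow_mul]
        congr 1
        ring
      rw [h10] at h9
      rw [mul_one_div, div_le_one hN2pos]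
      exact h9

end FExpAux

namespace FExpAux

lemma div_le_half_pow {A N : ℝ} {e m : ℕ} (hN : 0 < N) (hA : A ≤ 2 ^ e) (h : (2 : ℝ) ^ (e + m) ≤ N) :
    A / N ≤ (1 / 2 : ℝ) ^ m := by
  rw [div_le_iff₀ hN, one_div, inv_pow]
  have h1 : (0 : ℝ) < 2 ^ m := by positivity
  calc A ≤ 2 ^ e := hA
    _ = (2 ^ m)⁻¹ * 2 ^ (e + m) := by
      rw [pow_add]
      field_simp
    _ ≤ (2 ^ m)⁻¹ * N := mul_le_mul_of_nonneg_left h (by positivity)

/-- The limit `(1 + a) ^ N` against `exp (a N)`. -/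
lemma lim_est (p : ℕ) {a X : ℝ} (ha : |a| ≤ 1 / 2) (hX : a * 2 ^ p = X) :
    |(1 + a) ^ (2 ^ p) - Real.exp X| ≤ Real.exp X * (2 * X ^ 2 / 2 ^ p) := by
  have ha1 := abs_le.1 ha
  have h1a : 0 < 1 + a := by linarith
  have hN : (0 : ℝ) < 2 ^ p := by positivity
  have hpowU : ((2 ^ p : ℕ) : ℝ) = 2 ^ p := by
    push_cast
    rfl
  have hT_up : (1 + a) ^ (2 ^ p) ≤ Real.exp X := by
    have h12 : 1 + a ≤ Real.exp a := by
      have := Real.add_one_le_exp a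
      linarith
    calc (1 + a) ^ (2 ^ p) ≤ Real.exp a ^ (2 ^ p) := pow_le_pow_left₀ h1a.le h12 _
      _ = Real.exp (((2 ^ p : ℕ) : ℝ) * a) := (Real.exp_nat_mul _ _).symm
      _ = Real.exp X := by
        rw [hpowU, mul_comm, hX]
  have e0 : 2 * X ^ 2 / 2 ^ p = 2 * 2 ^ p * a ^ 2 := by
    rw [← hX]
    field_simp
  rw [e0]
  set t : ℝ := 2 * 2 ^ p * a ^ 2 with ht
  have ht0 : 0 ≤ t := by positivity
  have hT_lo : Real.exp X * (1 - t) ≤ (1 + a) ^ (2 ^ p) := by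
    have h13 : Real.exp (a - 2 * a ^ 2) ≤ 1 + a := by
      have h14 : a - 2 * a ^ 2 ≤ Real.log (1 + a) := by
        have h15 := Real.one_sub_inv_le_log_of_pos h1a
        refine le_trans ?_ h15
        have h16 : 1 - (1 + a)⁻¹ - (a - 2 * a ^ 2) = a ^ 2 * (1 + 2 * a) / (1 + a) := by
          field_simp
          ring
        have h17 : 0 ≤ a ^ 2 * (1 + 2 * a) / (1 + a) := by
          apply div_nonneg _ h1a.le
          apply mul_nonneg (by positivity)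
          linarith
        linarith
      calc Real.exp (a - 2 * a ^ 2) ≤ Real.exp (Real.log (1 + a)) := Real.exp_le_exp.2 h14
        _ = _ := Real.exp_log h1a
    have h18 : Real.exp (a - 2 * a ^ 2) ^ (2 ^ p) ≤ (1 + a) ^ (2 ^ p) :=
      pow_le_pow_left₀ (Real.exp_pos _).le h13 _
    rw [← Real.exp_nat_mul, hpowU] at h18
    have e : (2 : ℝ) ^ p * (a - 2 * a ^ 2) = X + (-t) := by
      rw [ht, ← hX]
      ring
    rw [e, Real.exp_add] at h18
    have h19 : 1 - t ≤ Real.exp (-t) := by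
      have := Real.add_one_le_exp (-t)
      linarith
    calc Real.exp X * (1 - t) ≤ Real.exp X * Real.exp (-t) :=
          mul_le_mul_of_nonneg_left h19 (Real.exp_pos _).le
      _ ≤ _ := h18
  have hE := Real.exp_pos X
  rw [abs_le]
  constructor
  · nlinarith
  · have : 0 ≤ Real.exp X * t := by positivity
    linarith

lemma abs_aX_half (hS : 1000000 ≤ S) (hx : |val S x| ≤ (S : ℝ) ^ 3) : |aX S x| ≤ 1 / 2 := by
  obtain ⟨h6, h53, h31, -, -⟩ := exps hS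
  have hN : (0 : ℝ) < 2 ^ (S ^ 5) := by positivity
  have h8 := abs_aX hS hx
  have h9 : (S : ℝ) ^ 3 ≤ 2 ^ (3 * S) := by
    rw [mul_comm, pow_mul]
    exact pow_le_pow_left₀ (by positivity) (nat_le_two_pow S) 3
  have h10 : (2 : ℝ) ^ (3 * S + 1) ≤ 2 ^ (S ^ 5) := pow_le_pow_right₀ (by norm_num) (by omega)
  have h11 : |aX S x| * 2 ^ (S ^ 5) ≤ (1 / 2) * 2 ^ (S ^ 5) := by
    have : (1 / 2 : ℝ) * 2 ^ (S ^ 5) ≥ 2 ^ (3 * S) := by
      have e : (2 : ℝ) ^ (3 * S + 1) = 2 * 2 ^ (3 * S) := by rw [pow_succ]; ring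
      linarith
    linarith
  exact le_of_mul_le_mul_right h11 hN

/-- The word of `fexp` against the last iterate of the squarings. -/
lemma fexp_word (hS : 1000000 ≤ S) (h0 : 0 ≤ U S x (S ^ 5)) (hle : U S x (S ^ 5) ≤ 2 ^ (3 * S ^ 5)) :
    |val S (fexp S x) - ((U S x (S ^ 5) : ℤ) : ℝ) / (2 ^ (S ^ 5) * 2 ^ (S ^ 5))| ≤ 1 / 2 ^ (S ^ 5) := by
  obtain ⟨h6, -, -, -, -⟩ := exps hS
  have hN : (0 : ℝ) < 2 ^ (S ^ 5) := by positivity
  have hw : fexp S x = U S x (S ^ 5) / 2 ^ (S ^ 5) := by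
    show cdiv S (U S x (S ^ 5)) (fone S) = _
    rw [fone_eq]
    apply cdiv_eq hS
    · rw [abs_of_nonneg h0]
      exact hle.trans (pow_le_pow_right₀ (by norm_num) (by unfold wid; omega))
    · exact abs_two_pow_le (by unfold wid; omega)
  obtain ⟨h2, h3⟩ := ediv_real (U S x (S ^ 5)) (2 ^ (S ^ 5)) (by positivity)
  have hcast : ((U S x (S ^ 5) : ℤ) : ℝ) / (((2 : ℤ) ^ (S ^ 5) : ℤ) : ℝ)
      = ((U S x (S ^ 5) : ℤ) : ℝ) / 2 ^ (S ^ 5) := by
    push_cast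
    rfl
  rw [hcast, ← hw] at h2 h3
  have e : val S (fexp S x) = ((fexp S x : ℤ) : ℝ) / 2 ^ (S ^ 5) := rfl
  rw [e, ← div_div, ← sub_div, abs_div, abs_of_pos hN]
  apply div_le_div_of_nonneg_right _ hN.le
  rw [abs_le]
  constructor <;> linarith

end FExpAux

open FExpAux in
theorem fexp_spec (hS : 1000000 ≤ S) (hx : |val S x| ≤ (S : ℝ) ^ 3) :
    |val S (fexp S x) - Real.exp (val S x)| ≤ (1 / 2 : ℝ) ^ (S ^ 5 / 2) := by
  obtain ⟨h6, h53, h31, -, -⟩ := exps hS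
  obtain ⟨h0, h1⟩ := sq_inv hS hx (S ^ 5) le_rfl
  have hle := U_le_of_inv hS hx le_rfl ⟨h0, h1⟩
  have hN : (0 : ℝ) < 2 ^ (S ^ 5) := by positivity
  have hr := fexp_word hS h0 hle
  have hN2 : (2 : ℝ) ^ (2 * S ^ 5) = 2 ^ (S ^ 5) * 2 ^ (S ^ 5) := by
    rw [← pow_add]
    congr 1
    ring
  rw [hN2] at h1
  have hM := M_le hS hx (le_refl (S ^ 5))
  have hl := lim_est (S ^ 5) (abs_aX_half hS hx) (aX_eq S x)
  generalize hXdef : val S x = X at *
  generalize ha : aX S x = a at *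
  generalize hN' : (2 : ℝ) ^ (S ^ 5) = N at *
  generalize hbig : (2 : ℝ) ^ (2 * S ^ 3) = big at *
  generalize hu : ((U S x (S ^ 5) : ℤ) : ℝ) = u at *
  generalize hw : val S (fexp S x) = w at *
  have hbig1 : 1 ≤ big := by
    rw [← hbig]
    exact one_le_pow₀ (by norm_num)
  have hs : |u / (N * N) - (1 + a) ^ (2 ^ (S ^ 5))| ≤ 2 * big / N := by
    refine h1.trans ?_
    have e : (2 : ℝ) ^ (S ^ 5 + 1) = 2 * N := by
      rw [← hN', pow_succ]
      ring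
    rw [e]
    have h4 : (2 * N - 2) * (1 / (N * N)) ≤ 2 / N := by
      have : (2 * N - 2) * (1 / (N * N)) = (2 - 2 / N) / N := by
        field_simp
      rw [this]
      apply div_le_div_of_nonneg_right _ hN.le
      have : 0 ≤ 2 / N := by positivity
      linarith
    have h5 : 0 ≤ (1 + |a|) ^ (2 ^ (S ^ 5)) := by positivity
    calc _ ≤ 2 / N * (1 + |a|) ^ (2 ^ (S ^ 5)) := mul_le_mul_of_nonneg_right h4 h5
      _ ≤ 2 / N * big := mul_le_mul_of_nonneg_left hM (by positivity)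
      _ = _ := by ring
  have hXbig : Real.exp X ≤ big := by
    have h7 : Real.exp ((S : ℝ) ^ 3) ≤ big := by
      have := exp_nat_le (S ^ 3)
      push_cast at this
      rw [← hbig]
      exact this
    exact (Real.exp_le_exp.2 ((le_abs_self _).trans hx)).trans h7
  have hX2 : X ^ 2 ≤ (S : ℝ) ^ 6 := by
    have e2 : (S : ℝ) ^ 6 = ((S : ℝ) ^ 3) ^ 2 := by ring
    rw [e2, ← sq_abs X]
    exact pow_le_pow_left₀ (abs_nonneg _) hx 2
  have hl2 : |(1 + a) ^ (2 ^ (S ^ 5)) - Real.exp X| ≤ big * (2 * (S : ℝ) ^ 6 / N) := by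
    refine hl.trans ?_
    apply mul_le_mul hXbig _ (by positivity) (by linarith)
    apply div_le_div_of_nonneg_right _ hN.le
    linarith
  have hsum : |w - Real.exp X| ≤ (1 + 2 * big + big * (2 * (S : ℝ) ^ 6)) / N := by
    have e : w - Real.exp X =
        (w - u / (N * N)) + (u / (N * N) - (1 + a) ^ (2 ^ (S ^ 5))) +
          ((1 + a) ^ (2 ^ (S ^ 5)) - Real.exp X) := by ring
    rw [e]
    refine (abs_add_three _ _ _).trans ?_
    have e2 : (1 + 2 * big + big * (2 * (S : ℝ) ^ 6)) / N =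
        1 / N + 2 * big / N + big * (2 * (S : ℝ) ^ 6 / N) := by
      field_simp
    rw [e2]
    linarith
  refine hsum.trans ?_
  have hS6 : (S : ℝ) ^ 6 ≤ 2 ^ (6 * S) := by
    rw [mul_comm, pow_mul]
    exact pow_le_pow_left₀ (by positivity) (nat_le_two_pow S) 6
  have hS6' : (1 : ℝ) ≤ 2 ^ (6 * S) := one_le_pow₀ (by norm_num)
  have hnum : 1 + 2 * big + big * (2 * (S : ℝ) ^ 6) ≤ 2 ^ (2 * S ^ 3 + 6 * S + 3) := by
    have e : (2 : ℝ) ^ (2 * S ^ 3 + 6 * S + 3) = 8 * (big * 2 ^ (6 * S)) := by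
      rw [pow_add, pow_add, hbig]
      ring
    rw [e]
    have h22 : big * (S : ℝ) ^ 6 ≤ big * 2 ^ (6 * S) :=
      mul_le_mul_of_nonneg_left hS6 (by linarith)
    have h23 : big ≤ big * 2 ^ (6 * S) := by nlinarith
    have h24 : 1 ≤ big * 2 ^ (6 * S) := by nlinarith
    nlinarith
  apply div_le_half_pow hN hnum
  rw [← hN']
  exact pow_le_pow_right₀ (by norm_num) (by omega)

namespace FExpAux

/-- The invariant of a bisection. -/
lemma bisect_inv (step : ℤ × ℤ → ℤ × ℤ) (lo0 hi0 : ℤ) (T : ℤ → Prop)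
    (hstep : ∀ lo hi, lo0 ≤ lo → lo ≤ hi → hi ≤ hi0 → T lo → ¬ T hi →
      (T ((lo + hi) / 2) ∧ step (lo, hi) = ((lo + hi) / 2, hi)) ∨
        (¬ T ((lo + hi) / 2) ∧ step (lo, hi) = (lo, (lo + hi) / 2)))
    (h0 : lo0 ≤ hi0) (hT : T lo0) (hnT : ¬ T hi0) (k : ℕ) :
    lo0 ≤ (step^[k] (lo0, hi0)).1 ∧ (step^[k] (lo0, hi0)).1 ≤ (step^[k] (lo0, hi0)).2 ∧
      (step^[k] (lo0, hi0)).2 ≤ hi0 ∧ T (step^[k] (lo0, hi0)).1 ∧ ¬ T (step^[k] (lo0, hi0)).2 ∧
      2 ^ k * ((step^[k] (lo0, hi0)).2 - (step^[k] (lo0, hi0)).1 - 1) ≤ hi0 - lo0 := by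
  induction k with
  | zero =>
    simp only [Function.iterate_zero, id_eq, pow_zero, one_mul]
    exact ⟨le_rfl, h0, le_rfl, hT, hnT, by omega⟩
  | succ k ih =>
    rw [Function.iterate_succ_apply']
    obtain ⟨h1, h2, h3, h4, h5, h6⟩ := ih
    generalize step^[k] (lo0, hi0) = st at *
    obtain ⟨lo, hi⟩ := st
    simp only at h1 h2 h3 h4 h5 h6
    have hm1 : lo ≤ (lo + hi) / 2 := by omega
    have hm2 : (lo + hi) / 2 ≤ hi := by omega
    have hp : (0 : ℤ) < 2 ^ k := by positivity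
    rcases hstep lo hi h1 h2 h3 h4 h5 with ⟨h7, h8⟩ | ⟨h7, h8⟩
    · rw [h8]
      refine ⟨by simp only; omega, hm2, h3, h7, h5, ?_⟩
      simp only
      have h9 : 2 * (hi - (lo + hi) / 2 - 1) ≤ hi - lo - 1 := by omega
      rw [pow_succ]
      nlinarith
    · rw [h8]
      refine ⟨h1, hm1, by simp only; omega, h4, h7, ?_⟩
      simp only
      have h9 : 2 * ((lo + hi) / 2 - lo - 1) ≤ hi - lo - 1 := by omega
      rw [pow_succ]
      nlinarith

lemma midS_eq (hS : 1000000 ≤ S) {lo hi : ℤ} (h1 : |lo| ≤ 2 ^ (wid S - 1)) (h2 : |hi| ≤ 2 ^ (wid S - 1)) :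
    midS S (lo, hi) = (lo + hi) / 2 := by
  obtain ⟨h6, -, -, -, -⟩ := exps hS
  have hp1 : 1 ≤ S ^ 5 := Nat.one_le_pow _ _ (by omega)
  have hw : 1 ≤ wid S := by
    unfold wid
    omega
  have e : (2 : ℤ) ^ wid S = 2 ^ (wid S - 1) * 2 := by
    rw [← pow_succ]
    congr 1
    omega
  have h3 : (0 : ℤ) < 2 ^ (wid S - 1) := by positivity
  have hle : ∀ z : ℤ, |z| ≤ 2 ^ (wid S - 1) → |z| ≤ 2 ^ wid S := by
    intro z hz
    rw [e]
    linarith
  have h4 : cadd S 1 1 = 2 := by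
    have hb : |(1 : ℤ)| ≤ 2 ^ wid S := by
      rw [abs_one]
      exact one_le_pow₀ (by norm_num)
    rw [cadd_eq hS hb hb]
    · norm_num
    · have : (2 : ℤ) ^ 1 ≤ 2 ^ wid S := pow_le_pow_right₀ (by norm_num) hw
      norm_num at this ⊢
      exact this
  have h5 : |lo + hi| ≤ 2 ^ wid S := by
    refine (abs_add_le _ _).trans ?_
    rw [e]
    linarith
  unfold midS
  simp only
  rw [h4, cadd_eq hS (hle _ h1) (hle _ h2) h5]
  apply cdiv_eq hS h5
  rw [abs_of_pos (by norm_num : (0 : ℤ) < 2)]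
  have : (2 : ℤ) ^ 1 ≤ 2 ^ wid S := pow_le_pow_right₀ (by norm_num) hw
  norm_num at this ⊢
  exact this

lemma fexp_abs_le (hS : 1000000 ≤ S) {m : ℤ} (hm : |val S m| ≤ (S : ℝ) ^ 3) :
    |fexp S m| ≤ 2 ^ (3 * S ^ 5) := by
  obtain ⟨h6, h53, h31, -, -⟩ := exps hS
  obtain ⟨h0, h1⟩ := sq_inv hS hm (S ^ 5) le_rfl
  have hle := U_le_of_inv hS hm le_rfl ⟨h0, h1⟩
  have hw : fexp S m = U S m (S ^ 5) / 2 ^ (S ^ 5) := by
    show cdiv S (U S m (S ^ 5)) (fone S) = _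
    rw [fone_eq]
    apply cdiv_eq hS
    · rw [abs_of_nonneg h0]
      exact hle.trans (pow_le_pow_right₀ (by norm_num) (by unfold wid; omega))
    · exact abs_two_pow_le (by unfold wid; omega)
  rw [hw]
  refine (Int.abs_ediv_le_abs _ _).trans ?_
  rw [abs_of_nonneg h0]
  exact hle

lemma hiLog_eq (hS : 1000000 ≤ S) : hiLog S = (S : ℤ) ^ 3 * 2 ^ (S ^ 5) := by
  obtain ⟨h6, h53, h31, -, -⟩ := exps hS
  have hs3 : (S : ℤ) ^ 3 ≤ 2 ^ (3 * S) := by
    have h : (S : ℤ) ≤ 2 ^ S := by exact_mod_cast (Nat.lt_two_pow_self (n := S)).le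
    rw [mul_comm, pow_mul]
    exact pow_le_pow_left₀ (by positivity) h 3
  have h0 : (0 : ℤ) ≤ (S : ℤ) ^ 3 := by positivity
  unfold hiLog
  rw [spow_eq hS (by norm_num), fone_eq]
  apply cmul_eq hS
  · rw [abs_of_nonneg h0]
    exact hs3.trans (pow_le_pow_right₀ (by norm_num) (by unfold wid; omega))
  · exact abs_two_pow_le (by unfold wid; omega)
  · rw [abs_of_nonneg (by positivity)]
    calc (S : ℤ) ^ 3 * 2 ^ (S ^ 5) ≤ 2 ^ (3 * S) * 2 ^ (S ^ 5) :=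
          mul_le_mul_of_nonneg_right hs3 (by positivity)
      _ = 2 ^ (3 * S + S ^ 5) := by rw [pow_add]
      _ ≤ _ := pow_le_pow_right₀ (by norm_num) (by unfold wid; omega)

lemma hiLog_le (hS : 1000000 ≤ S) : (S : ℤ) ^ 3 * 2 ^ (S ^ 5) ≤ 2 ^ (2 * S ^ 5) := by
  obtain ⟨h6, h53, h31, -, -⟩ := exps hS
  have hs3 : (S : ℤ) ^ 3 ≤ 2 ^ (3 * S) := by
    have h : (S : ℤ) ≤ 2 ^ S := by exact_mod_cast (Nat.lt_two_pow_self (n := S)).le
    rw [mul_comm, pow_mul]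
    exact pow_le_pow_left₀ (by positivity) h 3
  calc (S : ℤ) ^ 3 * 2 ^ (S ^ 5) ≤ 2 ^ (3 * S) * 2 ^ (S ^ 5) :=
        mul_le_mul_of_nonneg_right hs3 (by positivity)
    _ = 2 ^ (3 * S + S ^ 5) := by rw [pow_add]
    _ ≤ _ := pow_le_pow_right₀ (by norm_num) (by omega)

lemma loLog_eq (hS : 1000000 ≤ S) : loLog S = -((S : ℤ) ^ 3 * 2 ^ (S ^ 5)) := by
  obtain ⟨h6, h53, h31, -, -⟩ := exps hS
  have h := hiLog_le hS
  have h0 : (0 : ℤ) ≤ (S : ℤ) ^ 3 * 2 ^ (S ^ 5) := by positivity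
  have hW : (2 : ℤ) ^ (2 * S ^ 5) ≤ 2 ^ wid S :=
    pow_le_pow_right₀ (by norm_num) (by unfold wid; omega)
  unfold loLog
  rw [hiLog_eq hS]
  rw [csub_eq hS]
  · ring
  · rw [abs_zero]
    positivity
  · rw [abs_of_nonneg h0]
    linarith
  · rw [zero_sub, abs_neg, abs_of_nonneg h0]
    linarith

lemma val_bound (hS : 1000000 ≤ S) {m : ℤ} (h1 : -((S : ℤ) ^ 3 * 2 ^ (S ^ 5)) ≤ m)
    (h2 : m ≤ (S : ℤ) ^ 3 * 2 ^ (S ^ 5)) : |val S m| ≤ (S : ℝ) ^ 3 := by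
  have hN : (0 : ℝ) < 2 ^ (S ^ 5) := by positivity
  unfold val prec
  rw [abs_div, abs_of_pos hN, div_le_iff₀ hN]
  have h3 : |m| ≤ (S : ℤ) ^ 3 * 2 ^ (S ^ 5) := abs_le.2 ⟨h1, h2⟩
  have h4 : ((|m| : ℤ) : ℝ) ≤ (((S : ℤ) ^ 3 * 2 ^ (S ^ 5) : ℤ) : ℝ) := by exact_mod_cast h3
  push_cast at h4
  exact h4

lemma log_final {X A B ζ L : ℝ} (hX : 0 < X) (h1 : Real.exp A ≤ X + ζ) (h2 : X < Real.exp B + ζ)
    (hζ : 0 ≤ ζ) (ht : ζ / X ≤ 1 / 2) (hL : B - A ≤ L) (hL0 : 0 ≤ L) :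
    |A - Real.log X| ≤ 2 * (ζ / X) + L := by
  set t := ζ / X with htdef
  have ht0 : 0 ≤ t := by positivity
  have hζt : ζ = X * t := by
    rw [htdef]
    field_simp
  have hup : A ≤ Real.log X + t := by
    have h3 : A ≤ Real.log (X * (1 + t)) := by
      rw [Real.le_log_iff_exp_le (by positivity)]
      rw [hζt] at h1
      linarith
    rw [Real.log_mul hX.ne' (by positivity)] at h3
    have h4 : Real.log (1 + t) ≤ t := by
      have := Real.log_le_sub_one_of_pos (by positivity : 0 < 1 + t)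
      linarith
    linarith
  have hlo : Real.log X < B + 2 * t := by
    have h5 : 0 < 1 - t := by linarith
    have h3 : Real.log (X * (1 - t)) < B := by
      rw [Real.log_lt_iff_lt_exp (by positivity)]
      rw [hζt] at h2
      linarith
    rw [Real.log_mul hX.ne' h5.ne'] at h3
    have h4 : -(2 * t) ≤ Real.log (1 - t) := by
      have h6 := Real.one_sub_inv_le_log_of_pos h5
      refine le_trans ?_ h6
      have h7 : (1 - t)⁻¹ ≤ 1 + 2 * t := by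
        rw [inv_le_iff_one_le_mul₀ h5]
        nlinarith
      linarith
    linarith
  rw [abs_le]
  constructor <;> linarith

end FExpAux

open FExpAux in
theorem flog_spec (hS : 1000000 ≤ S) (h1 : (1 / 2 : ℝ) ^ (S ^ 3) ≤ val S x) (h2 : val S x ≤ 2 ^ (S ^ 3)) :
    |val S (flog S x) - Real.log (val S x)| ≤ (1 / 2 : ℝ) ^ (S ^ 5 / 4) := by
  obtain ⟨h6, h53, h31, -, hS'⟩ := exps hS
  have hN : (0 : ℝ) < 2 ^ (S ^ 5) := by positivity
  have hXpos : 0 < val S x := lt_of_lt_of_le (by positivity) h1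
  -- the word `x`
  have hx0 : 0 ≤ x := by
    have : (0 : ℝ) ≤ x := by
      have e : (x : ℝ) = val S x * 2 ^ (S ^ 5) := by
        unfold val prec
        field_simp
      rw [e]
      positivity
    exact_mod_cast this
  have hx1 : x ≤ 2 ^ (S ^ 3 + S ^ 5) := by
    have : (x : ℝ) ≤ 2 ^ (S ^ 3 + S ^ 5) := by
      have e : (x : ℝ) = val S x * 2 ^ (S ^ 5) := by
        unfold val prec
        field_simp
      rw [e, pow_add]
      exact mul_le_mul_of_nonneg_right h2 hN.le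
    exact_mod_cast this
  have hiLe := hiLog_le hS
  have hPW : (2 : ℤ) ^ (2 * S ^ 5) ≤ 2 ^ (wid S - 1) :=
    pow_le_pow_right₀ (by norm_num) (by unfold wid; omega)
  have h3W : (2 : ℤ) ^ (3 * S ^ 5) ≤ 2 ^ (wid S - 1) :=
    pow_le_pow_right₀ (by norm_num) (by unfold wid; omega)
  have hWe : (2 : ℤ) ^ wid S = 2 ^ (wid S - 1) * 2 := by
    rw [← pow_succ]
    congr 1
    unfold wid
    omega
  have hWpos : (0 : ℤ) < 2 ^ (wid S - 1) := by positivity
  have hR0 : (0 : ℤ) ≤ (S : ℤ) ^ 3 * 2 ^ (S ^ 5) := by positivity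
  have hxW : x ≤ 2 ^ (wid S - 1) - 1 := by
    have h3 : x ≤ 2 ^ (2 * S ^ 5) :=
      hx1.trans (pow_le_pow_right₀ (by norm_num) (by omega))
    have h4 : (2 : ℤ) ^ (2 * S ^ 5) * 2 ≤ 2 ^ (wid S - 1) := by
      rw [← pow_succ]
      exact pow_le_pow_right₀ (by norm_num) (by unfold wid; omega)
    have h5 : (0 : ℤ) < 2 ^ (2 * S ^ 5) := by positivity
    linarith
  -- the test
  set T : ℤ → Prop := fun m => fexp S m ≤ x with hT
  have hstep : ∀ lo hi, loLog S ≤ lo → lo ≤ hi → hi ≤ hiLog S → T lo → ¬ T hi →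
      (T ((lo + hi) / 2) ∧ logStep S (x, (lo, hi)) = ((lo + hi) / 2, hi)) ∨
        (¬ T ((lo + hi) / 2) ∧ logStep S (x, (lo, hi)) = (lo, (lo + hi) / 2)) := by
    intro lo hi h3 h4 h5 _ _
    rw [loLog_eq hS] at h3
    rw [hiLog_eq hS] at h5
    have hlo : |lo| ≤ 2 ^ (wid S - 1) := by
      rw [abs_le]
      constructor <;> linarith
    have hhi : |hi| ≤ 2 ^ (wid S - 1) := by
      rw [abs_le]
      constructor <;> linarith
    have hmid := midS_eq hS hlo hhi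
    have hm1 : -((S : ℤ) ^ 3 * 2 ^ (S ^ 5)) ≤ (lo + hi) / 2 := by omega
    have hm2 : (lo + hi) / 2 ≤ (S : ℤ) ^ 3 * 2 ^ (S ^ 5) := by omega
    have hf := fexp_abs_le hS (val_bound hS hm1 hm2)
    have hf2 := abs_le.1 hf
    have hc : csub S (cadd S x 1) (fexp S ((lo + hi) / 2)) = x + 1 - fexp S ((lo + hi) / 2) := by
      have e1 : cadd S x 1 = x + 1 := by
        apply cadd_eq hS
        · rw [abs_of_nonneg hx0, hWe]
          linarith
        · rw [abs_one]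
          exact one_le_pow₀ (by norm_num)
        · rw [abs_of_nonneg (by linarith), hWe]
          linarith
      rw [e1]
      apply csub_eq hS
      · rw [abs_of_nonneg (by linarith), hWe]
        linarith
      · rw [hWe]
        linarith
      · rw [abs_le, hWe]
        constructor <;> linarith
    unfold logStep
    simp only
    rw [hmid, hc]
    by_cases hm : T ((lo + hi) / 2)
    · left
      refine ⟨hm, ?_⟩
      have : 0 < x + 1 - fexp S ((lo + hi) / 2) := by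
        have : fexp S ((lo + hi) / 2) ≤ x := hm
        linarith
      rw [if_pos this]
    · right
      refine ⟨hm, ?_⟩
      have : ¬ 0 < x + 1 - fexp S ((lo + hi) / 2) := by
        have h7 : ¬ fexp S ((lo + hi) / 2) ≤ x := hm
        omega
      rw [if_neg this]
  -- the numbers
  have hn4 : 4 ≤ S ^ 3 := by omega
  have hζ1 : (1 / 2 : ℝ) ^ (S ^ 5 / 2) ≤ 1 / 2 ^ (S ^ 3 + 1) := by
    rw [one_div_pow]
    apply one_div_le_one_div_of_le
    · positivity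
    · exact pow_le_pow_right₀ (by norm_num) (by omega)
  have hval_hi : val S ((S : ℤ) ^ 3 * 2 ^ (S ^ 5)) = (S : ℝ) ^ 3 := by
    unfold val prec
    push_cast
    field_simp
  have hval_lo : val S (-((S : ℤ) ^ 3 * 2 ^ (S ^ 5))) = -(S : ℝ) ^ 3 := by
    unfold val prec
    push_cast
    field_simp
  have hexp : (2 : ℝ) ^ (S ^ 3 + 1) ≤ Real.exp ((S : ℝ) ^ 3) := by
    have := two_pow_lt_exp hn4
    push_cast at this
    exact this
  have hpow1 : (1 : ℝ) ≤ 2 ^ (S ^ 3) := one_le_pow₀ (by norm_num)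
  have h0T : T (loLog S) := by
    show fexp S (loLog S) ≤ x
    rw [loLog_eq hS, ← val_le_iff hS]
    have hb : |val S (-((S : ℤ) ^ 3 * 2 ^ (S ^ 5)))| ≤ (S : ℝ) ^ 3 := by
      rw [hval_lo, abs_neg, abs_of_nonneg (by positivity)]
    have h3 := abs_le.1 (fexp_spec hS hb)
    rw [hval_lo] at h3
    refine le_trans ?_ h1
    have h4 : Real.exp (-(S : ℝ) ^ 3) ≤ 1 / 2 ^ (S ^ 3 + 1) := by
      rw [Real.exp_neg, ← one_div]
      exact one_div_le_one_div_of_le (by positivity) hexp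
    have h5 : (1 / 2 : ℝ) ^ S ^ 3 = 1 / 2 ^ (S ^ 3 + 1) + 1 / 2 ^ (S ^ 3 + 1) := by
      rw [one_div_pow, pow_succ (2 : ℝ) (S ^ 3)]
      field_simp
      norm_num
    rw [h5]
    linarith [h3.2]
  have h0nT : ¬ T (hiLog S) := by
    show ¬ fexp S (hiLog S) ≤ x
    rw [hiLog_eq hS, ← val_le_iff hS, not_le]
    have hb : |val S ((S : ℤ) ^ 3 * 2 ^ (S ^ 5))| ≤ (S : ℝ) ^ 3 := by
      rw [hval_hi, abs_of_nonneg (by positivity)]
    have h3 := abs_le.1 (fexp_spec hS hb)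
    rw [hval_hi] at h3
    refine lt_of_le_of_lt h2 ?_
    have h5 : (2 : ℝ) ^ (S ^ 3 + 1) = 2 * 2 ^ (S ^ 3) := by
      rw [pow_succ]
      ring
    have h6' : (1 / 2 ^ (S ^ 3 + 1) : ℝ) < 1 := by
      rw [div_lt_one (by positivity)]
      linarith
    linarith [h3.1]
  have hlohi : loLog S ≤ hiLog S := by
    rw [loLog_eq hS, hiLog_eq hS]
    linarith
  obtain ⟨i1, i2, i3, i4, i5, i6⟩ :=
    bisect_inv (fun st => logStep S (x, st)) (loLog S) (hiLog S) T hstep hlohi h0T h0nT (S ^ 5)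
  show |val S ((fun st => logStep S (x, st))^[S ^ 5] (loLog S, hiLog S)).1 - Real.log (val S x)| ≤ _
  generalize (fun st => logStep S (x, st))^[S ^ 5] (loLog S, hiLog S) = st at *
  obtain ⟨lo, hi⟩ := st
  simp only at i1 i2 i3 i4 i5 i6 ⊢
  rw [loLog_eq hS] at i1 i6
  rw [hiLog_eq hS] at i3 i6
  have hA := val_bound hS i1 (by linarith)
  have hB := val_bound hS (by linarith) i3
  have hsA := abs_le.1 (fexp_spec hS hA)
  have hsB := abs_le.1 (fexp_spec hS hB)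
  have hTlo : val S (fexp S lo) ≤ val S x := (val_le_iff hS).2 i4
  have hThi : val S x < val S (fexp S hi) := by
    rw [val_lt_iff hS]
    exact not_le.1 i5
  -- the length
  have hlen : hi - lo - 1 ≤ 2 * (S : ℤ) ^ 3 := by
    have h7 : (2 : ℤ) ^ (S ^ 5) * (hi - lo - 1) ≤ 2 ^ (S ^ 5) * (2 * (S : ℤ) ^ 3) := by
      calc _ ≤ _ := i6
        _ = _ := by ring
    exact le_of_mul_le_mul_left h7 (by positivity)
  have hBA : val S hi - val S lo ≤ (2 * (S : ℝ) ^ 3 + 1) / 2 ^ (S ^ 5) := by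
    unfold val prec
    rw [← sub_div]
    apply div_le_div_of_nonneg_right _ hN.le
    have : ((hi - lo - 1 : ℤ) : ℝ) ≤ ((2 * (S : ℤ) ^ 3 : ℤ) : ℝ) := by exact_mod_cast hlen
    push_cast at this
    linarith
  -- the error of the exponential divided by the value
  have hinv : 1 / val S x ≤ 2 ^ (S ^ 3) := by
    rw [div_le_iff₀ hXpos]
    have e : (1 : ℝ) = 2 ^ (S ^ 3) * (1 / 2) ^ (S ^ 3) := by
      rw [← mul_pow]
      norm_num
    calc (1 : ℝ) = 2 ^ (S ^ 3) * (1 / 2) ^ (S ^ 3) := e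
      _ ≤ _ := mul_le_mul_of_nonneg_left h1 (by positivity)
  set ζ : ℝ := (1 / 2 : ℝ) ^ (S ^ 5 / 2) with hζ
  have hζ0 : 0 ≤ ζ := by positivity
  have ht : ζ / val S x ≤ (1 / 2 : ℝ) ^ (S ^ 5 / 4 + 2) := by
    have e : ζ / val S x = (1 / val S x) * ζ := by ring
    rw [e]
    calc 1 / val S x * ζ ≤ 2 ^ (S ^ 3) * ζ := mul_le_mul_of_nonneg_right hinv hζ0
      _ ≤ _ := by
        rw [hζ, one_div_pow, one_div_pow, mul_one_div, div_le_div_iff₀ (by positivity) (by positivity)]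
        rw [one_mul, ← pow_add]
        exact pow_le_pow_right₀ (by norm_num) (by omega)
  have hhalf : (1 / 2 : ℝ) ^ (S ^ 5 / 4 + 2) ≤ 1 / 2 := by
    calc (1 / 2 : ℝ) ^ (S ^ 5 / 4 + 2) ≤ (1 / 2 : ℝ) ^ 1 :=
          pow_le_pow_of_le_one (by norm_num) (by norm_num) (by omega)
      _ = _ := by norm_num
  have hfinal := log_final hXpos (by linarith [hsA.1]) (by linarith [hsB.2]) hζ0 (ht.trans hhalf) hBA
    (by positivity)
  refine hfinal.trans ?_
  -- numerics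
  have hS3 : 2 * (S : ℝ) ^ 3 + 1 ≤ 2 ^ (3 * S + 2) := by
    have h7 : (S : ℝ) ^ 3 ≤ 2 ^ (3 * S) := by
      rw [mul_comm, pow_mul]
      exact pow_le_pow_left₀ (by positivity) (nat_le_two_pow S) 3
    have h8 : (1 : ℝ) ≤ 2 ^ (3 * S) := one_le_pow₀ (by norm_num)
    rw [pow_add]
    norm_num
    linarith
  have hL2 := div_le_half_pow (m := S ^ 5 / 4 + 1) hN hS3
    (pow_le_pow_right₀ (by norm_num) (by omega))
  have e1 : (1 / 2 : ℝ) ^ (S ^ 5 / 4) = 2 * (1 / 2 : ℝ) ^ (S ^ 5 / 4 + 2) + (1 / 2 : ℝ) ^ (S ^ 5 / 4 + 1) := by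
    rw [pow_succ, pow_succ, pow_succ]
    ring
  rw [e1]
  linarith

namespace FExpAux

lemma sqrt_final {N r x lo : ℝ} (hN : 0 < N) (hr : r ^ 2 = x / N) (hr0 : 0 ≤ r) (hlo : 0 ≤ lo)
    (h1 : lo * lo ≤ x * N) (h2 : x * N < (lo + 1) * (lo + 1)) : |lo / N - r| ≤ 1 / N := by
  have e : (r * N) * (r * N) = x * N := by
    have : (r * N) * (r * N) = r ^ 2 * N * N := by ring
    rw [this, hr]
    field_simp
  have h3 : 0 ≤ r * N := by positivity
  have h4 : lo ≤ r * N := by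
    by_contra h
    push Not at h
    nlinarith
  have h5 : r * N ≤ lo + 1 := by
    by_contra h
    push Not at h
    nlinarith
  have e2 : lo / N - r = (lo - r * N) / N := by
    field_simp
  rw [e2, abs_div, abs_of_pos hN]
  apply div_le_div_of_nonneg_right _ hN.le
  rw [abs_le]
  constructor <;> linarith

end FExpAux

open FExpAux in
theorem fsqrt_spec (hS : 1000000 ≤ S) (h1 : 0 ≤ val S x) (h2 : val S x ≤ Big S) :
    |val S (fsqrt S x) - Real.sqrt (val S x)| ≤ (1 / 2 : ℝ) ^ (S ^ 5 / 4) := by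
  obtain ⟨h6, h53, h31, h54, hS'⟩ := exps hS
  have hN : (0 : ℝ) < 2 ^ (S ^ 5) := by positivity
  have hxe : (x : ℝ) = val S x * 2 ^ (S ^ 5) := by
    unfold val prec
    field_simp
  have hx0 : 0 ≤ x := by
    have : (0 : ℝ) ≤ x := by
      rw [hxe]
      positivity
    exact_mod_cast this
  have hx1 : x ≤ 2 ^ (S ^ 4 + S ^ 5) := by
    have : (x : ℝ) ≤ 2 ^ (S ^ 4 + S ^ 5) := by
      rw [hxe, pow_add]
      exact mul_le_mul_of_nonneg_right h2 hN.le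
    exact_mod_cast this
  have hW : ∀ m, m ≤ 5 * S ^ 5 → (2 : ℤ) ^ m ≤ 2 ^ wid S := fun m hm =>
    pow_le_pow_right₀ (by norm_num) (by unfold wid; omega)
  have hWe : (2 : ℤ) ^ wid S = 2 ^ (wid S - 1) * 2 := by
    rw [← pow_succ]
    congr 1
    unfold wid
    omega
  have hW1 : ∀ m, m ≤ 5 * S ^ 5 → (2 : ℤ) ^ m ≤ 2 ^ (wid S - 1) := fun m hm =>
    pow_le_pow_right₀ (by norm_num) (by unfold wid; omega)
  have hXeq : cmul S x (fone S) = x * 2 ^ (S ^ 5) := by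
    rw [fone_eq]
    apply cmul_eq hS
    · rw [abs_of_nonneg hx0]
      exact hx1.trans (hW _ (by omega))
    · exact abs_two_pow_le (by unfold wid; omega)
    · rw [abs_of_nonneg (by positivity)]
      calc x * 2 ^ (S ^ 5) ≤ 2 ^ (S ^ 4 + S ^ 5) * 2 ^ (S ^ 5) :=
            mul_le_mul_of_nonneg_right hx1 (by positivity)
        _ = 2 ^ (S ^ 4 + S ^ 5 + S ^ 5) := by rw [← pow_add]
        _ ≤ _ := hW _ (by omega)
  have hX0 : 0 ≤ x * 2 ^ (S ^ 5) := by positivity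
  have hX1 : x * 2 ^ (S ^ 5) ≤ 2 ^ (S ^ 4 + 2 * S ^ 5) := by
    calc x * 2 ^ (S ^ 5) ≤ 2 ^ (S ^ 4 + S ^ 5) * 2 ^ (S ^ 5) :=
          mul_le_mul_of_nonneg_right hx1 (by positivity)
      _ = 2 ^ (S ^ 4 + 2 * S ^ 5) := by
        rw [← pow_add]
        congr 1
        ring
  set X : ℤ := x * 2 ^ (S ^ 5) with hX
  set T : ℤ → Prop := fun m => m * m ≤ X with hT
  have hPpos : (0 : ℤ) < 2 ^ (2 * S ^ 5) := by positivity
  have hstep : ∀ lo hi, 0 ≤ lo → lo ≤ hi → hi ≤ fbig S → T lo → ¬ T hi →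
      (T ((lo + hi) / 2) ∧ sqrtStep S (X, (lo, hi)) = ((lo + hi) / 2, hi)) ∨
        (¬ T ((lo + hi) / 2) ∧ sqrtStep S (X, (lo, hi)) = (lo, (lo + hi) / 2)) := by
    intro lo hi h3 h4 h5 _ _
    rw [fbig_eq hS] at h5
    have hlo : |lo| ≤ 2 ^ (wid S - 1) := by
      rw [abs_of_nonneg h3]
      exact (h4.trans h5).trans (hW1 _ (by omega))
    have hhi : |hi| ≤ 2 ^ (wid S - 1) := by
      rw [abs_of_nonneg (h3.trans h4)]
      exact h5.trans (hW1 _ (by omega))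
    have hmid := midS_eq hS hlo hhi
    have hm0 : 0 ≤ (lo + hi) / 2 := by omega
    have hm1 : (lo + hi) / 2 ≤ 2 ^ (2 * S ^ 5) := by omega
    have hmm : (lo + hi) / 2 * ((lo + hi) / 2) ≤ 2 ^ (4 * S ^ 5) := by
      calc _ ≤ (2 : ℤ) ^ (2 * S ^ 5) * 2 ^ (2 * S ^ 5) := mul_le_mul hm1 hm1 hm0 (by positivity)
        _ = _ := by
          rw [← pow_add]
          congr 1
          ring
    have hmm0 : 0 ≤ (lo + hi) / 2 * ((lo + hi) / 2) := mul_nonneg hm0 hm0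
    have hc2 : cmul S ((lo + hi) / 2) ((lo + hi) / 2) = (lo + hi) / 2 * ((lo + hi) / 2) := by
      apply cmul_eq hS
      · rw [abs_of_nonneg hm0]
        exact hm1.trans (hW _ (by omega))
      · rw [abs_of_nonneg hm0]
        exact hm1.trans (hW _ (by omega))
      · rw [abs_of_nonneg hmm0]
        exact hmm.trans (hW _ (by omega))
    have hb1 : X ≤ 2 ^ (wid S - 1) - 1 := by
      have h7 : (2 : ℤ) ^ (S ^ 4 + 2 * S ^ 5) * 2 ≤ 2 ^ (wid S - 1) := by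
        rw [← pow_succ]
        exact hW1 _ (by omega)
      have h8 : (0 : ℤ) < 2 ^ (S ^ 4 + 2 * S ^ 5) := by positivity
      linarith
    have hb2 : (lo + hi) / 2 * ((lo + hi) / 2) ≤ 2 ^ (wid S - 1) := hmm.trans (hW1 _ (by omega))
    have hWpos : (0 : ℤ) < 2 ^ (wid S - 1) := by positivity
    have hc : csub S (cadd S X 1) ((lo + hi) / 2 * ((lo + hi) / 2))
        = X + 1 - (lo + hi) / 2 * ((lo + hi) / 2) := by
      have e1 : cadd S X 1 = X + 1 := by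
        apply cadd_eq hS
        · rw [abs_of_nonneg hX0, hWe]
          linarith
        · rw [abs_one]
          exact one_le_pow₀ (by norm_num)
        · rw [abs_of_nonneg (by linarith), hWe]
          linarith
      rw [e1]
      apply csub_eq hS
      · rw [abs_of_nonneg (by linarith), hWe]
        linarith
      · rw [abs_of_nonneg hmm0, hWe]
        linarith
      · rw [abs_le, hWe]
        constructor <;> linarith
    unfold sqrtStep
    simp only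
    rw [hmid, hc2, hc]
    by_cases hm : T ((lo + hi) / 2)
    · left
      refine ⟨hm, ?_⟩
      have : 0 < X + 1 - (lo + hi) / 2 * ((lo + hi) / 2) := by
        have : (lo + hi) / 2 * ((lo + hi) / 2) ≤ X := hm
        linarith
      rw [if_pos this]
    · right
      refine ⟨hm, ?_⟩
      have : ¬ 0 < X + 1 - (lo + hi) / 2 * ((lo + hi) / 2) := by
        have h7 : ¬ (lo + hi) / 2 * ((lo + hi) / 2) ≤ X := hm
        omega
      rw [if_neg this]
  have h0T : T 0 := by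
    show 0 * 0 ≤ X
    simpa using hX0
  have h0nT : ¬ T (fbig S) := by
    show ¬ fbig S * fbig S ≤ X
    rw [fbig_eq hS, not_le]
    refine lt_of_le_of_lt hX1 ?_
    rw [← pow_add]
    exact pow_lt_pow_right₀ (by norm_num) (by omega)
  have hlohi : (0 : ℤ) ≤ fbig S := by
    rw [fbig_eq hS]
    positivity
  obtain ⟨i1, i2, i3, i4, i5, i6⟩ :=
    bisect_inv (fun st => sqrtStep S (X, st)) 0 (fbig S) T hstep hlohi h0T h0nT (S ^ 6)
  have hfs : fsqrt S x = ((fun st => sqrtStep S (X, st))^[S ^ 6] (0, fbig S)).1 := by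
    unfold fsqrt
    rw [hXeq]
  rw [hfs]
  generalize (fun st => sqrtStep S (X, st))^[S ^ 6] (0, fbig S) = st at *
  obtain ⟨lo, hi⟩ := st
  simp only at i1 i2 i3 i4 i5 i6 ⊢
  rw [fbig_eq hS] at i6
  have hlen : hi ≤ lo + 1 := by
    by_contra h
    have h7 : 1 ≤ hi - lo - 1 := by omega
    have h8 : (2 : ℤ) ^ (2 * S ^ 5) < 2 ^ S ^ 6 := pow_lt_pow_right₀ (by norm_num) (by omega)
    have h9 : (0 : ℤ) < 2 ^ S ^ 6 := by positivity
    nlinarith
  have hT1 : lo * lo ≤ X := i4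
  have hT2 : X < hi * hi := not_le.1 i5
  have hT3 : X < (lo + 1) * (lo + 1) := by
    have : hi * hi ≤ (lo + 1) * (lo + 1) := mul_le_mul hlen hlen (by omega) (by omega)
    linarith
  have hr : Real.sqrt (val S x) ^ 2 = (x : ℝ) / 2 ^ (S ^ 5) := by
    rw [Real.sq_sqrt h1]
    rfl
  have hsf := sqrt_final (N := 2 ^ (S ^ 5)) (x := (x : ℝ)) (lo := (lo : ℝ)) hN hr (Real.sqrt_nonneg _)
    (by exact_mod_cast i1)
    (by
      have : ((lo * lo : ℤ) : ℝ) ≤ ((X : ℤ) : ℝ) := by exact_mod_cast hT1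
      rw [hX] at this
      push_cast at this
      exact this)
    (by
      have : ((X : ℤ) : ℝ) < (((lo + 1) * (lo + 1) : ℤ) : ℝ) := by exact_mod_cast hT3
      rw [hX] at this
      push_cast at this
      exact this)
  refine hsf.trans ?_
  apply div_le_half_pow (e := 0) hN (by norm_num)
  exact pow_le_pow_right₀ (by norm_num) (by omega)

end Vale.Agent.Lib.P328.Bit
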