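import Vale.Agent.Lib.P328.Samp.PsiNum
import Vale.Agent.Lib.P328.Bit.FExp

/-!
# P328, bit model: conventions shared by all modules

* `W = S`: the master parameter of the analysis of `Samp` is the parameter of the machine.
* A vector indexed by rows or columns is a list of words: `lN`, `lF`. A matrix is a list of columns, each a list of rows: `lM`.
* A cube `z` of the grid is `lZ z` (the matrix of its integer coordinates). A node of the tree is `lV v`.
* `NodeOK`: what holds at all nodes of the tree. `parS`: the parameters `P` of the walk, `parOf` when `Bpar = S`.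
-/

namespace Vale.Agent.Lib.P328.Bit

open Finset Vale.Agent.Lib.P328.Cap Vale.Agent.Lib.P328.Fpras Vale.Agent.Lib.P328.Samp

variable {m n : ℕ}

/-- A vector of naturals as a list of words. -/
def lN {k : ℕ} (f : Fin k → ℕ) : List ℤ := List.ofFn fun i => (f i : ℤ)

/-- A list of naturals as a list of words. -/
def lL (l : List ℕ) : List ℤ := l.map fun a : ℕ => (a : ℤ)

/-- A vector of words as a list. -/
def lF {k : ℕ} (f : Fin k → ℤ) : List ℤ := List.ofFn f

/-- A matrix of words: a list of columns, each a list of rows. -/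
def lM (t : Fin n → Fin m → ℤ) : List (List ℤ) := List.ofFn fun j => List.ofFn (t j)

/-- A cube of the grid. -/
def lZ {M : ℕ} (z : Fin n × Fin m → Fin M) : List (List ℤ) :=
  List.ofFn fun j => List.ofFn fun i => (((z (j, i) : Fin M) : ℕ) : ℤ)

/-- A node of the tree. -/
def lV (v : List (Fin m → ℕ)) : List (List ℤ) := v.map lN

/-- The values of a matrix of words. -/
noncomputable def rM (S : ℕ) (t : Fin n → Fin m → ℤ) : Fin n → Fin m → ℝ := fun j i => val S (t j i)

/-- What holds at all nodes, with `Σ r < 2 ^ S`. -/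
structure NodeOK (S : ℕ) (r : Fin m → ℕ) (c : Fin n → ℕ) : Prop where
  hm : 0 < m
  hn : 0 < n
  hc : ∀ j, 0 < c j
  hsum : ∑ i, r i = ∑ j, c j
  hW : WOK m n S
  hN : ∑ i, r i < 2 ^ S

/-- The instance with the first largest row and the first largest column. -/
theorem NodeOK.inst {S : ℕ} {r : Fin m → ℕ} {c : Fin n → ℕ} (h : NodeOK S r c) :
    InstOK (iMax h.hm r) (jMax h.hn c) r c :=
  ⟨h.hc, h.hsum, iMax_spec h.hm r, jMax_spec h.hn c⟩

theorem NodeOK.S_ge {S : ℕ} {r : Fin m → ℕ} {c : Fin n → ℕ} (h : NodeOK S r c) : 1000000 ≤ S := by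
  have h1 : (10 : ℝ) ^ 6 * ((n : ℝ) * m + 1) ^ 2 ≤ S := h.hW
  have h2 : (1 : ℝ) ≤ ((n : ℝ) * m + 1) ^ 2 := one_le_pow₀ (by
    have : (0 : ℝ) ≤ (n : ℝ) * m := by positivity
    linarith)
  have h3 : (1000000 : ℝ) ≤ S := by nlinarith
  exact_mod_cast h3

/-- The parameters of the walk. -/
noncomputable def parS (S : ℕ) : Par where
  d := 1 / (S : ℝ) ^ 26
  cs := S ^ 28

end Vale.Agent.Lib.P328.Bit
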