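import Vale.Agent.Lib.P328.Bit.LogFact
import Vale.Agent.Lib.P328.Bit.Code

/-!
# P328, bit model: fixed point approximations for the constant of the estimate (part of module ANNEALF)

`Apx S w a k`: the word `w` has the value `a` up to `k` elementary errors `e0 S = 2 / S ^ 42`, and `|a| ≤ k * B0 S`,
`B0 S = 2 ^ (2 S)`. For `k ≤ S ^ 2` nothing saturates: sums of words add the parameters.
-/

namespace Vale.Agent.Lib.P328.Bit.AnnealAux

variable {α γ : Type} [Enc α] [Enc γ]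

/-- The elementary error. -/
noncomputable def e0 (S : ℕ) : ℝ := 2 / (S : ℝ) ^ 42

/-- The elementary bound. -/
noncomputable def B0 (S : ℕ) : ℝ := 2 ^ (2 * S)

/-- The tiny error of the logarithm. -/
noncomputable def tauF (S : ℕ) : ℝ := (1 / 2 : ℝ) ^ (S ^ 5 / 4)

/-- A word approximates a real number. -/
def Apx (S : ℕ) (w : ℤ) (a : ℝ) (k : ℕ) : Prop :=
  |val S w - a| ≤ k * e0 S ∧ |a| ≤ k * B0 S

section Basic

variable {S : ℕ} (hS : 1000000 ≤ S)

include hS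

theorem S_pos_real : (1000000 : ℝ) ≤ (S : ℝ) := by exact_mod_cast hS

theorem e0_pos : 0 < e0 S := by
  have := S_pos_real hS
  unfold e0
  positivity

theorem e0_le_one : e0 S ≤ 1 := by
  have h := S_pos_real hS
  unfold e0
  rw [div_le_one (by positivity)]
  have h1 : (1 : ℝ) ≤ (S : ℝ) := by linarith
  have h2 : (S : ℝ) ≤ (S : ℝ) ^ 42 := le_self_pow₀ h1 (by norm_num)
  linarith

omit hS in
theorem nat_lt_two (n : ℕ) : (n : ℝ) < 2 ^ n := by
  exact_mod_cast (Nat.lt_two_pow_self (n := n))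

theorem sq_le_B0 : ((S : ℝ) ^ 2) ≤ B0 S := by
  unfold B0
  have h := nat_lt_two S
  have h0 : (0 : ℝ) ≤ S := by positivity
  rw [mul_comm, pow_mul]
  exact pow_le_pow_left₀ h0 h.le 2

omit hS in
theorem B0_pos : 0 < B0 S := by
  unfold B0
  positivity

/-- Nothing saturates below `S ^ 2` units. -/
theorem count_le_big {k : ℕ} (hk : k ≤ S ^ 2) : (k : ℝ) * (B0 S + e0 S) ≤ Big S := by
  have h1 : (k : ℝ) ≤ (S : ℝ) ^ 2 := by exact_mod_cast hk
  have h2 : (k : ℝ) ≤ B0 S := h1.trans (sq_le_B0 hS)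
  have h3 : B0 S + e0 S ≤ 2 * B0 S := by
    have h4 := e0_le_one hS
    have h5 : (1 : ℝ) ≤ B0 S := by
      unfold B0
      exact one_le_pow₀ (by norm_num)
    linarith
  have h6 : (k : ℝ) * (B0 S + e0 S) ≤ B0 S * (2 * B0 S) :=
    mul_le_mul h2 h3 (by have h4 := e0_pos hS; have h5 : 0 < B0 S := B0_pos; positivity) B0_pos.le
  refine h6.trans ?_
  unfold B0 Big
  have h7 : (2 : ℝ) ^ (2 * S) * (2 * 2 ^ (2 * S)) = 2 ^ (4 * S + 1) := by
    rw [pow_succ, show 4 * S = 2 * S + 2 * S by ring, pow_add]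
    ring
  rw [h7]
  refine pow_le_pow_right₀ (by norm_num) ?_
  have h8 : S * 5 ≤ S * S ^ 3 := Nat.mul_le_mul_left _ (by
    have h9 : S ≤ S ^ 3 := Nat.le_self_pow (by norm_num) S
    omega)
  have h10 : S * S ^ 3 = S ^ 4 := by ring
  omega

theorem Apx.mono {w : ℤ} {a : ℝ} {k k' : ℕ} (h : Apx S w a k) (hk : k ≤ k') : Apx S w a k' := by
  have hk' : (k : ℝ) ≤ k' := by exact_mod_cast hk
  refine ⟨h.1.trans (mul_le_mul_of_nonneg_right hk' (e0_pos hS).le),
    h.2.trans (mul_le_mul_of_nonneg_right hk' (B0_pos).le)⟩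

theorem Apx.val_le {w : ℤ} {a : ℝ} {k : ℕ} (h : Apx S w a k) (hk : k ≤ S ^ 2) : |val S w| ≤ Big S := by
  have h1 : |val S w| ≤ |val S w - a| + |a| := by
    have := abs_add_le (val S w - a) a
    simpa using this
  have h2 := count_le_big hS hk
  have h3 := h.1
  have h4 := h.2
  have h5 : (k : ℝ) * (B0 S + e0 S) = k * e0 S + k * B0 S := by ring
  linarith

theorem Apx.add {w1 w2 : ℤ} {a1 a2 : ℝ} {k1 k2 : ℕ} (h1 : Apx S w1 a1 k1) (h2 : Apx S w2 a2 k2)
    (hk : k1 + k2 ≤ S ^ 2) : Apx S (cadd S w1 w2) (a1 + a2) (k1 + k2) := by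
  rw [Apx, val_add hS (h1.val_le hS (by omega)) (h2.val_le hS (by omega))]
  constructor
  · have h3 := abs_add_le (val S w1 - a1) (val S w2 - a2)
    have h4 : val S w1 + val S w2 - (a1 + a2) = (val S w1 - a1) + (val S w2 - a2) := by ring
    rw [h4]
    have h5 := h1.1
    have h6 := h2.1
    push_cast
    linarith
  · have h3 := abs_add_le a1 a2
    have h5 := h1.2
    have h6 := h2.2
    push_cast
    linarith

theorem Apx.sub {w1 w2 : ℤ} {a1 a2 : ℝ} {k1 k2 : ℕ} (h1 : Apx S w1 a1 k1) (h2 : Apx S w2 a2 k2)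
    (hk : k1 + k2 ≤ S ^ 2) : Apx S (csub S w1 w2) (a1 - a2) (k1 + k2) := by
  rw [Apx, val_sub hS (h1.val_le hS (by omega)) (h2.val_le hS (by omega))]
  constructor
  · have h3 := abs_sub (val S w1 - a1) (val S w2 - a2)
    have h4 : val S w1 - val S w2 - (a1 - a2) = (val S w1 - a1) - (val S w2 - a2) := by ring
    rw [h4]
    have h5 := h1.1
    have h6 := h2.1
    push_cast
    linarith
  · have h3 := abs_sub a1 a2
    have h5 := h1.2
    have h6 := h2.2
    push_cast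
    linarith

omit hS in
theorem val_zero : val S 0 = 0 := by
  unfold val
  simp

omit hS in
theorem Apx.zero : Apx S 0 0 0 := by
  rw [Apx, val_zero]
  simp

/-- A fold of additions. -/
theorem foldl_apx (f : ℤ → ℤ) (ψ : ℤ → ℝ) (K : ℕ) (l : List ℤ) :
    ∀ (s0 : ℤ) (a0 : ℝ) (k0 : ℕ), Apx S s0 a0 k0 → (∀ a ∈ l, Apx S (f a) (ψ a) K) →
      k0 + l.length * K ≤ S ^ 2 →
      Apx S (l.foldl (fun s a => cadd S s (f a)) s0) (a0 + (l.map ψ).sum) (k0 + l.length * K) := by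
  induction l with
  | nil =>
    intro s0 a0 k0 h0 _ _
    simpa using h0
  | cons a t ih =>
    intro s0 a0 k0 h0 hl hk
    simp only [List.length_cons] at hk
    have hmul : (t.length + 1) * K = t.length * K + K := by ring
    have h1 := h0.add hS (hl a (by simp)) (by omega)
    have h2 := ih _ _ _ h1 (fun b hb => hl b (by simp [hb])) (by omega)
    simp only [List.foldl_cons, List.map_cons, List.sum_cons, List.length_cons]
    have e1 : a0 + (ψ a + (t.map ψ).sum) = a0 + ψ a + (t.map ψ).sum := by ring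
    have e2 : k0 + (t.length + 1) * K = k0 + K + t.length * K := by
      rw [hmul]
      ring
    rw [e1, e2]
    exact h2

end Basic

/-- A sum over the first `S` elements of a list. -/
def sumL (S : ℕ) (l : List γ) (f : γ → ℤ) : ℤ :=
  (l.take S).foldl (fun s a => cadd S s (f a)) 0

theorem sumL_rep {l : ℕ → α → List γ} {f : ℕ → α × γ → ℤ} (hl : DRep l) (hf : DRep f) :
    DRep fun S x => sumL S (l S x) (fun a => f S (x, a)) := by
  have hg : DRep (α := α × (ℤ × γ)) (β := ℤ) fun S y => cadd S y.2.1 (f S (y.1, y.2.2)) :=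
    (DRep.snd.comp DRep.fst).add ((DRep.fst.pair (DRep.snd.comp DRep.snd)).comp hf)
  exact DRep.foldS (l := l) (i := fun _ _ => (0 : ℤ)) (f := fun S y => cadd S y.2.1 (f S (y.1, y.2.2)))
    hl DRep.zero hg

/-- A sum over the values of a function on `Fin k`. -/
theorem sumL_fin {S : ℕ} (hS : 1000000 ≤ S) {k : ℕ} (hkS : k ≤ S) (g : Fin k → ℕ) (f : ℤ → ℤ) (φ : ℕ → ℝ)
    (K : ℕ) (h : ∀ i, Apx S (f (g i)) (φ (g i)) K) (hK : k * K ≤ S ^ 2) :
    Apx S (sumL S (lN g) f) (∑ i, φ (g i)) (k * K) := by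
  have hlen : (lN g).length = k := by
    unfold lN
    simp
  have htake : (lN g).take S = lN g := List.take_of_length_le (by omega)
  have hmem : ∀ a ∈ lN g, Apx S (f a) ((fun z : ℤ => φ z.toNat) a) K := by
    intro a ha
    unfold lN at ha
    obtain ⟨i, rfl⟩ := (List.mem_ofFn' _ _).1 ha
    simpa using h i
  have h1 := foldl_apx hS f (fun z : ℤ => φ z.toNat) K (lN g) 0 0 0 Apx.zero hmem (by
    rw [hlen]
    omega)
  have hsum : ((lN g).map fun z : ℤ => φ z.toNat).sum = ∑ i, φ (g i) := by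
    unfold lN
    rw [List.map_ofFn, List.sum_ofFn]
    simp
  unfold sumL
  rw [htake]
  rw [hlen, hsum, zero_add, zero_add] at h1
  exact h1

/-! ### The logarithm of an integer -/

/-- The logarithm of an integer. -/
noncomputable def intLog (S : ℕ) (a : ℤ) : ℤ := flog S (fint S a)

theorem intLog_rep {f : ℕ → α → ℤ} (hf : DRep f) : DRep fun S x => intLog S (f S x) :=
  flog_rep (fint_rep hf)

/-- `x * log x` for an integer. -/
noncomputable def xlogF (S : ℕ) (a : ℤ) : ℤ := cmul S a (intLog S a)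

theorem xlogF_rep {f : ℕ → α → ℤ} (hf : DRep f) : DRep fun S x => xlogF S (f S x) :=
  hf.mul (intLog_rep hf)

section Real

variable {S : ℕ} (hS : 1000000 ≤ S)

include hS

theorem two_mul_S_le : 2 * S ≤ S ^ 2 := by
  have : S ^ 2 = S * S := by ring
  rw [this]
  exact Nat.mul_le_mul_right _ (by omega)

/-- The tiny error against a large number. -/
theorem tau_le : (2 : ℝ) ^ (3 * S) * tauF S ≤ 1 / (S : ℝ) ^ 42 := by
  have hSr := S_pos_real hS
  have hS0 : (0 : ℝ) < (S : ℝ) := by linarith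
  have h1 : (S : ℝ) ^ 42 ≤ (2 : ℝ) ^ (42 * S) := by
    rw [mul_comm, pow_mul]
    exact pow_le_pow_left₀ hS0.le (nat_lt_two S).le 42
  have h2 : 45 * S ≤ S ^ 5 / 4 := by
    rw [Nat.le_div_iff_mul_le (by norm_num)]
    have h3 : S ^ 5 = S * S ^ 4 := by ring
    rw [h3]
    have h4 : S ≤ S ^ 4 := Nat.le_self_pow (by norm_num) S
    calc 45 * S * 4 = S * 180 := by ring
      _ ≤ S * S ^ 4 := Nat.mul_le_mul_left _ (by omega)
  have h5 : (2 : ℝ) ^ (3 * S) * tauF S * (2 : ℝ) ^ (42 * S) ≤ 1 := by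
    unfold tauF
    have h6 : (2 : ℝ) ^ (3 * S) * (1 / 2 : ℝ) ^ (S ^ 5 / 4) * (2 : ℝ) ^ (42 * S)
        = (2 : ℝ) ^ (45 * S) * (1 / 2 : ℝ) ^ (S ^ 5 / 4) := by
      rw [show 45 * S = 3 * S + 42 * S by ring, pow_add]
      ring
    rw [h6]
    have h7 : (2 : ℝ) ^ (45 * S) ≤ (2 : ℝ) ^ (S ^ 5 / 4) :=
      pow_le_pow_right₀ (by norm_num) h2
    have h8 : (2 : ℝ) ^ (S ^ 5 / 4) * (1 / 2 : ℝ) ^ (S ^ 5 / 4) = 1 := by
      rw [← mul_pow]
      norm_num
    have h9 : (0 : ℝ) ≤ (1 / 2 : ℝ) ^ (S ^ 5 / 4) := by positivity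
    calc _ ≤ (2 : ℝ) ^ (S ^ 5 / 4) * (1 / 2 : ℝ) ^ (S ^ 5 / 4) := mul_le_mul_of_nonneg_right h7 h9
      _ = 1 := h8
  rw [le_div_iff₀ (by positivity)]
  have h10 : 0 ≤ (2 : ℝ) ^ (3 * S) * tauF S := by
    unfold tauF
    positivity
  calc _ ≤ (2 : ℝ) ^ (3 * S) * tauF S * (2 : ℝ) ^ (42 * S) := mul_le_mul_of_nonneg_left h1 h10
    _ ≤ 1 := h5

omit hS in
theorem tau_pos : 0 < tauF S := by
  unfold tauF
  positivity

theorem tau_le_e0 : tauF S ≤ e0 S := by
  have h := tau_le hS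
  have h1 : (1 : ℝ) ≤ (2 : ℝ) ^ (3 * S) := one_le_pow₀ (by norm_num)
  have h2 : tauF S ≤ (2 : ℝ) ^ (3 * S) * tauF S := le_mul_of_one_le_left tau_pos.le h1
  have h3 : 1 / (S : ℝ) ^ 42 ≤ e0 S := by
    unfold e0
    have := S_pos_real hS
    rw [div_le_div_iff_of_pos_right (by positivity)]
    norm_num
  linarith

/-- The value of a big integer. -/
theorem abs_nat_le_big {a : ℕ} (h : a ≤ 2 ^ (S ^ 2)) : |((a : ℤ) : ℝ)| ≤ Big S := by
  have h1 : ((a : ℤ) : ℝ) = (a : ℝ) := by norm_cast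
  rw [h1, abs_of_nonneg (by positivity)]
  have h2 : (a : ℝ) ≤ 2 ^ (S ^ 2) := by exact_mod_cast h
  refine h2.trans ?_
  unfold Big
  exact pow_le_pow_right₀ (by norm_num) (Nat.pow_le_pow_right (by omega) (by norm_num))

/-- The logarithm of a natural number. -/
theorem intLog_close {a : ℕ} (h1 : 1 ≤ a) (h2 : a ≤ 2 ^ (S ^ 2)) :
    |val S (intLog S (a : ℤ)) - Real.log a| ≤ tauF S := by
  have hv : val S (fint S (a : ℤ)) = a := by
    have := val_fint hS (n := (a : ℤ)) (abs_nat_le_big hS h2)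
    rw [this]
    norm_cast
  have h3 : (1 : ℝ) ≤ (a : ℝ) := by exact_mod_cast h1
  have h4 : (a : ℝ) ≤ 2 ^ (S ^ 2) := by exact_mod_cast h2
  have h5 := flog_spec (x := fint S (a : ℤ)) hS (by
    rw [hv]
    have : (1 / 2 : ℝ) ^ (S ^ 3) ≤ 1 := pow_le_one₀ (by norm_num) (by norm_num)
    linarith) (by
    rw [hv]
    refine h4.trans (pow_le_pow_right₀ (by norm_num) (Nat.pow_le_pow_right (by omega) (by norm_num))))
  rw [hv] at h5
  exact h5

omit hS in
theorem log_le_of_le_pow {a : ℕ} {t : ℕ} (h1 : 1 ≤ a) (h2 : a ≤ 2 ^ t) :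
    0 ≤ Real.log a ∧ Real.log a ≤ t := by
  have h3 : (1 : ℝ) ≤ (a : ℝ) := by exact_mod_cast h1
  have h4 : (a : ℝ) ≤ 2 ^ t := by exact_mod_cast h2
  refine ⟨Real.log_nonneg h3, ?_⟩
  have h5 : Real.log a ≤ Real.log (2 ^ t) := Real.log_le_log (by linarith) h4
  rw [Real.log_pow] at h5
  have h6 : Real.log 2 ≤ 1 := by
    have := Real.log_two_lt_d9
    linarith
  have h7 : (t : ℝ) * Real.log 2 ≤ t * 1 := mul_le_mul_of_nonneg_left h6 (by positivity)
  linarith

theorem intLog_apx {a : ℕ} (h1 : 1 ≤ a) (h2 : a ≤ 2 ^ (S ^ 2)) :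
    Apx S (intLog S (a : ℤ)) (Real.log a) 1 := by
  rw [Apx, Nat.cast_one, one_mul, one_mul]
  refine ⟨(intLog_close hS h1 h2).trans (tau_le_e0 hS), ?_⟩
  obtain ⟨h3, h4⟩ := log_le_of_le_pow h1 h2
  rw [abs_of_nonneg h3]
  have h5 : ((S ^ 2 : ℕ) : ℝ) = (S : ℝ) ^ 2 := by push_cast; ring
  rw [h5] at h4
  exact h4.trans (sq_le_B0 hS)

/-- A natural number times a word. -/
theorem val_cmul_nat {a : ℕ} {w : ℤ} (h1 : a ≤ 2 ^ (S ^ 2)) (h2 : |val S w| ≤ Big S) :
    val S (cmul S (a : ℤ) w) = a * val S w := by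
  have hab : ((a : ℤ)) ≤ 2 ^ (S ^ 2) := by exact_mod_cast h1
  have hw : S ^ 2 ≤ wid S := by
    unfold wid
    exact Nat.pow_le_pow_right (by omega) (by norm_num)
  have ha : clamp S (a : ℤ) = a := by
    refine clamp_eq hS ?_
    rw [abs_of_nonneg (by positivity)]
    exact hab.trans (pow_le_pow_right₀ (by norm_num) hw)
  have hc : clamp S w = w := clamp_of_val hS h2
  have hz := abs_le_of_val h2
  obtain ⟨_, _, h4⟩ := pow_facts hS
  have hs4 : S ^ 4 ≤ S ^ 5 := Nat.pow_le_pow_right (by omega) (by norm_num)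
  have hs2 : S ^ 2 ≤ S ^ 5 := Nat.pow_le_pow_right (by omega) (by norm_num)
  have hm : |(a : ℤ) * w| ≤ 2 ^ wid S := by
    rw [abs_mul, abs_of_nonneg (by positivity : (0 : ℤ) ≤ a)]
    have h5 : (a : ℤ) * |w| ≤ 2 ^ (S ^ 2) * 2 ^ (S ^ 4 + S ^ 5) :=
      mul_le_mul hab hz (abs_nonneg _) (by positivity)
    refine h5.trans ?_
    rw [← pow_add]
    refine pow_le_pow_right₀ (by norm_num) ?_
    unfold wid
    omega
  unfold cmul
  rw [ha, hc, clamp_eq hS hm]
  unfold val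
  push_cast
  ring

/-- `x * log x`. -/
theorem xlogF_apx {a : ℕ} (h1 : a ≤ 2 ^ S) : Apx S (xlogF S (a : ℤ)) ((a : ℝ) * Real.log a) 1 := by
  have hSS : 2 ^ S ≤ 2 ^ (S ^ 2) := Nat.pow_le_pow_right (by norm_num)
    (by nlinarith [two_mul_S_le hS])
  rcases Nat.eq_zero_or_pos a with h0 | h0
  · subst h0
    have h2 : xlogF S ((0 : ℕ) : ℤ) = 0 := by
      unfold xlogF cmul
      have hc : clamp S (0 : ℤ) = 0 := clamp_eq hS (by simp)
      have hc' : clamp S ((0 : ℕ) : ℤ) = 0 := by simpa using hc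
      rw [hc', zero_mul, hc]
    rw [h2]
    simpa using (Apx.zero (S := S)).mono hS (by norm_num : 0 ≤ 1)
  have h3 := intLog_close hS h0 (h1.trans hSS)
  obtain ⟨h4, h5⟩ := log_le_of_le_pow h0 h1
  have hτ := tau_le hS
  have hτ0 : 0 < tauF S := tau_pos
  have hτ1 : tauF S ≤ 1 := by
    unfold tauF
    exact pow_le_one₀ (by norm_num) (by norm_num)
  have hval : |val S (intLog S (a : ℤ))| ≤ Big S := by
    have h6 : |val S (intLog S (a : ℤ))| ≤ |val S (intLog S (a : ℤ)) - Real.log a| + |Real.log a| := by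
      have := abs_add_le (val S (intLog S (a : ℤ)) - Real.log a) (Real.log a)
      simpa using this
    rw [abs_of_nonneg h4] at h6
    have h7 := nat_lt_two S
    have h8 : (1 : ℝ) + 2 ^ S ≤ Big S := by
      unfold Big
      have h9 : (1 : ℝ) ≤ 2 ^ S := one_le_pow₀ (by norm_num)
      have h10 : (2 : ℝ) ^ (S + 1) ≤ 2 ^ (S ^ 4) := pow_le_pow_right₀ (by norm_num) (by
        have h11 : S + 1 ≤ S ^ 2 := by
          have := two_mul_S_le hS
          omega
        exact h11.trans (Nat.pow_le_pow_right (by omega) (by norm_num)))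
      rw [pow_succ] at h10
      linarith
    linarith
  have hv := val_cmul_nat hS (h1.trans hSS) hval
  have ha0 : (0 : ℝ) ≤ (a : ℝ) := by positivity
  have ha2 : (a : ℝ) ≤ 2 ^ S := by exact_mod_cast h1
  have h3' := abs_le.1 h3
  unfold xlogF
  rw [Apx, Nat.cast_one, one_mul, one_mul, hv, ← mul_sub, abs_mul, abs_of_nonneg ha0]
  constructor
  · have h12 : (a : ℝ) * |val S (intLog S (a : ℤ)) - Real.log a| ≤ 2 ^ S * tauF S :=
      mul_le_mul ha2 h3 (abs_nonneg _) (by positivity)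
    have h13 : (2 : ℝ) ^ S * tauF S ≤ (2 : ℝ) ^ (3 * S) * tauF S :=
      mul_le_mul_of_nonneg_right (pow_le_pow_right₀ (by norm_num) (by omega)) hτ0.le
    have h14 : 1 / (S : ℝ) ^ 42 ≤ e0 S := by
      unfold e0
      have := S_pos_real hS
      rw [div_le_div_iff_of_pos_right (by positivity)]
      norm_num
    linarith
  · rw [abs_mul, abs_of_nonneg ha0, abs_of_nonneg h4]
    have h15 : (a : ℝ) * Real.log a ≤ 2 ^ S * S := mul_le_mul ha2 h5 h4 (by positivity)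
    refine h15.trans ?_
    unfold B0
    rw [two_mul, pow_add]
    exact mul_le_mul_of_nonneg_left (nat_lt_two S).le (by positivity)

/-- The logarithm of the factorial. -/
theorem lfF_apx {a : ℕ} (h1 : a ≤ 2 ^ S) : Apx S (lfF S (a : ℤ)) (Real.log (a.factorial : ℝ)) 1 := by
  have hl := lfF_spec hS h1
  rw [Apx, Nat.cast_one, one_mul, one_mul]
  constructor
  · refine hl.trans ?_
    unfold e0
    have := S_pos_real hS
    rw [div_le_div_iff_of_pos_right (by positivity)]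
    norm_num
  · have h2 : (1 : ℝ) ≤ (a.factorial : ℝ) := by exact_mod_cast Nat.factorial_pos a
    rw [abs_of_nonneg (Real.log_nonneg h2)]
    rcases Nat.eq_zero_or_pos a with h0 | h0
    · subst h0
      simp only [Nat.factorial_zero, Nat.cast_one, Real.log_one]
      exact (B0_pos).le
    have h3 : (a.factorial : ℝ) ≤ (a : ℝ) ^ a := by exact_mod_cast Nat.factorial_le_pow a
    have h4 : Real.log (a.factorial : ℝ) ≤ Real.log ((a : ℝ) ^ a) := Real.log_le_log (by linarith) h3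
    rw [Real.log_pow] at h4
    obtain ⟨h5, h6⟩ := log_le_of_le_pow h0 h1
    have ha2 : (a : ℝ) ≤ 2 ^ S := by exact_mod_cast h1
    have h15 : (a : ℝ) * Real.log a ≤ 2 ^ S * S := mul_le_mul ha2 h6 h5 (by positivity)
    refine h4.trans (h15.trans ?_)
    unfold B0
    rw [two_mul, pow_add]
    exact mul_le_mul_of_nonneg_left (nat_lt_two S).le (by positivity)

/-- An integer as a fixed point number. -/
theorem fint_apx {a : ℕ} (h1 : a ≤ 2 ^ S) : Apx S (fint S (a : ℤ)) (a : ℝ) 1 := by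
  have hSS : 2 ^ S ≤ 2 ^ (S ^ 2) := Nat.pow_le_pow_right (by norm_num)
    (by nlinarith [two_mul_S_le hS])
  have hv := val_fint hS (n := (a : ℤ)) (abs_nat_le_big hS (h1.trans hSS))
  have hv' : val S (fint S (a : ℤ)) = (a : ℝ) := by
    rw [hv]
    norm_cast
  rw [Apx, Nat.cast_one, one_mul, one_mul, hv', sub_self, abs_zero]
  refine ⟨(e0_pos hS).le, ?_⟩
  rw [abs_of_nonneg (by positivity)]
  have ha2 : (a : ℝ) ≤ 2 ^ S := by exact_mod_cast h1
  refine ha2.trans ?_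
  unfold B0
  exact pow_le_pow_right₀ (by norm_num) (by omega)

end Real

/-- The logarithm is Lipschitz above `1 / 2`. -/
theorem log_lip {u v : ℝ} (hu : 1 / 2 ≤ u) (hv : 1 / 2 ≤ v) :
    |Real.log u - Real.log v| ≤ 2 * |u - v| := by
  have hu0 : 0 < u := by linarith
  have hv0 : 0 < v := by linarith
  have key : ∀ {x y : ℝ}, 1 / 2 ≤ x → 1 / 2 ≤ y → x ≤ y → Real.log y - Real.log x ≤ 2 * (y - x) := by
    intro x y hx hy hxy
    have hx0 : 0 < x := by linarith
    have hy0 : 0 < y := by linarith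
    rw [← Real.log_div hy0.ne' hx0.ne']
    have h1 := Real.log_le_sub_one_of_pos (div_pos hy0 hx0)
    have h2 : y / x - 1 = (y - x) / x := by
      field_simp
    have h3 : (y - x) / x ≤ 2 * (y - x) := by
      rw [div_le_iff₀ hx0]
      have h4 : 0 ≤ y - x := by linarith
      nlinarith
    linarith
  rcases le_total u v with h | h
  · rw [abs_sub_comm, abs_of_nonneg (sub_nonneg.2 (Real.log_le_log hu0 h)), abs_sub_comm,
      abs_of_nonneg (sub_nonneg.2 h)]
    exact key hu hv h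
  · rw [abs_of_nonneg (sub_nonneg.2 (Real.log_le_log hv0 h)), abs_of_nonneg (sub_nonneg.2 h)]
    exact key hv hu h

theorem Big_pos (S : ℕ) : 0 < Big S := by
  unfold Big
  positivity

/-- A crude bound. -/
theorem sharp_bound {S : ℕ} (hS : 1000000 ≤ S) : (S : ℝ) ^ 3 ≤ B0 S := by
  -- `S ^ 3 ≤ 2 ^ (2 S)`: from `S < 2 ^ (S / 2)` we would need a parity split; use `S ^ 2 ≤ 2 ^ S` twice
  have h1 : S ^ 2 ≤ 2 ^ S := by
    have key : ∀ k : ℕ, 4 ≤ k → k ^ 2 ≤ 2 ^ k := by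
      intro k hk
      induction k, hk using Nat.le_induction with
      | base => norm_num
      | succ k hk ih =>
        rw [pow_succ 2 k]
        nlinarith
    exact key S (by omega)
  have h2 : S < 2 ^ S := Nat.lt_two_pow_self
  have h3 : S ^ 3 ≤ 2 ^ (2 * S) := by
    have h4 : S ^ 3 = S ^ 2 * S := by ring
    rw [h4, two_mul, pow_add]
    exact Nat.mul_le_mul h1 h2.le
  unfold B0
  exact_mod_cast h3

/-! ### Words for the terms of the constant -/

/-- The smaller of two words. -/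
noncomputable def minW (S : ℕ) (a b : ℤ) : ℤ := if 0 < csub S a b then b else a

theorem minW_rep {fa fb : ℕ → α → ℤ} (ha : DRep fa) (hb : DRep fb) :
    DRep fun S x => minW S (fa S x) (fb S x) :=
  (ha.sub hb).ite hb ha

/-- `2 D ^ 2`. -/
noncomputable def twoD2 (S : ℕ) (D : ℤ) : ℤ := cmul S (clamp S ((2 : ℕ) : ℤ)) (cmul S D D)

/-- `16 D ^ 2`. -/
noncomputable def sixD2 (S : ℕ) (D : ℤ) : ℤ := cmul S (clamp S ((16 : ℕ) : ℤ)) (cmul S D D)

theorem twoD2_rep {f : ℕ → α → ℤ} (hf : DRep f) : DRep fun S x => twoD2 S (f S x) :=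
  (DRep.natConst 2).mul (hf.mul hf)

theorem sixD2_rep {f : ℕ → α → ℤ} (hf : DRep f) : DRep fun S x => sixD2 S (f S x) :=
  (DRep.natConst 16).mul (hf.mul hf)

/-- The logarithm of `scF`. -/
noncomputable def lFw (S : ℕ) (D a b : ℤ) : ℤ :=
  csub S (intLog S (cadd S (minW S a b) 1)) (intLog S (twoD2 S D))

theorem lFw_rep {fD fa fb : ℕ → α → ℤ} (hD : DRep fD) (ha : DRep fa) (hb : DRep fb) :
    DRep fun S x => lFw S (fD S x) (fa S x) (fb S x) :=
  (intLog_rep ((minW_rep ha hb).add DRep.one)).sub (intLog_rep (twoD2_rep hD))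

/-- The logarithm of `1 + sqrt a`. -/
noncomputable def sqW (S : ℕ) (a : ℤ) : ℤ := flog S (cadd S (fone S) (fsqrt S (fint S a)))

theorem sqW_rep {f : ℕ → α → ℤ} (hf : DRep f) : DRep fun S x => sqW S (f S x) :=
  flog_rep (fone_rep.add (fsqrt_rep (fint_rep hf)))

/-- The logarithm of `scS`. -/
noncomputable def lSw (S : ℕ) (D a : ℤ) : ℤ := csub S (sqW S a) (intLog S (sixD2 S D))

theorem lSw_rep {fD fa : ℕ → α → ℤ} (hD : DRep fD) (ha : DRep fa) :
    DRep fun S x => lSw S (fD S x) (fa S x) :=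
  (sqW_rep ha).sub (intLog_rep (sixD2_rep hD))

/-- The word `4 S ^ 4`. -/
noncomputable def fourS4 (S : ℕ) : ℤ := cmul S (clamp S ((4 : ℕ) : ℤ)) (clamp S ((S : ℤ) ^ 4))

theorem fourS4_rep : DRep (α := α) (β := ℤ) fun S _ => fourS4 S :=
  (DRep.natConst 4).mul (spow_rep 4)

/-- The largest element of a list. -/
noncomputable def maxL (S : ℕ) (l : List ℤ) : ℤ :=
  (l.take S).foldl (fun s a => if 0 < csub S a s then a else s) 0

theorem maxL_rep {l : ℕ → α → List ℤ} (hl : DRep l) : DRep fun S x => maxL S (l S x) := by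
  have hc : DRep (α := α × (ℤ × ℤ)) (β := ℤ) fun S y => csub S y.2.2 y.2.1 :=
    (DRep.snd.comp DRep.snd).sub (DRep.snd.comp DRep.fst)
  have hf : DRep (α := α × (ℤ × ℤ)) (β := ℤ) fun S y => if 0 < csub S y.2.2 y.2.1 then y.2.2 else y.2.1 :=
    hc.ite (DRep.snd.comp DRep.snd) (DRep.snd.comp DRep.fst)
  exact DRep.foldS (l := l) (i := fun _ _ => (0 : ℤ))
    (f := fun S y => if 0 < csub S y.2.2 y.2.1 then y.2.2 else y.2.1) hl DRep.zero hf

section Spec

variable {S : ℕ} (hS : 1000000 ≤ S)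

include hS

theorem two_pow_S_le : 2 ^ S ≤ 2 ^ (S ^ 2) := Nat.pow_le_pow_right (by norm_num)
    (by nlinarith [two_mul_S_le hS])

theorem clamp_natW {a : ℕ} (h : a ≤ 2 ^ (S ^ 2)) : clamp S (a : ℤ) = a := by
  refine clamp_eq hS ?_
  rw [abs_of_nonneg (by positivity)]
  have h1 : ((a : ℤ)) ≤ 2 ^ (S ^ 2) := by exact_mod_cast h
  refine h1.trans (pow_le_pow_right₀ (by norm_num) ?_)
  unfold wid
  exact Nat.pow_le_pow_right (by omega) (by norm_num)

theorem csub_nat_pos_iff {a b : ℕ} (ha : a ≤ 2 ^ (S ^ 2)) (hb : b ≤ 2 ^ (S ^ 2)) :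
    0 < csub S (a : ℤ) (b : ℤ) ↔ b < a := by
  unfold csub
  rw [clamp_pos_iff, clamp_natW hS ha, clamp_natW hS hb]
  omega

theorem minW_nat {a b : ℕ} (ha : a ≤ 2 ^ (S ^ 2)) (hb : b ≤ 2 ^ (S ^ 2)) :
    minW S (a : ℤ) (b : ℤ) = ((min a b : ℕ) : ℤ) := by
  unfold minW
  by_cases h : b < a
  · rw [if_pos ((csub_nat_pos_iff hS ha hb).2 h), min_eq_right h.le]
  · rw [if_neg (fun h' => h ((csub_nat_pos_iff hS ha hb).1 h')), min_eq_left (not_lt.1 h)]

theorem cadd_nat {a b : ℕ} (h : a + b ≤ 2 ^ (S ^ 2)) : cadd S (a : ℤ) (b : ℤ) = ((a + b : ℕ) : ℤ) := by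
  unfold cadd
  rw [clamp_natW hS (by omega), clamp_natW hS (by omega)]
  have := clamp_natW hS h
  push_cast at this ⊢
  exact this

theorem cmul_nat {a b : ℕ} (ha : a ≤ 2 ^ (S ^ 2)) (hb : b ≤ 2 ^ (S ^ 2)) (h : a * b ≤ 2 ^ (S ^ 2)) :
    cmul S (a : ℤ) (b : ℤ) = ((a * b : ℕ) : ℤ) := by
  unfold cmul
  rw [clamp_natW hS ha, clamp_natW hS hb]
  have := clamp_natW hS h
  push_cast at this ⊢
  exact this

/-- Small numbers are below `2 ^ (S ^ 2)`. -/
theorem small_le {a : ℕ} (h : a ≤ S ^ 4) : 16 * a ≤ 2 ^ (S ^ 2) := by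
  have h1 : S < 2 ^ S := Nat.lt_two_pow_self
  have h2 : S ^ 4 ≤ (2 ^ S) ^ 4 := Nat.pow_le_pow_left h1.le 4
  have h3 : (2 ^ S) ^ 4 = 2 ^ (S * 4) := (pow_mul 2 S 4).symm
  have h4 : (16 : ℕ) = 2 ^ 4 := by norm_num
  have h5 : 16 * a ≤ 2 ^ 4 * 2 ^ (S * 4) := by
    rw [h4.symm]
    have : a ≤ 2 ^ (S * 4) := by omega
    omega
  refine h5.trans ?_
  rw [← pow_add]
  refine Nat.pow_le_pow_right (by norm_num) ?_
  have h6 : S ^ 2 = S * S := by ring
  have h7 : S * 5 ≤ S * S := Nat.mul_le_mul_left _ (by omega)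
  omega

theorem D2_le {D : ℕ} (hD : D ≤ S) : D * D ≤ S ^ 4 := by
  have h1 : D * D ≤ S * S := Nat.mul_le_mul hD hD
  have h2 : S * S = S ^ 2 := by ring
  have h3 : S ^ 2 ≤ S ^ 4 := Nat.pow_le_pow_right (by omega) (by norm_num)
  omega

theorem twoD2_nat {D : ℕ} (hD : D ≤ S) : twoD2 S (D : ℤ) = ((2 * D ^ 2 : ℕ) : ℤ) := by
  have h1 := small_le hS (D2_le hS hD)
  have h2 : D ≤ D * D ∨ D = 0 := by
    rcases Nat.eq_zero_or_pos D with h | h
    · exact Or.inr h
    · exact Or.inl (Nat.le_mul_of_pos_left _ h)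
  have hD2 : D ≤ 2 ^ (S ^ 2) := by
    rcases h2 with h | h <;> omega
  unfold twoD2
  have h16 : 2 ≤ 2 ^ (S ^ 2) := by
    have h8 : 2 ^ 1 ≤ 2 ^ (S ^ 2) := Nat.pow_le_pow_right (by norm_num) (by
      have : 2 * S ≤ S ^ 2 := two_mul_S_le hS
      omega)
    omega
  rw [cmul_nat hS hD2 hD2 (by omega), clamp_natW hS h16, cmul_nat hS h16 (by omega) (by omega)]
  congr 1
  ring

theorem sixD2_nat {D : ℕ} (hD : D ≤ S) : sixD2 S (D : ℤ) = ((16 * D ^ 2 : ℕ) : ℤ) := by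
  have h1 := small_le hS (D2_le hS hD)
  have h2 : D ≤ D * D ∨ D = 0 := by
    rcases Nat.eq_zero_or_pos D with h | h
    · exact Or.inr h
    · exact Or.inl (Nat.le_mul_of_pos_left _ h)
  have hD2 : D ≤ 2 ^ (S ^ 2) := by
    rcases h2 with h | h <;> omega
  have h16 : 16 ≤ 2 ^ (S ^ 2) := by
    have h8 : 2 ^ 4 ≤ 2 ^ (S ^ 2) := Nat.pow_le_pow_right (by norm_num) (by
      have : 2 * S ≤ S ^ 2 := two_mul_S_le hS
      omega)
    omega
  unfold sixD2
  rw [cmul_nat hS hD2 hD2 (by omega), clamp_natW hS h16, cmul_nat hS h16 (by omega) (by omega)]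
  congr 1
  ring

/-- The logarithm of `scF`. -/
theorem lFw_apx {D a b : ℕ} (hD : D ≤ S) (hD0 : 1 ≤ D) (ha : a ≤ 2 ^ S) (hb : b ≤ 2 ^ S) :
    Apx S (lFw S (D : ℤ) (a : ℤ) (b : ℤ))
      (Real.log ((min a b + 1 : ℕ) : ℝ) - Real.log ((2 * D ^ 2 : ℕ) : ℝ)) 2 := by
  have hSS := two_pow_S_le hS
  have h1 : minW S (a : ℤ) (b : ℤ) = ((min a b : ℕ) : ℤ) := minW_nat hS (ha.trans hSS) (hb.trans hSS)
  have hle : min a b + 1 ≤ 2 ^ (S ^ 2) := by
    have h3 : min a b ≤ 2 ^ S := (min_le_left _ _).trans ha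
    have h4 : 2 ^ (S + 1) ≤ 2 ^ (S ^ 2) := Nat.pow_le_pow_right (by norm_num) (by
      have : 2 * S ≤ S ^ 2 := two_mul_S_le hS
      omega)
    have h5 : 1 ≤ 2 ^ S := Nat.one_le_two_pow
    rw [pow_succ] at h4
    omega
  have h2 : cadd S ((min a b : ℕ) : ℤ) 1 = ((min a b + 1 : ℕ) : ℤ) := by
    have := cadd_nat hS (a := min a b) (b := 1) hle
    simpa using this
  have hsq := small_le hS (D2_le hS hD)
  have hsq1 : 2 * D ^ 2 ≤ 2 ^ (S ^ 2) := by
    have : D ^ 2 = D * D := by ring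
    rw [this]
    omega
  have hpos : 1 ≤ 2 * D ^ 2 := by
    have : 1 ≤ D ^ 2 := Nat.one_le_pow _ _ (by omega)
    omega
  unfold lFw
  rw [h1, h2, twoD2_nat hS hD]
  exact (intLog_apx hS (by omega) hle).sub hS (intLog_apx hS hpos hsq1) (by
    have : 4 ≤ S ^ 2 := by
      have := two_mul_S_le hS
      omega
    omega)

/-- The logarithm of `1 + sqrt a`. -/
theorem sqW_apx {a : ℕ} (ha : a ≤ 2 ^ S) : Apx S (sqW S (a : ℤ)) (Real.log (1 + Real.sqrt a)) 1 := by
  have hSS := two_pow_S_le hS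
  have hv : val S (fint S (a : ℤ)) = a := by
    have := val_fint hS (n := (a : ℤ)) (abs_nat_le_big hS (ha.trans hSS))
    rw [this]
    norm_cast
  have ha0 : (0 : ℝ) ≤ (a : ℝ) := by positivity
  have ha2 : (a : ℝ) ≤ 2 ^ S := by exact_mod_cast ha
  have hBig : (2 : ℝ) ^ S + 2 ≤ Big S := by
    unfold Big
    have h9 : (2 : ℝ) ≤ 2 ^ S := by
      calc (2 : ℝ) = 2 ^ 1 := by norm_num
        _ ≤ 2 ^ S := pow_le_pow_right₀ (by norm_num) (by omega)
    have h10 : (2 : ℝ) ^ (S + 1) ≤ 2 ^ (S ^ 4) := pow_le_pow_right₀ (by norm_num) (by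
      have h11 : S + 1 ≤ S ^ 2 := by
        have := two_mul_S_le hS
        omega
      exact h11.trans (Nat.pow_le_pow_right (by omega) (by norm_num)))
    rw [pow_succ] at h10
    linarith
  have hs := fsqrt_spec (x := fint S (a : ℤ)) hS (by rw [hv]; exact ha0) (by rw [hv]; linarith)
  rw [hv] at hs
  have hτ1 : tauF S ≤ 1 := by
    unfold tauF
    exact pow_le_one₀ (by norm_num) (by norm_num)
  have hτs : (1 / 2 : ℝ) ^ (S ^ 5 / 4) = tauF S := rfl
  rw [hτs] at hs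
  have hsq0 : 0 ≤ Real.sqrt a := Real.sqrt_nonneg _
  have hsq1 : Real.sqrt a ≤ a + 1 := by
    rw [Real.sqrt_le_iff]
    constructor
    · linarith
    · nlinarith
  have hs' := abs_le.1 hs
  have hf0 : val S (fone S) = 1 := val_fone hS
  have hx : |val S (fsqrt S (fint S (a : ℤ)))| ≤ Big S := by
    rw [abs_le]
    constructor <;> linarith [(hs').1, (hs').2, hτ1, (Big_pos S : 0 < Big S)]
  have hone : |val S (fone S)| ≤ Big S := by
    rw [hf0, abs_one]
    have h9 : (1 : ℝ) ≤ 2 ^ S := one_le_pow₀ (by norm_num)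
    linarith
  have hy : val S (cadd S (fone S) (fsqrt S (fint S (a : ℤ))))
      = 1 + val S (fsqrt S (fint S (a : ℤ))) := by
    rw [val_add hS hone hx, hf0]
  have hτ2 : tauF S ≤ 1 / 2 := by
    unfold tauF
    calc (1 / 2 : ℝ) ^ (S ^ 5 / 4) ≤ (1 / 2 : ℝ) ^ 1 :=
          pow_le_pow_of_le_one (by norm_num) (by norm_num) (by
            rw [Nat.le_div_iff_mul_le (by norm_num)]
            have h : S ≤ S ^ 5 := Nat.le_self_pow (by norm_num) S
            omega)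
      _ = 1 / 2 := by norm_num
  have hy0 : (1 / 2 : ℝ) ≤ 1 + val S (fsqrt S (fint S (a : ℤ))) := by linarith [hs'.1]
  have hy1 : 1 + val S (fsqrt S (fint S (a : ℤ))) ≤ 2 ^ S + 3 := by linarith [hs'.2]
  have hfl := flog_spec (x := cadd S (fone S) (fsqrt S (fint S (a : ℤ)))) hS (by
    rw [hy]
    have : (1 / 2 : ℝ) ^ (S ^ 3) ≤ (1 / 2) ^ 1 :=
      pow_le_pow_of_le_one (by norm_num) (by norm_num) (Nat.one_le_pow _ _ (by omega))
    linarith) (by
    rw [hy]
    have h10 : (2 : ℝ) ^ (S + 1) ≤ 2 ^ (S ^ 3) := pow_le_pow_right₀ (by norm_num) (by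
      have h11 : S + 1 ≤ S ^ 2 := by
        have := two_mul_S_le hS
        omega
      exact h11.trans (Nat.pow_le_pow_right (by omega) (by norm_num)))
    rw [pow_succ] at h10
    have h9 : (3 : ℝ) ≤ 2 ^ S := by
      calc (3 : ℝ) ≤ 2 ^ 2 := by norm_num
        _ ≤ 2 ^ S := pow_le_pow_right₀ (by norm_num) (by omega)
    linarith)
  rw [hy] at hfl
  rw [hτs] at hfl
  have hlip := log_lip (u := 1 + val S (fsqrt S (fint S (a : ℤ)))) (v := 1 + Real.sqrt a) hy0 (by linarith)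
  have hdiff : |(1 + val S (fsqrt S (fint S (a : ℤ)))) - (1 + Real.sqrt a)| ≤ tauF S := by
    have : (1 + val S (fsqrt S (fint S (a : ℤ)))) - (1 + Real.sqrt a)
        = val S (fsqrt S (fint S (a : ℤ))) - Real.sqrt a := by ring
    rw [this]
    exact hs
  unfold sqW
  rw [Apx, Nat.cast_one, one_mul, one_mul]
  constructor
  · have h1 := abs_sub_le (val S (flog S (cadd S (fone S) (fsqrt S (fint S (a : ℤ))))))
      (Real.log (1 + val S (fsqrt S (fint S (a : ℤ))))) (Real.log (1 + Real.sqrt a))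
    have h2 := tau_le hS
    have h3 : (1 / (S : ℝ) ^ 42) * 2 = e0 S := by
      unfold e0
      ring
    have h4 : (3 : ℝ) * tauF S ≤ (2 : ℝ) ^ (3 * S) * tauF S := by
      refine mul_le_mul_of_nonneg_right ?_ tau_pos.le
      calc (3 : ℝ) ≤ 2 ^ 2 := by norm_num
        _ ≤ 2 ^ (3 * S) := pow_le_pow_right₀ (by norm_num) (by omega)
    have h5 : 0 < 1 / (S : ℝ) ^ 42 := by
      have := S_pos_real hS
      positivity
    linarith
  · have h6 : (1 : ℝ) ≤ 1 + Real.sqrt a := by linarith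
    rw [abs_of_nonneg (Real.log_nonneg h6)]
    have h7 : Real.log (1 + Real.sqrt a) ≤ (1 + Real.sqrt a) - 1 := Real.log_le_sub_one_of_pos (by linarith)
    have h8 : (2 : ℝ) ^ S + 1 ≤ B0 S := by
      unfold B0
      rw [two_mul, pow_add]
      have h9 : (2 : ℝ) ≤ 2 ^ S := by
        calc (2 : ℝ) = 2 ^ 1 := by norm_num
          _ ≤ 2 ^ S := pow_le_pow_right₀ (by norm_num) (by omega)
      nlinarith
    linarith

/-- The logarithm of `scS`. -/
theorem lSw_apx {D a : ℕ} (hD : D ≤ S) (hD0 : 1 ≤ D) (ha : a ≤ 2 ^ S) :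
    Apx S (lSw S (D : ℤ) (a : ℤ)) (Real.log (1 + Real.sqrt a) - Real.log ((16 * D ^ 2 : ℕ) : ℝ)) 2 := by
  have hsq := small_le hS (D2_le hS hD)
  have hsq1 : 16 * D ^ 2 ≤ 2 ^ (S ^ 2) := by
    have : D ^ 2 = D * D := by ring
    rw [this]
    exact hsq
  have hpos : 1 ≤ 16 * D ^ 2 := by
    have : 1 ≤ D ^ 2 := Nat.one_le_pow _ _ (by omega)
    omega
  unfold lSw
  rw [sixD2_nat hS hD]
  exact (sqW_apx hS ha).sub hS (intLog_apx hS hpos hsq1) (by
    have : 4 ≤ S ^ 2 := by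
      have := two_mul_S_le hS
      omega
    omega)

/-- The word `4 S ^ 4`. -/
theorem fourS4_nat : fourS4 S = ((4 * S ^ 4 : ℕ) : ℤ) := by
  have h1 : 16 * S ^ 4 ≤ 2 ^ (S ^ 2) := small_le hS le_rfl
  have h4 : 4 ≤ 2 ^ (S ^ 2) := by
    have h8 : 2 ^ 2 ≤ 2 ^ (S ^ 2) := Nat.pow_le_pow_right (by norm_num) (by
      have : 2 * S ≤ S ^ 2 := two_mul_S_le hS
      omega)
    omega
  have hs : clamp S ((S : ℤ) ^ 4) = (S : ℤ) ^ 4 := spow_eq hS (by norm_num)
  have hs' : ((S : ℤ) ^ 4) = ((S ^ 4 : ℕ) : ℤ) := by push_cast; ring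
  unfold fourS4
  rw [hs, hs', clamp_natW hS h4, cmul_nat hS h4 (by omega) (by omega)]

/-- `D` times the logarithm of `4 S ^ 4`. -/
theorem D_log_apx {D : ℕ} (hD : D ≤ S) :
    Apx S (cmul S (D : ℤ) (intLog S (fourS4 S))) ((D : ℝ) * Real.log ((4 * S ^ 4 : ℕ) : ℝ)) 1 := by
  have h1 : 16 * S ^ 4 ≤ 2 ^ (S ^ 2) := small_le hS le_rfl
  have h0 : 1 ≤ 4 * S ^ 4 := by
    have : 1 ≤ S ^ 4 := Nat.one_le_pow _ _ (by omega)
    omega
  have hc := intLog_close hS h0 (by omega)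
  obtain ⟨h4, h5⟩ := log_le_of_le_pow h0 (t := S ^ 2) (by omega)
  have hτ1 : tauF S ≤ 1 := by
    unfold tauF
    exact pow_le_one₀ (by norm_num) (by norm_num)
  have hval : |val S (intLog S ((4 * S ^ 4 : ℕ) : ℤ))| ≤ Big S := by
    have h6 : |val S (intLog S ((4 * S ^ 4 : ℕ) : ℤ))|
        ≤ |val S (intLog S ((4 * S ^ 4 : ℕ) : ℤ)) - Real.log ((4 * S ^ 4 : ℕ) : ℝ)|
          + |Real.log ((4 * S ^ 4 : ℕ) : ℝ)| := by
      have := abs_add_le (val S (intLog S ((4 * S ^ 4 : ℕ) : ℤ)) - Real.log ((4 * S ^ 4 : ℕ) : ℝ))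
        (Real.log ((4 * S ^ 4 : ℕ) : ℝ))
      simpa using this
    rw [abs_of_nonneg h4] at h6
    have h7 : ((S ^ 2 : ℕ) : ℝ) + 1 ≤ Big S := by
      have h8 := nat_lt_two (S ^ 2)
      unfold Big
      have h9 : (2 : ℝ) ^ (S ^ 2 + 1) ≤ 2 ^ (S ^ 4) := pow_le_pow_right₀ (by norm_num) (by
        have h10 : S ^ 2 * 2 ≤ S ^ 2 * S ^ 2 := Nat.mul_le_mul_left _ (by
          have := two_mul_S_le hS
          omega)
        have h11 : S ^ 2 * S ^ 2 = S ^ 4 := by ring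
        have h12 : 1 ≤ S ^ 2 := Nat.one_le_pow _ _ (by omega)
        omega)
      rw [pow_succ] at h9
      have h13 : (1 : ℝ) ≤ 2 ^ (S ^ 2) := one_le_pow₀ (by norm_num)
      linarith
    linarith
  have hDle : D ≤ 2 ^ (S ^ 2) := hD.trans ((Nat.lt_two_pow_self).le.trans (two_pow_S_le hS))
  rw [fourS4_nat hS, Apx, val_cmul_nat hS hDle hval, ← mul_sub, abs_mul, Nat.cast_one, one_mul, one_mul,
    abs_of_nonneg (by positivity : (0 : ℝ) ≤ (D : ℝ))]
  have hD2 : (D : ℝ) ≤ S := by exact_mod_cast hD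
  have hS2 : (S : ℝ) ≤ 2 ^ (3 * S) := by
    refine (nat_lt_two S).le.trans (pow_le_pow_right₀ (by norm_num) (by omega))
  constructor
  · have h6 : (D : ℝ) * |val S (intLog S ((4 * S ^ 4 : ℕ) : ℤ)) - Real.log ((4 * S ^ 4 : ℕ) : ℝ)|
        ≤ (2 : ℝ) ^ (3 * S) * tauF S := mul_le_mul (hD2.trans hS2) hc (abs_nonneg _) (by positivity)
    have h7 := tau_le hS
    have h14 : 1 / (S : ℝ) ^ 42 ≤ e0 S := by
      unfold e0
      have := S_pos_real hS
      rw [div_le_div_iff_of_pos_right (by positivity)]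
      norm_num
    linarith
  · rw [abs_mul, abs_of_nonneg (by positivity : (0 : ℝ) ≤ (D : ℝ)), abs_of_nonneg h4]
    have h15 : (D : ℝ) * Real.log ((4 * S ^ 4 : ℕ) : ℝ) ≤ (S : ℝ) * ((S ^ 2 : ℕ) : ℝ) :=
      mul_le_mul hD2 h5 h4 (by positivity)
    refine h15.trans ?_
    have h16 : (S : ℝ) * ((S ^ 2 : ℕ) : ℝ) = (S : ℝ) ^ 3 := by
      push_cast
      ring
    rw [h16]
    exact sharp_bound hS

end Spec

/-! ### Lists of natural numbers -/

section Lists

variable {S : ℕ} (hS : 1000000 ≤ S)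

include hS

/-- The largest element: the general fold. -/
theorem maxL_aux (l : List ℕ) : ∀ (s0 : ℕ), s0 ≤ 2 ^ S → (∀ a ∈ l, a ≤ 2 ^ S) →
    ∃ R : ℕ, (l.map fun a : ℕ => (a : ℤ)).foldl (fun s a => if 0 < csub S a s then a else s) (s0 : ℤ) = (R : ℤ)
      ∧ s0 ≤ R ∧ (∀ a ∈ l, a ≤ R) ∧ (R = s0 ∨ R ∈ l) := by
  have hSS := two_pow_S_le hS
  induction l with
  | nil =>
    intro s0 _ _
    exact ⟨s0, rfl, le_rfl, by simp, Or.inl rfl⟩
  | cons a t ih =>
    intro s0 hs0 hl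
    have ha : a ≤ 2 ^ S := hl a (by simp)
    by_cases hc : s0 < a
    · obtain ⟨R, h1, h2, h3, h4⟩ := ih a ha (fun b hb => hl b (by simp [hb]))
      refine ⟨R, ?_, by omega, ?_, ?_⟩
      · simp only [List.map_cons, List.foldl_cons]
        rw [if_pos ((csub_nat_pos_iff hS (ha.trans hSS) (hs0.trans hSS)).2 hc)]
        exact h1
      · intro b hb
        rcases List.mem_cons.1 hb with rfl | hb
        · exact h2
        · exact h3 b hb
      · rcases h4 with h4 | h4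
        · exact Or.inr (by simp [h4])
        · exact Or.inr (by simp [h4])
    · obtain ⟨R, h1, h2, h3, h4⟩ := ih s0 hs0 (fun b hb => hl b (by simp [hb]))
      refine ⟨R, ?_, h2, ?_, ?_⟩
      · simp only [List.map_cons, List.foldl_cons]
        rw [if_neg (fun h' => hc ((csub_nat_pos_iff hS (ha.trans hSS) (hs0.trans hSS)).1 h'))]
        exact h1
      · intro b hb
        rcases List.mem_cons.1 hb with rfl | hb
        · omega
        · exact h3 b hb
      · rcases h4 with h4 | h4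
        · exact Or.inl h4
        · exact Or.inr (by simp [h4])

omit hS in
theorem lN_eq_map {k : ℕ} (g : Fin k → ℕ) : lN g = (List.ofFn g).map fun a : ℕ => (a : ℤ) := by
  unfold lN
  rw [List.map_ofFn]
  rfl

omit hS in
theorem lN_length {k : ℕ} (g : Fin k → ℕ) : (lN g).length = k := by
  unfold lN
  simp

/-- The largest element of a list of values. -/
theorem maxL_nat {k : ℕ} (hkS : k ≤ S) (g : Fin k → ℕ) (hg : ∀ i, g i ≤ 2 ^ S) (i0 : Fin k)
    (hi0 : ∀ i, g i ≤ g i0) : maxL S (lN g) = (g i0 : ℤ) := by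
  have hlen := lN_length g
  have htake : (lN g).take S = lN g := List.take_of_length_le (by omega)
  obtain ⟨R, h1, _, h3, h4⟩ := maxL_aux hS (List.ofFn g) 0 (Nat.zero_le _) (by
    intro a ha
    obtain ⟨i, rfl⟩ := (List.mem_ofFn' _ _).1 ha
    exact hg i)
  unfold maxL
  rw [htake, lN_eq_map]
  have h0 : ((0 : ℕ) : ℤ) = 0 := rfl
  rw [h0] at h1
  rw [h1]
  have h5 : g i0 ≤ R := h3 _ ((List.mem_ofFn' _ _).2 ⟨i0, rfl⟩)
  have h6 : R ≤ g i0 := by
    rcases h4 with h | h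
    · omega
    · obtain ⟨i, rfl⟩ := (List.mem_ofFn' _ _).1 h
      exact hi0 i
  have : R = g i0 := le_antisymm h6 h5
  rw [this]

/-- The sum of a list of natural numbers, as a word. -/
theorem sumNat_aux (l : List ℕ) : ∀ (s0 : ℕ), s0 + l.sum ≤ 2 ^ S →
    (l.map fun a : ℕ => (a : ℤ)).foldl (fun s a => cadd S s a) (s0 : ℤ) = ((s0 + l.sum : ℕ) : ℤ) := by
  have hSS := two_pow_S_le hS
  induction l with
  | nil =>
    intro s0 _
    simp
  | cons a t ih =>
    intro s0 hs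
    simp only [List.sum_cons] at hs
    simp only [List.map_cons, List.foldl_cons, List.sum_cons]
    rw [cadd_nat hS (by omega), ih (s0 + a) (by omega)]
    congr 1
    ring

theorem sumNat_fin {k : ℕ} (hkS : k ≤ S) (g : Fin k → ℕ) (hg : ∑ i, g i ≤ 2 ^ S) :
    sumL S (lN g) (fun a => a) = ((∑ i, g i : ℕ) : ℤ) := by
  have hlen := lN_length g
  have htake : (lN g).take S = lN g := List.take_of_length_le (by omega)
  have hs : (List.ofFn g).sum = ∑ i, g i := List.sum_ofFn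
  have h := sumNat_aux hS (List.ofFn g) 0 (by rw [hs]; omega)
  unfold sumL
  rw [htake, lN_eq_map]
  have h0 : ((0 : ℕ) : ℤ) = 0 := rfl
  rw [h0] at h
  rw [h, hs, zero_add]

end Lists

end Vale.Agent.Lib.P328.Bit.AnnealAux
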