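import Vale.Agent.Lib.P328.Bit.CapG
import Vale.Agent.Lib.P328.Samp.CapNum

/-!
# P328, bit model: the small cube of near minimisers of `capG` (module ELLF)

`cap_cube`: for `t` with entries in `[1/S^27, 2^S S^6]`, there is a cube `x0 + [0, θ]^n` inside the ball of radius `S^2 - 1`, on
which `capG ≤ log capa + 1/S^31`, and which is large enough for `S^2` rounds of the ellipsoid method.
Paper proof: take a near minimiser `β0`, with largest coordinate zero (`exists_near`). With `ε = 1/(4 (N+1) S^31)` and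
`bm = ε S^(-27) / (n 2^S S^6)` raise all coordinates below `log bm` to `log bm`: all the sums `Σ_j t_ji exp (β_j)` are at least `S^(-27)`,
and grow by at most `bm n 2^S S^6`, which is at most a factor `exp ε`. Then `θ = 1/(2 (N+1) S^31)` and use `capG_compare`.
-/

namespace Vale.Agent.Lib.P328.Bit

open Finset Vale.Agent.Lib.P328.Cap Vale.Agent.Lib.P328.Fpras Vale.Agent.Lib.P328.Samp
open scoped Matrix

variable {m n : ℕ}

namespace CapCubeAux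

lemma frac_le {N X : ℝ} (hN : 0 ≤ N) (hX : 0 ≤ X) : (N / (N + 1)) * X ≤ X := by
  have h2 : N / (N + 1) ≤ 1 := by
    rw [div_le_one (by positivity)]; linarith
  exact mul_le_of_le_one_left hX h2

lemma log_two_pow (S : ℕ) : Real.log ((2 : ℝ) ^ S) ≤ S := by
  rw [Real.log_pow]
  have h2 : Real.log 2 ≤ 1 := by
    have := Real.log_two_lt_d9
    linarith
  have h3 : (0 : ℝ) ≤ S := Nat.cast_nonneg _
  nlinarith

/-- The rounds. -/
lemma rounds {S N : ℕ} (hn : 0 < n) (hS1 : 10 ^ 6 * ((n : ℝ) + 1) ^ 2 ≤ S) (hS6 : (10 : ℝ) ^ 6 ≤ S)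
    (hN : N + 1 ≤ 2 ^ S) :
    (2 * (S : ℝ) ^ 2 / ((1 / (S : ℝ) ^ 31) / (2 * ((N : ℝ) + 1)))) ^ n
      * Real.exp (-((S ^ 2 : ℕ) : ℝ) / (4 * ((n : ℝ) + 2))) < 1 := by
  have hn0 : (0 : ℝ) ≤ n := Nat.cast_nonneg _
  have hS0 : (0 : ℝ) < S := lt_of_lt_of_le (by norm_num) hS6
  have hNR0 : (0 : ℝ) ≤ N := Nat.cast_nonneg _
  have hN2 : (N : ℝ) + 1 ≤ 2 ^ S := by exact_mod_cast hN
  have hlog := log_W_bound hS6
  have hlogN : Real.log ((N : ℝ) + 1) ≤ S :=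
    (Real.log_le_log (by positivity) hN2).trans (log_two_pow S)
  set A : ℝ := 2 * (S : ℝ) ^ 2 / ((1 / (S : ℝ) ^ 31) / (2 * ((N : ℝ) + 1))) with hA
  have hA2 : A = 4 * ((N : ℝ) + 1) * (S : ℝ) ^ 33 := by
    rw [hA]
    field_simp
    ring
  have hA0 : 0 < A := by rw [hA2]; positivity
  have hlogA : Real.log A ≤ 2 * (S : ℝ) := by
    rw [hA2, Real.log_mul (by positivity) (by positivity),
      Real.log_mul (by norm_num) (by positivity)]
    have h3 : Real.log ((S : ℝ) ^ 33) = 33 * Real.log S := by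
      rw [Real.log_pow]
      norm_num
    have h4 : Real.log 4 ≤ 2 := by
      have h1 : (4 : ℝ) = 2 ^ 2 := by norm_num
      rw [h1, Real.log_pow]
      have := Real.log_two_lt_d9
      norm_num
      linarith
    have hlog0 : 0 ≤ Real.log S := Real.log_nonneg (le_trans (by norm_num) hS6)
    rw [h3]
    linarith
  have hpow : A ^ n = Real.exp ((n : ℝ) * Real.log A) := by
    rw [mul_comm, Real.exp_mul, Real.exp_log hA0, Real.rpow_natCast]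
  rw [hpow, ← Real.exp_add, Real.exp_lt_one_iff]
  have hd : 0 < 4 * ((n : ℝ) + 2) := by positivity
  have h1 : (n : ℝ) * Real.log A ≤ (n : ℝ) * (2 * (S : ℝ)) :=
    mul_le_mul_of_nonneg_left hlogA hn0
  have h2 : (((S ^ 2 : ℕ) : ℝ)) / (4 * ((n : ℝ) + 2)) > (n : ℝ) * (2 * (S : ℝ)) := by
    rw [gt_iff_lt, lt_div_iff₀ hd]
    push_cast
    have h3 : 8 * (n : ℝ) * ((n : ℝ) + 2) < S := by nlinarith
    have h4 : (n : ℝ) * (2 * (S : ℝ)) * (4 * ((n : ℝ) + 2)) = 8 * (n : ℝ) * ((n : ℝ) + 2) * S := by ring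
    rw [h4, sq]
    exact mul_lt_mul_of_pos_right h3 hS0
  have h3 : -((S ^ 2 : ℕ) : ℝ) / (4 * ((n : ℝ) + 2))
      = -(((S ^ 2 : ℕ) : ℝ) / (4 * ((n : ℝ) + 2))) := by ring
  rw [h3]
  linarith

/-- Raising the small coordinates. -/
lemma raise {S : ℕ} {r : Fin m → ℕ} {c : Fin n → ℕ} {t : Fin n → Fin m → ℝ} (hS0 : (0 : ℝ) < S)
    (hn : 0 < n) (ht : TabRange S t) (ht0 : ∀ j i, 0 < t j i) {β0 : Fin n → ℝ} {j1 : Fin n}
    (hj1 : β0 j1 = 0) {ε : ℝ} (hε0 : 0 < ε) :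
    capG r c t (fun j => max (β0 j) (Real.log (ε * (1 / (S : ℝ) ^ 27) / ((n : ℝ) * (2 ^ S * (S : ℝ) ^ 6)))))
        ≤ capG r c t β0 + ((∑ i, r i : ℕ) : ℝ) * ε := by
  have hn1 : (1 : ℝ) ≤ n := by exact_mod_cast hn
  set bm : ℝ := ε * (1 / (S : ℝ) ^ 27) / ((n : ℝ) * (2 ^ S * (S : ℝ) ^ 6)) with hbm
  have hbm0 : 0 < bm := by positivity
  refine capG_compare r c ht0 hn (fun i => ?_) (fun j => le_max_left _ _)
  have hlow : 1 / (S : ℝ) ^ 27 ≤ ∑ j, t j i * Real.exp (β0 j) := by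
    have h1 : t j1 i * Real.exp (β0 j1) ≤ ∑ j, t j i * Real.exp (β0 j) :=
      Finset.single_le_sum (f := fun j => t j i * Real.exp (β0 j))
        (fun j _ => (mul_pos (ht0 j i) (Real.exp_pos _)).le) (mem_univ j1)
    rw [hj1, Real.exp_zero, mul_one] at h1
    exact le_trans (ht j1 i).1 h1
  have hup : ∑ j, t j i * Real.exp (max (β0 j) (Real.log bm))
      ≤ (∑ j, t j i * Real.exp (β0 j)) + bm * ((n : ℝ) * (2 ^ S * (S : ℝ) ^ 6)) := by
    have h1 : ∀ j, t j i * Real.exp (max (β0 j) (Real.log bm))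
        ≤ t j i * Real.exp (β0 j) + bm * (2 ^ S * (S : ℝ) ^ 6) := by
      intro j
      have h2 : Real.exp (max (β0 j) (Real.log bm)) ≤ Real.exp (β0 j) + bm := by
        rcases le_total (β0 j) (Real.log bm) with h | h
        · simp only [max_eq_right h]
          rw [Real.exp_log hbm0]
          linarith [Real.exp_pos (β0 j)]
        · simp only [max_eq_left h]
          linarith
      have h3 : t j i * Real.exp (max (β0 j) (Real.log bm)) ≤ t j i * (Real.exp (β0 j) + bm) :=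
        mul_le_mul_of_nonneg_left h2 (ht0 j i).le
      have h4 : t j i * bm ≤ 2 ^ S * (S : ℝ) ^ 6 * bm :=
        mul_le_mul_of_nonneg_right (ht j i).2 hbm0.le
      rw [mul_add] at h3
      rw [mul_comm bm]
      linarith
    calc ∑ j, t j i * Real.exp (max (β0 j) (Real.log bm))
        ≤ ∑ j, (t j i * Real.exp (β0 j) + bm * (2 ^ S * (S : ℝ) ^ 6)) :=
          Finset.sum_le_sum fun j _ => h1 j
      _ = _ := by
          rw [Finset.sum_add_distrib, Finset.sum_const, Finset.card_univ, Fintype.card_fin,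
            nsmul_eq_mul]
          ring
  have hval : bm * ((n : ℝ) * (2 ^ S * (S : ℝ) ^ 6)) = ε * (1 / (S : ℝ) ^ 27) := by
    rw [hbm]
    field_simp
  have hκ : 0 < 1 / (S : ℝ) ^ 27 := by positivity
  have hS0' := lt_of_lt_of_le hκ hlow
  calc ∑ j, t j i * Real.exp (max (β0 j) (Real.log bm))
      ≤ (∑ j, t j i * Real.exp (β0 j)) + ε * (1 / (S : ℝ) ^ 27) := by rw [← hval]; exact hup
    _ ≤ (∑ j, t j i * Real.exp (β0 j)) * (1 + ε) := by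
        have h5 := mul_le_mul_of_nonneg_left hlow hε0.le
        rw [mul_add, mul_one, mul_comm (∑ j, t j i * Real.exp (β0 j)) ε]
        linarith
    _ ≤ (∑ j, t j i * Real.exp (β0 j)) * Real.exp ε := by
        refine mul_le_mul_of_nonneg_left ?_ hS0'.le
        linarith [Real.add_one_le_exp ε]

/-- The lower cut. -/
lemma log_bm {S N : ℕ} (hn1 : (1 : ℝ) ≤ n) (hS1 : 10 ^ 6 * ((n : ℝ) + 1) ^ 2 ≤ S) (hS6 : (10 : ℝ) ^ 6 ≤ S)
    (hN : N + 1 ≤ 2 ^ S) :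
    -Real.log (((1 / (S : ℝ) ^ 31) / (4 * ((N : ℝ) + 1))) * (1 / (S : ℝ) ^ 27)
        / ((n : ℝ) * (2 ^ S * (S : ℝ) ^ 6))) ≤ 4 * (S : ℝ) := by
  have hS0 : (0 : ℝ) < S := lt_of_lt_of_le (by norm_num) hS6
  have hn0 : (0 : ℝ) < n := by linarith
  have hNR0 : (0 : ℝ) ≤ N := Nat.cast_nonneg _
  have hN2 : (N : ℝ) + 1 ≤ 2 ^ S := by exact_mod_cast hN
  have hlog := log_W_bound hS6
  have hlogN : Real.log ((N : ℝ) + 1) ≤ S :=
    (Real.log_le_log (by positivity) hN2).trans (log_two_pow S)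
  have hbm2 : ((1 / (S : ℝ) ^ 31) / (4 * ((N : ℝ) + 1))) * (1 / (S : ℝ) ^ 27)
        / ((n : ℝ) * (2 ^ S * (S : ℝ) ^ 6))
      = 1 / ((4 * (n : ℝ)) * ((N : ℝ) + 1) * 2 ^ S * (S : ℝ) ^ 64) := by
    field_simp
  rw [hbm2, one_div, Real.log_inv, neg_neg,
    Real.log_mul (by positivity) (by positivity), Real.log_mul (by positivity) (by positivity),
    Real.log_mul (by positivity) (by positivity)]
  have h2 : Real.log (4 * (n : ℝ)) ≤ Real.log S := Real.log_le_log (by positivity) (by nlinarith)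
  have h3 : Real.log ((S : ℝ) ^ 64) = 64 * Real.log S := by
    rw [Real.log_pow]
    norm_num
  have h4 := log_two_pow S
  have hlog0 : 0 ≤ Real.log S := Real.log_nonneg (le_trans (by norm_num) hS6)
  rw [h3]
  linarith

end CapCubeAux

open CapCubeAux

/-- The cube. -/
theorem cap_cube {S : ℕ} (h : 10 ^ 6 * ((n : ℝ) * m + 1) ^ 2 ≤ S) (hm : 0 < m) (hn : 0 < n)
    {r : Fin m → ℕ} {c : Fin n → ℕ} (hsum : ∑ i, r i = ∑ j, c j) (hN : ∑ i, r i < 2 ^ S)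
    {t : Fin n → Fin m → ℝ} (ht : TabRange S t) :
    ∃ (x0 : Fin n → ℝ) (θ : ℝ), 0 < θ ∧
      (∀ x : Fin n → ℝ, (∀ i, x0 i ≤ x i ∧ x i ≤ x0 i + θ) →
        capG r c t x ≤ Real.log (capa r c t).toReal + 1 / (S : ℝ) ^ 31
          ∧ x ⬝ᵥ x ≤ ((S : ℝ) ^ 2 - 1) ^ 2)
      ∧ (2 * (S : ℝ) ^ 2 / θ) ^ n * Real.exp (-((S ^ 2 : ℕ) : ℝ) / (4 * ((n : ℝ) + 2))) < 1 := by
  have hn0 : (0 : ℝ) ≤ n := Nat.cast_nonneg _
  have hn1 : (1 : ℝ) ≤ n := by exact_mod_cast hn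
  have hm1 : (1 : ℝ) ≤ m := by exact_mod_cast hm
  have hnm : ((n : ℝ) + 1) ^ 2 ≤ ((n : ℝ) * m + 1) ^ 2 := by
    apply pow_le_pow_left₀ (by positivity)
    nlinarith
  have hS1 : 10 ^ 6 * ((n : ℝ) + 1) ^ 2 ≤ S := le_trans (by linarith) h
  have hS2 : (n : ℝ) + 1 ≤ ((n : ℝ) + 1) ^ 2 := by nlinarith
  have hS6 : (10 : ℝ) ^ 6 ≤ S := by nlinarith
  have hS0 : (0 : ℝ) < S := lt_of_lt_of_le (by norm_num) hS6
  have hS1' : (1 : ℝ) ≤ S := le_trans (by norm_num) hS6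
  have ht0 : ∀ j i, 0 < t j i := fun j i =>
    lt_of_lt_of_le (by positivity) (ht j i).1
  obtain ⟨N, hNdef⟩ : ∃ N : ℕ, N = ∑ i, r i := ⟨_, rfl⟩
  rw [← hNdef] at hN
  have hNR0 : (0 : ℝ) ≤ N := Nat.cast_nonneg _
  have hN2 : N + 1 ≤ 2 ^ S := hN
  obtain ⟨β0, hβ0, hβle, j1, hj1⟩ := exists_near r c hsum ht0 hn
    (e := (1 / (S : ℝ) ^ 31) / 4) (by positivity)
  have hlogbm := log_bm (N := N) hn1 hS1 hS6 hN2
  obtain ⟨ε, hε⟩ : ∃ ε : ℝ, ε = (1 / (S : ℝ) ^ 31) / (4 * ((N : ℝ) + 1)) := ⟨_, rfl⟩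
  have hε0 : 0 < ε := by rw [hε]; positivity
  rw [← hε] at hlogbm
  have hstep := raise (r := r) (c := c) hS0 hn ht ht0 hj1 hε0
  obtain ⟨bm, hbm⟩ : ∃ bm : ℝ, bm = ε * (1 / (S : ℝ) ^ 27) / ((n : ℝ) * (2 ^ S * (S : ℝ) ^ 6)) :=
    ⟨_, rfl⟩
  have hbm0 : 0 < bm := by rw [hbm]; positivity
  rw [← hbm] at hlogbm hstep
  rw [← hNdef] at hstep
  obtain ⟨θ, hθ⟩ : ∃ θ : ℝ, θ = (1 / (S : ℝ) ^ 31) / (2 * ((N : ℝ) + 1)) := ⟨_, rfl⟩
  have hθ0 : 0 < θ := by rw [hθ]; positivity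
  have hSpow : (1 : ℝ) ≤ (S : ℝ) ^ 31 := one_le_pow₀ hS1'
  have hθ1 : θ ≤ 1 := by
    rw [hθ, div_le_one (by positivity), div_le_iff₀ (by positivity)]
    have h1 : (1 : ℝ) ≤ 2 * ((N : ℝ) + 1) := by linarith
    calc (1 : ℝ) = 1 * 1 := by ring
      _ ≤ 2 * ((N : ℝ) + 1) * (S : ℝ) ^ 31 := mul_le_mul h1 hSpow (by norm_num) (by positivity)
  have hI := rounds (n := n) hn hS1 hS6 hN2
  rw [← hθ] at hI
  refine ⟨fun j => max (β0 j) (Real.log bm), θ, hθ0, ?_, hI⟩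
  have hlogbm0 : Real.log bm ≤ 0 := by
    refine Real.log_nonpos hbm0.le ?_
    have h2 : bm = 1 / ((4 * (n : ℝ)) * ((N : ℝ) + 1) * 2 ^ S * (S : ℝ) ^ 64) := by
      rw [hbm, hε]
      field_simp
    rw [h2, div_le_one (by positivity)]
    have h1 : (1 : ℝ) ≤ 4 * (n : ℝ) := by linarith
    have h2' : (1 : ℝ) ≤ (N : ℝ) + 1 := by linarith
    have h3 : (1 : ℝ) ≤ (2 : ℝ) ^ S := one_le_pow₀ (by norm_num)
    have h4 : (1 : ℝ) ≤ (S : ℝ) ^ 64 := one_le_pow₀ hS1'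
    exact one_le_mul_of_one_le_of_one_le
      (one_le_mul_of_one_le_of_one_le (one_le_mul_of_one_le_of_one_le h1 h2') h3) h4
  have hNε : (N : ℝ) * ε ≤ (1 / (S : ℝ) ^ 31) / 4 := by
    have h1 : (N : ℝ) * ε = ((N : ℝ) / ((N : ℝ) + 1)) * ((1 / (S : ℝ) ^ 31) / 4) := by
      rw [hε]
      field_simp
    rw [h1]
    exact frac_le hNR0 (by positivity)
  have hNθ : (N : ℝ) * θ ≤ (1 / (S : ℝ) ^ 31) / 2 := by
    have h1 : (N : ℝ) * θ = ((N : ℝ) / ((N : ℝ) + 1)) * ((1 / (S : ℝ) ^ 31) / 2) := by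
      rw [hθ]
      field_simp
    rw [h1]
    exact frac_le hNR0 (by positivity)
  intro x hx
  have hgood := cube_good (r := r) (c := c) (t := t) (R := 4 * (S : ℝ) + 1)
    (v := Real.log (capa r c t).toReal + 1 / (S : ℝ) ^ 31)
    ht0 hn (β1 := fun j => max (β0 j) (Real.log bm)) hθ1 (by linarith)
    (by
      rw [← hNdef]
      have h1 : (1 / (S : ℝ) ^ 31) / 4 + (1 / (S : ℝ) ^ 31) / 4 + (1 / (S : ℝ) ^ 31) / 2
          = 1 / (S : ℝ) ^ 31 := by ring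
      linarith)
    (fun j => by
      have := le_max_right (β0 j) (Real.log bm)
      linarith)
    (fun j => max_le (hβle j) hlogbm0) hx
  refine ⟨hgood.1, hgood.2.trans ?_⟩
  apply pow_le_pow_left₀ (by positivity)
  have h5 : (n : ℝ) + 1 ≤ (S : ℝ) / 10 ^ 6 := by
    rw [le_div_iff₀ (by norm_num)]
    linarith
  have h6 : 4 * (S : ℝ) + 1 ≤ 5 * S := by linarith
  have h7 : ((n : ℝ) + 1) * (4 * (S : ℝ) + 1) ≤ ((S : ℝ) / 10 ^ 6) * (5 * S) :=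
    mul_le_mul h5 h6 (by positivity) (by positivity)
  have h8 : ((S : ℝ) / 10 ^ 6) * (5 * S) = (S : ℝ) ^ 2 * (5 / 10 ^ 6) := by ring
  have h9 : (1 : ℝ) ≤ (S : ℝ) ^ 2 * (1 / 2) := by nlinarith
  have h10 : (S : ℝ) ^ 2 * (5 / 10 ^ 6) ≤ (S : ℝ) ^ 2 * (1 / 2) :=
    mul_le_mul_of_nonneg_left (by norm_num) (by positivity)
  linarith

end Vale.Agent.Lib.P328.Bit
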