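import Vale.Agent.Lib.P328.Bit.EllIter

/-!
# P328, bit model: the capacity in fixed point (modules CAPG and ELLF)

`capGF`, `capGradF`: `capG`, `capGrad` on words. Spec `capGF_spec`: for `t` in `[1/S^27, 2^S S^6]`, `|β| ≤ 2 S^2`:
the argument of `flog` is in `[exp (-2 S^2) / S^27, ...]`, in the domain of `flog`; `exp β_j` has error at most `(1/2)^(S^5/2)`, and `r_i < 2^S` multiplies the error; total at most `(1/2)^(S^5/8)`.

`betaF`: the rounded ellipsoid method, `I = S ^ 2` rounds, `R0 = S ^ 2`, `η = 1 / (16 n (n + 2))`. State: centre `a`, factor `W`, best point `b`, best value `f`.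
One round, with `|a|² ≥ R0²` computed (feasibility cut) `g = a`, and else `g = capGradF a` and the best point is updated if `capGF a < f`. Compute `h = Wᵀ g`. If `h ⬝ h < (1/2)^(S^3 + S^3)`... (threshold `τ = (1/2)^(2 S^3)`): no change. Else `u = h / sqrt (h ⬝ h)`, the formulas of `Ell.cut` and `W' = (1 + η) W A`, rounded.
Numbers: entries at most `(R0 + 1) (8 (n + 1)^2) ^ S^2 ≤ 2 ^ (S^3)` (`ell_upper`), `|h| ≥ sqrt τ` so `u` has error at most `(1/2)^(S^5/8)`; `RoundStep` holds with `ζ = (1/2)^(S^5/16)`, `ζ 2^I` is tiny.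
Analysis (as `logCapHat_upper` in `Samp/CapNum`, whose private lemmas may be made public or copied, with the cut `1/S^27` instead of `1/W^26`, the upper bound `2^S S^6` instead of `(Nb + 1) W^5`, and `bm` with a larger power of `W`): let `V = log capa + 1/S^31`. Cube `x0 + [0, θ]^n`, `θ = 1/(2 S^31 (N+1))` on which `capG ≤ V`, within radius `R0`.
Suppose all recorded values are above `V + (1/2)^(S^5/8)`. Then at a round with gradient cut: `capG a > V`, so by `capG_sub` for `x` in the cube `∇ · (x - a) ≤ capG x - capG a ≤ -(recorded margin)`, hmm: take care: use margin `1/S^32`: apply with the cube value bound `V' = V - 1/S^32`; the computed gradient has error `≤ (1/2)^(S^5/8)`, `|x - a| ≤ 2 R0`: `g · (x - a) ≤ 0`.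
At a round with feasibility cut: `x · x ≤ R0² - small < a · a`... so `a · (x - a) ≤ |a| (|x| - |a|) ≤ 0` (keep a margin: the cube is in the ball of radius `R0 - 1`).
If `h` is small: `σ_k |g| ≤ |Wᵀ g|`: by `ell_sigma` (for the transpose: use `|Wᵀ g| ≥ σ |g|` from `W` invertible with `|W v| ≥ σ |v|`), `σ ≥ R0 2^(-S^2)` so `|g| ≤ 2^(-S^3 + S^2)`. A feasibility cut is impossible (`|g| = |a| ≥ R0`). A gradient cut: `capG a ≤ capG x + |∇| |x - a|` so `capG a` is near optimal, against the assumption. So `RoundStep` holds in all rounds, `ell_robust` is contradicted with `I = S^2` (`n (n+2) ≤ S`, `log (2 R0 / θ) ≤ 2 S`).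
Hence the output has `capG ≤ log capa + 1/S^30`, and the lower bound is `log_cap_le` (`capG β ≥ log capa`). If the best point was never updated, the initial value `f = +2^(S^4)`, `b = 0` hmm: initial centre `0` is inside the ball so it is recorded at round one.
`n ≥ 1` here. `|b| ≤ R0` as only points inside the ball are recorded.
-/

namespace Vale.Agent.Lib.P328.Bit

open Finset Vale.Agent.Lib.P328.Cap Vale.Agent.Lib.P328.Fpras Vale.Agent.Lib.P328.Samp

variable {m n : ℕ} {α : Type} [Enc α]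

/-- The rounded ellipsoid method. -/
def betaF (S : ℕ) (r c : List ℤ) (t : List (List ℤ)) : List ℤ := (EllW.runF S r c t).2.2.1

/-- The computed logarithm of the capacity. -/
def logCapF (S : ℕ) (r c : List ℤ) (t : List (List ℤ)) : ℤ := capGF S r c t (betaF S r c t)

theorem betaF_rep {fr fc : ℕ → α → List ℤ} {ft : ℕ → α → List (List ℤ)}
    (hr : DRep fr) (hc : DRep fc) (ht : DRep ft) :
    DRep fun S x => betaF S (fr S x) (fc S x) (ft S x) :=
  ((EllW.runF_rep hr hc ht).comp DRep.snd).comp DRep.snd |>.comp DRep.fst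

theorem logCapF_rep {fr fc : ℕ → α → List ℤ} {ft : ℕ → α → List (List ℤ)}
    (hr : DRep fr) (hc : DRep fc) (ht : DRep ft) :
    DRep fun S x => logCapF S (fr S x) (fc S x) (ft S x) :=
  capGF_rep hr hc ht (betaF_rep hr hc ht)

variable {S : ℕ} {r : Fin m → ℕ} {c : Fin n → ℕ} {t : Fin n → Fin m → ℤ}

/-- **The rounded ellipsoid method finds the capacity.** -/
theorem betaF_spec (h : 10 ^ 6 * ((n : ℝ) * m + 1) ^ 2 ≤ S) (hm : 0 < m) (hn : 0 < n)
    (hsum : ∑ i, r i = ∑ j, c j) (hN : ∑ i, r i < 2 ^ S) (ht : TabRange S (rM S t)) :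
    ∃ β : Fin n → ℤ, betaF S (lN r) (lN c) (lM t) = lF β ∧ (∀ j, |val S (β j)| ≤ (S : ℝ) ^ 2)
      ∧ Real.log (capa r c (rM S t)).toReal ≤ capG r c (rM S t) (fun j => val S (β j))
      ∧ capG r c (rM S t) (fun j => val S (β j))
          ≤ Real.log (capa r c (rM S t)).toReal + 1 / (S : ℝ) ^ 30 := by
  have C := EllW.Ctx.of h hm hn hsum hN ht
  obtain ⟨h1, h2, h3, h4⟩ := EllW.run_spec C
  exact ⟨_, h1, h2, h3, h4⟩

/-- The computed logarithm of the capacity. -/
theorem logCapF_spec (h : 10 ^ 6 * ((n : ℝ) * m + 1) ^ 2 ≤ S) (hm : 0 < m) (hn : 0 < n)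
    (hsum : ∑ i, r i = ∑ j, c j) (hN : ∑ i, r i < 2 ^ S) (ht : TabRange S (rM S t)) :
    |val S (logCapF S (lN r) (lN c) (lM t)) - Real.log (capa r c (rM S t)).toReal|
      ≤ 2 / (S : ℝ) ^ 30 := by
  have C := EllW.Ctx.of h hm hn hsum hN ht
  obtain ⟨β, h1, h2, h3, h4⟩ := betaF_spec h hm hn hsum hN ht
  have hS := C.hS
  have hb2 : ∀ j, |val S (β j)| ≤ 2 * (S : ℝ) ^ 2 := by
    intro j
    have h5 := h2 j
    have h6 : (0 : ℝ) ≤ (S : ℝ) ^ 2 := by positivity
    linarith
  have hgb := capGF_spec (r := r) (c := c) hS C.hN C.hsum C.hn C.hD C.ht hb2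
  unfold logCapF
  rw [h1]
  have hSR : (10 : ℝ) ^ 6 ≤ S := by
    have h9 := C.S_big
    have h10 : (10 : ℝ) ^ 6 = 1000000 := by norm_num
    rw [h10]
    exact h9
  have hty := EllW.tiny_bound hSR
  obtain ⟨h25, -⟩ := EllW.two_S_le hS
  have he : (1 / 2 : ℝ) ^ (S ^ 5 / 8) ≤ (1 / 2) ^ (2 * S) :=
    pow_le_pow_of_le_one (by norm_num) (by norm_num) h25
  have hS1 : (1 : ℝ) ≤ S := by linarith [C.S_big]
  have h5 : (1 / 2 : ℝ) ^ (S ^ 5 / 8) ≤ 1 / (S : ℝ) ^ 30 := by
    rw [le_div_iff₀ (by positivity)]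
    calc (1 / 2 : ℝ) ^ (S ^ 5 / 8) * (S : ℝ) ^ 30 ≤ (1 / 2) ^ (2 * S) * (S : ℝ) ^ 62 :=
          mul_le_mul he (pow_le_pow_right₀ hS1 (by norm_num)) (by positivity) (by positivity)
      _ = (S : ℝ) ^ 62 * (1 / 2) ^ (2 * S) := by ring
      _ ≤ 1 := hty
  have h6 : 2 / (S : ℝ) ^ 30 = 1 / (S : ℝ) ^ 30 + 1 / (S : ℝ) ^ 30 := by ring
  have h7 := abs_le.mp hgb
  have h8 : (0 : ℝ) < 1 / (S : ℝ) ^ 30 := by positivity
  rw [abs_le]
  constructor <;> linarith [h7.1, h7.2]

end Vale.Agent.Lib.P328.Bit
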