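import Vale.Agent.Lib.P328.Bit.Code

/-!
# P328, bit model: the capacity function and its gradient in fixed point (module CAPG)

`capGF`, `capGradF`: `capG`, `capGrad` on words. Spec: for `t` in `[1/S^27, 2^S S^6]`, `|β| ≤ 2 S^2`:
the argument of `flog` is in the domain of `flog`; `exp β_j` has error at most `(1/2)^(S^5/2)`,
the natural numbers `r_i < 2^S` multiply the error; total at most `(1/2)^(S^5/8)`.
-/

namespace Vale.Agent.Lib.P328.Bit

open Finset Vale.Agent.Lib.P328.Cap Vale.Agent.Lib.P328.Fpras Vale.Agent.Lib.P328.Samp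

variable {m n : ℕ} {α : Type} [Enc α]

/-! ### List access -/

/-- The list of the indices of a list (at most `S`). -/
def idxS (S : ℕ) {γ : Type} (l : List γ) : List ℤ :=
  (List.range (min (((l.take S).length : ℤ)).toNat S)).map fun k => (k : ℤ)

/-- The entry of a list of words. -/
def nthZ (S : ℕ) (l : List ℤ) (k : ℤ) : ℤ := (l.take S).getD k.toNat 0

/-- The entry of a list of lists of words. -/
def nthL (S : ℕ) (t : List (List ℤ)) (k : ℤ) : List ℤ := (t.take S).getD k.toNat []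

/-- The sum of words over a list of indices. -/
def sumS (S : ℕ) (idx : List ℤ) (g : ℤ → ℤ) : ℤ := (idx.take S).foldl (fun s a => cadd S s (g a)) 0

theorem idxS_rep {γ : Type} [Enc γ] {l : ℕ → α → List γ} (hl : DRep l) :
    DRep fun S x => idxS S (l S x) :=
  DRep.rangeS (DRep.lengthS hl)

theorem nthZ_rep {l : ℕ → α → List ℤ} {k : ℕ → α → ℤ} (hl : DRep l) (hk : DRep k) :
    DRep fun S x => nthZ S (l S x) (k S x) :=
  DRep.nthD hl hk DRep.zero

theorem nthL_rep {l : ℕ → α → List (List ℤ)} {k : ℕ → α → ℤ} (hl : DRep l) (hk : DRep k) :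
    DRep fun S x => nthL S (l S x) (k S x) :=
  DRep.nthD hl hk DRep.nil'

theorem sumS_rep {l : ℕ → α → List ℤ} {g : ℕ → α × ℤ → ℤ} (hl : DRep l) (hg : DRep g) :
    DRep fun S x => sumS S (l S x) (fun a => g S (x, a)) := by
  have hf : DRep (α := α × (ℤ × ℤ)) (β := ℤ) fun S y => cadd S y.2.1 (g S (y.1, y.2.2)) :=
    (DRep.snd.comp DRep.fst).add ((DRep.fst.pair (DRep.snd.comp DRep.snd)).comp hg)
  exact DRep.foldS hl DRep.zero hf

/-! ### The functions on words -/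

/-- The sum `∑ j, t j i * exp (β j)` on words. -/
def rowSumF (S : ℕ) (c : List ℤ) (t : List (List ℤ)) (β : List ℤ) (i : ℤ) : ℤ :=
  sumS S (idxS S c) fun j => fmul S (nthZ S (nthL S t j) i) (fexp S (nthZ S β j))

/-- `capG` on words: rows `r`, columns `c`, matrix `t`, point `β`. -/
def capGF (S : ℕ) (r c : List ℤ) (t : List (List ℤ)) (β : List ℤ) : ℤ :=
  csub S (sumS S (idxS S r) fun i => cmul S (nthZ S r i) (flog S (rowSumF S c t β i)))
    (sumS S (idxS S c) fun j => cmul S (nthZ S c j) (nthZ S β j))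

/-- One entry of `capGrad` on words. -/
def capGradEntryF (S : ℕ) (r c : List ℤ) (t : List (List ℤ)) (β : List ℤ) (j : ℤ) : ℤ :=
  csub S (sumS S (idxS S r) fun i => cmul S (nthZ S r i)
      (fdiv S (fmul S (nthZ S (nthL S t j) i) (fexp S (nthZ S β j))) (rowSumF S c t β i)))
    (fint S (nthZ S c j))

/-- `capGrad` on words. -/
def capGradF (S : ℕ) (r c : List ℤ) (t : List (List ℤ)) (β : List ℤ) : List ℤ :=
  ((idxS S c).take S).map fun j => capGradEntryF S r c t β j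

theorem rowSumF_rep {fc : ℕ → α → List ℤ} {ft : ℕ → α → List (List ℤ)} {fb : ℕ → α → List ℤ}
    {fi : ℕ → α → ℤ} (hc : DRep fc) (ht : DRep ft) (hb : DRep fb) (hi : DRep fi) :
    DRep fun S x => rowSumF S (fc S x) (ft S x) (fb S x) (fi S x) := by
  have h1 : DRep (α := α × ℤ) (β := α) fun _ y => y.1 := DRep.fst
  have h2 : DRep (α := α × ℤ) (β := ℤ) fun _ y => y.2 := DRep.snd
  have hg : DRep (α := α × ℤ) (β := ℤ) fun S y =>
      fmul S (nthZ S (nthL S (ft S y.1) y.2) (fi S y.1)) (fexp S (nthZ S (fb S y.1) y.2)) :=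
    fmul_rep (nthZ_rep (nthL_rep (h1.comp ht) h2) (h1.comp hi))
      (fexp_rep (nthZ_rep (h1.comp hb) h2))
  have h := sumS_rep (idxS_rep hc) hg
  simpa only [rowSumF] using h

theorem capGF_rep {fr fc : ℕ → α → List ℤ} {ft : ℕ → α → List (List ℤ)} {fb : ℕ → α → List ℤ}
    (hr : DRep fr) (hc : DRep fc) (ht : DRep ft) (hb : DRep fb) :
    DRep fun S x => capGF S (fr S x) (fc S x) (ft S x) (fb S x) := by
  have h1 : DRep (α := α × ℤ) (β := α) fun _ y => y.1 := DRep.fst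
  have h2 : DRep (α := α × ℤ) (β := ℤ) fun _ y => y.2 := DRep.snd
  have hg1 : DRep (α := α × ℤ) (β := ℤ) fun S y =>
      cmul S (nthZ S (fr S y.1) y.2) (flog S (rowSumF S (fc S y.1) (ft S y.1) (fb S y.1) y.2)) :=
    (nthZ_rep (h1.comp hr) h2).mul
      (flog_rep (rowSumF_rep (h1.comp hc) (h1.comp ht) (h1.comp hb) h2))
  have hg2 : DRep (α := α × ℤ) (β := ℤ) fun S y =>
      cmul S (nthZ S (fc S y.1) y.2) (nthZ S (fb S y.1) y.2) :=
    (nthZ_rep (h1.comp hc) h2).mul (nthZ_rep (h1.comp hb) h2)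
  have h := (sumS_rep (idxS_rep hr) hg1).sub (sumS_rep (idxS_rep hc) hg2)
  simpa only [capGF] using h

theorem capGradEntryF_rep {fr fc : ℕ → α → List ℤ} {ft : ℕ → α → List (List ℤ)}
    {fb : ℕ → α → List ℤ} {fj : ℕ → α → ℤ}
    (hr : DRep fr) (hc : DRep fc) (ht : DRep ft) (hb : DRep fb) (hj : DRep fj) :
    DRep fun S x => capGradEntryF S (fr S x) (fc S x) (ft S x) (fb S x) (fj S x) := by
  have h1 : DRep (α := α × ℤ) (β := α) fun _ y => y.1 := DRep.fst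
  have h2 : DRep (α := α × ℤ) (β := ℤ) fun _ y => y.2 := DRep.snd
  have hg : DRep (α := α × ℤ) (β := ℤ) fun S y =>
      cmul S (nthZ S (fr S y.1) y.2)
        (fdiv S (fmul S (nthZ S (nthL S (ft S y.1) (fj S y.1)) y.2) (fexp S (nthZ S (fb S y.1) (fj S y.1))))
          (rowSumF S (fc S y.1) (ft S y.1) (fb S y.1) y.2)) :=
    (nthZ_rep (h1.comp hr) h2).mul
      (fdiv_rep (fmul_rep (nthZ_rep (nthL_rep (h1.comp ht) (h1.comp hj)) h2)
          (fexp_rep (nthZ_rep (h1.comp hb) (h1.comp hj))))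
        (rowSumF_rep (h1.comp hc) (h1.comp ht) (h1.comp hb) h2))
  have h := (sumS_rep (idxS_rep hr) hg).sub (fint_rep (nthZ_rep hc hj))
  simpa only [capGradEntryF] using h

theorem capGradF_rep {fr fc : ℕ → α → List ℤ} {ft : ℕ → α → List (List ℤ)} {fb : ℕ → α → List ℤ}
    (hr : DRep fr) (hc : DRep fc) (ht : DRep ft) (hb : DRep fb) :
    DRep fun S x => capGradF S (fr S x) (fc S x) (ft S x) (fb S x) := by
  have h1 : DRep (α := α × ℤ) (β := α) fun _ y => y.1 := DRep.fst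
  have h2 : DRep (α := α × ℤ) (β := ℤ) fun _ y => y.2 := DRep.snd
  have hg : DRep (α := α × ℤ) (β := ℤ) fun S y =>
      capGradEntryF S (fr S y.1) (fc S y.1) (ft S y.1) (fb S y.1) y.2 :=
    capGradEntryF_rep (h1.comp hr) (h1.comp hc) (h1.comp ht) (h1.comp hb) h2
  have h := DRep.mapS (idxS_rep hc) hg
  simpa only [capGradF] using h

/-- The range of the matrices; the same for a node and for its children. -/
def TabRange (S : ℕ) (t : Fin n → Fin m → ℝ) : Prop :=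
  ∀ j i, 1 / (S : ℝ) ^ 27 ≤ t j i ∧ t j i ≤ 2 ^ S * (S : ℝ) ^ 6

/-! ### Numerics -/

namespace CapGAux

/-- The unit of the magnitudes. -/
noncomputable def T (S : ℕ) : ℝ := 2 ^ (S ^ 2)

/-- The unit of the errors. -/
noncomputable def dd (S : ℕ) : ℝ := (1 / 2) ^ (S ^ 5 / 8)

variable {S : ℕ}

theorem S_sq_ge (hS : 1000000 ≤ S) (a : ℕ) (ha : a ≤ 1000) : a * S ≤ S ^ 2 := by
  have : a * S ≤ S * S := Nat.mul_le_mul_right _ (by omega)
  nlinarith

theorem T_ge_two (hS : 1000000 ≤ S) : 2 ≤ T S := by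
  unfold T
  have h : 1 ≤ S ^ 2 := Nat.one_le_pow _ _ (by omega)
  calc (2 : ℝ) = 2 ^ 1 := by norm_num
    _ ≤ 2 ^ (S ^ 2) := pow_le_pow_right₀ (by norm_num) h

theorem T_pos (hS : 1000000 ≤ S) : 0 < T S := by linarith [T_ge_two hS]

theorem T_ge_one (hS : 1000000 ≤ S) : 1 ≤ T S := by linarith [T_ge_two hS]

theorem cast_le_two_pow (S : ℕ) : (S : ℝ) ≤ 2 ^ S := by
  have h : S < 2 ^ S := Nat.lt_two_pow_self
  have h2 : (S : ℝ) < ((2 ^ S : ℕ) : ℝ) := by exact_mod_cast h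
  simpa using h2.le

theorem two_pow_le_T (hS : 1000000 ≤ S) {a : ℕ} (ha : a ≤ 1000) : (2 : ℝ) ^ (a * S) ≤ T S :=
  pow_le_pow_right₀ (by norm_num) (S_sq_ge hS a ha)

theorem S_le_T (hS : 1000000 ≤ S) : (S : ℝ) ≤ T S := by
  have h := two_pow_le_T hS (a := 1) (by norm_num)
  rw [one_mul] at h
  exact (cast_le_two_pow S).trans h

theorem two_S_le_T (hS : 1000000 ≤ S) : (2 : ℝ) ^ S ≤ T S := by
  have h := two_pow_le_T hS (a := 1) (by norm_num)
  rwa [one_mul] at h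

theorem tab_upper (hS : 1000000 ≤ S) : (2 : ℝ) ^ S * (S : ℝ) ^ 6 ≤ T S := by
  have h1 : (S : ℝ) ^ 6 ≤ (2 ^ S) ^ 6 := pow_le_pow_left₀ (by positivity) (cast_le_two_pow S) 6
  have h2 : (2 : ℝ) ^ S * (2 ^ S) ^ 6 = 2 ^ (7 * S) := by ring
  calc (2 : ℝ) ^ S * (S : ℝ) ^ 6 ≤ 2 ^ S * (2 ^ S) ^ 6 := by gcongr
    _ = 2 ^ (7 * S) := h2
    _ ≤ T S := two_pow_le_T hS (by norm_num)

theorem tab_lower (hS : 1000000 ≤ S) : (S : ℝ) ^ 27 ≤ T S := by
  have h1 : (S : ℝ) ^ 27 ≤ (2 ^ S) ^ 27 := pow_le_pow_left₀ (by positivity) (cast_le_two_pow S) 27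
  have h2 : ((2 : ℝ) ^ S) ^ 27 = 2 ^ (27 * S) := by ring
  calc (S : ℝ) ^ 27 ≤ (2 ^ S) ^ 27 := h1
    _ = 2 ^ (27 * S) := h2
    _ ≤ T S := two_pow_le_T hS (by norm_num)

theorem exp_le_T (S : ℕ) : Real.exp (2 * (S : ℝ) ^ 2) ≤ T S ^ 4 := by
  have h1 : Real.exp 1 ≤ 4 := by
    have := Real.exp_one_lt_d9
    linarith
  have h2 : (2 * (S : ℝ) ^ 2) = ((2 * S ^ 2 : ℕ) : ℝ) * 1 := by push_cast; ring
  rw [h2, Real.exp_nat_mul]
  have h3 : T S ^ 4 = (4 : ℝ) ^ (2 * S ^ 2) := by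
    unfold T
    have : (4 : ℝ) = 2 ^ 2 := by norm_num
    rw [this, ← pow_mul, ← pow_mul]
    congr 1
    ring
  rw [h3]
  exact pow_le_pow_left₀ (Real.exp_pos 1).le h1 _

theorem q_ge (hS : 1000000 ≤ S) : 100 * S ^ 2 ≤ S ^ 5 / 8 := by
  rw [Nat.le_div_iff_mul_le (by norm_num)]
  have h : 800 ≤ S ^ 3 := by
    have : S ≤ S ^ 3 := Nat.le_self_pow (by norm_num) S
    omega
  calc 100 * S ^ 2 * 8 = 800 * S ^ 2 := by ring
    _ ≤ S ^ 3 * S ^ 2 := Nat.mul_le_mul_right _ h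
    _ = S ^ 5 := by ring

theorem dd_pos (S : ℕ) : 0 < dd S := by unfold dd; positivity

theorem dd_le_one (S : ℕ) : dd S ≤ 1 := by
  unfold dd
  exact pow_le_one₀ (by norm_num) (by norm_num)

theorem T_mul_dd (hS : 1000000 ≤ S) {a : ℕ} (ha : a ≤ 100) : T S ^ a * dd S ≤ 1 := by
  unfold T dd
  have h1 : a * S ^ 2 ≤ S ^ 5 / 8 :=
    (Nat.mul_le_mul_right _ ha).trans (q_ge hS)
  have h2 : ((1 : ℝ) / 2) ^ (S ^ 5 / 8) ≤ (1 / 2) ^ (a * S ^ 2) :=
    pow_le_pow_of_le_one (by norm_num) (by norm_num) h1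
  have h3 : ((2 : ℝ) ^ (S ^ 2)) ^ a * (1 / 2) ^ (a * S ^ 2) = 1 := by
    rw [← pow_mul, mul_comm (S ^ 2) a, ← mul_pow]
    norm_num
  calc ((2 : ℝ) ^ (S ^ 2)) ^ a * (1 / 2) ^ (S ^ 5 / 8)
      ≤ ((2 : ℝ) ^ (S ^ 2)) ^ a * (1 / 2) ^ (a * S ^ 2) := by gcongr
    _ = 1 := h3

theorem T_pow_le_Big (hS : 1000000 ≤ S) {a : ℕ} (ha : a ≤ 100) : T S ^ a ≤ Big S := by
  unfold T Big
  rw [← pow_mul]
  refine pow_le_pow_right₀ (by norm_num) ?_
  have h : 100 ≤ S ^ 2 := by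
    have : S ≤ S ^ 2 := Nat.le_self_pow (by norm_num) S
    omega
  calc S ^ 2 * a ≤ S ^ 2 * 100 := Nat.mul_le_mul_left _ ha
    _ ≤ S ^ 2 * S ^ 2 := Nat.mul_le_mul_left _ h
    _ = S ^ 4 := by ring

theorem T_mono (hS : 1000000 ≤ S) {a b : ℕ} (h : a ≤ b) : T S ^ a ≤ T S ^ b :=
  pow_le_pow_right₀ (T_ge_one hS) h

theorem eps1_le (S : ℕ) : ((1 : ℝ) / 2) ^ (S ^ 5 / 2) ≤ dd S ^ 4 := by
  unfold dd
  rw [← pow_mul]
  exact pow_le_pow_of_le_one (by norm_num) (by norm_num) (by omega)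

theorem eps3_le (S : ℕ) : ((1 : ℝ) / 2) ^ (S ^ 5 / 4) ≤ dd S ^ 2 := by
  unfold dd
  rw [← pow_mul]
  exact pow_le_pow_of_le_one (by norm_num) (by norm_num) (by omega)

theorem ulp_le (S : ℕ) : ulp S ≤ dd S ^ 8 := by
  unfold dd ulp prec
  have h : (1 : ℝ) / 2 ^ (S ^ 5) = (1 / 2) ^ (S ^ 5) := by
    rw [one_div, one_div, inv_pow]
  rw [h, ← pow_mul]
  exact pow_le_pow_of_le_one (by norm_num) (by norm_num) (by omega)

theorem dd_pow_mono {a b : ℕ} (h : a ≤ b) : dd S ^ b ≤ dd S ^ a :=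
  pow_le_pow_of_le_one (dd_pos S).le (dd_le_one S) h

/-- The domain of `flog`, lower end. -/
theorem dom_low (hS : 1000000 ≤ S) {x : ℝ} (h : 1 ≤ x * T S ^ 6) : (1 / 2 : ℝ) ^ (S ^ 3) ≤ x := by
  have h1 : T S ^ 6 ≤ (2 : ℝ) ^ (S ^ 3) := by
    unfold T
    rw [← pow_mul]
    refine pow_le_pow_right₀ (by norm_num) ?_
    have h6 : 6 ≤ S := by omega
    calc S ^ 2 * 6 ≤ S ^ 2 * S := Nat.mul_le_mul_left _ h6
      _ = S ^ 3 := by ring
  have h2 : (0 : ℝ) < 2 ^ (S ^ 3) := by positivity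
  have h3 : 0 < T S ^ 6 := pow_pos (T_pos hS) _
  have h4 : 0 < x := by
    by_contra hx
    have : x * T S ^ 6 ≤ 0 := mul_nonpos_of_nonpos_of_nonneg (not_lt.1 hx) h3.le
    linarith
  have h5 : 1 ≤ x * 2 ^ (S ^ 3) := h.trans (by gcongr)
  have h6 : ((1 : ℝ) / 2) ^ (S ^ 3) * 2 ^ (S ^ 3) = 1 := by
    rw [← mul_pow]; norm_num
  have h7 : ((1 : ℝ) / 2) ^ (S ^ 3) * 2 ^ (S ^ 3) ≤ x * 2 ^ (S ^ 3) := by rw [h6]; exact h5
  exact le_of_mul_le_mul_right h7 h2

/-- The domain of `flog`, upper end. -/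
theorem dom_high {x : ℝ} (hS : 1000000 ≤ S) (h : x ≤ T S ^ 7) : x ≤ 2 ^ (S ^ 3) := by
  refine h.trans ?_
  unfold T
  rw [← pow_mul]
  refine pow_le_pow_right₀ (by norm_num) ?_
  have h6 : 7 ≤ S := by omega
  calc S ^ 2 * 7 ≤ S ^ 2 * S := Nat.mul_le_mul_left _ h6
    _ = S ^ 3 := by ring

theorem log_sub_le {x y ρ d : ℝ} (hx : 0 < x) (hy : 0 < y) (hρ : 0 < ρ) (hyρ : 1 ≤ y * ρ)
    (hd : x - y ≤ d) (hd0 : 0 ≤ d) : Real.log x - Real.log y ≤ d * ρ := by
  have h1 : Real.log x - Real.log y = Real.log (x / y) := (Real.log_div hx.ne' hy.ne').symm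
  have h2 : Real.log (x / y) ≤ x / y - 1 := Real.log_le_sub_one_of_pos (div_pos hx hy)
  have h3 : x / y - 1 = (x - y) * y⁻¹ := by field_simp
  have h4 : y⁻¹ ≤ ρ := by
    rw [inv_le_iff_one_le_mul₀ hy, mul_comm]
    exact hyρ
  rw [h1]
  refine h2.trans ?_
  rw [h3]
  have h5 : 0 < y⁻¹ := inv_pos.2 hy
  calc (x - y) * y⁻¹ ≤ d * y⁻¹ := by gcongr
    _ ≤ d * ρ := by gcongr

theorem log_close {x y ρ d : ℝ} (hx : 0 < x) (hy : 0 < y) (hρ : 0 < ρ) (hxρ : 1 ≤ x * ρ)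
    (hyρ : 1 ≤ y * ρ) (hd : |x - y| ≤ d) : |Real.log x - Real.log y| ≤ d * ρ := by
  have hd0 : 0 ≤ d := (abs_nonneg _).trans hd
  have h1 := abs_le.1 hd
  rw [abs_le]
  constructor
  · have := log_sub_le hy hx hρ hxρ (d := d) (by linarith) hd0
    linarith
  · exact log_sub_le hx hy hρ hyρ (by linarith) hd0

theorem abs_log_le {x : ℝ} (hx : 0 < x) : |Real.log x| ≤ x + x⁻¹ := by
  have h1 : Real.log x ≤ x - 1 := Real.log_le_sub_one_of_pos hx
  have h2 : Real.log x⁻¹ ≤ x⁻¹ - 1 := Real.log_le_sub_one_of_pos (inv_pos.2 hx)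
  rw [Real.log_inv] at h2
  have h3 : 0 < x⁻¹ := inv_pos.2 hx
  rw [abs_le]
  constructor <;> linarith

end CapGAux

/-! ### Reading the lists -/

namespace CapGAux

variable {S : ℕ}

/-- The sum over the first `k` naturals. -/
def sumR (S k : ℕ) (g : ℤ → ℤ) : ℤ :=
  ((List.range k).map fun a => (a : ℤ)).foldl (fun s a => cadd S s (g a)) 0

theorem sumR_zero (S : ℕ) (g : ℤ → ℤ) : sumR S 0 g = 0 := rfl

theorem sumR_succ (S k : ℕ) (g : ℤ → ℤ) : sumR S (k + 1) g = cadd S (sumR S k g) (g (k : ℕ)) := by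
  simp [sumR, List.range_succ, List.foldl_append]

theorem idxS_eq {γ : Type} {l : List γ} (h : l.length ≤ S) :
    idxS S l = (List.range l.length).map fun a => (a : ℤ) := by
  simp [idxS, List.take_of_length_le h, min_eq_left h]

theorem sumS_idx {γ : Type} {l : List γ} (h : l.length ≤ S) (g : ℤ → ℤ) :
    sumS S (idxS S l) g = sumR S l.length g := by
  unfold sumS sumR
  rw [idxS_eq h, List.take_of_length_le (by simpa using h)]

theorem nthZ_lF {k : ℕ} (hk : k ≤ S) (f : Fin k → ℤ) (i : Fin k) : nthZ S (lF f) ((i : ℕ) : ℤ) = f i := by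
  unfold nthZ lF
  rw [List.take_of_length_le (by simpa using hk), Int.toNat_natCast, List.getD_eq_getElem _ _ (by simp)]
  simp

theorem nthL_lM {k l : ℕ} (hk : k ≤ S) (t : Fin k → Fin l → ℤ) (j : Fin k) :
    nthL S (lM t) ((j : ℕ) : ℤ) = lF (t j) := by
  unfold nthL lM
  rw [List.take_of_length_le (by simpa using hk), Int.toNat_natCast, List.getD_eq_getElem _ _ (by simp)]
  simp [lF]

theorem val_zero (S : ℕ) : val S 0 = 0 := by simp [val]

theorem sumR_close (hS : 1000000 ≤ S) {k : ℕ} (g : ℤ → ℤ) (u : Fin k → ℝ) {η B : ℝ} (hη : 0 ≤ η)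
    (hB : 0 ≤ B) (h1 : ∀ i : Fin k, |val S (g ((i : ℕ) : ℤ)) - u i| ≤ η) (h2 : ∀ i, |u i| ≤ B)
    (h3 : (k : ℝ) * (B + η) ≤ Big S) :
    |val S (sumR S k g) - ∑ i, u i| ≤ k * η ∧ |val S (sumR S k g)| ≤ k * (B + η) := by
  induction k with
  | zero =>
    simp [sumR_zero, val_zero]
  | succ k ih =>
    have hk0 : (0 : ℝ) ≤ k := Nat.cast_nonneg k
    have hbe : 0 ≤ B + η := by linarith
    have h3' : ((k : ℝ) + 1) * (B + η) ≤ Big S := by simpa using h3
    obtain ⟨i1, i2⟩ := ih (fun i => u i.castSucc) (fun i => by simpa using h1 i.castSucc)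
      (fun i => h2 i.castSucc) (by nlinarith)
    have hlast : |val S (g ((k : ℕ) : ℤ)) - u (Fin.last k)| ≤ η := by simpa using h1 (Fin.last k)
    have hu := h2 (Fin.last k)
    have hg : |val S (g ((k : ℕ) : ℤ))| ≤ B + η := by
      have := abs_sub_abs_le_abs_sub (val S (g ((k : ℕ) : ℤ))) (u (Fin.last k))
      linarith
    have e := val_add hS (x := sumR S k g) (y := g ((k : ℕ) : ℤ)) (by nlinarith) (by nlinarith)
    rw [sumR_succ, e, Fin.sum_univ_castSucc]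
    push_cast
    constructor
    · have e2 : val S (sumR S k g) + val S (g ((k : ℕ) : ℤ)) - (∑ i : Fin k, u i.castSucc + u (Fin.last k))
          = (val S (sumR S k g) - ∑ i : Fin k, u i.castSucc) + (val S (g ((k : ℕ) : ℤ)) - u (Fin.last k)) := by
        ring
      rw [e2]
      refine (abs_add_le _ _).trans ?_
      nlinarith
    · refine (abs_add_le _ _).trans ?_
      nlinarith

theorem clamp_of_val (hS : 1000000 ≤ S) {x : ℤ} (hx : |val S x| ≤ Big S) :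
    |x| ≤ 2 ^ (S ^ 4 + S ^ 5) := by
  have h0 : (0 : ℝ) < 2 ^ prec S := by positivity
  have h1 : |(x : ℝ)| = |val S x| * 2 ^ prec S := by
    unfold val
    rw [abs_div, abs_of_pos h0]
    field_simp
  have h2 : |(x : ℝ)| ≤ 2 ^ (S ^ 4 + S ^ 5) := by
    rw [h1, pow_add]
    unfold prec
    exact mul_le_mul_of_nonneg_right hx (by positivity)
  exact_mod_cast h2

/-- Multiplication of a word by a small integer is exact. -/
theorem val_cmul_int (hS : 1000000 ≤ S) {a x : ℤ} (ha : |(a : ℝ)| ≤ T S) (hx : |val S x| ≤ Big S) :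
    val S (cmul S a x) = a * val S x := by
  have hpow : S ^ 2 + S ^ 4 + S ^ 5 ≤ S ^ 6 := by
    have h1 : S ^ 2 ≤ S ^ 5 := Nat.pow_le_pow_right (by omega) (by norm_num)
    have h2 : S ^ 4 ≤ S ^ 5 := Nat.pow_le_pow_right (by omega) (by norm_num)
    have h3 : 3 * S ^ 5 ≤ S * S ^ 5 := Nat.mul_le_mul_right _ (by omega)
    have h4 : S * S ^ 5 = S ^ 6 := by ring
    omega
  have ha' : |a| ≤ 2 ^ (S ^ 2) := by
    have : |(a : ℝ)| ≤ 2 ^ (S ^ 2) := ha
    exact_mod_cast this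
  have hx' := clamp_of_val hS hx
  have hle : ∀ {e : ℕ}, e ≤ S ^ 6 → (2 : ℤ) ^ e ≤ 2 ^ wid S := fun h =>
    pow_le_pow_right₀ (by norm_num) (by unfold wid; exact h)
  have ca : clamp S a = a := clamp_eq hS (ha'.trans (hle (by omega)))
  have cx : clamp S x = x := clamp_eq hS (hx'.trans (hle (by omega)))
  have hax : |a * x| ≤ 2 ^ wid S := by
    rw [abs_mul]
    calc |a| * |x| ≤ 2 ^ (S ^ 2) * 2 ^ (S ^ 4 + S ^ 5) :=
          mul_le_mul ha' hx' (abs_nonneg _) (by positivity)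
      _ = 2 ^ (S ^ 2 + (S ^ 4 + S ^ 5)) := (pow_add _ _ _).symm
      _ ≤ 2 ^ wid S := hle (by omega)
  unfold cmul
  rw [ca, cx, clamp_eq hS hax]
  unfold val
  push_cast
  ring

end CapGAux

variable {S : ℕ} {r : Fin m → ℕ} {c : Fin n → ℕ} {t : Fin n → Fin m → ℤ}

namespace CapGAux

theorem T_dd_step (hS : 1000000 ≤ S) {a : ℕ} (ha : a ≤ 100) (b : ℕ) :
    T S ^ a * dd S ^ (b + 1) ≤ dd S ^ b := by
  have h := T_mul_dd hS ha
  have h0 : 0 ≤ dd S ^ b := pow_nonneg (dd_pos S).le _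
  calc T S ^ a * dd S ^ (b + 1) = (T S ^ a * dd S) * dd S ^ b := by ring
    _ ≤ 1 * dd S ^ b := mul_le_mul_of_nonneg_right h h0
    _ = dd S ^ b := one_mul _

theorem two_sq_le_T (hS : 1000000 ≤ S) : 2 * (S : ℝ) ^ 2 ≤ T S := by
  have h1 : (S : ℝ) ^ 2 ≤ (2 ^ S) ^ 2 := pow_le_pow_left₀ (by positivity) (cast_le_two_pow S) 2
  have hS1 : 1 ≤ S := by omega
  have h2 : (2 : ℝ) * (2 ^ S) ^ 2 = 2 ^ (2 * S + 1) := by ring
  have h3 : (2 : ℝ) ^ (2 * S + 1) ≤ 2 ^ (3 * S) := pow_le_pow_right₀ (by norm_num) (by omega)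
  calc 2 * (S : ℝ) ^ 2 ≤ 2 * (2 ^ S) ^ 2 := by gcongr
    _ = 2 ^ (2 * S + 1) := h2
    _ ≤ 2 ^ (3 * S) := h3
    _ ≤ T S := two_pow_le_T hS (by norm_num)

theorem div_close {w u a A e1 e2 ρ ρ' U : ℝ} (ha : 0 < a) (hA : 0 < A) (hρ : 1 ≤ a * ρ) (hρ' : 1 ≤ A * ρ')
    (h1 : |w - u| ≤ e1) (h2 : |a - A| ≤ e2) (hU : |u| ≤ U) : |w / a - u / A| ≤ e1 * ρ + U * e2 * ρ * ρ' := by
  have hai : a⁻¹ ≤ ρ := by
    rw [inv_le_iff_one_le_mul₀ ha, mul_comm]
    exact hρ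
  have hAi : A⁻¹ ≤ ρ' := by
    rw [inv_le_iff_one_le_mul₀ hA, mul_comm]
    exact hρ'
  have ha0 : 0 < a⁻¹ := inv_pos.2 ha
  have hA0 : 0 < A⁻¹ := inv_pos.2 hA
  have e : w / a - u / A = (w - u) * a⁻¹ + u * (A - a) * (a⁻¹ * A⁻¹) := by
    field_simp
    ring
  rw [e]
  refine (abs_add_le _ _).trans ?_
  rw [abs_mul, abs_mul, abs_mul, abs_mul, abs_of_pos ha0, abs_of_pos hA0, abs_sub_comm A a]
  have he1 : 0 ≤ e1 := (abs_nonneg _).trans h1
  have he2 : 0 ≤ e2 := (abs_nonneg _).trans h2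
  have hU0 : 0 ≤ U := (abs_nonneg _).trans hU
  have hρ0 : 0 ≤ ρ := ha0.le.trans hai
  have hρ0' : 0 ≤ ρ' := hA0.le.trans hAi
  have t1 : |w - u| * a⁻¹ ≤ e1 * ρ := mul_le_mul h1 hai ha0.le he1
  have t2 : |u| * |a - A| * (a⁻¹ * A⁻¹) ≤ U * e2 * (ρ * ρ') :=
    mul_le_mul (mul_le_mul hU h2 (abs_nonneg _) hU0) (mul_le_mul hai hAi hA0.le hρ0)
      (by positivity) (by positivity)
  have e3 : U * e2 * ρ * ρ' = U * e2 * (ρ * ρ') := by ring
  rw [e3]
  linarith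

variable {r : Fin m → ℕ} {c : Fin n → ℕ} {t : Fin n → Fin m → ℤ} {β : Fin n → ℤ}

/-- Facts about one entry. -/
theorem entry_facts (hS : 1000000 ≤ S) (ht : TabRange S (rM S t))
    (hβ : ∀ j, |val S (β j)| ≤ 2 * (S : ℝ) ^ 2) (j : Fin n) (i : Fin m) :
    |val S (fmul S (t j i) (fexp S (β j))) - rM S t j i * Real.exp (val S (β j))| ≤ T S ^ 2 * dd S ^ 4
      ∧ 0 < rM S t j i * Real.exp (val S (β j))
      ∧ rM S t j i * Real.exp (val S (β j)) ≤ T S ^ 5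
      ∧ 1 ≤ rM S t j i * Real.exp (val S (β j)) * T S ^ 5 := by
  have hT1 := T_ge_one hS
  have hT0 := T_pos hS
  have hS0 : (0 : ℝ) < S := by
    have : 0 < S := by omega
    exact_mod_cast this
  set τ := rM S t j i with hτdef
  set b := val S (β j) with hbdef
  have hτ1 : 1 / (S : ℝ) ^ 27 ≤ τ := (ht j i).1
  have hτ2 : τ ≤ T S := (ht j i).2.trans (tab_upper hS)
  have hτ0 : 0 < τ := lt_of_lt_of_le (by positivity) hτ1
  have hτT : 1 ≤ τ * T S := by
    have h1 : 1 = 1 / (S : ℝ) ^ 27 * (S : ℝ) ^ 27 := by field_simp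
    calc (1 : ℝ) = 1 / (S : ℝ) ^ 27 * (S : ℝ) ^ 27 := h1
      _ ≤ τ * T S := mul_le_mul hτ1 (tab_lower hS) (by positivity) hτ0.le
  have hb := hβ j
  have hb' := abs_le.1 hb
  have he1 : Real.exp b ≤ T S ^ 4 :=
    (Real.exp_le_exp.2 hb'.2).trans (exp_le_T S)
  have he2 : 1 ≤ Real.exp b * T S ^ 4 := by
    have h1 : 1 ≤ Real.exp b * Real.exp (2 * (S : ℝ) ^ 2) := by
      rw [← Real.exp_add]
      exact Real.one_le_exp (by linarith [hb'.1])
    exact h1.trans (mul_le_mul_of_nonneg_left (exp_le_T S) (Real.exp_pos b).le)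
  have hbS : |b| ≤ (S : ℝ) ^ 3 := by
    refine hb.trans ?_
    have : (2 : ℝ) ≤ S := by
      have : 2 ≤ S := by omega
      exact_mod_cast this
    have h3 : (S : ℝ) ^ 3 = S * (S : ℝ) ^ 2 := by ring
    rw [h3]
    exact mul_le_mul_of_nonneg_right this (by positivity)
  have hf := fexp_spec hS hbS
  have hf' : |val S (fexp S (β j)) - Real.exp b| ≤ dd S ^ 4 := hf.trans (eps1_le S)
  have hd4 : dd S ^ 4 ≤ 1 := pow_le_one₀ (dd_pos S).le (dd_le_one S)
  have hT45 : T S ^ 4 ≤ T S ^ 5 := T_mono hS (by norm_num)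
  have hTT : (1 : ℝ) ≤ T S ^ 4 := one_le_pow₀ hT1
  have he3 : |val S (fexp S (β j))| ≤ Big S := by
    have h1 : |Real.exp b| ≤ T S ^ 4 := by rwa [abs_of_pos (Real.exp_pos b)]
    have h2 := abs_sub_abs_le_abs_sub (val S (fexp S (β j))) (Real.exp b)
    have h3 : (2 : ℝ) ≤ T S := T_ge_two hS
    have h5 : 2 * T S ^ 4 ≤ T S ^ 5 := by
      have : T S ^ 5 = T S * T S ^ 4 := by ring
      rw [this]
      exact mul_le_mul_of_nonneg_right h3 (by positivity)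
    have h4 : T S ^ 5 ≤ Big S := T_pow_le_Big hS (by norm_num)
    linarith
  have hτB : |τ| ≤ Big S := by
    rw [abs_of_pos hτ0]
    have : T S ^ 1 ≤ Big S := T_pow_le_Big hS (by norm_num)
    rw [pow_one] at this
    exact hτ2.trans this
  have hm := val_fmul hS (x := t j i) (y := fexp S (β j)) hτB he3
  refine ⟨?_, mul_pos hτ0 (Real.exp_pos b), ?_, ?_⟩
  · have e : val S (fmul S (t j i) (fexp S (β j))) - τ * Real.exp b
        = (val S (fmul S (t j i) (fexp S (β j))) - val S (t j i) * val S (fexp S (β j)))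
          + τ * (val S (fexp S (β j)) - Real.exp b) := by
      have : τ = val S (t j i) := rfl
      rw [this]
      ring
    rw [e]
    refine (abs_add_le _ _).trans ?_
    rw [abs_mul, abs_of_pos hτ0]
    have h1 : τ * |val S (fexp S (β j)) - Real.exp b| ≤ T S * dd S ^ 4 :=
      mul_le_mul hτ2 hf' (abs_nonneg _) hT0.le
    have h2 : ulp S ≤ dd S ^ 4 := (ulp_le S).trans (dd_pow_mono (by norm_num))
    have h3 : (T S + 1) * dd S ^ 4 ≤ T S ^ 2 * dd S ^ 4 := by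
      refine mul_le_mul_of_nonneg_right ?_ (pow_nonneg (dd_pos S).le _)
      nlinarith [T_ge_two hS]
    nlinarith
  · calc τ * Real.exp b ≤ T S * T S ^ 4 :=
          mul_le_mul hτ2 he1 (Real.exp_pos b).le hT0.le
      _ = T S ^ 5 := by ring
  · calc (1 : ℝ) ≤ (τ * T S) * (Real.exp b * T S ^ 4) := by
          have := mul_le_mul hτT he2 (by norm_num) (by positivity)
          simpa using this
      _ = τ * Real.exp b * T S ^ 5 := by ring

theorem length_lF {k : ℕ} (f : Fin k → ℤ) : (lF f).length = k := by simp [lF]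

theorem length_lN {k : ℕ} (f : Fin k → ℕ) : (lN f).length = k := by simp [lN]

theorem T_sub_one_ge (hS : 1000000 ≤ S) : 1 ≤ T S - 1 := by linarith [T_ge_two hS]

/-- Facts about one row. -/
theorem row_facts (hS : 1000000 ≤ S) (hn : 0 < n) (hnS : n ≤ S) (hmS : m ≤ S) (ht : TabRange S (rM S t))
    (hβ : ∀ j, |val S (β j)| ≤ 2 * (S : ℝ) ^ 2) (i : Fin m) :
    |val S (rowSumF S (lN c) (lM t) (lF β) ((i : ℕ) : ℤ))
        - ∑ j, rM S t j i * Real.exp (val S (β j))| ≤ T S ^ 3 * dd S ^ 4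
      ∧ |val S (rowSumF S (lN c) (lM t) (lF β) ((i : ℕ) : ℤ))| ≤ T S ^ 7
      ∧ 1 ≤ val S (rowSumF S (lN c) (lM t) (lF β) ((i : ℕ) : ℤ)) * T S ^ 6
      ∧ 1 ≤ (∑ j, rM S t j i * Real.exp (val S (β j))) * T S ^ 5
      ∧ ∑ j, rM S t j i * Real.exp (val S (β j)) ≤ T S ^ 6
      ∧ 0 < val S (rowSumF S (lN c) (lM t) (lF β) ((i : ℕ) : ℤ))
      ∧ 0 < ∑ j, rM S t j i * Real.exp (val S (β j)) := by
  have hT1 := T_ge_one hS
  have hT0 := T_pos hS
  have hT2 := T_ge_two hS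
  have hd0 := dd_pos S
  have hd1 := dd_le_one S
  have hd4 : dd S ^ 4 ≤ 1 := pow_le_one₀ hd0.le hd1
  have hnT : (n : ℝ) ≤ T S := by
    have : (n : ℝ) ≤ S := by exact_mod_cast hnS
    exact this.trans (S_le_T hS)
  have hη0 : 0 ≤ T S ^ 2 * dd S ^ 4 := by positivity
  have hηle : T S ^ 2 * dd S ^ 4 ≤ T S ^ 2 := by
    calc T S ^ 2 * dd S ^ 4 ≤ T S ^ 2 * 1 := mul_le_mul_of_nonneg_left hd4 (by positivity)
      _ = T S ^ 2 := mul_one _
  have hT25 : T S ^ 2 ≤ T S ^ 5 := T_mono hS (by norm_num)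
  have hbd : (n : ℝ) * (T S ^ 5 + T S ^ 2 * dd S ^ 4) ≤ T S ^ 7 := by
    have h1 : T S ^ 5 + T S ^ 2 * dd S ^ 4 ≤ 2 * T S ^ 5 := by linarith
    have h2 : 2 * T S ^ 5 ≤ T S * T S ^ 5 := mul_le_mul_of_nonneg_right hT2 (by positivity)
    calc (n : ℝ) * (T S ^ 5 + T S ^ 2 * dd S ^ 4) ≤ T S * (T S * T S ^ 5) :=
          mul_le_mul hnT (h1.trans h2) (by positivity) hT0.le
      _ = T S ^ 7 := by ring
  have hB7 : T S ^ 7 ≤ Big S := T_pow_le_Big hS (by norm_num)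
  have hlen : (lN c).length ≤ S := by rw [length_lN]; exact hnS
  have hrow : rowSumF S (lN c) (lM t) (lF β) ((i : ℕ) : ℤ)
      = sumR S n (fun j => fmul S (nthZ S (nthL S (lM t) j) ((i : ℕ) : ℤ)) (fexp S (nthZ S (lF β) j))) := by
    unfold rowSumF
    rw [sumS_idx hlen, length_lN]
  obtain ⟨h1, h2⟩ := sumR_close hS
    (fun j => fmul S (nthZ S (nthL S (lM t) j) ((i : ℕ) : ℤ)) (fexp S (nthZ S (lF β) j)))
    (fun j : Fin n => rM S t j i * Real.exp (val S (β j))) hη0 (by positivity)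
    (B := T S ^ 5)
    (fun j => by
      have hf := (entry_facts hS ht hβ j i).1
      have e1 : nthZ S (nthL S (lM t) ((j : ℕ) : ℤ)) ((i : ℕ) : ℤ) = t j i := by
        rw [nthL_lM hnS, nthZ_lF hmS]
      have e2 : nthZ S (lF β) ((j : ℕ) : ℤ) = β j := nthZ_lF hnS β j
      simp only [e1, e2]
      exact hf)
    (fun j => by
      have := entry_facts hS ht hβ j i
      rw [abs_of_pos this.2.1]
      exact this.2.2.1)
    (hbd.trans hB7)
  rw [hrow]
  set a := val S (sumR S n (fun j => fmul S (nthZ S (nthL S (lM t) j) ((i : ℕ) : ℤ)) (fexp S (nthZ S (lF β) j)))) with ha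
  set A := ∑ j, rM S t j i * Real.exp (val S (β j)) with hA
  have h1' : |a - A| ≤ T S ^ 3 * dd S ^ 4 := by
    refine h1.trans ?_
    calc (n : ℝ) * (T S ^ 2 * dd S ^ 4) ≤ T S * (T S ^ 2 * dd S ^ 4) :=
          mul_le_mul_of_nonneg_right hnT hη0
      _ = T S ^ 3 * dd S ^ 4 := by ring
  have hsm : T S ^ 3 * dd S ^ 4 ≤ 1 := by
    have h3 : T S ^ 3 * dd S ^ 4 ≤ dd S ^ 3 := T_dd_step hS (by norm_num) 3
    have h4 : dd S ^ 3 ≤ 1 := pow_le_one₀ hd0.le hd1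
    linarith
  have h4 : 1 ≤ A * T S ^ 5 := by
    let j0 : Fin n := ⟨0, hn⟩
    have h0 := entry_facts hS ht hβ j0 i
    have h5 : rM S t j0 i * Real.exp (val S (β j0)) ≤ A :=
      Finset.single_le_sum (f := fun j => rM S t j i * Real.exp (val S (β j)))
        (fun j _ => (entry_facts hS ht hβ j i).2.1.le) (Finset.mem_univ j0)
    exact h0.2.2.2.trans (mul_le_mul_of_nonneg_right h5 (by positivity))
  have hA0 : 0 < A := by
    let j0 : Fin n := ⟨0, hn⟩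
    exact Finset.sum_pos (fun j _ => (entry_facts hS ht hβ j i).2.1) ⟨j0, Finset.mem_univ j0⟩
  have h5 : A ≤ T S ^ 6 := by
    have h6 : A ≤ (Finset.univ : Finset (Fin n)).card • T S ^ 5 :=
      Finset.sum_le_card_nsmul _ _ _ (fun j _ => (entry_facts hS ht hβ j i).2.2.1)
    rw [Finset.card_univ, Fintype.card_fin, nsmul_eq_mul] at h6
    calc A ≤ (n : ℝ) * T S ^ 5 := h6
      _ ≤ T S * T S ^ 5 := mul_le_mul_of_nonneg_right hnT (by positivity)
      _ = T S ^ 6 := by ring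
  have h3 : 1 ≤ a * T S ^ 6 := by
    have h6 := (abs_le.1 h1').1
    have h7 : T S ^ 9 * dd S ^ 4 ≤ 1 := by
      have h3 : T S ^ 9 * dd S ^ 4 ≤ dd S ^ 3 := T_dd_step hS (by norm_num) 3
      have h4 : dd S ^ 3 ≤ 1 := pow_le_one₀ hd0.le hd1
      linarith
    have h8 : (A - T S ^ 3 * dd S ^ 4) * T S ^ 6 ≤ a * T S ^ 6 :=
      mul_le_mul_of_nonneg_right (by linarith) (by positivity)
    have h9 : (A - T S ^ 3 * dd S ^ 4) * T S ^ 6 = (A * T S ^ 5) * T S - T S ^ 9 * dd S ^ 4 := by ring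
    have h10 : 1 * T S ≤ (A * T S ^ 5) * T S := mul_le_mul_of_nonneg_right h4 hT0.le
    linarith
  have h6 : 0 < a := by
    by_contra hneg
    have : a * T S ^ 6 ≤ 0 := mul_nonpos_of_nonpos_of_nonneg (not_lt.1 hneg) (by positivity)
    linarith
  exact ⟨h1', h2.trans hbd, h3, h4, h5, h6, hA0⟩

/-- Facts about the natural numbers of the margins. -/
theorem margin_le_T (hS : 1000000 ≤ S) (hN : ∑ i, r i < 2 ^ S) (i : Fin m) : ((r i : ℤ) : ℝ) ≤ T S := by
  have h1 : r i ≤ ∑ i, r i := Finset.single_le_sum (f := r) (fun _ _ => Nat.zero_le _) (Finset.mem_univ i)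
  have h2 : r i < 2 ^ S := lt_of_le_of_lt h1 hN
  have h3 : (r i : ℝ) ≤ 2 ^ S := by exact_mod_cast h2.le
  simpa using h3.trans (two_S_le_T hS)

theorem abs_margin_le_T (hS : 1000000 ≤ S) (hN : ∑ i, r i < 2 ^ S) (i : Fin m) : |((r i : ℤ) : ℝ)| ≤ T S := by
  rw [abs_of_nonneg (by positivity)]
  exact margin_le_T hS hN i

/-- The term of a row in `capGF`. -/
theorem row_term (hS : 1000000 ≤ S) (hN : ∑ i, r i < 2 ^ S) (hn : 0 < n) (hnS : n ≤ S) (hmS : m ≤ S)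
    (ht : TabRange S (rM S t)) (hβ : ∀ j, |val S (β j)| ≤ 2 * (S : ℝ) ^ 2) (i : Fin m) :
    |val S (cmul S (nthZ S (lN r) ((i : ℕ) : ℤ)) (flog S (rowSumF S (lN c) (lM t) (lF β) ((i : ℕ) : ℤ))))
        - (r i : ℝ) * Real.log (∑ j, rM S t j i * Real.exp (val S (β j)))| ≤ T S ^ 2 * dd S ^ 2
      ∧ |(r i : ℝ) * Real.log (∑ j, rM S t j i * Real.exp (val S (β j)))| ≤ T S ^ 8 := by
  obtain ⟨h1, h2, h3, h4, h5, h6, h7⟩ := row_facts (c := c) hS hn hnS hmS ht hβ i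
  set w := rowSumF S (lN c) (lM t) (lF β) ((i : ℕ) : ℤ) with hw
  set a := val S w with ha
  set A := ∑ j, rM S t j i * Real.exp (val S (β j)) with hA
  have hT0 := T_pos hS
  have hT2 := T_ge_two hS
  have hT1 := T_ge_one hS
  have hd0 := dd_pos S
  have hd1 := dd_le_one S
  have hr : nthZ S (lN r) ((i : ℕ) : ℤ) = (r i : ℤ) := nthZ_lF hmS _ i
  have hrT := abs_margin_le_T hS hN i
  have hA6 : 1 ≤ A * T S ^ 6 := by
    have h56 : T S ^ 5 ≤ T S ^ 6 := T_mono hS (by norm_num)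
    exact h4.trans (mul_le_mul_of_nonneg_left h56 h7.le)
  have hdom1 := dom_low hS h3
  have hdom2 := dom_high hS ((le_abs_self a).trans h2)
  have hfl := flog_spec (x := w) hS hdom1 hdom2
  have hfl' : |val S (flog S w) - Real.log a| ≤ dd S ^ 2 := hfl.trans (eps3_le S)
  have hlog := log_close h6 h7 (pow_pos hT0 6) h3 hA6 h1
  have hlog' : |Real.log a - Real.log A| ≤ dd S ^ 2 := by
    refine hlog.trans ?_
    have e : T S ^ 3 * dd S ^ 4 * T S ^ 6 = T S ^ 9 * dd S ^ 4 := by ring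
    rw [e]
    have h8 : T S ^ 9 * dd S ^ 4 ≤ dd S ^ 3 := T_dd_step hS (by norm_num) 3
    exact h8.trans (dd_pow_mono (by norm_num))
  have hclose : |val S (flog S w) - Real.log A| ≤ 2 * dd S ^ 2 := by
    have e : val S (flog S w) - Real.log A = (val S (flog S w) - Real.log a) + (Real.log a - Real.log A) := by ring
    rw [e]
    refine (abs_add_le _ _).trans ?_
    linarith
  have hainv : a⁻¹ ≤ T S ^ 6 := by
    rw [inv_le_iff_one_le_mul₀ h6, mul_comm]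
    exact h3
  have hAinv : A⁻¹ ≤ T S ^ 5 := by
    rw [inv_le_iff_one_le_mul₀ h7, mul_comm]
    exact h4
  have hd2 : dd S ^ 2 ≤ 1 := pow_le_one₀ hd0.le hd1
  have hLbig : |val S (flog S w)| ≤ Big S := by
    have h8 := abs_log_le h6
    have h9 := abs_sub_abs_le_abs_sub (val S (flog S w)) (Real.log a)
    have h10 : |a| = a := abs_of_pos h6
    have h11 : T S ^ 6 ≤ T S ^ 7 := T_mono hS (by norm_num)
    have h12 : (1 : ℝ) ≤ T S ^ 7 := one_le_pow₀ hT1
    have h13 : 3 * T S ^ 7 ≤ T S ^ 9 := by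
      have e : T S ^ 9 = T S ^ 2 * T S ^ 7 := by ring
      rw [e]
      refine mul_le_mul_of_nonneg_right ?_ (by positivity)
      nlinarith
    have h14 : T S ^ 9 ≤ Big S := T_pow_le_Big hS (by norm_num)
    rw [h10] at h2
    linarith
  have hval := val_cmul_int hS (a := (r i : ℤ)) (x := flog S w) hrT hLbig
  rw [hr, hval]
  constructor
  · have e : (((r i : ℤ) : ℝ)) * val S (flog S w) - (r i : ℝ) * Real.log A
        = ((r i : ℤ) : ℝ) * (val S (flog S w) - Real.log A) := by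
      push_cast
      ring
    rw [e, abs_mul]
    calc |((r i : ℤ) : ℝ)| * |val S (flog S w) - Real.log A| ≤ T S * (2 * dd S ^ 2) :=
          mul_le_mul hrT hclose (abs_nonneg _) hT0.le
      _ ≤ T S * (T S * dd S ^ 2) := by
          refine mul_le_mul_of_nonneg_left ?_ hT0.le
          exact mul_le_mul_of_nonneg_right hT2 (by positivity)
      _ = T S ^ 2 * dd S ^ 2 := by ring
  · have h8 := abs_log_le h7
    have h9 : |(r i : ℝ)| ≤ T S := by simpa using hrT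
    rw [abs_mul]
    have h10 : T S ^ 5 ≤ T S ^ 6 := T_mono hS (by norm_num)
    have h11 : |Real.log A| ≤ 2 * T S ^ 6 := by linarith
    calc |(r i : ℝ)| * |Real.log A| ≤ T S * (2 * T S ^ 6) :=
          mul_le_mul h9 h11 (abs_nonneg _) hT0.le
      _ ≤ T S * (T S * T S ^ 6) := by
          refine mul_le_mul_of_nonneg_left ?_ hT0.le
          exact mul_le_mul_of_nonneg_right hT2 (by positivity)
      _ = T S ^ 8 := by ring

/-- The term of a row in `capGradF`. -/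
theorem grad_term (hS : 1000000 ≤ S) (hN : ∑ i, r i < 2 ^ S) (hn : 0 < n) (hnS : n ≤ S) (hmS : m ≤ S)
    (ht : TabRange S (rM S t)) (hβ : ∀ j, |val S (β j)| ≤ 2 * (S : ℝ) ^ 2) (j : Fin n) (i : Fin m) :
    |val S (cmul S (nthZ S (lN r) ((i : ℕ) : ℤ))
        (fdiv S (fmul S (nthZ S (nthL S (lM t) ((j : ℕ) : ℤ)) ((i : ℕ) : ℤ)) (fexp S (nthZ S (lF β) ((j : ℕ) : ℤ))))
          (rowSumF S (lN c) (lM t) (lF β) ((i : ℕ) : ℤ))))
        - (r i : ℝ) * (rM S t j i * Real.exp (val S (β j)) / ∑ l, rM S t l i * Real.exp (val S (β l)))|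
        ≤ T S * dd S ^ 2
      ∧ |(r i : ℝ) * (rM S t j i * Real.exp (val S (β j)) / ∑ l, rM S t l i * Real.exp (val S (β l)))|
        ≤ T S ^ 11 := by
  obtain ⟨h1, h2, h3, h4, h5, h6, h7⟩ := row_facts (c := c) hS hn hnS hmS ht hβ i
  obtain ⟨e1, e2, e3, e4⟩ := entry_facts hS ht hβ j i
  have e5 : nthZ S (nthL S (lM t) ((j : ℕ) : ℤ)) ((i : ℕ) : ℤ) = t j i := by
    rw [nthL_lM hnS, nthZ_lF hmS]
  have e6 : nthZ S (lF β) ((j : ℕ) : ℤ) = β j := nthZ_lF hnS β j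
  rw [e5, e6]
  set y := rowSumF S (lN c) (lM t) (lF β) ((i : ℕ) : ℤ) with hy
  set a := val S y with ha
  set A := ∑ l, rM S t l i * Real.exp (val S (β l)) with hA
  set w := fmul S (t j i) (fexp S (β j)) with hw
  set u := rM S t j i * Real.exp (val S (β j)) with hu
  have hT0 := T_pos hS
  have hT2 := T_ge_two hS
  have hT1 := T_ge_one hS
  have hd0 := dd_pos S
  have hd1 := dd_le_one S
  have hd2 : dd S ^ 2 ≤ 1 := pow_le_one₀ hd0.le hd1
  have hd4 : dd S ^ 4 ≤ 1 := pow_le_one₀ hd0.le hd1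
  have hr : nthZ S (lN r) ((i : ℕ) : ℤ) = (r i : ℤ) := nthZ_lF hmS _ i
  have hrT := abs_margin_le_T hS hN i
  have hBig0 : 0 < Big S := by unfold Big; positivity
  have hU : |u| ≤ T S ^ 5 := by rwa [abs_of_pos e2]
  have hdc := div_close h6 h7 h3 h4 e1 h1 hU
  have hwB : |val S w| ≤ Big S := by
    have h8 := abs_sub_abs_le_abs_sub (val S w) u
    have h9 : T S ^ 2 * dd S ^ 4 ≤ T S ^ 2 := by
      calc T S ^ 2 * dd S ^ 4 ≤ T S ^ 2 * 1 := mul_le_mul_of_nonneg_left hd4 (by positivity)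
        _ = T S ^ 2 := mul_one _
    have h10 : T S ^ 2 ≤ T S ^ 5 := T_mono hS (by norm_num)
    have h11 : 2 * T S ^ 5 ≤ T S * T S ^ 5 := mul_le_mul_of_nonneg_right hT2 (by positivity)
    have h12 : T S * T S ^ 5 = T S ^ 6 := by ring
    have h13 : T S ^ 6 ≤ Big S := T_pow_le_Big hS (by norm_num)
    linarith
  have haB : |a| ≤ Big S := h2.trans (T_pow_le_Big hS (by norm_num))
  have ha0 : 1 / Big S ≤ |a| := by
    rw [abs_of_pos h6, div_le_iff₀ hBig0]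
    exact h3.trans (mul_le_mul_of_nonneg_left (T_pow_le_Big hS (by norm_num)) h6.le)
  have hfd := val_fdiv hS (x := w) (y := y) hwB haB ha0
  have hclose : |val S (fdiv S w y) - u / A| ≤ dd S ^ 2 := by
    have e : val S (fdiv S w y) - u / A = (val S (fdiv S w y) - val S w / a) + (val S w / a - u / A) := by ring
    rw [e]
    refine (abs_add_le _ _).trans ?_
    have h8 : ulp S ≤ dd S ^ 4 := (ulp_le S).trans (dd_pow_mono (by norm_num))
    have h9 : T S ^ 2 * dd S ^ 4 * T S ^ 6 + T S ^ 5 * (T S ^ 3 * dd S ^ 4) * T S ^ 6 * T S ^ 5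
        = (T S ^ 8 + T S ^ 19) * dd S ^ 4 := by ring
    rw [h9] at hdc
    have h10 : T S ^ 8 ≤ T S ^ 19 := T_mono hS (by norm_num)
    have h11 : (1 : ℝ) ≤ T S ^ 19 := one_le_pow₀ hT1
    have h12 : 3 * T S ^ 19 ≤ T S ^ 21 := by
      have e : T S ^ 21 = T S ^ 2 * T S ^ 19 := by ring
      rw [e]
      refine mul_le_mul_of_nonneg_right ?_ (by positivity)
      nlinarith
    have h13 : dd S ^ 4 + (T S ^ 8 + T S ^ 19) * dd S ^ 4 ≤ T S ^ 21 * dd S ^ 4 := by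
      have : (1 + (T S ^ 8 + T S ^ 19)) * dd S ^ 4 ≤ T S ^ 21 * dd S ^ 4 :=
        mul_le_mul_of_nonneg_right (by linarith) (by positivity)
      linarith
    have h14 : T S ^ 21 * dd S ^ 4 ≤ dd S ^ 3 := T_dd_step hS (by norm_num) 3
    have h15 : dd S ^ 3 ≤ dd S ^ 2 := dd_pow_mono (by norm_num)
    linarith
  have hAinv : A⁻¹ ≤ T S ^ 5 := by
    rw [inv_le_iff_one_le_mul₀ h7, mul_comm]
    exact h4
  have hquot : |u / A| ≤ T S ^ 10 := by
    rw [abs_of_pos (div_pos e2 h7), div_eq_mul_inv]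
    calc u * A⁻¹ ≤ T S ^ 5 * T S ^ 5 := mul_le_mul e3 hAinv (inv_pos.2 h7).le (by positivity)
      _ = T S ^ 10 := by ring
  have hfdB : |val S (fdiv S w y)| ≤ Big S := by
    have h8 := abs_sub_abs_le_abs_sub (val S (fdiv S w y)) (u / A)
    have h9 : (1 : ℝ) ≤ T S ^ 10 := one_le_pow₀ hT1
    have h10 : 2 * T S ^ 10 ≤ T S * T S ^ 10 := mul_le_mul_of_nonneg_right hT2 (by positivity)
    have h11 : T S * T S ^ 10 = T S ^ 11 := by ring
    have h12 : T S ^ 11 ≤ Big S := T_pow_le_Big hS (by norm_num)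
    linarith
  have hval := val_cmul_int hS (a := (r i : ℤ)) (x := fdiv S w y) hrT hfdB
  rw [hr, hval]
  constructor
  · have e : ((r i : ℤ) : ℝ) * val S (fdiv S w y) - (r i : ℝ) * (u / A)
        = ((r i : ℤ) : ℝ) * (val S (fdiv S w y) - u / A) := by
      push_cast
      ring
    rw [e, abs_mul]
    exact mul_le_mul hrT hclose (abs_nonneg _) hT0.le
  · have h9 : |(r i : ℝ)| ≤ T S := by simpa using hrT
    rw [abs_mul]
    calc |(r i : ℝ)| * |u / A| ≤ T S * T S ^ 10 := mul_le_mul h9 hquot (abs_nonneg _) hT0.le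
      _ = T S ^ 11 := by ring

end CapGAux

open CapGAux in
/-- The value of `capG` on words. -/
theorem capGF_spec (hS : 1000000 ≤ S) (hN : ∑ i, r i < 2 ^ S) (hsum : ∑ i, r i = ∑ j, c j)
    (hn : 0 < n) (hD : (n : ℝ) + (m : ℝ) ≤ S)
    (ht : TabRange S (rM S t)) {β : Fin n → ℤ}
    (hβ : ∀ j, |val S (β j)| ≤ 2 * (S : ℝ) ^ 2) :
    |val S (capGF S (lN r) (lN c) (lM t) (lF β)) - capG r c (rM S t) fun j => val S (β j)|
      ≤ (1 / 2 : ℝ) ^ (S ^ 5 / 8) := by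
  have hT0 := T_pos hS
  have hT1 := T_ge_one hS
  have hd0 := dd_pos S
  have hd1 := dd_le_one S
  have hnS' : (n : ℝ) ≤ S := by
    have : (0 : ℝ) ≤ m := Nat.cast_nonneg m
    linarith
  have hmS' : (m : ℝ) ≤ S := by
    have : (0 : ℝ) ≤ n := Nat.cast_nonneg n
    linarith
  have hnS : n ≤ S := by exact_mod_cast hnS'
  have hmS : m ≤ S := by exact_mod_cast hmS'
  have hnT : (n : ℝ) ≤ T S := hnS'.trans (S_le_T hS)
  have hmT : (m : ℝ) ≤ T S := hmS'.trans (S_le_T hS)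
  have hlenr : (lN r).length ≤ S := by rw [length_lN]; exact hmS
  have hlenc : (lN c).length ≤ S := by rw [length_lN]; exact hnS
  have hN' : ∑ j, c j < 2 ^ S := hsum ▸ hN
  have hd2 : dd S ^ 2 ≤ 1 := pow_le_one₀ hd0.le hd1
  have h2T : 0 ≤ T S ^ 2 * dd S ^ 2 := by positivity
  have hT28 : T S ^ 2 * dd S ^ 2 ≤ T S ^ 8 := by
    calc T S ^ 2 * dd S ^ 2 ≤ T S ^ 2 * 1 := mul_le_mul_of_nonneg_left hd2 (by positivity)
      _ = T S ^ 2 := mul_one _
      _ ≤ T S ^ 8 := T_mono hS (by norm_num)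
  have hb1 : (m : ℝ) * (T S ^ 8 + T S ^ 2 * dd S ^ 2) ≤ T S ^ 10 := by
    have h1 : T S ^ 8 + T S ^ 2 * dd S ^ 2 ≤ T S * T S ^ 8 := by
      have := T_ge_two hS
      have h2 : 2 * T S ^ 8 ≤ T S * T S ^ 8 := mul_le_mul_of_nonneg_right this (by positivity)
      linarith
    calc (m : ℝ) * (T S ^ 8 + T S ^ 2 * dd S ^ 2) ≤ T S * (T S * T S ^ 8) :=
          mul_le_mul hmT h1 (by positivity) hT0.le
      _ = T S ^ 10 := by ring
  have hB10 : T S ^ 10 ≤ Big S := T_pow_le_Big hS (by norm_num)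
  obtain ⟨s1, s1'⟩ := sumR_close hS
    (fun i => cmul S (nthZ S (lN r) i) (flog S (rowSumF S (lN c) (lM t) (lF β) i)))
    (fun i : Fin m => (r i : ℝ) * Real.log (∑ j, rM S t j i * Real.exp (val S (β j))))
    h2T (by positivity) (B := T S ^ 8)
    (fun i => (row_term hS hN hn hnS hmS ht hβ i).1)
    (fun i => (row_term (c := c) hS hN hn hnS hmS ht hβ i).2)
    (hb1.trans hB10)
  have hb2 : (n : ℝ) * (T S ^ 2 + 0) ≤ T S ^ 3 := by
    calc (n : ℝ) * (T S ^ 2 + 0) ≤ T S * (T S ^ 2 + 0) :=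
          mul_le_mul_of_nonneg_right hnT (by positivity)
      _ = T S ^ 3 := by ring
  have hB3 : T S ^ 3 ≤ Big S := T_pow_le_Big hS (by norm_num)
  have hB1 : T S ≤ Big S := by simpa using T_pow_le_Big hS (a := 1) (by norm_num)
  have hbβ : ∀ j, |val S (β j)| ≤ T S := fun j => (hβ j).trans (two_sq_le_T hS)
  obtain ⟨s2, s2'⟩ := sumR_close hS
    (fun j => cmul S (nthZ S (lN c) j) (nthZ S (lF β) j))
    (fun j : Fin n => (c j : ℝ) * val S (β j))
    (le_refl (0 : ℝ)) (by positivity) (B := T S ^ 2)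
    (fun j => by
      have e1 : nthZ S (lN c) ((j : ℕ) : ℤ) = (c j : ℤ) := nthZ_lF hnS _ j
      have e2 : nthZ S (lF β) ((j : ℕ) : ℤ) = β j := nthZ_lF hnS β j
      simp only [e1, e2]
      rw [val_cmul_int hS (abs_margin_le_T hS hN' j) ((hbβ j).trans hB1)]
      simp)
    (fun j => by
      rw [abs_mul]
      have h1 : |(c j : ℝ)| ≤ T S := by simpa using abs_margin_le_T hS hN' j
      calc |(c j : ℝ)| * |val S (β j)| ≤ T S * T S := mul_le_mul h1 (hbβ j) (abs_nonneg _) hT0.le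
        _ = T S ^ 2 := by ring)
    (hb2.trans hB3)
  unfold capGF
  rw [sumS_idx hlenr, sumS_idx hlenc, length_lN, length_lN]
  rw [val_sub hS (s1'.trans (hb1.trans hB10)) (s2'.trans (hb2.trans hB3))]
  unfold capG
  set X := val S (sumR S m fun i => cmul S (nthZ S (lN r) i) (flog S (rowSumF S (lN c) (lM t) (lF β) i))) with hX
  set Y := val S (sumR S n fun j => cmul S (nthZ S (lN c) j) (nthZ S (lF β) j)) with hY
  have e : X - Y - (∑ i, (r i : ℝ) * Real.log (∑ j, rM S t j i * Real.exp (val S (β j)))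
        - ∑ j, (c j : ℝ) * val S (β j))
      = (X - ∑ i, (r i : ℝ) * Real.log (∑ j, rM S t j i * Real.exp (val S (β j))))
        - (Y - ∑ j, (c j : ℝ) * val S (β j)) := by ring
  rw [e]
  refine (abs_sub _ _).trans ?_
  have s3 : (m : ℝ) * (T S ^ 2 * dd S ^ 2) ≤ T S ^ 3 * dd S ^ 2 := by
    calc (m : ℝ) * (T S ^ 2 * dd S ^ 2) ≤ T S * (T S ^ 2 * dd S ^ 2) :=
          mul_le_mul_of_nonneg_right hmT h2T
      _ = T S ^ 3 * dd S ^ 2 := by ring
  have s4 : T S ^ 3 * dd S ^ 2 ≤ dd S ^ 1 := T_dd_step hS (by norm_num) 1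
  have s5 : (n : ℝ) * 0 = 0 := mul_zero _
  rw [s5] at s2
  have s6 : dd S = (1 / 2 : ℝ) ^ (S ^ 5 / 8) := rfl
  rw [← s6]
  rw [pow_one] at s4
  linarith

open CapGAux in
/-- The value of `capGrad` on words. -/
theorem capGradF_spec (hS : 1000000 ≤ S) (hN : ∑ i, r i < 2 ^ S) (hsum : ∑ i, r i = ∑ j, c j)
    (hn : 0 < n) (hD : (n : ℝ) + (m : ℝ) ≤ S)
    (ht : TabRange S (rM S t)) {β : Fin n → ℤ}
    (hβ : ∀ j, |val S (β j)| ≤ 2 * (S : ℝ) ^ 2) :
    ∃ g : Fin n → ℤ, capGradF S (lN r) (lN c) (lM t) (lF β) = lF g ∧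
      ∀ j, |val S (g j) - capGrad r c (rM S t) (fun j => val S (β j)) j|
        ≤ (1 / 2 : ℝ) ^ (S ^ 5 / 8) := by
  have hT0 := T_pos hS
  have hT2 := T_ge_two hS
  have hT1 := T_ge_one hS
  have hd0 := dd_pos S
  have hd1 := dd_le_one S
  have hnS' : (n : ℝ) ≤ S := by
    have : (0 : ℝ) ≤ m := Nat.cast_nonneg m
    linarith
  have hmS' : (m : ℝ) ≤ S := by
    have : (0 : ℝ) ≤ n := Nat.cast_nonneg n
    linarith
  have hnS : n ≤ S := by exact_mod_cast hnS'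
  have hmS : m ≤ S := by exact_mod_cast hmS'
  have hmT : (m : ℝ) ≤ T S := hmS'.trans (S_le_T hS)
  have hlenr : (lN r).length ≤ S := by rw [length_lN]; exact hmS
  have hlenc : (lN c).length ≤ S := by rw [length_lN]; exact hnS
  have hN' : ∑ j, c j < 2 ^ S := hsum ▸ hN
  have hd2 : dd S ^ 2 ≤ 1 := pow_le_one₀ hd0.le hd1
  refine ⟨fun j => capGradEntryF S (lN r) (lN c) (lM t) (lF β) ((j : ℕ) : ℤ), ?_, fun j => ?_⟩
  · unfold capGradF lF
    rw [idxS_eq hlenc, List.take_of_length_le (by simpa using hlenc), length_lN]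
    apply List.ext_getElem
    · simp
    · intro i h1 h2
      have hin : i < n := by simpa using h2
      have e : (List.flatMap (fun a : ℕ => [(a : ℤ)]) (List.range n))[i]'(by simpa using hin) = (i : ℤ) := by
        have hl : List.flatMap (fun a : ℕ => [(a : ℤ)]) (List.range n) = (List.range n).map (fun a : ℕ => (a : ℤ)) :=
          (List.map_eq_flatMap ..).symm
        simp only [hl]
        simp
      simp [e]
  · have h2T : 0 ≤ T S * dd S ^ 2 := by positivity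
    have hT28 : T S * dd S ^ 2 ≤ T S ^ 11 := by
      calc T S * dd S ^ 2 ≤ T S * 1 := mul_le_mul_of_nonneg_left hd2 hT0.le
        _ = T S ^ 1 := by ring
        _ ≤ T S ^ 11 := T_mono hS (by norm_num)
    have hb1 : (m : ℝ) * (T S ^ 11 + T S * dd S ^ 2) ≤ T S ^ 13 := by
      have h1 : T S ^ 11 + T S * dd S ^ 2 ≤ T S * T S ^ 11 := by
        have h2 : 2 * T S ^ 11 ≤ T S * T S ^ 11 := mul_le_mul_of_nonneg_right hT2 (by positivity)
        linarith
      calc (m : ℝ) * (T S ^ 11 + T S * dd S ^ 2) ≤ T S * (T S * T S ^ 11) :=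
            mul_le_mul hmT h1 (by positivity) hT0.le
        _ = T S ^ 13 := by ring
    have hB13 : T S ^ 13 ≤ Big S := T_pow_le_Big hS (by norm_num)
    have hB1 : T S ≤ Big S := by simpa using T_pow_le_Big hS (a := 1) (by norm_num)
    obtain ⟨s1, s1'⟩ := sumR_close hS
      (fun i => cmul S (nthZ S (lN r) i)
        (fdiv S (fmul S (nthZ S (nthL S (lM t) ((j : ℕ) : ℤ)) i) (fexp S (nthZ S (lF β) ((j : ℕ) : ℤ))))
          (rowSumF S (lN c) (lM t) (lF β) i)))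
      (fun i : Fin m => (r i : ℝ) * (rM S t j i * Real.exp (val S (β j)) /
        ∑ l, rM S t l i * Real.exp (val S (β l))))
      h2T (by positivity) (B := T S ^ 11)
      (fun i => (grad_term hS hN hn hnS hmS ht hβ j i).1)
      (fun i => (grad_term (c := c) hS hN hn hnS hmS ht hβ j i).2)
      (hb1.trans hB13)
    have hcj : nthZ S (lN c) ((j : ℕ) : ℤ) = (c j : ℤ) := nthZ_lF hnS _ j
    have hcB : |((c j : ℤ) : ℝ)| ≤ Big S := (abs_margin_le_T hS hN' j).trans hB1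
    have hfi := val_fint hS (n := (c j : ℤ)) hcB
    have hfiB : |val S (fint S (c j : ℤ))| ≤ Big S := by rwa [hfi]
    show |val S (capGradEntryF S (lN r) (lN c) (lM t) (lF β) ((j : ℕ) : ℤ)) - _| ≤ _
    unfold capGradEntryF
    rw [sumS_idx hlenr, length_lN, hcj, val_sub hS (s1'.trans (hb1.trans hB13)) hfiB, hfi]
    unfold capGrad
    set X := val S (sumR S m fun i => cmul S (nthZ S (lN r) i)
        (fdiv S (fmul S (nthZ S (nthL S (lM t) ((j : ℕ) : ℤ)) i) (fexp S (nthZ S (lF β) ((j : ℕ) : ℤ))))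
          (rowSumF S (lN c) (lM t) (lF β) i))) with hX
    have e : X - ((c j : ℤ) : ℝ) - (∑ i, (r i : ℝ) * (rM S t j i * Real.exp (val S (β j)) /
          ∑ l, rM S t l i * Real.exp (val S (β l))) - (c j : ℝ))
        = X - ∑ i, (r i : ℝ) * (rM S t j i * Real.exp (val S (β j)) /
          ∑ l, rM S t l i * Real.exp (val S (β l))) := by
      push_cast
      ring
    rw [e]
    refine s1.trans ?_
    have s3 : (m : ℝ) * (T S * dd S ^ 2) ≤ T S ^ 2 * dd S ^ 2 := by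
      calc (m : ℝ) * (T S * dd S ^ 2) ≤ T S * (T S * dd S ^ 2) :=
            mul_le_mul_of_nonneg_right hmT h2T
        _ = T S ^ 2 * dd S ^ 2 := by ring
    have s4 : T S ^ 2 * dd S ^ 2 ≤ dd S ^ 1 := T_dd_step hS (by norm_num) 1
    have s6 : dd S = (1 / 2 : ℝ) ^ (S ^ 5 / 8) := rfl
    rw [← s6]
    rw [pow_one] at s4
    linarith

end Vale.Agent.Lib.P328.Bit
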