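import Vale.Agent.Lib.P328.Samp.Ell

/-!
# P328, bit model: the ellipsoid method with rounding, abstractly (module ELLA)

Notation: `S.cut g` from `Samp/Defs` (`h = Wᵀ g`, `u = h / |h|`, `d = n + 1`, `s1 = d / sqrt (d^2 - 1)`, `s2 = d / (d + 1)`, `A = s1 • 1 + (s2 - s1) • u uᵀ`, `a' = a - W u / (d + 1)`, `W' = W A`), `Ell.Mem` and the lemmas of `Samp/Ell` (containment for the half, determinant factor).

`RoundStep η ζ S S' g`: `S'` is the cut of `S` by `g`, with `W` inflated by `1 + η`, up to errors `ζ` in all entries.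

Paper proof of `ell_robust`. Put `σ_k` a lower bound of the smallest singular value: `|W_k v| ≥ σ_k |v|`. `σ_0 = R0`. `|A v| ≥ s2 |v|` so `|W' v| ≥ s2 σ |v|`, `|W_{k+1} v| ≥ ((1 + η) s2 σ_k - n ζ) |v|`, so with `ζ ≤ η σ_I / (8 n)` and `s2 ≥ 2/3`: `σ_k ≥ R0 (1/2)^k`. (`|E v| ≤ n ζ |v|` for a matrix `E` with entries at most `ζ`, Cauchy-Schwarz.)
Containment: `x = a' + W' v'`, `|v'| ≤ 1` (Samp/Ell). `W_{k+1}` is injective so onto: `x = a_{k+1} + W_{k+1} v''`. `W_{k+1} = (1 + η) W' + E`, `a_{k+1} = a' + e`: `W' ((1 + η) v'' - v') = -e - E v''`, so `σ' |(1 + η) v'' - v'| ≤ √n ζ + n ζ |v''|`, and so `(1 + η - η/3) |v''| ≤ 1 + η/3`: `|v''| ≤ 1`.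
Volume: `W_{k+1} = W' ((1 + η) + F)`, `F = W'⁻¹ E`, `|F v| ≤ (η/3) |v|`, so `(1 + η) + F` maps the ball into `(1 + 2η)` times the ball and `|det ((1 + η) + F)| ≤ (1 + 2 η) ^ n` (`MeasureTheory.Measure.addHaar_image_linearMap`, or Samp/Ell step 3). So `|det W_{k+1}| ≤ |det W_k| (1 + 2η)^n det A`, with `η = 1 / (16 n (n + 2))`: `(1 + 2η)^n det A ≤ exp (-1 / (4 (n + 2)))`.
End: the cube `x0 + [0, θ]^n` is in all the ellipsoids, volume `θ^n ≤ |det W_I| 2^n` (as in `ellBest_le`), contradiction with `hI`.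
-/

namespace Vale.Agent.Lib.P328.Bit

open Finset MeasureTheory Vale.Agent.Lib.P328.Samp
open scoped Matrix Pointwise

variable {n : ℕ}

/-- One step of the rounded method. -/
structure RoundStep (η ζ : ℝ) (E E' : Ell n) (g : Fin n → ℝ) : Prop where
  /-- the direction is not degenerate -/
  hne : E.W.transpose.mulVec g ≠ 0
  /-- the centre -/
  ha : ∀ i, |E'.a i - (E.cut g).a i| ≤ ζ
  /-- the factor -/
  hW : ∀ i j, |E'.W i j - (1 + η) * (E.cut g).W i j| ≤ ζ


namespace EllAbsAux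

/-- Euclidean length. -/
noncomputable def nrm (v : Fin n → ℝ) : ℝ := Real.sqrt (v ⬝ᵥ v)

lemma dot_self_nonneg (v : Fin n → ℝ) : 0 ≤ v ⬝ᵥ v :=
  Finset.sum_nonneg fun i _ => mul_self_nonneg _

lemma nrm_nonneg (v : Fin n → ℝ) : 0 ≤ nrm v := Real.sqrt_nonneg _

lemma nrm_sq (v : Fin n → ℝ) : nrm v ^ 2 = v ⬝ᵥ v := Real.sq_sqrt (dot_self_nonneg v)

lemma cs_dot (x y : Fin n → ℝ) : (x ⬝ᵥ y) ^ 2 ≤ (x ⬝ᵥ x) * (y ⬝ᵥ y) := by
  have h := Finset.sum_mul_sq_le_sq_mul_sq univ x y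
  simpa [dotProduct, sq] using h

lemma abs_dot_le (x y : Fin n → ℝ) : |x ⬝ᵥ y| ≤ nrm x * nrm y := by
  rw [← Real.sqrt_sq_eq_abs]
  unfold nrm
  rw [← Real.sqrt_mul (dot_self_nonneg x)]
  exact Real.sqrt_le_sqrt (cs_dot x y)

lemma nrm_add_le (x y : Fin n → ℝ) : nrm (x + y) ≤ nrm x + nrm y := by
  unfold nrm
  apply Real.sqrt_le_iff.2
  refine ⟨add_nonneg (Real.sqrt_nonneg _) (Real.sqrt_nonneg _), ?_⟩
  have h1 : (x + y) ⬝ᵥ (x + y) = x ⬝ᵥ x + 2 * (x ⬝ᵥ y) + y ⬝ᵥ y := by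
    simp only [add_dotProduct, dotProduct_add, dotProduct_comm y x]
    ring
  have h2 := abs_dot_le x y
  have h3 := le_abs_self (x ⬝ᵥ y)
  have h4 := nrm_sq x
  have h5 := nrm_sq y
  unfold nrm at h2 h4 h5
  rw [h1]
  nlinarith

lemma nrm_smul (c : ℝ) (v : Fin n → ℝ) : nrm (c • v) = |c| * nrm v := by
  unfold nrm
  have h : (c • v) ⬝ᵥ (c • v) = c ^ 2 * (v ⬝ᵥ v) := by
    simp only [smul_dotProduct, dotProduct_smul, smul_eq_mul]
    ring
  rw [h, Real.sqrt_mul (sq_nonneg c), Real.sqrt_sq_eq_abs]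

lemma nrm_neg (v : Fin n → ℝ) : nrm (-v) = nrm v := by
  unfold nrm
  simp

lemma nrm_sub_le (x y : Fin n → ℝ) : nrm (x - y) ≤ nrm x + nrm y := by
  rw [sub_eq_add_neg]
  exact (nrm_add_le x (-y)).trans (by rw [nrm_neg])

lemma nrm_ge_sub (x y : Fin n → ℝ) : nrm x - nrm y ≤ nrm (x + y) := by
  have h := nrm_add_le (x + y) (-y)
  rw [nrm_neg, add_neg_cancel_right] at h
  linarith

lemma le_of_dot_le {x : Fin n → ℝ} {c : ℝ} (hc : 0 ≤ c) (h : x ⬝ᵥ x ≤ c ^ 2) : nrm x ≤ c :=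
  Real.sqrt_le_iff.2 ⟨hc, h⟩

lemma sum_sq_le {ζ : ℝ} (e : Fin n → ℝ) (h : ∀ i, |e i| ≤ ζ) : e ⬝ᵥ e ≤ (n : ℝ) * ζ ^ 2 := by
  calc e ⬝ᵥ e = ∑ i, e i * e i := rfl
    _ ≤ ∑ _i : Fin n, ζ ^ 2 := by
        refine Finset.sum_le_sum fun i _ => ?_
        have h1 := h i
        have h2 : e i * e i = |e i| ^ 2 := by rw [sq_abs]; ring
        rw [h2]
        exact pow_le_pow_left₀ (abs_nonneg _) h1 2
    _ = (n : ℝ) * ζ ^ 2 := by simp

lemma vec_bound {ζ : ℝ} (hζ : 0 ≤ ζ) (e : Fin n → ℝ) (h : ∀ i, |e i| ≤ ζ) :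
    nrm e ≤ (n : ℝ) * ζ := by
  apply le_of_dot_le (by positivity)
  refine (sum_sq_le e h).trans ?_
  have h1 : (n : ℝ) ≤ (n : ℝ) ^ 2 := by
    rcases Nat.eq_zero_or_pos n with h0 | h0
    · simp [h0]
    · have : (1 : ℝ) ≤ n := by exact_mod_cast h0
      nlinarith
  have h2 : 0 ≤ ζ ^ 2 := sq_nonneg ζ
  calc (n : ℝ) * ζ ^ 2 ≤ (n : ℝ) ^ 2 * ζ ^ 2 := mul_le_mul_of_nonneg_right h1 h2
    _ = ((n : ℝ) * ζ) ^ 2 := by ring

lemma matrix_bound {ζ : ℝ} (hζ : 0 ≤ ζ) (M : Matrix (Fin n) (Fin n) ℝ) (h : ∀ i j, |M i j| ≤ ζ)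
    (v : Fin n → ℝ) : nrm (M.mulVec v) ≤ (n : ℝ) * ζ * nrm v := by
  apply le_of_dot_le (by have := nrm_nonneg v; positivity)
  have hrow : ∀ i, M.mulVec v i * M.mulVec v i ≤ (n : ℝ) * ζ ^ 2 * (v ⬝ᵥ v) := by
    intro i
    have h1 := cs_dot (M i) v
    have h2 := sum_sq_le (M i) (h i)
    have h3 : M.mulVec v i = M i ⬝ᵥ v := rfl
    rw [h3, ← sq]
    exact h1.trans (mul_le_mul_of_nonneg_right h2 (dot_self_nonneg v))
  calc M.mulVec v ⬝ᵥ M.mulVec v = ∑ i, M.mulVec v i * M.mulVec v i := rfl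
    _ ≤ ∑ _i : Fin n, (n : ℝ) * ζ ^ 2 * (v ⬝ᵥ v) := Finset.sum_le_sum fun i _ => hrow i
    _ = (n : ℝ) * ((n : ℝ) * ζ ^ 2 * (v ⬝ᵥ v)) := by simp
    _ = ((n : ℝ) * ζ * nrm v) ^ 2 := by
        rw [mul_pow, mul_pow, nrm_sq]
        ring

/-- The numbers of the cut. -/
lemma s_facts (hn : 0 < n) :
    let d : ℝ := (n : ℝ) + 1
    let s1 : ℝ := d / Real.sqrt (d ^ 2 - 1)
    let s2 : ℝ := d / (d + 1)
    1 ≤ s1 ∧ s1 ≤ 2 ∧ 2 / 3 ≤ s2 ∧ s2 ≤ 1 := by
  intro d s1 s2
  have hn' : (1 : ℝ) ≤ n := by exact_mod_cast hn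
  have hd : (2 : ℝ) ≤ d := by simp only [d]; linarith
  have h1 : 0 < d ^ 2 - 1 := by nlinarith
  have h2 : 0 < Real.sqrt (d ^ 2 - 1) := Real.sqrt_pos.mpr h1
  refine ⟨?_, ?_, ?_, ?_⟩
  · simp only [s1]
    rw [one_le_div h2]
    apply Real.sqrt_le_iff.2
    constructor <;> nlinarith
  · simp only [s1]
    rw [div_le_iff₀ h2]
    have h3 : d / 2 ≤ Real.sqrt (d ^ 2 - 1) := by
      apply Real.le_sqrt_of_sq_le
      nlinarith
    linarith
  · simp only [s2]
    rw [le_div_iff₀ (by linarith)]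
    linarith
  · simp only [s2]
    rw [div_le_one (by linarith)]
    linarith

/-- The form of the cut. -/
lemma cut_form {E : Ell n} {g : Fin n → ℝ} (hne : E.W.transpose.mulVec g ≠ 0) :
    ∃ u : Fin n → ℝ, u ⬝ᵥ u = 1 ∧
      (E.cut g).a = E.a - ((n : ℝ) + 1 + 1)⁻¹ • E.W.mulVec u ∧
      (E.cut g).W = E.W * ((((n : ℝ) + 1) / Real.sqrt (((n : ℝ) + 1) ^ 2 - 1)) •
          (1 : Matrix (Fin n) (Fin n) ℝ)
        + (((n : ℝ) + 1) / ((n : ℝ) + 1 + 1) - ((n : ℝ) + 1) / Real.sqrt (((n : ℝ) + 1) ^ 2 - 1)) •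
          Matrix.vecMulVec u u) := by
  have hhh : 0 < E.W.transpose.mulVec g ⬝ᵥ E.W.transpose.mulVec g := by
    obtain ⟨i, hi⟩ : ∃ i, E.W.transpose.mulVec g i ≠ 0 := by
      by_contra hc
      push Not at hc
      exact hne (funext hc)
    have h0 := mul_self_pos.mpr hi
    calc 0 < E.W.transpose.mulVec g i * E.W.transpose.mulVec g i := h0
      _ ≤ ∑ j, E.W.transpose.mulVec g j * E.W.transpose.mulVec g j :=
        Finset.single_le_sum (f := fun j => E.W.transpose.mulVec g j * E.W.transpose.mulVec g j)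
          (fun j _ => mul_self_nonneg _) (mem_univ i)
  have hNsq := Real.mul_self_sqrt hhh.le
  refine ⟨(Real.sqrt (E.W.transpose.mulVec g ⬝ᵥ E.W.transpose.mulVec g))⁻¹ • E.W.transpose.mulVec g,
    ?_, ?_, ?_⟩
  · rw [smul_dotProduct, dotProduct_smul]
    simp only [smul_eq_mul]
    rw [← mul_assoc, ← mul_inv, hNsq, inv_mul_cancel₀ hhh.ne']
  · unfold Ell.cut
    rw [if_neg hne]
  · unfold Ell.cut
    rw [if_neg hne]

/-- The lower bound for the linear part of the cut. -/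
lemma A_lower {u : Fin n → ℝ} (huu : u ⬝ᵥ u = 1) {s1 s2 : ℝ} (hs2 : 0 ≤ s2) (hs : s2 ≤ s1)
    (v : Fin n → ℝ) :
    s2 * nrm v ≤ nrm ((s1 • (1 : Matrix (Fin n) (Fin n) ℝ)
      + (s2 - s1) • Matrix.vecMulVec u u).mulVec v) := by
  set ξ := u ⬝ᵥ v with hξ
  have hAv : (s1 • (1 : Matrix (Fin n) (Fin n) ℝ) + (s2 - s1) • Matrix.vecMulVec u u).mulVec v
      = s1 • v + ((s2 - s1) * ξ) • u := by
    rw [Matrix.add_mulVec, Matrix.smul_mulVec, Matrix.smul_mulVec, Matrix.one_mulVec,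
      Matrix.vecMulVec_mulVec, ← hξ]
    ext i
    simp only [Pi.add_apply, Pi.smul_apply, smul_eq_mul, MulOpposite.smul_eq_mul_unop,
      MulOpposite.unop_op]
    ring
  have hdot : (s1 • v + ((s2 - s1) * ξ) • u) ⬝ᵥ (s1 • v + ((s2 - s1) * ξ) • u)
      = s1 ^ 2 * (v ⬝ᵥ v) + (s2 ^ 2 - s1 ^ 2) * ξ ^ 2 := by
    simp only [add_dotProduct, dotProduct_add, smul_dotProduct, dotProduct_smul, smul_eq_mul, huu,
      dotProduct_comm v u, ← hξ]
    ring
  rw [hAv]
  refine Real.le_sqrt_of_sq_le ?_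
  rw [hdot, mul_pow, nrm_sq]
  have h1 := cs_dot u v
  rw [huu, one_mul, ← hξ] at h1
  have h2 : 0 ≤ s1 ^ 2 - s2 ^ 2 := by nlinarith
  nlinarith [mul_nonneg h2 (sub_nonneg.2 h1)]

/-- The smallest singular value is at least `σ`. -/
def SV (σ : ℝ) (W : Matrix (Fin n) (Fin n) ℝ) : Prop :=
  ∀ v : Fin n → ℝ, σ * nrm v ≤ nrm (W.mulVec v)

lemma SV.mono {σ τ : ℝ} {W : Matrix (Fin n) (Fin n) ℝ} (h : SV σ W) (hτ : τ ≤ σ) : SV τ W := fun v =>
  (mul_le_mul_of_nonneg_right hτ (nrm_nonneg v)).trans (h v)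

lemma nrm_eq_zero {v : Fin n → ℝ} (h : nrm v = 0) : v = 0 := by
  have h1 : v ⬝ᵥ v = 0 := by
    rw [← nrm_sq, h]
    ring
  exact dotProduct_self_eq_zero.mp h1

lemma nrm_zero : nrm (0 : Fin n → ℝ) = 0 := by
  simp [nrm]

lemma SV.injective {σ : ℝ} {W : Matrix (Fin n) (Fin n) ℝ} (h : SV σ W) (hσ : 0 < σ) :
    Function.Injective W.mulVec := by
  intro x y hxy
  have h1 := h (x - y)
  have h2 : W.mulVec (x - y) = 0 := by
    rw [Matrix.mulVec_sub, hxy, sub_self]
  rw [h2, nrm_zero] at h1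
  have h3 : nrm (x - y) = 0 := by
    have := nrm_nonneg (x - y)
    nlinarith
  exact sub_eq_zero.mp (nrm_eq_zero h3)

lemma SV.isUnit {σ : ℝ} {W : Matrix (Fin n) (Fin n) ℝ} (h : SV σ W) (hσ : 0 < σ) : IsUnit W :=
  Matrix.mulVec_injective_iff_isUnit.mp (h.injective hσ)

/-- The cut keeps the singular values, with the factor `s2`. -/
lemma SV_cut (hn : 0 < n) {E : Ell n} {g : Fin n → ℝ} (hne : E.W.transpose.mulVec g ≠ 0) {σ : ℝ}
    (hσ : 0 ≤ σ) (h : SV σ E.W) : SV (σ * (2 / 3)) (E.cut g).W := by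
  obtain ⟨u, huu, -, hW⟩ := cut_form hne
  obtain ⟨h1, -, h3, h4⟩ := s_facts hn
  intro v
  rw [hW, ← Matrix.mulVec_mulVec]
  refine le_trans ?_ (h _)
  have h5 := A_lower huu (s1 := ((n : ℝ) + 1) / Real.sqrt (((n : ℝ) + 1) ^ 2 - 1))
    (s2 := ((n : ℝ) + 1) / ((n : ℝ) + 1 + 1)) (by linarith) (by linarith) v
  have h6 := nrm_nonneg v
  calc σ * (2 / 3) * nrm v = σ * ((2 / 3) * nrm v) := by ring
    _ ≤ σ * ((((n : ℝ) + 1) / ((n : ℝ) + 1 + 1)) * nrm v) := by
        apply mul_le_mul_of_nonneg_left _ hσ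
        exact mul_le_mul_of_nonneg_right h3 h6
    _ ≤ _ := mul_le_mul_of_nonneg_left h5 hσ

/-- The error matrix of a step. -/
noncomputable def errM (η : ℝ) (E E' : Ell n) (g : Fin n → ℝ) : Matrix (Fin n) (Fin n) ℝ :=
  E'.W - (1 + η) • (E.cut g).W

lemma errM_eq (η : ℝ) (E E' : Ell n) (g : Fin n → ℝ) (v : Fin n → ℝ) :
    E'.W.mulVec v = (1 + η) • (E.cut g).W.mulVec v + (errM η E E' g).mulVec v := by
  unfold errM
  rw [Matrix.sub_mulVec, Matrix.smul_mulVec]
  abel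

lemma errM_bound {η ζ : ℝ} {E E' : Ell n} {g : Fin n → ℝ} (h : RoundStep η ζ E E' g) (hn : 0 < n)
    (v : Fin n → ℝ) : nrm ((errM η E E' g).mulVec v) ≤ (n : ℝ) * ζ * nrm v := by
  have hζ : 0 ≤ ζ := (abs_nonneg _).trans (h.ha ⟨0, hn⟩)
  refine matrix_bound hζ _ (fun i j => ?_) v
  have := h.hW i j
  simpa [errM] using this

lemma zeta_nonneg {η ζ : ℝ} {E E' : Ell n} {g : Fin n → ℝ} (h : RoundStep η ζ E E' g) (hn : 0 < n) :
    0 ≤ ζ := (abs_nonneg _).trans (h.ha ⟨0, hn⟩)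

/-- One step of the rounded method for the singular values. -/
lemma SV_step {η ζ σ : ℝ} {E E' : Ell n} {g : Fin n → ℝ} (h : RoundStep η ζ E E' g) (hn : 0 < n)
    (hη : 0 ≤ η) (hσ : 0 ≤ σ) (hs : SV σ E.W) :
    SV (σ * (2 / 3) - (n : ℝ) * ζ) E'.W := by
  intro v
  have h1 := SV_cut hn h.hne hσ hs v
  have h2 := errM_bound h hn v
  have h3 := nrm_ge_sub ((1 + η) • (E.cut g).W.mulVec v) ((errM η E E' g).mulVec v)
  rw [← errM_eq, nrm_smul, abs_of_nonneg (by linarith)] at h3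
  have h4 := nrm_nonneg ((E.cut g).W.mulVec v)
  have h5 : nrm ((E.cut g).W.mulVec v) ≤ (1 + η) * nrm ((E.cut g).W.mulVec v) := by nlinarith
  nlinarith

/-- The bound for the determinant. -/
lemma det_le_of_bound {B : Matrix (Fin n) (Fin n) ℝ} {c : ℝ} (hc : 0 < c)
    (h : ∀ v : Fin n → ℝ, nrm (B.mulVec v) ≤ c * nrm v) : |B.det| ≤ c ^ n := by
  set C : Set (Fin n → ℝ) := {v | v ⬝ᵥ v ≤ 1} with hC
  have hsub : (Matrix.toLin' B) '' C ⊆ c • C := by
    rintro y ⟨v, hv, rfl⟩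
    refine Set.mem_smul_set.2 ⟨c⁻¹ • B.mulVec v, ?_, ?_⟩
    · have h1 : nrm v ≤ 1 := le_of_dot_le (by norm_num) (by rw [one_pow]; exact hv)
      have h2 : nrm (c⁻¹ • B.mulVec v) ≤ 1 := by
        rw [nrm_smul, abs_of_pos (inv_pos.2 hc)]
        have h3 := h v
        calc c⁻¹ * nrm (B.mulVec v) ≤ c⁻¹ * (c * nrm v) :=
              mul_le_mul_of_nonneg_left h3 (inv_pos.2 hc).le
          _ = nrm v := by field_simp
          _ ≤ 1 := h1
      have h3 := nrm_sq (c⁻¹ • B.mulVec v)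
      have h4 := nrm_nonneg (c⁻¹ • B.mulVec v)
      change (c⁻¹ • B.mulVec v) ⬝ᵥ (c⁻¹ • B.mulVec v) ≤ 1
      rw [← h3]
      nlinarith
    · rw [Matrix.toLin'_apply, smul_smul, mul_inv_cancel₀ hc.ne', one_smul]
  have hfin : volume C ≠ ⊤ := by
    have h1 : C ⊆ Set.Icc (fun _ => (-1 : ℝ)) (fun _ => (1 : ℝ)) := by
      intro v hv
      have hvi : ∀ i, v i * v i ≤ 1 := fun i =>
        calc v i * v i ≤ ∑ j, v j * v j :=
              Finset.single_le_sum (f := fun j => v j * v j) (fun j _ => mul_self_nonneg _)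
                (mem_univ i)
          _ ≤ 1 := hv
      constructor
      · intro i; change (-1 : ℝ) ≤ v i; nlinarith [hvi i]
      · intro i; change v i ≤ (1 : ℝ); nlinarith [hvi i]
    have h2 : volume (Set.Icc (fun _ : Fin n => (-1 : ℝ)) (fun _ => (1 : ℝ))) ≠ ⊤ := by
      rw [Real.volume_Icc_pi]
      exact ENNReal.prod_ne_top fun _ _ => ENNReal.ofReal_ne_top
    exact ne_top_of_le_ne_top h2 (measure_mono h1)
  have hpos : volume C ≠ 0 := by
    have hr : (0 : ℝ) < 1 / ((n : ℝ) + 1) := by positivity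
    have h1 : Metric.ball (0 : Fin n → ℝ) (1 / ((n : ℝ) + 1)) ⊆ C := by
      intro v hv
      rw [mem_ball_zero_iff] at hv
      have hvi : ∀ i, |v i| ≤ 1 / ((n : ℝ) + 1) := fun i =>
        (norm_le_pi_norm v i).trans hv.le
      have h2 := sum_sq_le v hvi
      refine le_trans h2 ?_
      have h3 : (n : ℝ) * (1 / ((n : ℝ) + 1)) ^ 2 ≤ 1 := by
        have hn0 : (0 : ℝ) ≤ n := Nat.cast_nonneg n
        rw [div_pow, one_pow, mul_one_div, div_le_one (by positivity)]
        nlinarith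
      exact h3
    have h2 := Metric.measure_ball_pos volume (0 : Fin n → ℝ) hr
    exact (lt_of_lt_of_le h2 (measure_mono h1)).ne'
  have hle := measure_mono (μ := volume) hsub
  rw [Measure.addHaar_image_linearMap, LinearMap.det_toLin', Measure.addHaar_smul,
    Module.finrank_fin_fun, abs_of_pos (pow_pos hc n)] at hle
  have h3 := (ENNReal.mul_le_mul_iff_left hpos hfin).1 hle
  exact (ENNReal.ofReal_le_ofReal_iff (by positivity)).mp h3

end EllAbsAux

open EllAbsAux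

/-- The bound for the smallest singular value along the sequence: used to see that `W` is not small. -/
theorem ell_sigma (hn : 0 < n) {R0 : ℝ} (hR0 : 0 < R0) {I : ℕ} {seq : ℕ → Ell n} {g : ℕ → Fin n → ℝ}
    {ζ : ℝ} (h0 : seq 0 = ⟨0, R0 • (1 : Matrix (Fin n) (Fin n) ℝ)⟩)
    (hstep : ∀ k, k < I → RoundStep (1 / (16 * ((n : ℝ) * ((n : ℝ) + 2)))) ζ (seq k) (seq (k + 1)) (g k))
    (hζ : ζ * (1024 * (n : ℝ) ^ 3 * ((n : ℝ) + 2) * 2 ^ I) ≤ R0) :
    ∀ k, k ≤ I → ∀ v : Fin n → ℝ,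
      (R0 * (1 / 2) ^ k) ^ 2 * (v ⬝ᵥ v) ≤ (seq k).W.mulVec v ⬝ᵥ (seq k).W.mulVec v := by
  have hn' : (1 : ℝ) ≤ n := by exact_mod_cast hn
  have key : ∀ k, k ≤ I → SV (R0 * (1 / 2) ^ k) (seq k).W := by
    intro k
    induction k with
    | zero =>
      intro _ v
      rw [h0]
      simp only [pow_zero, mul_one]
      rw [Matrix.smul_mulVec, Matrix.one_mulVec, nrm_smul, abs_of_pos hR0]
    | succ k ih =>
      intro hk
      have hs := hstep k (by omega)
      have hζ0 := zeta_nonneg hs hn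
      have hη : (0 : ℝ) ≤ 1 / (16 * ((n : ℝ) * ((n : ℝ) + 2))) := by positivity
      have hσ : 0 ≤ R0 * (1 / 2) ^ k := by positivity
      refine (SV_step hs hn hη hσ (ih (by omega))).mono ?_
      have h2k : (2 : ℝ) ^ k ≤ 2 ^ I := pow_le_pow_right₀ (by norm_num) (by omega)
      have h1 : (n : ℝ) * ζ * (6 * 2 ^ k) ≤ R0 := by
        refine le_trans ?_ hζ
        have h2 : (n : ℝ) * 6 ≤ 1024 * (n : ℝ) ^ 3 * ((n : ℝ) + 2) := by
          have h3 : (1 : ℝ) ≤ (n : ℝ) ^ 2 := by nlinarith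
          nlinarith [mul_le_mul h3 (by linarith : (1 : ℝ) ≤ (n : ℝ) + 2) (by norm_num) (by positivity)]
        calc (n : ℝ) * ζ * (6 * 2 ^ k) = ζ * (((n : ℝ) * 6) * 2 ^ k) := by ring
          _ ≤ ζ * ((1024 * (n : ℝ) ^ 3 * ((n : ℝ) + 2)) * 2 ^ I) := by
              apply mul_le_mul_of_nonneg_left _ hζ0
              exact mul_le_mul h2 h2k (by positivity) (by positivity)
      have h3 : (1 / 2 : ℝ) ^ k * 2 ^ k = 1 := by
        rw [← mul_pow]
        norm_num
      have h4 : (n : ℝ) * ζ ≤ R0 * (1 / 2) ^ k / 6 := by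
        have h5 : (n : ℝ) * ζ = ((n : ℝ) * ζ * (6 * 2 ^ k)) * ((1 / 2) ^ k / 6) := by
          calc (n : ℝ) * ζ = (n : ℝ) * ζ * ((1 / 2 : ℝ) ^ k * 2 ^ k) := by rw [h3, mul_one]
            _ = _ := by ring
        rw [h5]
        calc (n : ℝ) * ζ * (6 * 2 ^ k) * ((1 / 2) ^ k / 6) ≤ R0 * ((1 / 2) ^ k / 6) :=
              mul_le_mul_of_nonneg_right h1 (by positivity)
          _ = R0 * (1 / 2) ^ k / 6 := by ring
      have h6 : (R0 * (1 / 2) ^ (k + 1) : ℝ) = R0 * (1 / 2) ^ k / 2 := by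
        rw [pow_succ]
        ring
      rw [h6]
      linarith
  intro k hk v
  have h1 := key k hk v
  have h2 : 0 ≤ R0 * (1 / 2) ^ k * nrm v := by
    have := nrm_nonneg v
    positivity
  have h3 := pow_le_pow_left₀ h2 h1 2
  rw [mul_pow, nrm_sq, nrm_sq] at h3
  exact h3

/-- The bound for the entries along the sequence. -/
theorem ell_upper (hn : 0 < n) {R0 : ℝ} (hR0 : 0 < R0) {I : ℕ} {seq : ℕ → Ell n} {g : ℕ → Fin n → ℝ}
    {ζ : ℝ} (hζ0 : 0 ≤ ζ) (hζ1 : ζ ≤ 1) (h0 : seq 0 = ⟨0, R0 • (1 : Matrix (Fin n) (Fin n) ℝ)⟩)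
    (hstep : ∀ k, k < I → RoundStep (1 / (16 * ((n : ℝ) * ((n : ℝ) + 2)))) ζ (seq k) (seq (k + 1)) (g k)) :
    ∀ k, k ≤ I → (∀ i j, |(seq k).W i j| ≤ (R0 + 1) * (8 * ((n : ℝ) + 1) ^ 2) ^ k)
      ∧ ∀ i, |(seq k).a i| ≤ (R0 + 1) * (8 * ((n : ℝ) + 1) ^ 2) ^ k := by
  have hn' : (1 : ℝ) ≤ n := by exact_mod_cast hn
  intro k
  induction k with
  | zero =>
    intro _
    rw [h0]
    simp only [pow_zero, mul_one]
    constructor
    · intro i j
      simp only [Matrix.smul_apply, Matrix.one_apply, smul_eq_mul]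
      by_cases hij : i = j
      · simp [hij, abs_of_pos hR0]
      · simp only [hij, if_false, mul_zero, abs_zero]
        linarith
    · intro i
      simp only [Pi.zero_apply, abs_zero]
      linarith
  | succ k ih =>
    intro hk
    obtain ⟨hW, ha⟩ := ih (by omega)
    have hs := hstep k (by omega)
    set M : ℝ := (R0 + 1) * (8 * ((n : ℝ) + 1) ^ 2) ^ k with hM
    have hM1 : 1 ≤ M := by
      have h1 : (1 : ℝ) ≤ (8 * ((n : ℝ) + 1) ^ 2) ^ k := one_le_pow₀ (by nlinarith)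
      have h2 : (1 : ℝ) ≤ R0 + 1 := by linarith
      calc (1 : ℝ) = 1 * 1 := by ring
        _ ≤ (R0 + 1) * (8 * ((n : ℝ) + 1) ^ 2) ^ k := mul_le_mul h2 h1 (by norm_num) (by linarith)
    have hM' : (R0 + 1) * (8 * ((n : ℝ) + 1) ^ 2) ^ (k + 1) = M * (8 * ((n : ℝ) + 1) ^ 2) := by
      rw [hM, pow_succ]
      ring
    rw [hM']
    obtain ⟨u, huu, hcuta, hcutW⟩ := cut_form hs.hne
    obtain ⟨h1, h2, h3, h4⟩ := s_facts hn
    have hui : ∀ i, |u i| ≤ 1 := by
      intro i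
      have hvi : u i * u i ≤ 1 := by
        calc u i * u i ≤ ∑ j, u j * u j :=
              Finset.single_le_sum (f := fun j => u j * u j) (fun j _ => mul_self_nonneg _)
                (mem_univ i)
          _ = 1 := huu
      rw [abs_le]
      constructor <;> nlinarith
    have hη1 : 1 / (16 * ((n : ℝ) * ((n : ℝ) + 2))) ≤ 1 := by
      rw [div_le_one (by positivity)]
      nlinarith
    have hη0 : 0 ≤ 1 / (16 * ((n : ℝ) * ((n : ℝ) + 2))) := by positivity
    constructor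
    · intro i j
      have hentry : ∀ l, |(((((n : ℝ) + 1) / Real.sqrt (((n : ℝ) + 1) ^ 2 - 1)) •
            (1 : Matrix (Fin n) (Fin n) ℝ)
          + (((n : ℝ) + 1) / ((n : ℝ) + 1 + 1) - ((n : ℝ) + 1) / Real.sqrt (((n : ℝ) + 1) ^ 2 - 1)) •
            Matrix.vecMulVec u u)) l j| ≤ 4 := by
        intro l
        simp only [Matrix.add_apply, Matrix.smul_apply, Matrix.one_apply, Matrix.vecMulVec_apply,
          smul_eq_mul]
        set s1 := ((n : ℝ) + 1) / Real.sqrt (((n : ℝ) + 1) ^ 2 - 1)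
        set s2 := ((n : ℝ) + 1) / ((n : ℝ) + 1 + 1)
        have h5 : |s1 * (if l = j then (1 : ℝ) else 0)| ≤ 2 := by
          by_cases hlj : l = j
          · simp only [hlj, if_true, mul_one]
            rw [abs_of_nonneg (by linarith)]
            exact h2
          · simp [hlj]
        have h6 : |(s2 - s1) * (u l * u j)| ≤ 2 := by
          rw [abs_mul, abs_mul]
          have h7 : |s2 - s1| ≤ 2 := by
            rw [abs_le]
            constructor <;> linarith
          have h8 : |u l| * |u j| ≤ 1 :=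
            mul_le_one₀ (hui l) (abs_nonneg _) (hui j)
          calc |s2 - s1| * (|u l| * |u j|) ≤ 2 * 1 :=
                mul_le_mul h7 h8 (by positivity) (by norm_num)
            _ = 2 := by norm_num
        calc _ ≤ |s1 * (if l = j then (1 : ℝ) else 0)| + |(s2 - s1) * (u l * u j)| := abs_add_le _ _
          _ ≤ 4 := by linarith
      have hW' : |(seq k |>.cut (g k)).W i j| ≤ (n : ℝ) * (M * 4) := by
        rw [hcutW, Matrix.mul_apply]
        calc _ ≤ ∑ l, |(seq k).W i l * _| := Finset.abs_sum_le_sum_abs _ _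
          _ ≤ ∑ _l : Fin n, M * 4 := by
              refine Finset.sum_le_sum fun l _ => ?_
              rw [abs_mul]
              exact mul_le_mul (hW i l) (hentry l) (abs_nonneg _) (by linarith)
          _ = (n : ℝ) * (M * 4) := by simp
      have h5 := hs.hW i j
      have h6 : |(seq (k + 1)).W i j| ≤ ζ + |(1 + 1 / (16 * ((n : ℝ) * ((n : ℝ) + 2)))) *
          (seq k |>.cut (g k)).W i j| := by
        have h7 := abs_add_le ((seq (k + 1)).W i j - (1 + 1 / (16 * ((n : ℝ) * ((n : ℝ) + 2)))) *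
          (seq k |>.cut (g k)).W i j) ((1 + 1 / (16 * ((n : ℝ) * ((n : ℝ) + 2)))) *
          (seq k |>.cut (g k)).W i j)
        rw [sub_add_cancel] at h7
        linarith
      rw [abs_mul, abs_of_nonneg (by linarith : (0 : ℝ) ≤ 1 + 1 / (16 * ((n : ℝ) * ((n : ℝ) + 2))))] at h6
      have h7 : (1 + 1 / (16 * ((n : ℝ) * ((n : ℝ) + 2)))) * |(seq k |>.cut (g k)).W i j|
          ≤ 2 * ((n : ℝ) * (M * 4)) :=
        mul_le_mul (by linarith) hW' (abs_nonneg _) (by norm_num)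
      have h8 : 8 * (n : ℝ) + 1 ≤ 8 * ((n : ℝ) + 1) ^ 2 := by nlinarith
      have h9 := mul_le_mul_of_nonneg_left h8 (by linarith : (0 : ℝ) ≤ M)
      have h10 : M * (8 * (n : ℝ) + 1) = 2 * ((n : ℝ) * (M * 4)) + M := by ring
      linarith
    · intro i
      have ha' : |(seq k |>.cut (g k)).a i| ≤ 2 * M := by
        rw [hcuta]
        simp only [Pi.sub_apply, Pi.smul_apply, smul_eq_mul]
        have h5 : |(seq k).W.mulVec u i| ≤ (n : ℝ) * M := by
          simp only [Matrix.mulVec, dotProduct]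
          calc _ ≤ ∑ l, |(seq k).W i l * u l| := Finset.abs_sum_le_sum_abs _ _
            _ ≤ ∑ _l : Fin n, M := by
                refine Finset.sum_le_sum fun l _ => ?_
                rw [abs_mul]
                calc |(seq k).W i l| * |u l| ≤ M * 1 :=
                      mul_le_mul (hW i l) (hui l) (abs_nonneg _) (by linarith)
                  _ = M := mul_one M
            _ = (n : ℝ) * M := by simp
        have h6 : |((n : ℝ) + 1 + 1)⁻¹ * (seq k).W.mulVec u i| ≤ M := by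
          rw [abs_mul, abs_of_pos (by positivity : (0 : ℝ) < ((n : ℝ) + 1 + 1)⁻¹)]
          have h7 : ((n : ℝ) + 1 + 1)⁻¹ * (n : ℝ) ≤ 1 := by
            rw [inv_mul_le_iff₀ (by positivity)]
            linarith
          calc ((n : ℝ) + 1 + 1)⁻¹ * |(seq k).W.mulVec u i|
              ≤ ((n : ℝ) + 1 + 1)⁻¹ * ((n : ℝ) * M) :=
                mul_le_mul_of_nonneg_left h5 (by positivity)
            _ = (((n : ℝ) + 1 + 1)⁻¹ * (n : ℝ)) * M := by ring
            _ ≤ 1 * M := mul_le_mul_of_nonneg_right h7 (by linarith)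
            _ = M := one_mul M
        have h7 := abs_sub ((seq k).a i) (((n : ℝ) + 1 + 1)⁻¹ * (seq k).W.mulVec u i)
        have h8 := ha i
        linarith
      have h5 := hs.ha i
      have h6 : |(seq (k + 1)).a i| ≤ ζ + |(seq k |>.cut (g k)).a i| := by
        have h7 := abs_add_le ((seq (k + 1)).a i - (seq k |>.cut (g k)).a i) ((seq k |>.cut (g k)).a i)
        rw [sub_add_cancel] at h7
        linarith
      have h8 : (3 : ℝ) ≤ 8 * ((n : ℝ) + 1) ^ 2 := by nlinarith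
      have h9 := mul_le_mul_of_nonneg_left h8 (by linarith : (0 : ℝ) ≤ M)
      linarith

/-- **The rounded ellipsoid method cannot make more than `I` proper cuts which keep a small cube.** -/
theorem ell_robust (hn : 0 < n) {R0 θ : ℝ} (hR0 : 0 < R0) (hθ : 0 < θ) {x0 : Fin n → ℝ}
    (hcube : ∀ x : Fin n → ℝ, (∀ i, x0 i ≤ x i ∧ x i ≤ x0 i + θ) → x ⬝ᵥ x ≤ R0 ^ 2)
    {I : ℕ} {seq : ℕ → Ell n} {g : ℕ → Fin n → ℝ} {ζ : ℝ}
    (h0 : seq 0 = ⟨0, R0 • (1 : Matrix (Fin n) (Fin n) ℝ)⟩)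
    (hstep : ∀ k, k < I → RoundStep (1 / (16 * ((n : ℝ) * ((n : ℝ) + 2)))) ζ (seq k) (seq (k + 1)) (g k))
    (hcut : ∀ k, k < I → ∀ x : Fin n → ℝ, (∀ i, x0 i ≤ x i ∧ x i ≤ x0 i + θ) →
      g k ⬝ᵥ (x - (seq k).a) ≤ 0)
    (hζ : ζ * (1024 * (n : ℝ) ^ 3 * ((n : ℝ) + 2) * 2 ^ I) ≤ R0)
    (hI : (2 * R0 / θ) ^ n * Real.exp (-(I : ℝ) / (4 * ((n : ℝ) + 2))) < 1) : False := by
  have hn' : (1 : ℝ) ≤ n := by exact_mod_cast hn
  set η : ℝ := 1 / (16 * ((n : ℝ) * ((n : ℝ) + 2))) with hη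
  have hη0 : 0 < η := by positivity
  have hsig := ell_sigma hn hR0 h0 hstep hζ
  have hSV : ∀ k, k ≤ I → SV (R0 * (1 / 2) ^ k) (seq k).W := by
    intro k hk v
    have h1 := hsig k hk v
    have h2 : 0 ≤ nrm ((seq k).W.mulVec v) := nrm_nonneg _
    rw [← nrm_sq, ← nrm_sq, ← mul_pow] at h1
    exact (abs_le_of_sq_le_sq' h1 h2).2
  have hinv : ∀ k, k ≤ I →
      (∀ x : Fin n → ℝ, (∀ i, x0 i ≤ x i ∧ x i ≤ x0 i + θ) → (seq k).Mem x) ∧
      |(seq k).W.det| ≤ R0 ^ n * Real.exp (-(k : ℝ) / (4 * ((n : ℝ) + 2))) := by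
    intro k
    induction k with
    | zero =>
      intro _
      rw [h0]
      constructor
      · intro x hx
        refine ⟨R0⁻¹ • x, ?_, ?_⟩
        · rw [smul_dotProduct, dotProduct_smul]
          simp only [smul_eq_mul]
          have h1 := hcube x hx
          have h2 : R0⁻¹ * (R0⁻¹ * (x ⬝ᵥ x)) = (x ⬝ᵥ x) / R0 ^ 2 := by
            field_simp
          rw [h2, div_le_one (by positivity)]
          exact h1
        · simp only
          rw [Matrix.smul_mulVec, Matrix.one_mulVec, smul_smul, mul_inv_cancel₀ hR0.ne']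
          simp
      · simp only [Matrix.det_smul, Matrix.det_one, Fintype.card_fin, mul_one]
        simp only [Nat.cast_zero, neg_zero, zero_div, Real.exp_zero, mul_one]
        rw [abs_of_pos (pow_pos hR0 n)]
    | succ k ih =>
      intro hk
      obtain ⟨h1, h2⟩ := ih (by omega)
      have hs := hstep k (by omega)
      have hζ0 := zeta_nonneg hs hn
      set E := seq k with hE
      set E' := seq (k + 1) with hE'
      set S' := E.cut (g k) with hS'
      set σ : ℝ := R0 * (1 / 2) ^ k * (2 / 3) with hσ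
      have hσ0 : 0 < σ := by positivity
      have hSV' : SV σ S'.W := SV_cut hn hs.hne (by positivity) (hSV k (by omega))
      -- the size of the error relative to the singular value
      have hρ : 3 * ((n : ℝ) * ζ) ≤ σ * η := by
        have h2k : (2 : ℝ) ^ k ≤ 2 ^ I := pow_le_pow_right₀ (by norm_num) (by omega)
        have h3 : (1 / 2 : ℝ) ^ k * 2 ^ k = 1 := by
          rw [← mul_pow]
          norm_num
        have h4 : ζ * (72 * (n : ℝ) ^ 2 * ((n : ℝ) + 2) * 2 ^ k) ≤ R0 := by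
          refine le_trans ?_ hζ
          apply mul_le_mul_of_nonneg_left _ hζ0
          have h5 : 72 * (n : ℝ) ^ 2 * ((n : ℝ) + 2) ≤ 1024 * (n : ℝ) ^ 3 * ((n : ℝ) + 2) := by
            have h6 : 72 * (n : ℝ) ^ 2 ≤ 1024 * (n : ℝ) ^ 3 := by
              have h7 : (n : ℝ) ^ 2 ≤ (n : ℝ) ^ 3 := by
                rw [pow_succ (n : ℝ) 2]
                nlinarith [sq_nonneg (n : ℝ)]
              nlinarith [sq_nonneg (n : ℝ)]
            exact mul_le_mul_of_nonneg_right h6 (by positivity)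
          exact mul_le_mul h5 h2k (by positivity) (by positivity)
        have hnn : (0 : ℝ) < (n : ℝ) * ((n : ℝ) + 2) := by positivity
        rw [hη, hσ]
        have h8 : R0 * (1 / 2) ^ k * (2 / 3) * (1 / (16 * ((n : ℝ) * ((n : ℝ) + 2))))
            = R0 * (1 / 2) ^ k / (24 * ((n : ℝ) * ((n : ℝ) + 2))) := by
          field_simp
          ring
        rw [h8, le_div_iff₀ (by positivity)]
        calc 3 * ((n : ℝ) * ζ) * (24 * ((n : ℝ) * ((n : ℝ) + 2)))
            = (ζ * (72 * (n : ℝ) ^ 2 * ((n : ℝ) + 2) * 2 ^ k)) * (1 / 2) ^ k := by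
              calc _ = ζ * (72 * (n : ℝ) ^ 2 * ((n : ℝ) + 2)) * 1 := by ring
                _ = ζ * (72 * (n : ℝ) ^ 2 * ((n : ℝ) + 2)) * ((1 / 2 : ℝ) ^ k * 2 ^ k) := by rw [h3]
                _ = _ := by ring
          _ ≤ R0 * (1 / 2) ^ k := mul_le_mul_of_nonneg_right h4 (by positivity)
      have hρ' : (n : ℝ) * ζ ≤ σ * (η / 3) := by linarith
      -- the error matrix
      have herr := errM_bound hs hn
      have hstepW := errM_eq η E E' (g k)
      have hE'inj : SV (σ * 1) S'.W := by simpa using hSV'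
      have hWunit : IsUnit E'.W := (hSV (k + 1) hk).isUnit (by positivity)
      have hS'unit : IsUnit S'.W := hSV'.isUnit hσ0
      constructor
      · -- containment
        intro x hx
        obtain ⟨v', hv', hxv'⟩ := Ell.mem_cut hs.hne (h1 x hx) (hcut k (by omega) x hx)
        obtain ⟨v'', hv''⟩ := Matrix.mulVec_surjective_iff_isUnit.mpr hWunit (x - E'.a)
        refine ⟨v'', ?_, ?_⟩
        swap
        · rw [hv'']
          abel
        have hv'1 : nrm v' ≤ 1 := le_of_dot_le (by norm_num) (by rw [one_pow]; exact hv')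
        set y : Fin n → ℝ := (1 + η) • v'' - v' with hy
        have hWy : S'.W.mulVec y = (S'.a - E'.a) + -(errM η E E' (g k)).mulVec v'' := by
          have h5 := hstepW v''
          rw [hv''] at h5
          have h6 : S'.W.mulVec y = (1 + η) • S'.W.mulVec v'' - S'.W.mulVec v' := by
            rw [hy, Matrix.mulVec_sub, Matrix.mulVec_smul]
          rw [h6]
          have h7 : S'.W.mulVec v' = x - S'.a := by
            rw [hxv']
            abel
          rw [h7]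
          have h8 : (1 + η) • S'.W.mulVec v'' = x - E'.a - (errM η E E' (g k)).mulVec v'' := by
            rw [h5]
            abel
          rw [h8]
          abel
        have he : nrm (S'.a - E'.a) ≤ (n : ℝ) * ζ := by
          refine vec_bound hζ0 _ fun i => ?_
          have := hs.ha i
          simp only [Pi.sub_apply]
          rwa [abs_sub_comm]
        have h5 : σ * nrm y ≤ (n : ℝ) * ζ * (1 + nrm v'') := by
          have h6 := hSV' y
          rw [hWy] at h6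
          have h7 := nrm_add_le (S'.a - E'.a) (-(errM η E E' (g k)).mulVec v'')
          rw [nrm_neg] at h7
          have h8 := herr v''
          nlinarith
        have h6 : nrm y ≤ (η / 3) * (1 + nrm v'') := by
          have h7 : σ * nrm y ≤ σ * ((η / 3) * (1 + nrm v'')) := by
            have h8 : 0 ≤ 1 + nrm v'' := by
              have := nrm_nonneg v''
              linarith
            calc σ * nrm y ≤ (n : ℝ) * ζ * (1 + nrm v'') := h5
              _ ≤ σ * (η / 3) * (1 + nrm v'') := mul_le_mul_of_nonneg_right hρ' h8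
              _ = _ := by ring
          exact le_of_mul_le_mul_left h7 hσ0
        have h7 : (1 + η) * nrm v'' ≤ nrm y + nrm v' := by
          have h8 : (1 + η) • v'' = y + v' := by
            rw [hy]
            abel
          have h9 := nrm_add_le y v'
          rw [← h8, nrm_smul, abs_of_pos (by linarith)] at h9
          exact h9
        have h8 : nrm v'' ≤ 1 := by
          by_contra hc
          push Not at hc
          nlinarith
        have h9 := nrm_sq v''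
        have h10 := nrm_nonneg v''
        rw [← h9]
        nlinarith
      · -- the determinant
        obtain ⟨B, hB⟩ : ∃ B, E'.W = S'.W * B := ⟨S'.W⁻¹ * E'.W, by
          rw [← mul_assoc, Matrix.mul_nonsing_inv _ ((Matrix.isUnit_iff_isUnit_det _).mp hS'unit),
            one_mul]⟩
        have hBv : ∀ v, nrm (B.mulVec v) ≤ (1 + 2 * η) * nrm v := by
          intro v
          set y : Fin n → ℝ := B.mulVec v - (1 + η) • v with hy
          have hWy : S'.W.mulVec y = (errM η E E' (g k)).mulVec v := by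
            have h5 := hstepW v
            rw [hB, ← Matrix.mulVec_mulVec] at h5
            rw [hy, Matrix.mulVec_sub, Matrix.mulVec_smul, h5]
            abel
          have h5 := hSV' y
          rw [hWy] at h5
          have h6 := herr v
          have hv0 := nrm_nonneg v
          have h7 : σ * nrm y ≤ σ * ((η / 3) * nrm v) := by
            calc σ * nrm y ≤ (n : ℝ) * ζ * nrm v := h5.trans h6
              _ ≤ σ * (η / 3) * nrm v := mul_le_mul_of_nonneg_right hρ' hv0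
              _ = _ := by ring
          have h8 := le_of_mul_le_mul_left h7 hσ0
          have h9 : B.mulVec v = y + (1 + η) • v := by
            rw [hy]
            abel
          have h10 := nrm_add_le y ((1 + η) • v)
          rw [← h9, nrm_smul, abs_of_pos (by linarith)] at h10
          nlinarith
        have hdetB := det_le_of_bound (by linarith : 0 < 1 + 2 * η) hBv
        have hcutdet := Ell.det_cut hs.hne
        have hpow : (1 + 2 * η) ^ n ≤ Real.exp (1 / (8 * ((n : ℝ) + 2))) := by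
          have h3 : 1 + 2 * η ≤ Real.exp (2 * η) := by
            have := Real.add_one_le_exp (2 * η)
            linarith
          calc (1 + 2 * η) ^ n ≤ (Real.exp (2 * η)) ^ n := pow_le_pow_left₀ (by linarith) h3 n
            _ = Real.exp ((n : ℝ) * (2 * η)) := by rw [Real.exp_nat_mul]
            _ = Real.exp (1 / (8 * ((n : ℝ) + 2))) := by
                congr 1
                rw [hη]
                field_simp
                ring
        have hE1 : Real.exp (-1 / (2 * ((n : ℝ) + 2))) * Real.exp (1 / (8 * ((n : ℝ) + 2)))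
            ≤ Real.exp (-1 / (4 * ((n : ℝ) + 2))) := by
          rw [← Real.exp_add]
          apply Real.exp_le_exp.mpr
          have h3 : (0 : ℝ) < (n : ℝ) + 2 := by positivity
          have h4 : -1 / (2 * ((n : ℝ) + 2)) + 1 / (8 * ((n : ℝ) + 2))
              = -(3 / 8) / ((n : ℝ) + 2) := by
            field_simp
            ring
          have h5 : -1 / (4 * ((n : ℝ) + 2)) = -(1 / 4) / ((n : ℝ) + 2) := by
            field_simp
          rw [h4, h5]
          apply div_le_div_of_nonneg_right _ h3.le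
          norm_num
        have hE2 : Real.exp (-((k + 1 : ℕ) : ℝ) / (4 * ((n : ℝ) + 2)))
            = Real.exp (-(k : ℝ) / (4 * ((n : ℝ) + 2))) * Real.exp (-1 / (4 * ((n : ℝ) + 2))) := by
          rw [← Real.exp_add]
          congr 1
          push_cast
          ring
        rw [hB, Matrix.det_mul, abs_mul, hE2]
        calc |S'.W.det| * |B.det|
            ≤ (|E.W.det| * Real.exp (-1 / (2 * ((n : ℝ) + 2)))) *
                Real.exp (1 / (8 * ((n : ℝ) + 2))) :=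
              mul_le_mul hcutdet (hdetB.trans hpow) (abs_nonneg _)
                (mul_nonneg (abs_nonneg _) (Real.exp_pos _).le)
          _ = |E.W.det| * (Real.exp (-1 / (2 * ((n : ℝ) + 2))) *
                Real.exp (1 / (8 * ((n : ℝ) + 2)))) := by ring
          _ ≤ |E.W.det| * Real.exp (-1 / (4 * ((n : ℝ) + 2))) :=
              mul_le_mul_of_nonneg_left hE1 (abs_nonneg _)
          _ ≤ (R0 ^ n * Real.exp (-(k : ℝ) / (4 * ((n : ℝ) + 2)))) *
                Real.exp (-1 / (4 * ((n : ℝ) + 2))) :=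
              mul_le_mul_of_nonneg_right h2 (Real.exp_pos _).le
          _ = _ := by ring
  obtain ⟨h1, h2⟩ := hinv I le_rfl
  have h3 := Ell.cube_volume hθ h1
  have h4 : θ ^ n ≤ R0 ^ n * Real.exp (-(I : ℝ) / (4 * ((n : ℝ) + 2))) * 2 ^ n :=
    h3.trans (mul_le_mul_of_nonneg_right h2 (by positivity))
  have h5 : (2 * R0 / θ) ^ n * Real.exp (-(I : ℝ) / (4 * ((n : ℝ) + 2))) * θ ^ n
      = R0 ^ n * Real.exp (-(I : ℝ) / (4 * ((n : ℝ) + 2))) * 2 ^ n := by
    rw [div_pow, mul_pow]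
    field_simp
  have h6 : 0 < θ ^ n := pow_pos hθ n
  have h7 := mul_lt_mul_of_pos_right hI h6
  rw [h5, one_mul] at h7
  exact absurd h4 (not_le.mpr h7)

end Vale.Agent.Lib.P328.Bit
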