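import Vale.Agent.Lib.P328.Bit.CapG

/-!
# P328, bit model: a small calculus of approximations on words (module ELLF)

`Ap S k l w X`: the word `w` approximates the real `X` with error at most `κ^k ε` where `κ = 2^(S^3)` and `ε = (1/2)^(S^5/4)`, and `|X| ≤ κ^l`.
All levels are at most `100`. Since `κ^200 ε ≤ 1`, `2 κ^100 ≤ Big S`, nothing saturates.
Each operation on words raises the levels by a fixed amount.
-/

namespace Vale.Agent.Lib.P328.Bit

open Finset

namespace EllW

variable {S : ℕ}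

/-- The scale of magnitudes. -/
noncomputable def kap (S : ℕ) : ℝ := 2 ^ (S ^ 3)

/-- The base error. -/
noncomputable def eps (S : ℕ) : ℝ := (1 / 2) ^ (S ^ 5 / 4)

lemma kap_pos : 0 < kap S := by unfold kap; positivity

lemma eps_pos : 0 < eps S := by unfold eps; positivity

lemma two_mul_half {a b : ℕ} (h : a ≤ b) : (2 : ℝ) ^ a * (1 / 2) ^ b ≤ 1 := by
  have h1 : (1 / 2 : ℝ) ^ b ≤ (1 / 2) ^ a := pow_le_pow_of_le_one (by norm_num) (by norm_num) h
  have h2 : (2 : ℝ) ^ a * (1 / 2) ^ a = 1 := by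
    rw [← mul_pow]
    norm_num
  calc (2 : ℝ) ^ a * (1 / 2) ^ b ≤ 2 ^ a * (1 / 2) ^ a := mul_le_mul_of_nonneg_left h1 (by positivity)
    _ = 1 := h2

section Facts

variable (hS : 1000000 ≤ S)
include hS

lemma cube_ge : 1000 ≤ S ^ 3 := by
  have h1 : S ≤ S ^ 3 := Nat.le_self_pow (by norm_num) S
  omega

lemma kap_ge4 : 4 ≤ kap S := by
  unfold kap
  have h1 := cube_ge hS
  calc (4 : ℝ) = 2 ^ 2 := by norm_num
    _ ≤ 2 ^ (S ^ 3) := pow_le_pow_right₀ (by norm_num) (by omega)

lemma kap_ge1 : 1 ≤ kap S := by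
  have := kap_ge4 hS
  linarith

lemma S_le_kap : (S : ℝ) ≤ kap S := by
  unfold kap
  have h1 : S ≤ S ^ 3 := Nat.le_self_pow (by norm_num) S
  have h2 : S ^ 3 < 2 ^ (S ^ 3) := Nat.lt_two_pow_self
  have h3 : S ≤ 2 ^ (S ^ 3) := by omega
  exact_mod_cast h3

lemma kap_small : kap S ^ 200 * eps S ≤ 1 := by
  unfold kap eps
  rw [← pow_mul]
  apply two_mul_half
  rw [Nat.le_div_iff_mul_le (by norm_num)]
  have h1 : S ^ 5 = S ^ 3 * (S * S) := by ring
  have h2 : 800 ≤ S * S := by nlinarith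
  rw [h1]
  nlinarith [Nat.zero_le (S ^ 3)]

lemma kap_big : 2 * kap S ^ 100 ≤ Big S := by
  unfold kap Big
  rw [← pow_mul]
  have h1 : 2 * (2 : ℝ) ^ (S ^ 3 * 100) = 2 ^ (S ^ 3 * 100 + 1) := by
    rw [pow_succ]
    ring
  rw [h1]
  apply pow_le_pow_right₀ (by norm_num)
  have h2 : S ^ 4 = S ^ 3 * S := by ring
  rw [h2]
  have h3 := cube_ge hS
  nlinarith

lemma ulp_le : ulp S ≤ eps S := by
  unfold ulp eps prec
  rw [one_div, ← inv_pow, ← one_div]
  apply pow_le_pow_of_le_one (by norm_num) (by norm_num)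
  exact Nat.div_le_self _ _

omit hS in
lemma kap_pow_pos (k : ℕ) : 0 < kap S ^ k := pow_pos kap_pos k

lemma kap_mono {a b : ℕ} (h : a ≤ b) : kap S ^ a ≤ kap S ^ b :=
  pow_le_pow_right₀ (kap_ge1 hS) h

lemma kap_pow_ge1 (a : ℕ) : 1 ≤ kap S ^ a := one_le_pow₀ (kap_ge1 hS)

/-- Errors are small. -/
lemma err_small {a : ℕ} (h : a ≤ 200) : kap S ^ a * eps S ≤ 1 :=
  le_trans (mul_le_mul_of_nonneg_right (kap_mono hS h) eps_pos.le) (kap_small hS)

/-- Errors are small against a negative power. -/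
lemma err_small' {a d : ℕ} (h : a + d ≤ 200) : kap S ^ a * eps S * kap S ^ d ≤ 1 := by
  have h1 := err_small hS h
  rw [pow_add] at h1
  calc kap S ^ a * eps S * kap S ^ d = kap S ^ a * kap S ^ d * eps S := by ring
    _ ≤ 1 := h1

end Facts

/-- `w` approximates `X`, with error level `k` and magnitude level `l`. -/
structure Ap (S k l : ℕ) (w : ℤ) (X : ℝ) : Prop where
  err : |val S w - X| ≤ kap S ^ k * eps S
  mag : |X| ≤ kap S ^ l
  hk : k ≤ 100
  hl : l ≤ 100

/-- An exact word. -/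
lemma Ap.exact {w : ℤ} {l : ℕ} (hl : l ≤ 100) (h : |val S w| ≤ kap S ^ l) : Ap S 0 l w (val S w) := by
  refine ⟨?_, h, by norm_num, hl⟩
  rw [sub_self, abs_zero]
  exact mul_nonneg (kap_pow_pos 0).le eps_pos.le

/-- Raising the levels. -/
lemma Ap.mono (hS : 1000000 ≤ S) {w : ℤ} {X : ℝ} {k l k' l' : ℕ} (h : Ap S k l w X)
    (hlev : k ≤ k' ∧ l ≤ l' ∧ k' ≤ 100 ∧ l' ≤ 100) : Ap S k' l' w X :=
  ⟨h.err.trans (mul_le_mul_of_nonneg_right (kap_mono hS hlev.1) eps_pos.le),
    h.mag.trans (kap_mono hS hlev.2.1), hlev.2.2.1, hlev.2.2.2⟩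

/-- The same real. -/
lemma Ap.congr {w : ℤ} {X Y : ℝ} {k l : ℕ} (h : Ap S k l w X) (hXY : X = Y) : Ap S k l w Y := by
  subst hXY
  exact h

/-- The word itself is bounded. -/
lemma Ap.val_le (hS : 1000000 ≤ S) {w : ℤ} {X : ℝ} {k l : ℕ} (h : Ap S k l w X) :
    |val S w| ≤ 2 * kap S ^ l := by
  have h1 := h.err
  have h2 := h.mag
  have h3 := err_small hS (a := k) (by have := h.hk; omega)
  have h4 := kap_pow_ge1 hS l
  have h5 := abs_sub_abs_le_abs_sub (val S w) X
  linarith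

lemma Ap.val_big (hS : 1000000 ≤ S) {w : ℤ} {X : ℝ} {k l : ℕ} (h : Ap S k l w X) :
    |val S w| ≤ Big S := by
  have h1 := h.val_le hS
  have h2 := kap_big hS
  have h3 := kap_mono hS h.hl
  linarith

/-- The sum. -/
lemma Ap.add (hS : 1000000 ≤ S) {x y : ℤ} {X Y : ℝ} {k1 l1 k2 l2 k l : ℕ} (hx : Ap S k1 l1 x X)
    (hy : Ap S k2 l2 y Y) (hlev : k1 + 1 ≤ k ∧ k2 + 1 ≤ k ∧ l1 + 1 ≤ l ∧ l2 + 1 ≤ l ∧ k ≤ 100 ∧ l ≤ 100) :
    Ap S k l (cadd S x y) (X + Y) := by
  obtain ⟨h1, h2, h3, h4, h5, h6⟩ := hlev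
  have hκ := kap_ge4 hS
  have he := eps_pos (S := S)
  have hpow : ∀ {a b : ℕ}, a + 1 ≤ b → 2 * kap S ^ a ≤ kap S ^ b := by
    intro a b hab
    have h7 := kap_mono hS hab
    rw [pow_succ] at h7
    have h8 := kap_pow_pos (S := S) a
    nlinarith
  refine ⟨?_, ?_, h5, h6⟩
  · rw [val_add hS (hx.val_big hS) (hy.val_big hS)]
    have h7 : val S x + val S y - (X + Y) = (val S x - X) + (val S y - Y) := by ring
    rw [h7]
    have h8 := abs_add_le (val S x - X) (val S y - Y)
    have h9 := mul_le_mul_of_nonneg_right (hpow h1) he.le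
    have h10 := mul_le_mul_of_nonneg_right (hpow h2) he.le
    have h11 := hx.err
    have h12 := hy.err
    linarith
  · have h8 := abs_add_le X Y
    have h9 := hpow h3
    have h10 := hpow h4
    have h11 := hx.mag
    have h12 := hy.mag
    linarith

/-- The difference. -/
lemma Ap.sub (hS : 1000000 ≤ S) {x y : ℤ} {X Y : ℝ} {k1 l1 k2 l2 k l : ℕ} (hx : Ap S k1 l1 x X)
    (hy : Ap S k2 l2 y Y) (hlev : k1 + 1 ≤ k ∧ k2 + 1 ≤ k ∧ l1 + 1 ≤ l ∧ l2 + 1 ≤ l ∧ k ≤ 100 ∧ l ≤ 100) :
    Ap S k l (csub S x y) (X - Y) := by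
  obtain ⟨h1, h2, h3, h4, h5, h6⟩ := hlev
  have hκ := kap_ge4 hS
  have he := eps_pos (S := S)
  have hpow : ∀ {a b : ℕ}, a + 1 ≤ b → 2 * kap S ^ a ≤ kap S ^ b := by
    intro a b hab
    have h7 := kap_mono hS hab
    rw [pow_succ] at h7
    have h8 := kap_pow_pos (S := S) a
    nlinarith
  refine ⟨?_, ?_, h5, h6⟩
  · rw [val_sub hS (hx.val_big hS) (hy.val_big hS)]
    have h7 : val S x - val S y - (X - Y) = (val S x - X) - (val S y - Y) := by ring
    rw [h7]
    have h8 := abs_sub (val S x - X) (val S y - Y)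
    have h9 := mul_le_mul_of_nonneg_right (hpow h1) he.le
    have h10 := mul_le_mul_of_nonneg_right (hpow h2) he.le
    have h11 := hx.err
    have h12 := hy.err
    linarith
  · have h8 := abs_sub X Y
    have h9 := hpow h3
    have h10 := hpow h4
    have h11 := hx.mag
    have h12 := hy.mag
    linarith

/-- The product. -/
lemma Ap.mul (hS : 1000000 ≤ S) {x y : ℤ} {X Y : ℝ} {k1 l1 k2 l2 k l : ℕ} (hx : Ap S k1 l1 x X)
    (hy : Ap S k2 l2 y Y) (hlev : k1 + l2 + 1 ≤ k ∧ k2 + l1 + 1 ≤ k ∧ l1 + l2 ≤ l ∧ k ≤ 100 ∧ l ≤ 100) :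
    Ap S k l (fmul S x y) (X * Y) := by
  obtain ⟨h1, h2, h3, h4, h5⟩ := hlev
  have hκ := kap_ge4 hS
  have he := eps_pos (S := S)
  refine ⟨?_, ?_, h4, h5⟩
  · have h6 := val_fmul hS (hx.val_big hS) (hy.val_big hS)
    have h7 := ulp_le hS (S := S)
    have h8 : val S x * val S y - X * Y = (val S x - X) * val S y + X * (val S y - Y) := by ring
    have h9 : |val S x * val S y - X * Y| ≤ kap S ^ k1 * eps S * (2 * kap S ^ l2)
        + kap S ^ l1 * (kap S ^ k2 * eps S) := by
      rw [h8]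
      refine (abs_add_le _ _).trans (add_le_add ?_ ?_)
      · rw [abs_mul]
        exact mul_le_mul hx.err (hy.val_le hS) (abs_nonneg _)
          (mul_nonneg (kap_pow_pos _).le he.le)
      · rw [abs_mul]
        exact mul_le_mul hx.mag hy.err (abs_nonneg _) (kap_pow_pos _).le
    have h10 : val S (fmul S x y) - X * Y
        = (val S (fmul S x y) - val S x * val S y) + (val S x * val S y - X * Y) := by ring
    rw [h10]
    refine (abs_add_le _ _).trans ?_
    obtain ⟨k', rfl⟩ : ∃ k', k = k' + 1 := ⟨k - 1, by omega⟩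
    have h11 : kap S ^ k1 * kap S ^ l2 ≤ kap S ^ k' := by
      rw [← pow_add]
      exact kap_mono hS (by omega)
    have h12 : kap S ^ l1 * kap S ^ k2 ≤ kap S ^ k' := by
      rw [← pow_add]
      exact kap_mono hS (by omega)
    have h13 := kap_pow_ge1 hS k'
    have h14 : kap S ^ (k' + 1) * eps S = 4 * (kap S ^ k' * eps S) + (kap S - 4) * (kap S ^ k' * eps S) := by
      rw [pow_succ]
      ring
    have h15 : 0 ≤ (kap S - 4) * (kap S ^ k' * eps S) :=
      mul_nonneg (by linarith) (mul_nonneg (kap_pow_pos _).le he.le)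
    have h16 : kap S ^ k1 * eps S * (2 * kap S ^ l2) ≤ 2 * (kap S ^ k' * eps S) := by
      have := mul_le_mul_of_nonneg_right h11 he.le
      nlinarith
    have h17 : kap S ^ l1 * (kap S ^ k2 * eps S) ≤ kap S ^ k' * eps S := by
      have := mul_le_mul_of_nonneg_right h12 he.le
      nlinarith
    have h18 : eps S ≤ kap S ^ k' * eps S := by nlinarith
    linarith
  · rw [abs_mul]
    calc |X| * |Y| ≤ kap S ^ l1 * kap S ^ l2 := mul_le_mul hx.mag hy.mag (abs_nonneg _) (kap_pow_pos _).le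
      _ = kap S ^ (l1 + l2) := by rw [pow_add]
      _ ≤ kap S ^ l := kap_mono hS h3

/-- The quotient; `|Y|` is at least `κ ^ (-d)`. -/
lemma Ap.div (hS : 1000000 ≤ S) {x y : ℤ} {X Y : ℝ} {k1 l1 k2 l2 k l : ℕ} (d : ℕ) (hx : Ap S k1 l1 x X)
    (hy : Ap S k2 l2 y Y) (hY : 1 ≤ kap S ^ d * |Y|) (hmag : |X / Y| ≤ kap S ^ l)
    (hlev : k1 + d + 2 ≤ k ∧ l1 + k2 + 2 * d + 2 ≤ k ∧ k ≤ 100 ∧ l ≤ 100 ∧ d ≤ 50) :
    Ap S k l (fdiv S x y) (X / Y) := by
  obtain ⟨h1, h2, h3, h4, h5⟩ := hlev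
  have hκ := kap_ge4 hS
  have he := eps_pos (S := S)
  refine ⟨?_, hmag, h3, h4⟩
  have hd0 := kap_pow_pos (S := S) d
  have hk2 := hy.hk
  have hYpos : 0 < |Y| := by
    by_contra hc
    have : |Y| = 0 := le_antisymm (not_lt.mp hc) (abs_nonneg _)
    rw [this, mul_zero] at hY
    linarith
  have hy1 : 1 ≤ kap S ^ d * (2 * |val S y|) := by
    have h6 : kap S ^ k2 * eps S * kap S ^ d ≤ 1 / 2 := by
      have h7 := err_small' hS (a := k2 + 1) (d := d) (by omega)
      have h8 : kap S ^ (k2 + 1) * eps S * kap S ^ d = kap S * (kap S ^ k2 * eps S * kap S ^ d) := by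
        rw [pow_succ]
        ring
      rw [h8] at h7
      have h9 : 0 ≤ kap S ^ k2 * eps S * kap S ^ d :=
        mul_nonneg (mul_nonneg (kap_pow_pos _).le he.le) hd0.le
      nlinarith
    have h7 : |Y| ≤ |val S y| + kap S ^ k2 * eps S := by
      have h8 := abs_sub_abs_le_abs_sub Y (val S y)
      rw [abs_sub_comm] at h8
      have h9 := hy.err
      linarith
    have h8 := mul_le_mul_of_nonneg_left h7 hd0.le
    rw [mul_add] at h8
    have h9 : kap S ^ d * (kap S ^ k2 * eps S) = kap S ^ k2 * eps S * kap S ^ d := by ring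
    rw [h9] at h8
    nlinarith
  have hypos : 0 < |val S y| := by
    by_contra hc
    have : |val S y| = 0 := le_antisymm (not_lt.mp hc) (abs_nonneg _)
    rw [this] at hy1
    simp at hy1
    linarith
  have hbig1 : 1 / Big S ≤ |val S y| := by
    have h6 := kap_big hS
    have h7 : 2 * kap S ^ d ≤ Big S := by
      have h8 := kap_mono hS (show d ≤ 100 by omega)
      linarith
    have hB : 0 < Big S := lt_of_lt_of_le (by positivity) h7
    rw [div_le_iff₀ hB]
    calc (1 : ℝ) ≤ kap S ^ d * (2 * |val S y|) := hy1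
      _ = |val S y| * (2 * kap S ^ d) := by ring
      _ ≤ |val S y| * Big S := mul_le_mul_of_nonneg_left h7 hypos.le
  have h6 := val_fdiv hS (hx.val_big hS) (hy.val_big hS) hbig1
  have h7 := ulp_le hS (S := S)
  have hy0 : val S y ≠ 0 := abs_pos.mp hypos
  have hY0 : Y ≠ 0 := abs_pos.mp hYpos
  have h8 : val S x / val S y - X / Y
      = (val S x - X) * (1 / val S y) + X * (Y - val S y) * (1 / val S y) * (1 / Y) := by
    field_simp
    ring
  have hinvy : |1 / val S y| ≤ 2 * kap S ^ d := by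
    rw [abs_div, abs_one, div_le_iff₀ hypos]
    linarith
  have hinvY : |1 / Y| ≤ kap S ^ d := by
    rw [abs_div, abs_one, div_le_iff₀ hYpos]
    exact hY
  obtain ⟨k', rfl⟩ : ∃ k', k = k' + 2 := ⟨k - 2, by omega⟩
  have h9 : |(val S x - X) * (1 / val S y)| ≤ 2 * (kap S ^ k' * eps S) := by
    rw [abs_mul]
    calc _ ≤ kap S ^ k1 * eps S * (2 * kap S ^ d) :=
          mul_le_mul hx.err hinvy (abs_nonneg _) (mul_nonneg (kap_pow_pos _).le he.le)
      _ = 2 * ((kap S ^ k1 * kap S ^ d) * eps S) := by ring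
      _ ≤ 2 * (kap S ^ k' * eps S) := by
          rw [← pow_add]
          exact mul_le_mul_of_nonneg_left
            (mul_le_mul_of_nonneg_right (kap_mono hS (by omega)) he.le) (by norm_num)
  have h10 : |X * (Y - val S y) * (1 / val S y) * (1 / Y)| ≤ 2 * (kap S ^ k' * eps S) := by
    rw [abs_mul, abs_mul, abs_mul]
    have h11 : |Y - val S y| ≤ kap S ^ k2 * eps S := by
      rw [abs_sub_comm]
      exact hy.err
    calc |X| * |Y - val S y| * |1 / val S y| * |1 / Y|
        ≤ kap S ^ l1 * (kap S ^ k2 * eps S) * (2 * kap S ^ d) * kap S ^ d := by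
          gcongr
          exact hx.mag
      _ = 2 * ((kap S ^ l1 * kap S ^ k2 * (kap S ^ d * kap S ^ d)) * eps S) := by ring
      _ ≤ 2 * (kap S ^ k' * eps S) := by
          rw [← pow_add, ← pow_add, ← pow_add]
          exact mul_le_mul_of_nonneg_left
            (mul_le_mul_of_nonneg_right (kap_mono hS (by omega)) he.le) (by norm_num)
  have h11 : val S (fdiv S x y) - X / Y
      = (val S (fdiv S x y) - val S x / val S y)
        + ((val S x - X) * (1 / val S y) + X * (Y - val S y) * (1 / val S y) * (1 / Y)) := by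
    rw [← h8]
    ring
  rw [h11]
  have h12 := abs_add_le (val S (fdiv S x y) - val S x / val S y)
    ((val S x - X) * (1 / val S y) + X * (Y - val S y) * (1 / val S y) * (1 / Y))
  have h13 := abs_add_le ((val S x - X) * (1 / val S y)) (X * (Y - val S y) * (1 / val S y) * (1 / Y))
  have h14 := kap_pow_ge1 hS k'
  have h15 : eps S ≤ kap S ^ k' * eps S := by nlinarith
  have h16 : kap S ^ (k' + 2) * eps S = kap S * kap S * (kap S ^ k' * eps S) := by
    rw [pow_add]
    ring
  have h17 : (16 : ℝ) ≤ kap S * kap S := by nlinarith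
  have h18 : 0 ≤ kap S ^ k' * eps S := mul_nonneg (kap_pow_pos _).le he.le
  rw [h16]
  nlinarith

/-- The square root. -/
lemma Ap.sqrt (hS : 1000000 ≤ S) {x : ℤ} {X : ℝ} {k1 l1 k l : ℕ} (d : ℕ) (hx : Ap S k1 l1 x X)
    (hX : 1 ≤ kap S ^ (2 * d) * X)
    (hlev : k1 + d + 1 ≤ k ∧ l1 ≤ l ∧ k ≤ 100 ∧ l ≤ 100 ∧ d ≤ 50) :
    Ap S k l (fsqrt S x) (Real.sqrt X) := by
  obtain ⟨h1, h2, h3, h4, h5⟩ := hlev
  have hκ := kap_ge4 hS
  have he := eps_pos (S := S)
  have hd0 := kap_pow_pos (S := S) (2 * d)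
  have hX0 : 0 < X := by
    by_contra hc
    have : kap S ^ (2 * d) * X ≤ 0 := mul_nonpos_of_nonneg_of_nonpos hd0.le (not_lt.mp hc)
    linarith
  have hk1 := hx.hk
  have hval : X / 2 ≤ val S x := by
    have h6 := hx.err
    have h7 : kap S ^ k1 * eps S * kap S ^ (2 * d) ≤ 1 := err_small' hS (by omega)
    have h8 : kap S ^ k1 * eps S ≤ X / 2 := by
      have h9 : kap S ^ (k1 + 1) * eps S * kap S ^ (2 * d) ≤ 1 := err_small' hS (by omega)
      have h10 : kap S ^ (k1 + 1) * eps S * kap S ^ (2 * d)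
          = kap S * (kap S ^ k1 * eps S * kap S ^ (2 * d)) := by
        rw [pow_succ]
        ring
      rw [h10] at h9
      have h11 : 0 ≤ kap S ^ k1 * eps S * kap S ^ (2 * d) :=
        mul_nonneg (mul_nonneg (kap_pow_pos _).le he.le) hd0.le
      have h12 : kap S ^ k1 * eps S * kap S ^ (2 * d) ≤ (kap S ^ (2 * d) * X) / 2 := by nlinarith
      have h13 : kap S ^ (2 * d) * (kap S ^ k1 * eps S) ≤ kap S ^ (2 * d) * (X / 2) := by
        calc _ = kap S ^ k1 * eps S * kap S ^ (2 * d) := by ring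
          _ ≤ (kap S ^ (2 * d) * X) / 2 := h12
          _ = _ := by ring
      exact le_of_mul_le_mul_left h13 hd0
    have h9 := abs_sub_le_iff.mp h6
    linarith [h9.2]
  have hval0 : 0 ≤ val S x := by linarith
  have h6 := fsqrt_spec hS hval0 (le_trans (le_abs_self _) (hx.val_big hS))
  have h7 : (1 / 2 : ℝ) ^ (S ^ 5 / 4) = eps S := rfl
  rw [h7] at h6
  have hsq : 1 ≤ kap S ^ d * Real.sqrt X := by
    have h8 : Real.sqrt (kap S ^ (2 * d) * X) = kap S ^ d * Real.sqrt X := by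
      rw [Real.sqrt_mul hd0.le, pow_mul', Real.sqrt_sq (kap_pow_pos _).le]
    rw [← h8]
    exact Real.one_le_sqrt.mpr hX
  have hsqX : 0 < Real.sqrt X := Real.sqrt_pos.mpr hX0
  have h8 : |Real.sqrt (val S x) - Real.sqrt X| ≤ kap S ^ k1 * eps S * kap S ^ d := by
    have h9 := Real.sqrt_nonneg (val S x)
    have h10 : (Real.sqrt (val S x) - Real.sqrt X) * (Real.sqrt (val S x) + Real.sqrt X)
        = val S x - X := by
      have h11 := Real.sq_sqrt hval0
      have h12 := Real.sq_sqrt hX0.le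
      nlinarith
    have h11 : |Real.sqrt (val S x) - Real.sqrt X| * Real.sqrt X ≤ kap S ^ k1 * eps S := by
      have h12 := congrArg abs h10
      rw [abs_mul, abs_of_nonneg (by positivity : 0 ≤ Real.sqrt (val S x) + Real.sqrt X)] at h12
      have h13 := abs_nonneg (Real.sqrt (val S x) - Real.sqrt X)
      have h14 := hx.err
      nlinarith
    have h12 : 0 ≤ kap S ^ d := (kap_pow_pos d).le
    have h13 := mul_le_mul_of_nonneg_right h11 h12
    have h14 := abs_nonneg (Real.sqrt (val S x) - Real.sqrt X)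
    calc _ = |Real.sqrt (val S x) - Real.sqrt X| * 1 := by ring
      _ ≤ |Real.sqrt (val S x) - Real.sqrt X| * (kap S ^ d * Real.sqrt X) :=
          mul_le_mul_of_nonneg_left hsq h14
      _ = |Real.sqrt (val S x) - Real.sqrt X| * Real.sqrt X * kap S ^ d := by ring
      _ ≤ _ := h13
  refine ⟨?_, ?_, h3, h4⟩
  · have h9 : val S (fsqrt S x) - Real.sqrt X
        = (val S (fsqrt S x) - Real.sqrt (val S x)) + (Real.sqrt (val S x) - Real.sqrt X) := by ring
    rw [h9]
    refine (abs_add_le _ _).trans ?_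
    obtain ⟨k', rfl⟩ : ∃ k', k = k' + 1 := ⟨k - 1, by omega⟩
    have h10 : kap S ^ k1 * eps S * kap S ^ d ≤ kap S ^ k' * eps S := by
      calc _ = (kap S ^ k1 * kap S ^ d) * eps S := by ring
        _ ≤ _ := by
          rw [← pow_add]
          exact mul_le_mul_of_nonneg_right (kap_mono hS (by omega)) he.le
    have h11 := kap_pow_ge1 hS k'
    have h12 : eps S ≤ kap S ^ k' * eps S := by nlinarith
    have h13 : kap S ^ (k' + 1) * eps S = kap S * (kap S ^ k' * eps S) := by
      rw [pow_succ]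
      ring
    have h14 : 0 ≤ kap S ^ k' * eps S := mul_nonneg (kap_pow_pos _).le he.le
    rw [h13]
    nlinarith
  · have h9 : |X| ≤ kap S ^ l := hx.mag.trans (kap_mono hS h2)
    rw [abs_of_nonneg (Real.sqrt_nonneg _)]
    rw [abs_of_pos hX0] at h9
    apply Real.sqrt_le_iff.mpr
    refine ⟨(kap_pow_pos _).le, h9.trans ?_⟩
    have h10 := kap_pow_ge1 hS l
    nlinarith

/-! ### Lists of words -/

/-- The first `k` indices. -/
def rng (k : ℕ) : List ℤ := (List.range k).map fun a : ℕ => (a : ℤ)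

lemma length_rng (k : ℕ) : (rng k).length = k := by simp [rng]

lemma rng_succ (k : ℕ) : rng (k + 1) = rng k ++ [(k : ℤ)] := by
  simp [rng, List.range_succ]

lemma take_rng {k : ℕ} (h : k ≤ S) : (rng k).take S = rng k :=
  List.take_of_length_le (by rw [length_rng]; exact h)

lemma length_lF {k : ℕ} (f : Fin k → ℤ) : (lF f).length = k := by simp [lF]

lemma take_lF {k : ℕ} (h : k ≤ S) (f : Fin k → ℤ) : (lF f).take S = lF f :=
  List.take_of_length_le (by rw [length_lF]; exact h)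

lemma idxS_eq {γ : Type} {l : List γ} {k : ℕ} (hl : l.length = k) (h : k ≤ S) : idxS S l = rng k := by
  unfold idxS rng
  rw [List.take_of_length_le (by omega), hl]
  simp [min_eq_left h, List.map_eq_flatMap]

lemma idxS_lF {k : ℕ} (h : k ≤ S) (f : Fin k → ℤ) : idxS S (lF f) = rng k :=
  idxS_eq (length_lF f) h

lemma nthZ_lF {k : ℕ} (h : k ≤ S) (f : Fin k → ℤ) (i : Fin k) :
    nthZ S (lF f) ((i : ℕ) : ℤ) = f i := by
  unfold nthZ
  rw [take_lF h]
  simp [lF, List.getD_eq_getElem?_getD]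

lemma nthL_lM {k l : ℕ} (h : k ≤ S) (W : Fin k → Fin l → ℤ) (i : Fin k) :
    nthL S (lM W) ((i : ℕ) : ℤ) = lF (W i) := by
  unfold nthL lM
  rw [List.take_of_length_le (by simp; exact h)]
  simp [lF, List.getD_eq_getElem?_getD]

lemma map_rng {γ : Type} {k : ℕ} (h : k ≤ S) (F : ℤ → γ) :
    ((rng k).take S).map F = List.ofFn fun i : Fin k => F ((i : ℕ) : ℤ) := by
  rw [take_rng h]
  apply List.ext_getElem
  · simp [length_rng]
  · intro i h1 h2
    have h3 : i < (rng k).length := by simpa using h1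
    have h4 : (rng k)[i] = (i : ℤ) := by
      simp [rng]
    rw [List.getElem_map, List.getElem_ofFn, h4]

lemma map_lF {k : ℕ} (h : k ≤ S) (f : Fin k → ℤ) (F : ℤ → ℤ) :
    ((lF f).take S).map F = lF fun i => F (f i) := by
  rw [take_lF h]
  simp [lF, List.map_ofFn]
  rfl

/-- The sum over the indices, with no saturation. -/
lemma Ap.sumS (hS : 1000000 ≤ S) {k : ℕ} (hkS : k ≤ S) {g : ℤ → ℤ} {F : Fin k → ℝ} {e l e' l' : ℕ}
    (h : ∀ i : Fin k, Ap S e l (g ((i : ℕ) : ℤ)) (F i))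
    (hlev : e + 1 ≤ e' ∧ l + 1 ≤ l' ∧ e' ≤ 100 ∧ l' ≤ 100) :
    Ap S e' l' (Vale.Agent.Lib.P328.Bit.sumS S (rng k) g) (∑ i, F i) := by
  obtain ⟨h1, h2, h3, h4⟩ := hlev
  have hκ := kap_ge4 hS
  have he := eps_pos (S := S)
  have hSκ := S_le_kap hS
  set G : ℕ → ℝ := fun m => if hm : m < k then F ⟨m, hm⟩ else 0 with hG
  have hGF : ∀ i : Fin k, G (i : ℕ) = F i := by
    intro i
    simp [hG]
  have hsum : ∑ i, F i = ∑ j ∈ Finset.range k, G j := by
    rw [← Fin.sum_univ_eq_sum_range]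
    exact Finset.sum_congr rfl fun i _ => (hGF i).symm
  have hE0 : 0 ≤ kap S ^ e * eps S := mul_nonneg (kap_pow_pos _).le he.le
  have hL0 := kap_pow_pos (S := S) l
  have key : ∀ m, m ≤ k →
      |val S ((rng m).foldl (fun s a => cadd S s (g a)) 0) - ∑ j ∈ Finset.range m, G j|
        ≤ (m : ℝ) * (kap S ^ e * eps S)
      ∧ |∑ j ∈ Finset.range m, G j| ≤ (m : ℝ) * kap S ^ l := by
    intro m
    induction m with
    | zero =>
      intro _
      simp [rng, val]
    | succ m ih =>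
      intro hm
      obtain ⟨ih1, ih2⟩ := ih (by omega)
      have hmS : (m : ℝ) + 1 ≤ S := by
        have : m + 1 ≤ S := by omega
        exact_mod_cast this
      have hm0 : (0 : ℝ) ≤ m := Nat.cast_nonneg _
      have hi := h ⟨m, by omega⟩
      have hGm : G m = F ⟨m, by omega⟩ := hGF ⟨m, by omega⟩
      rw [rng_succ, List.foldl_append, Finset.sum_range_succ]
      simp only [List.foldl_cons, List.foldl_nil]
      have hbig : |val S ((rng m).foldl (fun s a => cadd S s (g a)) 0)| ≤ Big S := by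
        have h5 := abs_sub_abs_le_abs_sub (val S ((rng m).foldl (fun s a => cadd S s (g a)) 0))
          (∑ j ∈ Finset.range m, G j)
        have h6 : (m : ℝ) ≤ kap S := by linarith
        have h7 : (m : ℝ) * (kap S ^ e * eps S) ≤ 1 := by
          have h8 := err_small hS (a := e + 1) (by omega)
          have h9 : kap S ^ (e + 1) * eps S = kap S * (kap S ^ e * eps S) := by
            rw [pow_succ]
            ring
          rw [h9] at h8
          exact le_trans (mul_le_mul_of_nonneg_right h6 hE0) h8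
        have h8 : (m : ℝ) * kap S ^ l ≤ kap S ^ (l + 1) := by
          rw [pow_succ, mul_comm]
          exact mul_le_mul_of_nonneg_left h6 hL0.le
        have h9 := kap_pow_ge1 hS (l + 1)
        have h10 := kap_mono hS (show l + 1 ≤ 100 by omega)
        have h11 := kap_big hS
        linarith
      rw [val_add hS hbig (hi.val_big hS), hGm]
      constructor
      · have h5 : val S ((rng m).foldl (fun s a => cadd S s (g a)) 0) + val S (g (m : ℤ))
            - (∑ j ∈ Finset.range m, G j + F ⟨m, by omega⟩)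
            = (val S ((rng m).foldl (fun s a => cadd S s (g a)) 0) - ∑ j ∈ Finset.range m, G j)
              + (val S (g (m : ℤ)) - F ⟨m, by omega⟩) := by ring
        rw [h5]
        refine (abs_add_le _ _).trans ?_
        have h6 := hi.err
        push_cast
        linarith
      · refine (abs_add_le _ _).trans ?_
        have h6 := hi.mag
        push_cast
        linarith
  obtain ⟨hk1, hk2⟩ := key k le_rfl
  rw [← hsum] at hk1 hk2
  have hkκ : (k : ℝ) ≤ kap S := by
    have : (k : ℝ) ≤ S := by exact_mod_cast hkS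
    linarith
  refine ⟨?_, ?_, h3, h4⟩
  · unfold Vale.Agent.Lib.P328.Bit.sumS
    rw [take_rng hkS]
    refine hk1.trans ?_
    calc (k : ℝ) * (kap S ^ e * eps S) ≤ kap S * (kap S ^ e * eps S) :=
          mul_le_mul_of_nonneg_right hkκ hE0
      _ = kap S ^ (e + 1) * eps S := by
          rw [pow_succ]
          ring
      _ ≤ kap S ^ e' * eps S := mul_le_mul_of_nonneg_right (kap_mono hS h1) he.le
  · refine hk2.trans ?_
    calc (k : ℝ) * kap S ^ l ≤ kap S * kap S ^ l := mul_le_mul_of_nonneg_right hkκ hL0.le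
      _ = kap S ^ (l + 1) := by
          rw [pow_succ]
          ring
      _ ≤ kap S ^ l' := kap_mono hS h2

lemma clamp_nonneg' {z : ℤ} (hz : 0 ≤ z) : 0 ≤ clamp S z := by
  unfold clamp
  apply le_max_of_le_right
  apply le_min hz
  positivity

lemma cadd_nonneg {x y : ℤ} (hx : 0 ≤ x) (hy : 0 ≤ y) : 0 ≤ cadd S x y :=
  clamp_nonneg' (add_nonneg (clamp_nonneg' hx) (clamp_nonneg' hy))

lemma fmul_self_nonneg' (x : ℤ) : 0 ≤ fmul S x x := by
  unfold fmul cdiv cmul
  apply clamp_nonneg'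
  apply Int.ediv_nonneg
  · exact clamp_nonneg' (clamp_nonneg' (mul_self_nonneg _))
  · apply clamp_nonneg'
    unfold fone
    positivity

lemma sumS_nonneg' {idx : List ℤ} {g : ℤ → ℤ} (h : ∀ a, 0 ≤ g a) :
    0 ≤ Vale.Agent.Lib.P328.Bit.sumS S idx g := by
  unfold Vale.Agent.Lib.P328.Bit.sumS
  have key : ∀ (l : List ℤ) (s : ℤ), 0 ≤ s → 0 ≤ l.foldl (fun s a => cadd S s (g a)) s := by
    intro l
    induction l with
    | nil =>
      intro s hs
      exact hs
    | cons a l ih =>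
      intro s hs
      exact ih _ (cadd_nonneg hs (h a))
  exact key _ _ le_rfl

lemma val_nonneg' {x : ℤ} (h : 0 ≤ x) : 0 ≤ val S x := by
  unfold val
  have : (0 : ℝ) ≤ x := by exact_mod_cast h
  positivity

end EllW

end Vale.Agent.Lib.P328.Bit
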