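import Vale.Agent.Lib.P328.Bit.EllAbs

/-!
# P328, bit model: a whole run of the rounded ellipsoid method, abstractly (module ELLF, analysis)

`ell_run`: a sequence of ellipsoids, where each round is a `RoundStep` for the direction `G k`, or leaves the ellipsoid
unchanged because `Wᵀ (G k)` is small. In a feasible round the direction is close to a subgradient of `f`, in an infeasible
round it is the centre, which is outside of the ball of radius `R - 1`. Then some feasible round has a centre with a near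
minimal value: if not, all rounds are proper (a small `Wᵀ g` means a small `g`, by `ell_sigma`) and all cuts keep the cube, against `ell_robust`.
-/

namespace Vale.Agent.Lib.P328.Bit

open Finset Vale.Agent.Lib.P328.Samp EllAbsAux
open scoped Matrix

variable {n : ℕ}

/-- The transpose has the same lower bound. -/
lemma SV_transpose {σ : ℝ} (hσ : 0 < σ) {W : Matrix (Fin n) (Fin n) ℝ} (h : SV σ W) (g : Fin n → ℝ) :
    σ * nrm g ≤ nrm (W.transpose.mulVec g) := by
  obtain ⟨v, hv⟩ := Matrix.mulVec_surjective_iff_isUnit.mpr (h.isUnit hσ) g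
  have h1 := h v
  rw [hv] at h1
  have h2 : g ⬝ᵥ g = W.transpose.mulVec g ⬝ᵥ v := by
    conv_lhs => rw [← hv]
    rw [Matrix.mulVec_transpose, ← hv, Matrix.dotProduct_mulVec]
  have h3 := abs_dot_le (W.transpose.mulVec g) v
  have h4 := le_abs_self (W.transpose.mulVec g ⬝ᵥ v)
  have h5 := nrm_sq g
  have h6 := nrm_nonneg g
  have h7 := nrm_nonneg v
  have h8 := nrm_nonneg (W.transpose.mulVec g)
  by_cases h9 : nrm g = 0
  · rw [h9, mul_zero]
    exact h8
  have h10 : 0 < nrm g := lt_of_le_of_ne h6 (Ne.symm h9)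
  have h11 : nrm g * (σ * nrm g) ≤ nrm g * nrm (W.transpose.mulVec g) := by
    have h12 : nrm g ^ 2 ≤ nrm (W.transpose.mulVec g) * nrm v := by
      rw [h5, h2]
      exact h4.trans h3
    calc nrm g * (σ * nrm g) = σ * nrm g ^ 2 := by ring
      _ ≤ σ * (nrm (W.transpose.mulVec g) * nrm v) := mul_le_mul_of_nonneg_left h12 hσ.le
      _ = nrm (W.transpose.mulVec g) * (σ * nrm v) := by ring
      _ ≤ nrm (W.transpose.mulVec g) * nrm g := mul_le_mul_of_nonneg_left h1 h8
      _ = _ := by ring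
  exact le_of_mul_le_mul_left h11 h10

/-- **A run of the rounded ellipsoid method finds a near minimum.** -/
theorem ell_run (hn : 0 < n) {R θ δ ε V margin ζ : ℝ} (hR : 1 < R) (hθ : 0 < θ) (hδ0 : 0 ≤ δ) (hε0 : 0 ≤ ε)
    {x0 : Fin n → ℝ} {f : (Fin n → ℝ) → ℝ} {gr : (Fin n → ℝ) → Fin n → ℝ}
    (hsub : ∀ x y, f x + gr x ⬝ᵥ (y - x) ≤ f y)
    (hcube : ∀ x : Fin n → ℝ, (∀ i, x0 i ≤ x i ∧ x i ≤ x0 i + θ) → f x ≤ V ∧ x ⬝ᵥ x ≤ (R - 1) ^ 2)
    {I : ℕ} {seq : ℕ → Ell n} {G : ℕ → Fin n → ℝ} {feas : ℕ → Prop}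
    (h0 : seq 0 = ⟨0, R • (1 : Matrix (Fin n) (Fin n) ℝ)⟩)
    (hfeas : ∀ k, k < I → feas k →
      (∀ i, |G k i - gr (seq k).a i| ≤ ε) ∧ (seq k).a ⬝ᵥ (seq k).a ≤ R ^ 2)
    (hinf : ∀ k, k < I → ¬ feas k → G k = (seq k).a ∧ (R - 1) ^ 2 ≤ (seq k).a ⬝ᵥ (seq k).a)
    (hstep : ∀ k, k < I →
      RoundStep (1 / (16 * ((n : ℝ) * ((n : ℝ) + 2)))) ζ (seq k) (seq (k + 1)) (G k)
      ∨ (nrm ((seq k).W.transpose.mulVec (G k)) ≤ δ ∧ seq (k + 1) = seq k))
    (hζ : ζ * (1024 * (n : ℝ) ^ 3 * ((n : ℝ) + 2) * 2 ^ I) ≤ R)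
    (hI : (2 * R / θ) ^ n * Real.exp (-(I : ℝ) / (4 * ((n : ℝ) + 2))) < 1)
    (hδ : δ * 2 ^ I / R < R - 1)
    (hmargin : (δ * 2 ^ I / R + (n : ℝ) * ε) * (2 * R) ≤ margin) :
    ∃ k, k < I ∧ feas k ∧ f (seq k).a ≤ V + margin := by
  by_contra hcon
  push Not at hcon
  have hR0 : 0 < R := by linarith
  -- facts on the cube
  have hx0 : ∀ i, x0 i ≤ x0 i ∧ x0 i ≤ x0 i + θ := fun i => ⟨le_rfl, by linarith⟩
  have hnx : ∀ x : Fin n → ℝ, (∀ i, x0 i ≤ x i ∧ x i ≤ x0 i + θ) → nrm x ≤ R - 1 := fun x hx =>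
    le_of_dot_le (by linarith) (hcube x hx).2
  have hna : ∀ k, k < I → feas k → nrm (seq k).a ≤ R := fun k hk hf =>
    le_of_dot_le hR0.le (hfeas k hk hf).2
  -- the main fact: a small `Wᵀ g` can't happen
  have hsmall : ∀ k, k < I → (∀ j, j < k → RoundStep (1 / (16 * ((n : ℝ) * ((n : ℝ) + 2)))) ζ (seq j) (seq (j + 1)) (G j)) →
      nrm ((seq k).W.transpose.mulVec (G k)) ≤ δ → False := by
    intro k hk hprev hsm
    have hζk : ζ * (1024 * (n : ℝ) ^ 3 * ((n : ℝ) + 2) * 2 ^ k) ≤ R := by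
      have hc : (0 : ℝ) ≤ 1024 * (n : ℝ) ^ 3 * ((n : ℝ) + 2) := by positivity
      have h2 : (2 : ℝ) ^ k ≤ 2 ^ I := pow_le_pow_right₀ (by norm_num) hk.le
      by_cases hζ0 : 0 ≤ ζ
      · exact le_trans (mul_le_mul_of_nonneg_left (mul_le_mul_of_nonneg_left h2 hc) hζ0) hζ
      · have : ζ * (1024 * (n : ℝ) ^ 3 * ((n : ℝ) + 2) * 2 ^ k) ≤ 0 :=
          mul_nonpos_of_nonpos_of_nonneg (by linarith) (by positivity)
        linarith
    have hsig := ell_sigma hn hR0 h0 hprev hζk k le_rfl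
    set σ : ℝ := R * (1 / 2) ^ k with hσ
    have hσ0 : 0 < σ := by positivity
    have hSV : SV σ (seq k).W := by
      intro v
      have h1 := hsig v
      have h2 : 0 ≤ nrm ((seq k).W.mulVec v) := nrm_nonneg _
      rw [← nrm_sq, ← nrm_sq, ← mul_pow] at h1
      exact (abs_le_of_sq_le_sq' h1 h2).2
    have h3 := SV_transpose hσ0 hSV (G k)
    have h4 : σ * nrm (G k) ≤ δ := h3.trans hsm
    have h5 : nrm (G k) ≤ δ * 2 ^ I / R := by
      rw [le_div_iff₀ hR0]
      have h6 : (1 / 2 : ℝ) ^ k * 2 ^ k = 1 := by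
        rw [← mul_pow]
        norm_num
      have h7 : nrm (G k) * R = σ * nrm (G k) * 2 ^ k := by
        rw [hσ]
        calc nrm (G k) * R = nrm (G k) * R * ((1 / 2 : ℝ) ^ k * 2 ^ k) := by rw [h6, mul_one]
          _ = _ := by ring
      rw [h7]
      have h8 : (2 : ℝ) ^ k ≤ 2 ^ I := pow_le_pow_right₀ (by norm_num) hk.le
      exact mul_le_mul h4 h8 (by positivity) hδ0
    by_cases hf : feas k
    · -- near a minimum
      have h1 := hcon k hk hf
      obtain ⟨h2, -⟩ := hfeas k hk hf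
      have h6 := hsub (seq k).a x0
      have h7 := (hcube x0 hx0).1
      have h8 : nrm (x0 - (seq k).a) ≤ 2 * R := by
        have h9 := nrm_sub_le x0 (seq k).a
        have h10 := hnx x0 hx0
        have h11 := hna k hk hf
        linarith
      have h9 : nrm (gr (seq k).a - G k) ≤ (n : ℝ) * ε := by
        refine vec_bound hε0 _ fun i => ?_
        simp only [Pi.sub_apply]
        rw [abs_sub_comm]
        exact h2 i
      have h10 : gr (seq k).a = G k + (gr (seq k).a - G k) := by abel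
      have h11 : -(gr (seq k).a ⬝ᵥ (x0 - (seq k).a))
          ≤ (nrm (G k) + nrm (gr (seq k).a - G k)) * nrm (x0 - (seq k).a) := by
        have h12 := abs_dot_le (gr (seq k).a) (x0 - (seq k).a)
        have h13 := neg_abs_le (gr (seq k).a ⬝ᵥ (x0 - (seq k).a))
        have h14 : nrm (gr (seq k).a) ≤ nrm (G k) + nrm (gr (seq k).a - G k) := by
          conv_lhs => rw [h10]
          exact nrm_add_le _ _
        have h15 := mul_le_mul_of_nonneg_right h14 (nrm_nonneg (x0 - (seq k).a))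
        linarith
      have h12 : (nrm (G k) + nrm (gr (seq k).a - G k)) * nrm (x0 - (seq k).a)
          ≤ (δ * 2 ^ I / R + (n : ℝ) * ε) * (2 * R) := by
        refine mul_le_mul (add_le_add h5 h9) h8 (nrm_nonneg _) ?_
        have := (nrm_nonneg (G k)).trans h5
        positivity
      linarith
    · -- the centre is not small
      obtain ⟨h1, h2⟩ := hinf k hk hf
      rw [h1] at h5
      have h6 : (R - 1) ^ 2 ≤ nrm (seq k).a ^ 2 := by rw [nrm_sq]; exact h2
      have h7 : R - 1 ≤ nrm (seq k).a := (abs_le_of_sq_le_sq' h6 (nrm_nonneg _)).2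
      linarith
  have hall : ∀ k, k ≤ I → ∀ j, j < k →
      RoundStep (1 / (16 * ((n : ℝ) * ((n : ℝ) + 2)))) ζ (seq j) (seq (j + 1)) (G j) := by
    intro k
    induction k with
    | zero =>
      intro _ j hj
      omega
    | succ k ih =>
      intro hk j hj
      have ih' := ih (by omega)
      rcases Nat.lt_succ_iff_lt_or_eq.mp hj with hj | rfl
      · exact ih' j hj
      · rcases hstep j (by omega) with h | h
        · exact h
        · exact (hsmall j (by omega) ih' h.1).elim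
  refine ell_robust hn hR0 hθ (x0 := x0) ?_ (I := I) h0 (fun k hk => hall I le_rfl k hk) ?_ hζ hI
  · intro x hx
    have h1 := (hcube x hx).2
    nlinarith
  · intro k hk x hx
    by_cases hf : feas k
    · have h1 := hcon k hk hf
      obtain ⟨h2, -⟩ := hfeas k hk hf
      have h3 := hsub (seq k).a x
      have h4 := (hcube x hx).1
      have h5 : nrm (x - (seq k).a) ≤ 2 * R := by
        have h9 := nrm_sub_le x (seq k).a
        have h10 := hnx x hx
        have h11 := hna k hk hf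
        linarith
      have h6 : nrm (G k - gr (seq k).a) ≤ (n : ℝ) * ε := by
        refine vec_bound hε0 _ fun i => ?_
        simp only [Pi.sub_apply]
        exact h2 i
      have h7 : G k = gr (seq k).a + (G k - gr (seq k).a) := by abel
      have h8 : G k ⬝ᵥ (x - (seq k).a) = gr (seq k).a ⬝ᵥ (x - (seq k).a)
          + (G k - gr (seq k).a) ⬝ᵥ (x - (seq k).a) := by
        conv_lhs => rw [h7, add_dotProduct]
      have h9 := abs_dot_le (G k - gr (seq k).a) (x - (seq k).a)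
      have h10 := le_abs_self ((G k - gr (seq k).a) ⬝ᵥ (x - (seq k).a))
      have h11 : nrm (G k - gr (seq k).a) * nrm (x - (seq k).a) ≤ (n : ℝ) * ε * (2 * R) :=
        mul_le_mul h6 h5 (nrm_nonneg _) (by positivity)
      have h12 : (n : ℝ) * ε * (2 * R) ≤ margin := by
        refine le_trans ?_ hmargin
        refine mul_le_mul_of_nonneg_right ?_ (by linarith)
        have : 0 ≤ δ * 2 ^ I / R := by positivity
        linarith
      rw [h8]
      linarith
    · obtain ⟨h1, h2⟩ := hinf k hk hf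
      rw [h1]
      have h3 : (seq k).a ⬝ᵥ (x - (seq k).a) = (seq k).a ⬝ᵥ x - (seq k).a ⬝ᵥ (seq k).a := by
        rw [dotProduct_sub]
      rw [h3]
      have h4 := abs_dot_le (seq k).a x
      have h5 := le_abs_self ((seq k).a ⬝ᵥ x)
      have h6 := hnx x hx
      have h7 := nrm_sq (seq k).a
      have h8 : R - 1 ≤ nrm (seq k).a := by
        have h9 : (R - 1) ^ 2 ≤ nrm (seq k).a ^ 2 := by rw [h7]; exact h2
        exact (abs_le_of_sq_le_sq' h9 (nrm_nonneg _)).2
      have h9 : nrm (seq k).a * nrm x ≤ nrm (seq k).a * nrm (seq k).a :=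
        mul_le_mul_of_nonneg_left (h6.trans h8) (nrm_nonneg _)
      nlinarith

/-- One step of the bound for the entries. -/
theorem ell_upper_step (hn : 0 < n) {E E' : Ell n} {g : Fin n → ℝ} {ζ M : ℝ} (hζ0 : 0 ≤ ζ) (hζ1 : ζ ≤ 1)
    (hM1 : 1 ≤ M)
    (hs : RoundStep (1 / (16 * ((n : ℝ) * ((n : ℝ) + 2)))) ζ E E' g)
    (hW : ∀ i j, |E.W i j| ≤ M) (ha : ∀ i, |E.a i| ≤ M) :
    (∀ i j, |E'.W i j| ≤ M * (8 * ((n : ℝ) + 1) ^ 2))
      ∧ ∀ i, |E'.a i| ≤ M * (8 * ((n : ℝ) + 1) ^ 2) := by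
  have hn' : (1 : ℝ) ≤ n := by exact_mod_cast hn
  obtain ⟨u, huu, hcuta, hcutW⟩ := cut_form hs.hne
  obtain ⟨h1, h2, h3, h4⟩ := s_facts hn
  have hui : ∀ i, |u i| ≤ 1 := by
    intro i
    have hvi : u i * u i ≤ 1 := by
      calc u i * u i ≤ ∑ j, u j * u j :=
            Finset.single_le_sum (f := fun j => u j * u j) (fun j _ => mul_self_nonneg _)
              (mem_univ i)
        _ = 1 := huu
    rw [abs_le]
    constructor <;> nlinarith
  have hη1 : 1 / (16 * ((n : ℝ) * ((n : ℝ) + 2))) ≤ 1 := by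
    rw [div_le_one (by positivity)]
    nlinarith
  have hη0 : 0 ≤ 1 / (16 * ((n : ℝ) * ((n : ℝ) + 2))) := by positivity
  constructor
  · intro i j
    have hentry : ∀ l, |(((((n : ℝ) + 1) / Real.sqrt (((n : ℝ) + 1) ^ 2 - 1)) •
          (1 : Matrix (Fin n) (Fin n) ℝ)
        + (((n : ℝ) + 1) / ((n : ℝ) + 1 + 1) - ((n : ℝ) + 1) / Real.sqrt (((n : ℝ) + 1) ^ 2 - 1)) •
          Matrix.vecMulVec u u)) l j| ≤ 4 := by
      intro l
      simp only [Matrix.add_apply, Matrix.smul_apply, Matrix.one_apply, Matrix.vecMulVec_apply,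
        smul_eq_mul]
      set s1 := ((n : ℝ) + 1) / Real.sqrt (((n : ℝ) + 1) ^ 2 - 1)
      set s2 := ((n : ℝ) + 1) / ((n : ℝ) + 1 + 1)
      have h5 : |s1 * (if l = j then (1 : ℝ) else 0)| ≤ 2 := by
        by_cases hlj : l = j
        · simp only [hlj, if_true, mul_one]
          rw [abs_of_nonneg (by linarith)]
          exact h2
        · simp [hlj]
      have h6 : |(s2 - s1) * (u l * u j)| ≤ 2 := by
        rw [abs_mul, abs_mul]
        have h7 : |s2 - s1| ≤ 2 := by
          rw [abs_le]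
          constructor <;> linarith
        have h8 : |u l| * |u j| ≤ 1 :=
          mul_le_one₀ (hui l) (abs_nonneg _) (hui j)
        calc |s2 - s1| * (|u l| * |u j|) ≤ 2 * 1 :=
              mul_le_mul h7 h8 (by positivity) (by norm_num)
          _ = 2 := by norm_num
      calc _ ≤ |s1 * (if l = j then (1 : ℝ) else 0)| + |(s2 - s1) * (u l * u j)| := abs_add_le _ _
        _ ≤ 4 := by linarith
    have hW' : |(E.cut g).W i j| ≤ (n : ℝ) * (M * 4) := by
      rw [hcutW, Matrix.mul_apply]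
      calc _ ≤ ∑ l, |E.W i l * _| := Finset.abs_sum_le_sum_abs _ _
        _ ≤ ∑ _l : Fin n, M * 4 := by
            refine Finset.sum_le_sum fun l _ => ?_
            rw [abs_mul]
            exact mul_le_mul (hW i l) (hentry l) (abs_nonneg _) (by linarith)
        _ = (n : ℝ) * (M * 4) := by simp
    have h5 := hs.hW i j
    have h6 : |E'.W i j| ≤ ζ + |(1 + 1 / (16 * ((n : ℝ) * ((n : ℝ) + 2)))) * (E.cut g).W i j| := by
      have h7 := abs_add_le (E'.W i j - (1 + 1 / (16 * ((n : ℝ) * ((n : ℝ) + 2)))) *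
        (E.cut g).W i j) ((1 + 1 / (16 * ((n : ℝ) * ((n : ℝ) + 2)))) * (E.cut g).W i j)
      rw [sub_add_cancel] at h7
      linarith
    rw [abs_mul, abs_of_nonneg (by linarith : (0 : ℝ) ≤ 1 + 1 / (16 * ((n : ℝ) * ((n : ℝ) + 2))))] at h6
    have h7 : (1 + 1 / (16 * ((n : ℝ) * ((n : ℝ) + 2)))) * |(E.cut g).W i j|
        ≤ 2 * ((n : ℝ) * (M * 4)) :=
      mul_le_mul (by linarith) hW' (abs_nonneg _) (by norm_num)
    have h8 : 8 * (n : ℝ) + 1 ≤ 8 * ((n : ℝ) + 1) ^ 2 := by nlinarith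
    have h9 := mul_le_mul_of_nonneg_left h8 (by linarith : (0 : ℝ) ≤ M)
    have h10 : M * (8 * (n : ℝ) + 1) = 2 * ((n : ℝ) * (M * 4)) + M := by ring
    linarith
  · intro i
    have ha' : |(E.cut g).a i| ≤ 2 * M := by
      rw [hcuta]
      simp only [Pi.sub_apply, Pi.smul_apply, smul_eq_mul]
      have h5 : |E.W.mulVec u i| ≤ (n : ℝ) * M := by
        simp only [Matrix.mulVec, dotProduct]
        calc _ ≤ ∑ l, |E.W i l * u l| := Finset.abs_sum_le_sum_abs _ _
          _ ≤ ∑ _l : Fin n, M := by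
              refine Finset.sum_le_sum fun l _ => ?_
              rw [abs_mul]
              calc |E.W i l| * |u l| ≤ M * 1 :=
                    mul_le_mul (hW i l) (hui l) (abs_nonneg _) (by linarith)
                _ = M := mul_one M
          _ = (n : ℝ) * M := by simp
      have h6 : |((n : ℝ) + 1 + 1)⁻¹ * E.W.mulVec u i| ≤ M := by
        rw [abs_mul, abs_of_pos (by positivity : (0 : ℝ) < ((n : ℝ) + 1 + 1)⁻¹)]
        have h7 : ((n : ℝ) + 1 + 1)⁻¹ * (n : ℝ) ≤ 1 := by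
          rw [inv_mul_le_iff₀ (by positivity)]
          linarith
        calc ((n : ℝ) + 1 + 1)⁻¹ * |E.W.mulVec u i|
            ≤ ((n : ℝ) + 1 + 1)⁻¹ * ((n : ℝ) * M) :=
              mul_le_mul_of_nonneg_left h5 (by positivity)
          _ = (((n : ℝ) + 1 + 1)⁻¹ * (n : ℝ)) * M := by ring
          _ ≤ 1 * M := mul_le_mul_of_nonneg_right h7 (by linarith)
          _ = M := one_mul M
      have h7 := abs_sub (E.a i) (((n : ℝ) + 1 + 1)⁻¹ * E.W.mulVec u i)
      have h8 := ha i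
      linarith
    have h5 := hs.ha i
    have h6 : |E'.a i| ≤ ζ + |(E.cut g).a i| := by
      have h7 := abs_add_le (E'.a i - (E.cut g).a i) ((E.cut g).a i)
      rw [sub_add_cancel] at h7
      linarith
    have h8 : (3 : ℝ) ≤ 8 * ((n : ℝ) + 1) ^ 2 := by nlinarith
    have h9 := mul_le_mul_of_nonneg_left h8 (by linarith : (0 : ℝ) ≤ M)
    linarith

end Vale.Agent.Lib.P328.Bit
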