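import Vale.Agent.Lib.P328.Bit.EllDefs
import Vale.Agent.Lib.P328.Bit.EllRun

/-!
# P328, bit model: one cut on words is a `RoundStep` (module ELLF)

`cutF_spec`: with entries of `a`, `W`, `g` at most `κ = 2^(S^3)`, the program `cutF` either keeps the state, and then `Wᵀ g` is at most `3 / κ`,
or it makes a `RoundStep` with error `κ^30 ε`.
-/

namespace Vale.Agent.Lib.P328.Bit

open Finset Vale.Agent.Lib.P328.Samp EllAbsAux
open scoped Matrix

namespace EllW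

variable {S k : ℕ}

/-- The ellipsoid of words. -/
noncomputable def ellOf (S : ℕ) (a : Fin k → ℤ) (W : Fin k → Fin k → ℤ) : Ell k :=
  ⟨fun i => val S (a i), Matrix.of fun i j => val S (W i j)⟩

/-- The explicit form of the cut. -/
lemma cut_explicit {E : Ell k} {g : Fin k → ℝ} (hne : E.W.transpose.mulVec g ≠ 0) :
    (∀ i, (E.cut g).a i = E.a i - ((k : ℝ) + 1 + 1)⁻¹ *
      E.W.mulVec ((Real.sqrt (E.W.transpose.mulVec g ⬝ᵥ E.W.transpose.mulVec g))⁻¹ • E.W.transpose.mulVec g) i)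
    ∧ ∀ i j, (E.cut g).W i j =
      ((k : ℝ) + 1) / Real.sqrt (((k : ℝ) + 1) ^ 2 - 1) * E.W i j +
      (((k : ℝ) + 1) / ((k : ℝ) + 1 + 1) - ((k : ℝ) + 1) / Real.sqrt (((k : ℝ) + 1) ^ 2 - 1)) *
        E.W.mulVec ((Real.sqrt (E.W.transpose.mulVec g ⬝ᵥ E.W.transpose.mulVec g))⁻¹ • E.W.transpose.mulVec g) i *
        ((Real.sqrt (E.W.transpose.mulVec g ⬝ᵥ E.W.transpose.mulVec g))⁻¹ • E.W.transpose.mulVec g) j := by
  constructor
  · intro i
    unfold Ell.cut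
    rw [if_neg hne]
    simp only [Pi.sub_apply, Pi.smul_apply, smul_eq_mul]
  · intro i j
    unfold Ell.cut
    rw [if_neg hne]
    simp only [Matrix.mul_add, Matrix.mul_smul, Matrix.mul_one, Matrix.add_apply, Matrix.smul_apply,
      smul_eq_mul]
    rw [Matrix.mul_apply]
    simp only [Matrix.vecMulVec_apply, Matrix.mulVec, dotProduct, Finset.sum_mul, Finset.mul_sum]
    congr 1
    refine Finset.sum_congr rfl fun l _ => ?_
    ring

/-! ### Constants -/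

lemma small_int (hS : 1000000 ≤ S) {z : ℤ} (hz : |z| ≤ (S : ℤ) ^ 3) : |z| ≤ 2 ^ wid S := by
  refine hz.trans ?_
  have h1 : S < 2 ^ S := Nat.lt_two_pow_self
  have h2 : S ^ 3 ≤ (2 ^ S) ^ 3 := Nat.pow_le_pow_left h1.le 3
  have h3 : (2 ^ S) ^ 3 = 2 ^ (S * 3) := by rw [pow_mul]
  have h4 : S * 3 ≤ wid S := by
    unfold wid
    have h5 : S ^ 6 = S * S ^ 5 := by ring
    rw [h5]
    have h6 : 3 ≤ S ^ 5 := by
      have : S ≤ S ^ 5 := Nat.le_self_pow (by norm_num) S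
      omega
    exact Nat.mul_le_mul_left S h6
  have h5 : 2 ^ (S * 3) ≤ 2 ^ wid S := Nat.pow_le_pow_right (by norm_num) h4
  have h6 : S ^ 3 ≤ 2 ^ wid S := by omega
  exact_mod_cast h6

lemma lenF_lF (hk : k ≤ S) (g : Fin k → ℤ) : lenF S (lF g) = (k : ℤ) := by
  unfold lenF
  rw [take_lF hk, length_lF]

lemma Ap.fone_ap (hS : 1000000 ≤ S) : Ap S 0 0 (fone S) 1 := by
  refine ⟨?_, by simp, by norm_num, by norm_num⟩
  rw [val_fone hS, sub_self, abs_zero]
  exact mul_nonneg (kap_pow_pos 0).le eps_pos.le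

/-- A fixed point natural number. -/
lemma Ap.fint_ap (hS : 1000000 ≤ S) {z : ℕ} (hz : z ≤ S) : Ap S 0 1 (fint S (z : ℤ)) (z : ℝ) := by
  have h1 : (z : ℝ) ≤ kap S := by
    have : (z : ℝ) ≤ S := by exact_mod_cast hz
    exact this.trans (S_le_kap hS)
  have h2 := kap_big hS
  have h3 := kap_mono hS (show 1 ≤ 100 by norm_num)
  have h4 : |((z : ℤ) : ℝ)| ≤ Big S := by
    have h5 : (0 : ℝ) ≤ z := Nat.cast_nonneg _
    rw [Int.cast_natCast, abs_of_nonneg h5]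
    have h6 := kap_pow_ge1 hS 100
    rw [pow_one] at h3
    linarith
  have h5 := val_fint hS h4
  rw [Int.cast_natCast] at h5
  refine ⟨?_, ?_, by norm_num, by norm_num⟩
  · rw [h5, sub_self, abs_zero]
    exact mul_nonneg (kap_pow_pos 0).le eps_pos.le
  · rw [pow_one, abs_of_nonneg (Nat.cast_nonneg _)]
    exact h1

section Constants

variable (hS : 1000000 ≤ S) (hk0 : 0 < k) (hk : 16 * (k * (k + 2)) ≤ S) (g : Fin k → ℤ)

include hk0 hk in
lemma k_facts : k ≤ S ∧ k + 1 ≤ S ∧ k + 2 ≤ S := by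
  have h1 : k + 2 ≤ k * (k + 2) := by nlinarith
  omega

include hS hk0 hk in
lemma cadd1_eq : cadd S (k : ℤ) 1 = ((k + 1 : ℕ) : ℤ) := by
  obtain ⟨h1, h2, h3⟩ := k_facts hk0 hk
  have hS3 : (S : ℤ) ≤ (S : ℤ) ^ 3 := by
    have : S ≤ S ^ 3 := Nat.le_self_pow (by norm_num) S
    exact_mod_cast this
  have hS1 : (1 : ℤ) ≤ S := by
    have : 1 ≤ S := by omega
    exact_mod_cast this
  have h4 : ∀ z : ℕ, z ≤ S → |(z : ℤ)| ≤ 2 ^ wid S := by
    intro z hz
    apply small_int hS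
    rw [abs_of_nonneg (Int.natCast_nonneg z)]
    have : (z : ℤ) ≤ S := by exact_mod_cast hz
    linarith
  have h5 : |(1 : ℤ)| ≤ 2 ^ wid S := by
    have := h4 1 (by omega)
    simpa using this
  rw [FExpAux.cadd_eq hS (h4 k h1) h5 (by
    have := h4 (k + 1) h2
    push_cast at this
    exact this)]
  push_cast
  rfl

include hS hk0 hk in
lemma cadd2_eq : cadd S ((k + 1 : ℕ) : ℤ) 1 = ((k + 2 : ℕ) : ℤ) := by
  obtain ⟨h1, h2, h3⟩ := k_facts hk0 hk
  have hS3 : (S : ℤ) ≤ (S : ℤ) ^ 3 := by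
    have : S ≤ S ^ 3 := Nat.le_self_pow (by norm_num) S
    exact_mod_cast this
  have h4 : ∀ z : ℕ, z ≤ S → |(z : ℤ)| ≤ 2 ^ wid S := by
    intro z hz
    apply small_int hS
    rw [abs_of_nonneg (Int.natCast_nonneg z)]
    have : (z : ℤ) ≤ S := by exact_mod_cast hz
    linarith
  have h5 : |(1 : ℤ)| ≤ 2 ^ wid S := by
    have := h4 1 (by omega)
    simpa using this
  rw [FExpAux.cadd_eq hS (h4 (k + 1) h2) h5 (by
    have := h4 (k + 2) h3
    push_cast at this ⊢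
    have h6 : (k : ℤ) + 1 + 1 = k + 2 := by ring
    rw [h6]
    exact this)]
  push_cast
  ring

include hS hk0 hk in
lemma dF_ap : Ap S 0 1 (dF S (lF g)) ((k : ℝ) + 1) := by
  obtain ⟨h1, h2, h3⟩ := k_facts hk0 hk
  unfold dF
  rw [lenF_lF h1, cadd1_eq hS hk0 hk]
  have := Ap.fint_ap hS h2
  push_cast at this ⊢
  exact this

include hS hk0 hk in
lemma d1F_ap : Ap S 0 1 (d1F S (lF g)) ((k : ℝ) + 1 + 1) := by
  obtain ⟨h1, h2, h3⟩ := k_facts hk0 hk
  unfold d1F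
  rw [lenF_lF h1, cadd1_eq hS hk0 hk, cadd2_eq hS hk0 hk]
  have := Ap.fint_ap hS h3
  push_cast at this
  have h4 : (k : ℝ) + 2 = (k : ℝ) + 1 + 1 := by ring
  rw [h4] at this
  exact this

include hS hk0 hk in
lemma s1F_ap : Ap S 7 1 (s1F S (lF g))
    (((k : ℝ) + 1) / Real.sqrt (((k : ℝ) + 1) ^ 2 - 1)) := by
  have hk1 : (1 : ℝ) ≤ k := by exact_mod_cast hk0
  have hd := dF_ap hS hk0 hk g
  have hdd : Ap S 2 2 (fmul S (dF S (lF g)) (dF S (lF g))) (((k : ℝ) + 1) * ((k : ℝ) + 1)) :=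
    Ap.mul hS hd hd (by norm_num)
  have hX : Ap S 3 3 (csub S (fmul S (dF S (lF g)) (dF S (lF g))) (fone S))
      (((k : ℝ) + 1) * ((k : ℝ) + 1) - 1) := Ap.sub hS hdd (Ap.fone_ap hS) (by norm_num)
  have hX1 : (1 : ℝ) ≤ ((k : ℝ) + 1) * ((k : ℝ) + 1) - 1 := by nlinarith
  have hroot : Ap S 4 3 (fsqrt S (csub S (fmul S (dF S (lF g)) (dF S (lF g))) (fone S)))
      (Real.sqrt (((k : ℝ) + 1) * ((k : ℝ) + 1) - 1)) :=
    Ap.sqrt hS 0 hX (by simpa using hX1) (by norm_num)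
  have h1 : (1 : ℝ) ≤ Real.sqrt (((k : ℝ) + 1) * ((k : ℝ) + 1) - 1) := Real.one_le_sqrt.mpr hX1
  have hsq : ((k : ℝ) + 1) * ((k : ℝ) + 1) - 1 = ((k : ℝ) + 1) ^ 2 - 1 := by ring
  rw [hsq] at hroot h1
  obtain ⟨-, h3, -, -⟩ := s_facts (n := k) hk0
  have h4 := kap_ge4 hS
  refine Ap.div hS 0 hd hroot ?_ ?_ (by norm_num)
  · rw [pow_zero, one_mul, abs_of_pos (by linarith)]
    exact h1
  · rw [abs_of_nonneg (div_nonneg (by positivity) (by linarith)), pow_one]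
    exact le_trans h3 (by linarith)

include hS hk0 hk in
lemma s2F_ap : Ap S 3 0 (s2F S (lF g)) (((k : ℝ) + 1) / ((k : ℝ) + 1 + 1)) := by
  have hk1 : (1 : ℝ) ≤ k := by exact_mod_cast hk0
  refine Ap.div hS 0 (dF_ap hS hk0 hk g) (d1F_ap hS hk0 hk g) ?_ ?_ (by norm_num)
  · rw [pow_zero, one_mul, abs_of_pos (by linarith)]
    linarith
  · rw [pow_zero, abs_of_nonneg (by positivity), div_le_one (by linarith)]
    linarith

include hS hk0 hk in
lemma invF_ap : Ap S 2 0 (invF S (lF g)) (((k : ℝ) + 1 + 1)⁻¹) := by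
  have hk1 : (1 : ℝ) ≤ k := by exact_mod_cast hk0
  have h : Ap S 2 0 (invF S (lF g)) (1 / ((k : ℝ) + 1 + 1)) := by
    refine Ap.div hS 0 (Ap.fone_ap hS) (d1F_ap hS hk0 hk g) ?_ ?_ (by norm_num)
    · rw [pow_zero, one_mul, abs_of_pos (by linarith)]
      linarith
    · rw [pow_zero, abs_of_nonneg (by positivity), div_le_one (by linarith)]
      linarith
  exact h.congr (one_div _)

include hS hk0 hk in
lemma infF_ap : Ap S 3 1 (infF S (lF g)) (1 + 1 / (16 * ((k : ℝ) * ((k : ℝ) + 2)))) := by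
  have hk1 : (1 : ℝ) ≤ k := by exact_mod_cast hk0
  obtain ⟨h1, h2, h3⟩ := k_facts hk0 hk
  have hS3 : (S : ℤ) ≤ (S : ℤ) ^ 3 := by
    have : S ≤ S ^ 3 := Nat.le_self_pow (by norm_num) S
    exact_mod_cast this
  have h4 : ∀ z : ℕ, z ≤ S → |(z : ℤ)| ≤ 2 ^ wid S := by
    intro z hz
    apply small_int hS
    rw [abs_of_nonneg (Int.natCast_nonneg z)]
    have : (z : ℤ) ≤ S := by exact_mod_cast hz
    linarith
  have h2e : cadd S 1 1 = (2 : ℤ) := by
    have h5 : |(1 : ℤ)| ≤ 2 ^ wid S := by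
      have := h4 1 (by omega)
      simpa using this
    rw [FExpAux.cadd_eq hS h5 h5 (by
      have := h4 2 (by omega)
      simpa using this)]
    norm_num
  have hw2 : cadd S (k : ℤ) 2 = ((k + 2 : ℕ) : ℤ) := by
    rw [FExpAux.cadd_eq hS (h4 k h1) (by
      have := h4 2 (by omega)
      simpa using this) (by
      have := h4 (k + 2) h3
      push_cast at this
      exact this)]
    push_cast
    rfl
  have h16 : clamp S ((16 : ℕ) : ℤ) = ((16 : ℕ) : ℤ) := clamp_eq hS (h4 16 (by omega))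
  have hkk : k * (k + 2) ≤ S := by
    have : k * (k + 2) ≤ 16 * (k * (k + 2)) := Nat.le_mul_of_pos_left _ (by norm_num)
    omega
  have hm1 : cmul S (k : ℤ) ((k + 2 : ℕ) : ℤ) = ((k * (k + 2) : ℕ) : ℤ) := by
    rw [FExpAux.cmul_eq hS (h4 k h1) (h4 (k + 2) h3) (by
      have := h4 _ hkk
      push_cast at this ⊢
      exact this)]
    push_cast
    ring
  have hm2 : cmul S ((16 : ℕ) : ℤ) ((k * (k + 2) : ℕ) : ℤ) = ((16 * (k * (k + 2)) : ℕ) : ℤ) := by
    rw [FExpAux.cmul_eq hS (h4 16 (by omega)) (h4 _ hkk) (by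
      have := h4 _ hk
      push_cast at this ⊢
      exact this)]
    push_cast
    ring
  have hY : Ap S 0 1 (fint S ((16 * (k * (k + 2)) : ℕ) : ℤ)) (16 * ((k : ℝ) * ((k : ℝ) + 2))) := by
    have := Ap.fint_ap hS hk
    push_cast at this ⊢
    exact this
  have heta : Ap S 2 0 (fdiv S (fone S) (fint S ((16 * (k * (k + 2)) : ℕ) : ℤ)))
      (1 / (16 * ((k : ℝ) * ((k : ℝ) + 2)))) := by
    have hY1 : (1 : ℝ) ≤ 16 * ((k : ℝ) * ((k : ℝ) + 2)) := by nlinarith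
    refine Ap.div hS 0 (Ap.fone_ap hS) hY ?_ ?_ (by norm_num)
    · rw [pow_zero, one_mul, abs_of_pos (by linarith)]
      exact hY1
    · rw [pow_zero, abs_of_nonneg (by positivity), div_le_one (by linarith)]
      exact hY1
  unfold infF
  rw [lenF_lF h1, h2e, hw2, h16, hm1, hm2]
  exact Ap.add hS (Ap.fone_ap hS) heta (by norm_num)

end Constants

/-! ### The threshold -/

lemma qF_iter (hS : 1000000 ≤ S) (m : ℕ) (hm : m ≤ prec S) :
    (fun x => cdiv S x (cadd S 1 1))^[m] (fone S) = 2 ^ (prec S - m) := by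
  have hw := prec_le_wid S
  have h1 : |(1 : ℤ)| ≤ 2 ^ wid S := FExpAux.abs_two_pow_le (m := 0) (Nat.zero_le _)
  have h2 : |(2 : ℤ)| ≤ 2 ^ wid S := FExpAux.abs_two_pow_le (m := 1) (by
    have : 1 ≤ prec S := by
      unfold prec
      exact Nat.one_le_pow _ _ (by omega)
    omega)
  have h2e : cadd S 1 1 = (2 : ℤ) := by
    rw [FExpAux.cadd_eq hS h1 h1 (by simpa using h2)]
    norm_num
  induction m with
  | zero =>
    simp only [Function.iterate_zero, id_eq, Nat.sub_zero]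
    rfl
  | succ m ih =>
    rw [Function.iterate_succ_apply', ih (by omega), h2e,
      FExpAux.cdiv_eq hS (FExpAux.abs_two_pow_le (by omega)) h2]
    have h3 : prec S - m = (prec S - (m + 1)) + 1 := by omega
    rw [h3, pow_succ, Int.mul_ediv_cancel _ (by norm_num)]

lemma val_qF (hS : 1000000 ≤ S) : val S (qF S) = (kap S)⁻¹ := by
  have h1 : S ^ 3 ≤ prec S := by
    unfold prec
    exact Nat.pow_le_pow_right (by omega) (by norm_num)
  unfold qF val kap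
  rw [qF_iter hS _ h1]
  push_cast
  have h2 : (2 : ℝ) ^ prec S = 2 ^ (prec S - S ^ 3) * 2 ^ (S ^ 3) := by
    rw [← pow_add]
    congr 1
    omega
  rw [h2]
  field_simp

lemma val_pos_iff {w : ℤ} : 0 < val S w ↔ 0 < w := by
  unfold val
  rw [div_pos_iff_of_pos_right (by positivity)]
  exact_mod_cast Iff.rfl

lemma branch (hS : 1000000 ≤ S) {x : ℤ} {X : ℝ} (hx : Ap S 8 7 x X) (hx0 : 0 ≤ val S x) :
    (val S (fsqrt S x) ≤ (kap S)⁻¹ → X ≤ (3 / kap S) ^ 2)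
      ∧ ((kap S)⁻¹ < val S (fsqrt S x) → 1 ≤ kap S ^ (2 * 2) * X) := by
  have hκ := kap_ge4 hS
  have hκ0 : 0 < kap S := by linarith
  have he := eps_pos (S := S)
  have h1 := fsqrt_spec hS hx0 (le_trans (le_abs_self _) (hx.val_big hS))
  have h2 : (1 / 2 : ℝ) ^ (S ^ 5 / 4) = eps S := rfl
  rw [h2] at h1
  have h3 := abs_le.mp h1
  have h4 := abs_le.mp hx.err
  have hsq := Real.sq_sqrt hx0
  have hrt := Real.sqrt_nonneg (val S x)
  -- two small numbers
  have hs1 : eps S * kap S ≤ 1 / 4 := by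
    have h5 := err_small hS (a := 2) (by norm_num)
    have h6 : kap S ^ 2 * eps S = kap S * (eps S * kap S) := by ring
    rw [h6] at h5
    have h7 : 0 ≤ eps S * kap S := by positivity
    nlinarith
  have hs2 : kap S ^ 8 * eps S * kap S ^ 2 ≤ 1 / 8 := by
    have h5 := err_small' hS (a := 10) (d := 2) (by norm_num)
    have h6 : kap S ^ 10 * eps S * kap S ^ 2 = kap S ^ 2 * (kap S ^ 8 * eps S * kap S ^ 2) := by
      ring
    rw [h6] at h5
    have h7 : 0 ≤ kap S ^ 8 * eps S * kap S ^ 2 := by positivity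
    have h8 : 16 ≤ kap S ^ 2 := by nlinarith
    nlinarith
  have hs3 : kap S ^ 8 * eps S ≤ 1 / 8 * (kap S)⁻¹ ^ 2 := by
    have h5 : (kap S)⁻¹ ^ 2 * kap S ^ 2 = 1 := by
      rw [← mul_pow, inv_mul_cancel₀ hκ0.ne', one_pow]
    have h6 : 0 < kap S ^ 2 := by positivity
    have h7 : kap S ^ 8 * eps S * kap S ^ 2 ≤ (1 / 8 * (kap S)⁻¹ ^ 2) * kap S ^ 2 := by
      calc _ ≤ 1 / 8 := hs2
        _ = 1 / 8 * ((kap S)⁻¹ ^ 2 * kap S ^ 2) := by rw [h5, mul_one]
        _ = _ := by ring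
    exact le_of_mul_le_mul_right h7 h6
  have hs4 : eps S ≤ 1 / 4 * (kap S)⁻¹ := by
    have h5 : (kap S)⁻¹ * kap S = 1 := inv_mul_cancel₀ hκ0.ne'
    have h7 : eps S * kap S ≤ (1 / 4 * (kap S)⁻¹) * kap S := by
      calc _ ≤ 1 / 4 := hs1
        _ = 1 / 4 * ((kap S)⁻¹ * kap S) := by rw [h5, mul_one]
        _ = _ := by ring
    exact le_of_mul_le_mul_right h7 hκ0
  have hinv0 : 0 < (kap S)⁻¹ := by positivity
  have hinv1 : (kap S)⁻¹ * kap S = 1 := inv_mul_cancel₀ hκ0.ne'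
  constructor
  · intro hle
    have h5 : Real.sqrt (val S x) ≤ 2 * (kap S)⁻¹ := by linarith [h3.1]
    have h6 : val S x ≤ (2 * (kap S)⁻¹) ^ 2 := by
      rw [← hsq]
      exact pow_le_pow_left₀ hrt h5 2
    have h7 : (3 / kap S) ^ 2 = 9 * (kap S)⁻¹ ^ 2 := by
      rw [div_eq_mul_inv]
      ring
    rw [h7]
    have h8 : (2 * (kap S)⁻¹) ^ 2 = 4 * (kap S)⁻¹ ^ 2 := by ring
    have h9 : 0 < (kap S)⁻¹ ^ 2 := by positivity
    linarith [h4.1]
  · intro hlt
    have h5 : (1 / 2) * (kap S)⁻¹ ≤ Real.sqrt (val S x) := by linarith [h3.2]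
    have h6 : ((1 / 2) * (kap S)⁻¹) ^ 2 ≤ val S x := by
      rw [← hsq]
      exact pow_le_pow_left₀ (by positivity) h5 2
    have h7 : ((1 / 2) * (kap S)⁻¹) ^ 2 = 1 / 4 * (kap S)⁻¹ ^ 2 := by ring
    have h8 : 1 / 8 * (kap S)⁻¹ ^ 2 ≤ X := by
      have h9 : 0 < (kap S)⁻¹ ^ 2 := by positivity
      linarith [h4.2]
    have h9 : kap S ^ (2 * 2) * (1 / 8 * (kap S)⁻¹ ^ 2) ≤ kap S ^ (2 * 2) * X :=
      mul_le_mul_of_nonneg_left h8 (by positivity)
    have h10 : kap S ^ (2 * 2) * (1 / 8 * (kap S)⁻¹ ^ 2) = kap S ^ 2 / 8 := by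
      field_simp
    rw [h10] at h9
    have h11 : 16 ≤ kap S ^ 2 := by nlinarith
    have h12 : 1 ≤ kap S ^ 2 / 8 := by
      rw [le_div_iff₀ (by norm_num)]
      linarith
    exact h12.trans h9

/-! ### The vectors -/

/-- The word of `Wᵀ g`. -/
def hwF (S : ℕ) (W : Fin k → Fin k → ℤ) (g : Fin k → ℤ) (j : Fin k) : ℤ :=
  Bit.sumS S (rng k) fun i => fmul S (nthZ S (nthL S (lM W) i) ((j : ℕ) : ℤ)) (nthZ S (lF g) i)

/-- The real `Wᵀ g`. -/
noncomputable def trueH (S : ℕ) (W : Fin k → Fin k → ℤ) (g : Fin k → ℤ) (j : Fin k) : ℝ :=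
  ∑ i, val S (W i j) * val S (g i)

/-- The real `|Wᵀ g|`. -/
noncomputable def trueL (S : ℕ) (W : Fin k → Fin k → ℤ) (g : Fin k → ℤ) : ℝ :=
  Real.sqrt (∑ j, trueH S W g j * trueH S W g j)

lemma trueH_eq (a : Fin k → ℤ) (W : Fin k → Fin k → ℤ) (g : Fin k → ℤ) :
    (ellOf S a W).W.transpose.mulVec (fun i => val S (g i)) = trueH S W g := by
  funext j
  simp [Matrix.mulVec, dotProduct, ellOf, trueH]

lemma mulTF_eq (hk : k ≤ S) (W : Fin k → Fin k → ℤ) (g : Fin k → ℤ) :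
    mulTF S (lM W) (lF g) = lF (hwF S W g) := by
  unfold mulTF
  rw [idxS_lF hk]
  exact map_rng hk _

/-- The dot product of words. -/
lemma dotF_ap (hS : 1000000 ≤ S) (hk : k ≤ S) {x y : Fin k → ℤ} {X Y : Fin k → ℝ}
    {e1 l1 e2 l2 e' l' e l : ℕ} (hx : ∀ i, Ap S e1 l1 (x i) (X i)) (hy : ∀ i, Ap S e2 l2 (y i) (Y i))
    (hlev : e1 + l2 + 1 ≤ e' ∧ e2 + l1 + 1 ≤ e' ∧ l1 + l2 ≤ l' ∧ e' + 1 ≤ e ∧ l' + 1 ≤ l ∧ e ≤ 100 ∧ l ≤ 100) :
    Ap S e l (dotF S (lF x) (lF y)) (∑ i, X i * Y i) := by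
  obtain ⟨h1, h2, h3, h4, h5, h6, h7⟩ := hlev
  unfold dotF
  rw [idxS_lF hk]
  refine Ap.sumS hS hk (e := e') (l := l') (fun i => ?_) ⟨h4, h5, h6, h7⟩
  simp only [nthZ_lF hk]
  exact Ap.mul hS (hx i) (hy i) ⟨h1, h2, h3, by omega, by omega⟩

section Vectors

variable (hS : 1000000 ≤ S) (hk : k ≤ S) {a g : Fin k → ℤ} {W : Fin k → Fin k → ℤ}
  (hW : ∀ i j, |val S (W i j)| ≤ kap S) (hg : ∀ i, |val S (g i)| ≤ kap S)

include hS hk hW hg

lemma hwF_ap (j : Fin k) : Ap S 3 3 (hwF S W g j) (trueH S W g j) := by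
  refine Ap.sumS hS hk (e := 2) (l := 2) (fun i => ?_) (by norm_num)
  simp only [nthL_lM hk, nthZ_lF hk]
  have h1 : Ap S 0 1 (W i j) (val S (W i j)) := Ap.exact (by norm_num) (by simpa using hW i j)
  have h2 : Ap S 0 1 (g i) (val S (g i)) := Ap.exact (by norm_num) (by simpa using hg i)
  exact Ap.mul hS h1 h2 (by norm_num)

lemma dot_ap : Ap S 8 7 (dotF S (lF (hwF S W g)) (lF (hwF S W g)))
    (∑ j, trueH S W g j * trueH S W g j) :=
  dotF_ap hS hk (e' := 7) (l' := 6) (hwF_ap hS hk hW hg) (hwF_ap hS hk hW hg) (by norm_num)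

omit hW hg hS in
lemma normF_eq : normF S (lM W) (lF g)
    = fsqrt S (dotF S (lF (hwF S W g)) (lF (hwF S W g))) := by
  unfold normF
  rw [mulTF_eq hk]

omit hW hg hS hk in
lemma dot_nonneg' : 0 ≤ val S (dotF S (lF (hwF S W g)) (lF (hwF S W g))) := by
  apply val_nonneg'
  unfold dotF
  exact sumS_nonneg' fun _ => fmul_self_nonneg' _

/-- The branches of the cut. -/
lemma cut_branch :
    (0 < csub S (normF S (lM W) (lF g)) (qF S) ↔ (kap S)⁻¹ < val S (normF S (lM W) (lF g)))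
    ∧ (val S (normF S (lM W) (lF g)) ≤ (kap S)⁻¹ → trueH S W g ⬝ᵥ trueH S W g ≤ (3 / kap S) ^ 2)
    ∧ ((kap S)⁻¹ < val S (normF S (lM W) (lF g)) → 1 ≤ kap S ^ (2 * 2) * (trueH S W g ⬝ᵥ trueH S W g))
    ∧ ((kap S)⁻¹ < val S (normF S (lM W) (lF g)) → Ap S 11 7 (normF S (lM W) (lF g)) (trueL S W g)) := by
  have hd := dot_ap hS hk hW hg
  have hb := branch hS hd dot_nonneg'
  rw [normF_eq hk]
  have hs : Ap S 100 100 (fsqrt S (dotF S (lF (hwF S W g)) (lF (hwF S W g)))) 0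
      ∨ True := Or.inr trivial
  refine ⟨?_, hb.1, hb.2, fun h => Ap.sqrt hS 2 hd (hb.2 h) (by norm_num)⟩
  -- the word `s` is small
  have hq : |val S (qF S)| ≤ Big S := by
    rw [val_qF hS, abs_of_pos (inv_pos.mpr kap_pos)]
    have h1 := kap_ge1 hS
    have h2 : (kap S)⁻¹ ≤ 1 := inv_le_one_of_one_le₀ h1
    have h3 := kap_big hS
    have h4 := kap_pow_ge1 hS 100
    linarith
  have hs0 : |val S (fsqrt S (dotF S (lF (hwF S W g)) (lF (hwF S W g))))| ≤ Big S := by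
    have h1 := fsqrt_spec hS (dot_nonneg' (S := S) (W := W) (g := g))
      (le_trans (le_abs_self _) (hd.val_big hS))
    have h2 : (1 / 2 : ℝ) ^ (S ^ 5 / 4) = eps S := rfl
    rw [h2] at h1
    have h3 := hd.val_big hS
    have h4 := err_small hS (a := 0) (by norm_num)
    rw [pow_zero, one_mul] at h4
    have hrt : Real.sqrt (val S (dotF S (lF (hwF S W g)) (lF (hwF S W g)))) ≤ kap S ^ 8 := by
      apply Real.sqrt_le_iff.mpr
      refine ⟨(kap_pow_pos 8).le, ?_⟩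
      have h5 := hd.val_le hS
      have h6 := le_abs_self (val S (dotF S (lF (hwF S W g)) (lF (hwF S W g))))
      have h7 : 2 * kap S ^ 7 ≤ kap S ^ 8 := by
        rw [pow_succ (kap S) 7]
        have := kap_ge4 hS
        have h8 := kap_pow_pos (S := S) 7
        nlinarith
      have h9 := kap_pow_ge1 hS 8
      nlinarith
    have h5 := abs_sub_abs_le_abs_sub (val S (fsqrt S (dotF S (lF (hwF S W g)) (lF (hwF S W g)))))
      (Real.sqrt (val S (dotF S (lF (hwF S W g)) (lF (hwF S W g)))))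
    rw [abs_of_nonneg (Real.sqrt_nonneg _)] at h5
    have h6 := kap_mono hS (show 8 ≤ 100 by norm_num)
    have h7 := kap_big hS
    have h8 := kap_pow_ge1 hS 100
    linarith
  have h1 : val S (csub S (fsqrt S (dotF S (lF (hwF S W g)) (lF (hwF S W g)))) (qF S))
      = val S (fsqrt S (dotF S (lF (hwF S W g)) (lF (hwF S W g)))) - (kap S)⁻¹ := by
    rw [val_sub hS hs0 hq, val_qF hS]
  rw [← val_pos_iff, h1]
  constructor
  · intro h
    linarith
  · intro h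
    linarith

end Vectors

/-! ### The new centre and factor -/

/-- The word of the unit vector. -/
def uwF (S : ℕ) (W : Fin k → Fin k → ℤ) (g : Fin k → ℤ) (j : Fin k) : ℤ :=
  fdiv S (hwF S W g j) (normF S (lM W) (lF g))

/-- The word of `W u`. -/
def vwF (S : ℕ) (W : Fin k → Fin k → ℤ) (g : Fin k → ℤ) (i : Fin k) : ℤ :=
  dotF S (lF (W i)) (lF (uwF S W g))

/-- The word of the new centre. -/
def awF (S : ℕ) (a : Fin k → ℤ) (W : Fin k → Fin k → ℤ) (g : Fin k → ℤ) (i : Fin k) : ℤ :=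
  csub S (a i) (fmul S (invF S (lF g)) (vwF S W g i))

/-- The word of the new factor. -/
def WwF (S : ℕ) (W : Fin k → Fin k → ℤ) (g : Fin k → ℤ) (i j : Fin k) : ℤ :=
  fmul S (infF S (lF g)) (cadd S (fmul S (s1F S (lF g)) (W i j))
    (fmul S (fmul S (csub S (s2F S (lF g)) (s1F S (lF g))) (vwF S W g i)) (uwF S W g j)))

lemma uF_eq (hk : k ≤ S) (W : Fin k → Fin k → ℤ) (g : Fin k → ℤ) :
    uF S (lM W) (lF g) = lF (uwF S W g) := by
  unfold uF
  rw [mulTF_eq hk, map_lF hk]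
  rfl

lemma vF_eq (hk : k ≤ S) (W : Fin k → Fin k → ℤ) (g : Fin k → ℤ) :
    vF S (lM W) (lF g) = lF (vwF S W g) := by
  unfold vF
  rw [idxS_lF hk, map_rng hk]
  refine congrArg List.ofFn (funext fun i => ?_)
  rw [nthL_lM hk, uF_eq hk]
  rfl

lemma newA_eq (hk : k ≤ S) (a : Fin k → ℤ) (W : Fin k → Fin k → ℤ) (g : Fin k → ℤ) :
    newA S (lF a) (lM W) (lF g) = lF (awF S a W g) := by
  unfold newA
  rw [idxS_lF hk, map_rng hk]
  refine congrArg List.ofFn (funext fun i => ?_)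
  rw [nthZ_lF hk a i, vF_eq hk W g, nthZ_lF hk (vwF S W g) i]
  rfl

lemma newW_eq (hk : k ≤ S) (W : Fin k → Fin k → ℤ) (g : Fin k → ℤ) :
    newW S (lM W) (lF g) = lM (WwF S W g) := by
  unfold newW
  rw [idxS_lF hk, map_rng hk]
  refine congrArg List.ofFn (funext fun i => ?_)
  rw [map_rng hk]
  refine congrArg List.ofFn (funext fun j => ?_)
  rw [nthL_lM hk, nthZ_lF hk, vF_eq hk, uF_eq hk, nthZ_lF hk, nthZ_lF hk]
  rfl

section Values

variable (hS : 1000000 ≤ S) (hk0 : 0 < k) (hk : 16 * (k * (k + 2)) ≤ S) {a g : Fin k → ℤ}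
  {W : Fin k → Fin k → ℤ} (ha : ∀ i, |val S (a i)| ≤ kap S)
  (hW : ∀ i j, |val S (W i j)| ≤ kap S) (hg : ∀ i, |val S (g i)| ≤ kap S)
  (hcut : (kap S)⁻¹ < val S (normF S (lM W) (lF g)))

include hS hk0 hk hW hg hcut

lemma trueL_facts : 1 ≤ kap S ^ 2 * |trueL S W g|
    ∧ ∀ j, |(trueL S W g)⁻¹ * trueH S W g j| ≤ 1 := by
  have hkS := (k_facts hk0 hk).1
  have hb := (cut_branch hS hkS hW hg).2.2.1 hcut
  have hκ := kap_pos (S := S)
  change 1 ≤ kap S ^ (2 * 2) * (∑ j, trueH S W g j * trueH S W g j) at hb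
  have hX0 : 0 < ∑ j, trueH S W g j * trueH S W g j := by
    by_contra hc
    have : kap S ^ (2 * 2) * (∑ j, trueH S W g j * trueH S W g j) ≤ 0 :=
      mul_nonpos_of_nonneg_of_nonpos (by positivity) (not_lt.mp hc)
    linarith
  have hL0 : 0 < trueL S W g := Real.sqrt_pos.mpr hX0
  constructor
  · rw [abs_of_pos hL0]
    have h8 : Real.sqrt (kap S ^ (2 * 2) * (∑ j, trueH S W g j * trueH S W g j))
        = kap S ^ 2 * trueL S W g := by
      unfold trueL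
      rw [Real.sqrt_mul (by positivity), pow_mul', Real.sqrt_sq (by positivity)]
    rw [← h8]
    exact Real.one_le_sqrt.mpr hb
  · intro j
    rw [abs_mul, abs_of_pos (inv_pos.mpr hL0), inv_mul_le_iff₀ hL0, mul_one]
    unfold trueL
    apply Real.abs_le_sqrt
    rw [sq]
    exact Finset.single_le_sum (f := fun j => trueH S W g j * trueH S W g j)
      (fun j _ => mul_self_nonneg _) (mem_univ j)

lemma uwF_ap (j : Fin k) : Ap S 20 0 (uwF S W g j) ((trueL S W g)⁻¹ * trueH S W g j) := by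
  have hkS := (k_facts hk0 hk).1
  obtain ⟨h1, h2⟩ := trueL_facts hS hk0 hk hW hg hcut
  have hL := (cut_branch hS hkS hW hg).2.2.2 hcut
  have h3 : (trueL S W g)⁻¹ * trueH S W g j = trueH S W g j / trueL S W g := by
    rw [div_eq_inv_mul]
  rw [h3]
  exact Ap.div hS 2 (hwF_ap hS hkS hW hg j) hL h1 (by rw [pow_zero, ← h3]; exact h2 j) (by norm_num)

lemma vwF_ap (i : Fin k) : Ap S 23 2 (vwF S W g i)
    (∑ j, val S (W i j) * ((trueL S W g)⁻¹ * trueH S W g j)) := by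
  have hkS := (k_facts hk0 hk).1
  have h1 : ∀ j, Ap S 0 1 (W i j) (val S (W i j)) := fun j =>
    Ap.exact (by norm_num) (by simpa using hW i j)
  exact dotF_ap hS hkS (e' := 22) (l' := 1) h1 (uwF_ap hS hk0 hk hW hg hcut) (by norm_num)

include ha in
lemma awF_ap (i : Fin k) : Ap S 25 3 (awF S a W g i)
    (val S (a i) - ((k : ℝ) + 1 + 1)⁻¹ * ∑ j, val S (W i j) * ((trueL S W g)⁻¹ * trueH S W g j)) := by
  have h1 : Ap S 0 1 (a i) (val S (a i)) := Ap.exact (by norm_num) (by simpa using ha i)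
  have h2 : Ap S 24 2 (fmul S (invF S (lF g)) (vwF S W g i)) _ :=
    Ap.mul hS (invF_ap hS hk0 hk g) (vwF_ap hS hk0 hk hW hg hcut i) (by norm_num)
  exact Ap.sub hS h1 h2 (by norm_num)

lemma WwF_ap (i j : Fin k) : Ap S 30 6 (WwF S W g i j)
    ((1 + 1 / (16 * ((k : ℝ) * ((k : ℝ) + 2)))) *
      (((k : ℝ) + 1) / Real.sqrt (((k : ℝ) + 1) ^ 2 - 1) * val S (W i j) +
      (((k : ℝ) + 1) / ((k : ℝ) + 1 + 1) - ((k : ℝ) + 1) / Real.sqrt (((k : ℝ) + 1) ^ 2 - 1)) *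
        (∑ j, val S (W i j) * ((trueL S W g)⁻¹ * trueH S W g j)) *
        ((trueL S W g)⁻¹ * trueH S W g j))) := by
  have h1 : Ap S 0 1 (W i j) (val S (W i j)) := Ap.exact (by norm_num) (by simpa using hW i j)
  have hs1 := s1F_ap hS hk0 hk g
  have hs2 := s2F_ap hS hk0 hk g
  have h2 : Ap S 9 2 (fmul S (s1F S (lF g)) (W i j)) _ := Ap.mul hS hs1 h1 (by norm_num)
  have h3 : Ap S 8 2 (csub S (s2F S (lF g)) (s1F S (lF g))) _ := Ap.sub hS hs2 hs1 (by norm_num)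
  have h4 : Ap S 26 4 (fmul S (csub S (s2F S (lF g)) (s1F S (lF g))) (vwF S W g i)) _ :=
    Ap.mul hS h3 (vwF_ap hS hk0 hk hW hg hcut i) (by norm_num)
  have h5 : Ap S 27 4 (fmul S (fmul S (csub S (s2F S (lF g)) (s1F S (lF g))) (vwF S W g i)) (uwF S W g j)) _ :=
    Ap.mul hS h4 (uwF_ap hS hk0 hk hW hg hcut j) (by norm_num)
  have h6 : Ap S 28 5 (cadd S (fmul S (s1F S (lF g)) (W i j))
      (fmul S (fmul S (csub S (s2F S (lF g)) (s1F S (lF g))) (vwF S W g i)) (uwF S W g j))) _ :=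
    Ap.add hS h2 h5 (by norm_num)
  exact Ap.mul hS (infF_ap hS hk0 hk g) h6 (by norm_num)

end Values

/-- **One cut on words.** -/
theorem cutF_spec (hS : 1000000 ≤ S) (hk0 : 0 < k) (hk : 16 * (k * (k + 2)) ≤ S) {a g : Fin k → ℤ}
    {W : Fin k → Fin k → ℤ} (ha : ∀ i, |val S (a i)| ≤ kap S)
    (hW : ∀ i j, |val S (W i j)| ≤ kap S) (hg : ∀ i, |val S (g i)| ≤ kap S) :
    ∃ (a' : Fin k → ℤ) (W' : Fin k → Fin k → ℤ), cutF S (lF a) (lM W) (lF g) = (lF a', lM W') ∧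
      (RoundStep (1 / (16 * ((k : ℝ) * ((k : ℝ) + 2)))) (kap S ^ 30 * eps S) (ellOf S a W) (ellOf S a' W')
          (fun i => val S (g i))
        ∨ (nrm ((ellOf S a W).W.transpose.mulVec fun i => val S (g i)) ≤ 3 / kap S ∧ a' = a ∧ W' = W)) := by
  have hkS := (k_facts hk0 hk).1
  obtain ⟨hb0, hb1, hb2, -⟩ := cut_branch hS hkS hW hg
  unfold cutF
  by_cases hbr : 0 < csub S (normF S (lM W) (lF g)) (qF S)
  · rw [if_pos hbr]
    have hcut := hb0.mp hbr
    refine ⟨awF S a W g, WwF S W g, ?_, Or.inl ?_⟩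
    · rw [newA_eq hkS, newW_eq hkS]
    · have hb3 := hb2 hcut
      have hne : (ellOf S a W).W.transpose.mulVec (fun i => val S (g i)) ≠ 0 := by
        rw [trueH_eq]
        intro h0
        rw [h0] at hb3
        simp [dotProduct] at hb3
        linarith
      obtain ⟨h1, h2⟩ := cut_explicit hne
      rw [trueH_eq] at h1 h2
      have hdot : Real.sqrt (trueH S W g ⬝ᵥ trueH S W g) = trueL S W g := rfl
      rw [hdot] at h1 h2
      have hmul : ∀ i, (ellOf S a W).W.mulVec ((trueL S W g)⁻¹ • trueH S W g) i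
          = ∑ j, val S (W i j) * ((trueL S W g)⁻¹ * trueH S W g j) := by
        intro i
        simp [Matrix.mulVec, dotProduct, ellOf]
      refine ⟨hne, fun i => ?_, fun i j => ?_⟩
      · rw [h1 i, hmul i]
        exact (Ap.mono hS (k' := 30) (l' := 6) (awF_ap hS hk0 hk ha hW hg hcut i) (by norm_num)).err
      · rw [h2 i j, hmul i]
        exact (WwF_ap hS hk0 hk hW hg hcut i j).err
  · rw [if_neg hbr]
    refine ⟨a, W, rfl, Or.inr ⟨?_, rfl, rfl⟩⟩
    have h1 := hb1 (not_lt.mp (mt hb0.mpr hbr))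
    rw [trueH_eq]
    exact le_of_dot_le (by have := kap_pos (S := S); positivity) h1

end EllW

end Vale.Agent.Lib.P328.Bit
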