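import Vale.Agent.Lib.P328.Bit.EllAp

/-!
# P328, bit model: the rounded ellipsoid method as a program (module ELLF)

State: centre `a`, factor `W` (a list of rows), best point `b`, best value `f`.
One round: `feasF a > 0` says `a ⬝ a < S^4 - S^2`, and then the direction is `capGradF a`, and the best point is updated if `capGF a < f`; else the direction is `a`.
`h = Wᵀ g`; `normF = |h|`; if `|h| ≤ qF = 2^(-S^3)` nothing changes; else `u = h / |h|`, `v = W u`,
`a' = a - v / (n + 2)`, `W' = (1 + η) (s1 W + (s2 - s1) v uᵀ)`, `d = n + 1`, `s1 = d / sqrt (d^2 - 1)`, `s2 = d / (d + 1)`, `η = 1 / (16 n (n + 2))`.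
Start with `a = b = 0`, `W = S^2 1`, `f = capGF 0`. There are `S^2` rounds.
-/

namespace Vale.Agent.Lib.P328.Bit

namespace EllW

variable {α : Type} [Enc α]

/-- The dot product. -/
def dotF (S : ℕ) (x y : List ℤ) : ℤ :=
  Bit.sumS S (idxS S x) fun i => fmul S (nthZ S x i) (nthZ S y i)

/-- The vector `Wᵀ g`. -/
def mulTF (S : ℕ) (W : List (List ℤ)) (g : List ℤ) : List ℤ :=
  ((idxS S g).take S).map fun j =>
    Bit.sumS S (idxS S g) fun i => fmul S (nthZ S (nthL S W i) j) (nthZ S g i)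

/-- The length of `Wᵀ g`. -/
def normF (S : ℕ) (W : List (List ℤ)) (g : List ℤ) : ℤ :=
  fsqrt S (dotF S (mulTF S W g) (mulTF S W g))

/-- The threshold: `S^3` halvings of one. -/
def qF (S : ℕ) : ℤ := (fun x => cdiv S x (cadd S 1 1))^[S ^ 3] (fone S)

/-- The unit vector `h / |h|`. -/
def uF (S : ℕ) (W : List (List ℤ)) (g : List ℤ) : List ℤ :=
  ((mulTF S W g).take S).map fun x => fdiv S x (normF S W g)

/-- The vector `W u`. -/
def vF (S : ℕ) (W : List (List ℤ)) (g : List ℤ) : List ℤ :=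
  ((idxS S g).take S).map fun i => dotF S (nthL S W i) (uF S W g)

/-- The dimension, as an integer. -/
def lenF (S : ℕ) (g : List ℤ) : ℤ := ((g.take S).length : ℤ)

/-- `d = n + 1`. -/
def dF (S : ℕ) (g : List ℤ) : ℤ := fint S (cadd S (lenF S g) 1)

/-- `d + 1 = n + 2`. -/
def d1F (S : ℕ) (g : List ℤ) : ℤ := fint S (cadd S (cadd S (lenF S g) 1) 1)

/-- `s1 = d / sqrt (d^2 - 1)`. -/
def s1F (S : ℕ) (g : List ℤ) : ℤ :=
  fdiv S (dF S g) (fsqrt S (csub S (fmul S (dF S g) (dF S g)) (fone S)))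

/-- `s2 = d / (d + 1)`. -/
def s2F (S : ℕ) (g : List ℤ) : ℤ := fdiv S (dF S g) (d1F S g)

/-- `1 / (d + 1)`. -/
def invF (S : ℕ) (g : List ℤ) : ℤ := fdiv S (fone S) (d1F S g)

/-- `1 + η`. -/
def infF (S : ℕ) (g : List ℤ) : ℤ :=
  cadd S (fone S) (fdiv S (fone S)
    (fint S (cmul S (clamp S ((16 : ℕ) : ℤ)) (cmul S (lenF S g) (cadd S (lenF S g) (cadd S 1 1))))))

/-- The new centre. -/
def newA (S : ℕ) (a : List ℤ) (W : List (List ℤ)) (g : List ℤ) : List ℤ :=
  ((idxS S g).take S).map fun i => csub S (nthZ S a i) (fmul S (invF S g) (nthZ S (vF S W g) i))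

/-- The new factor. -/
def newW (S : ℕ) (W : List (List ℤ)) (g : List ℤ) : List (List ℤ) :=
  ((idxS S g).take S).map fun i => ((idxS S g).take S).map fun j =>
    fmul S (infF S g) (cadd S (fmul S (s1F S g) (nthZ S (nthL S W i) j))
      (fmul S (fmul S (csub S (s2F S g) (s1F S g)) (nthZ S (vF S W g) i)) (nthZ S (uF S W g) j)))

/-- One cut. -/
def cutF (S : ℕ) (a : List ℤ) (W : List (List ℤ)) (g : List ℤ) : List ℤ × List (List ℤ) :=
  if 0 < csub S (normF S W g) (qF S) then (newA S a W g, newW S W g) else (a, W)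

/-- The square of the radius of the ball, `S^4 - S^2`. -/
def ballF (S : ℕ) : ℤ := fint S (csub S (clamp S ((S : ℤ) ^ 4)) (clamp S ((S : ℤ) ^ 2)))

/-- Positive when the centre is in the ball. -/
def feasF (S : ℕ) (a : List ℤ) : ℤ := csub S (ballF S) (dotF S a a)

/-- The direction of the cut. -/
def dirF (S : ℕ) (r c : List ℤ) (t : List (List ℤ)) (a : List ℤ) : List ℤ :=
  if 0 < feasF S a then capGradF S r c t a else a

/-- The best point and value. -/
def bestF (S : ℕ) (r c : List ℤ) (t : List (List ℤ)) (a b : List ℤ) (f : ℤ) : List ℤ × ℤ :=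
  if 0 < feasF S a then
    (if 0 < csub S f (capGF S r c t a) then (a, capGF S r c t a) else (b, f))
  else (b, f)

/-- The state of the method. -/
abbrev St := List ℤ × (List (List ℤ) × (List ℤ × ℤ))

/-- One round. -/
def stepF (S : ℕ) (r c : List ℤ) (t : List (List ℤ)) (st : St) : St :=
  ((cutF S st.1 st.2.1 (dirF S r c t st.1)).1,
    ((cutF S st.1 st.2.1 (dirF S r c t st.1)).2,
      ((bestF S r c t st.1 st.2.2.1 st.2.2.2).1, (bestF S r c t st.1 st.2.2.1 st.2.2.2).2)))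

/-- The zero vector. -/
def zerosF (S : ℕ) (c : List ℤ) : List ℤ := ((idxS S c).take S).map fun _ => 0

/-- The first factor, `S^2 1`. -/
def initW (S : ℕ) (c : List ℤ) : List (List ℤ) :=
  ((idxS S c).take S).map fun i => ((idxS S c).take S).map fun j =>
    if 0 < csub S 1 (cmul S (csub S i j) (csub S i j)) then fint S (clamp S ((S : ℤ) ^ 2)) else 0

/-- The first state. -/
def initF (S : ℕ) (r c : List ℤ) (t : List (List ℤ)) : St :=
  (zerosF S c, (initW S c, (zerosF S c, capGF S r c t (zerosF S c))))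

/-- All rounds. -/
def runF (S : ℕ) (r c : List ℤ) (t : List (List ℤ)) : St :=
  (fun st => stepF S r c t st)^[S ^ 2] (initF S r c t)

/-! ### Programs -/

theorem dotF_rep {fx fy : ℕ → α → List ℤ} (hx : DRep fx) (hy : DRep fy) :
    DRep fun S x => dotF S (fx S x) (fy S x) := by
  have h1 : DRep (α := α × ℤ) (β := α) fun _ y => y.1 := DRep.fst
  have h2 : DRep (α := α × ℤ) (β := ℤ) fun _ y => y.2 := DRep.snd
  have hg : DRep (α := α × ℤ) (β := ℤ) fun S y =>
      fmul S (nthZ S (fx S y.1) y.2) (nthZ S (fy S y.1) y.2) :=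
    fmul_rep (nthZ_rep (h1.comp hx) h2) (nthZ_rep (h1.comp hy) h2)
  have h := sumS_rep (idxS_rep hx) hg
  simpa only [dotF] using h

theorem mulTF_rep {fW : ℕ → α → List (List ℤ)} {fg : ℕ → α → List ℤ} (hW : DRep fW) (hg : DRep fg) :
    DRep fun S x => mulTF S (fW S x) (fg S x) := by
  have h1 : DRep (α := α × ℤ) (β := α) fun _ y => y.1 := DRep.fst
  have h2 : DRep (α := α × ℤ) (β := ℤ) fun _ y => y.2 := DRep.snd
  have h3 : DRep (α := (α × ℤ) × ℤ) (β := α × ℤ) fun _ y => y.1 := DRep.fst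
  have h4 : DRep (α := (α × ℤ) × ℤ) (β := ℤ) fun _ y => y.2 := DRep.snd
  have hin : DRep (α := (α × ℤ) × ℤ) (β := ℤ) fun S y =>
      fmul S (nthZ S (nthL S (fW S y.1.1) y.2) y.1.2) (nthZ S (fg S y.1.1) y.2) :=
    fmul_rep (nthZ_rep (nthL_rep ((h3.comp h1).comp hW) h4) (h3.comp h2))
      (nthZ_rep ((h3.comp h1).comp hg) h4)
  have hs := sumS_rep (l := fun (S : ℕ) (y : α × ℤ) => idxS S (fg S y.1)) (idxS_rep (h1.comp hg)) hin
  have h := DRep.mapS (idxS_rep hg) hs
  simpa only [mulTF] using h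

theorem normF_rep {fW : ℕ → α → List (List ℤ)} {fg : ℕ → α → List ℤ} (hW : DRep fW) (hg : DRep fg) :
    DRep fun S x => normF S (fW S x) (fg S x) :=
  fsqrt_rep (dotF_rep (mulTF_rep hW hg) (mulTF_rep hW hg))

theorem qF_rep : DRep (α := α) (β := ℤ) fun S _ => qF S := by
  have hb : DRep (α := α × ℤ) (β := ℤ) fun S y => cdiv S y.2 (cadd S 1 1) :=
    DRep.snd.div (DRep.one.add DRep.one)
  have h := DRep.iterPow (α := α) (β := ℤ) 3 hb
  have h2 : DRep (α := α) (β := α × ℤ) fun S x => (x, fone S) := DRep.id'.pair fone_rep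
  exact h2.comp h

theorem uF_rep {fW : ℕ → α → List (List ℤ)} {fg : ℕ → α → List ℤ} (hW : DRep fW) (hg : DRep fg) :
    DRep fun S x => uF S (fW S x) (fg S x) := by
  have h1 : DRep (α := α × ℤ) (β := α) fun _ y => y.1 := DRep.fst
  have h2 : DRep (α := α × ℤ) (β := ℤ) fun _ y => y.2 := DRep.snd
  have hf : DRep (α := α × ℤ) (β := ℤ) fun S y => fdiv S y.2 (normF S (fW S y.1) (fg S y.1)) :=
    fdiv_rep h2 (normF_rep (h1.comp hW) (h1.comp hg))
  have h := DRep.mapS (mulTF_rep hW hg) hf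
  simpa only [uF] using h

theorem vF_rep {fW : ℕ → α → List (List ℤ)} {fg : ℕ → α → List ℤ} (hW : DRep fW) (hg : DRep fg) :
    DRep fun S x => vF S (fW S x) (fg S x) := by
  have h1 : DRep (α := α × ℤ) (β := α) fun _ y => y.1 := DRep.fst
  have h2 : DRep (α := α × ℤ) (β := ℤ) fun _ y => y.2 := DRep.snd
  have hf : DRep (α := α × ℤ) (β := ℤ) fun S y =>
      dotF S (nthL S (fW S y.1) y.2) (uF S (fW S y.1) (fg S y.1)) :=
    dotF_rep (nthL_rep (h1.comp hW) h2) (uF_rep (h1.comp hW) (h1.comp hg))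
  have h := DRep.mapS (idxS_rep hg) hf
  simpa only [vF] using h

theorem lenF_rep {fg : ℕ → α → List ℤ} (hg : DRep fg) : DRep fun S x => lenF S (fg S x) :=
  DRep.lengthS hg

theorem dF_rep {fg : ℕ → α → List ℤ} (hg : DRep fg) : DRep fun S x => dF S (fg S x) :=
  fint_rep ((lenF_rep hg).add DRep.one)

theorem d1F_rep {fg : ℕ → α → List ℤ} (hg : DRep fg) : DRep fun S x => d1F S (fg S x) :=
  fint_rep (((lenF_rep hg).add DRep.one).add DRep.one)

theorem s1F_rep {fg : ℕ → α → List ℤ} (hg : DRep fg) : DRep fun S x => s1F S (fg S x) :=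
  fdiv_rep (dF_rep hg) (fsqrt_rep ((fmul_rep (dF_rep hg) (dF_rep hg)).sub fone_rep))

theorem s2F_rep {fg : ℕ → α → List ℤ} (hg : DRep fg) : DRep fun S x => s2F S (fg S x) :=
  fdiv_rep (dF_rep hg) (d1F_rep hg)

theorem invF_rep {fg : ℕ → α → List ℤ} (hg : DRep fg) : DRep fun S x => invF S (fg S x) :=
  fdiv_rep fone_rep (d1F_rep hg)

theorem infF_rep {fg : ℕ → α → List ℤ} (hg : DRep fg) : DRep fun S x => infF S (fg S x) :=
  fone_rep.add (fdiv_rep fone_rep (fint_rep ((DRep.natConst 16).mul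
    ((lenF_rep hg).mul ((lenF_rep hg).add (DRep.one.add DRep.one))))))

theorem newA_rep {fa : ℕ → α → List ℤ} {fW : ℕ → α → List (List ℤ)} {fg : ℕ → α → List ℤ}
    (ha : DRep fa) (hW : DRep fW) (hg : DRep fg) :
    DRep fun S x => newA S (fa S x) (fW S x) (fg S x) := by
  have h1 : DRep (α := α × ℤ) (β := α) fun _ y => y.1 := DRep.fst
  have h2 : DRep (α := α × ℤ) (β := ℤ) fun _ y => y.2 := DRep.snd
  have hf : DRep (α := α × ℤ) (β := ℤ) fun S y =>
      csub S (nthZ S (fa S y.1) y.2)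
        (fmul S (invF S (fg S y.1)) (nthZ S (vF S (fW S y.1) (fg S y.1)) y.2)) :=
    (nthZ_rep (h1.comp ha) h2).sub (fmul_rep (invF_rep (h1.comp hg))
      (nthZ_rep (vF_rep (h1.comp hW) (h1.comp hg)) h2))
  have h := DRep.mapS (idxS_rep hg) hf
  simpa only [newA] using h

theorem newW_rep {fW : ℕ → α → List (List ℤ)} {fg : ℕ → α → List ℤ} (hW : DRep fW) (hg : DRep fg) :
    DRep fun S x => newW S (fW S x) (fg S x) := by
  have h1 : DRep (α := α × ℤ) (β := α) fun _ y => y.1 := DRep.fst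
  have h2 : DRep (α := α × ℤ) (β := ℤ) fun _ y => y.2 := DRep.snd
  have h3 : DRep (α := (α × ℤ) × ℤ) (β := α × ℤ) fun _ y => y.1 := DRep.fst
  have h4 : DRep (α := (α × ℤ) × ℤ) (β := ℤ) fun _ y => y.2 := DRep.snd
  have hW' := (h3.comp h1).comp hW
  have hg' := (h3.comp h1).comp hg
  have hi := h3.comp h2
  have hin : DRep (α := (α × ℤ) × ℤ) (β := ℤ) fun S y =>
      fmul S (infF S (fg S y.1.1)) (cadd S (fmul S (s1F S (fg S y.1.1)) (nthZ S (nthL S (fW S y.1.1) y.1.2) y.2))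
        (fmul S (fmul S (csub S (s2F S (fg S y.1.1)) (s1F S (fg S y.1.1)))
          (nthZ S (vF S (fW S y.1.1) (fg S y.1.1)) y.1.2)) (nthZ S (uF S (fW S y.1.1) (fg S y.1.1)) y.2))) :=
    fmul_rep (infF_rep hg') ((fmul_rep (s1F_rep hg') (nthZ_rep (nthL_rep hW' hi) h4)).add
      (fmul_rep (fmul_rep ((s2F_rep hg').sub (s1F_rep hg')) (nthZ_rep (vF_rep hW' hg') hi))
        (nthZ_rep (uF_rep hW' hg') h4)))
  have hs := DRep.mapS (l := fun (S : ℕ) (y : α × ℤ) => idxS S (fg S y.1)) (idxS_rep (h1.comp hg)) hin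
  have h := DRep.mapS (idxS_rep hg) hs
  simpa only [newW] using h

theorem cutF_rep {fa : ℕ → α → List ℤ} {fW : ℕ → α → List (List ℤ)} {fg : ℕ → α → List ℤ}
    (ha : DRep fa) (hW : DRep fW) (hg : DRep fg) :
    DRep fun S x => cutF S (fa S x) (fW S x) (fg S x) := by
  have h := DRep.ite ((normF_rep hW hg).sub qF_rep) ((newA_rep ha hW hg).pair (newW_rep hW hg)) (ha.pair hW)
  exact h

theorem ballF_rep : DRep (α := α) (β := ℤ) fun S _ => ballF S :=
  fint_rep ((spow_rep 4).sub (spow_rep 2))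

theorem feasF_rep {fa : ℕ → α → List ℤ} (ha : DRep fa) : DRep fun S x => feasF S (fa S x) :=
  ballF_rep.sub (dotF_rep ha ha)

theorem dirF_rep {fr fc : ℕ → α → List ℤ} {ft : ℕ → α → List (List ℤ)} {fa : ℕ → α → List ℤ}
    (hr : DRep fr) (hc : DRep fc) (ht : DRep ft) (ha : DRep fa) :
    DRep fun S x => dirF S (fr S x) (fc S x) (ft S x) (fa S x) :=
  DRep.ite (feasF_rep ha) (capGradF_rep hr hc ht ha) ha

theorem bestF_rep {fr fc : ℕ → α → List ℤ} {ft : ℕ → α → List (List ℤ)} {fa fb : ℕ → α → List ℤ}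
    {ff : ℕ → α → ℤ} (hr : DRep fr) (hc : DRep fc) (ht : DRep ft) (ha : DRep fa) (hb : DRep fb)
    (hf : DRep ff) :
    DRep fun S x => bestF S (fr S x) (fc S x) (ft S x) (fa S x) (fb S x) (ff S x) :=
  DRep.ite (feasF_rep ha)
    (DRep.ite (hf.sub (capGF_rep hr hc ht ha)) (ha.pair (capGF_rep hr hc ht ha)) (hb.pair hf))
    (hb.pair hf)

theorem zerosF_rep {fc : ℕ → α → List ℤ} (hc : DRep fc) : DRep fun S x => zerosF S (fc S x) := by
  have h := DRep.mapS (f := fun _ (_ : α × ℤ) => (0 : ℤ)) (idxS_rep hc) DRep.zero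
  simpa only [zerosF] using h

theorem initW_rep {fc : ℕ → α → List ℤ} (hc : DRep fc) : DRep fun S x => initW S (fc S x) := by
  have h1 : DRep (α := α × ℤ) (β := α) fun _ y => y.1 := DRep.fst
  have h2 : DRep (α := α × ℤ) (β := ℤ) fun _ y => y.2 := DRep.snd
  have h3 : DRep (α := (α × ℤ) × ℤ) (β := α × ℤ) fun _ y => y.1 := DRep.fst
  have h4 : DRep (α := (α × ℤ) × ℤ) (β := ℤ) fun _ y => y.2 := DRep.snd
  have hi := h3.comp h2
  have hd : DRep (α := (α × ℤ) × ℤ) (β := ℤ) fun S y => csub S y.1.2 y.2 := hi.sub h4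
  have hin : DRep (α := (α × ℤ) × ℤ) (β := ℤ) fun S y =>
      if 0 < csub S 1 (cmul S (csub S y.1.2 y.2) (csub S y.1.2 y.2))
      then fint S (clamp S ((S : ℤ) ^ 2)) else 0 :=
    DRep.ite (DRep.one.sub (hd.mul hd)) (fint_rep (spow_rep 2)) DRep.zero
  have hs := DRep.mapS (l := fun (S : ℕ) (y : α × ℤ) => idxS S (fc S y.1)) (idxS_rep (h1.comp hc)) hin
  have h := DRep.mapS (idxS_rep hc) hs
  simpa only [initW] using h

theorem initF_rep {fr fc : ℕ → α → List ℤ} {ft : ℕ → α → List (List ℤ)}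
    (hr : DRep fr) (hc : DRep fc) (ht : DRep ft) :
    DRep fun S x => initF S (fr S x) (fc S x) (ft S x) :=
  (zerosF_rep hc).pair ((initW_rep hc).pair ((zerosF_rep hc).pair
    (capGF_rep hr hc ht (zerosF_rep hc))))

theorem stepF_rep {fr fc : ℕ → α → List ℤ} {ft : ℕ → α → List (List ℤ)} {fs : ℕ → α → St}
    (hr : DRep fr) (hc : DRep fc) (ht : DRep ft) (hs : DRep fs) :
    DRep fun S x => stepF S (fr S x) (fc S x) (ft S x) (fs S x) := by
  have ha : DRep fun S x => (fs S x).1 := hs.comp DRep.fst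
  have hW : DRep fun S x => (fs S x).2.1 := (hs.comp DRep.snd).comp DRep.fst
  have hb : DRep fun S x => (fs S x).2.2.1 := ((hs.comp DRep.snd).comp DRep.snd).comp DRep.fst
  have hf : DRep fun S x => (fs S x).2.2.2 := ((hs.comp DRep.snd).comp DRep.snd).comp DRep.snd
  have hcut := cutF_rep ha hW (dirF_rep hr hc ht ha)
  have hbest := bestF_rep hr hc ht ha hb hf
  exact (hcut.comp DRep.fst).pair ((hcut.comp DRep.snd).pair
    ((hbest.comp DRep.fst).pair (hbest.comp DRep.snd)))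

theorem runF_rep {fr fc : ℕ → α → List ℤ} {ft : ℕ → α → List (List ℤ)}
    (hr : DRep fr) (hc : DRep fc) (ht : DRep ft) :
    DRep fun S x => runF S (fr S x) (fc S x) (ft S x) := by
  have h1 : DRep (α := α × St) (β := α) fun _ y => y.1 := DRep.fst
  have h2 : DRep (α := α × St) (β := St) fun _ y => y.2 := DRep.snd
  have hb : DRep (α := α × St) (β := St) fun S y =>
      stepF S (fr S y.1) (fc S y.1) (ft S y.1) y.2 :=
    stepF_rep (h1.comp hr) (h1.comp hc) (h1.comp ht) h2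
  have h := DRep.iterPow (α := α) (β := St) 2 hb
  have h3 : DRep (α := α) (β := α × St) fun S x => (x, initF S (fr S x) (fc S x) (ft S x)) :=
    DRep.id'.pair (initF_rep hr hc ht)
  exact h3.comp h

end EllW

end Vale.Agent.Lib.P328.Bit
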