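import Vale.Agent.Lib.P328.Bit.EllCut
import Vale.Agent.Lib.P328.Bit.CapCube

/-!
# P328, bit model: the run of the rounded ellipsoid method on words (module ELLF)

`one_round`: one round of the program on a state `(lF a, lM W, lF b, capGF b)`.
-/

namespace Vale.Agent.Lib.P328.Bit

open Finset Vale.Agent.Lib.P328.Cap Vale.Agent.Lib.P328.Fpras Vale.Agent.Lib.P328.Samp EllAbsAux
open scoped Matrix

namespace EllW

variable {S m n : ℕ} {r : Fin m → ℕ} {c : Fin n → ℕ} {t : Fin n → Fin m → ℤ}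

/-- Decoding a vector. -/
def vecOf (n : ℕ) (l : List ℤ) : Fin n → ℤ := fun i => l.getD i 0

/-- Decoding a matrix. -/
def matOf (n : ℕ) (L : List (List ℤ)) : Fin n → Fin n → ℤ := fun i j => (L.getD i []).getD j 0

lemma vecOf_lF (a : Fin n → ℤ) : vecOf n (lF a) = a := by
  funext i
  simp [vecOf, lF, List.getD_eq_getElem?_getD]

lemma matOf_lM (W : Fin n → Fin n → ℤ) : matOf n (lM W) = W := by
  funext i j
  simp [matOf, lM, List.getD_eq_getElem?_getD]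

/-- The hypotheses on the data. -/
structure Ctx (S : ℕ) (r : Fin m → ℕ) (c : Fin n → ℕ) (t : Fin n → Fin m → ℤ) : Prop where
  hS : 1000000 ≤ S
  hk : 16 * (n * (n + 2)) ≤ S
  hn : 0 < n
  hm : 0 < m
  hD : (n : ℝ) + (m : ℝ) ≤ S
  hsum : ∑ i, r i = ∑ j, c j
  hN : ∑ i, r i < 2 ^ S
  ht : TabRange S (rM S t)
  hbig : (10 : ℝ) ^ 6 * ((n : ℝ) * m + 1) ^ 2 ≤ S

theorem Ctx.of (h : 10 ^ 6 * ((n : ℝ) * m + 1) ^ 2 ≤ S) (hm : 0 < m) (hn : 0 < n)
    (hsum : ∑ i, r i = ∑ j, c j) (hN : ∑ i, r i < 2 ^ S) (ht : TabRange S (rM S t)) :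
    Ctx S r c t := by
  have hn1 : (1 : ℝ) ≤ n := by exact_mod_cast hn
  have hm1 : (1 : ℝ) ≤ m := by exact_mod_cast hm
  have hnm0 : (1 : ℝ) ≤ (n : ℝ) * m := by nlinarith
  have h1 : (n : ℝ) * m + 1 ≤ ((n : ℝ) * m + 1) ^ 2 := by nlinarith
  have h2 : (n : ℝ) + 1 ≤ (n : ℝ) * m + 1 := by nlinarith
  have h3 : (m : ℝ) + 1 ≤ (n : ℝ) * m + 1 := by nlinarith
  have h4 : ((n : ℝ) + 1) ^ 2 ≤ ((n : ℝ) * m + 1) ^ 2 := pow_le_pow_left₀ (by positivity) h2 2
  refine ⟨?_, ?_, hn, hm, ?_, hsum, hN, ht, h⟩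
  · have h5 : (1000000 : ℝ) ≤ S := by nlinarith
    exact_mod_cast h5
  · have h5 : (16 : ℝ) * ((n : ℝ) * ((n : ℝ) + 2)) ≤ S := by nlinarith
    exact_mod_cast h5
  · nlinarith

section Basics

variable (C : Ctx S r c t)

include C

lemma Ctx.n_le : n ≤ S := (k_facts C.hn C.hk).1

lemma Ctx.t_pos : ∀ j i, 0 < rM S t j i := by
  intro j i
  have h1 : (0 : ℝ) < S := by
    have h2 := C.hS
    have h3 : 0 < S := by omega
    exact_mod_cast h3
  exact lt_of_lt_of_le (by positivity) (C.ht j i).1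

lemma Ctx.S_big : (1000000 : ℝ) ≤ S := by
  have := C.hS
  exact_mod_cast this

omit C in
lemma length_lN {k : ℕ} (f : Fin k → ℕ) : (lN f).length = k := by simp [lN]

lemma Ctx.idx_c : idxS S (lN c) = rng n := idxS_eq (length_lN c) C.n_le

lemma Ctx.zeros_eq : zerosF S (lN c) = lF (fun _ : Fin n => (0 : ℤ)) := by
  unfold zerosF
  rw [C.idx_c, map_rng C.n_le]
  rfl

end Basics

/-- The first factor as a matrix of words. -/
def W0 (S : ℕ) (i j : Fin n) : ℤ := if i = j then fint S ((S : ℤ) ^ 2) else 0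

lemma S_pow_small (hS : 1000000 ≤ S) {z : ℤ} (hz : |z| ≤ (S : ℤ) ^ 3) : clamp S z = z :=
  clamp_eq hS (small_int hS hz)

section Init

variable (C : Ctx S r c t)

include C

lemma Ctx.initW_eq : initW S (lN c) = lM (W0 (n := n) S) := by
  have hS := C.hS
  have hnS := C.n_le
  unfold initW
  rw [C.idx_c, map_rng hnS]
  refine congrArg List.ofFn (funext fun i => ?_)
  rw [map_rng hnS]
  refine congrArg List.ofFn (funext fun j => ?_)
  have hi : ((i : ℕ) : ℤ) ≤ S := by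
    have : (i : ℕ) ≤ S := by have := i.2; omega
    exact_mod_cast this
  have hj : ((j : ℕ) : ℤ) ≤ S := by
    have : (j : ℕ) ≤ S := by have := j.2; omega
    exact_mod_cast this
  have hi0 : (0 : ℤ) ≤ ((i : ℕ) : ℤ) := Int.natCast_nonneg _
  have hj0 : (0 : ℤ) ≤ ((j : ℕ) : ℤ) := Int.natCast_nonneg _
  have hS1 : (1000000 : ℤ) ≤ S := by exact_mod_cast hS
  have hS2 : (S : ℤ) * S ≤ (S : ℤ) ^ 3 := by nlinarith [mul_nonneg (by linarith : (0:ℤ) ≤ (S:ℤ)) (by linarith : (0:ℤ) ≤ (S:ℤ))]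
  have hsm : ∀ z : ℤ, |z| ≤ (S : ℤ) ^ 3 → |z| ≤ 2 ^ wid S := fun z hz => small_int hS hz
  have hSS : (S : ℤ) ≤ (S : ℤ) ^ 3 := by nlinarith
  have hd : csub S ((i : ℕ) : ℤ) ((j : ℕ) : ℤ) = ((i : ℕ) : ℤ) - ((j : ℕ) : ℤ) := by
    apply FExpAux.csub_eq hS
    · apply hsm; rw [abs_of_nonneg hi0]; linarith
    · apply hsm; rw [abs_of_nonneg hj0]; linarith
    · apply hsm; rw [abs_le]; constructor <;> linarith
  have hdabs : |((i : ℕ) : ℤ) - ((j : ℕ) : ℤ)| ≤ S := by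
    rw [abs_le]; constructor <;> linarith
  have hsq : cmul S (((i : ℕ) : ℤ) - ((j : ℕ) : ℤ)) (((i : ℕ) : ℤ) - ((j : ℕ) : ℤ))
      = (((i : ℕ) : ℤ) - ((j : ℕ) : ℤ)) * (((i : ℕ) : ℤ) - ((j : ℕ) : ℤ)) := by
    apply FExpAux.cmul_eq hS
    · apply hsm; linarith
    · apply hsm; linarith
    · apply hsm
      rw [abs_mul]
      have := mul_le_mul hdabs hdabs (abs_nonneg _) (by linarith : (0 : ℤ) ≤ S)
      linarith
  have hsqabs : |(((i : ℕ) : ℤ) - ((j : ℕ) : ℤ)) * (((i : ℕ) : ℤ) - ((j : ℕ) : ℤ))| ≤ S * S := by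
    rw [abs_mul]
    exact mul_le_mul hdabs hdabs (abs_nonneg _) (by linarith : (0 : ℤ) ≤ S)
  have hone : csub S 1 ((((i : ℕ) : ℤ) - ((j : ℕ) : ℤ)) * (((i : ℕ) : ℤ) - ((j : ℕ) : ℤ)))
      = 1 - (((i : ℕ) : ℤ) - ((j : ℕ) : ℤ)) * (((i : ℕ) : ℤ) - ((j : ℕ) : ℤ)) := by
    apply FExpAux.csub_eq hS
    · apply hsm; rw [abs_one]; linarith
    · apply hsm; linarith
    · apply hsm
      have h5 := abs_sub (1 : ℤ) ((((i : ℕ) : ℤ) - ((j : ℕ) : ℤ)) * (((i : ℕ) : ℤ) - ((j : ℕ) : ℤ)))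
      rw [abs_one] at h5
      nlinarith
  have hcl : clamp S ((S : ℤ) ^ 2) = (S : ℤ) ^ 2 := spow_eq hS (by norm_num)
  simp only [hd, hsq, hone, hcl, W0]
  by_cases hij : i = j
  · subst hij
    simp
  · have hne : ((i : ℕ) : ℤ) - ((j : ℕ) : ℤ) ≠ 0 := by
      intro h0
      apply hij
      apply Fin.ext
      have : ((i : ℕ) : ℤ) = ((j : ℕ) : ℤ) := by linarith
      exact_mod_cast this
    have h6 : 0 < (((i : ℕ) : ℤ) - ((j : ℕ) : ℤ)) * (((i : ℕ) : ℤ) - ((j : ℕ) : ℤ)) :=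
      mul_self_pos.mpr hne
    rw [if_neg (by omega), if_neg hij]

lemma Ctx.val_W0 (i j : Fin n) : val S (W0 S i j) = if i = j then (S : ℝ) ^ 2 else 0 := by
  have hS := C.hS
  unfold W0
  by_cases hij : i = j
  · rw [if_pos hij, if_pos hij]
    have h1 : |(((S : ℤ) ^ 2 : ℤ) : ℝ)| ≤ Big S := by
      push_cast
      rw [abs_of_nonneg (by positivity)]
      unfold Big
      have h2 : S < 2 ^ S := Nat.lt_two_pow_self
      have h3 : S ^ 2 ≤ (2 ^ S) ^ 2 := Nat.pow_le_pow_left h2.le 2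
      have h4 : (2 ^ S) ^ 2 = 2 ^ (S * 2) := by rw [pow_mul]
      have h5 : S * 2 ≤ S ^ 4 := by
        have h6 : S ^ 4 = S * S ^ 3 := by ring
        rw [h6]
        exact Nat.mul_le_mul_left S (by have := cube_ge hS; omega)
      have h6 : 2 ^ (S * 2) ≤ 2 ^ (S ^ 4) := Nat.pow_le_pow_right (by norm_num) h5
      have h7 : S ^ 2 ≤ 2 ^ (S ^ 4) := by omega
      exact_mod_cast h7
    rw [val_fint hS h1]
    push_cast
    rfl
  · rw [if_neg hij, if_neg hij]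
    simp [val]

lemma Ctx.ell0 : ellOf S (fun _ : Fin n => (0 : ℤ)) (W0 S)
    = ⟨0, ((S : ℝ) ^ 2) • (1 : Matrix (Fin n) (Fin n) ℝ)⟩ := by
  unfold ellOf
  congr 1
  · funext i
    simp [val]
  · ext i j
    simp only [Matrix.of_apply, Matrix.smul_apply, Matrix.one_apply, smul_eq_mul, C.val_W0]
    by_cases hij : i = j <;> simp [hij]

end Init

/-- A vector in the ball has small entries. -/
lemma abs_le_of_sum {x : Fin n → ℝ} {R : ℝ} (hR : 0 ≤ R) (h : ∑ i, x i * x i ≤ R ^ 2) (i : Fin n) :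
    |x i| ≤ R := by
  have h1 : x i * x i ≤ ∑ i, x i * x i :=
    Finset.single_le_sum (f := fun j => x j * x j) (fun j _ => mul_self_nonneg _) (mem_univ i)
  have h2 : |x i| ^ 2 ≤ R ^ 2 := by
    rw [sq_abs, sq]
    linarith
  exact (abs_le_of_sq_le_sq' h2 hR).2

/-- The gradient is bounded. -/
lemma capGrad_bound (hn : 0 < n) (hsum : ∑ i, r i = ∑ j, c j) {τ : Fin n → Fin m → ℝ}
    (hτ : ∀ j i, 0 < τ j i) (β : Fin n → ℝ) (j : Fin n) :
    |capGrad r c τ β j| ≤ ((∑ i, r i : ℕ) : ℝ) := by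
  unfold capGrad
  have hfrac : ∀ i, 0 ≤ τ j i * Real.exp (β j) / ∑ l, τ l i * Real.exp (β l)
      ∧ τ j i * Real.exp (β j) / ∑ l, τ l i * Real.exp (β l) ≤ 1 := by
    intro i
    have hS : 0 < ∑ l, τ l i * Real.exp (β l) :=
      Finset.sum_pos (fun l _ => mul_pos (hτ l i) (Real.exp_pos _)) ⟨⟨0, hn⟩, mem_univ _⟩
    refine ⟨div_nonneg (mul_pos (hτ j i) (Real.exp_pos _)).le hS.le, ?_⟩
    rw [div_le_one hS]
    exact Finset.single_le_sum (f := fun l => τ l i * Real.exp (β l))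
      (fun l _ => (mul_pos (hτ l i) (Real.exp_pos _)).le) (mem_univ j)
  have h1 : 0 ≤ ∑ i, (r i : ℝ) * (τ j i * Real.exp (β j) / ∑ l, τ l i * Real.exp (β l)) :=
    Finset.sum_nonneg fun i _ => mul_nonneg (Nat.cast_nonneg _) (hfrac i).1
  have h2 : ∑ i, (r i : ℝ) * (τ j i * Real.exp (β j) / ∑ l, τ l i * Real.exp (β l))
      ≤ ((∑ i, r i : ℕ) : ℝ) := by
    rw [Nat.cast_sum]
    refine Finset.sum_le_sum fun i _ => ?_
    exact mul_le_of_le_one_right (Nat.cast_nonneg _) (hfrac i).2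
  have h3 : (c j : ℝ) ≤ ((∑ i, r i : ℕ) : ℝ) := by
    rw [hsum]
    exact_mod_cast Finset.single_le_sum (f := fun l => c l) (fun _ _ => Nat.zero_le _) (mem_univ j)
  have h4 : (0 : ℝ) ≤ c j := Nat.cast_nonneg _
  rw [abs_le]
  constructor <;> linarith

/-! ### The tests -/

lemma val_ballF (hS : 1000000 ≤ S) : val S (ballF S) = (S : ℝ) ^ 4 - (S : ℝ) ^ 2 := by
  have hS1 : (1000000 : ℤ) ≤ S := by exact_mod_cast hS
  have h4 : clamp S ((S : ℤ) ^ 4) = (S : ℤ) ^ 4 := spow_eq hS (by norm_num)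
  have h2 : clamp S ((S : ℤ) ^ 2) = (S : ℤ) ^ 2 := spow_eq hS (by norm_num)
  have hB : (S : ℝ) ^ 4 ≤ Big S := by
    unfold Big
    have h5 : S ^ 4 < 2 ^ (S ^ 4) := Nat.lt_two_pow_self
    exact_mod_cast h5.le
  have hSR : (1000000 : ℝ) ≤ S := by exact_mod_cast hS
  have hsq : (S : ℝ) ^ 2 ≤ (S : ℝ) ^ 4 := pow_le_pow_right₀ (by linarith) (by norm_num)
  have h5 : csub S ((S : ℤ) ^ 4) ((S : ℤ) ^ 2) = (S : ℤ) ^ 4 - (S : ℤ) ^ 2 := by
    unfold csub
    rw [h4, h2]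
    have hb : |(S : ℤ) ^ 4 - (S : ℤ) ^ 2| ≤ 2 ^ wid S := by
      have h6 : (S : ℤ) ^ 2 ≤ (S : ℤ) ^ 4 := pow_le_pow_right₀ (by linarith) (by norm_num)
      rw [abs_of_nonneg (by linarith)]
      have h7 : |(S : ℤ) ^ 4| ≤ 2 ^ wid S := by
        have h8 : S ^ 4 < 2 ^ (S ^ 4) := Nat.lt_two_pow_self
        have h9 : S ^ 4 ≤ S ^ 6 := Nat.pow_le_pow_right (by omega) (by norm_num)
        have h10 : 2 ^ (S ^ 4) ≤ 2 ^ wid S := Nat.pow_le_pow_right (by norm_num) h9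
        rw [abs_of_nonneg (by positivity)]
        exact_mod_cast (by omega : S ^ 4 ≤ 2 ^ wid S)
      rw [abs_of_nonneg (by positivity)] at h7
      have h8 : (0 : ℤ) ≤ (S : ℤ) ^ 2 := by positivity
      linarith
    exact clamp_eq hS hb
  unfold ballF
  rw [h4, h2]
  have h6 : csub S ((S : ℤ) ^ 4) ((S : ℤ) ^ 2) = (S : ℤ) ^ 4 - (S : ℤ) ^ 2 := h5
  rw [h6, val_fint hS]
  · push_cast
    rfl
  · push_cast
    rw [abs_of_nonneg (by linarith)]
    have h8 : (0 : ℝ) ≤ (S : ℝ) ^ 2 := by positivity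
    linarith

lemma feas_spec (hS : 1000000 ≤ S) (hnS : n ≤ S) {a : Fin n → ℤ} (ha : ∀ i, |val S (a i)| ≤ kap S) :
    (0 < feasF S (lF a) → ∑ i, val S (a i) * val S (a i) ≤ ((S : ℝ) ^ 2) ^ 2)
      ∧ (¬ 0 < feasF S (lF a) → ((S : ℝ) ^ 2 - 1) ^ 2 ≤ ∑ i, val S (a i) * val S (a i)) := by
  have hSR : (1000000 : ℝ) ≤ S := by exact_mod_cast hS
  have h1 : ∀ i, Ap S 0 1 (a i) (val S (a i)) := fun i =>
    Ap.exact (by norm_num) (by simpa using ha i)
  have h2 : Ap S 3 3 (dotF S (lF a) (lF a)) (∑ i, val S (a i) * val S (a i)) :=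
    dotF_ap hS hnS (e' := 2) (l' := 2) h1 h1 (by norm_num)
  have hb : Ap S 0 4 (ballF S) (val S (ballF S)) := by
    refine Ap.exact (by norm_num) ?_
    rw [val_ballF hS]
    have h3 : (S : ℝ) ^ 2 ≤ (S : ℝ) ^ 4 := pow_le_pow_right₀ (by linarith) (by norm_num)
    have h4 : (0 : ℝ) ≤ (S : ℝ) ^ 2 := by positivity
    rw [abs_of_nonneg (by linarith)]
    have h5 : (S : ℝ) ^ 4 ≤ kap S ^ 4 := pow_le_pow_left₀ (by linarith) (S_le_kap hS) 4
    linarith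
  have h3 : Ap S 4 5 (feasF S (lF a)) (val S (ballF S) - ∑ i, val S (a i) * val S (a i)) :=
    Ap.sub hS hb h2 (by norm_num)
  have h4 := abs_le.mp h3.err
  have h5 := err_small hS (a := 4) (by norm_num)
  rw [val_ballF hS] at h4
  have h6 : (2 : ℝ) ≤ (S : ℝ) ^ 2 := by nlinarith
  have h7 : ((S : ℝ) ^ 2) ^ 2 = (S : ℝ) ^ 4 := by ring
  have h8 : ((S : ℝ) ^ 2 - 1) ^ 2 = (S : ℝ) ^ 4 - 2 * (S : ℝ) ^ 2 + 1 := by ring
  constructor
  · intro h
    have h9 : 0 < val S (feasF S (lF a)) := val_pos_iff.mpr h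
    rw [h7]
    linarith [h4.2]
  · intro h
    have h9 : val S (feasF S (lF a)) ≤ 0 := not_lt.mp (mt val_pos_iff.mp h)
    rw [h8]
    linarith [h4.1]

section Round

variable (C : Ctx S r c t)

include C

lemma Ctx.kap_facts : (2 : ℝ) ^ (S + 1) ≤ kap S := by
  unfold kap
  apply pow_le_pow_right₀ (by norm_num)
  have h1 := C.hS
  have h2 : S ^ 3 = S * (S * S) := by ring
  rw [h2]
  nlinarith [Nat.mul_le_mul h1 h1]

/-- The direction. -/
lemma Ctx.dir_spec {a : Fin n → ℤ} (ha : ∀ i, |val S (a i)| ≤ kap S) :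
    ∃ g : Fin n → ℤ, dirF S (lN r) (lN c) (lM t) (lF a) = lF g ∧ (∀ i, |val S (g i)| ≤ kap S) ∧
      (0 < feasF S (lF a) → ∀ i,
        |val S (g i) - capGrad r c (rM S t) (fun j => val S (a j)) i| ≤ (1 / 2 : ℝ) ^ (S ^ 5 / 8)) ∧
      (¬ 0 < feasF S (lF a) → g = a) := by
  have hS := C.hS
  unfold dirF
  by_cases hf : 0 < feasF S (lF a)
  · rw [if_pos hf]
    have h1 := (feas_spec hS C.n_le ha).1 hf
    have h2 : ∀ j, |val S (a j)| ≤ 2 * (S : ℝ) ^ 2 := by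
      intro j
      have h3 := abs_le_of_sum (by positivity) h1 j
      have h4 : (0 : ℝ) ≤ (S : ℝ) ^ 2 := by positivity
      linarith
    obtain ⟨g, hg1, hg2⟩ := capGradF_spec (r := r) (c := c) hS C.hN C.hsum C.hn C.hD C.ht h2
    refine ⟨g, hg1, fun i => ?_, fun _ => hg2, fun h => absurd hf h⟩
    have h3 := capGrad_bound C.hn C.hsum C.t_pos (fun j => val S (a j)) i
    have h4 := hg2 i
    have h5 := abs_sub_abs_le_abs_sub (val S (g i)) (capGrad r c (rM S t) (fun j => val S (a j)) i)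
    have h6 : (1 / 2 : ℝ) ^ (S ^ 5 / 8) ≤ 1 := pow_le_one₀ (by norm_num) (by norm_num)
    have h7 : ((∑ i, r i : ℕ) : ℝ) + 1 ≤ 2 ^ S := by
      have : (∑ i, r i) + 1 ≤ 2 ^ S := C.hN
      exact_mod_cast this
    have h8 := C.kap_facts
    have h9 : (2 : ℝ) ^ (S + 1) = 2 * 2 ^ S := by rw [pow_succ]; ring
    have h10 : (0 : ℝ) < 2 ^ S := by positivity
    linarith
  · rw [if_neg hf]
    exact ⟨a, rfl, ha, fun h => absurd h hf, fun _ => rfl⟩

omit C in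
lemma clamp_abs_le (S : ℕ) (z : ℤ) : |clamp S z| ≤ 2 ^ wid S := by
  unfold clamp
  have h0 : (0 : ℤ) < 2 ^ wid S := by positivity
  rw [abs_le]
  constructor
  · exact le_max_left _ _
  · apply max_le
    · linarith
    · exact min_le_right _ _

omit C in
lemma clamp_mono (S : ℕ) {x y : ℤ} (h : x ≤ y) : clamp S x ≤ clamp S y := by
  unfold clamp
  exact max_le_max le_rfl (min_le_min_right _ h)

omit C in
lemma capGF_clamp (lr lc : List ℤ) (lt : List (List ℤ)) (b : List ℤ) :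
    clamp S (capGF S lr lc lt b) = capGF S lr lc lt b :=
  clamp_of_abs_le (clamp_abs_le _ _)

/-- The best point. -/
lemma Ctx.best_spec (a b : Fin n → ℤ) :
    ∃ b' : Fin n → ℤ,
      bestF S (lN r) (lN c) (lM t) (lF a) (lF b) (capGF S (lN r) (lN c) (lM t) (lF b))
        = (lF b', capGF S (lN r) (lN c) (lM t) (lF b'))
      ∧ capGF S (lN r) (lN c) (lM t) (lF b') ≤ capGF S (lN r) (lN c) (lM t) (lF b)
      ∧ (0 < feasF S (lF a) → capGF S (lN r) (lN c) (lM t) (lF b') ≤ capGF S (lN r) (lN c) (lM t) (lF a))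
      ∧ (b' = b ∨ (0 < feasF S (lF a) ∧ b' = a)) := by
  unfold bestF
  by_cases hf : 0 < feasF S (lF a)
  · rw [if_pos hf]
    by_cases hc : 0 < csub S (capGF S (lN r) (lN c) (lM t) (lF b)) (capGF S (lN r) (lN c) (lM t) (lF a))
    · rw [if_pos hc]
      refine ⟨a, rfl, ?_, fun _ => le_rfl, Or.inr ⟨hf, rfl⟩⟩
      unfold csub at hc
      rw [capGF_clamp, capGF_clamp] at hc
      have h1 : 0 < (capGF S (lN r) (lN c) (lM t) (lF b)) - capGF S (lN r) (lN c) (lM t) (lF a) := by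
        by_contra h2
        have h3 := clamp_mono S (not_lt.mp h2)
        have h4 : clamp S (0 : ℤ) = 0 := clamp_of_abs_le (by
          rw [abs_zero]
          positivity)
        rw [h4] at h3
        linarith
      linarith
    · rw [if_neg hc]
      refine ⟨b, rfl, le_rfl, fun _ => ?_, Or.inl rfl⟩
      unfold csub at hc
      rw [capGF_clamp, capGF_clamp] at hc
      by_contra h2
      apply hc
      push Not at h2
      have h3 : (1 : ℤ) ≤ capGF S (lN r) (lN c) (lM t) (lF b) - capGF S (lN r) (lN c) (lM t) (lF a) := by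
        linarith
      have h4 := clamp_mono S h3
      have h5 : clamp S (1 : ℤ) = 1 := clamp_one S
      rw [h5] at h4
      linarith
  · rw [if_neg hf]
    exact ⟨b, rfl, le_rfl, fun h => absurd h hf, Or.inl rfl⟩

/-- **One round of the program.** -/
lemma Ctx.one_round {a b : Fin n → ℤ} {W : Fin n → Fin n → ℤ} (ha : ∀ i, |val S (a i)| ≤ kap S)
    (hW : ∀ i j, |val S (W i j)| ≤ kap S) :
    ∃ (g a' b' : Fin n → ℤ) (W' : Fin n → Fin n → ℤ),
      stepF S (lN r) (lN c) (lM t) (lF a, (lM W, (lF b, capGF S (lN r) (lN c) (lM t) (lF b))))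
        = (lF a', (lM W', (lF b', capGF S (lN r) (lN c) (lM t) (lF b'))))
      ∧ dirF S (lN r) (lN c) (lM t) (lF a) = lF g
      ∧ (0 < feasF S (lF a) → ∀ i,
        |val S (g i) - capGrad r c (rM S t) (fun j => val S (a j)) i| ≤ (1 / 2 : ℝ) ^ (S ^ 5 / 8))
      ∧ (¬ 0 < feasF S (lF a) → g = a)
      ∧ (RoundStep (1 / (16 * ((n : ℝ) * ((n : ℝ) + 2)))) (kap S ^ 30 * eps S) (ellOf S a W) (ellOf S a' W')
            (fun i => val S (g i))
          ∨ (nrm ((ellOf S a W).W.transpose.mulVec fun i => val S (g i)) ≤ 3 / kap S ∧ a' = a ∧ W' = W))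
      ∧ capGF S (lN r) (lN c) (lM t) (lF b') ≤ capGF S (lN r) (lN c) (lM t) (lF b)
      ∧ (0 < feasF S (lF a) → capGF S (lN r) (lN c) (lM t) (lF b') ≤ capGF S (lN r) (lN c) (lM t) (lF a))
      ∧ (b' = b ∨ (0 < feasF S (lF a) ∧ b' = a)) := by
  obtain ⟨g, hg1, hg2, hg3, hg4⟩ := C.dir_spec ha
  obtain ⟨a', W', hc1, hc2⟩ := cutF_spec C.hS C.hn C.hk ha hW hg2
  obtain ⟨b', hb1, hb2, hb3, hb4⟩ := C.best_spec a b
  refine ⟨g, a', b', W', ?_, hg1, hg3, hg4, hc2, hb2, hb3, hb4⟩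
  unfold stepF
  simp only [hg1, hc1, hb1]

end Round

/-! ### The run -/

/-- The bound for the entries at round `k`. -/
noncomputable def Mk (S n k : ℕ) : ℝ := ((S : ℝ) ^ 2 + 1) * (8 * ((n : ℝ) + 1) ^ 2) ^ k

lemma eight_ge (n : ℕ) : (1 : ℝ) ≤ 8 * ((n : ℝ) + 1) ^ 2 := by
  have h0 : (0 : ℝ) ≤ n := Nat.cast_nonneg _
  nlinarith

lemma Mk_ge1 (S n k : ℕ) : 1 ≤ Mk S n k := by
  unfold Mk
  have h1 : (1 : ℝ) ≤ (8 * ((n : ℝ) + 1) ^ 2) ^ k := one_le_pow₀ (eight_ge n)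
  have h2 : (1 : ℝ) ≤ (S : ℝ) ^ 2 + 1 := by
    have : (0 : ℝ) ≤ (S : ℝ) ^ 2 := by positivity
    linarith
  calc (1 : ℝ) = 1 * 1 := by ring
    _ ≤ _ := mul_le_mul h2 h1 (by norm_num) (by linarith)

lemma Mk_succ (S n k : ℕ) : Mk S n (k + 1) = Mk S n k * (8 * ((n : ℝ) + 1) ^ 2) := by
  unfold Mk
  rw [pow_succ]
  ring

lemma Mk_mono (S n k : ℕ) : Mk S n k ≤ Mk S n (k + 1) := by
  rw [Mk_succ]
  exact le_mul_of_one_le_right (le_trans (by norm_num) (Mk_ge1 S n k)) (eight_ge n)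

lemma Ctx.Mk_le (C : Ctx S r c t) {k : ℕ} (hk : k ≤ S ^ 2) : Mk S n k ≤ kap S := by
  have hS := C.hS
  have h1 : 8 * ((n : ℝ) + 1) ^ 2 ≤ 2 ^ (S - 1) := by
    have h2 : (n : ℝ) + 1 ≤ ((n : ℝ) * m + 1) := by
      have hn1 : (0 : ℝ) ≤ n := Nat.cast_nonneg _
      have hm1 : (1 : ℝ) ≤ m := by exact_mod_cast C.hm
      nlinarith
    have h3 : ((n : ℝ) + 1) ^ 2 ≤ ((n : ℝ) * m + 1) ^ 2 := pow_le_pow_left₀ (by positivity) h2 2
    have h4 := C.hbig
    have h5 : 8 * ((n : ℝ) + 1) ^ 2 ≤ S := by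
      have h6 : (0 : ℝ) ≤ ((n : ℝ) + 1) ^ 2 := by positivity
      nlinarith
    have h6 : S - 1 < 2 ^ (S - 1) := Nat.lt_two_pow_self
    have h7 : S ≤ 2 ^ (S - 1) := by omega
    have h8 : (S : ℝ) ≤ 2 ^ (S - 1) := by exact_mod_cast h7
    linarith
  have h2 : (8 * ((n : ℝ) + 1) ^ 2) ^ k ≤ (2 ^ (S - 1) : ℝ) ^ (S ^ 2) := by
    calc (8 * ((n : ℝ) + 1) ^ 2) ^ k ≤ (8 * ((n : ℝ) + 1) ^ 2) ^ (S ^ 2) :=
          pow_le_pow_right₀ (eight_ge n) hk
      _ ≤ _ := pow_le_pow_left₀ (by positivity) h1 _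
  have h3 : (S : ℝ) ^ 2 + 1 ≤ 2 ^ (S ^ 2) := by
    have h4 : S ^ 2 < 2 ^ (S ^ 2) := Nat.lt_two_pow_self
    have h5 : S ^ 2 + 1 ≤ 2 ^ (S ^ 2) := h4
    exact_mod_cast h5
  unfold Mk kap
  have h6 : S ^ 3 = S ^ 2 + (S - 1) * S ^ 2 := by
    obtain ⟨s, rfl⟩ : ∃ s, S = s + 1 := ⟨S - 1, by omega⟩
    simp only [Nat.add_sub_cancel]
    ring
  rw [h6, pow_add, pow_mul]
  exact mul_le_mul h3 h2 (by positivity) (by positivity)

/-- The state after `k` rounds. -/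
def stK (S : ℕ) (r : Fin m → ℕ) (c : Fin n → ℕ) (t : Fin n → Fin m → ℤ) (k : ℕ) : St :=
  (fun st => stepF S (lN r) (lN c) (lM t) st)^[k] (initF S (lN r) (lN c) (lM t))

/-- The centre after `k` rounds. -/
def aK (S : ℕ) (r : Fin m → ℕ) (c : Fin n → ℕ) (t : Fin n → Fin m → ℤ) (k : ℕ) : Fin n → ℤ :=
  vecOf n (stK S r c t k).1

/-- The factor after `k` rounds. -/
def WK (S : ℕ) (r : Fin m → ℕ) (c : Fin n → ℕ) (t : Fin n → Fin m → ℤ) (k : ℕ) : Fin n → Fin n → ℤ :=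
  matOf n (stK S r c t k).2.1

/-- The best point after `k` rounds. -/
def bK (S : ℕ) (r : Fin m → ℕ) (c : Fin n → ℕ) (t : Fin n → Fin m → ℤ) (k : ℕ) : Fin n → ℤ :=
  vecOf n (stK S r c t k).2.2.1

/-- The direction in round `k`. -/
def gK (S : ℕ) (r : Fin m → ℕ) (c : Fin n → ℕ) (t : Fin n → Fin m → ℤ) (k : ℕ) : Fin n → ℤ :=
  vecOf n (dirF S (lN r) (lN c) (lM t) (stK S r c t k).1)

/-- The invariant of the run. -/
structure Inv (S : ℕ) (r : Fin m → ℕ) (c : Fin n → ℕ) (t : Fin n → Fin m → ℤ) (k : ℕ) : Prop where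
  form : stK S r c t k = (lF (aK S r c t k), (lM (WK S r c t k), (lF (bK S r c t k),
    capGF S (lN r) (lN c) (lM t) (lF (bK S r c t k)))))
  hW : ∀ i j, |val S (WK S r c t k i j)| ≤ Mk S n k
  ha : ∀ i, |val S (aK S r c t k i)| ≤ Mk S n k
  hb : ∀ i, |val S (bK S r c t k i)| ≤ (S : ℝ) ^ 2
  best : ∀ j, j < k → 0 < feasF S (lF (aK S r c t j)) →
    capGF S (lN r) (lN c) (lM t) (lF (bK S r c t k)) ≤ capGF S (lN r) (lN c) (lM t) (lF (aK S r c t j))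

section Run

variable (C : Ctx S r c t)

include C

lemma Ctx.st0 : stK S r c t 0 = (lF (fun _ : Fin n => (0 : ℤ)), (lM (W0 (n := n) S),
    (lF (fun _ : Fin n => (0 : ℤ)), capGF S (lN r) (lN c) (lM t) (lF (fun _ : Fin n => (0 : ℤ)))))) := by
  unfold stK initF
  simp only [Function.iterate_zero, id_eq, C.zeros_eq, C.initW_eq]

lemma Ctx.a0 : aK S r c t 0 = fun _ => 0 := by
  unfold aK
  rw [C.st0]
  exact vecOf_lF _

lemma Ctx.W0' : WK S r c t 0 = W0 S := by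
  unfold WK
  rw [C.st0]
  exact matOf_lM _

lemma Ctx.b0 : bK S r c t 0 = fun _ => 0 := by
  unfold bK
  rw [C.st0]
  exact vecOf_lF _

lemma Ctx.inv0 : Inv S r c t 0 := by
  have hS0 : (0 : ℝ) ≤ (S : ℝ) ^ 2 := by positivity
  have hM := Mk_ge1 S n 0
  have hval0 : val S 0 = 0 := by simp [val]
  refine ⟨?_, ?_, ?_, ?_, ?_⟩
  · rw [C.a0, C.W0', C.b0]
    exact C.st0
  · intro i j
    rw [C.W0', C.val_W0]
    unfold Mk
    simp only [pow_zero, mul_one]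
    by_cases hij : i = j
    · rw [if_pos hij, abs_of_nonneg hS0]
      linarith
    · rw [if_neg hij, abs_zero]
      linarith
  · intro i
    rw [C.a0]
    simp only [hval0, abs_zero]
    linarith
  · intro i
    rw [C.b0]
    simp only [hval0, abs_zero]
    exact hS0
  · intro j hj
    omega

/-- The facts of one round along the run. -/
lemma Ctx.round_facts {k : ℕ} (hk : k < S ^ 2) (hI : Inv S r c t k) :
    (stK S r c t (k + 1)).1 = lF (aK S r c t (k + 1))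
    ∧ (stK S r c t (k + 1)).2.1 = lM (WK S r c t (k + 1))
    ∧ (stK S r c t (k + 1)).2.2.1 = lF (bK S r c t (k + 1))
    ∧ (stK S r c t (k + 1)).2.2.2 = capGF S (lN r) (lN c) (lM t) (lF (bK S r c t (k + 1)))
    ∧ (0 < feasF S (lF (aK S r c t k)) → ∀ i,
        |val S (gK S r c t k i) - capGrad r c (rM S t) (fun j => val S (aK S r c t k j)) i|
          ≤ (1 / 2 : ℝ) ^ (S ^ 5 / 8))
    ∧ (¬ 0 < feasF S (lF (aK S r c t k)) → gK S r c t k = aK S r c t k)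
    ∧ (RoundStep (1 / (16 * ((n : ℝ) * ((n : ℝ) + 2)))) (kap S ^ 30 * eps S)
          (ellOf S (aK S r c t k) (WK S r c t k)) (ellOf S (aK S r c t (k + 1)) (WK S r c t (k + 1)))
          (fun i => val S (gK S r c t k i))
        ∨ (nrm ((ellOf S (aK S r c t k) (WK S r c t k)).W.transpose.mulVec
              fun i => val S (gK S r c t k i)) ≤ 3 / kap S
            ∧ aK S r c t (k + 1) = aK S r c t k ∧ WK S r c t (k + 1) = WK S r c t k))
    ∧ capGF S (lN r) (lN c) (lM t) (lF (bK S r c t (k + 1))) ≤ capGF S (lN r) (lN c) (lM t) (lF (bK S r c t k))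
    ∧ (0 < feasF S (lF (aK S r c t k)) →
        capGF S (lN r) (lN c) (lM t) (lF (bK S r c t (k + 1))) ≤ capGF S (lN r) (lN c) (lM t) (lF (aK S r c t k)))
    ∧ (bK S r c t (k + 1) = bK S r c t k
        ∨ (0 < feasF S (lF (aK S r c t k)) ∧ bK S r c t (k + 1) = aK S r c t k)) := by
  have hM := C.Mk_le (k := k) (by omega)
  obtain ⟨g, a', b', W', h1, h2, h3, h4, h5, h6, h7, h8⟩ := C.one_round (b := bK S r c t k)
    (fun i => (hI.ha i).trans hM) (fun i j => (hI.hW i j).trans hM)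
  have hst : stK S r c t (k + 1) = (lF a', (lM W', (lF b', capGF S (lN r) (lN c) (lM t) (lF b')))) := by
    have h9 : stK S r c t (k + 1) = stepF S (lN r) (lN c) (lM t) (stK S r c t k) := by
      unfold stK
      rw [Function.iterate_succ_apply']
    rw [h9, hI.form]
    exact h1
  have ha' : aK S r c t (k + 1) = a' := by
    unfold aK
    rw [hst]
    exact vecOf_lF _
  have hW' : WK S r c t (k + 1) = W' := by
    unfold WK
    rw [hst]
    exact matOf_lM _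
  have hb' : bK S r c t (k + 1) = b' := by
    unfold bK
    rw [hst]
    exact vecOf_lF _
  have hg' : gK S r c t k = g := by
    unfold gK
    have h9 : (stK S r c t k).1 = lF (aK S r c t k) := by
      rw [hI.form]
    rw [h9, h2]
    exact vecOf_lF _
  rw [hst, ha', hW', hb', hg']
  exact ⟨rfl, rfl, rfl, rfl, h3, h4, h5, h6, h7, h8⟩

/-- The invariant holds. -/
lemma Ctx.inv_all : ∀ k, k ≤ S ^ 2 → Inv S r c t k := by
  intro k
  induction k with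
  | zero =>
    intro _
    exact C.inv0
  | succ k ih =>
    intro hk
    have hI := ih (by omega)
    obtain ⟨h1, h2, h3, h4, h5, h6, h7, h8, h9, h10⟩ := C.round_facts (k := k) (by omega) hI
    have hform : stK S r c t (k + 1) = (lF (aK S r c t (k + 1)), (lM (WK S r c t (k + 1)),
        (lF (bK S r c t (k + 1)), capGF S (lN r) (lN c) (lM t) (lF (bK S r c t (k + 1)))))) := by
      rw [← h4, ← h3, ← h2, ← h1]
    have hzeta1 : kap S ^ 30 * eps S ≤ 1 := err_small C.hS (by norm_num)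
    have hzeta0 : 0 ≤ kap S ^ 30 * eps S := mul_nonneg (kap_pow_pos _).le eps_pos.le
    have hbd : (∀ i j, |val S (WK S r c t (k + 1) i j)| ≤ Mk S n (k + 1))
        ∧ ∀ i, |val S (aK S r c t (k + 1) i)| ≤ Mk S n (k + 1) := by
      rcases h7 with h7 | ⟨-, h7a, h7W⟩
      · have := ell_upper_step C.hn hzeta0 hzeta1 (Mk_ge1 S n k) h7
          (by
            intro i j
            exact hI.hW i j)
          (by
            intro i
            exact hI.ha i)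
        rw [Mk_succ]
        exact this
      · rw [h7a, h7W]
        exact ⟨fun i j => (hI.hW i j).trans (Mk_mono S n k), fun i => (hI.ha i).trans (Mk_mono S n k)⟩
    refine ⟨hform, hbd.1, hbd.2, ?_, ?_⟩
    · rcases h10 with h10 | ⟨hf, h10⟩
      · rw [h10]
        exact hI.hb
      · rw [h10]
        have hM := C.Mk_le (k := k) (by omega)
        have h11 := (feas_spec C.hS C.n_le (fun i => (hI.ha i).trans hM)).1 hf
        exact abs_le_of_sum (by positivity) h11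
    · intro j hj hf
      rcases Nat.lt_succ_iff_lt_or_eq.mp hj with hj | rfl
      · exact h8.trans (hI.best j hj hf)
      · exact h9 hf

end Run

/-! ### Numbers -/

lemma tiny_bound (hS : (10 : ℝ) ^ 6 ≤ S) : (S : ℝ) ^ 62 * (1 / 2) ^ (2 * S) ≤ 1 := by
  have hS0 : (0 : ℝ) < S := lt_of_lt_of_le (by norm_num) hS
  have h1 := log_W_bound hS
  have h2 : (S : ℝ) ^ 62 = Real.exp (((62 : ℕ) : ℝ) * Real.log S) := by
    rw [Real.exp_nat_mul, Real.exp_log hS0]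
  have h3 : Real.exp (((62 : ℕ) : ℝ) * Real.log S) ≤ Real.exp ((S : ℝ) * 1) := by
    apply Real.exp_le_exp.mpr
    push_cast
    linarith
  have h4 : Real.exp ((S : ℝ) * 1) = Real.exp 1 ^ S := Real.exp_nat_mul 1 S
  have h5 : Real.exp 1 ^ S ≤ 4 ^ S := by
    apply pow_le_pow_left₀ (Real.exp_pos _).le
    have := Real.exp_one_lt_d9
    linarith
  have h6 : (4 : ℝ) ^ S * (1 / 2) ^ (2 * S) = 1 := by
    rw [pow_mul, ← mul_pow]
    norm_num
  have h7 : (S : ℝ) ^ 62 ≤ 4 ^ S := by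
    rw [h2]
    linarith
  calc (S : ℝ) ^ 62 * (1 / 2) ^ (2 * S) ≤ 4 ^ S * (1 / 2) ^ (2 * S) :=
        mul_le_mul_of_nonneg_right h7 (by positivity)
    _ = 1 := h6

lemma two_S_le (hS : 1000000 ≤ S) : 2 * S ≤ S ^ 5 / 8 ∧ 2 * S + S ^ 2 ≤ S ^ 3 := by
  constructor
  · rw [Nat.le_div_iff_mul_le (by norm_num)]
    have h1 : S ^ 5 = S * S ^ 4 := by ring
    rw [h1]
    have h2 : 16 ≤ S ^ 4 := by
      have : S ≤ S ^ 4 := Nat.le_self_pow (by norm_num) S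
      omega
    nlinarith
  · have h1 : S ^ 3 = S * S ^ 2 := by ring
    rw [h1]
    have h2 : S ≤ S ^ 2 := Nat.le_self_pow (by norm_num) S
    have h3 : 3 * S ^ 2 ≤ S * S ^ 2 := Nat.mul_le_mul_right _ (by omega)
    omega

lemma pow2_le_kap (hS : 1000000 ≤ S) : (2 : ℝ) ^ (S ^ 2) ≤ kap S := by
  unfold kap
  exact pow_le_pow_right₀ (by norm_num) (by have := (two_S_le hS).2; omega)

/-- The margin of the run is small. -/
lemma margin_bound (hS : 1000000 ≤ S) {k : ℕ} (hnS : k ≤ S) :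
    ((3 / kap S) * 2 ^ (S ^ 2) / (S : ℝ) ^ 2 + (k : ℝ) * (1 / 2 : ℝ) ^ (S ^ 5 / 8)) * (2 * (S : ℝ) ^ 2)
      + 2 * (1 / 2 : ℝ) ^ (S ^ 5 / 8) ≤ 1 / (S : ℝ) ^ 31 := by
  obtain ⟨h25, h23⟩ := two_S_le hS
  have hSR : (1000000 : ℝ) ≤ S := by exact_mod_cast hS
  have hS0 : (0 : ℝ) < S := by linarith
  have hS1 : (1 : ℝ) ≤ S := by linarith
  have hkR : (k : ℝ) ≤ S := by exact_mod_cast hnS
  have hk0 : (0 : ℝ) ≤ k := Nat.cast_nonneg _
  set y : ℝ := (1 / 2 : ℝ) ^ (2 * S) with hy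
  have hy0 : 0 < y := by positivity
  have hty : (S : ℝ) ^ 62 * y ≤ 1 := tiny_bound (by linarith)
  have he : (1 / 2 : ℝ) ^ (S ^ 5 / 8) ≤ y :=
    pow_le_pow_of_le_one (by norm_num) (by norm_num) h25
  have he0 : (0 : ℝ) ≤ (1 / 2 : ℝ) ^ (S ^ 5 / 8) := by positivity
  have hκ : (3 / kap S) * 2 ^ (S ^ 2) ≤ 3 * y := by
    have h1 : (3 / kap S) * 2 ^ (S ^ 2) = 3 * ((2 : ℝ) ^ (S ^ 2) * (1 / 2) ^ (S ^ 3)) := by
      have h2 : (kap S)⁻¹ = (1 / 2 : ℝ) ^ (S ^ 3) := by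
        unfold kap
        rw [one_div, inv_pow]
      rw [div_eq_mul_inv, h2]
      ring
    rw [h1]
    apply mul_le_mul_of_nonneg_left _ (by norm_num)
    have h2 : S ^ 3 = S ^ 2 + (S ^ 3 - S ^ 2) := by omega
    rw [h2, pow_add, ← mul_assoc, ← mul_pow]
    norm_num
    rw [hy]
    refine pow_le_pow_of_le_one (by norm_num) (by norm_num) ?_
    omega
  have hSsq : (S : ℝ) ^ 2 ≠ 0 := by positivity
  have h1 : ((3 / kap S) * 2 ^ (S ^ 2) / (S : ℝ) ^ 2 + (k : ℝ) * (1 / 2 : ℝ) ^ (S ^ 5 / 8)) * (2 * (S : ℝ) ^ 2)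
      = 2 * ((3 / kap S) * 2 ^ (S ^ 2)) + 2 * (k : ℝ) * (S : ℝ) ^ 2 * (1 / 2 : ℝ) ^ (S ^ 5 / 8) := by
    field_simp
  rw [h1]
  have h2 : 2 * (k : ℝ) * (S : ℝ) ^ 2 * (1 / 2 : ℝ) ^ (S ^ 5 / 8) ≤ 2 * (S : ℝ) ^ 3 * y := by
    have h3 : 2 * (k : ℝ) * (S : ℝ) ^ 2 ≤ 2 * (S : ℝ) ^ 3 := by
      have h4 : (S : ℝ) ^ 3 = S * (S : ℝ) ^ 2 := by ring
      rw [h4]
      have h5 : (0 : ℝ) ≤ (S : ℝ) ^ 2 := by positivity
      nlinarith
    exact mul_le_mul h3 he he0 (by positivity)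
  have h3 : 2 * ((3 / kap S) * 2 ^ (S ^ 2)) + 2 * (k : ℝ) * (S : ℝ) ^ 2 * (1 / 2 : ℝ) ^ (S ^ 5 / 8)
      + 2 * (1 / 2 : ℝ) ^ (S ^ 5 / 8) ≤ (S : ℝ) ^ 4 * y := by
    have h4 : 8 + 2 * (S : ℝ) ^ 3 ≤ (S : ℝ) ^ 4 := by
      have h5 : (S : ℝ) ^ 4 = S * (S : ℝ) ^ 3 := by ring
      have h6 : (1 : ℝ) ≤ (S : ℝ) ^ 3 := one_le_pow₀ hS1
      rw [h5]
      nlinarith
    have h5 := mul_le_mul_of_nonneg_right h4 hy0.le
    linarith
  refine h3.trans ?_
  rw [le_div_iff₀ (by positivity)]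
  have h4 : (S : ℝ) ^ 4 * y * (S : ℝ) ^ 31 = (S : ℝ) ^ 35 * y := by ring
  rw [h4]
  refine le_trans ?_ hty
  exact mul_le_mul_of_nonneg_right (pow_le_pow_right₀ hS1 (by norm_num)) hy0.le

lemma zeta_bound (hS : 1000000 ≤ S) {k : ℕ} (hk : k + 2 ≤ S) :
    (kap S ^ 30 * eps S) * (1024 * (k : ℝ) ^ 3 * ((k : ℝ) + 2) * 2 ^ (S ^ 2)) ≤ (S : ℝ) ^ 2 := by
  have hSR : (1000000 : ℝ) ≤ S := by exact_mod_cast hS
  have hk0 : (0 : ℝ) ≤ k := Nat.cast_nonneg _
  have hk2 : (k : ℝ) + 2 ≤ S := by exact_mod_cast hk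
  have hk1 : (k : ℝ) ≤ S := by linarith
  have hκ := S_le_kap hS
  have hκ0 := kap_pos (S := S)
  have h1 : 1024 * (k : ℝ) ^ 3 * ((k : ℝ) + 2) ≤ kap S ^ 5 := by
    have h2 : (1024 : ℝ) ≤ kap S := by linarith
    have h3 : (k : ℝ) ^ 3 ≤ kap S ^ 3 := pow_le_pow_left₀ hk0 (by linarith) 3
    have h4 : (k : ℝ) + 2 ≤ kap S := by linarith
    calc 1024 * (k : ℝ) ^ 3 * ((k : ℝ) + 2) ≤ kap S * kap S ^ 3 * kap S := by
          apply mul_le_mul (mul_le_mul h2 h3 (by positivity) (by linarith)) h4 (by positivity) (by positivity)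
      _ = kap S ^ 5 := by ring
  have h2 := pow2_le_kap hS
  have h3 : (kap S ^ 30 * eps S) * (1024 * (k : ℝ) ^ 3 * ((k : ℝ) + 2) * 2 ^ (S ^ 2))
      ≤ (kap S ^ 30 * eps S) * (kap S ^ 5 * kap S) :=
    mul_le_mul_of_nonneg_left (mul_le_mul h1 h2 (by positivity) (by positivity))
      (mul_nonneg (kap_pow_pos _).le eps_pos.le)
  have h4 : (kap S ^ 30 * eps S) * (kap S ^ 5 * kap S) = kap S ^ 36 * eps S := by ring
  rw [h4] at h3
  have h5 := err_small hS (a := 36) (by norm_num)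
  have h6 : (1 : ℝ) ≤ (S : ℝ) ^ 2 := one_le_pow₀ (by linarith)
  linarith

/-- **The run of the method.** -/
theorem run_spec (C : Ctx S r c t) :
    (runF S (lN r) (lN c) (lM t)).2.2.1 = lF (bK S r c t (S ^ 2))
    ∧ (∀ j, |val S (bK S r c t (S ^ 2) j)| ≤ (S : ℝ) ^ 2)
    ∧ Real.log (capa r c (rM S t)).toReal ≤ capG r c (rM S t) (fun j => val S (bK S r c t (S ^ 2) j))
    ∧ capG r c (rM S t) (fun j => val S (bK S r c t (S ^ 2) j))
        ≤ Real.log (capa r c (rM S t)).toReal + 1 / (S : ℝ) ^ 30 := by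
  have hS := C.hS
  have hnS := C.n_le
  have hSR := C.S_big
  have hS0 : (0 : ℝ) < S := by linarith
  have hI := C.inv_all (S ^ 2) le_rfl
  have hrun : runF S (lN r) (lN c) (lM t) = stK S r c t (S ^ 2) := rfl
  refine ⟨?_, hI.hb, log_cap_le r c C.hsum C.t_pos C.hn _, ?_⟩
  · rw [hrun, hI.form]
  -- apply the theorem on runs
  have hsub := capG_sub r c C.t_pos C.hn
  obtain ⟨x0, θ, hθ, hcube, hII⟩ := cap_cube C.hbig C.hm C.hn C.hsum C.hN C.ht
  have hR : (1 : ℝ) < (S : ℝ) ^ 2 := by nlinarith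
  have hκ := kap_ge4 hS
  have hκ0 : 0 < kap S := by linarith
  have h2κ := pow2_le_kap hS
  have hδ : (3 / kap S) * 2 ^ (S ^ 2) / (S : ℝ) ^ 2 < (S : ℝ) ^ 2 - 1 := by
    have h1 : (3 / kap S) * 2 ^ (S ^ 2) ≤ 3 := by
      rw [div_mul_eq_mul_div, div_le_iff₀ hκ0]
      exact mul_le_mul_of_nonneg_left h2κ (by norm_num)
    have h2 : (3 / kap S) * 2 ^ (S ^ 2) / (S : ℝ) ^ 2 ≤ 3 := by
      rw [div_le_iff₀ (by positivity)]
      have h3 : (3 : ℝ) ≤ 3 * (S : ℝ) ^ 2 := by nlinarith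
      linarith
    have h3 : (5 : ℝ) ≤ (S : ℝ) ^ 2 := by nlinarith
    linarith
  obtain ⟨k, hk, hfe, hval⟩ := ell_run (n := n) (R := (S : ℝ) ^ 2) (θ := θ) (δ := 3 / kap S)
    (ε := (1 / 2 : ℝ) ^ (S ^ 5 / 8)) (V := Real.log (capa r c (rM S t)).toReal + 1 / (S : ℝ) ^ 31)
    (margin := ((3 / kap S) * 2 ^ (S ^ 2) / (S : ℝ) ^ 2 + (n : ℝ) * (1 / 2 : ℝ) ^ (S ^ 5 / 8)) * (2 * (S : ℝ) ^ 2))
    (ζ := kap S ^ 30 * eps S) (I := S ^ 2) (x0 := x0)
    (f := capG r c (rM S t)) (gr := capGrad r c (rM S t))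
    (seq := fun k => ellOf S (aK S r c t k) (WK S r c t k))
    (G := fun k i => val S (gK S r c t k i))
    (feas := fun k => 0 < feasF S (lF (aK S r c t k)))
    C.hn hR hθ (by positivity) (by positivity) hsub hcube
    (by
      show ellOf S (aK S r c t 0) (WK S r c t 0) = _
      rw [C.a0, C.W0']
      exact C.ell0)
    (by
      intro k hk hf
      obtain ⟨-, -, -, -, h5, -⟩ := C.round_facts hk (C.inv_all k hk.le)
      refine ⟨h5 hf, ?_⟩
      have hM := C.Mk_le (k := k) hk.le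
      exact (feas_spec hS hnS (fun i => ((C.inv_all k hk.le).ha i).trans hM)).1 hf)
    (by
      intro k hk hf
      obtain ⟨-, -, -, -, -, h6, -⟩ := C.round_facts hk (C.inv_all k hk.le)
      have hM := C.Mk_le (k := k) hk.le
      refine ⟨?_, (feas_spec hS hnS (fun i => ((C.inv_all k hk.le).ha i).trans hM)).2 hf⟩
      funext i
      simp only [ellOf]
      rw [h6 hf])
    (by
      intro k hk
      obtain ⟨-, -, -, -, -, -, h7, -⟩ := C.round_facts hk (C.inv_all k hk.le)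
      rcases h7 with h7 | ⟨h7a, h7b, h7c⟩
      · exact Or.inl h7
      · refine Or.inr ⟨h7a, ?_⟩
        show ellOf S (aK S r c t (k + 1)) (WK S r c t (k + 1)) = ellOf S (aK S r c t k) (WK S r c t k)
        rw [h7b, h7c])
    (zeta_bound hS (k_facts C.hn C.hk).2.2)
    hII hδ le_rfl
  have hM := C.Mk_le (k := k) hk.le
  have hIk := C.inv_all k hk.le
  have ha1 := (feas_spec hS hnS (fun i => (hIk.ha i).trans hM)).1 hfe
  have ha2 : ∀ j, |val S (aK S r c t k j)| ≤ 2 * (S : ℝ) ^ 2 := by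
    intro j
    have h3 := abs_le_of_sum (by positivity) ha1 j
    have h4 : (0 : ℝ) ≤ (S : ℝ) ^ 2 := by positivity
    linarith
  have hb2 : ∀ j, |val S (bK S r c t (S ^ 2) j)| ≤ 2 * (S : ℝ) ^ 2 := by
    intro j
    have h3 := hI.hb j
    have h4 : (0 : ℝ) ≤ (S : ℝ) ^ 2 := by positivity
    linarith
  have hga := capGF_spec (r := r) (c := c) hS C.hN C.hsum C.hn C.hD C.ht ha2
  have hgb := capGF_spec (r := r) (c := c) hS C.hN C.hsum C.hn C.hD C.ht hb2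
  have hle := hI.best k hk hfe
  have hle' : val S (capGF S (lN r) (lN c) (lM t) (lF (bK S r c t (S ^ 2))))
      ≤ val S (capGF S (lN r) (lN c) (lM t) (lF (aK S r c t k))) := (val_le_iff hS).mpr hle
  have hmar := margin_bound hS hnS
  have h1 := abs_le.mp hga
  have h2 := abs_le.mp hgb
  have h3 : 2 / (S : ℝ) ^ 31 ≤ 1 / (S : ℝ) ^ 30 := by
    rw [div_le_div_iff₀ (by positivity) (by positivity)]
    have h4 : (S : ℝ) ^ 31 = S * (S : ℝ) ^ 30 := by ring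
    rw [h4]
    have h5 : (0 : ℝ) < (S : ℝ) ^ 30 := by positivity
    nlinarith
  have h4 : 1 / (S : ℝ) ^ 31 + 1 / (S : ℝ) ^ 31 = 2 / (S : ℝ) ^ 31 := by ring
  change capG r c (rM S t) (fun j => val S (aK S r c t k j)) ≤ _ at hval
  linarith [h1.2, h2.1]

end EllW

end Vale.Agent.Lib.P328.Bit
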