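import Vale.Agent.Lib.P328.Bit.Lists

/-!
# P328, bit model: fixed point numbers (module FIX)

A fixed point number is an integer `x`, with the value `val S x = x / 2 ^ prec S`, `prec S = S ^ 5`. Words have `S ^ 6` bits;
real magnitudes up to `Big S = 2 ^ (S ^ 4)` are safe: `|x| ≤ 2 ^ (S^5 + S^4)`, products at most `2 ^ (2 S^5 + 2 S^4) ≤ 2 ^ (S^6)`.
So with `|val x|, |val y| ≤ Big S` nothing saturates in `fadd`, `fmul`, `fdiv`.
All `S` here are at least `10 ^ 6` (`hS`), which makes all inequalities between powers trivial.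
-/

namespace Vale.Agent.Lib.P328.Bit

variable {α : Type} [Enc α]

/-- The number of fractional bits. -/
def prec (S : ℕ) : ℕ := S ^ 5

/-- The value of a fixed point number. -/
noncomputable def val (S : ℕ) (x : ℤ) : ℝ := (x : ℝ) / 2 ^ prec S

/-- The fixed point number one. -/
def fone (S : ℕ) : ℤ := 2 ^ prec S

/-- The bound for magnitudes. -/
noncomputable def Big (S : ℕ) : ℝ := 2 ^ (S ^ 4)

/-- The unit in the last place. -/
noncomputable def ulp (S : ℕ) : ℝ := 1 / 2 ^ prec S

/-- The product. -/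
def fmul (S : ℕ) (x y : ℤ) : ℤ := cdiv S (cmul S x y) (fone S)

/-- The quotient. -/
def fdiv (S : ℕ) (x y : ℤ) : ℤ := cdiv S (cmul S x (fone S)) y

/-- An integer as a fixed point number. -/
def fint (S : ℕ) (n : ℤ) : ℤ := cmul S n (fone S)

/-- The integer part (rounded down). -/
def ffloor (S : ℕ) (x : ℤ) : ℤ := cdiv S x (fone S)

/-- The clamp of a number within the bounds. -/
theorem clamp_of_abs_le {S : ℕ} {z : ℤ} (h : |z| ≤ 2 ^ wid S) : clamp S z = z := by
  have h' := abs_le.mp h
  unfold clamp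
  rw [min_eq_left h'.2, max_eq_right h'.1]

theorem clamp_one (S : ℕ) : clamp S 1 = 1 := by
  apply clamp_of_abs_le
  have : (1 : ℤ) ≤ 2 ^ wid S := one_le_pow₀ (by norm_num)
  simpa using this

/-- Saturation of a multiple, for nonnegative numbers. -/
theorem clamp_clamp_mul {S : ℕ} {a b : ℤ} (ha : 0 ≤ a) (hb : 0 ≤ b) :
    clamp S (clamp S a * b) = clamp S (a * b) := by
  have h0 : (0 : ℤ) < 2 ^ wid S := by positivity
  rcases le_or_gt a (2 ^ wid S) with h | h
  · rw [clamp_of_abs_le (z := a) (by rw [abs_of_nonneg ha]; exact h)]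
  · have hc : clamp S a = 2 ^ wid S := by
      unfold clamp
      rw [min_eq_right h.le, max_eq_right (by linarith)]
    rw [hc]
    rcases hb.eq_or_lt with hb0 | hb0
    · rw [← hb0]; simp
    · have hb1 : 1 ≤ b := hb0
      have hsat : ∀ z : ℤ, 2 ^ wid S ≤ z → clamp S z = 2 ^ wid S := by
        intro z hz
        unfold clamp
        rw [min_eq_right hz, max_eq_right (by linarith)]
      rw [hsat _ (by nlinarith), hsat _ (by nlinarith)]

theorem prec_le_wid (S : ℕ) : prec S ≤ wid S := by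
  unfold prec wid
  rcases Nat.eq_zero_or_pos S with h | h
  · subst h; simp
  · exact Nat.pow_le_pow_right h (by norm_num)

theorem doubling_iter (S k : ℕ) (hk : k ≤ prec S) :
    (fun s : ℤ => cadd S s s)^[k] 1 = 2 ^ k := by
  have hw := prec_le_wid S
  induction k with
  | zero => rfl
  | succ k ih =>
    rw [Function.iterate_succ_apply', ih (by omega)]
    have h1 : (2 : ℤ) ^ k ≤ 2 ^ wid S := pow_le_pow_right₀ (by norm_num) (by omega)
    have h2 : (2 : ℤ) ^ (k + 1) ≤ 2 ^ wid S := pow_le_pow_right₀ (by norm_num) (by omega)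
    have h0 : (0 : ℤ) ≤ 2 ^ k := by positivity
    have h3 : clamp S (2 ^ k) = 2 ^ k := clamp_of_abs_le (by rw [abs_of_nonneg h0]; exact h1)
    have h4 : clamp S (2 ^ (k + 1)) = 2 ^ (k + 1) :=
      clamp_of_abs_le (by rw [abs_of_nonneg (by positivity)]; exact h2)
    unfold cadd
    rw [h3, show (2 : ℤ) ^ k + 2 ^ k = 2 ^ (k + 1) by ring, h4]

theorem fone_rep : DRep (α := α) (β := ℤ) fun S _ => fone S := by
  have hb : DRep (α := α × ℤ) (β := ℤ) fun S y => cadd S y.2 y.2 :=
    DRep.add DRep.snd DRep.snd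
  have h := (DRep.id' (α := α)).pair (DRep.one (α := α)) |>.comp (DRep.iterPow 5 hb)
  have e : (fun S (x : α) => (fun s => (fun S (y : α × ℤ) => cadd S y.2 y.2) S (x, s))^[S ^ 5] 1)
      = fun S _ => fone S := by
    funext S _
    exact doubling_iter S (S ^ 5) le_rfl
  simpa only [e] using h

theorem fmul_rep {f g : ℕ → α → ℤ} (hf : DRep f) (hg : DRep g) : DRep fun S x => fmul S (f S x) (g S x) :=
  (hf.mul hg).div fone_rep

theorem fdiv_rep {f g : ℕ → α → ℤ} (hf : DRep f) (hg : DRep g) : DRep fun S x => fdiv S (f S x) (g S x) :=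
  (hf.mul fone_rep).div hg

theorem fint_rep {f : ℕ → α → ℤ} (hf : DRep f) : DRep fun S x => fint S (f S x) :=
  hf.mul fone_rep

theorem ffloor_rep {f : ℕ → α → ℤ} (hf : DRep f) : DRep fun S x => ffloor S (f S x) :=
  hf.div fone_rep

/-- The powers of `S`. -/
theorem spow_rep (k : ℕ) : DRep (α := α) (β := ℤ) fun S _ => clamp S ((S : ℤ) ^ k) := by
  induction k with
  | zero =>
    have e : (fun S (_ : α) => clamp S ((S : ℤ) ^ 0)) = fun _ _ => 1 := by
      funext S _
      simp [clamp_one]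
    rw [e]
    exact DRep.one
  | succ k ih =>
    have e : (fun S (_ : α) => clamp S ((S : ℤ) ^ (k + 1)))
        = fun S x => cmul S (clamp S ((S : ℤ) ^ k)) (S : ℤ) := by
      funext S _
      have h0 : (0 : ℤ) ≤ (S : ℤ) ^ k := by positivity
      have hS0 : (0 : ℤ) ≤ (S : ℤ) := by positivity
      have hSw : clamp S (S : ℤ) = (S : ℤ) := by
        apply clamp_of_abs_le
        rw [abs_of_nonneg hS0]
        have h1 : S ≤ wid S := by
          unfold wid
          rcases Nat.eq_zero_or_pos S with h | h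
          · subst h; simp
          · exact Nat.le_self_pow (by norm_num) S
        have h2 : S < 2 ^ S := Nat.lt_two_pow_self
        have h3 : (S : ℤ) ≤ 2 ^ S := by exact_mod_cast h2.le
        have h4 : (2 : ℤ) ^ S ≤ 2 ^ wid S := pow_le_pow_right₀ (by norm_num) h1
        linarith
      have hh : clamp S (clamp S ((S : ℤ) ^ k)) = clamp S ((S : ℤ) ^ k) := by
        have h5 : (0 : ℤ) ≤ 2 ^ wid S := by positivity
        apply clamp_of_abs_le
        apply abs_le.mpr
        unfold clamp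
        constructor
        · exact le_max_left _ _
        · exact max_le (by linarith) (min_le_right _ _)
      unfold cmul
      rw [hSw, hh, clamp_clamp_mul h0 hS0, pow_succ]
    rw [e]
    exact ih.mul DRep.param

section Spec

variable {S : ℕ} (hS : 1000000 ≤ S) {x y : ℤ}

include hS

/-- Saturation does nothing to words of at most `S ^ 6` bits. -/
theorem clamp_eq {z : ℤ} (h : |z| ≤ 2 ^ wid S) : clamp S z = z := clamp_of_abs_le h

theorem spow_eq {k : ℕ} (hk : k ≤ 10000) : clamp S ((S : ℤ) ^ k) = (S : ℤ) ^ k := by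
  apply clamp_of_abs_le
  rw [abs_of_nonneg (by positivity)]
  have h2 : S < 2 ^ S := Nat.lt_two_pow_self
  have h3 : (S : ℤ) ≤ 2 ^ S := by exact_mod_cast h2.le
  have h4 : (S : ℤ) ^ k ≤ ((2 : ℤ) ^ S) ^ k := pow_le_pow_left₀ (by positivity) h3 k
  have h5 : S * k ≤ wid S := by
    unfold wid
    have h6 : k ≤ S := by omega
    have h7 : S * k ≤ S * S := Nat.mul_le_mul_left _ h6
    have h8 : S * S = S ^ 2 := by ring
    have h9 : S ^ 2 ≤ S ^ 6 := Nat.pow_le_pow_right (by omega) (by norm_num)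
    omega
  calc (S : ℤ) ^ k ≤ ((2 : ℤ) ^ S) ^ k := h4
    _ = 2 ^ (S * k) := by rw [pow_mul]
    _ ≤ 2 ^ wid S := pow_le_pow_right₀ (by norm_num) h5

omit hS in
/-- Integer magnitude from the magnitude of the value. -/
theorem abs_le_of_val {z : ℤ} (h : |val S z| ≤ Big S) : |z| ≤ 2 ^ (S ^ 4 + S ^ 5) := by
  have hp : (0 : ℝ) < 2 ^ prec S := by positivity
  unfold val Big at h
  rw [abs_div, abs_of_pos hp, div_le_iff₀ hp] at h
  have h1 : ((|z| : ℤ) : ℝ) ≤ ((2 ^ (S ^ 4 + S ^ 5) : ℤ) : ℝ) := by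
    push_cast
    rw [pow_add]
    exact h
  exact_mod_cast h1

/-- The inequalities between the powers of `S`. -/
theorem pow_facts : 1 ≤ S ^ 4 ∧ S ^ 4 ≤ S ^ 5 ∧ 4 * S ^ 5 ≤ S ^ 6 := by
  have h1 : 1 ≤ S ^ 4 := Nat.one_le_pow _ _ (by omega)
  have h2 : S ^ 4 ≤ S ^ 5 := Nat.pow_le_pow_right (by omega) (by norm_num)
  have h3 : S ^ 5 * 4 ≤ S ^ 5 * S := Nat.mul_le_mul_left _ (by omega)
  have h4 : S ^ 6 = S ^ 5 * S := by ring
  exact ⟨h1, h2, by omega⟩

/-- Words of value at most `Big` are not saturated. -/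
theorem clamp_of_val {z : ℤ} (h : |val S z| ≤ Big S) : clamp S z = z := by
  obtain ⟨h1, h2, h3⟩ := pow_facts hS
  apply clamp_of_abs_le
  refine (abs_le_of_val h).trans ?_
  apply pow_le_pow_right₀ (by norm_num)
  unfold wid
  omega

theorem val_add (hx : |val S x| ≤ Big S) (hy : |val S y| ≤ Big S) :
    val S (cadd S x y) = val S x + val S y := by
  obtain ⟨h1, h2, h3⟩ := pow_facts hS
  have hxa := abs_le_of_val hx
  have hya := abs_le_of_val hy
  have hsum : |x + y| ≤ 2 ^ wid S := by
    refine (abs_add_le x y).trans ?_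
    have : (2 : ℤ) ^ (S ^ 4 + S ^ 5) * 2 ≤ 2 ^ wid S := by
      rw [← pow_succ]
      apply pow_le_pow_right₀ (by norm_num)
      unfold wid
      omega
    linarith
  unfold cadd
  rw [clamp_of_val hS hx, clamp_of_val hS hy, clamp_of_abs_le hsum]
  unfold val
  push_cast
  ring

theorem val_sub (hx : |val S x| ≤ Big S) (hy : |val S y| ≤ Big S) :
    val S (csub S x y) = val S x - val S y := by
  obtain ⟨h1, h2, h3⟩ := pow_facts hS
  have hxa := abs_le_of_val hx
  have hya := abs_le_of_val hy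
  have hsum : |x - y| ≤ 2 ^ wid S := by
    refine (abs_sub x y).trans ?_
    have : (2 : ℤ) ^ (S ^ 4 + S ^ 5) * 2 ≤ 2 ^ wid S := by
      rw [← pow_succ]
      apply pow_le_pow_right₀ (by norm_num)
      unfold wid
      omega
    linarith
  unfold csub
  rw [clamp_of_val hS hx, clamp_of_val hS hy, clamp_of_abs_le hsum]
  unfold val
  push_cast
  ring

omit hS in
theorem clamp_fone : clamp S (fone S) = fone S := by
  apply clamp_of_abs_le
  unfold fone
  rw [abs_of_nonneg (by positivity)]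
  exact pow_le_pow_right₀ (by norm_num) (prec_le_wid S)

omit hS in
/-- Division by `fone` is the floor, exactly. -/
theorem abs_div_fone_sub (z : ℤ) :
    |((z / fone S : ℤ) : ℝ) / 2 ^ prec S - (z : ℝ) / 2 ^ prec S / 2 ^ prec S| ≤ ulp S := by
  have hp : (0 : ℝ) < 2 ^ prec S := by positivity
  have hf : (0 : ℤ) < fone S := by unfold fone; positivity
  have hfc : ((fone S : ℤ) : ℝ) = 2 ^ prec S := by unfold fone; push_cast; rfl
  have h1 := Int.emod_add_mul_ediv z (fone S)
  have h2 := Int.emod_nonneg z hf.ne'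
  have h3 := Int.emod_lt_of_pos z hf
  set q := z / fone S
  set r := z % fone S
  have h1' : (z : ℝ) = r + 2 ^ prec S * q := by
    rw [← hfc]
    exact_mod_cast h1.symm
  have h2' : (0 : ℝ) ≤ r := by exact_mod_cast h2
  have h3' : (r : ℝ) < 2 ^ prec S := by
    rw [← hfc]
    exact_mod_cast h3
  have e : (q : ℝ) / 2 ^ prec S - (z : ℝ) / 2 ^ prec S / 2 ^ prec S
      = -((r : ℝ) / 2 ^ prec S / 2 ^ prec S) := by
    rw [h1']
    field_simp
    ring
  rw [e, abs_neg, abs_of_nonneg (by positivity)]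
  unfold ulp
  apply div_le_div_of_nonneg_right _ hp.le
  rw [div_le_one hp]
  exact h3'.le

omit hS in
/-- The quotient by a positive power of two is small. -/
theorem abs_ediv_fone_le (z : ℤ) : |z / fone S| ≤ |z| := by
  have hf : (1 : ℤ) ≤ fone S := by
    unfold fone
    exact one_le_pow₀ (by norm_num)
  rcases le_or_gt 0 z with h | h
  · have h1 : 0 ≤ z / fone S := Int.ediv_nonneg h (by linarith)
    rw [abs_of_nonneg h1, abs_of_nonneg h]
    exact Int.ediv_le_self _ h
  · have h1 : z / fone S ≤ 0 := by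
      apply Int.le_of_lt_add_one
      have : z / fone S < 0 := Int.ediv_lt_of_lt_mul (by linarith) (by nlinarith)
      linarith
    rw [abs_of_nonpos h1, abs_of_neg h]
    have h2 : z ≤ z / fone S := by
      have h3 := Int.emod_add_mul_ediv z (fone S)
      have h4 := Int.emod_lt_of_pos z (by linarith : 0 < fone S)
      have h5 := Int.emod_nonneg z (by linarith : fone S ≠ 0)
      have h6 : z / fone S < 0 := Int.ediv_lt_of_lt_mul (by linarith) (by nlinarith)
      nlinarith
    linarith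

theorem val_fmul (hx : |val S x| ≤ Big S) (hy : |val S y| ≤ Big S) :
    |val S (fmul S x y) - val S x * val S y| ≤ ulp S := by
  obtain ⟨h1, h2, h3⟩ := pow_facts hS
  have hxa := abs_le_of_val hx
  have hya := abs_le_of_val hy
  have hxy : |x * y| ≤ 2 ^ wid S := by
    rw [abs_mul]
    calc |x| * |y| ≤ 2 ^ (S ^ 4 + S ^ 5) * 2 ^ (S ^ 4 + S ^ 5) := by
          gcongr
      _ = 2 ^ (2 * S ^ 4 + 2 * S ^ 5) := by rw [← pow_add]; congr 1; ring
      _ ≤ 2 ^ wid S := by
          apply pow_le_pow_right₀ (by norm_num)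
          unfold wid
          omega
  have hq : |x * y / fone S| ≤ 2 ^ wid S := (abs_ediv_fone_le _).trans hxy
  have e : fmul S x y = x * y / fone S := by
    unfold fmul cdiv cmul
    rw [clamp_of_val hS hx, clamp_of_val hS hy, clamp_of_abs_le hxy, clamp_of_abs_le hxy,
      clamp_fone, clamp_of_abs_le hq]
  rw [e]
  have h := abs_div_fone_sub (S := S) (x * y)
  have e2 : val S x * val S y = ((x * y : ℤ) : ℝ) / 2 ^ prec S / 2 ^ prec S := by
    unfold val
    push_cast
    field_simp
  rw [e2]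
  exact h

theorem val_fdiv (hx : |val S x| ≤ Big S) (hy : |val S y| ≤ Big S) (hy0 : 1 / Big S ≤ |val S y|) :
    |val S (fdiv S x y) - val S x / val S y| ≤ ulp S := by
  obtain ⟨h1, h2, h3⟩ := pow_facts hS
  have hxa := abs_le_of_val hx
  have hp : (0 : ℝ) < 2 ^ prec S := by positivity
  have hBig : 0 < 1 / Big S := by unfold Big; positivity
  have hyne : y ≠ 0 := by
    rintro rfl
    have : val S 0 = 0 := by simp [val]
    rw [this, abs_zero] at hy0
    linarith
  have hyabs : 1 ≤ |y| := Int.one_le_abs hyne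
  have hfone : fone S = 2 ^ S ^ 5 := rfl
  have hxf : |x * fone S| ≤ 2 ^ (S ^ 4 + 2 * S ^ 5) := by
    rw [abs_mul, hfone, abs_of_nonneg (by positivity : (0 : ℤ) ≤ 2 ^ S ^ 5)]
    calc |x| * 2 ^ S ^ 5 ≤ 2 ^ (S ^ 4 + S ^ 5) * 2 ^ S ^ 5 := by gcongr
      _ = 2 ^ (S ^ 4 + 2 * S ^ 5) := by rw [← pow_add]; congr 1; ring
  have hwid : S ^ 4 + 2 * S ^ 5 + 1 ≤ wid S := by
    unfold wid
    omega
  have hxf2 : |x * fone S| ≤ 2 ^ wid S := by
    refine hxf.trans (pow_le_pow_right₀ (by norm_num) (by omega))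
  -- Euclidean division
  set z := x * fone S with hz
  have hdiv := Int.emod_add_mul_ediv z y
  have hr0 := Int.emod_nonneg z hyne
  have hr1 := Int.emod_lt_abs z hyne
  set q := z / y with hq
  set r := z % y with hr
  have hqbound : |q| ≤ 2 ^ wid S := by
    have h4 : |y * q| ≤ |z| + |y| := by
      have : y * q = z - r := by linarith
      rw [this]
      refine (abs_sub z r).trans ?_
      rw [abs_of_nonneg hr0]
      linarith
    have h5 : |q| ≤ |y * q| := by
      rw [abs_mul]
      have h6 : 0 ≤ |q| := abs_nonneg q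
      nlinarith
    -- the quotient of a number by at least one
    have h7 : |q| ≤ |z| + 1 := by
      rcases eq_or_ne q 0 with h0 | h0
      · rw [h0, abs_zero]
        have := abs_nonneg z
        linarith
      · have h8 : 1 ≤ |q| := Int.one_le_abs h0
        have h9 : |y| * |q| ≤ |z| + |y| := by
          rw [← abs_mul]; exact h4
        have h10 : |y| * (|q| - 1) ≤ |z| := by linarith
        have h11 : |q| - 1 ≤ |y| * (|q| - 1) := by nlinarith
        linarith
    have h12 : (1 : ℤ) ≤ 2 ^ (S ^ 4 + 2 * S ^ 5) := one_le_pow₀ (by norm_num)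
    have h13 : (2 : ℤ) ^ (S ^ 4 + 2 * S ^ 5) * 2 ≤ 2 ^ wid S := by
      rw [← pow_succ]
      exact pow_le_pow_right₀ (by norm_num) hwid
    linarith
  have e : fdiv S x y = q := by
    unfold fdiv cdiv cmul
    rw [clamp_of_val hS hx, clamp_fone, clamp_of_val hS hy, clamp_of_abs_le hxf2, clamp_of_abs_le hxf2,
      clamp_of_abs_le hqbound]
  rw [e]
  have hyR : (y : ℝ) ≠ 0 := by exact_mod_cast hyne
  have hfc : ((fone S : ℤ) : ℝ) = 2 ^ prec S := by unfold fone; push_cast; rfl
  have hzR : (x : ℝ) * 2 ^ prec S = r + y * q := by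
    rw [← hfc]
    have h14 : ((x * fone S : ℤ) : ℝ) = ((r + y * q : ℤ) : ℝ) := by
      rw [← hz]
      exact congrArg _ hdiv.symm
    push_cast at h14
    exact h14
  have e2 : val S q - val S x / val S y = -((r : ℝ) / y / 2 ^ prec S) := by
    unfold val
    have hxeq : (x : ℝ) = (r + y * q) / 2 ^ prec S := by
      rw [← hzR]
      field_simp
    rw [hxeq]
    field_simp
    ring
  rw [e2, abs_neg, abs_div, abs_of_pos hp]
  unfold ulp
  apply div_le_div_of_nonneg_right _ hp.le
  rw [abs_div]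
  have hyabsR : (0 : ℝ) < |(y : ℝ)| := abs_pos.mpr hyR
  rw [div_le_one hyabsR, abs_of_nonneg (by exact_mod_cast hr0 : (0 : ℝ) ≤ r)]
  have : ((r : ℤ) : ℝ) < ((|y| : ℤ) : ℝ) := by exact_mod_cast hr1
  rw [Int.cast_abs] at this
  exact this.le

theorem val_fint {n : ℤ} (hn : |(n : ℝ)| ≤ Big S) : val S (fint S n) = n := by
  obtain ⟨h1, h2, h3⟩ := pow_facts hS
  have hp : (0 : ℝ) < 2 ^ prec S := by positivity
  have hna : |n| ≤ 2 ^ S ^ 4 := by
    have : ((|n| : ℤ) : ℝ) ≤ ((2 ^ S ^ 4 : ℤ) : ℝ) := by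
      push_cast
      exact hn
    exact_mod_cast this
  have hn2 : |n| ≤ 2 ^ wid S := by
    refine hna.trans (pow_le_pow_right₀ (by norm_num) ?_)
    unfold wid
    omega
  have hfone : fone S = 2 ^ S ^ 5 := rfl
  have hmul : |n * fone S| ≤ 2 ^ wid S := by
    rw [abs_mul, hfone, abs_of_nonneg (by positivity : (0 : ℤ) ≤ 2 ^ S ^ 5)]
    calc |n| * 2 ^ S ^ 5 ≤ 2 ^ S ^ 4 * 2 ^ S ^ 5 := by gcongr
      _ = 2 ^ (S ^ 4 + S ^ 5) := by rw [← pow_add]
      _ ≤ 2 ^ wid S := by
          apply pow_le_pow_right₀ (by norm_num)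
          unfold wid
          omega
  unfold fint cmul
  rw [clamp_of_abs_le hn2, clamp_fone, clamp_of_abs_le hmul]
  unfold val fone
  push_cast
  field_simp

theorem val_fone : val S (fone S) = 1 := by
  unfold val fone
  push_cast
  have hp : (0 : ℝ) < 2 ^ prec S := by positivity
  exact div_self hp.ne'

/-- Comparison of the words is comparison of the values. -/
theorem val_lt_iff : val S x < val S y ↔ x < y := by
  unfold val
  have hp : (0 : ℝ) < 2 ^ prec S := by positivity
  rw [div_lt_div_iff_of_pos_right hp]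
  exact Int.cast_lt

theorem val_le_iff : val S x ≤ val S y ↔ x ≤ y := by
  unfold val
  have hp : (0 : ℝ) < 2 ^ prec S := by positivity
  rw [div_le_div_iff_of_pos_right hp]
  exact Int.cast_le

/-- The integer part. -/
theorem ffloor_eq (hx : |val S x| ≤ Big S) : (ffloor S x : ℝ) = ⌊val S x⌋ := by
  obtain ⟨h1, h2, h3⟩ := pow_facts hS
  have hxw : clamp S x = x := clamp_of_val hS hx
  have hxa : |x| ≤ 2 ^ wid S := by
    refine (abs_le_of_val hx).trans (pow_le_pow_right₀ (by norm_num) ?_)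
    unfold wid
    omega
  have hq : |x / fone S| ≤ 2 ^ wid S := (abs_ediv_fone_le _).trans hxa
  have e : ffloor S x = x / fone S := by
    unfold ffloor cdiv
    rw [hxw, clamp_fone, clamp_of_abs_le hq]
  rw [e]
  congr 1
  have h4 : val S x = (x : ℝ) / ((2 ^ prec S : ℕ) : ℝ) := by
    unfold val
    push_cast
    rfl
  rw [h4, Int.floor_div_natCast, Int.floor_intCast]
  rfl

/-- Every real number of magnitude at most `Big S` is within one unit of a word. -/
theorem exists_word {a : ℝ} (ha : |a| ≤ Big S) : ∃ w : ℤ, |val S w - a| ≤ ulp S ∧ |val S w| ≤ Big S + 1 := by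
  have hp : (0 : ℝ) < 2 ^ prec S := by positivity
  have hu : ulp S ≤ 1 := by
    unfold ulp
    rw [div_le_one hp]
    exact one_le_pow₀ (by norm_num)
  have hclose : |val S ⌊a * 2 ^ prec S⌋ - a| ≤ ulp S := by
    unfold val ulp
    have h1 := Int.floor_le (a * 2 ^ prec S)
    have h2 := Int.lt_floor_add_one (a * 2 ^ prec S)
    have e : (⌊a * 2 ^ prec S⌋ : ℝ) / 2 ^ prec S - a = ((⌊a * 2 ^ prec S⌋ : ℝ) - a * 2 ^ prec S) / 2 ^ prec S := by
      field_simp
    rw [e, abs_div, abs_of_pos hp]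
    apply div_le_div_of_nonneg_right _ hp.le
    rw [abs_le]
    constructor <;> linarith
  refine ⟨⌊a * 2 ^ prec S⌋, hclose, ?_⟩
  have h3 : |val S ⌊a * 2 ^ prec S⌋| ≤ |a| + |val S ⌊a * 2 ^ prec S⌋ - a| := by
    have := abs_add_le a (val S ⌊a * 2 ^ prec S⌋ - a)
    simpa using this
  linarith

end Spec

end Vale.Agent.Lib.P328.Bit
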