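import Mathlib

/-!
# P328, bit model: the machine

`Val`: integers, the empty list, pairs. `Prog`: a small language of programs. `S` is the one parameter of a run:
words have at most `S ^ 6` bits (arithmetic saturates), a `loop` runs its body exactly `S` times.
`sem`: the law of the output of a program. `time`: a structural count of the steps, where an
arithmetic step costs the square of the word length.
`time_poly`: for every program the time is a polynomial in `S`, so that nothing else about the time of
the algorithm has to be proved.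
-/

namespace Vale.Agent.Lib.P328.Bit

/-- The data of the machine. -/
inductive Val
  | nil
  | num (z : ℤ)
  | pair (a b : Val)

/-- The length of a word. -/
def wid (S : ℕ) : ℕ := S ^ 6

/-- Saturation of an integer at the word length. -/
def clamp (S : ℕ) (z : ℤ) : ℤ := max (-(2 ^ wid S)) (min z (2 ^ wid S))

/-- An arithmetic operation on a pair of words; the result saturates. -/
def arith (S : ℕ) (op : ℤ → ℤ → ℤ) : Val → Val
  | .pair (.num a) (.num b) => .num (clamp S (op (clamp S a) (clamp S b)))
  | _ => .num 0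

/-- The first component of a pair. -/
def Val.first : Val → Val
  | .pair a _ => a
  | _ => .nil

/-- The second component of a pair. -/
def Val.second : Val → Val
  | .pair _ b => b
  | _ => .nil

/-- The test for being a pair. -/
def Val.isPair : Val → Val
  | .pair _ _ => .num 1
  | _ => .num 0

/-- The test for being a positive number. -/
def Val.isPos : Val → Prop
  | .num z => 0 < z
  | _ => False

/-- The programs. -/
inductive Prog
  | id
  | comp (f g : Prog)
  | fork (f g : Prog)
  | fst
  | snd
  | nil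
  | zero
  | one
  | param
  | add
  | sub
  | mul
  | div
  | isPair
  | ifPos (c f g : Prog)
  | loop (f : Prog)
  | coin

open Classical in
/-- The law of the output of a program with parameter `S` on the input `x`: `comp f g` runs `f` and then
`g` on the output; `fork f g` runs `f` and `g` on the input, with fresh coins, and pairs the results;
`ifPos c f g` runs `c`, and then `f` if the output is a positive number, otherwise `g`, on the input;
`loop f` runs `f` exactly `S` times, each time on the previous output; `coin` is a fair coin with values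
zero and one; `param` is `S`. -/
noncomputable def sem : Prog → ℕ → Val → PMF Val
  | .id, _, x => PMF.pure x
  | .comp f g, S, x => (sem f S x).bind (sem g S)
  | .fork f g, S, x => (sem f S x).bind fun a => (sem g S x).bind fun b => PMF.pure (.pair a b)
  | .fst, _, x => PMF.pure x.first
  | .snd, _, x => PMF.pure x.second
  | .nil, _, _ => PMF.pure .nil
  | .zero, _, _ => PMF.pure (.num 0)
  | .one, _, _ => PMF.pure (.num 1)
  | .param, S, _ => PMF.pure (.num S)
  | .add, S, x => PMF.pure (arith S (· + ·) x)
  | .sub, S, x => PMF.pure (arith S (· - ·) x)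
  | .mul, S, x => PMF.pure (arith S (· * ·) x)
  | .div, S, x => PMF.pure (arith S (· / ·) x)
  | .isPair, _, x => PMF.pure x.isPair
  | .ifPos c f g, S, x =>
      (sem c S x).bind fun v => if v.isPos then sem f S x else sem g S x
  | .loop f, S, x => (fun μ : PMF Val => μ.bind (sem f S))^[S] (PMF.pure x)
  | .coin, _, _ => (PMF.uniformOfFintype Bool).map fun b => .num (if b then 1 else 0)

/-- The number of steps of a program with parameter `S`, for all inputs and all coins.
An addition costs the word length, a multiplication or division its square. -/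
def time : Prog → ℕ → ℕ
  | .comp f g, S => time f S + time g S + 1
  | .fork f g, S => time f S + time g S + 1
  | .add, S => wid S + 1
  | .sub, S => wid S + 1
  | .mul, S => (wid S + 1) ^ 2
  | .div, S => (wid S + 1) ^ 2
  | .ifPos c f g, S => time c S + time f S + time g S + 1
  | .loop f, S => S * (time f S + 1) + 1
  | _, _ => 1

/-- **Every program runs in polynomial time.** -/
theorem time_poly (p : Prog) : ∃ e : ℕ, ∀ S : ℕ, 2 ≤ S → time p S ≤ S ^ e := by
  have hsum : ∀ {a b S : ℕ} (e1 e2 : ℕ), 2 ≤ S → a ≤ S ^ e1 → b ≤ S ^ e2 →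
      a + b + 1 ≤ S ^ (e1 + e2 + 2) := by
    intro a b S e1 e2 hS h1 h2
    have h3 : S ^ e1 ≤ S ^ (e1 + e2) := Nat.pow_le_pow_right (by omega) (by omega)
    have h4 : S ^ e2 ≤ S ^ (e1 + e2) := Nat.pow_le_pow_right (by omega) (by omega)
    have h5 : 1 ≤ S ^ (e1 + e2) := Nat.one_le_pow _ _ (by omega)
    have h6 : S ^ (e1 + e2 + 2) = S ^ (e1 + e2) * (S * S) := by ring
    have h7 : 4 ≤ S * S := Nat.mul_le_mul hS hS
    have h8 : S ^ (e1 + e2) * 4 ≤ S ^ (e1 + e2) * (S * S) := Nat.mul_le_mul_left _ h7
    omega
  have hwid : ∀ S : ℕ, 2 ≤ S → wid S + 1 ≤ S ^ 7 := by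
    intro S hS
    unfold wid
    have h1 : S ^ 7 = S ^ 6 * S := by ring
    have h2 : 1 ≤ S ^ 6 := Nat.one_le_pow _ _ (by omega)
    have h3 : S ^ 6 * 2 ≤ S ^ 6 * S := Nat.mul_le_mul_left _ hS
    omega
  have hone : ∀ S : ℕ, 2 ≤ S → 1 ≤ S ^ 0 := fun _ _ => by simp
  induction p with
  | comp f g hf hg =>
    obtain ⟨e1, h1⟩ := hf
    obtain ⟨e2, h2⟩ := hg
    exact ⟨e1 + e2 + 2, fun S hS => hsum e1 e2 hS (h1 S hS) (h2 S hS)⟩
  | fork f g hf hg =>
    obtain ⟨e1, h1⟩ := hf
    obtain ⟨e2, h2⟩ := hg
    exact ⟨e1 + e2 + 2, fun S hS => hsum e1 e2 hS (h1 S hS) (h2 S hS)⟩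
  | add => exact ⟨7, hwid⟩
  | sub => exact ⟨7, hwid⟩
  | mul =>
    refine ⟨14, fun S hS => ?_⟩
    have := Nat.pow_le_pow_left (hwid S hS) 2
    simpa [time, ← pow_mul] using this
  | div =>
    refine ⟨14, fun S hS => ?_⟩
    have := Nat.pow_le_pow_left (hwid S hS) 2
    simpa [time, ← pow_mul] using this
  | ifPos c f g hc hf hg =>
    obtain ⟨e0, h0⟩ := hc
    obtain ⟨e1, h1⟩ := hf
    obtain ⟨e2, h2⟩ := hg
    refine ⟨(e0 + e1 + 2) + e2 + 2, fun S hS => ?_⟩
    have h3 := hsum e0 e1 hS (h0 S hS) (h1 S hS)
    have h4 := hsum (e0 + e1 + 2) e2 hS h3 (h2 S hS)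
    simp only [time]
    omega
  | loop f hf =>
    obtain ⟨e, h⟩ := hf
    refine ⟨e + 4, fun S hS => ?_⟩
    have h1 := h S hS
    have h2 : 1 ≤ S ^ e := Nat.one_le_pow _ _ (by omega)
    simp only [time]
    have h3 : S * (time f S + 1) ≤ S * (2 * S ^ e) := Nat.mul_le_mul_left _ (by omega)
    have h4 : S ^ (e + 4) = S ^ e * S * S * S * S := by ring
    have h5 : S * (2 * S ^ e) = 2 * (S ^ e * S) := by ring
    have h6 : 1 ≤ S ^ e * S := Nat.mul_pos (by omega) (by omega)
    have h7 : S ^ e * S * 4 ≤ S ^ e * S * (S * S) := Nat.mul_le_mul_left _ (Nat.mul_le_mul hS hS)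
    have h8 : S ^ e * S * (S * S) = S ^ e * S * S * S := by ring
    have h9 : S ^ e * S * S * S ≤ S ^ e * S * S * S * S := Nat.le_mul_of_pos_right _ (by omega)
    omega
  | id => exact ⟨0, fun S hS => by simp [time]⟩
  | fst => exact ⟨0, fun S hS => by simp [time]⟩
  | snd => exact ⟨0, fun S hS => by simp [time]⟩
  | nil => exact ⟨0, fun S hS => by simp [time]⟩
  | zero => exact ⟨0, fun S hS => by simp [time]⟩
  | one => exact ⟨0, fun S hS => by simp [time]⟩
  | param => exact ⟨0, fun S hS => by simp [time]⟩
  | isPair => exact ⟨0, fun S hS => by simp [time]⟩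
  | coin => exact ⟨0, fun S hS => by simp [time]⟩

/-! ### Encodings -/

/-- The code of a value. -/
class Enc (α : Type) where
  /-- the code -/
  enc : α → Val

export Enc (enc)

instance : Enc ℤ := ⟨.num⟩

instance {α β : Type} [Enc α] [Enc β] : Enc (α × β) := ⟨fun p => .pair (enc p.1) (enc p.2)⟩

/-- The code of a list. -/
def encList {α : Type} [Enc α] : List α → Val
  | [] => .nil
  | a :: l => .pair (enc a) (encList l)

instance {α : Type} [Enc α] : Enc (List α) := ⟨encList⟩

@[simp] theorem enc_int (z : ℤ) : enc z = Val.num z := rfl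

@[simp] theorem enc_pair {α β : Type} [Enc α] [Enc β] (a : α) (b : β) :
    enc (a, b) = Val.pair (enc a) (enc b) := rfl

@[simp] theorem enc_nil {α : Type} [Enc α] : enc ([] : List α) = Val.nil := rfl

@[simp] theorem enc_cons {α : Type} [Enc α] (a : α) (l : List α) :
    enc (a :: l) = Val.pair (enc a) (enc l) := rfl

/-- A deterministic function computed by a program, uniformly in `S`. -/
def DRep {α β : Type} [Enc α] [Enc β] (f : ℕ → α → β) : Prop :=
  ∃ p : Prog, ∀ S x, sem p S (enc x) = PMF.pure (enc (f S x))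

/-- A randomized function computed by a program, uniformly in `S`. -/
def Rep {α β : Type} [Enc α] [Enc β] (f : ℕ → α → PMF β) : Prop :=
  ∃ p : Prog, ∀ S x, sem p S (enc x) = (f S x).map enc

variable {α β γ δ : Type} [Enc α] [Enc β] [Enc γ] [Enc δ]

/-! ### Arithmetic -/

/-- Saturating addition. -/
def cadd (S : ℕ) (a b : ℤ) : ℤ := clamp S (clamp S a + clamp S b)

/-- Saturating subtraction. -/
def csub (S : ℕ) (a b : ℤ) : ℤ := clamp S (clamp S a - clamp S b)

/-- Saturating multiplication. -/
def cmul (S : ℕ) (a b : ℤ) : ℤ := clamp S (clamp S a * clamp S b)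

/-- Saturating division. -/
def cdiv (S : ℕ) (a b : ℤ) : ℤ := clamp S (clamp S a / clamp S b)

/-! ### Closure properties of deterministic functions -/

namespace DRep

theorem id' : DRep (α := α) (β := α) fun _ x => x :=
  ⟨.id, fun _ _ => rfl⟩

theorem comp {f : ℕ → α → β} {g : ℕ → β → γ} (hf : DRep f) (hg : DRep g) :
    DRep fun S x => g S (f S x) := by
  obtain ⟨p, hp⟩ := hf
  obtain ⟨q, hq⟩ := hg
  refine ⟨.comp p q, fun S x => ?_⟩
  simp only [sem, hp, PMF.pure_bind, hq]

theorem pair {f : ℕ → α → β} {g : ℕ → α → γ} (hf : DRep f) (hg : DRep g) :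
    DRep fun S x => (f S x, g S x) := by
  obtain ⟨p, hp⟩ := hf
  obtain ⟨q, hq⟩ := hg
  refine ⟨.fork p q, fun S x => ?_⟩
  simp only [sem, hp, hq, PMF.pure_bind]
  rfl

theorem fst : DRep (α := β × γ) (β := β) fun _ x => x.1 :=
  ⟨.fst, fun _ _ => rfl⟩

theorem snd : DRep (α := β × γ) (β := γ) fun _ x => x.2 :=
  ⟨.snd, fun _ _ => rfl⟩

/-- Binding a value: `let y := f x; g (x, y)`. -/
theorem bindD {f : ℕ → α → β} {g : ℕ → α × β → γ} (hf : DRep f) (hg : DRep g) :
    DRep fun S x => g S (x, f S x) :=
  (id'.pair hf).comp hg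

theorem zero : DRep (α := α) (β := ℤ) fun _ _ => 0 := ⟨.zero, fun _ _ => rfl⟩

theorem one : DRep (α := α) (β := ℤ) fun _ _ => 1 := ⟨.one, fun _ _ => rfl⟩

theorem param : DRep (α := α) (β := ℤ) fun S _ => (S : ℤ) := ⟨.param, fun _ _ => rfl⟩

theorem add {f g : ℕ → α → ℤ} (hf : DRep f) (hg : DRep g) : DRep fun S x => cadd S (f S x) (g S x) := by
  obtain ⟨p, hp⟩ := hf.pair hg
  refine ⟨.comp p .add, fun S x => ?_⟩
  simp only [sem, hp, PMF.pure_bind]
  rfl

theorem sub {f g : ℕ → α → ℤ} (hf : DRep f) (hg : DRep g) : DRep fun S x => csub S (f S x) (g S x) := by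
  obtain ⟨p, hp⟩ := hf.pair hg
  refine ⟨.comp p .sub, fun S x => ?_⟩
  simp only [sem, hp, PMF.pure_bind]
  rfl

theorem mul {f g : ℕ → α → ℤ} (hf : DRep f) (hg : DRep g) : DRep fun S x => cmul S (f S x) (g S x) := by
  obtain ⟨p, hp⟩ := hf.pair hg
  refine ⟨.comp p .mul, fun S x => ?_⟩
  simp only [sem, hp, PMF.pure_bind]
  rfl

theorem div {f g : ℕ → α → ℤ} (hf : DRep f) (hg : DRep g) : DRep fun S x => cdiv S (f S x) (g S x) := by
  obtain ⟨p, hp⟩ := hf.pair hg
  refine ⟨.comp p .div, fun S x => ?_⟩
  simp only [sem, hp, PMF.pure_bind]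
  rfl

/-- A conditional on the sign of a number. -/
theorem ite {c : ℕ → α → ℤ} {f g : ℕ → α → β} (hc : DRep c) (hf : DRep f) (hg : DRep g) :
    DRep fun S x => if 0 < c S x then f S x else g S x := by
  classical
  obtain ⟨p0, h0⟩ := hc
  obtain ⟨p1, h1⟩ := hf
  obtain ⟨p2, h2⟩ := hg
  refine ⟨.ifPos p0 p1 p2, fun S x => ?_⟩
  simp only [sem, h0, PMF.pure_bind, enc_int, Val.isPos, h1, h2]
  by_cases h : 0 < c S x <;> simp [h]

/-- A loop of exactly `S` rounds. -/
theorem iter {i : ℕ → α → β} {b : ℕ → α × β → β} (hi : DRep i) (hb : DRep b) :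
    DRep fun S x => (fun s => b S (x, s))^[S] (i S x) := by
  obtain ⟨p1, h1⟩ := hi
  -- the state of the loop carries the input
  obtain ⟨p2, h2⟩ := (fst (β := α) (γ := β)).pair hb
  refine ⟨.comp (.fork .id p1) (.comp (.loop p2) .snd), fun S x => ?_⟩
  have hsem0 : sem (.fork .id p1) S (enc x) = PMF.pure (enc (x, i S x)) := by
    simp only [sem, h1, PMF.pure_bind]
    rfl
  have hloop : ∀ (k : ℕ) (s : β),
      (fun μ : PMF Val => μ.bind (sem p2 S))^[k] (PMF.pure (enc (x, s)))
        = PMF.pure (enc (x, (fun s => b S (x, s))^[k] s)) := by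
    intro k
    induction k with
    | zero => intro s; rfl
    | succ k ih =>
      intro s
      rw [Function.iterate_succ_apply, PMF.pure_bind, h2 S (x, s)]
      exact ih (b S (x, s))
  show (sem (.fork .id p1) S (enc x)).bind (fun v => (sem (.loop p2) S v).bind (sem .snd S)) = _
  rw [hsem0, PMF.pure_bind]
  show ((fun μ : PMF Val => μ.bind (sem p2 S))^[S] (PMF.pure (enc (x, i S x)))).bind (sem .snd S) = _
  rw [hloop, PMF.pure_bind]
  rfl

/-- A conditional on a list. -/
theorem caseList {l : ℕ → α → List γ} {f : ℕ → α → β} {g : ℕ → α × (γ × List γ) → β} (hl : DRep l)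
    (hf : DRep f) (hg : DRep g) :
    DRep fun S x => match l S x with
      | [] => f S x
      | a :: t => g S (x, (a, t)) := by
  classical
  obtain ⟨p0, h0⟩ := hl
  obtain ⟨p1, h1⟩ := hf
  obtain ⟨p2, h2⟩ := hg
  refine ⟨.ifPos (.comp p0 .isPair) (.comp (.fork .id p0) p2) p1, fun S x => ?_⟩
  cases hlx : l S x with
  | nil =>
    have e0 : sem (.comp p0 .isPair) S (enc x) = PMF.pure (Val.num 0) := by
      simp only [sem, h0, PMF.pure_bind, hlx]
      rfl
    simp only [sem] at e0 ⊢
    rw [e0, PMF.pure_bind]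
    simp [Val.isPos, h1, hlx]
  | cons a t =>
    have e0 : sem (.comp p0 .isPair) S (enc x) = PMF.pure (Val.num 1) := by
      simp only [sem, h0, PMF.pure_bind, hlx]
      rfl
    have e1 : sem (.fork .id p0) S (enc x) = PMF.pure (enc (x, (a, t))) := by
      simp only [sem, h0, PMF.pure_bind, hlx]
      rfl
    have e2 : sem (.ifPos (.comp p0 .isPair) (.comp (.fork .id p0) p2) p1) S (enc x)
        = (sem (.comp p0 .isPair) S (enc x)).bind fun v =>
          if v.isPos then sem (.comp (.fork .id p0) p2) S (enc x) else sem p1 S (enc x) := rfl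
    rw [e2, e0, PMF.pure_bind]
    have e3 : (Val.num 1).isPos := by
      show (0 : ℤ) < 1
      norm_num
    rw [if_pos e3]
    show (sem (.fork .id p0) S (enc x)).bind (sem p2 S) = _
    rw [e1, PMF.pure_bind, h2]
    simp [hlx]

/-- The empty list. -/
theorem nil' : DRep (α := α) (β := List γ) fun _ _ => [] := ⟨.nil, fun _ _ => rfl⟩

/-- Prepending to a list. -/
theorem cons {f : ℕ → α → γ} {g : ℕ → α → List γ} (hf : DRep f) (hg : DRep g) :
    DRep fun S x => f S x :: g S x := by
  obtain ⟨p, hp⟩ := hf.pair hg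
  exact ⟨p, fun S x => hp S x⟩

/-- A loop of `S ^ k` rounds, for a fixed `k`. -/
theorem iterPow (k : ℕ) {b : ℕ → α × β → β} (hb : DRep b) :
    DRep fun S (x : α × β) => (fun s => b S (x.1, s))^[S ^ k] x.2 := by
  induction k with
  | zero =>
    have : (fun S (x : α × β) => (fun s => b S (x.1, s))^[S ^ 0] x.2) = fun S x => b S x := by
      funext S x
      simp
    rw [this]
    exact hb
  | succ k ih =>
    have h := iter (α := α × β) (β := β) (i := fun _ x => x.2)
      (b := fun S (y : (α × β) × β) => (fun s => b S (y.1.1, s))^[S ^ k] y.2) snd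
      (((fst.comp fst).pair snd).comp ih)
    have e : (fun S (x : α × β) => (fun s => b S (x.1, s))^[S ^ (k + 1)] x.2)
        = fun S x => (fun s => (fun s' => b S (x.1, s'))^[S ^ k] s)^[S] x.2 := by
      funext S x
      rw [pow_succ, Function.iterate_mul]
    rw [e]
    exact h

/-- An integer constant, saturated. -/
theorem natConst (k : ℕ) : DRep (α := α) (β := ℤ) fun S _ => clamp S k := by
  induction k with
  | zero =>
    have e : (fun S (_ : α) => clamp S ((0 : ℕ) : ℤ)) = fun _ _ => 0 := by
      funext S _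
      have h : (0 : ℤ) ≤ 2 ^ wid S := by positivity
      simp only [clamp, Nat.cast_zero]
      rw [min_eq_left h, max_eq_right (by linarith)]
    rw [e]
    exact zero
  | succ k ih =>
    have e : (fun S (_ : α) => clamp S ((k + 1 : ℕ) : ℤ)) = fun S x => cadd S (clamp S k) 1 := by
      funext S _
      have h0 : (1 : ℤ) ≤ 2 ^ wid S := one_le_pow₀ (by norm_num)
      have hk0 : (0 : ℤ) ≤ k := Int.natCast_nonneg k
      have hc1 : clamp S 1 = 1 := by
        simp only [clamp]
        rw [min_eq_left h0, max_eq_right (by linarith)]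
      unfold cadd
      rw [hc1]
      push_cast
      rcases lt_or_ge (k : ℤ) (2 ^ wid S) with h | h
      · have hk : clamp S k = k := by
          simp only [clamp]
          rw [min_eq_left h.le, max_eq_right (by linarith)]
        rw [hk, hk]
      · have hk : clamp S k = 2 ^ wid S := by
          simp only [clamp]
          rw [min_eq_right h, max_eq_right (by linarith)]
        have hk2 : clamp S (2 ^ wid S) = 2 ^ wid S := by
          simp only [clamp]
          rw [min_eq_right le_rfl, max_eq_right (by linarith)]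
        have hk3 : ∀ z : ℤ, 2 ^ wid S ≤ z → clamp S z = 2 ^ wid S := by
          intro z hz
          simp only [clamp]
          rw [min_eq_right hz, max_eq_right (by linarith)]
        rw [hk, hk2, hk3 _ (by linarith), hk3 _ (by linarith)]
    rw [e]
    exact ih.add one

end DRep

/-! ### Closure properties of randomized functions -/

namespace Rep

theorem ofD {f : ℕ → α → β} (hf : DRep f) : Rep fun S x => PMF.pure (f S x) := by
  obtain ⟨p, hp⟩ := hf
  exact ⟨p, fun S x => by rw [hp, PMF.pure_map]⟩

/-- Sampling and continuing with both the input and the sample. -/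
theorem bind {f : ℕ → α → PMF β} {g : ℕ → α × β → PMF γ} (hf : Rep f) (hg : Rep g) :
    Rep fun S x => (f S x).bind fun y => g S (x, y) := by
  obtain ⟨p, hp⟩ := hf
  obtain ⟨q, hq⟩ := hg
  refine ⟨.comp (.fork .id p) q, fun S x => ?_⟩
  show (sem (.fork .id p) S (enc x)).bind (sem q S) = _
  have e : sem (.fork .id p) S (enc x)
      = (f S x).bind fun y => PMF.pure (enc (x, y)) := by
    show (PMF.pure (enc x)).bind (fun a => (sem p S (enc x)).bind fun b => PMF.pure (Val.pair a b)) = _
    rw [PMF.pure_bind, hp]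
    unfold PMF.map
    rw [PMF.bind_bind]
    simp only [Function.comp, PMF.pure_bind]
    rfl
  rw [e, PMF.bind_bind, PMF.map_bind]
  simp only [PMF.pure_bind, hq]

/-- The fair coin as a law on integers. -/
noncomputable def coinZ : PMF ℤ := (PMF.uniformOfFintype Bool).map fun b => if b then 1 else 0

theorem coin : Rep (α := α) (β := ℤ) fun _ _ => coinZ := by
  refine ⟨.coin, fun S x => ?_⟩
  unfold coinZ
  rw [PMF.map_comp]
  show (PMF.uniformOfFintype Bool).map _ = _
  congr 1

/-- A conditional. -/
theorem ite {c : ℕ → α → ℤ} {f g : ℕ → α → PMF β} (hc : DRep c) (hf : Rep f) (hg : Rep g) :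
    Rep fun S x => if 0 < c S x then f S x else g S x := by
  classical
  obtain ⟨p0, h0⟩ := hc
  obtain ⟨p1, h1⟩ := hf
  obtain ⟨p2, h2⟩ := hg
  refine ⟨.ifPos p0 p1 p2, fun S x => ?_⟩
  simp only [sem, h0, PMF.pure_bind, enc_int, Val.isPos, h1, h2]
  by_cases h : 0 < c S x <;> simp [h]

/-- A loop of exactly `S` rounds. -/
theorem iter {i : ℕ → α → PMF β} {b : ℕ → α × β → PMF β} (hi : Rep i) (hb : Rep b) :
    Rep fun S x => (fun μ : PMF β => μ.bind fun s => b S (x, s))^[S] (i S x) := by
  obtain ⟨p1, h1⟩ := hi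
  obtain ⟨p2, h2⟩ := hb
  -- the state of the loop carries the input
  refine ⟨.comp (.fork .id p1) (.comp (.loop (.fork .fst p2)) .snd), fun S x => ?_⟩
  have hstep : ∀ s : β, sem (.fork .fst p2) S (enc (x, s))
      = (b S (x, s)).map fun s' => enc (x, s') := by
    intro s
    show (PMF.pure (enc x)).bind (fun a => (sem p2 S (enc (x, s))).bind fun b => PMF.pure (Val.pair a b)) = _
    rw [PMF.pure_bind, h2]
    unfold PMF.map
    rw [PMF.bind_bind]
    simp only [Function.comp, PMF.pure_bind]
    rfl
  have hloop : ∀ (k : ℕ) (μ : PMF β),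
      (fun ν : PMF Val => ν.bind (sem (.fork .fst p2) S))^[k] (μ.map fun s => enc (x, s))
        = ((fun μ : PMF β => μ.bind fun s => b S (x, s))^[k] μ).map fun s => enc (x, s) := by
    intro k
    induction k with
    | zero => intro μ; rfl
    | succ k ih =>
      intro μ
      rw [Function.iterate_succ_apply, Function.iterate_succ_apply, ← ih]
      congr 1
      unfold PMF.map
      rw [PMF.bind_bind, PMF.bind_bind]
      simp only [Function.comp, PMF.pure_bind]
      refine congrArg _ (funext fun s => ?_)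
      rw [hstep]
      rfl
  have hinit : sem (.fork .id p1) S (enc x) = (i S x).map fun s => enc (x, s) := by
    show (PMF.pure (enc x)).bind (fun a => (sem p1 S (enc x)).bind fun b => PMF.pure (Val.pair a b)) = _
    rw [PMF.pure_bind, h1]
    unfold PMF.map
    rw [PMF.bind_bind]
    simp only [Function.comp, PMF.pure_bind]
    rfl
  show (sem (.fork .id p1) S (enc x)).bind
    (fun v => (sem (.loop (.fork .fst p2)) S v).bind (sem .snd S)) = _
  rw [hinit]
  have hrun : ((i S x).map fun s => enc (x, s)).bind (sem (.loop (.fork .fst p2)) S)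
      = ((fun μ : PMF β => μ.bind fun s => b S (x, s))^[S] (i S x)).map fun s => enc (x, s) := by
    rw [← hloop S (i S x)]
    have hgen : ∀ (k : ℕ) (ν : PMF Val), ν.bind (fun v => (fun μ : PMF Val => μ.bind (sem (.fork .fst p2) S))^[k] (PMF.pure v))
        = (fun μ : PMF Val => μ.bind (sem (.fork .fst p2) S))^[k] ν := by
      intro k
      induction k with
      | zero =>
        intro ν
        simp
      | succ k ih =>
        intro ν
        simp only [Function.iterate_succ_apply, PMF.pure_bind]
        rw [← ih (ν.bind (sem (.fork .fst p2) S)), PMF.bind_bind]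
        refine congrArg _ (funext fun v => ?_)
        exact (ih (sem (.fork .fst p2) S v)).symm
    exact hgen S _
  have hassoc : ((i S x).map fun s => enc (x, s)).bind
      (fun v => (sem (.loop (.fork .fst p2)) S v).bind (sem .snd S))
      = (((i S x).map fun s => enc (x, s)).bind (sem (.loop (.fork .fst p2)) S)).bind (sem .snd S) :=
    (PMF.bind_bind _ _ _).symm
  rw [hassoc, hrun]
  unfold PMF.map
  rw [PMF.bind_bind]
  simp only [Function.comp, PMF.pure_bind]
  rfl

/-- A conditional on a list. -/
theorem caseList {l : ℕ → α → List γ} {f : ℕ → α → PMF β} {g : ℕ → α × (γ × List γ) → PMF β}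
    (hl : DRep l) (hf : Rep f) (hg : Rep g) :
    Rep fun S x => match l S x with
      | [] => f S x
      | a :: t => g S (x, (a, t)) := by
  classical
  obtain ⟨p0, h0⟩ := hl
  obtain ⟨p1, h1⟩ := hf
  obtain ⟨p2, h2⟩ := hg
  refine ⟨.ifPos (.comp p0 .isPair) (.comp (.fork .id p0) p2) p1, fun S x => ?_⟩
  cases hlx : l S x with
  | nil =>
    have e0 : sem (.comp p0 .isPair) S (enc x) = PMF.pure (Val.num 0) := by
      simp only [sem, h0, PMF.pure_bind, hlx]
      rfl
    simp only [sem] at e0 ⊢
    rw [e0, PMF.pure_bind]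
    simp [Val.isPos, h1, hlx]
  | cons a t =>
    have e0 : sem (.comp p0 .isPair) S (enc x) = PMF.pure (Val.num 1) := by
      simp only [sem, h0, PMF.pure_bind, hlx]
      rfl
    have e1 : sem (.fork .id p0) S (enc x) = PMF.pure (enc (x, (a, t))) := by
      simp only [sem, h0, PMF.pure_bind, hlx]
      rfl
    have e2 : sem (.ifPos (.comp p0 .isPair) (.comp (.fork .id p0) p2) p1) S (enc x)
        = (sem (.comp p0 .isPair) S (enc x)).bind fun v =>
          if v.isPos then sem (.comp (.fork .id p0) p2) S (enc x) else sem p1 S (enc x) := rfl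
    rw [e2, e0, PMF.pure_bind]
    have e3 : (Val.num 1).isPos := by
      show (0 : ℤ) < 1
      norm_num
    rw [if_pos e3]
    show (sem (.fork .id p0) S (enc x)).bind (sem p2 S) = _
    rw [e1, PMF.pure_bind, h2]
    simp [hlx]

/-- A loop of `S ^ k` rounds, for a fixed `k`. -/
theorem iterPow (k : ℕ) {b : ℕ → α × β → PMF β} (hb : Rep b) :
    Rep fun S (x : α × β) => (fun μ : PMF β => μ.bind fun s => b S (x.1, s))^[S ^ k] (PMF.pure x.2) := by
  have hgen : ∀ (f : β → PMF β) (k : ℕ) (μ : PMF β),
      (fun ν : PMF β => ν.bind f)^[k] μ = μ.bind fun s => (fun ν : PMF β => ν.bind f)^[k] (PMF.pure s) := by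
    intro f k
    induction k with
    | zero =>
      intro μ
      simp
    | succ k ih =>
      intro μ
      simp only [Function.iterate_succ_apply, PMF.pure_bind]
      rw [ih (μ.bind f), PMF.bind_bind]
      refine congrArg _ (funext fun s => ?_)
      rw [← ih (f s)]
  induction k with
  | zero =>
    have : (fun S (x : α × β) => (fun μ : PMF β => μ.bind fun s => b S (x.1, s))^[S ^ 0] (PMF.pure x.2))
        = fun S x => b S x := by
      funext S x
      simp [PMF.pure_bind]
    rw [this]
    exact hb
  | succ k ih =>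
    have h := iter (α := α × β) (β := β) (i := fun _ x => PMF.pure x.2)
      (b := fun S (y : (α × β) × β) =>
        (fun μ : PMF β => μ.bind fun s => b S (y.1.1, s))^[S ^ k] (PMF.pure y.2))
      (ofD DRep.snd) (by
        obtain ⟨p, hp⟩ := ih
        obtain ⟨q, hq⟩ := ((DRep.fst.comp DRep.fst).pair DRep.snd :
          DRep (α := (α × β) × β) (β := α × β) fun _ y => (y.1.1, y.2))
        refine ⟨.comp q p, fun S x => ?_⟩
        show (sem q S (enc x)).bind (sem p S) = _
        rw [hq, PMF.pure_bind, hp])
    have e : (fun S (x : α × β) => (fun μ : PMF β => μ.bind fun s => b S (x.1, s))^[S ^ (k + 1)] (PMF.pure x.2))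
        = fun S x => (fun μ : PMF β => μ.bind fun s =>
            (fun ν : PMF β => ν.bind fun s' => b S (x.1, s'))^[S ^ k] (PMF.pure s))^[S] (PMF.pure x.2) := by
      funext S x
      rw [pow_succ, Function.iterate_mul]
      have hstep : (fun μ : PMF β => μ.bind fun s =>
            (fun ν : PMF β => ν.bind fun s' => b S (x.1, s'))^[S ^ k] (PMF.pure s))
          = (fun ν : PMF β => ν.bind fun s' => b S (x.1, s'))^[S ^ k] := by
        funext μ
        exact (hgen _ _ μ).symm
      rw [hstep]
    rw [e]
    exact h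

end Rep

end Vale.Agent.Lib.P328.Bit
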