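import Vale.Agent.Lib.P328.Bit.Code
import Vale.Agent.Lib.P328.Samp.Law

/-!
# P328, bit model: the law of the sampler, for any weights close to the convex potential (module LAWG)

`Samp/Law.lean` with a function `g` in place of `psiCell`, a law `L` with `Σ |L - exp (-g) / Σ exp (-g)| ≤ 1/W^24` in place of `chainLaw`, and a family `H` in the coordinates `y` (`Samp/Law`: `H x ∘ tMap`). `psiCell_close` becomes the hypothesis `hg`; nothing else about `psiCell` is used. Copy of the section `Main` of `Samp/Law.lean` (`sumS`, `exp_phiY_le`, `exp_psiCell_le`, `sum_upper`, `cover_bound`, `sum_lower`, `sum_real`, `sum_close`, `Rf`, `Vf`...), renamed with suffix `G`.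
-/

namespace Vale.Agent.Lib.P328.Bit

open Finset MeasureTheory Vale.Agent.Lib.P328.Cap Vale.Agent.Lib.P328.Fpras Vale.Agent.Lib.P328.Samp
open scoped ENNReal

variable {m n : ℕ} {i0 : Fin m} {j0 : Fin n} {r : Fin m → ℕ} {c : Fin n → ℕ}

/-- The closeness to the potential. -/
def GClose (W : ℕ) (i0 : Fin m) (j0 : Fin n) (r : Fin m → ℕ) (c : Fin n → ℕ)
    (g : (Fin n × Fin m → Fin (cellM W)) → ℝ) : Prop :=
  ∀ z, ∀ u : Fin n × Fin m → ℝ, (∀ k, 0 ≤ u k ∧ u k ≤ 1) →
    |g z - psiE W i0 j0 r c (cellPt W z u)| ≤ 3 / (W : ℝ) ^ 25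

namespace LawG

variable {W : ℕ} {g : (Fin n × Fin m → Fin (cellM W)) → ℝ}

/-- The sum over the cubes. -/
noncomputable def sumSG (g : (Fin n × Fin m → Fin (cellM W)) → ℝ) : ℝ := ∑ z, Real.exp (-g z)

theorem sumSG_pos (g : (Fin n × Fin m → Fin (cellM W)) → ℝ) (hm : 0 < m) (hn : 0 < n) : 0 < sumSG g := by
  unfold sumSG
  have : Nonempty (Fin n × Fin m → Fin (cellM W)) := ⟨zStart _ W⟩
  exact Finset.sum_pos (fun z _ => Real.exp_pos _) Finset.univ_nonempty

/-- On a small cube, in the domain. -/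
theorem exp_phiY_leG (hg : GClose W i0 j0 r c g) (hW : WOK m n W)
    {z : Fin n × Fin m → Fin (cellM W)} {y : Fin n × Fin m → ℝ} (hy : y ∈ smallC W z) :
    Real.exp (-psiE W i0 j0 r c y)
      ≤ Real.exp (3 / (W : ℝ) ^ 25) * Real.exp (-g z) := by
  obtain ⟨u, hu, rfl⟩ := (mem_smallC_iff hW.pos z y).1 hy
  have h1 := hg z u fun k => ⟨hu.1 k, hu.2 k⟩
  rw [← Real.exp_add]
  exact Real.exp_le_exp.2 (by linarith [(abs_le.1 h1).2])

theorem exp_g_le (hg : GClose W i0 j0 r c g) (hW : WOK m n W)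
    {z : Fin n × Fin m → Fin (cellM W)} {y : Fin n × Fin m → ℝ} (hy : y ∈ smallC W z) :
    Real.exp (-g z)
      ≤ Real.exp (3 / (W : ℝ) ^ 25) * Real.exp (-psiE W i0 j0 r c y) := by
  obtain ⟨u, hu, rfl⟩ := (mem_smallC_iff hW.pos z y).1 hy
  have h1 := hg z u fun k => ⟨hu.1 k, hu.2 k⟩
  rw [← Real.exp_add]
  exact Real.exp_le_exp.2 (by linarith [(abs_le.1 h1).1])

/-- The upper bound for the sum over the cubes. -/
theorem sum_upperG (h : InstOK i0 j0 r c) (hW : WOK m n W) (hm : 0 < m) (hn : 0 < n)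
    (hg : GClose W i0 j0 r c g) :
    ENNReal.ofReal (Real.exp (-phiMin r) * cellD W ^ (n * m) * sumSG g)
      ≤ ENNReal.ofReal (Real.exp (3 / (W : ℝ) ^ 25) * (1 + 1 / (W : ℝ) ^ 24)) * IFy i0 j0 r c := by
  classical
  have hW0 := hW.pos
  have hW' : (0 : ℝ) < W := by exact_mod_cast hW0
  have hδ := cellD_pos hW0
  set a := Real.exp (3 / (W : ℝ) ^ 25) with ha
  have hcard : Fintype.card (Fin n × Fin m) = n * m := by simp
  -- first the sum against the integral of `exp (-psiE)`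
  have h1 : ∀ z : Fin n × Fin m → Fin (cellM W),
      ENNReal.ofReal (cellD W ^ (n * m) * Real.exp (-g z))
        ≤ ∫⁻ y in smallO W z, ENNReal.ofReal a * ENNReal.ofReal (Real.exp (-psiE W i0 j0 r c y)) := by
    intro z
    have hv := volume_smallO hW0 z
    rw [hcard] at hv
    calc ENNReal.ofReal (cellD W ^ (n * m) * Real.exp (-g z))
        = ∫⁻ _ in smallO W z, ENNReal.ofReal (Real.exp (-g z)) := by
          rw [lintegral_const, Measure.restrict_apply MeasurableSet.univ, Set.univ_inter, hv,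
            mul_comm, ENNReal.ofReal_mul (by positivity)]
      _ ≤ _ := by
          refine setLIntegral_mono' (measurableSet_smallO z) fun y hy => ?_
          rw [← ENNReal.ofReal_mul (Real.exp_pos _).le]
          exact ENNReal.ofReal_le_ofReal (exp_g_le hg hW (smallO_subset_smallC z hy))
  have h2 : ENNReal.ofReal (cellD W ^ (n * m) * sumSG g)
      ≤ ∫⁻ y in bigQ _ W, ENNReal.ofReal a * ENNReal.ofReal (Real.exp (-psiE W i0 j0 r c y)) := by
    have e : cellD W ^ (n * m) * sumSG g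
        = ∑ z, cellD W ^ (n * m) * Real.exp (-g z) := by
      unfold sumSG
      rw [Finset.mul_sum]
    rw [e, ENNReal.ofReal_sum_of_nonneg fun z _ => by positivity]
    refine (Finset.sum_le_sum fun z _ => h1 z).trans ?_
    rw [← lintegral_biUnion_finset (fun z _ z' _ hne => smallO_disjoint hW0 hne)
      (fun z _ => measurableSet_smallO z)]
    refine lintegral_mono_set ?_
    intro y hy
    simp only [Set.mem_iUnion] at hy
    obtain ⟨z, _, hz⟩ := hy
    exact smallC_subset_bigQ hW0 z (smallO_subset_smallC z hz)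
  have h3 := psi_mass h hW hm hn
  have hQ : bigQ (Fin n × Fin m) W = {y : Fin n × Fin m → ℝ | ∀ k, |y k| ≤ rQ W} := rfl
  rw [lintegral_const_mul _ (measurable_exp_psiE h hW)] at h2
  rw [← hQ] at h3
  have h4 : ENNReal.ofReal (Real.exp (-phiMin r))
        * ∫⁻ y in domY W i0 j0 r c, ENNReal.ofReal (Real.exp (-phiY i0 j0 r c y))
      ≤ IFy i0 j0 r c := by
    rw [← lintegral_const_mul' _ _ ENNReal.ofReal_ne_top]
    unfold IFy
    refine le_trans ?_ (setLIntegral_le_lintegral (domY W i0 j0 r c) _)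
    refine setLIntegral_mono' (measurableSet_domY W i0 j0 r c) fun y hy => ?_
    rw [Fy_eq h hW hy, ENNReal.ofReal_mul (Real.exp_pos _).le]
  have hb0 : 0 ≤ 1 + 1 / (W : ℝ) ^ 24 := by positivity
  have ha0 : 0 ≤ a := (Real.exp_pos _).le
  calc ENNReal.ofReal (Real.exp (-phiMin r) * cellD W ^ (n * m) * sumSG g)
      = ENNReal.ofReal (Real.exp (-phiMin r)) * ENNReal.ofReal (cellD W ^ (n * m) * sumSG g) := by
        rw [← ENNReal.ofReal_mul (Real.exp_pos _).le, mul_assoc]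
    _ ≤ ENNReal.ofReal (Real.exp (-phiMin r)) * (ENNReal.ofReal a * (ENNReal.ofReal (1 + 1 / (W : ℝ) ^ 24)
          * ∫⁻ y in domY W i0 j0 r c, ENNReal.ofReal (Real.exp (-phiY i0 j0 r c y)))) := by
        gcongr
        exact h2.trans (by gcongr)
    _ = ENNReal.ofReal (a * (1 + 1 / (W : ℝ) ^ 24)) * (ENNReal.ofReal (Real.exp (-phiMin r))
          * ∫⁻ y in domY W i0 j0 r c, ENNReal.ofReal (Real.exp (-phiY i0 j0 r c y))) := by
        rw [ENNReal.ofReal_mul ha0]
        ring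
    _ ≤ _ := by gcongr


/-- The integral over the good set is bounded by the sum over the cubes. -/
theorem cover_boundG (h : InstOK i0 j0 r c) (hW : WOK m n W) (hg : GClose W i0 j0 r c g)
    {f : (Fin n × Fin m → ℝ) → ℝ≥0∞} :
    ∫⁻ y in bigQ _ W ∩ domY W i0 j0 r c, Fy i0 j0 r c y * f y
      ≤ ∑ z, ENNReal.ofReal (Real.exp (-phiMin r) * Real.exp (3 / (W : ℝ) ^ 25)
          * Real.exp (-g z)) * ∫⁻ y in smallC W z, f y := by
  classical
  have hW0 := hW.pos
  have hms : MeasurableSet (bigQ (Fin n × Fin m) W ∩ domY W i0 j0 r c) :=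
    (measurableSet_bigQ _ W).inter (measurableSet_domY W i0 j0 r c)
  have hU : (0 : ℝ) ≤ 2 * ((n : ℝ) * m) := by positivity
  have hΛ : (0 : ℝ) ≤ (W : ℝ) ^ 27 := by positivity
  have hcov : bigQ (Fin n × Fin m) W ∩ domY W i0 j0 r c ⊆ ⋃ z, (smallC W z ∩ domY W i0 j0 r c) := by
    intro y hy
    obtain ⟨z, hz⟩ := exists_smallC hW0 hy.1
    exact Set.mem_iUnion.2 ⟨z, hz, hy.2⟩
  refine (lintegral_mono_set hcov).trans ((lintegral_iUnion_le _ _).trans ?_)
  rw [tsum_fintype]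
  refine Finset.sum_le_sum fun z _ => ?_
  have hc : MeasurableSet (smallC W z ∩ domY W i0 j0 r c) :=
    measurableSet_Icc.inter (measurableSet_domY W i0 j0 r c)
  rw [← lintegral_const_mul' _ _ ENNReal.ofReal_ne_top]
  refine le_trans (setLIntegral_mono' hc fun y hy => ?_) (lintegral_mono_set Set.inter_subset_left)
  refine mul_le_mul_left ?_ _
  rw [Fy_eq h hW hy.2]
  refine ENNReal.ofReal_le_ofReal ?_
  have h1 : psiE W i0 j0 r c y ≤ phiY i0 j0 r c y := reg_le (regHyp_inst h hW) hΛ hy.2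
  have h2 := exp_phiY_leG hg hW hy.1
  have h3 : Real.exp (-phiY i0 j0 r c y) ≤ Real.exp (-psiE W i0 j0 r c y) :=
    Real.exp_le_exp.2 (by linarith)
  rw [mul_assoc]
  exact mul_le_mul_of_nonneg_left (h3.trans h2) (Real.exp_pos _).le


/-- The lower bound for the sum over the cubes. -/
theorem sum_lowerG (h : InstOK i0 j0 r c) (hW : WOK m n W) (hg : GClose W i0 j0 r c g) :
    IFy i0 j0 r c
      ≤ ENNReal.ofReal (Real.exp (3 / (W : ℝ) ^ 25) * (Real.exp (-phiMin r) * cellD W ^ (n * m) * sumSG g))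
        + ENNReal.ofReal (2 / (W : ℝ) ^ 25) * IFy i0 j0 r c := by
  classical
  have hW0 := hW.pos
  have hδ := cellD_pos hW0
  have hcard : Fintype.card (Fin n × Fin m) = n * m := by simp
  have hms : MeasurableSet (bigQ (Fin n × Fin m) W ∩ domY W i0 j0 r c) :=
    (measurableSet_bigQ _ W).inter (measurableSet_domY W i0 j0 r c)
  have h1 : IFy i0 j0 r c = (∫⁻ y in bigQ _ W ∩ domY W i0 j0 r c, Fy i0 j0 r c y)
      + ∫⁻ y in (bigQ _ W ∩ domY W i0 j0 r c)ᶜ, Fy i0 j0 r c y := by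
    rw [lintegral_add_compl _ hms]
    rfl
  rw [h1.le.antisymm (by rw [h1])] 
  refine add_le_add ?_ (by rw [← h1]; exact Fy_bad h hW)
  have h2 := cover_boundG h hW hg (f := fun _ => 1)
  simp only [mul_one, lintegral_const, Measure.restrict_apply, MeasurableSet.univ, Set.univ_inter] at h2
  refine h2.trans ?_
  have e : Real.exp (3 / (W : ℝ) ^ 25) * (Real.exp (-phiMin r) * cellD W ^ (n * m) * sumSG g)
      = ∑ z, Real.exp (-phiMin r) * Real.exp (3 / (W : ℝ) ^ 25)
          * Real.exp (-g z) * cellD W ^ (n * m) := by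
    unfold sumSG
    rw [Finset.mul_sum, Finset.mul_sum]
    refine Finset.sum_congr rfl fun z _ => ?_
    ring
  rw [e, ENNReal.ofReal_sum_of_nonneg fun z _ => by positivity]
  refine Finset.sum_le_sum fun z _ => ?_
  have hv := volume_smallC_le hW0 z
  rw [hcard] at hv
  rw [one_mul]
  calc _ ≤ ENNReal.ofReal (Real.exp (-phiMin r) * Real.exp (3 / (W : ℝ) ^ 25)
        * Real.exp (-g z)) * ENNReal.ofReal (cellD W ^ (n * m)) :=
        mul_le_mul_right hv _
    _ = _ := (ENNReal.ofReal_mul (by positivity)).symm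


section RealG

variable (h : InstOK i0 j0 r c) (hW : WOK m n W) (hm : 0 < m) (hn : 0 < n) (hg : GClose W i0 j0 r c g)

include h hW hm hn hg

/-- The two bounds for the sum, in real numbers. -/
theorem sum_realG :
    Real.exp (-phiMin r) * cellD W ^ (n * m) * sumSG g
        ≤ Real.exp (3 / (W : ℝ) ^ 25) * (1 + 1 / (W : ℝ) ^ 24) * (IFy i0 j0 r c).toReal
      ∧ (IFy i0 j0 r c).toReal ≤ Real.exp (3 / (W : ℝ) ^ 25)
            * (Real.exp (-phiMin r) * cellD W ^ (n * m) * sumSG g)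
          + 2 / (W : ℝ) ^ 25 * (IFy i0 j0 r c).toReal := by
  have hW0 := hW.pos
  have hW' : (0 : ℝ) < W := by exact_mod_cast hW0
  have hδ := cellD_pos hW0
  have hS := sumSG_pos g hm hn
  have hIt := IFy_ne_top i0 j0 r c
  have hsig : 0 ≤ Real.exp (-phiMin r) * cellD W ^ (n * m) * sumSG g := by positivity
  have hab : 0 ≤ Real.exp (3 / (W : ℝ) ^ 25) * (1 + 1 / (W : ℝ) ^ 24) := by positivity
  constructor
  · have h1 := sum_upperG h hW hm hn hg
    have h2 := ENNReal.toReal_mono (ENNReal.mul_ne_top ENNReal.ofReal_ne_top hIt) h1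
    rwa [ENNReal.toReal_ofReal hsig, ENNReal.toReal_mul, ENNReal.toReal_ofReal hab] at h2
  · have h1 := sum_lowerG h hW hg
    have h2 := ENNReal.toReal_mono (ENNReal.add_ne_top.2 ⟨ENNReal.ofReal_ne_top,
      ENNReal.mul_ne_top ENNReal.ofReal_ne_top hIt⟩) h1
    rwa [ENNReal.toReal_add ENNReal.ofReal_ne_top (ENNReal.mul_ne_top ENNReal.ofReal_ne_top hIt),
      ENNReal.toReal_ofReal (by positivity), ENNReal.toReal_mul,
      ENNReal.toReal_ofReal (by positivity)] at h2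

/-- **The sum over the cubes is close to the integral.** -/
theorem sum_closeG :
    |detT i0 j0 r c * Real.exp (-phiMin r) * cellD W ^ (n * m)
          * ∑ z, Real.exp (-g z)
        - (∫⁻ t, wmat t * capa r c t).toReal|
      ≤ 20 / (W : ℝ) ^ 24 * (∫⁻ t, wmat t * capa r c t).toReal := by
  obtain ⟨h1, h2⟩ := sum_realG h hW hm hn hg
  obtain ⟨n1, _, _, n4, n5⟩ := law_numbers hW.ge
  have hW0 := hW.pos
  have hW' : (0 : ℝ) < W := by exact_mod_cast hW0
  have hd := detT_pos i0 j0 r c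
  rw [IFy_eq i0 j0 r c, ENNReal.toReal_mul, ENNReal.toReal_ofReal hd.le]
  set I := (IFy i0 j0 r c).toReal with hI
  have hI0 : 0 ≤ I := ENNReal.toReal_nonneg
  set G := Real.exp (-phiMin r) * cellD W ^ (n * m) * sumSG g with hG
  have e : detT i0 j0 r c * Real.exp (-phiMin r) * cellD W ^ (n * m)
      * ∑ z, Real.exp (-g z) = detT i0 j0 r c * G := by
    rw [hG]
    unfold sumSG
    ring
  rw [e, ← mul_sub, abs_mul, abs_of_pos hd]
  have e2 : 20 / (W : ℝ) ^ 24 * (detT i0 j0 r c * I) = detT i0 j0 r c * (20 / (W : ℝ) ^ 24 * I) := by ring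
  rw [e2]
  refine mul_le_mul_of_nonneg_left ?_ hd.le
  set x : ℝ := 1 / (W : ℝ) ^ 24 with hx
  have hx0 : 0 < x := by positivity
  have e20 : 20 / (W : ℝ) ^ 24 = 20 * x := by rw [hx]; ring
  have e2x : 2 / (W : ℝ) ^ 24 = 2 * x := by rw [hx]; ring
  rw [e20]
  rw [abs_le]
  rw [e2x] at n1
  have hy : 3 / (W : ℝ) ^ 25 + 2 / (W : ℝ) ^ 25 = 5 / (W : ℝ) ^ 25 := by ring
  have hy0 : 0 < 3 / (W : ℝ) ^ 25 := by positivity
  have hy1 : 0 < 2 / (W : ℝ) ^ 25 := by positivity
  constructor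
  · -- lower bound
    have h3 : Real.exp (-(3 / (W : ℝ) ^ 25)) * I * (1 - 2 / (W : ℝ) ^ 25) ≤ G := by
      have h4 : I * (1 - 2 / (W : ℝ) ^ 25) ≤ Real.exp (3 / (W : ℝ) ^ 25) * G := by linarith
      have h5 := mul_le_mul_of_nonneg_left h4 (Real.exp_pos (-(3 / (W : ℝ) ^ 25))).le
      have h55 : Real.exp (-(3 / (W : ℝ) ^ 25)) * (Real.exp (3 / (W : ℝ) ^ 25) * G) = G := by
        rw [← mul_assoc, ← Real.exp_add]
        simp
      rw [h55] at h5
      calc _ = Real.exp (-(3 / (W : ℝ) ^ 25)) * (I * (1 - 2 / (W : ℝ) ^ 25)) := by ring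
        _ ≤ G := h5
    have h6 : 1 - 3 / (W : ℝ) ^ 25 ≤ Real.exp (-(3 / (W : ℝ) ^ 25)) := by
      linarith [Real.add_one_le_exp (-(3 / (W : ℝ) ^ 25))]
    have h7 : (1 - 3 / (W : ℝ) ^ 25) * I * (1 - 2 / (W : ℝ) ^ 25)
        ≤ Real.exp (-(3 / (W : ℝ) ^ 25)) * I * (1 - 2 / (W : ℝ) ^ 25) := by
      have h8 : 0 ≤ 1 - 2 / (W : ℝ) ^ 25 := by linarith
      gcongr
    have h9 : I * (1 - x) ≤ (1 - 3 / (W : ℝ) ^ 25) * I * (1 - 2 / (W : ℝ) ^ 25) := by
      have h10 : 0 ≤ (3 / (W : ℝ) ^ 25) * (2 / (W : ℝ) ^ 25) * I := by positivity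
      have h11 : I * (3 / (W : ℝ) ^ 25 + 2 / (W : ℝ) ^ 25) ≤ I * x := by
        rw [hy]
        exact mul_le_mul_of_nonneg_left n4 hI0
      nlinarith
    have h12 : 0 ≤ x * I := by positivity
    nlinarith
  · nlinarith


end RealG

section CloseG

/-- The stationary weights of the cubes. -/
noncomputable def piG (g : (Fin n × Fin m → Fin (cellM W)) → ℝ) (z : Fin n × Fin m → Fin (cellM W)) : ℝ :=
  Real.exp (-g z) / sumSG g

/-- The stationary law of the chain followed by a uniform point of the cube. -/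
noncomputable def VfG (g : (Fin n × Fin m → Fin (cellM W)) → ℝ) (f : (Fin n × Fin m → ℝ) → ℝ≥0∞) : ℝ≥0∞ :=
  ∑ z, ENNReal.ofReal (piG g z) * ∫⁻ u in Set.Icc (0 : Fin n × Fin m → ℝ) 1, f (cellPt W z u)

theorem VfG_add (a b : (Fin n × Fin m → ℝ) → ℝ≥0∞) (ha : Measurable a) (_hb : Measurable b) :
    VfG g (a + b) = VfG g a + VfG g b := by
  unfold VfG
  rw [← Finset.sum_add_distrib]
  refine Finset.sum_congr rfl fun z _ => ?_
  rw [← mul_add]
  congr 1
  exact lintegral_add_left (ha.comp (measurable_cellPt W z)) _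

theorem VfG_zero : VfG g 0 = 0 := by simp [VfG]

theorem VfG_one (hm : 0 < m) (hn : 0 < n) : VfG g 1 = 1 := by
  have hS := sumSG_pos g hm hn
  unfold VfG
  simp only [Pi.one_apply, lintegral_const, Measure.restrict_apply, MeasurableSet.univ, Set.univ_inter,
    volume_unit_cube, mul_one, one_mul]
  rw [← ENNReal.ofReal_sum_of_nonneg fun z _ => by
    unfold piG
    positivity]
  have e : ∑ z, piG g z = 1 := by
    unfold piG
    rw [← Finset.sum_div]
    exact div_self hS.ne'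
  rw [e]
  simp

theorem Rf_le_VfG (h : InstOK i0 j0 r c) (hW : WOK m n W) (hm : 0 < m) (hn : 0 < n)
    (hg : GClose W i0 j0 r c g) (f : (Fin n × Fin m → ℝ) → ℝ≥0∞) (hf : Measurable f) :
    Rf i0 j0 r c W f ≤ VfG g f := by
  classical
  have hW0 := hW.pos
  have hW' : (0 : ℝ) < W := by exact_mod_cast hW0
  have hδ := cellD_pos hW0
  have hS := sumSG_pos g hm hn
  have hcard : Fintype.card (Fin n × Fin m) = n * m := by simp
  have hF0 := IFy_ne_zero h
  have hFt := IFy_ne_top i0 j0 r c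
  have hIr : 0 < (IFy i0 j0 r c).toReal := ENNReal.toReal_pos hF0 hFt
  have hIe : IFy i0 j0 r c = ENNReal.ofReal (IFy i0 j0 r c).toReal := (ENNReal.ofReal_toReal hFt).symm
  have hIi : (IFy i0 j0 r c)⁻¹ = ENNReal.ofReal ((IFy i0 j0 r c).toReal)⁻¹ := by
    rw [ENNReal.ofReal_inv_of_pos hIr, ENNReal.ofReal_toReal hFt]
  obtain ⟨hup, _⟩ := sum_realG h hW hm hn hg
  set IR := (IFy i0 j0 r c).toReal with hIR
  set E := Real.exp (-phiMin r) with hE
  set a := Real.exp (3 / (W : ℝ) ^ 25) with ha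
  set b := 1 + 1 / (W : ℝ) ^ 24 with hb
  set V := cellD W ^ (n * m) with hV
  have hE0 : 0 < E := Real.exp_pos _
  have ha0 : 0 < a := Real.exp_pos _
  have hb0 : 0 < b := by positivity
  have hV0 : 0 < V := by positivity
  unfold Rf VfG
  have h1 := cover_boundG h hW hg (f := f)
  rw [← hE, ← ha] at h1
  have h2 : ∫⁻ y in bigQ _ W ∩ domY W i0 j0 r c, Fy i0 j0 r c y * f y
      ≤ ∑ z, ENNReal.ofReal (E * a * Real.exp (-g z) * V)
          * ∫⁻ u in Set.Icc (0 : Fin n × Fin m → ℝ) 1, f (cellPt W z u) := by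
    refine h1.trans (Finset.sum_le_sum fun z _ => ?_)
    rw [lintegral_smallC hW0 z hf, hcard, ← mul_assoc,
      ← ENNReal.ofReal_mul (by positivity)]
  calc _ ≤ ENNReal.ofReal (kapW W) * ((IFy i0 j0 r c)⁻¹ * ∑ z, ENNReal.ofReal (E * a * Real.exp (-g z) * V)
          * ∫⁻ u in Set.Icc (0 : Fin n × Fin m → ℝ) 1, f (cellPt W z u)) := by gcongr
    _ = ∑ z, (ENNReal.ofReal (kapW W) * ((IFy i0 j0 r c)⁻¹ * ENNReal.ofReal (E * a * Real.exp (-g z) * V)))
          * ∫⁻ u in Set.Icc (0 : Fin n × Fin m → ℝ) 1, f (cellPt W z u) := by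
        rw [Finset.mul_sum, Finset.mul_sum]
        refine Finset.sum_congr rfl fun z _ => ?_
        ring
    _ ≤ _ := by
        refine Finset.sum_le_sum fun z _ => mul_le_mul_left ?_ _
        rw [hIi]
        have hk0 : 0 ≤ kapW W := by
          unfold kapW
          positivity
        rw [← ENNReal.ofReal_mul (by positivity), ← ENNReal.ofReal_mul hk0]
        refine ENNReal.ofReal_le_ofReal ?_
        unfold piG
        set e := Real.exp (-g z) with he
        have he0 : 0 < e := Real.exp_pos _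
        have hkap : kapW W = (a * a * b)⁻¹ := rfl
        rw [hkap]
        -- `E V S ≤ a b IR`
        have h3 : E * V * sumSG g ≤ a * b * IR := hup
        rw [le_div_iff₀ hS]
        have e1 : (a * a * b)⁻¹ * (IR⁻¹ * (E * a * e * V)) * sumSG g
            = e * ((E * V * sumSG g) / (a * b * IR)) := by
          field_simp
        rw [e1]
        have h4 : (E * V * sumSG g) / (a * b * IR) ≤ 1 := by
          rw [div_le_one (by positivity)]
          exact h3
        nlinarith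


end CloseG

end LawG

open LawG

/-- **The sampler is close to the log-concave law.** -/
theorem samp_close_g (h : InstOK i0 j0 r c) {W : ℕ} (hW : WOK m n W) (hm : 0 < m) (hn : 0 < n)
    {g : (Fin n × Fin m → Fin (cellM W)) → ℝ} (hg : GClose W i0 j0 r c g)
    {L : (Fin n × Fin m → Fin (cellM W)) → ℝ} (hL0 : ∀ z, 0 ≤ L z)
    (hL : ∑ z, |L z - Real.exp (-g z) / ∑ z', Real.exp (-g z')| ≤ 1 / (W : ℝ) ^ 24)
    {X : Type} {Sx : Finset X} {H : X → (Fin n × Fin m → ℝ) → ℝ≥0∞}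
    (hHm : ∀ x ∈ Sx, Measurable (H x)) (hH1 : ∀ y, ∑ x ∈ Sx, H x y ≤ 1) :
    ∑ x ∈ Sx, |∑ z, L z * (∫⁻ u in Set.Icc (0 : Fin n × Fin m → ℝ) 1, H x (cellPt W z u)).toReal
        - ((IFy i0 j0 r c)⁻¹ * ∫⁻ y, Fy i0 j0 r c y * H x y).toReal|
      ≤ 20 / (W : ℝ) ^ 24 := by
  classical
  have _ := hL0
  have hW0 := hW.pos
  have hW' : (0 : ℝ) < W := by exact_mod_cast hW0
  have h3 : (0 : ℝ) ≤ 3 / (W : ℝ) ^ 24 := by positivity
  have hA := family_close_aux (A := Pf i0 j0 r c) (C := Rf i0 j0 r c W) Pf_add (Rf_add W) Pf_zero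
    (Rf_zero W) (fun f _ => Rf_le_Pf hW f) (Pf_one h) (Rf_one h hW hm hn) h3 hHm hH1
  have hB := family_close_aux (A := VfG g) (C := Rf i0 j0 r c W) VfG_add (Rf_add W) VfG_zero
    (Rf_zero W) (fun f hf => Rf_le_VfG h hW hm hn hg f hf) (VfG_one hm hn) (Rf_one h hW hm hn) h3 hHm hH1
  -- the unit cube integrals
  set J : X → (Fin n × Fin m → Fin (cellM W)) → ℝ≥0∞ := fun x z =>
    ∫⁻ u in Set.Icc (0 : Fin n × Fin m → ℝ) 1, H x (cellPt W z u) with hJ
  have hJsum : ∀ z, ∑ x ∈ Sx, J x z ≤ 1 := by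
    intro z
    have e : ∑ x ∈ Sx, J x z = ∫⁻ u in Set.Icc (0 : Fin n × Fin m → ℝ) 1, ∑ x ∈ Sx, H x (cellPt W z u) := by
      rw [lintegral_finset_sum]
      intro x hx
      exact (hHm x hx).comp (measurable_cellPt W z)
    rw [e]
    calc _ ≤ ∫⁻ _ in Set.Icc (0 : Fin n × Fin m → ℝ) 1, 1 := lintegral_mono fun u => hH1 _
      _ = 1 := by simp [volume_unit_cube]
  have hJt : ∀ x ∈ Sx, ∀ z, J x z ≠ ⊤ := by
    intro x hx z
    have h1 : J x z ≤ ∑ x ∈ Sx, J x z := Finset.single_le_sum (f := fun x => J x z) (fun _ _ => zero_le) hx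
    exact ne_top_of_le_ne_top ENNReal.one_ne_top (h1.trans (hJsum z))
  have hJr : ∀ z, ∑ x ∈ Sx, (J x z).toReal ≤ 1 := by
    intro z
    rw [← ENNReal.toReal_sum fun x hx => hJt x hx z]
    have := ENNReal.toReal_mono ENNReal.one_ne_top (hJsum z)
    simpa using this
  have hV : ∀ x ∈ Sx, (VfG g (H x)).toReal = ∑ z, piG g z * (J x z).toReal := by
    intro x hx
    unfold VfG
    rw [ENNReal.toReal_sum fun z _ => ENNReal.mul_ne_top ENNReal.ofReal_ne_top (hJt x hx z)]
    refine Finset.sum_congr rfl fun z _ => ?_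
    have hp : 0 ≤ piG g z := by
      unfold piG
      exact div_nonneg (Real.exp_pos _).le (sumSG_pos g hm hn).le
    rw [ENNReal.toReal_mul, ENNReal.toReal_ofReal hp]
  have htv' : ∑ z, |L z - piG g z| ≤ 1 / (W : ℝ) ^ 24 := hL
  have hC : ∑ x ∈ Sx, |∑ z, L z * (J x z).toReal
      - (VfG g (H x)).toReal| ≤ 1 / (W : ℝ) ^ 24 := by
    calc _ ≤ ∑ x ∈ Sx, ∑ z, |L z - piG g z| * (J x z).toReal := by
          refine Finset.sum_le_sum fun x hx => ?_
          rw [hV x hx, ← Finset.sum_sub_distrib]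
          refine (Finset.abs_sum_le_sum_abs _ _).trans (Finset.sum_le_sum fun z _ => ?_)
          rw [← sub_mul, abs_mul, abs_of_nonneg (ENNReal.toReal_nonneg : 0 ≤ (J x z).toReal)]
      _ = ∑ z, |L z - piG g z| * ∑ x ∈ Sx, (J x z).toReal := by
          rw [Finset.sum_comm]
          refine Finset.sum_congr rfl fun z _ => ?_
          rw [Finset.mul_sum]
      _ ≤ ∑ z, |L z - piG g z| * 1 :=
          Finset.sum_le_sum fun z _ => mul_le_mul_of_nonneg_left (hJr z) (abs_nonneg _)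
      _ ≤ _ := by simpa using htv'
  have hsum : ∑ x ∈ Sx, |∑ z, L z * (J x z).toReal
        - (Pf i0 j0 r c (H x)).toReal|
      ≤ ∑ x ∈ Sx, (|∑ z, L z * (J x z).toReal
            - (VfG g (H x)).toReal|
          + |(VfG g (H x)).toReal - (Rf i0 j0 r c W (H x)).toReal|
          + |(Pf i0 j0 r c (H x)).toReal - (Rf i0 j0 r c W (H x)).toReal|) := by
    refine Finset.sum_le_sum fun x hx => ?_
    have h1 := abs_sub_le (∑ z, L z * (J x z).toReal)
      (VfG g (H x)).toReal (Pf i0 j0 r c (H x)).toReal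
    have h2 := abs_sub_le (VfG g (H x)).toReal (Rf i0 j0 r c W (H x)).toReal
      (Pf i0 j0 r c (H x)).toReal
    have h3 := abs_sub_comm (Rf i0 j0 r c W (H x)).toReal (Pf i0 j0 r c (H x)).toReal
    linarith
  rw [Finset.sum_add_distrib, Finset.sum_add_distrib] at hsum
  have e : (20 : ℝ) / (W : ℝ) ^ 24 = 20 * (1 / (W : ℝ) ^ 24) := by ring
  have e3 : (3 : ℝ) / (W : ℝ) ^ 24 = 3 * (1 / (W : ℝ) ^ 24) := by ring
  rw [e3] at hA hB
  have hx : 0 < 1 / (W : ℝ) ^ 24 := by positivity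
  rw [e]
  have goal_eq : ∑ x ∈ Sx, |∑ z, L z
          * (∫⁻ u in Set.Icc (0 : Fin n × Fin m → ℝ) 1, H x (cellPt W z u)).toReal
        - ((IFy i0 j0 r c)⁻¹ * ∫⁻ y, Fy i0 j0 r c y * H x y).toReal|
      = ∑ x ∈ Sx, |∑ z, L z * (J x z).toReal
        - (Pf i0 j0 r c (H x)).toReal| := rfl
  rw [goal_eq]
  linarith

/-- **The sum over the cubes is close to the integral.** -/
theorem sum_close_g (h : InstOK i0 j0 r c) {W : ℕ} (hW : WOK m n W) (hm : 0 < m) (hn : 0 < n)
    {g : (Fin n × Fin m → Fin (cellM W)) → ℝ} (hg : GClose W i0 j0 r c g) :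
    |detT i0 j0 r c * Real.exp (-phiMin r) * cellD W ^ (n * m) * ∑ z, Real.exp (-g z)
        - (∫⁻ t, wmat t * capa r c t).toReal|
      ≤ 20 / (W : ℝ) ^ 24 * (∫⁻ t, wmat t * capa r c t).toReal :=
  sum_closeG h hW hm hn hg

end Vale.Agent.Lib.P328.Bit
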