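import Vale.Agent.Lib.P328.Bit.Lang

/-!
# P328, bit model: list programs (module LIST)

All loops of the machine run `S` rounds; so a fold looks at the first `S` elements of a list.
On lists of length at most `S` this is the usual fold (`List.take_of_length_le`).
Proofs: `foldS` by `DRep.iter` with state `(remaining list, accumulator)` and `DRep.caseList`; `mapS` by a fold
with a reversal at the end (or cons and reverse), `rangeS` by a counter.
`seqP`: the law of a list of independent samples.
Add whatever else you need here (append, reverse, zip, sum, nth, transpose), all with `DRep`.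
-/

namespace Vale.Agent.Lib.P328.Bit

variable {α β γ δ : Type} [Enc α] [Enc β] [Enc γ] [Enc δ]

/-! ### Small facts on saturation -/

theorem two_pow_wid_pos (S : ℕ) : (0 : ℤ) < 2 ^ wid S := by positivity

/-- A number in the range is not changed. -/
theorem clamp_of_mem (S : ℕ) {z : ℤ} (h1 : -(2 ^ wid S) ≤ z) (h2 : z ≤ 2 ^ wid S) : clamp S z = z := by
  simp only [clamp]
  rw [min_eq_left h2, max_eq_right h1]

/-- The parameter is not larger than the largest word. -/
theorem param_le_word (S : ℕ) : (S : ℤ) ≤ 2 ^ wid S := by
  have h1 : S ≤ wid S := by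
    unfold wid
    rcases Nat.eq_zero_or_pos S with h | h
    · subst h; simp
    · exact Nat.le_self_pow (by norm_num) S
  have h2 : wid S < 2 ^ wid S := Nat.lt_two_pow_self
  have h3 : S ≤ 2 ^ wid S := by omega
  exact_mod_cast h3

theorem clamp_param (S : ℕ) : clamp S S = S :=
  clamp_of_mem S (by
    have h := two_pow_wid_pos S
    have h0 : (0 : ℤ) ≤ S := Int.natCast_nonneg S
    linarith) (param_le_word S)

/-- Saturation keeps the sign. -/
theorem clamp_pos_iff (S : ℕ) (z : ℤ) : 0 < clamp S z ↔ 0 < z := by
  have h := two_pow_wid_pos S
  simp only [clamp]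
  constructor
  · intro hz
    by_contra hn
    have h1 : min z (2 ^ wid S) = z := min_eq_left (by linarith)
    rw [h1] at hz
    have h2 : max (-(2 ^ wid S)) z ≤ 0 := max_le (by linarith) (by linarith)
    linarith
  · intro hz
    have h1 : 0 < min z (2 ^ wid S) := lt_min hz h
    exact lt_of_lt_of_le h1 (le_max_right _ _)

/-- The comparison with the parameter by a program. -/
theorem csub_param_pos_iff (S : ℕ) (n : ℤ) : 0 < csub S S n ↔ n < S := by
  unfold csub
  rw [clamp_pos_iff, clamp_param]
  have h := two_pow_wid_pos S
  have h0 := param_le_word S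
  have h00 : (0 : ℤ) ≤ S := Int.natCast_nonneg S
  simp only [clamp]
  constructor
  · intro hz
    by_contra hn
    have hn' : (S : ℤ) ≤ n := not_lt.mp hn
    rcases le_total n (2 ^ wid S) with h1 | h1
    · rw [min_eq_left h1, max_eq_right (by linarith)] at hz
      linarith
    · rw [min_eq_right h1, max_eq_right (by linarith)] at hz
      linarith
  · intro hz
    rcases le_total n (2 ^ wid S) with h1 | h1
    · rw [min_eq_left h1]
      have : n ≤ max (-(2 ^ wid S)) n := le_max_right _ _
      rcases le_total n (-(2 ^ wid S)) with h2 | h2
      · rw [max_eq_left h2]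
        linarith
      · rw [max_eq_right h2]
        linarith
    · linarith

/-- The minimum with the parameter. -/
def minS (S : ℕ) (n : ℤ) : ℤ := if n < S then n else S

theorem minS_toNat (S : ℕ) (n : ℤ) : (minS S n).toNat = min n.toNat S := by
  unfold minS
  split_ifs with h
  · omega
  · omega

namespace DRep

/-- Equal functions. -/
theorem congr {f g : ℕ → α → β} (hf : DRep f) (h : ∀ S x, f S x = g S x) : DRep g := by
  have e : f = g := funext₂ h
  exact e ▸ hf

/-- Fold over the first `S` elements. -/
theorem foldS {l : ℕ → α → List γ} {i : ℕ → α → β} {f : ℕ → α × (β × γ) → β} (hl : DRep l)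
    (hi : DRep i) (hf : DRep f) :
    DRep fun S x => ((l S x).take S).foldl (fun s a => f S (x, (s, a))) (i S x) := by
  have hb : DRep (α := α × (β × List γ)) (β := β × List γ) fun S y => match y.2.2 with
      | [] => y.2
      | a :: t => (f S (y.1, (y.2.1, a)), t) := by
    have hg : DRep (α := (α × (β × List γ)) × (γ × List γ)) (β := β × List γ)
        fun S z => (f S (z.1.1, (z.1.2.1, z.2.1)), z.2.2) :=
      (((fst.comp fst).pair (((fst.comp snd).comp fst).pair (snd.comp fst))).comp hf).pair
        (snd.comp snd)
    exact caseList (l := fun _ (y : α × (β × List γ)) => y.2.2) (f := fun _ y => y.2)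
      (g := fun S z => (f S (z.1.1, (z.1.2.1, z.2.1)), z.2.2)) (snd.comp snd) snd hg
  have hit := iter (α := α) (β := β × List γ) (i := fun S x => (i S x, l S x)) (hi.pair hl) hb
  have hres := hit.comp (fst (β := β) (γ := List γ))
  have key : ∀ (S : ℕ) (x : α) (k : ℕ) (s : β) (r : List γ),
      ((fun st : β × List γ => match st.2 with
        | [] => st
        | a :: t => (f S (x, (st.1, a)), t))^[k] (s, r))
        = ((r.take k).foldl (fun s a => f S (x, (s, a))) s, r.drop k) := by
    intro S x k
    induction k with
    | zero => intro s r; simp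
    | succ k ih =>
      intro s r
      rw [Function.iterate_succ_apply]
      cases r with
      | nil =>
        simp only
        rw [ih]
        simp
      | cons a t =>
        simp only
        rw [ih]
        simp
  refine hres.congr fun S x => ?_
  have := key S x S (i S x) (l S x)
  show ((fun st : β × List γ => match st.2 with
        | [] => st
        | a :: t => (f S (x, (st.1, a)), t))^[S] (i S x, l S x)).1 = _
  rw [this]

/-- Fold that prepends. -/
theorem foldl_cons_rev {δ' : Type} (L : List δ') (acc : List δ') :
    L.foldl (fun s a => a :: s) acc = L.reverse ++ acc := by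
  induction L generalizing acc with
  | nil => rfl
  | cons a t ih => simp [ih]

theorem foldl_map_cons_rev {δ' γ' : Type} (g : γ' → δ') (L : List γ') (acc : List δ') :
    L.foldl (fun s a => g a :: s) acc = (L.map g).reverse ++ acc := by
  induction L generalizing acc with
  | nil => rfl
  | cons a t ih => simp [ih]

/-- The reversal of the first `S` elements. -/
theorem reverseS {l : ℕ → α → List γ} (hl : DRep l) :
    DRep fun S x => ((l S x).take S).reverse := by
  have h := foldS (l := l) (i := fun _ _ => ([] : List γ)) (f := fun _ y => y.2.2 :: y.2.1) hl nil'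
    (cons (snd.comp snd) (snd.comp fst))
  refine h.congr fun S x => ?_
  rw [foldl_cons_rev, List.append_nil]

/-- Map over the first `S` elements. -/
theorem mapS {l : ℕ → α → List γ} {f : ℕ → α × γ → δ} (hl : DRep l) (hf : DRep f) :
    DRep fun S x => ((l S x).take S).map fun a => f S (x, a) := by
  have h := foldS (l := l) (i := fun _ _ => ([] : List δ))
    (f := fun S y => f S (y.1, y.2.2) :: y.2.1) hl nil'
    (cons ((fst.pair (snd.comp snd)).comp hf) (snd.comp fst))
  have h2 := reverseS h
  refine h2.congr fun S x => ?_
  rw [foldl_map_cons_rev (fun a => f S (x, a)), List.append_nil, List.take_of_length_le, List.reverse_reverse]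
  simp only [List.length_reverse, List.length_map, List.length_take]
  omega

/-- The first `S` elements. -/
theorem takeS {l : ℕ → α → List γ} (hl : DRep l) : DRep fun S x => (l S x).take S := by
  have h := mapS (f := fun _ y => y.2) hl (snd (β := α) (γ := γ))
  refine h.congr fun S x => ?_
  simp

/-- The minimum of a number and the parameter. -/
theorem minS' {n : ℕ → α → ℤ} (hn : DRep n) : DRep fun S x => minS S (n S x) := by
  have h := ite (c := fun S x => csub S S (n S x)) (f := n) (g := fun S _ => (S : ℤ))
    (param.sub hn) hn param
  refine h.congr fun S x => ?_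
  unfold minS
  by_cases hc : n S x < S
  · rw [if_pos ((csub_param_pos_iff S _).mpr hc), if_pos hc]
  · rw [if_neg (fun h => hc ((csub_param_pos_iff S _).mp h)), if_neg hc]

/-- The step of a counter going down. -/
theorem csub_one_of_pos {S : ℕ} {c : ℤ} (h0 : 0 < c) (h1 : c ≤ S) : csub S c 1 = c - 1 := by
  have hw := param_le_word S
  have hw0 := two_pow_wid_pos S
  have h2 : clamp S c = c := clamp_of_mem S (by linarith) (by linarith)
  have h3 : clamp S 1 = 1 := clamp_of_mem S (by linarith) (by linarith)
  unfold csub
  rw [h2, h3]
  exact clamp_of_mem S (by linarith) (by linarith)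

/-- The list `0, 1, …, n - 1`, for `n ≤ S`. -/
theorem rangeS {n : ℕ → α → ℤ} (hn : DRep n) :
    DRep fun S x => (List.range (min (n S x).toNat S)).map fun k => (k : ℤ) := by
  have hm := minS' hn
  have hb : DRep (α := α × (ℤ × List ℤ)) (β := ℤ × List ℤ) fun S y =>
      if 0 < y.2.1 then (csub S y.2.1 1, csub S y.2.1 1 :: y.2.2) else y.2 := by
    have hc : DRep (α := α × (ℤ × List ℤ)) (β := ℤ) fun S y => csub S y.2.1 1 :=
      (snd.comp fst).sub one
    exact ite (snd.comp fst) (hc.pair (cons hc (snd.comp snd))) snd
  have hit := iter (α := α) (β := ℤ × List ℤ) (i := fun S x => (minS S (n S x), []))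
    (hm.pair nil') hb
  have hres := hit.comp (snd (β := ℤ) (γ := List ℤ))
  refine hres.congr fun S x => ?_
  set m : ℤ := minS S (n S x) with hmdef
  set m' : ℕ := m.toNat with hm'def
  have hmS : m ≤ S := by
    rw [hmdef]
    unfold minS
    split_ifs with h
    · exact h.le
    · exact le_rfl
  have hm'S : m' ≤ S := by omega
  have key : ∀ k : ℕ, ((fun s : ℤ × List ℤ =>
      if 0 < s.1 then (csub S s.1 1, csub S s.1 1 :: s.2) else s)^[k] (m, []))
      = (m - (min k m' : ℕ), (List.range' (m' - min k m') (min k m')).map fun k : ℕ => (k : ℤ)) := by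
    intro k
    induction k with
    | zero => simp
    | succ k ih =>
      rw [Function.iterate_succ_apply', ih]
      by_cases hk : k < m'
      · have h1 : min k m' = k := by omega
        have h2 : min (k + 1) m' = k + 1 := by omega
        rw [h1, h2]
        have hpos : 0 < m - (k : ℤ) := by omega
        simp only
        rw [if_pos hpos, csub_one_of_pos hpos (by omega)]
        have e1 : m - (k : ℤ) - 1 = ((m' - (k + 1) : ℕ) : ℤ) := by omega
        have e2 : m' - k = (m' - (k + 1)) + 1 := by omega
        have e3 : m - (k : ℤ) - 1 = m - ((k + 1 : ℕ) : ℤ) := by push_cast; ring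
        rw [e2, List.range'_succ]
        simp only [List.map_cons]
        rw [e1] 
        have e4 : m - ((k + 1 : ℕ) : ℤ) = ((m' - (k + 1) : ℕ) : ℤ) := by omega
        rw [e4]
      · have h1 : min k m' = m' := by omega
        have h2 : min (k + 1) m' = m' := by omega
        rw [h1, h2]
        have hnpos : ¬ 0 < m - (m' : ℤ) := by omega
        simp only
        rw [if_neg hnpos]
  have hfin := key S
  have hmin : min S m' = m' := by omega
  rw [hmin] at hfin
  show ((fun s : ℤ × List ℤ =>
      if 0 < s.1 then (csub S s.1 1, csub S s.1 1 :: s.2) else s)^[S] (m, [])).2 = _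
  rw [hfin]
  simp only [Nat.sub_self]
  rw [← minS_toNat, ← hmdef, List.range_eq_range']
  simp only [bind_pure_comp, List.map_eq_map, List.map_map]
  rfl

/-- The element with index `j` by dropping. -/
theorem getD_eq_drop {γ' : Type} (L : List γ') (j : ℕ) (d : γ') :
    L.getD j d = match L.drop j with
      | [] => d
      | a :: _ => a := by
  induction L generalizing j with
  | nil => simp
  | cons a t ih =>
    cases j with
    | zero => simp
    | succ j => simpa using ih j

/-- The element with index `k`, or `d` if there is none; the index is at most `S`. -/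
theorem nthD {l : ℕ → α → List γ} {k : ℕ → α → ℤ} {d : ℕ → α → γ} (hl : DRep l) (hk : DRep k)
    (hd : DRep d) :
    DRep fun S x => ((l S x).take S).getD (k S x).toNat (d S x) := by
  have hm := minS' hk
  have htail : DRep (α := α × (ℤ × List γ)) (β := List γ) fun _ y => y.2.2.tail := by
    have h := caseList (l := fun _ (y : α × (ℤ × List γ)) => y.2.2) (f := fun _ _ => ([] : List γ))
      (g := fun _ z => z.2.2) (snd.comp snd) nil' (snd.comp snd)
    refine h.congr fun S y => ?_
    cases y.2.2 <;> rfl
  have hb : DRep (α := α × (ℤ × List γ)) (β := ℤ × List γ) fun S y =>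
      if 0 < y.2.1 then (csub S y.2.1 1, y.2.2.tail) else y.2 := by
    have hc : DRep (α := α × (ℤ × List γ)) (β := ℤ) fun S y => csub S y.2.1 1 :=
      (snd.comp fst).sub one
    exact ite (snd.comp fst) (hc.pair htail) snd
  have hit := iter (α := α) (β := ℤ × List γ) (i := fun S x => (minS S (k S x), (l S x).take S))
    (hm.pair (takeS hl)) hb
  have hres := bindD (hit.comp (snd (β := ℤ) (γ := List γ)))
    (caseList (l := fun _ (y : α × List γ) => y.2) (f := fun S y => d S y.1)
      (g := fun _ z => z.2.1) snd (fst.comp hd) (snd.comp fst))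
  refine hres.congr fun S x => ?_
  set L := (l S x).take S with hL
  set m : ℤ := minS S (k S x) with hmdef
  set m' : ℕ := m.toNat with hm'def
  have hmS : m ≤ S := by
    rw [hmdef]
    unfold minS
    split_ifs with h
    · exact h.le
    · exact le_rfl
  have hm'S : m' ≤ S := by omega
  have key : ∀ t : ℕ, ((fun s : ℤ × List γ =>
      if 0 < s.1 then (csub S s.1 1, s.2.tail) else s)^[t] (m, L))
      = (m - (min t m' : ℕ), L.drop (min t m')) := by
    intro t
    induction t with
    | zero => simp
    | succ t ih =>
      rw [Function.iterate_succ_apply', ih]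
      by_cases ht : t < m'
      · have h1 : min t m' = t := by omega
        have h2 : min (t + 1) m' = t + 1 := by omega
        rw [h1, h2]
        have hpos : 0 < m - (t : ℤ) := by omega
        simp only
        rw [if_pos hpos, csub_one_of_pos hpos (by omega)]
        have e3 : m - (t : ℤ) - 1 = m - ((t + 1 : ℕ) : ℤ) := by push_cast; ring
        rw [e3, List.tail_drop]
      · have h1 : min t m' = m' := by omega
        have h2 : min (t + 1) m' = m' := by omega
        rw [h1, h2]
        have hnpos : ¬ 0 < m - (m' : ℤ) := by omega
        simp only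
        rw [if_neg hnpos]
  have hfin := key S
  have hmin : min S m' = m' := by omega
  rw [hmin] at hfin
  have e0 : ((fun s : ℤ × List γ =>
      if 0 < s.1 then (csub S s.1 1, s.2.tail) else s)^[S] (m, L)).2 = L.drop m' := by
    rw [hfin]
  have hm'eq : m' = min (k S x).toNat S := by
    rw [hm'def, hmdef, minS_toNat]
  have hlen : L.length ≤ S := by
    rw [hL]
    simp
  show (match ((fun s : ℤ × List γ =>
      if 0 < s.1 then (csub S s.1 1, s.2.tail) else s)^[S] (m, L)).2 with
      | [] => d S x
      | a :: _ => a) = _
  rw [e0]
  by_cases hkS : (k S x).toNat ≤ S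
  · have : m' = (k S x).toNat := by omega
    rw [this, getD_eq_drop]
  · have h1 : m' = S := by omega
    have h2 : L.drop m' = [] := by
      rw [h1]
      exact List.drop_eq_nil_of_le hlen
    rw [h2, List.getD_eq_default]
    omega

/-- The length, of at most `S`. -/
theorem lengthS {l : ℕ → α → List γ} (hl : DRep l) :
    DRep fun S x => (((l S x).take S).length : ℤ) := by
  have h := foldS (l := l) (i := fun _ _ => (0 : ℤ)) (f := fun S y => cadd S y.2.1 1) hl zero
    ((snd.comp fst).add one)
  refine h.congr fun S x => ?_
  have key : ∀ (L : List γ) (c : ℤ), 0 ≤ c → c + L.length ≤ S →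
      L.foldl (fun s _ => cadd S s 1) c = c + L.length := by
    intro L
    induction L with
    | nil => intro c _ _; simp
    | cons a t ih =>
      intro c h0 h1
      have hw := param_le_word S
      have hw0 := two_pow_wid_pos S
      simp only [List.length_cons] at h1
      push_cast at h1
      have h2 : clamp S c = c := clamp_of_mem S (by linarith) (by
        have : (0 : ℤ) ≤ t.length := Int.natCast_nonneg _
        linarith)
      have h3 : clamp S 1 = 1 := clamp_of_mem S (by linarith) (by linarith)
      have h4 : cadd S c 1 = c + 1 := by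
        unfold cadd
        rw [h2, h3]
        exact clamp_of_mem S (by linarith) (by
          have : (0 : ℤ) ≤ t.length := Int.natCast_nonneg _
          linarith)
      simp only [List.foldl_cons, List.length_cons]
      rw [h4, ih (c + 1) (by linarith) (by linarith)]
      push_cast
      ring
  have := key ((l S x).take S) 0 le_rfl (by
    simp only [List.length_take, zero_add]
    omega)
  rw [this, zero_add]

end DRep

/-- The law of the list of independent samples from the laws in a list. -/
noncomputable def seqP {β : Type} : List (PMF β) → PMF (List β)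
  | [] => PMF.pure []
  | μ :: l => μ.bind fun a => (seqP l).bind fun t => PMF.pure (a :: t)

/-- Functions that agree on lists of the right length have the same image law. -/
theorem seqP_map_congr {β δ' : Type} (L : List (PMF β)) (h1 h2 : List β → δ')
    (h : ∀ t : List β, t.length = L.length → h1 t = h2 t) :
    (seqP L).map h1 = (seqP L).map h2 := by
  induction L generalizing h1 h2 with
  | nil =>
    simp only [seqP, PMF.pure_map]
    rw [h [] rfl]
  | cons μ L ih =>
    simp only [seqP, PMF.map_bind, PMF.pure_map]
    refine congrArg _ (funext fun a => ?_)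
    exact ih (fun t => h1 (a :: t)) (fun t => h2 (a :: t)) fun t ht => h (a :: t) (by simp [ht])

namespace Rep

/-- Equal functions. -/
theorem congr {f g : ℕ → α → PMF β} (hf : Rep f) (h : ∀ S x, f S x = g S x) : Rep g := by
  have e : f = g := funext₂ h
  exact e ▸ hf

/-- Sampling and continuing with the sample only. -/
theorem comp {f : ℕ → α → PMF β} {g : ℕ → β → PMF γ} (hf : Rep f) (hg : Rep g) :
    Rep fun S x => (f S x).bind (g S) := by
  obtain ⟨p, hp⟩ := hf
  obtain ⟨q, hq⟩ := hg
  refine ⟨.comp p q, fun S x => ?_⟩
  show (sem p S (enc x)).bind (sem q S) = _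
  rw [hp, PMF.map_bind]
  unfold PMF.map
  rw [PMF.bind_bind]
  simp only [Function.comp, PMF.pure_bind]
  refine congrArg _ (funext fun y => ?_)
  exact hq S y

/-- The law of a fold with a general start. -/
theorem foldl_bind_pure {β' γ' : Type} (g : β' → γ' → PMF β') (L : List γ') (μ : PMF β') :
    L.foldl (fun ν a => ν.bind fun s => g s a) μ
      = μ.bind fun s => L.foldl (fun ν a => ν.bind fun s => g s a) (PMF.pure s) := by
  induction L generalizing μ with
  | nil => simp [PMF.bind_pure]
  | cons a t ih =>
    simp only [List.foldl_cons, PMF.pure_bind]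
    rw [ih (μ.bind fun s => g s a), PMF.bind_bind]
    refine congrArg _ (funext fun s => ?_)
    rw [ih (g s a)]

/-- A random fold over the first `S` elements. -/
theorem foldS {l : ℕ → α → List γ} {i : ℕ → α → β} {f : ℕ → α × (β × γ) → PMF β} (hl : DRep l)
    (hi : DRep i) (hf : Rep f) :
    Rep fun S x => ((l S x).take S).foldl (fun μ a => μ.bind fun s => f S (x, (s, a))) (PMF.pure (i S x)) := by
  have hb : Rep (α := α × (β × List γ)) (β := β × List γ) fun S y => match y.2.2 with
      | [] => PMF.pure y.2
      | a :: t => (f S (y.1, (y.2.1, a))).bind fun s' => PMF.pure (s', t) := by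
    have hz : DRep (α := (α × (β × List γ)) × (γ × List γ)) (β := α × (β × γ))
        fun _ z => (z.1.1, (z.1.2.1, z.2.1)) :=
      (DRep.fst.comp DRep.fst).pair (((DRep.fst.comp DRep.snd).comp DRep.fst).pair
        (DRep.snd.comp DRep.fst))
    have hg : Rep (α := (α × (β × List γ)) × (γ × List γ)) (β := β × List γ)
        fun S z => (f S (z.1.1, (z.1.2.1, z.2.1))).bind fun s' => PMF.pure (s', z.2.2) := by
      have h1 : Rep (α := (α × (β × List γ)) × (γ × List γ)) (β := β)
          fun S z => f S (z.1.1, (z.1.2.1, z.2.1)) := by
        have := comp (Rep.ofD hz) hf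
        refine this.congr fun S z => ?_
        rw [PMF.pure_bind]
      have h2 : DRep (α := ((α × (β × List γ)) × (γ × List γ)) × β) (β := β × List γ)
          fun _ y => (y.2, y.1.2.2) :=
        DRep.snd.pair ((DRep.fst.comp DRep.snd).comp DRep.snd)
      exact bind h1 (Rep.ofD h2)
    exact caseList (l := fun _ (y : α × (β × List γ)) => y.2.2)
      (f := fun _ y => PMF.pure y.2)
      (g := fun S z => (f S (z.1.1, (z.1.2.1, z.2.1))).bind fun s' => PMF.pure (s', z.2.2))
      (DRep.snd.comp DRep.snd) (Rep.ofD DRep.snd) hg
  have hit := iter (α := α) (β := β × List γ) (i := fun S x => PMF.pure (i S x, l S x))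
    (Rep.ofD (hi.pair hl)) hb
  have hres := comp hit (Rep.ofD (DRep.fst (β := β) (γ := List γ)))
  refine hres.congr fun S x => ?_
  have key : ∀ (k : ℕ) (μ : PMF β) (r : List γ),
      ((fun ν : PMF (β × List γ) => ν.bind fun st => match st.2 with
        | [] => PMF.pure st
        | a :: t => (f S (x, (st.1, a))).bind fun s' => PMF.pure (s', t))^[k]
          (μ.map fun s => (s, r)))
        = ((r.take k).foldl (fun ν a => ν.bind fun s => f S (x, (s, a))) μ).map
            fun s => (s, r.drop k) := by
    intro k
    induction k with
    | zero => intro μ r; simp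
    | succ k ih =>
      intro μ r
      rw [Function.iterate_succ_apply]
      cases r with
      | nil =>
        have e : (μ.map fun s => (s, ([] : List γ))).bind (fun st => match st.2 with
            | [] => PMF.pure st
            | a :: t => (f S (x, (st.1, a))).bind fun s' => PMF.pure (s', t))
            = μ.map fun s => (s, ([] : List γ)) := by
          unfold PMF.map
          rw [PMF.bind_bind]
          simp only [Function.comp, PMF.pure_bind]
          rfl
        rw [e, ih]
        simp
      | cons a t =>
        have e : (μ.map fun s => (s, a :: t)).bind (fun st => match st.2 with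
            | [] => PMF.pure st
            | a :: t => (f S (x, (st.1, a))).bind fun s' => PMF.pure (s', t))
            = (μ.bind fun s => f S (x, (s, a))).map fun s => (s, t) := by
          unfold PMF.map
          rw [PMF.bind_bind, PMF.bind_bind]
          simp only [Function.comp, PMF.pure_bind]
          rfl
        rw [e, ih]
        simp
  have h0 := key S (PMF.pure (i S x)) (l S x)
  rw [PMF.pure_map] at h0
  show ((fun ν : PMF (β × List γ) => ν.bind fun st => match st.2 with
        | [] => PMF.pure st
        | a :: t => (f S (x, (st.1, a))).bind fun s' => PMF.pure (s', t))^[S]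
          (PMF.pure (i S x, l S x))).bind (fun s => PMF.pure s.1) = _
  rw [h0]
  unfold PMF.map
  rw [PMF.bind_bind]
  simp only [Function.comp, PMF.pure_bind, PMF.bind_pure]

/-- The law of a fold that prepends samples. -/
theorem foldl_law {γ' δ' : Type} (g : γ' → PMF δ') (L : List γ') (acc : List δ') :
    L.foldl (fun ν a => ν.bind fun s => (g a).bind fun b => PMF.pure (b :: s)) (PMF.pure acc)
      = (seqP (L.map g)).map fun t => t.reverse ++ acc := by
  induction L generalizing acc with
  | nil => simp [seqP, PMF.pure_map]
  | cons a L ih =>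
    simp only [List.foldl_cons, PMF.pure_bind, List.map_cons, seqP]
    rw [foldl_bind_pure (fun s a => (g a).bind fun b => PMF.pure (b :: s)) L ((g a).bind _)]
    rw [PMF.bind_bind, PMF.map_bind]
    simp only [PMF.pure_bind]
    refine congrArg _ (funext fun b => ?_)
    rw [ih]
    unfold PMF.map
    rw [PMF.bind_bind]
    simp only [Function.comp, PMF.pure_bind, List.reverse_cons, List.append_assoc,
      List.cons_append, List.nil_append]
    rfl

/-- Independent samples, one for each of the first `S` elements. -/
theorem mapS {l : ℕ → α → List γ} {f : ℕ → α × γ → PMF δ} (hl : DRep l) (hf : Rep f) :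
    Rep fun S x => seqP (((l S x).take S).map fun a => f S (x, a)) := by
  have hg : Rep (α := α × (List δ × γ)) (β := List δ)
      fun S y => (f S (y.1, y.2.2)).bind fun b => PMF.pure (b :: y.2.1) := by
    have h1 : Rep (α := α × (List δ × γ)) (β := δ) fun S y => f S (y.1, y.2.2) := by
      have := comp (Rep.ofD (DRep.fst.pair (DRep.snd.comp DRep.snd) :
        DRep (α := α × (List δ × γ)) (β := α × γ) fun _ y => (y.1, y.2.2))) hf
      refine this.congr fun S y => ?_
      rw [PMF.pure_bind]
    have h2 : DRep (α := (α × (List δ × γ)) × δ) (β := List δ) fun _ y => y.2 :: y.1.2.1 :=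
      DRep.cons DRep.snd ((DRep.fst.comp DRep.snd).comp DRep.fst)
    exact bind h1 (Rep.ofD h2)
  have hfold := foldS (l := l) (i := fun _ _ => ([] : List δ))
    (f := fun S y => (f S (y.1, y.2.2)).bind fun b => PMF.pure (b :: y.2.1)) hl DRep.nil' hg
  have hrev : DRep (α := List δ) (β := List δ) fun S t => (t.take S).reverse :=
    DRep.reverseS (l := fun _ t => t) DRep.id'
  have hres := comp hfold (Rep.ofD hrev)
  refine hres.congr fun S x => ?_
  have e := foldl_law (fun a => f S (x, a)) ((l S x).take S) ([] : List δ)
  simp only at e ⊢
  rw [e]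
  set LL := ((l S x).take S).map fun a => f S (x, a) with hLL
  have hcong := seqP_map_congr LL (fun t => ((t.reverse ++ []).take S).reverse) id (by
    intro t ht
    have hlen : t.length ≤ S := by
      rw [ht, hLL]
      simp
    simp only [List.append_nil, id_eq]
    rw [List.take_of_length_le (by simpa using hlen), List.reverse_reverse])
  rw [PMF.map_id] at hcong
  refine Eq.trans ?_ hcong
  unfold PMF.map
  rw [PMF.bind_bind]
  simp only [Function.comp, PMF.pure_bind]
  rfl

/-- `k` uniform random bits as a number: uniform on `0, …, 2 ^ (S ^ e) - 1` (and saturation does not occur for `e ≤ 5`). -/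
theorem bits (e : ℕ) : Rep (α := α) (β := ℤ) fun S _ =>
    (fun μ : PMF ℤ => μ.bind fun s => coinZ.map fun b => cadd S (cadd S s s) b)^[S ^ e] (PMF.pure 0) := by
  have hb : Rep (α := α × ℤ) (β := ℤ) fun S y => coinZ.map fun b => cadd S (cadd S y.2 y.2) b := by
    have h2 : DRep (α := (α × ℤ) × ℤ) (β := ℤ) fun S z => cadd S (cadd S z.1.2 z.1.2) z.2 :=
      ((DRep.fst.comp DRep.snd).add (DRep.fst.comp DRep.snd)).add DRep.snd
    exact bind (f := fun _ _ => coinZ) coin (Rep.ofD h2)
  have h1 := iterPow (α := α) (β := ℤ) e hb
  have h0 : DRep (α := α) (β := α × ℤ) fun _ x => (x, 0) := DRep.id'.pair DRep.zero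
  have := comp (Rep.ofD h0) h1
  refine this.congr fun S x => ?_
  rw [PMF.pure_bind]

end Rep

end Vale.Agent.Lib.P328.Bit
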