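import Vale.Agent.Lib.P328.Bit.FExp
import Vale.Agent.Lib.P328.Fpras.Binom

/-!
# P328, bit model: the logarithm of the factorial and of the binomial weights (module LOGF)

`lfF S n`, for `0 ≤ n`, fixed point: with `N0 = S ^ 42`: the exact sum of `flog k`, `k ≤ min n N0`, in a loop of `S ^ 42` rounds (`DRep.iterPow`), and if `n > N0` then `main n - main N0` is added, `main n = n log n - n + (log n) / 2`.
The whole real-number analysis is in `Vale/Agent/Lib/P328/RAM/Fact.lean` (`FactAux.sum_log_eq`, `stirling_tele`, `log_fact_eq`, `logFactHat_close`): copy it with `N0 = S ^ 42`. Add the errors of `flog` (`flog_spec`: each `(1/2)^(S^5/4)`, for `k ≤ 2 ^ (S + 1)`; the number of them at most `S ^ 42`, multiplied by at most `n ≤ 2 ^ S`).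
Magnitudes: `log n! ≤ n log n ≤ 2 ^ S * 2 S ≤ Big S`.

`lbwF S R v lp lq`: the logarithm of the binomial weight: `log C(R, v) + v lp + (R - v) lq`, with integer multiplications (no rounding).
-/

namespace Vale.Agent.Lib.P328.Bit

open Vale.Agent.Lib.P328.Cap Finset

variable {α : Type} [Enc α]

/-- One step of the exact sum of logarithms: `y = (n, (k, acc))`. -/
def lfStep (S : ℕ) (y : ℤ × (ℤ × ℤ)) : ℤ × ℤ :=
  (cadd S y.2.1 1,
    if 0 < csub S (cadd S y.1 1) y.2.1 then cadd S y.2.2 (flog S (fint S y.2.1)) else y.2.2)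

/-- The exact sum of logarithms. -/
def lfSum (S : ℕ) (n : ℤ) : ℤ := ((fun st => lfStep S (n, st))^[S ^ 42] (1, 0)).2

/-- The main term of Stirling's formula, on words. -/
def stirF (S : ℕ) (n : ℤ) : ℤ :=
  cadd S (csub S (cmul S n (flog S (fint S n))) (fint S n)) (cdiv S (flog S (fint S n)) (cadd S 1 1))

/-- The logarithm of the factorial, in fixed point. -/
noncomputable def lfF (S : ℕ) (n : ℤ) : ℤ :=
  if 0 < csub S n (clamp S ((S : ℤ) ^ 42)) then
    cadd S (lfSum S n) (csub S (stirF S n) (stirF S (clamp S ((S : ℤ) ^ 42))))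
  else lfSum S n

theorem lfStep_rep : DRep (α := ℤ × (ℤ × ℤ)) (β := ℤ × ℤ) fun S y => lfStep S y := by
  have hk : DRep (α := ℤ × (ℤ × ℤ)) (β := ℤ) fun _ y => y.2.1 := DRep.snd.comp DRep.fst
  have hacc : DRep (α := ℤ × (ℤ × ℤ)) (β := ℤ) fun _ y => y.2.2 := DRep.snd.comp DRep.snd
  have hc : DRep (α := ℤ × (ℤ × ℤ)) (β := ℤ) fun S y => csub S (cadd S y.1 1) y.2.1 :=
    (DRep.fst.add DRep.one).sub hk
  have hlog : DRep (α := ℤ × (ℤ × ℤ)) (β := ℤ) fun S y => flog S (fint S y.2.1) :=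
    flog_rep (fint_rep hk)
  exact (hk.add DRep.one).pair (hc.ite (hacc.add hlog) hacc)

theorem lfSum_rep0 : DRep (α := ℤ) (β := ℤ) fun S n => lfSum S n := by
  have h := DRep.iterPow (α := ℤ) (β := ℤ × ℤ) 42 lfStep_rep
  have h2 : DRep (α := ℤ) (β := ℤ × (ℤ × ℤ)) fun _ x => (x, ((1 : ℤ), (0 : ℤ))) :=
    DRep.id'.pair (DRep.one.pair DRep.zero)
  exact (h2.comp h).comp DRep.snd

theorem stirF_rep {f : ℕ → α → ℤ} (hf : DRep f) : DRep fun S x => stirF S (f S x) := by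
  have hlog : DRep fun S x => flog S (fint S (f S x)) := flog_rep (fint_rep hf)
  exact ((hf.mul hlog).sub (fint_rep hf)).add (hlog.div (DRep.one.add DRep.one))

theorem lfF_rep0 : DRep (α := ℤ) (β := ℤ) fun S n => lfF S n := by
  have hN : DRep (α := ℤ) (β := ℤ) fun S _ => clamp S ((S : ℤ) ^ 42) := spow_rep 42
  exact (DRep.id'.sub hN).ite (lfSum_rep0.add ((stirF_rep DRep.id').sub (stirF_rep hN))) lfSum_rep0

theorem lfF_rep {f : ℕ → α → ℤ} (hf : DRep f) : DRep fun S x => lfF S (f S x) :=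
  hf.comp lfF_rep0

namespace LogFactAux

/-- The main term of Stirling's formula. -/
noncomputable def stirM (n : ℝ) : ℝ := n * Real.log n - n + Real.log n / 2

/-- The exact sum of logarithms. -/
lemma sum_log_eq (N n : ℕ) (hn : n ≤ N) :
    ∑ l ∈ range N, (if (l : ℝ) + 1 ≤ (n : ℝ) then Real.log ((l : ℝ) + 1) else 0)
      = Real.log (n.factorial : ℝ) := by
  induction n with
  | zero =>
    simp only [Nat.factorial_zero, Nat.cast_one, Real.log_one]
    apply Finset.sum_eq_zero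
    intro l _
    rw [if_neg]
    have : (0 : ℝ) ≤ (l : ℝ) := Nat.cast_nonneg l
    push_cast
    linarith
  | succ n ih =>
    have ih' := ih (by omega)
    rw [Nat.factorial_succ]
    push_cast
    rw [Real.log_mul (by positivity) (by positivity), ← ih']
    have hmem : n ∈ range N := Finset.mem_range.2 (by omega)
    rw [← Finset.add_sum_erase _ _ hmem, ← Finset.add_sum_erase (range N)
      (fun l : ℕ => if (l : ℝ) + 1 ≤ (n : ℝ) then Real.log ((l : ℝ) + 1) else 0) hmem]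
    have h1 : ((n : ℝ) + 1 ≤ (n : ℝ) + 1) := le_rfl
    have h2 : ¬ ((n : ℝ) + 1 ≤ (n : ℝ)) := by linarith
    rw [if_pos h1, if_neg h2, zero_add]
    congr 1
    apply Finset.sum_congr rfl
    intro l hl
    have hne : l ≠ n := (Finset.mem_erase.1 hl).1
    by_cases hlt : l < n
    · have h3 : (l : ℝ) + 1 ≤ (n : ℝ) := by exact_mod_cast hlt
      have h4 : (l : ℝ) + 1 ≤ (n : ℝ) + 1 := by linarith
      rw [if_pos h3, if_pos h4]
    · have h5 : n + 1 < l + 1 := by omega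
      have h6 : ¬ ((l : ℝ) + 1 ≤ (n : ℝ) + 1) := by
        rw [not_le]
        exact_mod_cast h5
      have h7 : ¬ ((l : ℝ) + 1 ≤ (n : ℝ)) := by
        intro h
        apply h6
        linarith
      rw [if_neg h6, if_neg h7]

/-- The Stirling telescoping. -/
lemma stirling_tele {N : ℕ} (hN : 1 ≤ N) {n : ℕ} (hn : N ≤ n) :
    0 ≤ Real.log (Stirling.stirlingSeq N) - Real.log (Stirling.stirlingSeq n) ∧
    Real.log (Stirling.stirlingSeq N) - Real.log (Stirling.stirlingSeq n)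
      ≤ 1 / (12 * (N : ℝ)) - 1 / (12 * (n : ℝ)) := by
  induction n, hn using Nat.le_induction with
  | base =>
    simp
  | succ n hn ih =>
    have hn1 : 1 ≤ n := le_trans hN hn
    have h1 : Real.log (Stirling.stirlingSeq (n + 1)) ≤ Real.log (Stirling.stirlingSeq n) := by
      obtain ⟨k, rfl⟩ : ∃ k, n = k + 1 := ⟨n - 1, by omega⟩
      exact Stirling.log_stirlingSeq'_antitone (Nat.le_succ k)
    have h2 := Stirling.log_stirlingSeq_sdiff_le n
    have hn0 : (0 : ℝ) < (n : ℝ) := by exact_mod_cast hn1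
    have e : 1 / (12 * (n : ℝ) * ((n : ℝ) + 1)) = 1 / (12 * (n : ℝ)) - 1 / (12 * ((n : ℝ) + 1)) := by
      field_simp
      ring
    rw [e] at h2
    constructor
    · linarith [ih.1]
    · push_cast
      linarith [ih.2]

/-- The value of `log n!` in terms of the Stirling sequence. -/
lemma log_fact_eq {n : ℕ} (hn : 1 ≤ n) :
    Real.log (n.factorial : ℝ)
      = Real.log (Stirling.stirlingSeq n) + stirM n + Real.log 2 / 2 := by
  have h := Stirling.log_stirlingSeq_formula n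
  have hn0 : (0 : ℝ) < (n : ℝ) := by exact_mod_cast hn
  have e1 : Real.log (2 * (n : ℝ)) = Real.log 2 + Real.log n :=
    Real.log_mul (by norm_num) hn0.ne'
  have e2 : Real.log ((n : ℝ) / Real.exp 1) = Real.log n - 1 := by
    rw [Real.log_div hn0.ne' (Real.exp_pos 1).ne', Real.log_exp]
  rw [e1, e2] at h
  unfold stirM
  rw [h]
  ring

/-- The Stirling error between two levels. -/
lemma stirling_between {N n : ℕ} (hN : 1 ≤ N) (hn : N ≤ n) :
    |Real.log (N.factorial : ℝ) + stirM n - stirM N - Real.log (n.factorial : ℝ)|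
      ≤ 1 / (2 * (N : ℝ)) := by
  have hN0 : (0 : ℝ) < (N : ℝ) := by exact_mod_cast hN
  have hn0 : (0 : ℝ) < (n : ℝ) := by
    have : 0 < n := by omega
    exact_mod_cast this
  rw [log_fact_eq hN, log_fact_eq (le_trans hN hn)]
  obtain ⟨h1, h2⟩ := stirling_tele hN hn
  have e2 : Real.log (Stirling.stirlingSeq N) + stirM N + Real.log 2 / 2 + stirM n - stirM N
      - (Real.log (Stirling.stirlingSeq n) + stirM n + Real.log 2 / 2)
      = Real.log (Stirling.stirlingSeq N) - Real.log (Stirling.stirlingSeq n) := by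
    ring
  rw [e2, abs_of_nonneg h1]
  have h3 : 0 < 1 / (12 * (n : ℝ)) := by positivity
  have h4 : 1 / (12 * (N : ℝ)) ≤ 1 / (2 * (N : ℝ)) := by
    apply one_div_le_one_div_of_le (by positivity)
    linarith
  linarith

/-- Tiny numbers. -/
lemma half_pow_mul {a b c : ℕ} (h : b + c ≤ a) : (1 / 2 : ℝ) ^ a * 2 ^ b ≤ (1 / 2) ^ c := by
  have h1 : (1 / 2 : ℝ) ^ a ≤ (1 / 2) ^ (b + c) :=
    pow_le_pow_of_le_one (by norm_num) (by norm_num) h
  have h2 : (1 / 2 : ℝ) ^ (b + c) * 2 ^ b = (1 / 2) ^ c := by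
    rw [pow_add, mul_comm ((1 / 2 : ℝ) ^ b), mul_assoc, ← mul_pow]
    norm_num
  calc (1 / 2 : ℝ) ^ a * 2 ^ b ≤ (1 / 2) ^ (b + c) * 2 ^ b := by gcongr
    _ = _ := h2

variable {S : ℕ} (hS : 1000000 ≤ S)

include hS

lemma S_pos : 0 < S := by omega

lemma pow5_ge : 1000 * S ≤ S ^ 5 := by
  have h1 : 1000 ≤ S ^ 4 := by
    have : S ≤ S ^ 4 := Nat.le_self_pow (by norm_num) S
    omega
  calc 1000 * S ≤ S ^ 4 * S := Nat.mul_le_mul_right _ h1
    _ = S ^ 5 := by ring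

lemma pow4_ge : 1000 * S ≤ S ^ 4 := by
  have h1 : 1000 ≤ S ^ 3 := by
    have : S ≤ S ^ 3 := Nat.le_self_pow (by norm_num) S
    omega
  calc 1000 * S ≤ S ^ 3 * S := Nat.mul_le_mul_right _ h1
    _ = S ^ 4 := by ring

lemma pow3_ge : 1000 * S ≤ S ^ 3 := by
  have h1 : 1000 ≤ S ^ 2 := by
    have : S ≤ S ^ 2 := Nat.le_self_pow (by norm_num) S
    omega
  calc 1000 * S ≤ S ^ 2 * S := Nat.mul_le_mul_right _ h1
    _ = S ^ 3 := by ring

lemma S_pow_le (k : ℕ) : S ^ k ≤ 2 ^ (S * k) := by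
  have h2 : S < 2 ^ S := Nat.lt_two_pow_self
  calc S ^ k ≤ (2 ^ S) ^ k := Nat.pow_le_pow_left h2.le k
    _ = 2 ^ (S * k) := by rw [pow_mul]

lemma zeta_exp : 86 * S + 3 ≤ S ^ 5 / 4 := by
  rw [Nat.le_div_iff_mul_le (by norm_num)]
  have := pow5_ge hS
  omega

/-- Saturation does nothing to words below `2 ^ (S ^ 5)`. -/
lemma clamp_small {z : ℤ} (hz : |z| ≤ 2 ^ (S ^ 5)) : clamp S z = z := by
  apply clamp_of_abs_le
  refine hz.trans (pow_le_pow_right₀ (by norm_num) ?_)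
  exact prec_le_wid S

lemma cadd_small {a b : ℤ} (ha : |a| ≤ 2 ^ (S ^ 5)) (hb : |b| ≤ 2 ^ (S ^ 5)) : cadd S a b = a + b := by
  obtain ⟨h1, h2, h3⟩ := pow_facts hS
  unfold cadd
  rw [clamp_small hS ha, clamp_small hS hb]
  apply clamp_of_abs_le
  refine (abs_add_le a b).trans ?_
  have : (2 : ℤ) ^ (S ^ 5) * 2 ≤ 2 ^ wid S := by
    rw [← pow_succ]
    apply pow_le_pow_right₀ (by norm_num)
    unfold wid
    omega
  linarith

lemma csub_small {a b : ℤ} (ha : |a| ≤ 2 ^ (S ^ 5)) (hb : |b| ≤ 2 ^ (S ^ 5)) : csub S a b = a - b := by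
  obtain ⟨h1, h2, h3⟩ := pow_facts hS
  unfold csub
  rw [clamp_small hS ha, clamp_small hS hb]
  apply clamp_of_abs_le
  refine (abs_sub a b).trans ?_
  have : (2 : ℤ) ^ (S ^ 5) * 2 ≤ 2 ^ wid S := by
    rw [← pow_succ]
    apply pow_le_pow_right₀ (by norm_num)
    unfold wid
    omega
  linarith

/-- The number `n ≤ 2 ^ S + 2` is small. -/
lemma small_pow {k : ℕ} (hk : k + 2 ≤ S ^ 5) : (2 : ℤ) ^ k + 2 ≤ 2 ^ (S ^ 5) := by
  have h1 : (1 : ℤ) ≤ 2 ^ k := one_le_pow₀ (by norm_num)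
  have h2 : (2 : ℤ) ^ (k + 2) ≤ 2 ^ (S ^ 5) := pow_le_pow_right₀ (by norm_num) hk
  have h3 : (2 : ℤ) ^ (k + 2) = 4 * 2 ^ k := by ring
  linarith

/-- Naturals up to `2 ^ k` are small words. -/
lemma abs_nat_small {n k : ℕ} (hn : n ≤ 2 ^ k) (hk : k + 2 ≤ S ^ 5) : |(n : ℤ)| + 2 ≤ 2 ^ (S ^ 5) := by
  have h := small_pow hS hk
  rw [abs_of_nonneg (Int.natCast_nonneg n)]
  have : (n : ℤ) ≤ 2 ^ k := by exact_mod_cast hn
  linarith

/-- Big numbers. -/
lemma two_pow_le_big {k : ℕ} (hk : k ≤ S ^ 4) : (2 : ℝ) ^ k ≤ Big S := by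
  unfold Big
  exact pow_le_pow_right₀ (by norm_num) hk

/-- The logarithm at a natural number, as a word. -/
lemma flog_nat {k : ℕ} (h1 : 1 ≤ k) (h2 : k ≤ 2 ^ S) :
    |val S (flog S (fint S k)) - Real.log k| ≤ (1 / 2 : ℝ) ^ (S ^ 5 / 4) := by
  have hkR : (1 : ℝ) ≤ k := by exact_mod_cast h1
  have hkR2 : (k : ℝ) ≤ 2 ^ S := by exact_mod_cast h2
  have hS3 := pow3_ge hS
  have hS4 := pow4_ge hS
  have hval : val S (fint S k) = k := by
    have := val_fint (S := S) hS (n := (k : ℤ)) (by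
      rw [Int.cast_natCast, abs_of_nonneg (by positivity)]
      exact hkR2.trans (two_pow_le_big hS (by omega)))
    simpa using this
  have hh := flog_spec (x := fint S k) hS (by
      rw [hval]
      have : (1 / 2 : ℝ) ^ (S ^ 3) ≤ 1 := pow_le_one₀ (by norm_num) (by norm_num)
      linarith) (by
      rw [hval]
      exact hkR2.trans (pow_le_pow_right₀ (by norm_num) (by omega)))
  rw [hval] at hh
  exact hh

lemma log_nat_le {k : ℕ} (h1 : 1 ≤ k) (h2 : k ≤ 2 ^ S) : 0 ≤ Real.log k ∧ Real.log k ≤ S := by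
  have hkR : (1 : ℝ) ≤ k := by exact_mod_cast h1
  have hkR2 : (k : ℝ) ≤ 2 ^ S := by exact_mod_cast h2
  refine ⟨Real.log_nonneg hkR, ?_⟩
  have h3 : Real.log k ≤ Real.log ((2 : ℝ) ^ S) := Real.log_le_log (by linarith) hkR2
  rw [Real.log_pow] at h3
  have h4 : Real.log 2 ≤ 1 := by
    have := Real.log_two_lt_d9
    linarith
  have h5 : (S : ℝ) * Real.log 2 ≤ S * 1 := by gcongr
  linarith

lemma zeta_le_one : (1 / 2 : ℝ) ^ (S ^ 5 / 4) ≤ 1 := pow_le_one₀ (by norm_num) (by norm_num)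

lemma flog_nat_abs {k : ℕ} (h1 : 1 ≤ k) (h2 : k ≤ 2 ^ S) :
    |val S (flog S (fint S k))| ≤ (S : ℝ) + 1 := by
  have h3 := flog_nat hS h1 h2
  obtain ⟨h4, h5⟩ := log_nat_le hS h1 h2
  have h6 := zeta_le_one hS
  have h7 := abs_le.mp h3
  rw [abs_le]
  constructor <;> linarith [h7.1, h7.2]

lemma S_plus_one_le_big : (S : ℝ) + 1 ≤ Big S := by
  have h1 : S + 1 ≤ 2 ^ (S ^ 4) := by
    have h2 : S + 1 ≤ 2 ^ S := Nat.lt_two_pow_self
    have h3 := pow4_ge hS
    exact h2.trans (Nat.pow_le_pow_right (by norm_num) (by omega))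
  unfold Big
  exact_mod_cast h1

lemma sum_bound_big {j : ℕ} (hj : j ≤ S ^ 42) : (j : ℝ) * ((S : ℝ) + 1) + (S + 1) ≤ Big S := by
  have hS4 := pow4_ge hS
  have h1 : j * (S + 1) + (S + 1) ≤ 2 ^ (S ^ 4) := by
    have h2 := S_pow_le hS 42
    have h3 : S + 1 ≤ 2 ^ S := Nat.lt_two_pow_self
    have h4 : j + 1 ≤ 2 ^ (S * 42 + 1) := by
      have : (2 : ℕ) ^ (S * 42 + 1) = 2 * 2 ^ (S * 42) := by ring
      have h5 : 1 ≤ 2 ^ (S * 42) := Nat.one_le_two_pow
      omega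
    calc j * (S + 1) + (S + 1) = (j + 1) * (S + 1) := by ring
      _ ≤ 2 ^ (S * 42 + 1) * 2 ^ S := Nat.mul_le_mul h4 h3
      _ = 2 ^ (S * 42 + 1 + S) := (pow_add _ _ _).symm
      _ ≤ 2 ^ (S ^ 4) := Nat.pow_le_pow_right (by norm_num) (by omega)
  unfold Big
  exact_mod_cast h1

/-- The iteration of the exact sum. -/
theorem iter_spec {n : ℕ} (hn : n ≤ 2 ^ S) (j : ℕ) (hj : j ≤ S ^ 42) :
    ((fun st => lfStep S ((n : ℤ), st))^[j] (1, 0)).1 = (j : ℤ) + 1 ∧
    |val S ((fun st => lfStep S ((n : ℤ), st))^[j] (1, 0)).2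
        - ∑ l ∈ range j, (if (l : ℝ) + 1 ≤ (n : ℝ) then Real.log ((l : ℝ) + 1) else 0)|
      ≤ (j : ℝ) * (1 / 2 : ℝ) ^ (S ^ 5 / 4) ∧
    |val S ((fun st => lfStep S ((n : ℤ), st))^[j] (1, 0)).2| ≤ (j : ℝ) * ((S : ℝ) + 1) := by
  have hS5 := pow5_ge hS
  induction j with
  | zero =>
    simp [val]
  | succ j ih =>
    obtain ⟨h1, h2, h3⟩ := ih (by omega)
    rw [Function.iterate_succ_apply']
    set st := (fun st => lfStep S ((n : ℤ), st))^[j] (1, 0) with hst
    have hj' : j + 1 ≤ S ^ 42 := hj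
    have hjpow : j + 1 ≤ 2 ^ (S * 42) := hj'.trans (S_pow_le hS 42)
    have hkabs := abs_nat_small hS (n := j + 1) (k := S * 42) hjpow (by omega)
    have hnabs := abs_nat_small hS (n := n) (k := S) hn (by omega)
    have honeabs : |(1 : ℤ)| ≤ 2 ^ (S ^ 5) := by
      rw [abs_one]
      exact one_le_pow₀ (by norm_num)
    have hk1 : st.1 = ((j + 1 : ℕ) : ℤ) := by
      rw [h1]
      push_cast
      ring
    have hkabs' : |st.1| ≤ 2 ^ (S ^ 5) := by rw [hk1]; linarith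
    have e1 : cadd S st.1 1 = (((j + 1 : ℕ) : ℤ)) + 1 := by
      rw [cadd_small hS hkabs' honeabs, hk1]
    have hn1abs : |cadd S (n : ℤ) 1| ≤ 2 ^ (S ^ 5) := by
      rw [cadd_small hS (by linarith) honeabs]
      refine (abs_add_le _ _).trans ?_
      rw [abs_one]
      linarith
    have e2 : csub S (cadd S (n : ℤ) 1) st.1 = (n : ℤ) + 1 - ((j + 1 : ℕ) : ℤ) := by
      rw [csub_small hS hn1abs hkabs', cadd_small hS (by linarith) honeabs, hk1]
    have ecomp : (lfStep S ((n : ℤ), st)).1 = ((j + 1 : ℕ) : ℤ) + 1 := e1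
    refine ⟨?_, ?_⟩
    · rw [ecomp]
    have hstep : (lfStep S ((n : ℤ), st)).2
        = if 0 < (n : ℤ) + 1 - ((j + 1 : ℕ) : ℤ) then cadd S st.2 (flog S (fint S st.1)) else st.2 := by
      show (if 0 < csub S (cadd S (n : ℤ) 1) st.1 then cadd S st.2 (flog S (fint S st.1)) else st.2) = _
      rw [e2]
    rw [hstep, Finset.sum_range_succ]
    by_cases hc : j + 1 ≤ n
    · have hc1 : 0 < (n : ℤ) + 1 - ((j + 1 : ℕ) : ℤ) := by
        have : ((j + 1 : ℕ) : ℤ) ≤ n := by exact_mod_cast hc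
        linarith
      have hc2 : (j : ℝ) + 1 ≤ (n : ℝ) := by exact_mod_cast hc
      rw [if_pos hc1, if_pos hc2, hk1]
      have hF := flog_nat hS (k := j + 1) (by omega) (hc.trans hn)
      have hFabs := flog_nat_abs hS (k := j + 1) (by omega) (hc.trans hn)
      have hbig := sum_bound_big hS (j := j) (by omega)
      have h0 : (0 : ℝ) ≤ (j : ℝ) * ((S : ℝ) + 1) := by positivity
      have hv := val_add (S := S) (x := st.2) (y := flog S (fint S ((j + 1 : ℕ) : ℤ))) hS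
        (by linarith) (by linarith)
      rw [hv]
      have hlogcast : Real.log (((j + 1 : ℕ) : ℝ)) = Real.log ((j : ℝ) + 1) := by push_cast; rfl
      rw [hlogcast] at hF
      constructor
      · have e : val S st.2 + val S (flog S (fint S ((j + 1 : ℕ) : ℤ)))
            - (∑ l ∈ range j, (if (l : ℝ) + 1 ≤ (n : ℝ) then Real.log ((l : ℝ) + 1) else 0)
              + Real.log ((j : ℝ) + 1))
            = (val S st.2 - ∑ l ∈ range j, (if (l : ℝ) + 1 ≤ (n : ℝ) then Real.log ((l : ℝ) + 1) else 0))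
              + (val S (flog S (fint S ((j + 1 : ℕ) : ℤ))) - Real.log ((j : ℝ) + 1)) := by ring
        rw [e]
        refine (abs_add_le _ _).trans ?_
        push_cast at hF ⊢
        linarith
      · refine (abs_add_le _ _).trans ?_
        push_cast at hFabs ⊢
        linarith
    · have hc1 : ¬ 0 < (n : ℤ) + 1 - ((j + 1 : ℕ) : ℤ) := by
        have : (n : ℤ) < ((j + 1 : ℕ) : ℤ) := by exact_mod_cast (by omega : n < j + 1)
        linarith
      have hc2 : ¬ ((j : ℝ) + 1 ≤ (n : ℝ)) := by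
        have : ((n : ℕ) : ℝ) < ((j + 1 : ℕ) : ℝ) := by exact_mod_cast (by omega : n < j + 1)
        push_cast at this
        linarith
      rw [if_neg hc1, if_neg hc2, add_zero]
      have hz : (0 : ℝ) ≤ (1 / 2 : ℝ) ^ (S ^ 5 / 4) := by positivity
      constructor
      · push_cast
        nlinarith
      · push_cast
        have : (0 : ℝ) ≤ (S : ℝ) + 1 := by positivity
        nlinarith

/-- The value of the exact sum, up to the level `S ^ 42`. -/
theorem lfSum_spec {n : ℕ} (hn : n ≤ 2 ^ S) :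
    |val S (lfSum S n) - Real.log ((min n (S ^ 42)).factorial : ℝ)|
      ≤ ((S ^ 42 : ℕ) : ℝ) * (1 / 2 : ℝ) ^ (S ^ 5 / 4) ∧
    |val S (lfSum S n)| ≤ ((S ^ 42 : ℕ) : ℝ) * ((S : ℝ) + 1) := by
  obtain ⟨_, h2, h3⟩ := iter_spec hS hn (S ^ 42) le_rfl
  refine ⟨?_, h3⟩
  have e : ∑ l ∈ range (S ^ 42), (if (l : ℝ) + 1 ≤ (n : ℝ) then Real.log ((l : ℝ) + 1) else 0)
      = Real.log ((min n (S ^ 42)).factorial : ℝ) := by
    rw [← sum_log_eq (S ^ 42) (min n (S ^ 42)) (min_le_right _ _)]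
    apply Finset.sum_congr rfl
    intro l hl
    have hl' : l + 1 ≤ S ^ 42 := Finset.mem_range.1 hl
    by_cases hc : l + 1 ≤ n
    · have h4 : (l : ℝ) + 1 ≤ (n : ℝ) := by exact_mod_cast hc
      have h5 : (l : ℝ) + 1 ≤ ((min n (S ^ 42) : ℕ) : ℝ) := by exact_mod_cast le_min hc hl'
      rw [if_pos h4, if_pos h5]
    · have h4 : ¬ ((l : ℝ) + 1 ≤ (n : ℝ)) := by
        intro h
        apply hc
        exact_mod_cast h
      have h5 : ¬ ((l : ℝ) + 1 ≤ ((min n (S ^ 42) : ℕ) : ℝ)) := by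
        intro h
        apply hc
        have : l + 1 ≤ min n (S ^ 42) := by exact_mod_cast h
        exact this.trans (min_le_left _ _)
      rw [if_neg h4, if_neg h5]
  rw [← e]
  exact h2

/-- The word for two. -/
lemma cadd_one_one : cadd S 1 1 = 2 := by
  have honeabs : |(1 : ℤ)| ≤ 2 ^ (S ^ 5) := by
    rw [abs_one]
    exact one_le_pow₀ (by norm_num)
  rw [cadd_small hS honeabs honeabs]
  norm_num

/-- Halving a word. -/
lemma val_half (F : ℤ) : |val S (F / 2) - val S F / 2| ≤ ulp S := by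
  have hp : (0 : ℝ) < 2 ^ prec S := by positivity
  have h1 := Int.emod_add_mul_ediv F 2
  have h2 := Int.emod_nonneg F (by norm_num : (2 : ℤ) ≠ 0)
  have h3 := Int.emod_lt_of_pos F (by norm_num : (0 : ℤ) < 2)
  set q := F / 2
  set r := F % 2
  have h1' : (F : ℝ) = r + 2 * q := by exact_mod_cast h1.symm
  have h2' : (0 : ℝ) ≤ r := by exact_mod_cast h2
  have h3' : (r : ℝ) ≤ 1 := by
    have : r ≤ 1 := by omega
    exact_mod_cast this
  unfold val ulp
  have e : (q : ℝ) / 2 ^ prec S - (F : ℝ) / 2 ^ prec S / 2 = -((r : ℝ) / 2 / 2 ^ prec S) := by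
    rw [h1']
    field_simp
    ring
  rw [e, abs_neg, abs_of_nonneg (by positivity)]
  apply div_le_div_of_nonneg_right _ hp.le
  linarith

/-- The main term on words. -/
theorem stirF_spec {m : ℕ} (h1 : 1 ≤ m) (h2 : m ≤ 2 ^ S) :
    |val S (stirF S m) - stirM m| ≤ ((m : ℝ) + 1) * (1 / 2 : ℝ) ^ (S ^ 5 / 4) + ulp S ∧
    |val S (stirF S m)| ≤ 2 ^ (2 * S + 3) := by
  obtain ⟨hp1, hp2, hp3⟩ := pow_facts hS
  have hS3 := pow3_ge hS
  have hS4 := pow4_ge hS
  have hS5 := pow5_ge hS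
  set F := flog S (fint S (m : ℤ)) with hF
  have hFnat : |val S F - Real.log m| ≤ (1 / 2 : ℝ) ^ (S ^ 5 / 4) := flog_nat hS h1 h2
  have hFabs : |val S F| ≤ (S : ℝ) + 1 := flog_nat_abs hS h1 h2
  obtain ⟨hL0, hL1⟩ := log_nat_le hS h1 h2
  have hFbig : |val S F| ≤ Big S := hFabs.trans (S_plus_one_le_big hS)
  have hmR : (m : ℝ) ≤ 2 ^ S := by exact_mod_cast h2
  have hm0 : (0 : ℝ) ≤ (m : ℝ) := by positivity
  have hSbound : (S : ℝ) + 1 ≤ 2 ^ S := by
    have : S + 1 ≤ 2 ^ S := Nat.lt_two_pow_self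
    exact_mod_cast this
  have hmbig : |((m : ℤ) : ℝ)| ≤ Big S := by
    rw [Int.cast_natCast, abs_of_nonneg hm0]
    exact hmR.trans (two_pow_le_big hS (by omega))
  -- the product
  have hFint : |F| ≤ 2 ^ (S ^ 4 + S ^ 5) := abs_le_of_val hFbig
  have hmint : |(m : ℤ)| ≤ 2 ^ S := by
    rw [abs_of_nonneg (Int.natCast_nonneg m)]
    exact_mod_cast h2
  have hmul : |(m : ℤ) * F| ≤ 2 ^ wid S := by
    rw [abs_mul]
    calc |(m : ℤ)| * |F| ≤ 2 ^ S * 2 ^ (S ^ 4 + S ^ 5) := by gcongr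
      _ = 2 ^ (S + (S ^ 4 + S ^ 5)) := by rw [← pow_add]
      _ ≤ 2 ^ wid S := by
          apply pow_le_pow_right₀ (by norm_num)
          unfold wid
          omega
  have hmabs2 : |(m : ℤ)| ≤ 2 ^ wid S := by
    refine hmint.trans (pow_le_pow_right₀ (by norm_num) ?_)
    unfold wid
    omega
  have hcmul : cmul S (m : ℤ) F = (m : ℤ) * F := by
    unfold cmul
    rw [clamp_of_abs_le hmabs2, clamp_of_val hS hFbig, clamp_of_abs_le hmul]
  have hvmul : val S ((m : ℤ) * F) = (m : ℝ) * val S F := by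
    unfold val
    push_cast
    ring
  have hmL : |(m : ℝ) * val S F| ≤ 2 ^ (2 * S) := by
    rw [abs_mul, abs_of_nonneg hm0]
    calc (m : ℝ) * |val S F| ≤ 2 ^ S * 2 ^ S := by
          gcongr
          linarith
      _ = 2 ^ (2 * S) := by rw [← pow_add]; congr 1; ring
  have hbig2S : (2 : ℝ) ^ (2 * S + 3) ≤ Big S := two_pow_le_big hS (by omega)
  have hfive : (0 : ℝ) < 2 ^ (2 * S) := by positivity
  have h2S : (2 : ℝ) ^ (2 * S + 3) = 8 * 2 ^ (2 * S) := by ring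
  have hSS : (2 : ℝ) ^ S ≤ 2 ^ (2 * S) := pow_le_pow_right₀ (by norm_num) (by omega)
  have hvfint : val S (fint S (m : ℤ)) = m := by
    have := val_fint (S := S) hS hmbig
    simpa using this
  have hfintabs : |val S (fint S (m : ℤ))| ≤ Big S := by
    rw [hvfint, abs_of_nonneg hm0]
    exact hmR.trans (two_pow_le_big hS (by omega))
  have hmulbig : |val S ((m : ℤ) * F)| ≤ Big S := by
    rw [hvmul]
    linarith
  have hvsub := val_sub (S := S) hS hmulbig hfintabs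
  rw [hvmul, hvfint] at hvsub
  -- the halving
  have hdiv : cdiv S F (cadd S 1 1) = F / 2 := by
    rw [cadd_one_one hS]
    have hFw : |F| ≤ 2 ^ wid S := by
      refine hFint.trans (pow_le_pow_right₀ (by norm_num) ?_)
      unfold wid
      omega
    have htwo : |(2 : ℤ)| ≤ 2 ^ wid S := by
      rw [abs_of_nonneg (by norm_num)]
      have : (2 : ℤ) ^ 1 ≤ 2 ^ wid S := pow_le_pow_right₀ (by norm_num) (by
        unfold wid
        omega)
      simpa using this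
    have hq : |F / 2| ≤ 2 ^ wid S := by
      refine le_trans ?_ hFw
      have h3 := Int.emod_add_mul_ediv F 2
      have h4 := Int.emod_nonneg F (by norm_num : (2 : ℤ) ≠ 0)
      have h5 := Int.emod_lt_of_pos F (by norm_num : (0 : ℤ) < 2)
      rcases abs_cases F with ⟨h6, h7⟩ | ⟨h6, h7⟩ <;> rcases abs_cases (F / 2) with ⟨h8, h9⟩ | ⟨h8, h9⟩ <;> omega
    unfold cdiv
    rw [clamp_of_abs_le hFw, clamp_of_abs_le htwo, clamp_of_abs_le hq]
  have hhalf := val_half (S := S) hS F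
  have hu : ulp S ≤ 1 := by
    unfold ulp
    rw [div_le_one (by positivity)]
    exact one_le_pow₀ (by norm_num)
  have hu0 : 0 ≤ ulp S := by unfold ulp; positivity
  have hhalfabs : |val S (F / 2)| ≤ 2 ^ (2 * S) := by
    have h3 := abs_le.mp hhalf
    have h4 := abs_le.mp hFabs
    have h5 : (2 : ℝ) ≤ 2 ^ S := by
      have : (2 : ℝ) ^ 1 ≤ 2 ^ S := pow_le_pow_right₀ (by norm_num) (by omega)
      simpa using this
    rw [abs_le]
    constructor <;> linarith [h3.1, h3.2, h4.1, h4.2]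
  have hsubbound : |(m : ℝ) * val S F - m| ≤ 2 * 2 ^ (2 * S) := by
    refine (abs_sub _ _).trans ?_
    rw [abs_of_nonneg hm0]
    linarith
  have hvadd := val_add (S := S) (x := csub S (cmul S (m : ℤ) F) (fint S (m : ℤ))) (y := F / 2) hS
    (by
      rw [hcmul, hvsub]
      linarith)
    (by linarith)
  have hmain : val S (stirF S m) = (m : ℝ) * val S F - m + val S (F / 2) := by
    unfold stirF
    rw [← hF, hdiv, hvadd, hcmul, hvsub]
  constructor
  · rw [hmain]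
    unfold stirM
    have e : (m : ℝ) * val S F - m + val S (F / 2) - ((m : ℝ) * Real.log m - m + Real.log m / 2)
        = (m : ℝ) * (val S F - Real.log m) + (val S (F / 2) - val S F / 2) + (val S F - Real.log m) / 2 := by
      ring
    rw [e]
    refine (abs_add_three _ _ _).trans ?_
    rw [abs_mul, abs_of_nonneg hm0, abs_div]
    have hz : (0 : ℝ) ≤ (1 / 2 : ℝ) ^ (S ^ 5 / 4) := by positivity
    have h3 : (m : ℝ) * |val S F - Real.log m| ≤ (m : ℝ) * (1 / 2 : ℝ) ^ (S ^ 5 / 4) := by gcongr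
    have h4 : |val S F - Real.log m| / |(2 : ℝ)| ≤ (1 / 2 : ℝ) ^ (S ^ 5 / 4) := by
      rw [abs_of_pos (by norm_num : (0 : ℝ) < 2)]
      linarith
    nlinarith
  · rw [hmain]
    refine (abs_add_le _ _).trans ?_
    linarith

end LogFactAux

open LogFactAux in
theorem lfF_spec {S : ℕ} (hS : 1000000 ≤ S) {n : ℕ} (hn : n ≤ 2 ^ S) :
    |val S (lfF S n) - Real.log (n.factorial : ℝ)| ≤ 1 / (S : ℝ) ^ 42 := by
  have hS5 := pow5_ge hS
  have hS4 := pow4_ge hS
  have hSpos : (0 : ℝ) < (S : ℝ) := by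
    have : 0 < S := by omega
    exact_mod_cast this
  set ζ : ℝ := (1 / 2 : ℝ) ^ (S ^ 5 / 4) with hζ
  have hζ0 : 0 ≤ ζ := by positivity
  have hnatS : S ^ 42 ≤ 2 ^ (S * 42) := S_pow_le hS 42
  have hS42R : ((S ^ 42 : ℕ) : ℝ) ≤ 2 ^ (S * 42) := by exact_mod_cast hnatS
  -- tiny error
  have hinv : (1 / 2 : ℝ) ^ (S * 42) ≤ 1 / (S : ℝ) ^ 42 := by
    rw [one_div_pow]
    apply one_div_le_one_div_of_le (by positivity)
    have : (S : ℝ) ^ 42 = ((S ^ 42 : ℕ) : ℝ) := by push_cast; rfl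
    rw [this]
    exact_mod_cast hnatS
  have htiny : ζ * 2 ^ (S * 44 + 2) ≤ (1 / 2) ^ (S * 42 + 1) := by
    apply half_pow_mul
    have := zeta_exp hS
    omega
  have htiny2 : (1 / 2 : ℝ) ^ (S * 42 + 1) = (1 / 2) * (1 / 2) ^ (S * 42) := by ring
  have hulp : ulp S ≤ ζ := by
    unfold ulp prec
    rw [hζ, one_div_pow]
    apply one_div_le_one_div_of_le (by positivity)
    exact pow_le_pow_right₀ (by norm_num) (Nat.div_le_self _ _)
  have hN1 : 1 ≤ S ^ 42 := Nat.one_le_pow _ _ (by omega)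
  have hN0abs := abs_nat_small hS (n := S ^ 42) (k := S * 42) hnatS (by omega)
  have hnabs := abs_nat_small hS (n := n) (k := S) hn (by omega)
  have hclamp : clamp S ((S : ℤ) ^ 42) = ((S ^ 42 : ℕ) : ℤ) := by
    rw [spow_eq hS (by norm_num)]
    push_cast
    rfl
  have hcond : csub S (n : ℤ) (clamp S ((S : ℤ) ^ 42)) = (n : ℤ) - ((S ^ 42 : ℕ) : ℤ) := by
    rw [hclamp, csub_small hS (by linarith) (by linarith)]
  obtain ⟨hA1, hA2⟩ := lfSum_spec hS hn
  have hexp1 : (2 : ℝ) ^ (S * 42) * 2 ≤ 2 ^ (S * 44 + 2) := by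
    rw [← pow_succ]
    exact pow_le_pow_right₀ (by norm_num) (by omega)
  have hpow0 : (1 : ℝ) ≤ 2 ^ (S * 42) := one_le_pow₀ (by norm_num)
  unfold lfF
  rw [hcond]
  by_cases hc : n ≤ S ^ 42
  · have hc1 : ¬ 0 < (n : ℤ) - ((S ^ 42 : ℕ) : ℤ) := by
      have : (n : ℤ) ≤ ((S ^ 42 : ℕ) : ℤ) := by exact_mod_cast hc
      linarith
    rw [if_neg hc1]
    rw [min_eq_left hc] at hA1
    refine hA1.trans ?_
    have h1 : ((S ^ 42 : ℕ) : ℝ) * ζ ≤ 2 ^ (S * 44 + 2) * ζ := by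
      apply mul_le_mul_of_nonneg_right _ hζ0
      linarith
    rw [mul_comm ζ] at htiny
    have h0 : (0 : ℝ) ≤ (1 / 2 : ℝ) ^ (S * 42) := by positivity
    linarith
  · have hgt : S ^ 42 < n := by omega
    have hc1 : 0 < (n : ℤ) - ((S ^ 42 : ℕ) : ℤ) := by
      have : ((S ^ 42 : ℕ) : ℤ) < n := by exact_mod_cast hgt
      linarith
    rw [if_pos hc1, hclamp]
    rw [min_eq_right hgt.le] at hA1
    have hn1 : 1 ≤ n := by omega
    obtain ⟨hM1, hM2⟩ := stirF_spec hS hn1 hn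
    obtain ⟨hM3, hM4⟩ := stirF_spec hS hN1 (hgt.le.trans hn)
    have hst := stirling_between hN1 hgt.le
    have hbig : (2 : ℝ) ^ (2 * S + 5) ≤ Big S := two_pow_le_big hS (by omega)
    have h2S : (2 : ℝ) ^ (2 * S + 5) = 4 * 2 ^ (2 * S + 3) := by ring
    have hpos : (0 : ℝ) < 2 ^ (2 * S + 3) := by positivity
    have hvsub := val_sub (S := S) (x := stirF S (n : ℤ)) (y := stirF S ((S ^ 42 : ℕ) : ℤ)) hS
      (by linarith) (by linarith)
    have hAbig : |val S (lfSum S (n : ℤ))| ≤ Big S := by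
      have := sum_bound_big hS (j := S ^ 42) le_rfl
      have h0 : (0 : ℝ) ≤ (S : ℝ) + 1 := by positivity
      linarith
    have hsubbig : |val S (csub S (stirF S (n : ℤ)) (stirF S ((S ^ 42 : ℕ) : ℤ)))| ≤ Big S := by
      rw [hvsub]
      refine (abs_sub _ _).trans ?_
      linarith
    rw [val_add hS hAbig hsubbig, hvsub]
    have e : val S (lfSum S (n : ℤ)) + (val S (stirF S (n : ℤ)) - val S (stirF S ((S ^ 42 : ℕ) : ℤ)))
          - Real.log (n.factorial : ℝ)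
        = (val S (lfSum S (n : ℤ)) - Real.log ((S ^ 42).factorial : ℝ))
          + (val S (stirF S (n : ℤ)) - stirM n)
          - (val S (stirF S ((S ^ 42 : ℕ) : ℤ)) - stirM ((S ^ 42 : ℕ) : ℝ))
          + (Real.log ((S ^ 42).factorial : ℝ) + stirM n - stirM ((S ^ 42 : ℕ) : ℝ)
            - Real.log (n.factorial : ℝ)) := by
      ring
    rw [e]
    have h1 : |(val S (lfSum S (n : ℤ)) - Real.log ((S ^ 42).factorial : ℝ))
          + (val S (stirF S (n : ℤ)) - stirM n)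
          - (val S (stirF S ((S ^ 42 : ℕ) : ℤ)) - stirM ((S ^ 42 : ℕ) : ℝ))
          + (Real.log ((S ^ 42).factorial : ℝ) + stirM n - stirM ((S ^ 42 : ℕ) : ℝ)
            - Real.log (n.factorial : ℝ))|
        ≤ ((S ^ 42 : ℕ) : ℝ) * ζ + ((((n : ℝ) + 1) * ζ + ulp S) + ((((S ^ 42 : ℕ) : ℝ) + 1) * ζ + ulp S))
          + 1 / (2 * ((S ^ 42 : ℕ) : ℝ)) := by
      refine (abs_add_le _ _).trans (add_le_add ?_ hst)
      refine (abs_sub _ _).trans ?_
      refine (add_le_add (abs_add_le _ _) le_rfl).trans ?_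
      linarith
    refine h1.trans ?_
    have hnR : (n : ℝ) ≤ 2 ^ S := by exact_mod_cast hn
    have hSpow : (2 : ℝ) ^ S ≤ 2 ^ (S * 42) := pow_le_pow_right₀ (by norm_num) (by omega)
    have h2pow : (2 : ℝ) ^ (S * 44 + 2) = 4 * 2 ^ (S * 44) := by ring
    have h3pow : (2 : ℝ) ^ (S * 44) = 2 ^ (S * 42) * 2 ^ (S * 2) := by rw [← pow_add]; congr 1; ring
    have h4pow : (4 : ℝ) ≤ 2 ^ (S * 2) := by
      calc (4 : ℝ) = 2 ^ 2 := by norm_num
        _ ≤ 2 ^ (S * 2) := pow_le_pow_right₀ (by norm_num) (by omega)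
    -- total tiny part
    have htot : ((S ^ 42 : ℕ) : ℝ) * ζ + ((((n : ℝ) + 1) * ζ + ulp S) + ((((S ^ 42 : ℕ) : ℝ) + 1) * ζ + ulp S))
        ≤ ζ * 2 ^ (S * 44 + 2) := by
      have hp : (0 : ℝ) ≤ ζ := hζ0
      have h5 : ((S ^ 42 : ℕ) : ℝ) * 2 + (n : ℝ) + 4 ≤ 2 ^ (S * 44 + 2) := by
        have h6 : (2 : ℝ) ^ (S * 42) * 4 ≤ 2 ^ (S * 44) := by
          rw [h3pow]
          gcongr
        nlinarith
      calc _ ≤ ζ * (((S ^ 42 : ℕ) : ℝ) * 2 + (n : ℝ) + 4) := by nlinarith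
        _ ≤ _ := by gcongr
    have hfinal : 1 / (2 * ((S ^ 42 : ℕ) : ℝ)) = (1 / 2) * (1 / (S : ℝ) ^ 42) := by
      push_cast
      field_simp
    rw [hfinal]
    have h0 : (0 : ℝ) ≤ 1 / (S : ℝ) ^ 42 := by positivity
    linarith

/-- The logarithm of a binomial weight, given the logarithms of `p` and of `1 - p`. -/
noncomputable def lbwF (S : ℕ) (R v lp lq : ℤ) : ℤ :=
  cadd S (csub S (csub S (lfF S R) (lfF S v)) (lfF S (csub S R v)))
    (cadd S (cmul S v lp) (cmul S (csub S R v) lq))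

theorem lbwF_rep {fR fv fp fq : ℕ → α → ℤ} (hR : DRep fR) (hv : DRep fv) (hp : DRep fp) (hq : DRep fq) :
    DRep fun S x => lbwF S (fR S x) (fv S x) (fp S x) (fq S x) :=
  (((lfF_rep hR).sub (lfF_rep hv)).sub (lfF_rep (hR.sub hv))).add
    ((hv.mul hp).add ((hR.sub hv).mul hq))

open LogFactAux in
/-- The logarithm of the probability of a weight. -/
theorem log_bw_eq {R v : ℕ} (hv : v ≤ R) {p : ℝ} (h0 : 0 < p) (h1 : p < 1) :
    Real.log (bw R p v) = Real.log (R.factorial : ℝ) - Real.log (v.factorial : ℝ)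
      - Real.log ((R - v).factorial : ℝ) + (v : ℝ) * Real.log p
      + ((R - v : ℕ) : ℝ) * Real.log (1 - p) := by
  have hq : 0 < 1 - p := by linarith
  have hfR : (0 : ℝ) < (R.factorial : ℝ) := by exact_mod_cast R.factorial_pos
  have hfy : (0 : ℝ) < (v.factorial : ℝ) := by exact_mod_cast v.factorial_pos
  have hfz : (0 : ℝ) < ((R - v).factorial : ℝ) := by exact_mod_cast (R - v).factorial_pos
  have hbw : bw R p v = Real.exp (Real.log (R.factorial : ℝ) - Real.log (v.factorial : ℝ)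
      - Real.log ((R - v).factorial : ℝ) + (v : ℝ) * Real.log p
      + ((R - v : ℕ) : ℝ) * Real.log (1 - p)) := by
    unfold bw
    rw [Nat.cast_choose ℝ hv, Real.exp_add, Real.exp_add, Real.exp_sub, Real.exp_sub,
      Real.exp_log hfR, Real.exp_log hfy, Real.exp_log hfz, Real.exp_nat_mul, Real.exp_log h0,
      Real.exp_nat_mul, Real.exp_log hq]
    field_simp
  rw [hbw, Real.log_exp]

open LogFactAux in
/-- The magnitude of the word of the logarithm of a factorial. -/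
theorem lfF_abs {S : ℕ} (hS : 1000000 ≤ S) {n : ℕ} (hn : n ≤ 2 ^ S) :
    |val S (lfF S n)| ≤ 2 ^ (2 * S + 1) := by
  have h := lfF_spec hS hn
  have hSpos : (1 : ℝ) ≤ (S : ℝ) := by
    have : 1 ≤ S := by omega
    exact_mod_cast this
  have h1 : 1 / (S : ℝ) ^ 42 ≤ 1 := by
    rw [div_le_one (by positivity)]
    exact one_le_pow₀ hSpos
  have hf0 : 0 ≤ Real.log (n.factorial : ℝ) :=
    Real.log_nonneg (by exact_mod_cast n.factorial_pos)
  have hf1 : Real.log (n.factorial : ℝ) ≤ 2 ^ (2 * S) := by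
    rcases Nat.eq_zero_or_pos n with hn0 | hn0
    · subst hn0
      simp
    · have h2 : (n.factorial : ℝ) ≤ (n : ℝ) ^ n := by exact_mod_cast Nat.factorial_le_pow n
      have h3 : Real.log (n.factorial : ℝ) ≤ Real.log ((n : ℝ) ^ n) :=
        Real.log_le_log (by exact_mod_cast n.factorial_pos) h2
      rw [Real.log_pow] at h3
      obtain ⟨h4, h5⟩ := log_nat_le hS hn0 hn
      have h6 : (n : ℝ) ≤ 2 ^ S := by exact_mod_cast hn
      have h7 : (S : ℝ) ≤ 2 ^ S := by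
        have : S ≤ 2 ^ S := Nat.lt_two_pow_self.le
        exact_mod_cast this
      have h8 : (2 : ℝ) ^ (2 * S) = 2 ^ S * 2 ^ S := by rw [← pow_add]; congr 1; ring
      rw [h8]
      refine h3.trans ?_
      have h9 : (0 : ℝ) ≤ (n : ℝ) := by positivity
      calc (n : ℝ) * Real.log n ≤ 2 ^ S * S := by gcongr
        _ ≤ 2 ^ S * 2 ^ S := by gcongr
  have h2 : (2 : ℝ) ^ (2 * S + 1) = 2 * 2 ^ (2 * S) := by ring
  have h3 : (1 : ℝ) ≤ 2 ^ (2 * S) := one_le_pow₀ (by norm_num)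
  have h4 := abs_le.mp h
  rw [abs_le]
  constructor <;> linarith [h4.1, h4.2]

open LogFactAux in
/-- The logarithm of a probability at least `(1/2)^(S^3)`. -/
theorem abs_log_le {S : ℕ} {p : ℝ} (h1 : p ≤ 1) (hp0 : (1 / 2 : ℝ) ^ (S ^ 3) ≤ p) :
    |Real.log p| ≤ (S : ℝ) ^ 3 := by
  have hpos : (0 : ℝ) < (1 / 2 : ℝ) ^ (S ^ 3) := by positivity
  have hp : 0 < p := lt_of_lt_of_le hpos hp0
  have h2 : Real.log p ≤ 0 := Real.log_nonpos hp.le h1
  have h3 : Real.log ((1 / 2 : ℝ) ^ (S ^ 3)) ≤ Real.log p := Real.log_le_log hpos hp0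
  rw [Real.log_pow, one_div, Real.log_inv] at h3
  have h4 : Real.log 2 ≤ 1 := by
    have := Real.log_two_lt_d9
    linarith
  have h5 : (0 : ℝ) ≤ ((S ^ 3 : ℕ) : ℝ) := by positivity
  rw [abs_of_nonpos h2]
  push_cast at h3 h5 ⊢
  nlinarith

namespace LogFactAux

/-- A product of a natural number and a word. -/
theorem cmul_nat_spec {S : ℕ} (hS : 1000000 ≤ S) (m : ℕ) (w : ℤ) (hm : m ≤ 2 ^ S)
    (hw : |val S w| ≤ (S : ℝ) ^ 3 + 1) :
    val S (cmul S (m : ℤ) w) = (m : ℝ) * val S w ∧ |val S (cmul S (m : ℤ) w)| ≤ 2 ^ (S * 5) := by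
  obtain ⟨hp1, hp2, hp3⟩ := pow_facts hS
  have hS4 := pow4_ge hS
  have hS5 := pow5_ge hS
  have hS3big : (S : ℝ) ^ 3 + 1 ≤ 2 ^ (S * 4) := by
    have h2 : S ^ 3 + 1 ≤ 2 ^ (S * 4) := by
      have h3 := S_pow_le hS 3
      have h5 : (2 : ℕ) ^ (S * 4) = 2 ^ (S * 3) * 2 ^ S := by rw [← pow_add]; congr 1
      have h6 : 2 ≤ 2 ^ S := by
        calc 2 = 2 ^ 1 := by norm_num
          _ ≤ 2 ^ S := Nat.pow_le_pow_right (by norm_num) (by omega)
      have h7 : 1 ≤ 2 ^ (S * 3) := Nat.one_le_two_pow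
      rw [h5]
      nlinarith
    exact_mod_cast h2
  have hbigexp : (2 : ℝ) ^ (S * 4) ≤ Big S := two_pow_le_big hS (by omega)
  have hwbig : |val S w| ≤ Big S := by linarith
  have hmint : |(m : ℤ)| ≤ 2 ^ S := by
    rw [abs_of_nonneg (Int.natCast_nonneg m)]
    exact_mod_cast hm
  have hwint := abs_le_of_val hwbig
  have hmul : |(m : ℤ) * w| ≤ 2 ^ wid S := by
    rw [abs_mul]
    calc |(m : ℤ)| * |w| ≤ 2 ^ S * 2 ^ (S ^ 4 + S ^ 5) := by gcongr
      _ = 2 ^ (S + (S ^ 4 + S ^ 5)) := by rw [← pow_add]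
      _ ≤ 2 ^ wid S := by
          apply pow_le_pow_right₀ (by norm_num)
          unfold wid
          omega
  have hmw : |(m : ℤ)| ≤ 2 ^ wid S := by
    refine hmint.trans (pow_le_pow_right₀ (by norm_num) ?_)
    unfold wid
    omega
  have e : cmul S (m : ℤ) w = (m : ℤ) * w := by
    unfold cmul
    rw [clamp_of_abs_le hmw, clamp_of_val hS hwbig, clamp_of_abs_le hmul]
  have e2 : val S ((m : ℤ) * w) = (m : ℝ) * val S w := by
    unfold val
    push_cast
    ring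
  rw [e, e2]
  refine ⟨rfl, ?_⟩
  rw [abs_mul, Nat.abs_cast]
  have hmR : (m : ℝ) ≤ 2 ^ S := by exact_mod_cast hm
  calc (m : ℝ) * |val S w| ≤ 2 ^ S * 2 ^ (S * 4) := by
        gcongr
        linarith
    _ = 2 ^ (S * 5) := by rw [← pow_add]; congr 1; ring

/-- The value of the word of the logarithm of a weight, without saturation. -/
theorem lbw_val {S : ℕ} (hS : 1000000 ≤ S) {a b c d e : ℤ}
    (ha : |val S a| ≤ 2 ^ (2 * S + 1)) (hb : |val S b| ≤ 2 ^ (2 * S + 1)) (hc : |val S c| ≤ 2 ^ (2 * S + 1))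
    (hd : |val S d| ≤ 2 ^ (S * 5)) (he : |val S e| ≤ 2 ^ (S * 5)) :
    val S (cadd S (csub S (csub S a b) c) (cadd S d e))
      = val S a - val S b - val S c + (val S d + val S e) := by
  have hS4 := pow4_ge hS
  have hbig1 : (2 : ℝ) ^ (S * 6) ≤ Big S := two_pow_le_big hS (by omega)
  have hmono2 : (2 : ℝ) ^ (S * 5) * 2 ≤ 2 ^ (S * 6) := by
    rw [← pow_succ]
    exact pow_le_pow_right₀ (by norm_num) (by omega)
  have hpos1 : (0 : ℝ) < 2 ^ (2 * S + 1) := by positivity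
  have hpos2 : (0 : ℝ) < 2 ^ (S * 5) := by positivity
  have h3S : (2 : ℝ) ^ (2 * S + 1) * 4 ≤ 2 ^ (S * 6) := by
    have h4 : (2 : ℝ) ^ (2 * S + 1) * 2 ^ 2 ≤ 2 ^ (S * 6) := by
      rw [← pow_add]
      exact pow_le_pow_right₀ (by norm_num) (by omega)
    have e4 : (2 : ℝ) ^ 2 = 4 := by norm_num
    rw [e4] at h4
    exact h4
  have hv1 := val_sub (S := S) (x := a) (y := b) hS (by linarith) (by linarith)
  have hv1a : |val S (csub S a b)| ≤ 2 ^ (2 * S + 1) * 2 := by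
    rw [hv1]
    refine (abs_sub _ _).trans ?_
    linarith
  have hv2 := val_sub (S := S) (x := csub S a b) (y := c) hS (by linarith) (by linarith)
  have hv2a : |val S (csub S (csub S a b) c)| ≤ 2 ^ (2 * S + 1) * 3 := by
    rw [hv2]
    refine (abs_sub _ _).trans ?_
    linarith
  have hv3 := val_add (S := S) (x := d) (y := e) hS (by linarith) (by linarith)
  have hv3a : |val S (cadd S d e)| ≤ 2 ^ (S * 5) * 2 := by
    rw [hv3]
    refine (abs_add_le _ _).trans ?_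
    linarith
  have hv4 := val_add (S := S) (x := csub S (csub S a b) c) (y := cadd S d e) hS (by linarith) (by linarith)
  rw [hv4, hv2, hv1, hv3]

/-- The final arithmetic of the errors. -/
theorem lbw_err {A B C X Y δ η : ℝ} {v w : ℝ} (hv0 : 0 ≤ v) (hw0 : 0 ≤ w) {T : ℝ} (hv : v ≤ T) (hw : w ≤ T)
    (hA : |A| ≤ δ) (hB : |B| ≤ δ) (hC : |C| ≤ δ) (hX : |X| ≤ η) (hY : |Y| ≤ η)
    (htiny : η * (2 * T) ≤ δ) :
    |A - B - C + (v * X + w * Y)| ≤ 4 * δ := by
  have hη : 0 ≤ η := (abs_nonneg X).trans hX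
  have hT : 0 ≤ T := hv0.trans hv
  have h1 : |v * X| ≤ T * η := by
    rw [abs_mul, abs_of_nonneg hv0]
    gcongr
  have h2 : |w * Y| ≤ T * η := by
    rw [abs_mul, abs_of_nonneg hw0]
    gcongr
  have h3 : |A - B - C + (v * X + w * Y)| ≤ δ + δ + δ + (T * η + T * η) := by
    refine (abs_add_le _ _).trans (add_le_add ?_ ((abs_add_le _ _).trans (add_le_add h1 h2)))
    exact (abs_sub _ _).trans (add_le_add ((abs_sub _ _).trans (add_le_add hA hB)) hC)
  refine h3.trans ?_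
  nlinarith

end LogFactAux

open LogFactAux in
/-- The logarithm of a binomial weight: the error is that of the factorials, and `R` times that of the logarithms. -/
theorem lbwF_spec {S : ℕ} (hS : 1000000 ≤ S) {R v : ℕ} (hR : R < 2 ^ S) (hv : v ≤ R) {p : ℝ} (h0 : 0 < p)
    (h1 : p < 1) {lp lq : ℤ} (hp0 : (1 / 2 : ℝ) ^ (S ^ 3) ≤ p) (hq0 : (1 / 2 : ℝ) ^ (S ^ 3) ≤ 1 - p)
    (hp : |val S lp - Real.log p| ≤ (1 / 2 : ℝ) ^ (S ^ 3)) (hq : |val S lq - Real.log (1 - p)| ≤ (1 / 2 : ℝ) ^ (S ^ 3)) :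
    |val S (lbwF S R v lp lq) - Real.log (bw R p v)| ≤ 4 / (S : ℝ) ^ 42 := by
  have hS3 := pow3_ge hS
  have hS5 := pow5_ge hS
  have hRle : R ≤ 2 ^ S := hR.le
  have hvle : v ≤ 2 ^ S := hv.trans hRle
  have hRv : R - v ≤ 2 ^ S := (Nat.sub_le _ _).trans hRle
  have hRabs := abs_nat_small hS (n := R) (k := S) hRle (by omega)
  have hvabs := abs_nat_small hS (n := v) (k := S) hvle (by omega)
  have hsubW : csub S (R : ℤ) (v : ℤ) = ((R - v : ℕ) : ℤ) := by
    rw [csub_small hS (by linarith) (by linarith), Nat.cast_sub hv]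
  have hlp : |Real.log p| ≤ (S : ℝ) ^ 3 := abs_log_le h1.le hp0
  have hlq : |Real.log (1 - p)| ≤ (S : ℝ) ^ 3 := abs_log_le (by linarith) hq0
  have htiny0 : (1 / 2 : ℝ) ^ (S ^ 3) ≤ 1 := pow_le_one₀ (by norm_num) (by norm_num)
  have hlp2 : |val S lp| ≤ (S : ℝ) ^ 3 + 1 := by
    have h3 := abs_le.mp hp
    have h4 := abs_le.mp hlp
    rw [abs_le]
    constructor <;> linarith [h3.1, h3.2, h4.1, h4.2]
  have hlq2 : |val S lq| ≤ (S : ℝ) ^ 3 + 1 := by
    have h3 := abs_le.mp hq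
    have h4 := abs_le.mp hlq
    rw [abs_le]
    constructor <;> linarith [h3.1, h3.2, h4.1, h4.2]
  obtain ⟨hc1, hc1a⟩ := cmul_nat_spec hS v lp hvle hlp2
  obtain ⟨hc2, hc2a⟩ := cmul_nat_spec hS (R - v) lq hRv hlq2
  unfold lbwF
  rw [hsubW, lbw_val hS (lfF_abs hS hRle) (lfF_abs hS hvle) (lfF_abs hS hRv) hc1a hc2a, hc1, hc2,
    log_bw_eq hv h0 h1]
  have hnatS : S ^ 42 ≤ 2 ^ (S * 42) := S_pow_le hS 42
  have hinv : (1 / 2 : ℝ) ^ (S * 42) ≤ 1 / (S : ℝ) ^ 42 := by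
    rw [one_div_pow]
    apply one_div_le_one_div_of_le (by positivity)
    have : (S : ℝ) ^ 42 = ((S ^ 42 : ℕ) : ℝ) := by push_cast; rfl
    rw [this]
    exact_mod_cast hnatS
  have htiny : (1 / 2 : ℝ) ^ (S ^ 3) * 2 ^ (S + 1) ≤ (1 / 2) ^ (S * 42) := by
    apply half_pow_mul
    omega
  have h2S : (2 : ℝ) ^ (S + 1) = 2 * 2 ^ S := by ring
  have hfour : 4 / (S : ℝ) ^ 42 = 4 * (1 / (S : ℝ) ^ 42) := by ring
  rw [hfour]
  have e : val S (lfF S (R : ℤ)) - val S (lfF S (v : ℤ)) - val S (lfF S ((R - v : ℕ) : ℤ))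
        + ((v : ℝ) * val S lp + ((R - v : ℕ) : ℝ) * val S lq)
        - (Real.log (R.factorial : ℝ) - Real.log (v.factorial : ℝ)
          - Real.log ((R - v).factorial : ℝ) + (v : ℝ) * Real.log p
          + ((R - v : ℕ) : ℝ) * Real.log (1 - p))
      = (val S (lfF S (R : ℤ)) - Real.log (R.factorial : ℝ))
        - (val S (lfF S (v : ℤ)) - Real.log (v.factorial : ℝ))
        - (val S (lfF S ((R - v : ℕ) : ℤ)) - Real.log ((R - v).factorial : ℝ))
        + ((v : ℝ) * (val S lp - Real.log p) + ((R - v : ℕ) : ℝ) * (val S lq - Real.log (1 - p))) := by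
    ring
  rw [e]
  exact lbw_err (T := 2 ^ S) (by positivity) (by positivity) (by exact_mod_cast hvle)
    (by exact_mod_cast hRv) (lfF_spec hS hRle) (lfF_spec hS hvle) (lfF_spec hS hRv) hp hq
    (by
      rw [h2S] at htiny
      exact htiny.trans hinv)

end Vale.Agent.Lib.P328.Bit
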