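import Vale.Agent.Lib.P328.Bit.Code
import Vale.Agent.Lib.P328.Fpras.SortCols

/-!
# P328, bit model: the sorted positive columns by a program (module SORTF)

`sortF S c`: remove the zeros, insertion sort, by `DRep.foldS`. On inputs `c = lN c'`, with at most `S` columns, each less than `2 ^ S`, the output is `lL (sortedCols c')`.
Comparison of words by `csub` and `DRep.ite`. Insertion of an element into a sorted list of at most `S` elements: a fold.
`sortedCols c = ((List.ofFn c).filter (0 < ·)).insertionSort (· ≤ ·)`.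
-/

namespace Vale.Agent.Lib.P328.Bit

open Vale.Agent.Lib.P328.Fpras

/-- One step of a bubble pass: the state is the reversed output and the carried element. -/
def bubStep (S : ℕ) (st : List ℤ × ℤ) (y : ℤ) : List ℤ × ℤ :=
  if 0 < csub S st.2 y then (y :: st.1, st.2) else (st.2 :: st.1, y)

/-- The bubble pass of `a` through `s`. -/
def bubPass (S : ℕ) (p : List ℤ × ℤ) : List ℤ × ℤ :=
  (p.1.take S).foldl (bubStep S) ([], p.2)

/-- The reversal of the first `S` elements. -/
def revS (S : ℕ) (l : List ℤ) : List ℤ :=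
  (l.take S).foldl (fun s a => a :: s) []

/-- Insertion of `p.2` into the sorted list `p.1`. -/
def insF (S : ℕ) (p : List ℤ × ℤ) : List ℤ :=
  revS S ((bubPass S p).2 :: (bubPass S p).1)

/-- The positive elements, in reverse order. -/
def filtF (S : ℕ) (c : List ℤ) : List ℤ :=
  (c.take S).foldl (fun s a => if 0 < a then a :: s else s) []

/-- The sorted positive columns. -/
def sortF (S : ℕ) (c : List ℤ) : List ℤ :=
  ((filtF S c).take S).foldl (fun s a => insF S (s, a)) []

namespace SortAux

theorem revS_rep : DRep revS := by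
  have s0 : DRep (α := List ℤ × (List ℤ × ℤ)) (β := List ℤ × ℤ) fun _ x => x.2 := DRep.snd
  have hc : DRep (α := List ℤ × (List ℤ × ℤ)) (β := ℤ) fun _ x => x.2.2 := s0.comp DRep.snd
  have hs : DRep (α := List ℤ × (List ℤ × ℤ)) (β := List ℤ) fun _ x => x.2.1 := s0.comp DRep.fst
  exact DRep.foldS (l := fun _ (x : List ℤ) => x) (i := fun _ _ => [])
    (f := fun _ (x : List ℤ × (List ℤ × ℤ)) => x.2.2 :: x.2.1) DRep.id' DRep.nil' (DRep.cons hc hs)

theorem bubPass_rep : DRep bubPass := by
  have s0 : DRep (α := (List ℤ × ℤ) × ((List ℤ × ℤ) × ℤ)) (β := (List ℤ × ℤ) × ℤ) fun _ x => x.2 :=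
    DRep.snd
  have s1 : DRep (α := (List ℤ × ℤ) × ((List ℤ × ℤ) × ℤ)) (β := List ℤ × ℤ) fun _ x => x.2.1 :=
    s0.comp DRep.fst
  have s2 : DRep (α := (List ℤ × ℤ) × ((List ℤ × ℤ) × ℤ)) (β := ℤ) fun _ x => x.2.2 :=
    s0.comp DRep.snd
  have s11 : DRep (α := (List ℤ × ℤ) × ((List ℤ × ℤ) × ℤ)) (β := List ℤ) fun _ x => x.2.1.1 :=
    s1.comp DRep.fst
  have s12 : DRep (α := (List ℤ × ℤ) × ((List ℤ × ℤ) × ℤ)) (β := ℤ) fun _ x => x.2.1.2 :=
    s1.comp DRep.snd
  have hc : DRep (α := (List ℤ × ℤ) × ((List ℤ × ℤ) × ℤ)) (β := ℤ)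
      fun S x => csub S x.2.1.2 x.2.2 := DRep.sub s12 s2
  have ht : DRep (α := (List ℤ × ℤ) × ((List ℤ × ℤ) × ℤ)) (β := List ℤ × ℤ)
      fun _ x => (x.2.2 :: x.2.1.1, x.2.1.2) := DRep.pair (DRep.cons s2 s11) s12
  have he : DRep (α := (List ℤ × ℤ) × ((List ℤ × ℤ) × ℤ)) (β := List ℤ × ℤ)
      fun _ x => (x.2.1.2 :: x.2.1.1, x.2.2) := DRep.pair (DRep.cons s12 s11) s2
  have hf : DRep (α := (List ℤ × ℤ) × ((List ℤ × ℤ) × ℤ)) (β := List ℤ × ℤ)
      fun S x => bubStep S x.2.1 x.2.2 := DRep.ite hc ht he
  have hi : DRep (α := List ℤ × ℤ) (β := List ℤ × ℤ) fun _ x => ([], x.2) :=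
    DRep.pair DRep.nil' DRep.snd
  exact DRep.foldS (l := fun _ (x : List ℤ × ℤ) => x.1) (i := fun _ (x : List ℤ × ℤ) => ([], x.2))
    (f := fun S (x : (List ℤ × ℤ) × ((List ℤ × ℤ) × ℤ)) => bubStep S x.2.1 x.2.2) DRep.fst hi hf

theorem insF_rep : DRep insF := by
  have h0 : DRep (α := List ℤ × ℤ) (β := ℤ) fun S p => (bubPass S p).2 := bubPass_rep.comp DRep.snd
  have h01 : DRep (α := List ℤ × ℤ) (β := List ℤ) fun S p => (bubPass S p).1 :=
    bubPass_rep.comp DRep.fst
  have h1 : DRep (α := List ℤ × ℤ) (β := List ℤ) fun S p => (bubPass S p).2 :: (bubPass S p).1 :=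
    DRep.cons h0 h01
  have h2 := h1.comp revS_rep
  exact h2

theorem filtF_rep : DRep filtF := by
  have s0 : DRep (α := List ℤ × (List ℤ × ℤ)) (β := List ℤ × ℤ) fun _ x => x.2 := DRep.snd
  have hc : DRep (α := List ℤ × (List ℤ × ℤ)) (β := ℤ) fun _ x => x.2.2 := s0.comp DRep.snd
  have hs : DRep (α := List ℤ × (List ℤ × ℤ)) (β := List ℤ) fun _ x => x.2.1 := s0.comp DRep.fst
  have hf : DRep (α := List ℤ × (List ℤ × ℤ)) (β := List ℤ)
      fun _ x => if 0 < x.2.2 then x.2.2 :: x.2.1 else x.2.1 :=
    DRep.ite hc (DRep.cons hc hs) hs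
  exact DRep.foldS (l := fun _ (x : List ℤ) => x) (i := fun _ _ => [])
    (f := fun _ (x : List ℤ × (List ℤ × ℤ)) => if 0 < x.2.2 then x.2.2 :: x.2.1 else x.2.1)
    DRep.id' DRep.nil' hf

/-- Words in the range. -/
def InR (S : ℕ) (a : ℤ) : Prop := 0 ≤ a ∧ a < 2 ^ S

theorem csub_eq {S : ℕ} (hS : 1 ≤ S) {a b : ℤ} (ha : InR S a) (hb : InR S b) :
    csub S a b = a - b := by
  have hw : (2 : ℤ) ^ S ≤ 2 ^ wid S := by
    apply pow_le_pow_right₀ (by norm_num)
    unfold wid
    exact Nat.le_self_pow (by norm_num) S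
  have hcl : ∀ z : ℤ, -(2 ^ wid S) ≤ z → z ≤ 2 ^ wid S → clamp S z = z := by
    intro z h1 h2
    unfold clamp
    rw [min_eq_left h2, max_eq_right h1]
  have hp : (0 : ℤ) < 2 ^ wid S := by positivity
  unfold csub
  rw [hcl a (by linarith [ha.1]) (by linarith [ha.2]), hcl b (by linarith [hb.1]) (by linarith [hb.2])]
  exact hcl _ (by linarith [ha.1, hb.2]) (by linarith [ha.2, hb.1])

theorem bub_spec {S : ℕ} (hS : 1 ≤ S) : ∀ (s acc : List ℤ) (a : ℤ), (∀ x ∈ s, InR S x) → InR S a →
    s.Pairwise (· ≤ ·) →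
    ((s.foldl (bubStep S) (acc, a)).2 :: (s.foldl (bubStep S) (acc, a)).1).reverse
      = acc.reverse ++ s.orderedInsert (· ≤ ·) a := by
  intro s
  induction s with
  | nil =>
    intro acc a _ _ _
    simp
  | cons y t ih =>
    intro acc a hs ha hp
    have hy : InR S y := hs y (by simp)
    have ht : ∀ x ∈ t, InR S x := fun x hx => hs x (by simp [hx])
    have hpt : t.Pairwise (· ≤ ·) := (List.pairwise_cons.1 hp).2
    rw [List.foldl_cons]
    by_cases hlt : y < a
    · have e : bubStep S (acc, a) y = (y :: acc, a) := by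
        unfold bubStep
        simp only
        rw [csub_eq hS ha hy, if_pos (by linarith)]
      rw [e, ih (y :: acc) a ht ha hpt]
      rw [List.orderedInsert_of_not_le _ _ (by simpa using hlt)]
      simp
    · have e : bubStep S (acc, a) y = (a :: acc, y) := by
        unfold bubStep
        simp only
        rw [csub_eq hS ha hy, if_neg (by linarith)]
      have hle : a ≤ y := not_lt.1 hlt
      rw [e, ih (a :: acc) y ht hy hpt]
      rw [List.orderedInsert_cons_of_le _ _ hle]
      have e2 : t.orderedInsert (· ≤ ·) y = y :: t := by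
        cases t with
        | nil => simp
        | cons z t' =>
          have : y ≤ z := (List.pairwise_cons.1 hp).1 z (by simp)
          exact List.orderedInsert_cons_of_le _ _ this
      rw [e2]
      simp

theorem revS_eq {S : ℕ} {l : List ℤ} (hl : l.length ≤ S) : revS S l = l.reverse := by
  unfold revS
  rw [List.take_of_length_le hl]
  have key : ∀ (l acc : List ℤ), l.foldl (fun s a => a :: s) acc = l.reverse ++ acc := by
    intro l
    induction l with
    | nil => intro acc; simp
    | cons a t ih => intro acc; simp [ih]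
  rw [key]
  simp

theorem insF_eq {S : ℕ} (hS : 1 ≤ S) {s : List ℤ} {a : ℤ} (hl : s.length < S)
    (hs : ∀ x ∈ s, InR S x) (ha : InR S a) (hp : s.Pairwise (· ≤ ·)) :
    insF S (s, a) = s.orderedInsert (· ≤ ·) a := by
  have h1 := bub_spec hS s [] a hs ha hp
  have hlen : ((bubPass S (s, a)).2 :: (bubPass S (s, a)).1).length ≤ S := by
    have e : bubPass S (s, a) = s.foldl (bubStep S) ([], a) := by
      unfold bubPass
      simp only
      rw [List.take_of_length_le hl.le]
    rw [e]
    have h2 := congrArg List.length h1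
    rw [List.length_reverse] at h2
    rw [h2]
    simp only [List.reverse_nil, List.nil_append, List.orderedInsert_length]
    omega
  unfold insF
  rw [revS_eq hlen]
  have e : bubPass S (s, a) = s.foldl (bubStep S) ([], a) := by
    unfold bubPass
    simp only
    rw [List.take_of_length_le hl.le]
  rw [e, h1]
  simp

theorem filt_spec (acc l : List ℤ) :
    (l.foldl (fun s a => if 0 < a then a :: s else s) acc).Perm (l.filter (0 < ·) ++ acc) := by
  induction l generalizing acc with
  | nil => simp
  | cons a t ih =>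
    rw [List.foldl_cons]
    by_cases h : 0 < a
    · rw [if_pos h]
      refine (ih _).trans ?_
      rw [List.filter_cons_of_pos (by simpa using h)]
      simpa using List.perm_middle
    · rw [if_neg h]
      refine (ih _).trans ?_
      rw [List.filter_cons_of_neg (by simpa using h)]

theorem sort_spec {S : ℕ} (hS : 1 ≤ S) : ∀ (l acc : List ℤ), l.length + acc.length ≤ S →
    (∀ x ∈ l, InR S x) → (∀ x ∈ acc, InR S x) → acc.Pairwise (· ≤ ·) →
    (l.foldl (fun s a => insF S (s, a)) acc).Pairwise (· ≤ ·) ∧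
      (l.foldl (fun s a => insF S (s, a)) acc).Perm (l.reverse ++ acc) := by
  intro l
  induction l with
  | nil =>
    intro acc _ _ _ hp
    exact ⟨hp, by simp⟩
  | cons a t ih =>
    intro acc hlen hl hacc hp
    rw [List.foldl_cons]
    have ha : InR S a := hl a (by simp)
    have hlen' : acc.length < S := by
      simp only [List.length_cons] at hlen
      omega
    rw [insF_eq hS hlen' hacc ha hp]
    have hperm := List.perm_orderedInsert (· ≤ · : ℤ → ℤ → Prop) a acc
    have h2 := ih (acc.orderedInsert (· ≤ ·) a)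
      (by
        rw [List.orderedInsert_length]
        simp only [List.length_cons] at hlen
        omega)
      (fun x hx => hl x (by simp [hx]))
      (fun x hx => by
        rcases (List.mem_orderedInsert _).1 hx with h | h
        · rw [h]; exact ha
        · exact hacc x h)
      (hp.orderedInsert a acc)
    refine ⟨h2.1, h2.2.trans ?_⟩
    have h3 : (t.reverse ++ acc.orderedInsert (· ≤ ·) a).Perm (t.reverse ++ a :: acc) :=
      hperm.append_left _
    refine h3.trans ?_
    simp only [List.reverse_cons, List.append_assoc, List.cons_append, List.nil_append]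
    exact List.Perm.refl _

end SortAux

open SortAux

theorem sortF_rep : DRep sortF := by
  have h1 : DRep (α := List ℤ × (List ℤ × ℤ)) (β := List ℤ) fun S x => insF S x.2 :=
    (DRep.snd (β := List ℤ) (γ := List ℤ × ℤ)).comp insF_rep
  exact DRep.foldS (l := filtF) (i := fun _ _ => [])
    (f := fun S (x : List ℤ × (List ℤ × ℤ)) => insF S x.2) filtF_rep DRep.nil' h1

theorem sortF_eq {n S : ℕ} (hS : 1000000 ≤ S) (hn : n ≤ S) (c : Fin n → ℕ) (hc : ∀ j, c j < 2 ^ S) :
    sortF S (lN c) = lL (sortedCols c) := by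
  have hS1 : 1 ≤ S := by omega
  -- the input list
  have hlen : (lN c).length ≤ S := by
    simp [lN, hn]
  have hmem : ∀ x ∈ lN c, InR S x := by
    intro x hx
    unfold lN at hx
    rw [List.mem_ofFn] at hx
    obtain ⟨j, rfl⟩ := hx
    refine ⟨by positivity, ?_⟩
    have := hc j
    exact_mod_cast this
  -- the filter
  have hf : (filtF S (lN c)).Perm ((lN c).filter (0 < ·)) := by
    unfold filtF
    rw [List.take_of_length_le hlen]
    simpa using filt_spec [] (lN c)
  have hflen : (filtF S (lN c)).length ≤ S := by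
    rw [hf.length_eq]
    exact (List.length_filter_le _ _).trans hlen
  have hfmem : ∀ x ∈ filtF S (lN c), InR S x := by
    intro x hx
    exact hmem x (List.mem_of_mem_filter (hf.mem_iff.1 hx))
  have hsort := sort_spec hS1 (filtF S (lN c)) [] (by simpa using hflen) hfmem (by simp) (by simp)
  have hsF : sortF S (lN c) = (filtF S (lN c)).foldl (fun s a => insF S (s, a)) [] := by
    unfold sortF
    rw [List.take_of_length_le hflen]
  rw [hsF]
  -- both are sorted permutations of the same list
  have hL : (lL (sortedCols c)).Perm ((lN c).filter (0 < ·)) := by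
    have h1 := sortedCols_perm c
    have h2 : (lL (sortedCols c)).Perm (lL ((List.ofFn c).filter (0 < ·))) := h1.map _
    refine h2.trans (List.Perm.of_eq ?_)
    have e : lN c = (List.ofFn c).map (fun a : ℕ => (a : ℤ)) := by
      unfold lN
      rw [List.map_ofFn]
      rfl
    rw [e, List.filter_map]
    unfold lL
    congr 1
    apply List.filter_congr
    intro x _
    simp
  have hLsorted : (lL (sortedCols c)).Pairwise (· ≤ ·) := by
    unfold lL
    rw [List.pairwise_map]
    have h1 : (sortedCols c).Pairwise (· ≤ ·) := List.pairwise_insertionSort _ _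
    exact h1.imp fun h => by exact_mod_cast h
  have hperm : ((filtF S (lN c)).foldl (fun s a => insF S (s, a)) []).Perm (lL (sortedCols c)) := by
    refine hsort.2.trans ?_
    simp only [List.append_nil]
    exact (List.reverse_perm _).trans (hf.trans hL.symm)
  exact hperm.eq_of_pairwise' hsort.1 hLsorted

end Vale.Agent.Lib.P328.Bit
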