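import Vale.Agent.Lib.P328.Bit.RunF
import Vale.Agent.Lib.P328.Bit.AnnealF
import Vale.Agent.Lib.P328.Bit.SortF
import Vale.Agent.Lib.P328.Samp.Final

/-!
# P328, bit model: the algorithm (module MAIN)

`mainF S (r, c)`: `cl = sortF c`. If `cl = []`: output `1`. Else: `y = annealF (r, cl)`, `(L, R) = runF (r, cl)`. If `R ≤ 0` or `L ≤ 0`: output `0`. Otherwise the output is `⌊fexp (y + flog L - flog R) + 1/2⌋`.

Statement `mainF_spec`. Put `k = length cl`, `ρ = rhoP m k`, `ε' = 10^8 (k + 1) (m + 1) ρ / S`: so `Bpar m k ρ ε' = S`, `parOf m k ρ ε' = parS S`, `stepsOf = S^20`, `runsOf ≤ S^3` if `log (4/δ) ≤ S`; and `ε' ≤ 1/(8 a)` by the condition on `S`.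
`annealF_spec` with `ε'`, `δ' = 1/(2b)`: with probability `1 - δ'`, `Ahat = exp (val y)` has `|Ahat - Aval| ≤ ε'/4 Aval`.
Given such `y`: `fpras_robustD` with `ρ = rhoP`, `hbound_rhoP`, `down'`, `Q = qF`, `hQ` from `walkF_close`, `hsup`, `qF_sum`; `runF_law` with `E a b`: with probability at least `1 - δ'`, `(1 - ε') N ≤ Ahat a / b ≤ (1 + ε') N`, `N = |tabs r c|`, by `sortedCols_spec`.
`N ≥ 1`, so `b > 0`, `a > 0` there. Since `N ≤ (Σ r + 1)^(m n)`, all logarithms are in the domains. So `|fexp (y + flog a - flog b) - Ahat a / b| ≤ tiny`, and with `Est` the output: if `2 ε' N < 1/2`: `Est = N` since `N` is an integer. Else `|Est - N| ≤ 1/2 + 2 ε' N ≤ 4 ε' N ≤ N / a`.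
Independence: `annealF` and `runF` are run independently: `P ≥ (1 - δ')²  ≥ 1 - 1/b`, as in `fpras_explicit` in `Samp/Final`.
Parameters: `10 ^ 6 (k m + 1)^2 ≤ S`, `Σ r < 2 ^ S`, `1 / S ≤ ε'`, all from the condition on `S`.

The case `cl = []`: `Σ c = 0`, `r = 0`, `tabs` is a single table.
-/

namespace Vale.Agent.Lib.P328.Bit

open Finset MeasureTheory Vale.Agent.Lib.P328.Cap Vale.Agent.Lib.P328.Fpras Vale.Agent.Lib.P328.Samp
open scoped ENNReal

variable {m n : ℕ}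

/-! ### The program -/

/-- A randomized function after a deterministic one. -/
theorem rep_preD {α β γ : Type} [Enc α] [Enc β] [Enc γ] {f : ℕ → α → β} {g : ℕ → β → PMF γ}
    (hf : DRep f) (hg : Rep g) : Rep fun S x => g S (f S x) := by
  obtain ⟨p, hp⟩ := hf
  obtain ⟨q, hq⟩ := hg
  refine ⟨.comp p q, fun S x => ?_⟩
  show (sem p S (enc x)).bind (sem q S) = _
  rw [hp, PMF.pure_bind, hq]

/-- The last step of the algorithm: input the logarithm of the estimate at the root and the counts. -/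
noncomputable def finishF (S : ℕ) (x : ℤ × ℤ × ℤ) : ℤ :=
  if 0 < x.2.1 then
    if 0 < x.2.2 then
      ffloor S (cadd S (fexp S (csub S (cadd S x.1 (flog S (fint S x.2.1))) (flog S (fint S x.2.2))))
        (cdiv S (fone S) (cadd S 1 1)))
    else 0
  else 0

theorem finishF_rep : DRep finishF := by
  have h0 : DRep (α := ℤ × ℤ × ℤ) (β := ℤ) fun _ x => x.1 := DRep.fst
  have h1 : DRep (α := ℤ × ℤ × ℤ) (β := ℤ) fun _ x => x.2.1 := DRep.snd.comp DRep.fst
  have h2 : DRep (α := ℤ × ℤ × ℤ) (β := ℤ) fun _ x => x.2.2 := DRep.snd.comp DRep.snd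
  refine DRep.ite h1 (DRep.ite h2 ?_ DRep.zero) DRep.zero
  refine ffloor_rep (DRep.add (fexp_rep (DRep.sub (DRep.add h0 (flog_rep (fint_rep h1)))
    (flog_rep (fint_rep h2)))) (DRep.div fone_rep (DRep.add DRep.one DRep.one)))

/-- **The algorithm.** Input `(r, c)`; output the estimate. -/
noncomputable def mainF (S : ℕ) (x : List ℤ × List ℤ) : PMF ℤ :=
  match sortF S x.2 with
  | [] => PMF.pure 1
  | a :: t => (annealF S (x.1, a :: t)).bind fun y => (runF S (x.1, a :: t)).bind fun p =>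
      PMF.pure (finishF S (y, p))

theorem mainF_rep : Rep mainF := by
  have hl : DRep (α := List ℤ × List ℤ) (β := List ℤ) fun S x => sortF S x.2 :=
    DRep.snd.comp sortF_rep
  have hp : DRep (α := (List ℤ × List ℤ) × ℤ × List ℤ) (β := List ℤ × List ℤ)
      fun _ z => (z.1.1, z.2.1 :: z.2.2) :=
    (DRep.fst.comp DRep.fst).pair (DRep.cons (DRep.snd.comp DRep.fst) (DRep.snd.comp DRep.snd))
  have hA : Rep (α := (List ℤ × List ℤ) × ℤ × List ℤ) (β := ℤ)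
      fun S z => annealF S (z.1.1, z.2.1 :: z.2.2) := rep_preD hp annealF_rep
  have hp' : DRep (α := ((List ℤ × List ℤ) × ℤ × List ℤ) × ℤ) (β := List ℤ × List ℤ)
      fun _ w => (w.1.1.1, w.1.2.1 :: w.1.2.2) := DRep.fst.comp hp
  have hR : Rep (α := ((List ℤ × List ℤ) × ℤ × List ℤ) × ℤ) (β := ℤ × ℤ)
      fun S w => runF S (w.1.1.1, w.1.2.1 :: w.1.2.2) := rep_preD hp' runF_rep
  have hF : Rep (α := (((List ℤ × List ℤ) × ℤ × List ℤ) × ℤ) × ℤ × ℤ) (β := ℤ)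
      fun S v => PMF.pure (finishF S (v.1.2, v.2)) :=
    Rep.ofD (((DRep.fst.comp DRep.snd).pair DRep.snd).comp finishF_rep)
  have h := Rep.caseList hl (Rep.ofD (f := fun _ _ => (1 : ℤ)) DRep.one)
    (Rep.bind hA (Rep.bind hR hF))
  convert h using 1
  funext S x
  unfold mainF
  cases sortF S x.2 <;> rfl

/-! ### The parameters -/

/-- The size of an instance: the lengths of all the margins and the parameters `a`, `b`. -/
def sizeL (r : Fin m → ℕ) (c : Fin n → ℕ) (a b : ℕ) : ℕ :=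
  m + n + ∑ i, Nat.size (r i) + ∑ j, Nat.size (c j) + a + Nat.size b + 2

section Param

variable {r : Fin m → ℕ} {c : Fin n → ℕ} {a b : ℕ}

/-- The total is small compared with the size. -/
theorem sum_lt_size {k : ℕ} (f : Fin k → ℕ) : ∑ i, f i < 2 ^ (k + ∑ i, Nat.size (f i)) := by
  have h1 : ∀ i, f i < 2 ^ (∑ i, Nat.size (f i)) := fun i =>
    (Nat.lt_size_self (f i)).trans_le (Nat.pow_le_pow_right (by norm_num)
      (Finset.single_le_sum (f := fun i => Nat.size (f i)) (fun _ _ => Nat.zero_le _) (Finset.mem_univ i)))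
  have h2 : ∑ i, f i ≤ k * 2 ^ (∑ i, Nat.size (f i)) := by
    have := Finset.sum_le_card_nsmul (univ : Finset (Fin k)) f (2 ^ (∑ i, Nat.size (f i)))
      (fun i _ => (h1 i).le)
    simpa using this
  have h3 : k < 2 ^ k := Nat.lt_two_pow_self
  rw [pow_add]
  have h4 : 0 < 2 ^ (∑ i, Nat.size (f i)) := by positivity
  nlinarith

end Param
/-! ### The last step -/

section Finish

variable {S : ℕ}

theorem half_word (hS : 1000000 ≤ S) : val S (cdiv S (fone S) (cadd S 1 1)) = 1 / 2 := by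
  have hp : 0 < 2 ^ prec S := by positivity
  have hfone : fone S = 2 ^ prec S := by
    have h := val_fone (S := S) hS
    unfold val at h
    have h2 : (2 : ℝ) ^ prec S ≠ 0 := by positivity
    rw [div_eq_one_iff_eq h2] at h
    exact_mod_cast h
  have hwid : prec S + 1 ≤ wid S := by
    unfold prec wid
    have h1 : 1 ≤ S ^ 5 := Nat.one_le_pow _ _ (by omega)
    have h2 : S ^ 6 = S ^ 5 * S := by ring
    have h3 : S ^ 5 * 2 ≤ S ^ 5 * S := Nat.mul_le_mul_left _ (by omega)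
    omega
  have hwid1 : (2 : ℤ) ^ (prec S + 1) ≤ 2 ^ wid S := pow_le_pow_right₀ (by norm_num) hwid
  have hone : clamp S 1 = 1 := clamp_eq hS (by
    rw [abs_one]
    exact one_le_pow₀ (by norm_num))
  have h2w : (2 : ℤ) ≤ 2 ^ wid S := by
    have h3 : (2 : ℤ) ^ 1 ≤ 2 ^ wid S := pow_le_pow_right₀ (by norm_num) (by
      have : 1 ≤ prec S := by unfold prec; exact Nat.one_le_pow _ _ (by omega)
      omega)
    simpa using h3
  have htwo : cadd S 1 1 = 2 := by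
    unfold cadd
    rw [hone, clamp_eq hS (z := 1 + 1) (by
      rw [abs_of_nonneg (by norm_num)]
      simpa using h2w)]
    norm_num
  have hP : (2 : ℤ) ^ prec S = 2 * 2 ^ (prec S - 1) := by
    have : 1 ≤ prec S := by unfold prec; exact Nat.one_le_pow _ _ (by omega)
    rw [← pow_succ']
    congr 1
    omega
  have hc1 : clamp S (2 ^ prec S) = 2 ^ prec S := clamp_eq hS (by
    rw [abs_of_nonneg (by positivity)]
    exact pow_le_pow_right₀ (by norm_num) (by omega))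
  have hc2 : clamp S 2 = 2 := clamp_eq hS (by
    rw [abs_of_nonneg (by norm_num)]
    exact h2w)
  have hc3 : clamp S (2 ^ (prec S - 1)) = 2 ^ (prec S - 1) := clamp_eq hS (by
    rw [abs_of_nonneg (by positivity)]
    exact pow_le_pow_right₀ (by norm_num) (by omega))
  have hdiv : cdiv S (fone S) (cadd S 1 1) = 2 ^ (prec S - 1) := by
    unfold cdiv
    rw [hfone, htwo, hc1, hc2]
    have : (2 : ℤ) ^ prec S / 2 = 2 ^ (prec S - 1) := by
      rw [hP]
      exact Int.mul_ediv_cancel_left _ (by norm_num)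
    rw [this, hc3]
  rw [hdiv]
  unfold val
  have hP' : (2 : ℝ) ^ prec S = 2 * 2 ^ (prec S - 1) := by exact_mod_cast hP
  push_cast
  rw [hP']
  have : (2 : ℝ) ^ (prec S - 1) ≠ 0 := by positivity
  field_simp

end Finish
/-! ### The last step, the estimate -/

section Finish2

variable {S : ℕ}

/-- All the numbers for `S`. -/
theorem S_num (hS : 1000000 ≤ S) : 4 * (S : ℝ) ^ 3 ≤ Big S ∧ (1 : ℝ) ≤ S ∧ (1000000 : ℝ) ≤ S := by
  have h1 : (1000000 : ℝ) ≤ S := by exact_mod_cast hS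
  refine ⟨?_, by linarith, h1⟩
  have h2 : 4 * S ^ 3 ≤ 2 ^ (S ^ 4) := by
    have h3 : S < 2 ^ S := Nat.lt_two_pow_self
    have h4 : S ^ 3 ≤ (2 ^ S) ^ 3 := Nat.pow_le_pow_left h3.le 3
    have h5 : 4 * S ^ 3 ≤ 2 ^ 2 * (2 ^ S) ^ 3 := Nat.mul_le_mul_left _ h4
    refine h5.trans ?_
    rw [← pow_mul, ← pow_add]
    refine Nat.pow_le_pow_right (by norm_num) ?_
    have h6 : S ^ 4 = S * S ^ 3 := by ring
    have h7 : S ^ 3 = S * S ^ 2 := by ring
    have h8 : 1000000 ≤ S ^ 3 := by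
      calc 1000000 ≤ S := hS
        _ = S ^ 1 := (pow_one S).symm
        _ ≤ S ^ 3 := Nat.pow_le_pow_right (by omega) (by norm_num)
    rw [h6]
    nlinarith
  unfold Big
  exact_mod_cast h2

/-- The bound for `η`. -/
theorem eta_num (hS : 1000000 ≤ S) :
    (1 / 2 : ℝ) ^ (S ^ 5 / 2) + 2 ^ (S ^ 2 + 3) * (1 / 2 : ℝ) ^ (S ^ 5 / 4) ≤ 1 / (4 * (S : ℝ)) := by
  have hS2 : 1000000 * 1 ≤ S := by omega
  have hpow : 4 * (S ^ 2 + 3 + S + 3) ≤ S ^ 5 := by
    have h5 : S ^ 5 = S ^ 3 * S ^ 2 := by ring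
    have h3 : 1000000 ≤ S ^ 3 := by
      calc 1000000 ≤ S := hS
        _ = S ^ 1 := (pow_one S).symm
        _ ≤ S ^ 3 := Nat.pow_le_pow_right (by omega) (by norm_num)
    have h6 : 1000000 * S ^ 2 ≤ S ^ 3 * S ^ 2 := Nat.mul_le_mul_right _ h3
    have h7 : S ≤ S ^ 2 := by nlinarith
    have h8 : 1 ≤ S ^ 2 := by nlinarith
    omega
  have e1 : S ^ 2 + 3 + S + 3 ≤ S ^ 5 / 4 := by
    rw [Nat.le_div_iff_mul_le (by norm_num)]
    linarith
  have e2 : S + 3 ≤ S ^ 5 / 2 := by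
    rw [Nat.le_div_iff_mul_le (by norm_num)]
    nlinarith [Nat.zero_le (S ^ 2)]
  have h2 : (0 : ℝ) < 1 / 2 := by norm_num
  have h21 : (1 / 2 : ℝ) ≤ 1 := by norm_num
  have t1 : (1 / 2 : ℝ) ^ (S ^ 5 / 2) ≤ (1 / 2) ^ (S + 3) := pow_le_pow_of_le_one h2.le h21 e2
  have t2 : (1 / 2 : ℝ) ^ (S ^ 5 / 4) ≤ (1 / 2) ^ (S ^ 2 + 3 + S + 3) := pow_le_pow_of_le_one h2.le h21 e1
  have t3 : (2 : ℝ) ^ (S ^ 2 + 3) * (1 / 2 : ℝ) ^ (S ^ 2 + 3 + S + 3) = (1 / 2) ^ (S + 3) := by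
    have : S ^ 2 + 3 + S + 3 = (S ^ 2 + 3) + (S + 3) := by ring
    rw [this, pow_add (1 / 2 : ℝ) (S ^ 2 + 3) (S + 3), ← mul_assoc, ← mul_pow]
    norm_num
  have t4 : (1 / 2 : ℝ) ^ (S + 3) ≤ 1 / (8 * (S : ℝ)) := by
    have h3 : (S : ℝ) < 2 ^ S := by exact_mod_cast Nat.lt_two_pow_self
    have hS0 : (0 : ℝ) < S := by
      have : 0 < S := by omega
      exact_mod_cast this
    rw [one_div, inv_pow, pow_add, one_div]
    apply inv_anti₀ (by positivity)
    norm_num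
    nlinarith
  have t5 : (2 : ℝ) ^ (S ^ 2 + 3) * (1 / 2 : ℝ) ^ (S ^ 5 / 4) ≤ (1 / 2) ^ (S + 3) := by
    rw [← t3]
    exact mul_le_mul_of_nonneg_left t2 (by positivity)
  have hS0 : (0 : ℝ) < S := by
    have : 0 < S := by omega
    exact_mod_cast this
  have t6 : 1 / (8 * (S : ℝ)) + 1 / (8 * (S : ℝ)) = 1 / (4 * (S : ℝ)) := by
    field_simp
    norm_num
  linarith

/-- The rounding. -/
theorem finish_real {N a : ℕ} {ε η X v : ℝ} (hN1 : 1 ≤ N) (ha : 0 < a) (hε0 : 0 ≤ ε) (hη0 : 0 ≤ η)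
    (hε : ε ≤ 1 / (8 * (a : ℝ))) (hη1 : η ≤ 1 / (4 * (a : ℝ))) (hvX : |v - X| ≤ η)
    (h1 : (1 - ε) * N ≤ X) (h2 : X ≤ (1 + ε) * N) :
    (1 - 1 / (a : ℝ)) * N ≤ ((⌊v + 1 / 2⌋ : ℤ) : ℝ) ∧ ((⌊v + 1 / 2⌋ : ℤ) : ℝ) ≤ (1 + 1 / (a : ℝ)) * N := by
  have haR : (0 : ℝ) < a := by exact_mod_cast ha
  have hN1R : (1 : ℝ) ≤ N := by exact_mod_cast hN1
  obtain ⟨c1, c2⟩ := abs_le.1 hvX
  set E := ⌊v + 1 / 2⌋ with hE
  have hE1 : (E : ℝ) ≤ v + 1 / 2 := Int.floor_le _
  have hE2 : v + 1 / 2 < E + 1 := Int.lt_floor_add_one _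
  have hinv : 0 ≤ 1 / (a : ℝ) * N := by positivity
  by_cases hcase : ε * N + η < 1 / 2
  · have hEN : E = (N : ℤ) := by
      rw [hE, Int.floor_eq_iff]
      push_cast
      constructor <;> linarith
    rw [hEN]
    push_cast
    constructor <;> linarith
  · have hcase' : 1 / 2 ≤ ε * N + η := not_lt.1 hcase
    have hεN : ε * N ≤ 1 / (8 * (a : ℝ)) * N := mul_le_mul_of_nonneg_right hε (by positivity)
    have e5 : 1 / (8 * (a : ℝ)) * N = (1 / (a : ℝ) * N) / 8 := by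
      field_simp
    have e6 : 1 / (4 * (a : ℝ)) = (1 / (a : ℝ)) / 4 := by
      field_simp
    have h1a : 1 / (a : ℝ) ≤ 1 / (a : ℝ) * N := le_mul_of_one_le_right (by positivity) hN1R
    have hη3 : η ≤ (1 / (a : ℝ) * N) / 4 := by
      rw [e6] at hη1
      linarith
    constructor <;> linarith

/-- The value of the last step. -/
theorem finish_val (hS : 1000000 ≤ S) {y : ℤ} {L R : ℕ} (hL : 0 < L) (hLS : L ≤ S ^ 3)
    (hR : 0 < R) (hRS : R ≤ S ^ 3) {X : ℝ} (hXdef : X = Real.exp (val S y) * L / R)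
    (hX1 : 7 / 8 ≤ X) (hX2 : X ≤ 2 ^ (S ^ 2 + 1)) :
    ∃ v : ℝ, (finishF S (y, ((L : ℤ), (R : ℤ))) : ℝ) = ((⌊v + 1 / 2⌋ : ℤ) : ℝ)
      ∧ |v - X| ≤ (1 / 2 : ℝ) ^ (S ^ 5 / 2) + 2 ^ (S ^ 2 + 3) * (1 / 2 : ℝ) ^ (S ^ 5 / 4) := by
  have hLi : (0 : ℤ) < (L : ℤ) := by exact_mod_cast hL
  have hRi : (0 : ℤ) < (R : ℤ) := by exact_mod_cast hR
  obtain ⟨hBig, hS1, hS6⟩ := S_num hS
  have hS0 : (0 : ℝ) < S := by linarith
  have hLR : (0 : ℝ) < L := by exact_mod_cast hL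
  have hRR : (0 : ℝ) < R := by exact_mod_cast hR
  have hX0 : 0 < X := by linarith
  -- bounds for the logarithms
  have hS3 : (S : ℝ) ^ 3 ≤ 2 ^ (S ^ 3) := by
    have : S ^ 3 < 2 ^ (S ^ 3) := Nat.lt_two_pow_self
    exact_mod_cast this.le
  have hLR3 : (L : ℝ) ≤ (S : ℝ) ^ 3 := by exact_mod_cast hLS
  have hRR3 : (R : ℝ) ≤ (S : ℝ) ^ 3 := by exact_mod_cast hRS
  have hL1 : (1 : ℝ) ≤ L := by exact_mod_cast hL
  have hR1 : (1 : ℝ) ≤ R := by exact_mod_cast hR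
  have hone : (1 / 2 : ℝ) ^ (S ^ 3) ≤ 1 := pow_le_one₀ (by norm_num) (by norm_num)
  have hS3one : (1 : ℝ) ≤ (S : ℝ) ^ 3 := one_le_pow₀ hS1
  have valL : val S (fint S (L : ℤ)) = L := by
    have h := val_fint (n := (L : ℤ)) hS (by
      rw [abs_of_pos (by exact_mod_cast hL)]
      push_cast
      linarith)
    exact_mod_cast h
  have valR : val S (fint S (R : ℤ)) = R := by
    have h := val_fint (n := (R : ℤ)) hS (by
      rw [abs_of_pos (by exact_mod_cast hR)]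
      push_cast
      linarith)
    exact_mod_cast h
  have hlogL := flog_spec (x := fint S (L : ℤ)) hS (by rw [valL]; linarith) (by rw [valL]; linarith)
  have hlogR := flog_spec (x := fint S (R : ℤ)) hS (by rw [valR]; linarith) (by rw [valR]; linarith)
  rw [valL] at hlogL
  rw [valR] at hlogR
  set lw := flog S (fint S (L : ℤ)) with hlw
  set rw' := flog S (fint S (R : ℤ)) with hrw
  have hη := eta_num hS
  set ζ := (1 / 2 : ℝ) ^ (S ^ 5 / 4) with hζ
  have hζ0 : 0 ≤ ζ := by positivity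
  have hζ1 : ζ ≤ 1 / 8 := by
    have h3 : (1 / 2 : ℝ) ^ (S ^ 5 / 4) ≤ (1 / 2) ^ 3 := pow_le_pow_of_le_one (by norm_num) (by norm_num) (by
      rw [Nat.le_div_iff_mul_le (by norm_num)]
      have h5 : S ^ 5 = S * S ^ 4 := by ring
      have h6 : 1 ≤ S ^ 4 := Nat.one_le_pow _ _ (by omega)
      rw [h5]
      nlinarith)
    rw [hζ]
    linarith
  -- the size of the estimate
  have hlog2 : Real.log 2 ≤ 1 := by
    have := Real.log_le_sub_one_of_pos (show (0 : ℝ) < 2 by norm_num)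
    linarith
  have hlogX1 : -1 ≤ Real.log X := by
    have h3 := Real.one_sub_inv_le_log_of_pos hX0
    have h4 : X⁻¹ ≤ 8 / 7 := by
      rw [inv_le_comm₀ hX0 (by norm_num)]
      norm_num
      linarith
    linarith
  have hS2 : (S : ℝ) ^ 2 + 2 ≤ (S : ℝ) ^ 3 := by
    have h3 : (S : ℝ) ^ 3 = S * (S : ℝ) ^ 2 := by ring
    have h4 : (1 : ℝ) ≤ (S : ℝ) ^ 2 := one_le_pow₀ hS1
    rw [h3]
    nlinarith
  have hlogX2 : Real.log X ≤ (S : ℝ) ^ 2 + 1 := by
    have h3 : Real.log X ≤ Real.log (2 ^ (S ^ 2 + 1)) := Real.log_le_log hX0 hX2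
    rw [Real.log_pow] at h3
    push_cast at h3
    have h4 : ((S : ℝ) ^ 2 + 1) * Real.log 2 ≤ ((S : ℝ) ^ 2 + 1) * 1 :=
      mul_le_mul_of_nonneg_left hlog2 (by positivity)
    linarith
  have hlogXeq : Real.log X = val S y + Real.log L - Real.log R := by
    rw [hXdef, Real.log_div (by positivity) (by positivity), Real.log_mul (Real.exp_pos _).ne' hLR.ne',
      Real.log_exp]
  have hlogL0 : 0 ≤ Real.log L := Real.log_nonneg hL1
  have hlogR0 : 0 ≤ Real.log R := Real.log_nonneg hR1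
  have hlogL1 : Real.log L ≤ (S : ℝ) ^ 3 := by
    have := Real.log_le_sub_one_of_pos hLR
    linarith
  have hlogR1 : Real.log R ≤ (S : ℝ) ^ 3 := by
    have := Real.log_le_sub_one_of_pos hRR
    linarith
  obtain ⟨a1, a2⟩ := abs_le.1 hlogL
  obtain ⟨b1, b2⟩ := abs_le.1 hlogR
  have hvy : |val S y| ≤ Big S := by
    rw [abs_le]
    constructor <;> linarith
  have hvl : |val S lw| ≤ Big S := by
    rw [abs_le]
    constructor <;> linarith
  have hvr : |val S rw'| ≤ Big S := by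
    rw [abs_le]
    constructor <;> linarith
  have e1 : val S (cadd S y lw) = val S y + val S lw := val_add hS hvy hvl
  have hvyl : |val S (cadd S y lw)| ≤ Big S := by
    rw [e1, abs_le]
    constructor <;> linarith
  have e2 : val S (csub S (cadd S y lw) rw') = val S y + val S lw - val S rw' := by
    rw [val_sub hS hvyl hvr, e1]
  set xw := csub S (cadd S y lw) rw' with hxw
  set x := val S xw with hx
  have hxd : |x - Real.log X| ≤ 2 * ζ := by
    rw [e2, hlogXeq, abs_le]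
    constructor <;> linarith
  have hxd' := abs_le.1 hxd
  have hx3 : |x| ≤ (S : ℝ) ^ 3 := by
    rw [abs_le]
    constructor <;> linarith [hxd'.1, hxd'.2, sq_nonneg (S : ℝ)]
  have hfe := fexp_spec hS hx3
  set fw := fexp S xw with hfw
  set v := val S fw with hv
  -- the distance to `X`
  have hexpx : Real.exp x = X * Real.exp (x - Real.log X) := by
    rw [Real.exp_sub, Real.exp_log hX0]
    field_simp
  have hd1 : |x - Real.log X| ≤ 1 := by linarith
  have hd2 := Real.abs_exp_sub_one_le hd1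
  have hexpd : |Real.exp x - X| ≤ 2 ^ (S ^ 2 + 3) * ζ := by
    have h3 : Real.exp x - X = X * (Real.exp (x - Real.log X) - 1) := by
      rw [hexpx]
      ring
    rw [h3, abs_mul, abs_of_pos hX0]
    have h4 : |Real.exp (x - Real.log X) - 1| ≤ 4 * ζ := by linarith
    calc X * |Real.exp (x - Real.log X) - 1| ≤ 2 ^ (S ^ 2 + 1) * (4 * ζ) :=
          mul_le_mul hX2 h4 (abs_nonneg _) (by positivity)
      _ = 2 ^ (S ^ 2 + 3) * ζ := by
          rw [pow_add, pow_add]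
          ring
  have hvX : |v - X| ≤ (1 / 2 : ℝ) ^ (S ^ 5 / 2) + 2 ^ (S ^ 2 + 3) * ζ := by
    have h3 := abs_sub_le v (Real.exp x) X
    linarith
  refine ⟨v, ?_, hvX⟩
  have hv1 : |v - X| ≤ 1 := by
    refine hvX.trans (hη.trans ?_)
    rw [div_le_one (by positivity)]
    linarith
  obtain ⟨c1, c2⟩ := abs_le.1 hv1
  have hB3 : (2 : ℝ) ^ (S ^ 2 + 1) + 2 ≤ Big S := by
    have h4 : (2 : ℝ) ^ (S ^ 2 + 1) + 2 ≤ 2 ^ (S ^ 2 + 2) := by
      have h5 : (2 : ℝ) ^ 1 ≤ 2 ^ (S ^ 2 + 1) := pow_le_pow_right₀ (by norm_num) (by omega)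
      rw [show S ^ 2 + 2 = S ^ 2 + 1 + 1 by ring, pow_succ (2 : ℝ) (S ^ 2 + 1)]
      norm_num at h5
      linarith
    refine h4.trans ?_
    unfold Big
    refine pow_le_pow_right₀ (by norm_num) ?_
    have h6 : S ^ 4 = S ^ 2 * S ^ 2 := by ring
    have h7 : 1000000 ≤ S ^ 2 := by nlinarith
    rw [h6]
    nlinarith
  have hvBig : |v| ≤ Big S := by
    rw [abs_le]
    constructor <;> linarith
  have hhalf := half_word hS
  set hw := cdiv S (fone S) (cadd S 1 1) with hhw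
  have hhBig : |val S hw| ≤ Big S := by
    rw [hhalf, abs_of_pos (by norm_num)]
    linarith
  have e3 : val S (cadd S fw hw) = v + 1 / 2 := by
    rw [val_add hS hvBig hhBig, hhalf]
  have hwBig : |val S (cadd S fw hw)| ≤ Big S := by
    rw [e3, abs_le]
    constructor <;> linarith
  have e4 := ffloor_eq hS hwBig
  rw [e3] at e4
  have h3 : finishF S (y, ((L : ℤ), (R : ℤ))) = ffloor S (cadd S fw hw) := by
    unfold finishF
    simp only [if_pos hLi, if_pos hRi]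
    rfl
  rw [h3, e4]

/-- **The estimate is within the required bounds when the counts are good.** -/
theorem finish_ok (hS : 1000000 ≤ S) {y : ℤ} {L R N a : ℕ} {ε : ℝ} (hL : 0 < L) (hLS : L ≤ S ^ 3)
    (hR : 0 < R) (hRS : R ≤ S ^ 3) (hN1 : 1 ≤ N) (hN2 : (N : ℝ) ≤ 2 ^ (S ^ 2)) (ha : 0 < a)
    (haS : a ≤ S) (hε0 : 0 ≤ ε) (hε : ε ≤ 1 / (8 * (a : ℝ)))
    (h1 : (1 - ε) * N ≤ Real.exp (val S y) * L / R) (h2 : Real.exp (val S y) * L / R ≤ (1 + ε) * N) :
    (1 - 1 / (a : ℝ)) * N ≤ (finishF S (y, ((L : ℤ), (R : ℤ))) : ℝ)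
      ∧ (finishF S (y, ((L : ℤ), (R : ℤ))) : ℝ) ≤ (1 + 1 / (a : ℝ)) * N := by
  obtain ⟨-, hS1, hS6⟩ := S_num hS
  have hS0 : (0 : ℝ) < S := by linarith
  have haR : (0 : ℝ) < a := by exact_mod_cast ha
  have haSR : (a : ℝ) ≤ S := by exact_mod_cast haS
  have ha1 : (1 : ℝ) ≤ a := by exact_mod_cast ha
  have hN1R : (1 : ℝ) ≤ N := by exact_mod_cast hN1
  have hε1 : ε ≤ 1 / 8 := by
    refine hε.trans ?_
    exact one_div_le_one_div_of_le (by norm_num) (by linarith)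
  have hX1 : 7 / 8 ≤ Real.exp (val S y) * L / R := by nlinarith
  have hX2 : Real.exp (val S y) * L / R ≤ 2 ^ (S ^ 2 + 1) := by
    have h3 : (1 + ε) * N ≤ 2 * N := by nlinarith
    have h4 : (2 : ℝ) * N ≤ 2 * 2 ^ (S ^ 2) := by linarith
    calc Real.exp (val S y) * L / R ≤ (1 + ε) * N := h2
      _ ≤ 2 * N := h3
      _ ≤ 2 * 2 ^ (S ^ 2) := h4
      _ = 2 ^ (S ^ 2 + 1) := by rw [pow_succ]; ring
  obtain ⟨v, hv1, hv2⟩ := finish_val hS hL hLS hR hRS rfl hX1 hX2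
  have hη := eta_num hS
  rw [hv1]
  refine finish_real hN1 ha hε0 ?_ hε (hη.trans ?_) hv2 h1 h2
  · positivity
  · exact one_div_le_one_div_of_le (by positivity) (by linarith)

end Finish2
/-! ### The parameters, in numbers -/

section Numbers

variable {r : Fin m → ℕ} {c : Fin n → ℕ} {a b k S : ℕ}

theorem size_facts (hm : 0 < m) (hn : 0 < n) (ha : 0 < a) (hb : 0 < b) :
    6 ≤ sizeL r c a b ∧ m + 1 ≤ sizeL r c a b ∧ n + 1 ≤ sizeL r c a b ∧ a ≤ sizeL r c a b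
      ∧ ∑ i, r i < 2 ^ sizeL r c a b ∧ ∑ j, c j < 2 ^ sizeL r c a b ∧ b < 2 ^ sizeL r c a b
      ∧ Nat.size b ≤ sizeL r c a b := by
  have hs : 0 < Nat.size b := Nat.size_pos.2 hb
  have h1 := sum_lt_size r
  have h2 := sum_lt_size c
  have h3 := Nat.lt_size_self b
  have h4 : ∀ A B : ℕ, 2 ^ A ≤ 2 ^ (A + B) := fun A B => Nat.pow_le_pow_right (by norm_num) (by omega)
  unfold sizeL
  refine ⟨by omega, by omega, by omega, by omega, ?_, ?_, ?_, by omega⟩
  · exact h1.trans_le (Nat.pow_le_pow_right (by norm_num) (by omega))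
  · exact h2.trans_le (Nat.pow_le_pow_right (by norm_num) (by omega))
  · exact h3.trans_le (Nat.pow_le_pow_right (by norm_num) (by omega))

/-- The parameter `ε` for which the size parameter of the walk is `S`. -/
noncomputable def epsS (m k S : ℕ) : ℝ := 10 ^ 8 * ((k : ℝ) + 1) * ((m : ℝ) + 1) * rhoP m k / S

theorem epsS_Bpar (hS : 0 < S) : Bpar m k (rhoP m k) (epsS m k S) = S := by
  have h1 : (0 : ℝ) < S := by exact_mod_cast hS
  have h2 : 0 < rhoP m k := lt_of_lt_of_le zero_lt_one (rhoP_one m k)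
  have h3 : (0 : ℝ) ≤ m := Nat.cast_nonneg _
  have h4 : (0 : ℝ) ≤ k := Nat.cast_nonneg _
  unfold Bpar epsS
  have h5 : (0 : ℝ) < 10 ^ 8 * ((k : ℝ) + 1) * ((m : ℝ) + 1) * rhoP m k := by positivity
  rw [div_div_cancel₀ h5.ne']

theorem epsS_par (hS : 0 < S) : parOf m k (rhoP m k) (epsS m k S) = parS S := by
  unfold parOf parS
  rw [epsS_Bpar hS]
  congr 1
  rw [← Nat.cast_pow]
  exact Nat.ceil_natCast _

theorem epsS_steps (hS : 0 < S) : stepsOf m k (rhoP m k) (epsS m k S) = S ^ 20 := by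
  unfold stepsOf
  rw [epsS_Bpar hS, ← Nat.cast_pow]
  exact Nat.ceil_natCast _

theorem epsS_runs (hS : 0 < S) {δ : ℝ} (hδ : Real.log (4 / δ) ≤ S) :
    runsOf m k (rhoP m k) (epsS m k S) δ ≤ S ^ 3 := by
  unfold runsOf
  rw [epsS_Bpar hS]
  apply Nat.ceil_le.2
  push_cast
  have h1 : (0 : ℝ) ≤ (S : ℝ) ^ 2 := by positivity
  calc (S : ℝ) ^ 2 * Real.log (4 / δ) ≤ (S : ℝ) ^ 2 * S := mul_le_mul_of_nonneg_left hδ h1
    _ = (S : ℝ) ^ 3 := by ring

theorem eps_num {L : ℕ} (h6 : 6 ≤ L) (hm : m + 1 ≤ L) (hk : k + 1 ≤ L) (ha : a ≤ L) (hS : S = L ^ 100) :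
    8 * (a : ℝ) * (10 ^ 8 * ((k : ℝ) + 1) * ((m : ℝ) + 1) * rhoP m k) ≤ S := by
  have hL6 : (6 : ℝ) ≤ L := by exact_mod_cast h6
  have hL0 : (0 : ℝ) < L := by linarith
  have hL1 : (1 : ℝ) ≤ L := by linarith
  have hmL : (m : ℝ) + 1 ≤ L := by exact_mod_cast hm
  have hkL : (k : ℝ) + 1 ≤ L := by exact_mod_cast hk
  have haL : (a : ℝ) ≤ L := by exact_mod_cast ha
  have hm0 : (0 : ℝ) ≤ m := Nat.cast_nonneg _
  have hk0 : (0 : ℝ) ≤ k := Nat.cast_nonneg _
  have ha0 : (0 : ℝ) ≤ a := Nat.cast_nonneg _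
  have hc : (8 * 10 ^ 26 : ℝ) ≤ (L : ℝ) ^ 35 := by
    calc (8 * 10 ^ 26 : ℝ) ≤ 6 ^ 35 := by norm_num
      _ ≤ (L : ℝ) ^ 35 := pow_le_pow_left₀ (by norm_num) hL6 35
  have h1 : ((k : ℝ) + 1) ^ 37 ≤ (L : ℝ) ^ 37 := pow_le_pow_left₀ (by positivity) hkL 37
  have h2 : ((m : ℝ) + 1) ^ 17 ≤ (L : ℝ) ^ 17 := pow_le_pow_left₀ (by positivity) hmL 17
  have e : 8 * (a : ℝ) * (10 ^ 8 * ((k : ℝ) + 1) * ((m : ℝ) + 1) * rhoP m k)
      = (8 * 10 ^ 26) * (a * (((k : ℝ) + 1) ^ 37 * ((m : ℝ) + 1) ^ 17)) := by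
    unfold rhoP
    ring
  rw [e, hS]
  push_cast
  calc (8 * 10 ^ 26 : ℝ) * (a * (((k : ℝ) + 1) ^ 37 * ((m : ℝ) + 1) ^ 17))
      ≤ (L : ℝ) ^ 35 * (L * ((L : ℝ) ^ 37 * (L : ℝ) ^ 17)) := by
        gcongr
    _ = (L : ℝ) ^ 90 := by ring
    _ ≤ (L : ℝ) ^ 100 := pow_le_pow_right₀ hL1 (by norm_num)

theorem wok_num {L : ℕ} (h6 : 6 ≤ L) (hm : m + 1 ≤ L) (hk : k + 1 ≤ L) (hS : S = L ^ 100) : WOK m k S := by
  have hL6 : (6 : ℝ) ≤ L := by exact_mod_cast h6
  have hL1 : (1 : ℝ) ≤ L := by linarith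
  have hmL : (m : ℝ) + 1 ≤ L := by exact_mod_cast hm
  have hkL : (k : ℝ) + 1 ≤ L := by exact_mod_cast hk
  have hm0 : (0 : ℝ) ≤ m := Nat.cast_nonneg _
  have hk0 : (0 : ℝ) ≤ k := Nat.cast_nonneg _
  have h1 : (k : ℝ) * m + 1 ≤ (L : ℝ) ^ 2 := by nlinarith
  have h2 : (10 : ℝ) ^ 6 ≤ (L : ℝ) ^ 8 := by
    calc (10 : ℝ) ^ 6 ≤ 6 ^ 8 := by norm_num
      _ ≤ (L : ℝ) ^ 8 := pow_le_pow_left₀ (by norm_num) hL6 8
  show (10 : ℝ) ^ 6 * ((k : ℝ) * m + 1) ^ 2 ≤ (S : ℝ)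
  rw [hS]
  push_cast
  calc (10 : ℝ) ^ 6 * ((k : ℝ) * m + 1) ^ 2 ≤ (L : ℝ) ^ 8 * ((L : ℝ) ^ 2) ^ 2 := by gcongr
    _ = (L : ℝ) ^ 12 := by ring
    _ ≤ (L : ℝ) ^ 100 := pow_le_pow_right₀ hL1 (by norm_num)

/-- The logarithm of the probability parameter. -/
theorem log_num {L : ℕ} (hb : 0 < b) (hb1 : Nat.size b + 3 ≤ L) (hS : S = L ^ 100) (h6 : 6 ≤ L) :
    Real.log (4 / (1 / (2 * (b : ℝ)))) ≤ S := by
  have hbR : (0 : ℝ) < b := by exact_mod_cast hb
  have e : (4 : ℝ) / (1 / (2 * (b : ℝ))) = 2 ^ 3 * b := by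
    field_simp
    norm_num
  rw [e, Real.log_mul (by norm_num) hbR.ne', Real.log_pow]
  have hlog2 : Real.log 2 ≤ 1 := by
    have := Real.log_le_sub_one_of_pos (show (0 : ℝ) < 2 by norm_num)
    linarith
  have hlog20 : 0 ≤ Real.log 2 := Real.log_nonneg (by norm_num)
  have hbl : Real.log b ≤ Nat.size b := by
    have h1 : (b : ℝ) ≤ 2 ^ Nat.size b := by exact_mod_cast (Nat.lt_size_self b).le
    have h2 : Real.log b ≤ Real.log (2 ^ Nat.size b) := Real.log_le_log hbR h1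
    rw [Real.log_pow] at h2
    have h3 : (Nat.size b : ℝ) * Real.log 2 ≤ (Nat.size b : ℝ) * 1 :=
      mul_le_mul_of_nonneg_left hlog2 (Nat.cast_nonneg _)
    linarith
  have hLS : (L : ℝ) ≤ S := by
    rw [hS]
    have h1 : 1 ≤ L := by omega
    have : L ≤ L ^ 100 := Nat.le_self_pow (by norm_num) L
    exact_mod_cast this
  have h3 : ((Nat.size b + 3 : ℕ) : ℝ) ≤ L := by exact_mod_cast hb1
  push_cast at h3 ⊢
  nlinarith

/-- The number of tables in terms of the margins. -/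
theorem card_tabs_le (r : Fin m → ℕ) (c : Fin n → ℕ) {M : ℕ} (hM : ∀ i, r i + 1 ≤ M) :
    (tabs r c).card ≤ M ^ (m * n) := by
  unfold tabs
  refine (Finset.card_filter_le _ _).trans ?_
  rw [Fintype.card_piFinset]
  simp only [Fintype.card_piFinset, Finset.card_range]
  have h1 : ∀ j ∈ (univ : Finset (Fin n)), ∏ i, (r i + 1) ≤ M ^ m := by
    intro j _
    calc ∏ i, (r i + 1) ≤ ∏ _i : Fin m, M := Finset.prod_le_prod' fun i _ => hM i
      _ = M ^ m := by simp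
  calc ∏ _j : Fin n, ∏ i, (r i + 1) ≤ ∏ _j : Fin n, M ^ m := Finset.prod_le_prod' h1
    _ = M ^ (m * n) := by
      simp [pow_mul]

end Numbers

/-! ### The main theorem for the sorted columns -/

section Spec

variable {r : Fin m → ℕ} {cl : List ℕ} {a b S : ℕ}

/-- `runProb_mono` with any instances. -/
theorem runProb_mono_inst {X : Type} [DecidableEq X] (V : Finset (List X)) (μ : List X → ℝ)
    (hμ : ∀ v ∈ V, 0 ≤ μ v) (R : ℕ) (E E' : (Fin R → List X) → Prop) (i1 : DecidablePred E)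
    (i2 : DecidablePred E') (h : ∀ ω, (∀ i, ω i ∈ V) → E ω → E' ω) :
    @runProb X V μ R E i1 ≤ @runProb X V μ R E' i2 :=
  runProb_mono V μ hμ R E E' h

open Classical in
/-- The run given a good value at the root. -/
theorem run_good (h : RootOK S r cl) (hS : 1000000 ≤ S) (hlen : cl.length ≤ S) {δ : ℝ} (hδ0 : 0 < δ)
    (hδ1 : δ ≤ 1) (hδS : Real.log (4 / δ) ≤ S) (hε0 : 0 < epsS m cl.length S) (hε1 : epsS m cl.length S ≤ 1)
    {Ahat : ℝ} (hAhat : |Ahat - Aval r cl.get| ≤ epsS m cl.length S / 4 * Aval r cl.get) :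
    ENNReal.ofReal (1 - δ) ≤ (runF S (lN r, lL cl)).toOuterMeasure {p | ∃ a b : ℕ, p = ((a : ℤ), (b : ℤ))
      ∧ (a ≤ S ^ 3 ∧ b ≤ S ^ 3
        ∧ (1 - epsS m cl.length S) * ((tabs r cl.get).card : ℝ) ≤ Ahat * (a : ℝ) / (b : ℝ)
        ∧ Ahat * (a : ℝ) / (b : ℝ) ≤ (1 + epsS m cl.length S) * ((tabs r cl.get).card : ℝ))} := by
  have hS0 : 0 < S := by omega
  obtain ⟨down', hdown, hw⟩ := walkF_close h
  have hsup := fun v hv => (hw v hv).1
  have hpar := epsS_par (m := m) (k := cl.length) hS0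
  have hB := epsS_Bpar (m := m) (k := cl.length) hS0
  have hQ0 : ∀ v ∈ nodes (kids r cl) cl.length, ∀ w, 0 ≤ qF S r cl v w := fun v _ w => qF_nonneg v w
  have hrob := fpras_robustD (ρ := rhoP) rhoP_one rhoP_mono_right hbound_rhoP h.hm r cl h.hc h.hpos h.hsum
    hε0 hε1 hδ0 hδ1 hAhat (down' := down')
    (by
      rw [hpar]
      exact hdown)
    (Q := qF S r cl) hQ0
    (fun v hv => qF_sum (hsup v hv))
    (by
      rw [hpar, hB]
      intro v hv
      have := (hw v hv).2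
      simpa [qF] using this)
    (R := S ^ 3) (epsS_runs hS0 hδS)
  rw [epsS_steps hS0] at hrob
  rw [runF_law h.hm hS hlen hsup]
  refine ENNReal.ofReal_le_ofReal (hrob.trans ?_)
  refine runProb_mono_inst _ _ (fun v _ => lawT_nonneg hQ0 _ v) _ _ _ _ _ fun ω _ hE => ?_
  have hcount : ∀ G : Finset (List (Fin m → ℕ)), countIn G ω ≤ S ^ 3 := by
    intro G
    unfold countIn
    refine (Finset.card_le_univ _).trans ?_
    simp
  exact ⟨hcount _, hcount _, hE.1, hE.2⟩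

end Spec
/-! ### The main theorem -/

section Final

theorem mainF_eq {S : ℕ} {x : List ℤ × List ℤ} {A : List ℤ} (h : sortF S x.2 = A) (hA : A ≠ []) :
    mainF S x = (annealF S (x.1, A)).bind fun y => (runF S (x.1, A)).bind fun p =>
      PMF.pure (finishF S (y, p)) := by
  cases A with
  | nil => exact absurd rfl hA
  | cons a t =>
    unfold mainF
    rw [h]

theorem mainF_eq_nil {S : ℕ} {x : List ℤ × List ℤ} (h : sortF S x.2 = []) : mainF S x = PMF.pure 1 := by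
  unfold mainF
  rw [h]

/-- The outer measure of a bind, from below. -/
theorem outer_bind_ge {α β : Type} (μ : PMF α) (g : α → PMF β) (s : Set β) (A : Set α) {e f : ℝ≥0∞}
    (hA : e ≤ μ.toOuterMeasure A) (hg : ∀ y ∈ A, f ≤ (g y).toOuterMeasure s) :
    e * f ≤ (μ.bind g).toOuterMeasure s := by
  classical
  rw [PMF.toOuterMeasure_bind_apply]
  calc e * f ≤ μ.toOuterMeasure A * f := by gcongr
    _ = ∑' y, A.indicator μ y * f := by
        rw [PMF.toOuterMeasure_apply, ENNReal.tsum_mul_right]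
    _ ≤ ∑' y, μ y * (g y).toOuterMeasure s := by
        refine ENNReal.tsum_le_tsum fun y => ?_
        by_cases hy : y ∈ A
        · rw [Set.indicator_of_mem hy]
          gcongr
          exact hg y hy
        · rw [Set.indicator_of_notMem hy, zero_mul]
          exact zero_le

/-- A good value at the root. -/
theorem main_good {r : Fin m → ℕ} {c : Fin n → ℕ} {cl : List ℕ} {L S a : ℕ} {ε δ : ℝ} {y : ℤ}
    (hroot : RootOK S r cl) (hS : 1000000 ≤ S) (hlen : cl.length ≤ S) (hLS : L ^ 3 ≤ S ^ 2)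
    (hεdef : ε = epsS m cl.length S) (hδ0 : 0 < δ) (hδ1 : δ ≤ 1) (hδS : Real.log (4 / δ) ≤ S)
    (hε0 : 0 < ε) (hε1 : ε ≤ 1) (hεa : ε ≤ 1 / (8 * (a : ℝ))) (hε8 : ε ≤ 1 / 8) (ha : 0 < a) (haS : a ≤ S)
    (hmL : m ≤ L) (hnL : n ≤ L) (hrL : ∑ i, r i < 2 ^ L) (hNne : 1 ≤ (tabs r c).card)
    (hs5 : (tabs r cl.get).card = (tabs r c).card)
    (hy : |Real.exp (val S y) - Aval r cl.get| ≤ ε / 4 * Aval r cl.get) :
    ENNReal.ofReal (1 - δ) ≤ ((runF S (lN r, lL cl)).bind fun p => PMF.pure (finishF S (y, p))).toOuterMeasure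
      {y : ℤ | (1 - 1 / (a : ℝ)) * ((tabs r c).card : ℝ) ≤ y ∧ (y : ℝ) ≤ (1 + 1 / (a : ℝ)) * ((tabs r c).card : ℝ)} := by
  subst hεdef
  have hrun := run_good hroot hS hlen hδ0 hδ1 hδS hε0 hε1 hy
  have hmap : (runF S (lN r, lL cl)).bind (fun p => PMF.pure (finishF S (y, p)))
      = (runF S (lN r, lL cl)).map fun p => finishF S (y, p) := rfl
  rw [hmap, PMF.toOuterMeasure_map_apply]
  refine hrun.trans (PMF.toOuterMeasure_mono _ ?_)
  rintro p ⟨⟨a', b', rfl, ha1, hb1, h1, h2⟩, -⟩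
  rw [hs5] at h1 h2
  set N := (tabs r c).card with hN
  have hN1R : (1 : ℝ) ≤ N := by exact_mod_cast hNne
  have hN2 : (N : ℝ) ≤ 2 ^ (S ^ 2) := by
    have hrM : ∀ i, r i + 1 ≤ 2 ^ L := fun i =>
      (Finset.single_le_sum (f := r) (fun _ _ => Nat.zero_le _) (Finset.mem_univ i)).trans_lt hrL
    have h3 := card_tabs_le r c hrM
    rw [← pow_mul] at h3
    have h4 : L * (m * n) ≤ S ^ 2 := by
      have h5 : L * (m * n) ≤ L * (L * L) :=
        Nat.mul_le_mul_left _ (Nat.mul_le_mul hmL hnL)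
      have h6' : L * (L * L) = L ^ 3 := by ring
      omega
    have h8 : N ≤ 2 ^ (S ^ 2) := h3.trans (Nat.pow_le_pow_right (by norm_num) h4)
    exact_mod_cast h8
  have hpos : ∀ {u v : ℕ}, (1 - epsS m cl.length S) * (N : ℝ) ≤ Real.exp (val S y) * (u : ℝ) / (v : ℝ) →
      0 < u ∧ 0 < v := by
    intro u v h
    have h3 : 0 < (1 - epsS m cl.length S) * (N : ℝ) := by
      have : 0 < 1 - epsS m cl.length S := by linarith
      positivity
    constructor
    · rcases Nat.eq_zero_or_pos u with h0 | h0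
      · rw [h0] at h
        simp at h
        linarith
      · exact h0
    · rcases Nat.eq_zero_or_pos v with h0 | h0
      · rw [h0] at h
        simp at h
        linarith
      · exact h0
  obtain ⟨ha', hb'⟩ := hpos h1
  exact finish_ok hS ha' ha1 hb' hb1 hNne hN2 ha haS hε0.le hεa h1 h2

/-- The case of no positive columns. -/
theorem main_nil {r : Fin m → ℕ} {c : Fin n → ℕ} {S a b : ℕ} (ha : 0 < a) (hr0 : ∑ i, r i = 0)
    (hNne : 1 ≤ (tabs r c).card) (hsort0 : sortF S (lN c) = []) :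
    ENNReal.ofReal (1 - 1 / (b : ℝ)) ≤ (mainF S (lN r, lN c)).toOuterMeasure
      {y : ℤ | (1 - 1 / (a : ℝ)) * ((tabs r c).card : ℝ) ≤ y ∧ (y : ℝ) ≤ (1 + 1 / (a : ℝ)) * ((tabs r c).card : ℝ)} := by
  classical
  have hmain := mainF_eq_nil (S := S) (x := (lN r, lN c)) hsort0
  rw [hmain, PMF.toOuterMeasure_pure_apply]
  have hNle : (tabs r c).card ≤ 1 := by
    have h1 := card_tabs_le r c (M := 1) (fun i => by
      have := (Finset.sum_eq_zero_iff.1 hr0) i (Finset.mem_univ i)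
      omega)
    simpa using h1
  have hN1 : (tabs r c).card = 1 := le_antisymm hNle hNne
  have h1a : (0 : ℝ) ≤ 1 / (a : ℝ) := by positivity
  have hmem : (1 : ℤ) ∈ {y : ℤ | (1 - 1 / (a : ℝ)) * ((tabs r c).card : ℝ) ≤ y
      ∧ (y : ℝ) ≤ (1 + 1 / (a : ℝ)) * ((tabs r c).card : ℝ)} := by
    rw [hN1]
    simp only [Set.mem_setOf_eq, Nat.cast_one, Int.cast_one, mul_one]
    constructor <;> linarith
  rw [if_pos hmem]
  exact ENNReal.ofReal_le_one.2 (by
    have : 0 ≤ 1 / (b : ℝ) := by positivity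
    linarith)

/-- The main case, with the numbers abstract. -/
theorem main_cons {r : Fin m → ℕ} {c : Fin n → ℕ} {L S a b : ℕ} (hm : 0 < m) (hb : 0 < b) (ha : 0 < a)
    (hSdef : S = L ^ 100) (h6 : 6 ≤ L) (hmL : m + 1 ≤ L) (hnL : n + 1 ≤ L) (haL : a ≤ L)
    (hrL : ∑ i, r i < 2 ^ L) (hsL : Nat.size b + 3 ≤ L) (hLS : L ≤ S) (hS : 1000000 ≤ S) (hsum : ∑ i, r i = ∑ j, c j)
    (hsort : sortF S (lN c) = lL (sortedCols c)) (hcl : sortedCols c ≠ []) (hNne : 1 ≤ (tabs r c).card) :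
    ENNReal.ofReal (1 - 1 / (b : ℝ)) ≤ (mainF S (lN r, lN c)).toOuterMeasure
      {y : ℤ | (1 - 1 / (a : ℝ)) * ((tabs r c).card : ℝ) ≤ y ∧ (y : ℝ) ≤ (1 + 1 / (a : ℝ)) * ((tabs r c).card : ℝ)} := by
  obtain ⟨hs1, hs2, hs3, hs4, hs5⟩ := sortedCols_spec r c
  set cl := sortedCols c with hcldef
  have hS0 : 0 < S := by omega
  have hSR : (0 : ℝ) < S := by exact_mod_cast hS0
  have hbR : (1 : ℝ) ≤ b := by exact_mod_cast hb
  have haR : (1 : ℝ) ≤ a := by exact_mod_cast ha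
  have hsum' : ∑ i, r i = cl.sum := by rw [hsum, hs3]
  have hk0 : 0 < cl.length := List.length_pos_iff.2 hcl
  have hkn : cl.length + 1 ≤ L := by omega
  have hW : WOK m cl.length S := wok_num h6 hmL hkn hSdef
  have hrS : ∑ i, r i < 2 ^ S := hrL.trans_le (Nat.pow_le_pow_right (by norm_num) hLS)
  have hroot : RootOK S r cl := ⟨hm, hs1, hs2, hsum', hW, hrS⟩
  have hnode : NodeOK S r cl.get := by
    have h1 : ∑ j, cl.get j = cl.sum := by
      have := List.sum_ofFn (f := cl.get)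
      rw [List.ofFn_get] at this
      exact this.symm
    exact ⟨hm, hk0, fun j => hs2 _ (List.get_mem _ _), hsum'.trans h1.symm, hW, hrS⟩
  set ε := epsS m cl.length S with hεdef
  have heps := eps_num (m := m) (k := cl.length) (a := a) (S := S) h6 hmL hkn haL hSdef
  have hB0 : (1 : ℝ) ≤ 10 ^ 8 * ((cl.length : ℝ) + 1) * ((m : ℝ) + 1) * rhoP m cl.length := by
    have h1 := rhoP_one m cl.length
    have h2 : (0 : ℝ) ≤ cl.length := Nat.cast_nonneg _
    have h3 : (0 : ℝ) ≤ m := Nat.cast_nonneg _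
    have h4 : (1 : ℝ) ≤ 10 ^ 8 * ((cl.length : ℝ) + 1) * ((m : ℝ) + 1) := by
      have h5 : (1 : ℝ) ≤ ((cl.length : ℝ) + 1) * ((m : ℝ) + 1) :=
        one_le_mul_of_one_le_of_one_le (by linarith) (by linarith)
      nlinarith
    exact one_le_mul_of_one_le_of_one_le h4 h1
  have hεS : 1 / (S : ℝ) ≤ ε := by
    rw [hεdef]
    unfold epsS
    exact div_le_div_of_nonneg_right hB0 hSR.le
  have hB2 : (2 : ℝ) ≤ 10 ^ 8 * ((cl.length : ℝ) + 1) * ((m : ℝ) + 1) * rhoP m cl.length := by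
    have h1 := rhoP_one m cl.length
    have h2 : (0 : ℝ) ≤ cl.length := Nat.cast_nonneg _
    have h3 : (0 : ℝ) ≤ m := Nat.cast_nonneg _
    have h5 : (1 : ℝ) ≤ ((cl.length : ℝ) + 1) * ((m : ℝ) + 1) :=
      one_le_mul_of_one_le_of_one_le (by linarith) (by linarith)
    have h4 : (2 : ℝ) ≤ 10 ^ 8 * ((cl.length : ℝ) + 1) * ((m : ℝ) + 1) := by nlinarith
    nlinarith
  have hεS2 : 2 / (S : ℝ) ≤ ε := by
    rw [hεdef]
    unfold epsS
    exact div_le_div_of_nonneg_right hB2 hSR.le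
  have hε0 : 0 < ε := lt_of_lt_of_le (by positivity) hεS
  have hεa : ε ≤ 1 / (8 * (a : ℝ)) := by
    rw [hεdef]
    unfold epsS
    rw [div_le_div_iff₀ hSR (by positivity)]
    linarith
  have hε1 : ε ≤ 1 := by
    refine hεa.trans ?_
    rw [div_le_one (by positivity)]
    linarith
  have hε8 : ε ≤ 1 / 8 := by
    refine hεa.trans ?_
    exact one_div_le_one_div_of_le (by norm_num) (by linarith)
  -- the probabilities
  set δ : ℝ := 1 / (2 * (b : ℝ)) with hδdef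
  have hδ0 : 0 < δ := by positivity
  have hδ1 : δ ≤ 1 := by
    rw [hδdef, div_le_one (by positivity)]
    linarith
  have hδS : Real.log (4 / δ) ≤ S := log_num hb hsL hSdef h6
  have hA := annealF_spec hnode hεS2 hε1 hδ0 hδ1 hδS
  rw [lN_get] at hA
  have hne : lL cl ≠ [] := by
    intro h
    apply hcl
    simpa [lL] using h
  rw [mainF_eq (x := (lN r, lN c)) hsort hne]
  have hL3 : L ^ 3 ≤ S ^ 2 := by
    have h7 : L ^ 3 ≤ L ^ 200 := Nat.pow_le_pow_right (by omega) (by norm_num)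
    have h8 : S ^ 2 = L ^ 200 := by
      rw [hSdef, ← pow_mul]
    omega
  refine le_trans ?_ (outer_bind_ge _ _ _ _ hA (f := ENNReal.ofReal (1 - δ)) fun y hy =>
    main_good hroot hS (by omega) hL3 hεdef hδ0 hδ1 hδS hε0 hε1 hεa hε8 ha (by omega) (by omega) (by omega) hrL
      hNne hs5 hy)
  rw [← ENNReal.ofReal_mul (by linarith)]
  refine ENNReal.ofReal_le_ofReal ?_
  have e : 1 / (b : ℝ) = 2 * δ := by
    rw [hδdef]
    field_simp
  rw [e]
  nlinarith [sq_nonneg δ]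

/-- **The guarantee of the algorithm.** -/
theorem mainF_spec (hm : 0 < m) (hn : 0 < n) (r : Fin m → ℕ) (c : Fin n → ℕ)
    (hsum : ∑ i, r i = ∑ j, c j) {a b : ℕ} (ha : 0 < a) (hb : 0 < b) :
    ENNReal.ofReal (1 - 1 / (b : ℝ)) ≤ (mainF (sizeL r c a b ^ 100) (lN r, lN c)).toOuterMeasure
      {y : ℤ | (1 - 1 / (a : ℝ)) * ((tabs r c).card : ℝ) ≤ y ∧ (y : ℝ) ≤ (1 + 1 / (a : ℝ)) * ((tabs r c).card : ℝ)} := by
  obtain ⟨h6, hmL, hnL, haL, hrL, hcL, hbL, hsL⟩ := size_facts (r := r) (c := c) hm hn ha hb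
  generalize hL : sizeL r c a b = L at *
  generalize hSdef : L ^ 100 = S
  have hLS : L ≤ S := by
    rw [← hSdef]
    exact Nat.le_self_pow (by norm_num) L
  have hS : 1000000 ≤ S := by
    rw [← hSdef]
    calc 1000000 ≤ 6 ^ 100 := by norm_num
      _ ≤ L ^ 100 := Nat.pow_le_pow_left h6 100
  have hcS : ∀ j, c j < 2 ^ S := fun j =>
    ((Finset.single_le_sum (f := c) (fun _ _ => Nat.zero_le _) (Finset.mem_univ j)).trans_lt hcL).trans_le
      (Nat.pow_le_pow_right (by norm_num) hLS)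
  have hsort := sortF_eq hS (by omega) c hcS
  have hNne : 1 ≤ (tabs r c).card := (Sparse.tabs_nonempty _ r c hsum rfl).card_pos
  have hsz : Nat.size b + 3 ≤ L := by
    have hs0 : 0 < Nat.size b := Nat.size_pos.2 hb
    have : L = m + n + ∑ i, Nat.size (r i) + ∑ j, Nat.size (c j) + a + Nat.size b + 2 := hL.symm
    omega
  by_cases hcl : sortedCols c = []
  · refine main_nil ha ?_ hNne (by rw [hsort, hcl]; rfl)
    rw [hsum, ← (sortedCols_spec r c).2.2.1, hcl]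
    rfl
  · exact main_cons hm hb ha hSdef.symm h6 hmL hnL haL hrL hsz hLS hS hsum hsort hcl hNne

end Final

end Vale.Agent.Lib.P328.Bit
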