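import Vale.Agent.Lib.P328.Bit.Lists

/-!
# P328, bit model: the law of the low bits of a point, and integrals of step functions (module NODEF, part one)

* `lintegral_floor_cube`: the integral over the unit cube of a function of the `2 ^ p`-fine cell of the point.
* `nl_uniform_map_prod`: the uniform law on a product.
* `seqP_ofFn_uniform`: independent samples, one for each element of a vector, from images of a uniform law.
* `fineF`: `S ^ 2` more low bits of a word; `fineF_eq` its law, `drawK` the same for a matrix of words.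
-/

namespace Vale.Agent.Lib.P328.Bit

open MeasureTheory Finset
open scoped ENNReal

/-! ### Integrals of step functions -/

/-- **The integral over the unit cube of a step function.** -/
theorem lintegral_floor_cube {ι : Type} [Fintype ι] [DecidableEq ι] (p : ℕ) (F : (ι → ℤ) → ℝ≥0∞) :
    ∫⁻ u in Set.Icc (0 : ι → ℝ) 1, F (fun k => ⌊u k * (2 : ℝ) ^ p⌋)
      = ((2 : ℝ≥0∞) ^ (p * Fintype.card ι))⁻¹
        * ∑ a : ι → Fin (2 ^ p), F (fun k => ((a k : ℕ) : ℤ)) := by
  classical
  set N : ℝ := (2 : ℝ) ^ p with hN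
  have hN0 : 0 < N := by positivity
  have hNnat : N = ((2 ^ p : ℕ) : ℝ) := by
    rw [hN]
    push_cast
    rfl
  let B : (ι → Fin (2 ^ p)) → Set (ι → ℝ) := fun a =>
    Set.pi Set.univ fun k => Set.Ico (((a k : ℕ) : ℝ) / N) ((((a k : ℕ) : ℝ) + 1) / N)
  have hBm : ∀ a ∈ (univ : Finset (ι → Fin (2 ^ p))), MeasurableSet (B a) := fun a _ =>
    MeasurableSet.univ_pi fun k => measurableSet_Ico
  -- the floor on a small cube
  have hfl : ∀ a u, u ∈ B a → (fun k => ⌊u k * N⌋) = fun k => ((a k : ℕ) : ℤ) := by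
    intro a u hu
    funext k
    have h1 := (Set.mem_univ_pi.1 hu) k
    rw [Int.floor_eq_iff]
    have h2 : ((a k : ℕ) : ℝ) ≤ u k * N := by
      have := h1.1
      rwa [div_le_iff₀ hN0] at this
    have h3 : u k * N < ((a k : ℕ) : ℝ) + 1 := by
      have := h1.2
      rwa [lt_div_iff₀ hN0] at this
    push_cast
    exact ⟨h2, h3⟩
  -- the cube is the union
  have hU : (Set.pi Set.univ fun _ : ι => Set.Ico (0 : ℝ) 1) = ⋃ a ∈ (univ : Finset (ι → Fin (2 ^ p))), B a := by
    ext u
    simp only [Set.mem_iUnion, Finset.mem_univ, exists_prop, true_and, Set.mem_univ_pi]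
    constructor
    · intro hu
      have h0 : ∀ k, 0 ≤ u k * N := fun k => mul_nonneg (hu k).1 hN0.le
      have h1 : ∀ k, u k * N < N := fun k => by
        have := mul_lt_mul_of_pos_right (hu k).2 hN0
        simpa using this
      have hlt : ∀ k, ⌊u k * N⌋₊ < 2 ^ p := fun k => by
        have h2 : (⌊u k * N⌋₊ : ℝ) ≤ u k * N := Nat.floor_le (h0 k)
        have h3 : (⌊u k * N⌋₊ : ℝ) < ((2 ^ p : ℕ) : ℝ) := by
          rw [← hNnat]
          exact h2.trans_lt (h1 k)
        exact_mod_cast h3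
      refine ⟨fun k => ⟨⌊u k * N⌋₊, hlt k⟩, fun k _ => ?_⟩
      have h2 : (⌊u k * N⌋₊ : ℝ) ≤ u k * N := Nat.floor_le (h0 k)
      have h3 : u k * N < (⌊u k * N⌋₊ : ℝ) + 1 := Nat.lt_floor_add_one _
      constructor
      · simp only
        rwa [div_le_iff₀ hN0]
      · simp only
        rwa [lt_div_iff₀ hN0]
    · rintro ⟨a, ha⟩ k
      have h1 := ha k (Set.mem_univ k)
      have h2 : ((a k : ℕ) : ℝ) + 1 ≤ N := by
        rw [hNnat]
        exact_mod_cast (a k).2
      constructor
      · refine le_trans ?_ h1.1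
        positivity
      · refine h1.2.trans_le ?_
        rw [div_le_one hN0]
        exact h2
  have hD : Set.PairwiseDisjoint (↑(univ : Finset (ι → Fin (2 ^ p)))) B := by
    intro a _ a' _ hne
    refine Set.disjoint_left.2 fun u hu hu' => hne ?_
    funext k
    have h1 := congrFun (hfl a u hu) k
    have h2 := congrFun (hfl a' u hu') k
    rw [h1] at h2
    exact Fin.ext (by exact_mod_cast h2)
  have hae : (Set.Icc (0 : ι → ℝ) 1) =ᵐ[volume] (Set.pi Set.univ fun _ : ι => Set.Ico (0 : ℝ) 1) := by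
    have h1 : (Set.Icc (0 : ι → ℝ) 1) = Set.pi Set.univ fun _ : ι => Set.Icc (0 : ℝ) 1 := by
      ext u
      simp [Set.mem_univ_pi, Pi.le_def, forall_and]
    rw [h1, volume_pi]
    exact Measure.ae_eq_set_pi fun _ _ => Ico_ae_eq_Icc.symm
  have hvol : ∀ a : ι → Fin (2 ^ p), volume (B a) = ((2 : ℝ≥0∞) ^ (p * Fintype.card ι))⁻¹ := by
    intro a
    have h1 : volume (B a) = ∏ k, ENNReal.ofReal ((((a k : ℕ) : ℝ) + 1) / N - ((a k : ℕ) : ℝ) / N) :=
      Real.volume_pi_Ico
    have h2 : ∀ k, ENNReal.ofReal ((((a k : ℕ) : ℝ) + 1) / N - ((a k : ℕ) : ℝ) / N)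
        = ((2 : ℝ≥0∞) ^ p)⁻¹ := by
      intro k
      have h3 : ((((a k : ℕ) : ℝ) + 1) / N - ((a k : ℕ) : ℝ) / N) = N⁻¹ := by
        field_simp
        ring
      rw [h3, hN, ENNReal.ofReal_inv_of_pos (by positivity),
        ENNReal.ofReal_pow (by norm_num)]
      simp
    rw [h1, Finset.prod_congr rfl fun k _ => h2 k, Finset.prod_const, Finset.card_univ,
      pow_mul, ENNReal.inv_pow (a := (2 : ℝ≥0∞) ^ p)]
  rw [setLIntegral_congr hae, hU, lintegral_biUnion_finset hD hBm, Finset.mul_sum]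
  refine Finset.sum_congr rfl fun a _ => ?_
  have h1 : ∫⁻ u in B a, F (fun k => ⌊u k * N⌋) = ∫⁻ _ in B a, F (fun k => ((a k : ℕ) : ℤ)) :=
    setLIntegral_congr_fun (hBm a (mem_univ a)) fun u hu => by
      rw [hfl a u hu]
  rw [h1, setLIntegral_const, hvol, mul_comm]

/-! ### Uniform laws -/

/-- The uniform law on a set in bijection with a product. -/
theorem nl_uniform_map_prod {A B C β : Type} [Fintype A] [Fintype B] [Fintype C] [Nonempty A]
    [Nonempty B] [Nonempty C] (e : A × B ≃ C) (h : C → β) :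
    (PMF.uniformOfFintype C).map h
      = (PMF.uniformOfFintype A).bind fun a => (PMF.uniformOfFintype B).map fun b => h (e (a, b)) := by
  classical
  ext w
  have hA : ((Fintype.card A : ℕ) : ℝ≥0∞) ≠ 0 := by exact_mod_cast Fintype.card_ne_zero
  have hB : ((Fintype.card B : ℕ) : ℝ≥0∞) ≠ 0 := by exact_mod_cast Fintype.card_ne_zero
  have hc : Fintype.card C = Fintype.card A * Fintype.card B := by
    rw [← Fintype.card_prod]
    exact (Fintype.card_congr e).symm
  simp only [PMF.bind_apply, PMF.map_apply, PMF.uniformOfFintype_apply, tsum_fintype]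
  rw [← e.sum_comp, Fintype.sum_prod_type]
  refine Finset.sum_congr rfl fun a _ => ?_
  rw [Finset.mul_sum]
  refine Finset.sum_congr rfl fun b _ => ?_
  rw [hc, Nat.cast_mul, ENNReal.mul_inv (Or.inl hA) (Or.inl (ENNReal.natCast_ne_top _))]
  split_ifs <;> simp

/-- The image of a uniform law under a bijection. -/
theorem nl_uniform_map_equiv {A C : Type} [Fintype A] [Fintype C] [Nonempty A] [Nonempty C] (e : A ≃ C) :
    (PMF.uniformOfFintype A).map e = PMF.uniformOfFintype C := by
  classical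
  ext w
  simp only [PMF.map_apply, PMF.uniformOfFintype_apply, tsum_fintype]
  rw [Finset.sum_eq_single (e.symm w)]
  · simp [Fintype.card_congr e]
  · intro a _ ha
    rw [if_neg]
    intro h
    exact ha (by rw [h]; simp)
  · simp

/-- The law of independent samples from images of a uniform law. -/
theorem seqP_ofFn_uniform {D β : Type} [Fintype D] [Nonempty D] {k : ℕ} (g : Fin k → D → β) :
    seqP (List.ofFn fun i => (PMF.uniformOfFintype D).map (g i))
      = (PMF.uniformOfFintype (Fin k → D)).map fun a => List.ofFn fun i => g i (a i) := by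
  classical
  induction k with
  | zero =>
    have h1 : (fun a : Fin 0 → D => List.ofFn fun i => g i (a i)) = fun _ => [] := by
      funext a
      simp
    rw [h1]
    ext w
    simp only [List.ofFn_zero, seqP, PMF.pure_apply, PMF.map_apply,
      PMF.uniformOfFintype_apply, tsum_fintype]
    simp
  | succ k ih =>
    rw [List.ofFn_succ]
    simp only [seqP]
    rw [ih fun i => g i.succ]
    rw [nl_uniform_map_prod (Fin.consEquiv fun _ => D)]
    unfold PMF.map
    rw [PMF.bind_bind]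
    simp only [Function.comp, PMF.pure_bind, PMF.bind_bind]
    refine congrArg _ (funext fun d => ?_)
    refine congrArg _ (funext fun a => ?_)
    have : (List.ofFn fun i => g i ((Fin.consEquiv fun _ => D) (d, a) i))
        = g 0 d :: List.ofFn fun i => g i.succ (a i) := by
      rw [List.ofFn_succ]
      simp [Fin.consEquiv]
    simp only [Function.comp_apply]
    rw [this]

/-! ### The low bits -/

/-- `S ^ 2` more low bits of a word. -/
noncomputable def fineF (S : ℕ) (z : ℤ) : PMF ℤ :=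
  (fun μ : PMF ℤ => μ.bind fun s => Rep.coinZ.map fun b => cadd S (cadd S s s) b)^[S ^ 2] (PMF.pure z)

/-- The low bits of all entries of a matrix of words. -/
noncomputable def drawK (S : ℕ) (z : List (List ℤ)) : PMF (List (List ℤ)) :=
  seqP ((z.take S).map fun col => seqP ((col.take S).map fun a => fineF S a))

theorem nl_clamp_of_range {S : ℕ} {a : ℤ} (h0 : 0 ≤ a) (h1 : a ≤ 2 ^ wid S) : clamp S a = a := by
  have h2 : (0 : ℤ) < 2 ^ wid S := by positivity
  simp only [clamp]
  rw [min_eq_left h1, max_eq_right (by linarith)]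

theorem nl_cadd_of_range {S : ℕ} {a b : ℤ} (h0 : 0 ≤ a) (h1 : 0 ≤ b) (h2 : a + b ≤ 2 ^ wid S) :
    cadd S a b = a + b := by
  unfold cadd
  rw [nl_clamp_of_range h0 (by linarith), nl_clamp_of_range h1 (by linarith),
    nl_clamp_of_range (by linarith) h2]

/-- The pairs of a number and a bit. -/
def nl_fineEquiv (k : ℕ) : Fin (2 ^ k) × Bool ≃ Fin (2 ^ (k + 1)) :=
  (Equiv.prodCongr (Equiv.refl _) finTwoEquiv.symm).trans finProdFinEquiv

theorem nl_fineEquiv_val (k : ℕ) (v : Fin (2 ^ k)) (b : Bool) :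
    (((nl_fineEquiv k (v, b) : Fin (2 ^ (k + 1))) : ℕ) : ℤ) = 2 * ((v : ℕ) : ℤ) + if b then 1 else 0 := by
  have h : ((nl_fineEquiv k (v, b) : Fin (2 ^ (k + 1))) : ℕ)
      = ((finTwoEquiv.symm b : Fin 2) : ℕ) + 2 * (v : ℕ) := rfl
  rw [h]
  cases b <;> simp [finTwoEquiv, add_comm]

/-- The law of the low bits. -/
theorem fine_iter {S : ℕ} {z : ℤ} (hz : 0 ≤ z) (k : ℕ) (hk : (z + 1) * 2 ^ k ≤ 2 ^ wid S) :
    (fun μ : PMF ℤ => μ.bind fun s => Rep.coinZ.map fun b => cadd S (cadd S s s) b)^[k] (PMF.pure z)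
      = (PMF.uniformOfFintype (Fin (2 ^ k))).map fun v : Fin (2 ^ k) => z * 2 ^ k + ((v : ℕ) : ℤ) := by
  classical
  induction k with
  | zero =>
    have h0 : PMF.uniformOfFintype (Fin (2 ^ 0)) = PMF.pure 0 := by
      ext v
      have hv : v = 0 := Subsingleton.elim (α := Fin 1) v 0
      simp [PMF.uniformOfFintype_apply, hv]
    rw [h0, PMF.pure_map]
    simp
  | succ k ih =>
    have hk2 : (z + 1) * 2 ^ k ≤ 2 ^ wid S := by
      refine le_trans ?_ hk
      have h1 : (0 : ℤ) ≤ z + 1 := by linarith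
      have h2 : (0 : ℤ) < 2 ^ k := by positivity
      rw [pow_succ]
      nlinarith
    rw [Function.iterate_succ_apply', ih hk2, nl_uniform_map_prod (nl_fineEquiv k)]
    simp only [PMF.map, Rep.coinZ, PMF.bind_bind, Function.comp_def, PMF.pure_bind]
    refine congrArg _ (funext fun v => ?_)
    refine congrArg _ (funext fun b => ?_)
    congr 1
    have hv : (0 : ℤ) ≤ ((v : ℕ) : ℤ) := Int.natCast_nonneg _
    have hv1 : ((v : ℕ) : ℤ) + 1 ≤ 2 ^ k := by
      have := v.2
      exact_mod_cast this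
    have hzk : (0 : ℤ) ≤ z * 2 ^ k := by positivity
    set w : ℤ := z * 2 ^ k + ((v : ℕ) : ℤ) with hw
    have hw0 : 0 ≤ w := by positivity
    have hwb : 2 * w + 1 ≤ 2 ^ wid S := by
      have h2 : (z + 1) * 2 ^ (k + 1) = 2 * (z * 2 ^ k + 2 ^ k) := by ring
      rw [h2] at hk
      rw [hw]
      linarith
    have hb0 : (0 : ℤ) ≤ if b then 1 else 0 := by
      split_ifs <;> norm_num
    have hb1 : (if b then (1 : ℤ) else 0) ≤ 1 := by
      split_ifs <;> norm_num
    rw [nl_cadd_of_range hw0 hw0 (by linarith), nl_cadd_of_range (by linarith) hb0 (by linarith),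
      nl_fineEquiv_val, hw, pow_succ]
    ring

theorem fineF_eq {S : ℕ} {z : ℤ} (hz : 0 ≤ z) (hk : (z + 1) * 2 ^ (S ^ 2) ≤ 2 ^ wid S) :
    fineF S z = (PMF.uniformOfFintype (Fin (2 ^ (S ^ 2)))).map
      fun v : Fin (2 ^ (S ^ 2)) => z * 2 ^ (S ^ 2) + ((v : ℕ) : ℤ) :=
  fine_iter hz _ hk

/-- The law of the low bits of a matrix. -/
theorem drawK_eq {S n m : ℕ} (hn : n ≤ S) (hm : m ≤ S) (z : Fin n × Fin m → ℤ) (hz : ∀ k, 0 ≤ z k)
    (hk : ∀ k, (z k + 1) * 2 ^ (S ^ 2) ≤ 2 ^ wid S) :
    drawK S (List.ofFn fun j => List.ofFn fun i => z (j, i))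
      = (PMF.uniformOfFintype (Fin n × Fin m → Fin (2 ^ (S ^ 2)))).map fun a =>
          List.ofFn fun j => List.ofFn fun i => z (j, i) * 2 ^ (S ^ 2) + ((a (j, i) : ℕ) : ℤ) := by
  classical
  unfold drawK
  rw [List.take_of_length_le (by simpa using hn), List.map_ofFn]
  have h1 : ∀ j : Fin n, ((fun col => seqP ((col.take S).map fun a => fineF S a)) ∘
      fun j => List.ofFn fun i => z (j, i)) j
      = (PMF.uniformOfFintype (Fin m → Fin (2 ^ (S ^ 2)))).map fun a => List.ofFn fun i =>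
        z (j, i) * 2 ^ (S ^ 2) + ((a i : ℕ) : ℤ) := by
    intro j
    simp only [Function.comp_apply]
    rw [List.take_of_length_le (by simpa using hm), List.map_ofFn]
    have h2 : (fineF S ∘ fun i => z (j, i)) = fun i =>
        (PMF.uniformOfFintype (Fin (2 ^ (S ^ 2)))).map
          fun v : Fin (2 ^ (S ^ 2)) => z (j, i) * 2 ^ (S ^ 2) + ((v : ℕ) : ℤ) := by
      funext i
      exact fineF_eq (hz _) (hk _)
    rw [h2]
    exact seqP_ofFn_uniform fun i (v : Fin (2 ^ (S ^ 2))) => z (j, i) * 2 ^ (S ^ 2) + ((v : ℕ) : ℤ)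
  rw [show ((fun col => seqP ((col.take S).map fun a => fineF S a)) ∘
      fun j => List.ofFn fun i => z (j, i)) = fun j =>
      (PMF.uniformOfFintype (Fin m → Fin (2 ^ (S ^ 2)))).map fun a => List.ofFn fun i =>
        z (j, i) * 2 ^ (S ^ 2) + ((a i : ℕ) : ℤ) from funext h1]
  rw [seqP_ofFn_uniform fun j (a : Fin m → Fin (2 ^ (S ^ 2))) => List.ofFn fun i =>
        z (j, i) * 2 ^ (S ^ 2) + ((a i : ℕ) : ℤ)]
  rw [← nl_uniform_map_equiv (Equiv.curry (Fin n) (Fin m) (Fin (2 ^ (S ^ 2)))), PMF.map_comp]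
  rfl

/-! ### Programs -/

variable {α β γ : Type} [Enc α] [Enc β] [Enc γ]

theorem Rep.nl_precomp {f : ℕ → α → β} {g : ℕ → β → PMF γ} (hf : DRep f) (hg : Rep g) :
    Rep fun S x => g S (f S x) := by
  obtain ⟨p, hp⟩ := hf
  obtain ⟨q, hq⟩ := hg
  exact ⟨.comp p q, fun S x => by simp only [sem, hp, PMF.pure_bind, hq]⟩

theorem fineF_rep : Rep fineF := by
  have hb : Rep (α := ℤ × ℤ) (β := ℤ) fun S y => Rep.coinZ.map fun b => cadd S (cadd S y.2 y.2) b := by
    have h1 : DRep (α := (ℤ × ℤ) × ℤ) (β := ℤ)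
        fun S y => cadd S (cadd S y.1.2 y.1.2) y.2 :=
      ((DRep.fst.comp DRep.snd).add (DRep.fst.comp DRep.snd)).add DRep.snd
    exact Rep.bind (Rep.coin) (Rep.ofD h1)
  have h := Rep.iterPow (α := ℤ) (β := ℤ) 2 hb
  exact Rep.nl_precomp (f := fun _ z => ((0 : ℤ), z)) (DRep.zero.pair DRep.id') h

theorem drawK_rep : Rep drawK := by
  have h1 : Rep (α := List (List ℤ) × List ℤ) fun S y =>
      seqP ((y.2.take S).map fun a => fineF S a) :=
    Rep.mapS (l := fun _ y => y.2) (f := fun S (p : (List (List ℤ) × List ℤ) × ℤ) => fineF S p.2)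
      DRep.snd (Rep.nl_precomp DRep.snd fineF_rep)
  exact Rep.mapS (l := fun _ x => x) DRep.id' h1

end Vale.Agent.Lib.P328.Bit
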