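import Vale.Agent.Lib.P328.Fpras.Robust
import Vale.Agent.Lib.P328.Samp.QClose

/-!
# P328, bit model: the main theorem for trials that fail on a set (module FPRAS2)

In the bit model a trial compares a computed variance with a threshold, so that the event where it fails is not exactly the event of `Fpras/Trial.lean`, but it is between two such events. `trialMG`: the probability that a trial returns `x`, when it fails outside `G`. `GOK`: outside `G` the row variances for a good minimiser are small. Nothing more is needed for the analysis of the walk.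

Copied from `Fpras/Trial.lean`, with `G` in place of `goodT`:
* `trialMG_le`: `(trialMG x).toReal ≤ K/2 * ratI x` (`ideal_eq`, and the integral over `G` is at most the integral over everything).
* `trialMG_eq_small`: if `¬ (0 < n ∧ cs < c0)`: `(trialMG x).toReal = 1/2 * ratI x`, using `small`, `wmat t ≠ 0 → 0 < t` (`wmat_ne_zero_pos`), `ideal_eq`.
* `trialG_tail` as `trial_tail_bound`: for `t ∉ G`, `t > 0`: `Σ rowV ≤ m V0 + 1/14`, so `chernoff_zeta` gives `exp (-2 a + 14 m V0 + 1)` in place of `exp (-2 a + 14 m V0)`.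
* `trialG_trunc` as `trial_trunc`, with `K * exp (1 - a)` in place of `K * exp (-a)`.
Copied from `Fpras/Chain.lean`:
* `defectG_reg2` as `defect_reg2`, with `≤ 24 * η` in place of `8 * η`: `4 A + e X ≤ 24 (A + X/8)`.
* `fpras_robustD` as `fpras_robust`. `hup, hq, hq1, hdn, hlazy` from `chain_hyp` with the exact solver `exists_solver` (they do not depend on the solver). `hd0, hd1`: `dnI_eq`, `trialMG_le`. `hη`: with `3 η = 9 / B^22`. `robustD_numbers` with `2 * (9 / B^22) * T + 1/B^22 * T`, still at most `ε/(64 L)`. `R ≥ runsOf`: `num_conditions` gives `4 exp (-(runsOf) τ²/4) ≤ δ`, which is monotone in the number of runs. `0 < R`.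
-/

namespace Vale.Agent.Lib.P328.Bit

open Finset MeasureTheory Vale.Agent.Lib.P328.Cap Vale.Agent.Lib.P328.Fpras
open scoped ENNReal

variable {m n : ℕ}

/-- The probability that a trial returns `x`, if the trial goes on exactly on the set `G` of matrices. -/
noncomputable def trialMG (P : Par) (r : Fin m → ℕ) (c0 : ℕ) (c' : Fin n → ℕ)
    (G : Set (Fin (n + 1) → Fin m → ℝ)) (x : Fin m → ℕ) : ℝ≥0∞ :=
  ENNReal.ofReal (P.K m n c0 / 2) * ((∫⁻ t, wmat t * capa r (Fin.cons c0 c') t)⁻¹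
    * ∫⁻ t in G, wmat t * ENNReal.ofReal (uval r c' t x))

/-- What is needed of the set of matrices where a trial goes on. -/
structure GOK (P : Par) (r : Fin m → ℕ) (c0 : ℕ) (c' : Fin n → ℕ)
    (G : Set (Fin (n + 1) → Fin m → ℝ)) : Prop where
  meas : MeasurableSet G
  bad : ∃ sol, NodeSol r c0 c' sol ∧ ∀ t, (∀ j i, 0 < t j i) → t ∉ G →
    ∀ i, rowV r t (sol t) i ≤ P.V0 m n c0 + 1 / (14 * (m : ℝ))
  small : ¬ (0 < n ∧ P.cs < c0) → ∀ t, (∀ j i, 0 < t j i) → t ∈ G

section Trial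

variable {P : Par} {r : Fin m → ℕ} {c0 : ℕ} {c' : Fin n → ℕ}
  {G : Set (Fin (n + 1) → Fin m → ℝ)}

/-- The law of a trial, with the indicator inside. -/
theorem trialMG_eq_ind (hG : MeasurableSet G) (x : Fin m → ℕ) :
    trialMG P r c0 c' G x
      = (∫⁻ t, wmat t * capa r (Fin.cons c0 c') t)⁻¹ * ∫⁻ t, ENNReal.ofReal (P.K m n c0 / 2)
        * G.indicator (fun t => wmat t * ENNReal.ofReal (uval r c' t x)) t := by
  unfold trialMG
  rw [lintegral_const_mul' _ _ ENNReal.ofReal_ne_top, lintegral_indicator hG]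
  ring

/-- The extended real version of `trialMG_le`. -/
theorem trialMG_le' (hI : Ihat r (Fin.cons c0 c') ≠ 0) {x : Fin m → ℕ} (hx : x ∈ lev r c0) :
    trialMG P r c0 c' G x ≤ ENNReal.ofReal (P.K m n c0 / 2 * ratI r c0 c' x) := by
  have hK : 0 ≤ P.K m n c0 := K_nonneg' P m n c0
  unfold trialMG
  rw [ENNReal.ofReal_mul (by positivity), ← ideal_eq hI (mem_lev.1 hx).1]
  gcongr
  exact Measure.restrict_le_self

/-- A trial returns `x` at most as often as in the ideal law. -/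
theorem trialMG_le (hI : Ihat r (Fin.cons c0 c') ≠ 0) {x : Fin m → ℕ} (hx : x ∈ lev r c0) :
    (trialMG P r c0 c' G x).toReal ≤ P.K m n c0 / 2 * ratI r c0 c' x :=
  ENNReal.toReal_le_of_le_ofReal
    (mul_nonneg (div_nonneg (K_nonneg' P m n c0) (by norm_num)) (ratI_nonneg _ _ _ _))
    (trialMG_le' hI hx)

/-- No truncation in the first regime. -/
theorem trialMG_eq_small (hGK : GOK P r c0 c' G) (hI : Ihat r (Fin.cons c0 c') ≠ 0)
    (hreg : ¬ (0 < n ∧ P.cs < c0)) {x : Fin m → ℕ} (hx : x ∈ lev r c0) :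
    (trialMG P r c0 c' G x).toReal = 1 / 2 * ratI r c0 c' x := by
  have hK : P.K m n c0 = 1 := by
    unfold Par.K
    rw [if_neg hreg]
  have hae : ∀ t, G.indicator (fun t => wmat t * ENNReal.ofReal (uval r c' t x)) t
      = wmat t * ENNReal.ofReal (uval r c' t x) := by
    intro t
    by_cases hw : wmat t = 0
    · by_cases hg : t ∈ G
      · rw [Set.indicator_of_mem hg]
      · rw [Set.indicator_of_notMem hg, hw, zero_mul]
    exact Set.indicator_of_mem (hGK.small hreg t (wmat_ne_zero_pos hw)) _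
  rw [trialMG_eq_ind hGK.meas, lintegral_const_mul' _ _ ENNReal.ofReal_ne_top]
  simp only [hae]
  rw [mul_left_comm, ideal_eq hI (mem_lev.1 hx).1, hK, ← ENNReal.ofReal_mul (by norm_num),
    ENNReal.toReal_ofReal (mul_nonneg (by norm_num) (ratI_nonneg _ _ _ _))]

theorem measurable_G_int (hG : MeasurableSet G) (x : Fin m → ℕ) :
    Measurable fun t => ENNReal.ofReal (P.K m n c0 / 2)
        * G.indicator (fun t => wmat t * ENNReal.ofReal (uval r c' t x)) t := by
  refine Measurable.const_mul ?_ _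
  refine Measurable.indicator ?_ hG
  exact measurable_wmat.mul (measurable_uval r c' x).ennreal_ofReal

/-- The tail of a trial. -/
theorem trialG_tail (hm : 0 < m) (hGK : GOK P r c0 c' G)
    (hI : Ihat r (Fin.cons c0 c') ≠ 0) (hK : 0 ≤ P.K m n c0) (a : ℕ) {e : ℝ} (he0 : 0 ≤ e)
    (he : Real.exp (-(2 * (a : ℝ)) + 14 * ((m : ℝ) * P.V0 m n c0) + 1) ≤ e) :
    ∑ x ∈ (lev r c0).filter (fun x => a ≤ zeta r x), P.K m n c0 / 2 * ratI r c0 c' x
      ≤ ∑ x ∈ (lev r c0).filter (fun x => a ≤ zeta r x), (trialMG P r c0 c' G x).toReal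
        + P.K m n c0 * e := by
  obtain ⟨sol, hs, hbad⟩ := hGK.bad
  have hGm := hGK.meas
  set L := (lev r c0).filter (fun x => a ≤ zeta r x) with hL
  have hLsub : L ⊆ lev r c0 := Finset.filter_subset _ _
  have hZ0 := Z_ne_zero hI
  have hZt := Z_ne_top r (Fin.cons c0 c' : Fin (n + 1) → ℕ)
  set Z := ∫⁻ t, wmat t * capa r (Fin.cons c0 c' : Fin (n + 1) → ℕ) t with hZ
  -- the pointwise inequality
  have hpt : ∀ t : Fin (n + 1) → Fin m → ℝ,
      ∑ x ∈ L, ENNReal.ofReal (P.K m n c0 / 2) * (wmat t * ENNReal.ofReal (uval r c' t x))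
      ≤ ∑ x ∈ L, ENNReal.ofReal (P.K m n c0 / 2)
          * G.indicator (fun t => wmat t * ENNReal.ofReal (uval r c' t x)) t
        + ENNReal.ofReal (P.K m n c0 * e) * (wmat t * capa r (Fin.cons c0 c') t) := by
    intro t
    by_cases hg : t ∈ G
    · have : ∀ x ∈ L, ENNReal.ofReal (P.K m n c0 / 2) * (wmat t * ENNReal.ofReal (uval r c' t x))
          = ENNReal.ofReal (P.K m n c0 / 2)
            * G.indicator (fun t => wmat t * ENNReal.ofReal (uval r c' t x)) t := by
        intro x _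
        rw [Set.indicator_of_mem hg]
      rw [Finset.sum_congr rfl this]
      exact le_self_add
    by_cases hw : wmat t = 0
    · simp [hw]
    have htp := wmat_ne_zero_pos hw
    have hbad' : ∀ i, rowV r t (sol t) i ≤ P.V0 m n c0 + 1 / (14 * (m : ℝ)) := hbad t htp hg
    refine le_trans ?_ le_add_self
    have hu : ∀ x ∈ L, 0 ≤ uval r c' t x := fun x _ => uval_nonneg' r c' x htp
    have hrew : ∀ x ∈ L, ENNReal.ofReal (P.K m n c0 / 2) * (wmat t * ENNReal.ofReal (uval r c' t x))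
        = wmat t * ENNReal.ofReal (P.K m n c0 / 2 * uval r c' t x) := by
      intro x _
      rw [ENNReal.ofReal_mul (by positivity)]
      ring
    rw [Finset.sum_congr rfl hrew, ← Finset.mul_sum,
      ← ENNReal.ofReal_sum_of_nonneg fun x hx => mul_nonneg (by positivity) (hu x hx)]
    have hfin := capa_lt_top r (Fin.cons c0 c') t
    set C := (capa r (Fin.cons c0 c') t).toReal with hC
    have hcap : capa r (Fin.cons c0 c') t = ENNReal.ofReal C :=
      (ENNReal.ofReal_toReal hfin.ne).symm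
    have hC0 : 0 ≤ C := ENNReal.toReal_nonneg
    rw [hcap, mul_left_comm, ← ENNReal.ofReal_mul (mul_nonneg hK he0)]
    gcongr
    have hPhi := Phi_le_two_capa hs htp
    rw [← hC] at hPhi
    have h0 := fun i => rowP_nonneg htp (hs.pos t) i
    have h1 := fun i => rowP_le_one htp (hs.pos t) i
    have hw0 : ∀ x, 0 ≤ wt r (rowP t (sol t)) x := fun x => wt_nonneg h0 h1 x
    have hsum : ∑ x ∈ L, P.K m n c0 / 2 * uval r c' t x
        ≤ P.K m n c0 / 2 * (2 * C * ∑ x ∈ L, wt r (rowP t (sol t)) x) := by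
      rw [← Finset.mul_sum, Finset.mul_sum (a := 2 * C)]
      refine mul_le_mul_of_nonneg_left ?_ (by positivity)
      refine Finset.sum_le_sum fun x hx => ?_
      exact (uval_le r c0 c' t (sol t) htp (hs.pos t) (hLsub hx)).trans
        (mul_le_mul_of_nonneg_right hPhi (hw0 x))
    have hsub : L ⊆ (box r).filter fun x => a ≤ zeta r x := by
      intro x hx
      obtain ⟨h2, h3⟩ := mem_filter.1 hx
      exact mem_filter.2 ⟨(mem_filter.1 h2).1, h3⟩
    have hwL : ∑ x ∈ L, wt r (rowP t (sol t)) x ≤ e := by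
      refine le_trans ?_ he
      refine (Finset.sum_le_sum_of_subset_of_nonneg hsub fun x _ _ => hw0 x).trans ?_
      refine (chernoff_zeta r _ h0 h1 a).trans ?_
      apply Real.exp_le_exp.2
      have hmr : (m : ℝ) ≠ 0 := by exact_mod_cast hm.ne'
      have hV : ∑ i, (r i : ℝ) * rowP t (sol t) i * (1 - rowP t (sol t) i)
          ≤ (m : ℝ) * (P.V0 m n c0 + 1 / (14 * (m : ℝ))) := by
        have : ∀ i ∈ (univ : Finset (Fin m)),
            (r i : ℝ) * rowP t (sol t) i * (1 - rowP t (sol t) i)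
              ≤ P.V0 m n c0 + 1 / (14 * (m : ℝ)) := fun i _ => hbad' i
        have h5 := Finset.sum_le_card_nsmul _ _ _ this
        rwa [Finset.card_univ, Fintype.card_fin, nsmul_eq_mul] at h5
      have h6 : (m : ℝ) * (P.V0 m n c0 + 1 / (14 * (m : ℝ))) = (m : ℝ) * P.V0 m n c0 + 1 / 14 := by
        field_simp
      rw [h6] at hV
      linarith
    calc _ ≤ _ := hsum
      _ = P.K m n c0 * C * ∑ x ∈ L, wt r (rowP t (sol t)) x := by ring
      _ ≤ P.K m n c0 * C * e := by gcongr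
      _ = _ := by ring
  -- integrate
  have hmeas : ∀ x ∈ L, Measurable fun t => ENNReal.ofReal (P.K m n c0 / 2)
      * G.indicator (fun t => wmat t * ENNReal.ofReal (uval r c' t x)) t :=
    fun x _ => measurable_G_int hGm x
  have hmeas2 : ∀ x ∈ L, Measurable fun t : Fin (n + 1) → Fin m → ℝ =>
      ENNReal.ofReal (P.K m n c0 / 2) * (wmat t * ENNReal.ofReal (uval r c' t x)) :=
    fun x _ => (measurable_wmat.mul (measurable_uval r c' x).ennreal_ofReal).const_mul _
  have hint : ∑ x ∈ L, ∫⁻ t, ENNReal.ofReal (P.K m n c0 / 2)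
        * (wmat t * ENNReal.ofReal (uval r c' t x))
      ≤ (∑ x ∈ L, ∫⁻ t, ENNReal.ofReal (P.K m n c0 / 2)
          * G.indicator (fun t => wmat t * ENNReal.ofReal (uval r c' t x)) t)
        + ENNReal.ofReal (P.K m n c0 * e) * Z := by
    have hg : Measurable fun t : Fin (n + 1) → Fin m → ℝ =>
        ENNReal.ofReal (P.K m n c0 * e) * (wmat t * capa r (Fin.cons c0 c') t) :=
      (measurable_wmat.mul (capa_measurable _ _)).const_mul _
    rw [← lintegral_finsetSum _ hmeas2, ← lintegral_finsetSum _ hmeas, hZ,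
      ← lintegral_const_mul' _ _ ENNReal.ofReal_ne_top, ← lintegral_add_right _ hg]
    exact lintegral_mono hpt
  -- divide
  have hdiv : ∑ x ∈ L, ENNReal.ofReal (P.K m n c0 / 2 * ratI r c0 c' x)
      ≤ ∑ x ∈ L, trialMG P r c0 c' G x + ENNReal.ofReal (P.K m n c0 * e) := by
    have h1 : ∀ x ∈ L, ENNReal.ofReal (P.K m n c0 / 2 * ratI r c0 c' x)
        = Z⁻¹ * ∫⁻ t, ENNReal.ofReal (P.K m n c0 / 2) * (wmat t * ENNReal.ofReal (uval r c' t x)) := by
      intro x hx
      rw [ENNReal.ofReal_mul (by positivity), ← ideal_eq hI (mem_lev.1 (hLsub hx)).1,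
        lintegral_const_mul' _ _ ENNReal.ofReal_ne_top]
      ring
    have h2 : ∀ x ∈ L, trialMG P r c0 c' G x
        = Z⁻¹ * ∫⁻ t, ENNReal.ofReal (P.K m n c0 / 2)
          * G.indicator (fun t => wmat t * ENNReal.ofReal (uval r c' t x)) t :=
      fun x _ => trialMG_eq_ind hGm x
    rw [Finset.sum_congr rfl h1, Finset.sum_congr rfl h2, ← Finset.mul_sum, ← Finset.mul_sum]
    calc _ ≤ Z⁻¹ * ((∑ x ∈ L, ∫⁻ t, ENNReal.ofReal (P.K m n c0 / 2)
          * G.indicator (fun t => wmat t * ENNReal.ofReal (uval r c' t x)) t)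
        + ENNReal.ofReal (P.K m n c0 * e) * Z) := by gcongr
      _ = _ := by
        rw [mul_add, mul_comm (ENNReal.ofReal (P.K m n c0 * e)) Z, ← mul_assoc,
          ENNReal.inv_mul_cancel hZ0 hZt, one_mul]
  -- to the reals
  have hle : ∀ x ∈ L, trialMG P r c0 c' G x ≠ ⊤ := fun x hx =>
    ne_top_of_le_ne_top ENNReal.ofReal_ne_top (trialMG_le' hI (hLsub hx))
  have hnn : ∀ x ∈ L, 0 ≤ P.K m n c0 / 2 * ratI r c0 c' x := fun x _ =>
    mul_nonneg (by positivity) (ratI_nonneg _ _ _ _)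
  rw [← ENNReal.ofReal_sum_of_nonneg hnn] at hdiv
  have hsum0 : 0 ≤ ∑ x ∈ L, P.K m n c0 / 2 * ratI r c0 c' x := Finset.sum_nonneg hnn
  have h3 := ENNReal.toReal_mono (ENNReal.add_ne_top.2 ⟨ENNReal.sum_ne_top.2 hle, ENNReal.ofReal_ne_top⟩) hdiv
  rw [ENNReal.toReal_ofReal hsum0, ENNReal.toReal_add (ENNReal.sum_ne_top.2 hle) ENNReal.ofReal_ne_top,
    ENNReal.toReal_sum hle, ENNReal.toReal_ofReal (mul_nonneg hK he0)] at h3
  exact h3

/-- The truncation error of a trial in the second regime. -/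
theorem trialG_trunc (hGK : GOK P r c0 c' G)
    (hI : Ihat r (Fin.cons c0 c') ≠ 0) (hm : 0 < m) (hreg : 0 < n ∧ P.cs < c0)
    (a : ℕ) (ha : P.d * c0 ≤ a) :
    ∑ x ∈ lev r c0, (P.K m n c0 / 2 * ratI r c0 c' x - (trialMG P r c0 c' G x).toReal)
      ≤ P.K m n c0 / 2 * ∑ x ∈ (lev r c0).filter (fun x => zeta r x < a), ratI r c0 c' x
        + P.K m n c0 * Real.exp (1 - (a : ℝ)) := by
  have hK := K_nonneg' P m n c0
  have hV : (m : ℝ) * P.V0 m n c0 = P.d * c0 / 14 := by
    unfold Par.V0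
    rw [if_pos hreg]
    have : (m : ℝ) ≠ 0 := by exact_mod_cast hm.ne'
    field_simp
  have he : Real.exp (-(2 * (a : ℝ)) + 14 * ((m : ℝ) * P.V0 m n c0) + 1)
      ≤ Real.exp (1 - (a : ℝ)) := by
    apply Real.exp_le_exp.2
    rw [hV]
    linarith
  have htail := trialG_tail (P := P) hm hGK hI hK a (Real.exp_pos _).le he
  rw [← Finset.sum_filter_add_sum_filter_not (lev r c0) (fun x => zeta r x < a)]
  have h1 : ∑ x ∈ (lev r c0).filter (fun x => zeta r x < a),
        (P.K m n c0 / 2 * ratI r c0 c' x - (trialMG P r c0 c' G x).toReal)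
      ≤ P.K m n c0 / 2 * ∑ x ∈ (lev r c0).filter (fun x => zeta r x < a), ratI r c0 c' x := by
    rw [Finset.mul_sum]
    refine Finset.sum_le_sum fun x _ => ?_
    have : 0 ≤ (trialMG P r c0 c' G x).toReal := ENNReal.toReal_nonneg
    linarith
  have h2 : (lev r c0).filter (fun x => ¬ zeta r x < a) = (lev r c0).filter (fun x => a ≤ zeta r x) := by
    refine Finset.filter_congr fun x _ => not_lt
  rw [h2]
  have h3 : ∑ x ∈ (lev r c0).filter (fun x => a ≤ zeta r x),
        (P.K m n c0 / 2 * ratI r c0 c' x - (trialMG P r c0 c' G x).toReal)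
      = ∑ x ∈ (lev r c0).filter (fun x => a ≤ zeta r x), P.K m n c0 / 2 * ratI r c0 c' x
        - ∑ x ∈ (lev r c0).filter (fun x => a ≤ zeta r x), (trialMG P r c0 c' G x).toReal :=
    Finset.sum_sub_distrib _ _
  linarith

end Trial

section Chain

variable {P : Par} {r : Fin m → ℕ} {c : List ℕ} {ρ η : ℝ}

/-- The truncation error at a node of the second regime. -/
theorem defectG_reg2 (hc : c.Pairwise (· ≤ ·)) (hpos : ∀ y ∈ c, 0 < y)
    (hsum : ∑ i, r i = c.sum) (hρ : 1 ≤ ρ)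
    (hA : ∀ v ∈ nodes (kids r c) c.length, 0 < Aat r c v)
    (hAN : ∀ v ∈ nodes (kids r c) c.length, Aat r c v ≤ Nat_ r c v)
    (hNA : ∀ v ∈ nodes (kids r c) c.length, Nat_ r c v ≤ ρ * Aat r c v)
    (hP : ParOK P m ρ η) {v : List (Fin m → ℕ)} (hv : v ∈ nodes (kids r c) c.length) {c0 : ℕ}
    {l : List ℕ} (hd : c.drop v.length = c0 :: l) (hreg : 0 < l.length ∧ P.cs < c0)
    {G : Set (Fin (l.length + 1) → Fin m → ℝ)} (hGK : GOK P (res r v) c0 l.get G) :
    ∑ x ∈ lev (res r v) c0, (P.K m l.length c0 / 2 * ratI (res r v) c0 l.get x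
        - (trialMG P (res r v) c0 l.get G x).toReal) ≤ 24 * η := by
  obtain ⟨h1, h2, h3, h4⟩ := inner_facts hc hpos hsum hv hd
  set r' := res r v with hr'
  have hAv := hA v hv
  rw [Aat_inner hd] at hAv
  have hI := Ihat_ne_zero_of_Aval hAv
  have hd0 := hP.d_pos
  have hm := hP.hm
  have hmr : (0 : ℝ) < m := by exact_mod_cast hm
  have hc0r : (0 : ℝ) < (c0 : ℝ) := by exact_mod_cast h1
  have hcs0 : 0 < P.cs := by
    have := hP.cs_ge
    omega
  have hcsr : (0 : ℝ) < (P.cs : ℝ) := by exact_mod_cast hcs0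
  have hcsc : (P.cs : ℝ) ≤ c0 := by exact_mod_cast hreg.2.le
  set a := ⌈P.d * c0⌉₊ with ha
  have ha1 : P.d * c0 ≤ a := Nat.le_ceil _
  have ha2 : (a : ℝ) < P.d * c0 + 1 := Nat.ceil_lt_add_one (by positivity)
  have ht := trialG_trunc (P := P) (r := r') (c0 := c0) (c' := l.get) hGK hI
    hm hreg a ha1
  -- the sum over the first columns near a vertex
  have hdm : 4 * (m : ℝ) * P.d ≤ 1 / 2 := by
    have h5 := hP.d_le
    have h6 : (m : ℝ) * P.d ≤ 1 / 8 := by
      have h7 : (m : ℝ) * P.d ≤ m * (1 / (8 * m)) := mul_le_mul_of_nonneg_left h5 hmr.le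
      have h8 : (m : ℝ) * (1 / (8 * m)) = 1 / 8 := by
        field_simp
      linarith
    linarith
  have hcount := count_zeta_lt r' c0 l.get ⟨0, hreg.1⟩ (h3 _ (List.get_mem _ _)) hm
    (hP.cs_ge.trans hreg.2.le) a (by
      intro a' ha'
      have h5 : ((a' : ℝ) + 1) ≤ a := by exact_mod_cast ha'
      have h6 : (a' : ℝ) ≤ P.d * c0 := by linarith
      have h7 : ((4 * m * a' : ℕ) : ℝ) ≤ c0 := by
        push_cast
        have h8 : 4 * (m : ℝ) * a' ≤ 4 * m * (P.d * c0) :=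
          mul_le_mul_of_nonneg_left h6 (by positivity)
        have h9 : 4 * (m : ℝ) * (P.d * c0) = (4 * m * P.d) * c0 := by ring
        have h10 : (4 * (m : ℝ) * P.d) * c0 ≤ 1 / 2 * c0 := mul_le_mul_of_nonneg_right hdm hc0r.le
        linarith
      exact_mod_cast h7)
  set F := (lev r' c0).filter (fun x => zeta r' x < a) with hF
  set Nv : ℝ := ((tabs r' (Fin.cons c0 l.get : Fin (l.length + 1) → ℕ)).card : ℝ) with hNv
  have hNv1 : Nat_ r c v = Nv := Nat_inner hd
  have hNvA := hNA v hv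
  have hANv := hAN v hv
  rw [hNv1, Aat_inner hd] at hNvA hANv
  have hNv0 : 0 < Nv := lt_of_lt_of_le hAv hANv
  have hρ0 : 0 < ρ := by linarith
  set Av := Aval r' (Fin.cons c0 l.get : Fin (l.length + 1) → ℕ) with hAvdef
  have hterm : ∀ x ∈ F, P.K m l.length c0 / 2 * ratI r' c0 l.get x
      ≤ (ρ / (2 * Nv)) * ((tabs (fun i => r' i - x i) l.get).card : ℝ) := by
    intro x hx
    have hx1 : x ∈ lev r' c0 := (mem_filter.1 hx).1
    have hxk : x ∈ kids r c v := by
      rw [kids_inner hd]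
      exact hx1
    have hnode : x :: v ∈ nodes (kids r c) c.length :=
      (cons_mem_nodes (fun w hw => kids_empty r c w hw)).2 ⟨hv, hxk⟩
    have h5 := hAN _ hnode
    have h5' := hA _ hnode
    rw [Aat_child hd hxk, Nat_child hd hxk] at h5
    rw [Aat_child hd hxk] at h5'
    rw [← rate_ratio (P := P) (x := x) h1 h2 hAv]
    have hrate0 : 0 ≤ P.rate m l.length c0 (c0 + l.sum) := rate_nonneg (by omega)
    have hrate1 : P.rate m l.length c0 (c0 + l.sum) ≤ 1 / 2 := rate_le hP h1 h3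
    set Ax := Aval (fun i => r' i - x i) l.get with hAx
    set Nx : ℝ := ((tabs (fun i => r' i - x i) l.get).card : ℝ) with hNx
    rw [div_le_iff₀ hAv]
    have h6 : P.rate m l.length c0 (c0 + l.sum) * Ax ≤ 1 / 2 * Nx :=
      mul_le_mul hrate1 h5 h5'.le (by norm_num)
    have h7 : 1 / 2 * Nx ≤ ρ / (2 * Nv) * Nx * Av := by
      have h8 : ρ / (2 * Nv) * Nx * Av = (1 / 2 * Nx) * (ρ * Av / Nv) := by
        field_simp
      rw [h8]
      have h9 : 1 ≤ ρ * Av / Nv := by
        rw [le_div_iff₀ hNv0]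
        linarith
      have h10 : 0 ≤ 1 / 2 * Nx := by positivity
      nlinarith
    linarith
  have hsumF : P.K m l.length c0 / 2 * ∑ x ∈ F, ratI r' c0 l.get x
      ≤ 4 * (ρ * (m : ℝ) ^ 3 * (P.d + 1 / (P.cs : ℝ))) := by
    rw [Finset.mul_sum]
    refine (Finset.sum_le_sum hterm).trans ?_
    rw [← Finset.mul_sum]
    set SN := ∑ x ∈ F, ((tabs (fun i => r' i - x i) l.get).card : ℝ) with hSN
    have hSN0 : 0 ≤ SN := Finset.sum_nonneg fun x _ => Nat.cast_nonneg _
    -- SN c0 ≤ 8 m^3 a Nv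
    have h5 : ρ / (2 * Nv) * SN = (ρ / (2 * Nv * c0)) * (SN * c0) := by
      field_simp
    rw [h5]
    have h6 : (ρ / (2 * Nv * c0)) * (SN * c0) ≤ (ρ / (2 * Nv * c0)) * (8 * (m : ℝ) ^ 3 * a * Nv) :=
      mul_le_mul_of_nonneg_left hcount (by positivity)
    refine h6.trans ?_
    have h7 : (ρ / (2 * Nv * c0)) * (8 * (m : ℝ) ^ 3 * a * Nv) = 4 * (ρ * (m : ℝ) ^ 3 * (a / c0)) := by
      field_simp
      ring
    rw [h7]
    have h8 : (a : ℝ) / c0 ≤ P.d + 1 / (P.cs : ℝ) := by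
      rw [div_le_iff₀ hc0r]
      have h9 : (P.d + 1 / (P.cs : ℝ)) * c0 = P.d * c0 + c0 / P.cs := by
        field_simp
      rw [h9]
      have h10 : 1 ≤ (c0 : ℝ) / P.cs := by
        rw [le_div_iff₀ hcsr]
        linarith
      linarith
    have h11 : 0 ≤ ρ * (m : ℝ) ^ 3 := by positivity
    have h12 := mul_le_mul_of_nonneg_left h8 h11
    linarith
  have hexp0 : P.K m l.length c0 * Real.exp (-(a : ℝ)) ≤ Real.exp (-(P.d * P.cs / 2)) := by
    rw [K_pos_reg hreg]
    exact K_exp_le hP hreg.2 ha1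
  have hexp : P.K m l.length c0 * Real.exp (1 - (a : ℝ)) ≤ 3 * Real.exp (-(P.d * P.cs / 2)) := by
    have e1 : P.K m l.length c0 * Real.exp (1 - (a : ℝ))
        = Real.exp 1 * (P.K m l.length c0 * Real.exp (-(a : ℝ))) := by
      rw [sub_eq_add_neg, Real.exp_add]
      ring
    rw [e1]
    have e2 : Real.exp 1 ≤ 3 := by
      have := Real.exp_one_lt_d9
      linarith
    have e3 : 0 ≤ P.K m l.length c0 * Real.exp (-(a : ℝ)) :=
      mul_nonneg K_nonneg (Real.exp_pos _).le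
    have e4 : 0 ≤ Real.exp 1 := (Real.exp_pos _).le
    calc _ ≤ Real.exp 1 * Real.exp (-(P.d * P.cs / 2)) := mul_le_mul_of_nonneg_left hexp0 e4
      _ ≤ _ := mul_le_mul_of_nonneg_right e2 (Real.exp_pos _).le
  have heta := hP.eta
  have hpos1 : 0 ≤ ρ * (m : ℝ) ^ 3 * (P.d + 1 / (P.cs : ℝ)) := by positivity
  have ht' : ∑ x ∈ lev r' c0, (P.K m l.length c0 / 2 * ratI r' c0 l.get x
        - (trialMG P r' c0 l.get G x).toReal)
      ≤ P.K m l.length c0 / 2 * ∑ x ∈ F, ratI r' c0 l.get x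
        + P.K m l.length c0 * Real.exp (1 - (a : ℝ)) := ht
  have hexpp := Real.exp_pos (-(P.d * P.cs / 2))
  linarith

end Chain

section Main

/-- The numbers for the robust form with trials that fail on a set. -/
theorem robustD_numbers {n : ℕ} {ρ ε : ℝ} (hρ : 1 ≤ ρ) (hε0 : 0 < ε) (hε1 : ε ≤ 1) :
    2 * (9 / Bpar m n ρ ε ^ 22) * (stepsOf m n ρ ε : ℝ)
        + 1 / Bpar m n ρ ε ^ 22 * (stepsOf m n ρ ε : ℝ)
      ≤ ε / (64 * (((n : ℝ) + 1) * ρ)) := by
  obtain ⟨h8, hmB, hLB, hLε, hρB⟩ := B_facts (m := m) (n := n) hρ hε0 hε1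
  set B := Bpar m n ρ ε with hB
  have hB1 : 1 ≤ B := by linarith [show (1 : ℝ) ≤ 10 ^ 8 by norm_num]
  have hB0 : 0 < B := by linarith
  have hn1 : (1 : ℝ) ≤ (n : ℝ) + 1 := by
    have : (0 : ℝ) ≤ n := Nat.cast_nonneg _
    linarith
  have hρ0 : 0 < ρ := by linarith
  set L := ((n : ℝ) + 1) * ρ with hL
  have hL0 : 0 < L := by positivity
  have hT2 : (stepsOf m n ρ ε : ℝ) < B ^ 20 + 1 := Nat.ceil_lt_add_one (by positivity)
  have hι : 1 / B ≤ ε / (64 * L) := by
    rw [div_le_div_iff₀ hB0 (by positivity)]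
    have h1 : 10 ^ 8 * L ≤ B * ε := by
      have := hLε
      rwa [div_le_iff₀ hε0] at this
    linarith
  refine le_trans ?_ hι
  have h1 : (stepsOf m n ρ ε : ℝ) ≤ 2 * B ^ 20 := by
    have : (1 : ℝ) ≤ B ^ 20 := one_le_pow₀ hB1
    linarith
  have e : 2 * (9 / B ^ 22) * (stepsOf m n ρ ε : ℝ) + 1 / B ^ 22 * (stepsOf m n ρ ε : ℝ)
      = (19 / B ^ 22) * (stepsOf m n ρ ε : ℝ) := by ring
  rw [e]
  calc (19 / B ^ 22) * (stepsOf m n ρ ε : ℝ) ≤ (19 / B ^ 22) * (2 * B ^ 20) :=
        mul_le_mul_of_nonneg_left h1 (by positivity)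
    _ = 38 / B ^ 2 := by
        field_simp
        ring
    _ ≤ 1 / B := by
        rw [div_le_div_iff₀ (by positivity) hB0]
        have h2 : (38 : ℝ) ≤ B := by linarith [show (38 : ℝ) ≤ 10 ^ 8 by norm_num]
        nlinarith

open Classical in
/-- **The main theorem for a walk whose moves down are trials that fail outside sets `G`, and for every kernel close to it.** -/
theorem fpras_robustD {ρ : ℕ → ℕ → ℝ} (hρ1 : ∀ m n, 1 ≤ ρ m n)
    (hρn : ∀ m n n', n ≤ n' → ρ m n ≤ ρ m n') (hH : HBound ρ) (hm : 0 < m) (r : Fin m → ℕ)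
    (c : List ℕ) (hc : c.Pairwise (· ≤ ·)) (hpos : ∀ y ∈ c, 0 < y) (hsum : ∑ i, r i = c.sum)
    {ε δ : ℝ} (hε0 : 0 < ε) (hε1 : ε ≤ 1) (hδ0 : 0 < δ) (hδ1 : δ ≤ 1) {Ahat : ℝ}
    (hAhat : |Ahat - Aval r c.get| ≤ ε / 4 * Aval r c.get)
    {down' : List (Fin m → ℕ) → (Fin m → ℕ) → ℝ}
    (hdown : ∀ v ∈ nodes (kids r c) c.length, ∀ (c0 : ℕ) (l : List ℕ), c.drop v.length = c0 :: l →
      ∃ G, GOK (parOf m c.length (ρ m c.length) ε) (res r v) c0 l.get G ∧ ∀ x ∈ kids r c v,
        down' v x = (1 / 8) * (trialMG (parOf m c.length (ρ m c.length) ε) (res r v) c0 l.get G x).toReal)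
    {Q : List (Fin m → ℕ) → List (Fin m → ℕ) → ℝ}
    (hQ0 : ∀ v ∈ nodes (kids r c) c.length, ∀ w, 0 ≤ Q v w)
    (hQ1 : ∀ v ∈ nodes (kids r c) c.length, ∑ w ∈ nodes (kids r c) c.length, Q v w = 1)
    (hQ : ∀ v ∈ nodes (kids r c) c.length, ∑ w ∈ nodes (kids r c) c.length,
      |Q v w - walk (kids r c) down' (upI (rateAt (parOf m c.length (ρ m c.length) ε) r c)) v w|
        ≤ 1 / Bpar m c.length (ρ m c.length) ε ^ 22)
    {R : ℕ} (hR : runsOf m c.length (ρ m c.length) ε δ ≤ R) :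
    1 - δ ≤ runProb (nodes (kids r c) c.length)
      (lawT (nodes (kids r c) c.length) Q (stepsOf m c.length (ρ m c.length) ε)) R fun ω =>
        (1 - ε) * ((tabs r c.get).card : ℝ)
            ≤ Ahat * (countIn (lvl (kids r c) c.length) ω : ℝ) / (countIn {[]} ω : ℝ)
          ∧ Ahat * (countIn (lvl (kids r c) c.length) ω : ℝ) / (countIn {[]} ω : ℝ)
            ≤ (1 + ε) * ((tabs r c.get).card : ℝ) := by
  have hbd := fun v hv => node_bounds hρ1 hρn hH (r := r) (c := c) hpos hsum (v := v) hv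
  have hOK := parOK (m := m) (n := c.length) hm (hρ1 m c.length) hε0 hε1
  obtain ⟨sol, hsol⟩ := exists_solver (m := m)
  obtain ⟨hup, hq, hq1, hdn, hlazy, -, -, -⟩ :=
    chain_hyp (sol := sol) (r := r) (c := c) hsol hc hpos hsum (hρ1 m c.length)
      (fun v hv => (hbd v hv).1) (fun v hv => (hbd v hv).2.1) (fun v hv => (hbd v hv).2.2) hOK
  obtain ⟨n1, -, n3, n4⟩ := num_conditions (m := m) (n := c.length) hm (hρ1 m c.length)
    hε0 hε1 hδ0 hδ1
  have hB0 : 0 < Bpar m c.length (ρ m c.length) ε := by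
    have := (B_facts (m := m) (n := c.length) (hρ1 m c.length) hε0 hε1).1
    linarith [show (0 : ℝ) < 10 ^ 8 by norm_num]
  have hq0 : 0 < qLow (parOf m c.length (ρ m c.length) ε) m :=
    lt_of_lt_of_le (by positivity) (qLow_ge hm (hρ1 m c.length) hε0 hε1)
  have hS : ∀ v : List (Fin m → ℕ), c.length ≤ v.length → kids r c v = ∅ :=
    fun v h => kids_empty r c v h
  set P := parOf m c.length (ρ m c.length) ε with hPdef
  set V := nodes (kids r c) c.length with hV
  have hroot : ([] : List (Fin m → ℕ)) ∈ V := nil_mem_nodes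
  set ρ0 := ρ m c.length with hρ0
  have hρ01 : 1 ≤ ρ0 := hρ1 _ _
  have hA : ∀ v ∈ V, 0 < Aat r c v := fun v hv => (hbd v hv).1
  have hAN : ∀ v ∈ V, Aat r c v ≤ Nat_ r c v := fun v hv => (hbd v hv).2.1
  have hNA : ∀ v ∈ V, Nat_ r c v ≤ ρ0 * Aat r c v := fun v hv => (hbd v hv).2.2
  -- the moves down
  have hd0 : ∀ v ∈ V, ∀ x ∈ kids r c v, 0 ≤ down' v x := by
    intro v hv x hx
    obtain ⟨c0, l, hd⟩ := exists_drop_of_kids hx
    obtain ⟨G, -, hG⟩ := hdown v hv c0 l hd
    rw [hG x hx]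
    have : 0 ≤ (trialMG P (res r v) c0 l.get G x).toReal := ENNReal.toReal_nonneg
    positivity
  have hd1 : ∀ v ∈ V, ∀ x ∈ kids r c v, down' v x ≤ dnI (Aat r c) (rateAt P r c) v x := by
    intro v hv x hx
    obtain ⟨c0, l, hd⟩ := exists_drop_of_kids hx
    obtain ⟨G, -, hG⟩ := hdown v hv c0 l hd
    have hAv := hA v hv
    rw [Aat_inner hd] at hAv
    have hI := Ihat_ne_zero_of_Aval hAv
    rw [hG x hx, dnI_eq hc hpos hsum hA hv hd hx]
    have hx' : x ∈ lev (res r v) c0 := by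
      rw [← kids_inner hd]
      exact hx
    have h5 := trialMG_le (P := P) (G := G) hI hx'
    linarith
  have heta0 : (0 : ℝ) ≤ 9 / Bpar m c.length ρ0 ε ^ 22 := by positivity
  have hη : ∀ v ∈ V, ∑ x ∈ kids r c v, (dnI (Aat r c) (rateAt P r c) v x - down' v x)
      ≤ 9 / Bpar m c.length ρ0 ε ^ 22 := by
    intro v hv
    cases hd : c.drop v.length with
    | nil =>
      rw [kids_nil hd]
      simpa using heta0
    | cons c0 l =>
      obtain ⟨G, hGK, hG⟩ := hdown v hv c0 l hd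
      have hterm : ∀ x ∈ kids r c v, dnI (Aat r c) (rateAt P r c) v x - down' v x
          = (1 / 8) * (P.K m l.length c0 / 2 * ratI (res r v) c0 l.get x
            - (trialMG P (res r v) c0 l.get G x).toReal) := by
        intro x hx
        rw [dnI_eq hc hpos hsum hA hv hd hx, hG x hx]
        ring
      rw [Finset.sum_congr rfl hterm, ← Finset.mul_sum, kids_inner hd]
      by_cases hreg : 0 < l.length ∧ P.cs < c0
      · have := defectG_reg2 hc hpos hsum hρ01 hA hAN hNA hOK hv hd hreg hGK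
        have e : 24 * (3 / Bpar m c.length ρ0 ε ^ 22) = 8 * (9 / Bpar m c.length ρ0 ε ^ 22) := by
          ring
        rw [e] at this
        linarith
      · have hAv := hA v hv
        rw [Aat_inner hd] at hAv
        have hI := Ihat_ne_zero_of_Aval hAv
        have hzero : ∑ x ∈ lev (res r v) c0, (P.K m l.length c0 / 2 * ratI (res r v) c0 l.get x
            - (trialMG P (res r v) c0 l.get G x).toReal) = 0 := by
          refine Finset.sum_eq_zero fun x hx => ?_
          rw [trialMG_eq_small hGK hI hreg hx, K_neg_reg hreg]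
          ring
        rw [hzero]
        simpa using heta0
  have hclose := walk_close (S := kids r c) (D := c.length) hS (A := Aat r c)
    (q := rateAt P r c) (N := Nat_ r c) hρ01 hA hAN hNA
    (fun v hlen _ => Nat_add r c hlen) hq0 hq hq1 hdn hlazy hd0 hd1 hη hε0 n1
  -- the kernel is stochastic
  have hlazy1 : ∀ v ∈ V, upI (rateAt P r c) v + ∑ x ∈ kids r c v, down' v x ≤ 1 := by
    intro v hv
    have h1 := hlazy v hv
    have h2 : ∑ x ∈ kids r c v, down' v x
        ≤ ∑ x ∈ kids r c v, dnI (Aat r c) (rateAt P r c) v x :=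
      Finset.sum_le_sum fun x hx => hd1 v hv x hx
    linarith
  have hW0 : ∀ v ∈ V, ∀ w, 0 ≤ walk (kids r c) down' (upI (rateAt P r c)) v w := by
    intro v hv w
    exact walk_nonneg (hd0 v hv) (hq1 v hv) (hlazy1 v hv) w
  have hW1 : ∀ v ∈ V, ∑ w ∈ V, walk (kids r c) down' (upI (rateAt P r c)) v w = 1 := by
    intro v hv
    refine sum_walk_one _ _ _ _ hS hv ?_
    rintro rfl
    exact upI_nil
  have hlaw := law_kernel_close (V := V) hroot hW0 hW1 hQ0 hQ1 hQ (stepsOf m c.length ρ0 ε)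
  set μ := lawT V Q (stepsOf m c.length ρ0 ε) with hμ
  have hμ0 : ∀ v ∈ V, 0 ≤ μ v := fun v _ => lawT_nonneg hQ0 _ v
  have hμ1 : ∑ v ∈ V, μ v = 1 := lawT_sum hroot hQ1 _
  have hnum := robustD_numbers (m := m) (n := c.length) hρ01 hε0 hε1
  have hl1 : ∑ w ∈ V, |μ w - Aat r c w / ∑ v ∈ V, Aat r c v|
      ≤ ε / (32 * (((c.length : ℝ) + 1) * ρ0)) := by
    have h3 : ∀ w ∈ V, |μ w - Aat r c w / ∑ v ∈ V, Aat r c v|
        ≤ |μ w - lawT V (walk (kids r c) down' (upI (rateAt P r c))) (stepsOf m c.length ρ0 ε) w|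
          + |lawT V (walk (kids r c) down' (upI (rateAt P r c))) (stepsOf m c.length ρ0 ε) w
            - Aat r c w / ∑ v ∈ V, Aat r c v| := fun w _ => abs_sub_le _ _ _
    have h4 := Finset.sum_le_sum h3
    rw [Finset.sum_add_distrib] at h4
    have h5 : ε / (32 * (((c.length : ℝ) + 1) * ρ0))
        = ε / (64 * (((c.length : ℝ) + 1) * ρ0)) + ε / (64 * (((c.length : ℝ) + 1) * ρ0)) := by
      have : 0 < ((c.length : ℝ) + 1) * ρ0 := by
        have h6 : (0 : ℝ) ≤ (c.length : ℝ) := Nat.cast_nonneg _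
        have h7 : 0 < ρ0 := by linarith
        positivity
      field_simp
      norm_num
    linarith
  have hR0 : 0 < R := lt_of_lt_of_le n4 hR
  have hRl : 4 * Real.exp (-((R : ℝ) * (ε / (32 * (((c.length : ℝ) + 1) * ρ0))) ^ 2 / 4)) ≤ δ := by
    refine le_trans ?_ n3
    have hRr : (runsOf m c.length ρ0 ε δ : ℝ) ≤ R := by exact_mod_cast hR
    have hsq : 0 ≤ (ε / (32 * (((c.length : ℝ) + 1) * ρ0))) ^ 2 := sq_nonneg _
    have h1 : (runsOf m c.length ρ0 ε δ : ℝ) * (ε / (32 * (((c.length : ℝ) + 1) * ρ0))) ^ 2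
        ≤ (R : ℝ) * (ε / (32 * (((c.length : ℝ) + 1) * ρ0))) ^ 2 :=
      mul_le_mul_of_nonneg_right hRr hsq
    have h2 : Real.exp (-((R : ℝ) * (ε / (32 * (((c.length : ℝ) + 1) * ρ0))) ^ 2 / 4))
        ≤ Real.exp (-((runsOf m c.length ρ0 ε δ : ℝ) * (ε / (32 * (((c.length : ℝ) + 1) * ρ0))) ^ 2 / 4)) :=
      Real.exp_le_exp.2 (by linarith)
    linarith
  have hmain := estimator_of_law (S := kids r c) (D := c.length) (A := Aat r c) (N := Nat_ r c)
    (μ := μ) hρ01 hA hAN hNA (fun v hlen _ => Nat_add r c hlen)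
    (fun v hv => by
      have h := leaf_one r c hsum hv
      rw [h.1, h.2]) hμ0 hμ1 hl1 hε0 hε1 hR0 hRl (Ahat := Ahat) (by rw [Aat_nil]; exact hAhat)
  rw [Nat_nil] at hmain
  exact hmain

end Main

end Vale.Agent.Lib.P328.Bit
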