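import Vale.Agent.Lib.P328.Bit.TrialEnd
import Vale.Agent.Lib.P328.Bit.TrialG
import Vale.Agent.Lib.P328.Bit.ChainF
import Vale.Agent.Lib.P328.Bit.LawG
import Vale.Agent.Lib.P328.Bit.NodeLaw

/-!
# P328, bit model: the move down at a node (module NODEF)

`downF S (r, c0, l)`: if `l = []`: a fair coin; output `r` on heads, `[]` on tails (the only first column is `r`, `lev r c0 = {r}`; `ratI r = 1`). Otherwise: the cube `z` from `chainF (r, c0 :: l, S ^ 34)`, for each coordinate `S^2` bits `u` (`fineF`, `drawK`: the bits are appended to `z`), `κ = z * 2 ^ pf S + u`, and `trialF ((r, c0, l), κ)`.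

Statement `node_close`: the law of `downF` is close to the law of a trial that goes on exactly in a set `G` of matrices with the property `GOK`.

Proof. Put `i0, j0` as in `trialF_spec`, `H x y = trialF ((lN r, c0, lL l), lK (fineIdx ∘ y)) (lN x)` (as `ℝ≥0∞`), for `y : Fin (n + 1) × Fin m → ℝ`. It is measurable: `y ↦ fineIdx ∘ y` is measurable to a countable discrete space.
1. Step functions: for a cube `z`, `∫⁻ u in Icc 0 1, H x (cellPt S z u)` is the average of `trialF` at `κ = z * 2 ^ pf + a`, over all `a : ι → Fin (2 ^ pf)`: since `cellPt z u + rQ = cellD (z + u)`, `fineIdx (cellPt z u k) = z k * 2 ^ pf + ⌊u k * 2 ^ pf⌋` (`lintegral_floor_cube`).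
   So the law of `downF` at `lN x` is `Σ_z μ z * (∫⁻ u in Icc 0 1, H x (cellPt S z u))`, with `μ` of `chainF_spec` at `k = S^34`: `a = 1`, and `chainF = μ.map lZ`.
2. `samp_close_g` with `g = gF`, `hg = gF_close`, `L = μ.toReal`, `Sx = lev r c0`; `Σ_x H x y ≤ 1` as `trialF` is a `PMF` and `lN` is injective: `Σ_x |down x - ((IFy)⁻¹ * ∫⁻ y, Fy y * H x y).toReal| ≤ 20/S^24`.
3. The inverse of `tMap`: a measurable `yOf` with `yOf (tMap y) = y`, `tMap (yOf t) = t`. `(IFy)⁻¹ * ∫⁻ y, Fy y * H x y = ∫⁻ t, H x (yOf t) ∂(wLaw r cc)` (`lintegral_wLaw_y` in `Samp/Law`).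
4. The set `G` and the minimiser. Let `Good = {y | (∀ k, |y k| ≤ rQ S) ∧ ∀ j i, cutK S ≤ tMap y j i}`, let `solX` be an exact solver (`exists_solver`: `NodeSol`). `sol t = solR S (solBF ...)` at `κ = lK (fineIdx ∘ yOf t)` if `yOf t ∈ Good`, else `solX t`. `G = {t | yOf t ∈ Good ∧ 0 < passF ...} ∪ {t | yOf t ∉ Good ∧ ∃ i, V0 ≤ rowV r t (solX t) i}`. `NodeSol`: first conjunct of `trialF_spec`. `GOK`: second to fourth conjuncts.
5. The comparison, as `q_node_second` of `Samp/QClose`: `trialMG x = ∫⁻ t, Gx t ∂(wLaw r cc)`, with `Gx t = G.indicator (K uval t x / (2 capa t))`. Pointwise for `t > 0`: `Σ_x Gx t ≤ 1`: on `G` there is a row with `V0 ≤ rowV r t (sol t) i`, `uval_le`, `near`, `K_sum_wt_le`. On `Good`: `Σ_x |H x - Gx| ≤ 1/S^24` (fifth conjunct). Elsewhere at most two. `wLaw_good_bad`, `q_family_close`: at most `1/S^24 + 2 * (2/S^25)`.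
Total: at most `30/S^24`.

The case `l = []`: `G` is everything, `sol` exact, `trialMG r = 1/2`.
-/

namespace Vale.Agent.Lib.P328.Bit

open Finset MeasureTheory Vale.Agent.Lib.P328.Cap Vale.Agent.Lib.P328.Fpras Vale.Agent.Lib.P328.Samp
open scoped ENNReal

variable {m : ℕ}

/-- The move down at a node: input `(r, c0, l)`. -/
noncomputable def downF (S : ℕ) (x : List ℤ × ℤ × List ℤ) : PMF (List ℤ) :=
  match x.2.2 with
  | [] => Rep.coinZ.map fun b => if 0 < b then x.1 else []
  | a :: t => (chainF S (x.1, x.2.1 :: a :: t, clamp S ((S : ℤ) ^ 34))).bind fun z =>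
      (drawK S z).bind fun κ => trialF S (x, κ)

theorem downF_rep : Rep downF := by
  have hnil : Rep (α := List ℤ × ℤ × List ℤ) fun _ x =>
      Rep.coinZ.map fun b => if 0 < b then x.1 else [] := by
    have h1 : DRep (α := (List ℤ × ℤ × List ℤ) × ℤ) (β := List ℤ)
        fun _ y => if 0 < y.2 then y.1.1 else [] :=
      DRep.ite DRep.snd (DRep.fst.comp DRep.fst) DRep.nil'
    exact Rep.bind Rep.coin (Rep.ofD h1)
  have hD : DRep (α := (List ℤ × ℤ × List ℤ) × (ℤ × List ℤ)) (β := List ℤ × List ℤ × ℤ)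
      fun S y => (y.1.1, y.1.2.1 :: y.2.1 :: y.2.2, clamp S ((S : ℤ) ^ 34)) := by
    refine (DRep.fst.comp DRep.fst).pair (DRep.pair ?_ (spow_rep 34))
    exact DRep.cons (DRep.fst.comp (DRep.snd.comp DRep.fst)) (DRep.cons (DRep.snd.comp DRep.fst)
      (DRep.snd.comp DRep.snd))
  have hT : Rep (α := ((List ℤ × ℤ × List ℤ) × (ℤ × List ℤ)) × List (List ℤ))
      (β := List ℤ) fun S y =>
        (drawK S y.2).bind fun κ => trialF S (y.1.1, κ) := by
    have h2 := Rep.nl_precomp (f := fun _ (y : ((List ℤ × ℤ × List ℤ) × (ℤ × List ℤ)) × List (List ℤ)) => y.2)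
      DRep.snd drawK_rep
    have h3 := Rep.nl_precomp (f := fun _ (y : (((List ℤ × ℤ × List ℤ) × (ℤ × List ℤ)) × List (List ℤ))
        × List (List ℤ)) => (y.1.1.1, y.2))
      ((DRep.fst.comp (DRep.fst.comp DRep.fst)).pair DRep.snd) trialF_rep
    exact Rep.bind h2 h3
  have hcons : Rep (α := (List ℤ × ℤ × List ℤ) × (ℤ × List ℤ)) (β := List ℤ) fun S y =>
      (chainF S (y.1.1, y.1.2.1 :: y.2.1 :: y.2.2, clamp S ((S : ℤ) ^ 34))).bind fun z =>
        (drawK S z).bind fun κ => trialF S (y.1, κ) :=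
    Rep.bind (Rep.nl_precomp hD chainF_rep) hT
  obtain ⟨p, hp⟩ := Rep.caseList (l := fun _ (x : List ℤ × ℤ × List ℤ) => x.2.2)
    (DRep.snd.comp DRep.snd) hnil hcons
  refine ⟨p, fun S x => ?_⟩
  rw [hp S x]
  congr 1
  obtain ⟨r, c0, l⟩ := x
  unfold downF
  cases l <;> rfl

namespace NodeAux

theorem lN_inj {k : ℕ} : Function.Injective (lN : (Fin k → ℕ) → List ℤ) := by
  intro f g h
  unfold lN at h
  have h1 := List.ofFn_injective h
  funext i
  have h2 := congrFun h1 i
  exact_mod_cast h2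

theorem sum_pmf_le {β X : Type} (p : PMF β) (s : Finset X) (f : X → β)
    (hf : Function.Injective f) : ∑ x ∈ s, p (f x) ≤ 1 := by
  classical
  have h1 : ∑ x ∈ s, p (f x) = ∑ w ∈ s.image f, p w :=
    (Finset.sum_image fun a _ b _ h => hf h).symm
  rw [h1]
  calc _ ≤ ∑' w, p w := ENNReal.sum_le_tsum _
    _ = 1 := p.tsum_coe

section Inverse

variable {n : ℕ} (i0 : Fin m) (j0 : Fin n) (r : Fin m → ℕ) (c : Fin n → ℕ)

/-- The linear part of `tMap` as an equivalence. -/
noncomputable def tEquiv : (Fin n × Fin m → ℝ) ≃ₗ[ℝ] (Fin n × Fin m → ℝ) :=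
  (tLin i0 j0 r c).equivOfDetNeZero (by rw [det_tLin]; exact (detT_pos i0 j0 r c).ne')

/-- The inverse of `tMap`. -/
noncomputable def yOf (t : Fin n → Fin m → ℝ) : Fin n × Fin m → ℝ :=
  (tEquiv i0 j0 r c).symm fun p => t p.1 p.2 - tMap i0 j0 r c 0 p.1 p.2

theorem tEquiv_apply (y : Fin n × Fin m → ℝ) : tEquiv i0 j0 r c y = tLin i0 j0 r c y := rfl

theorem tMap_yOf (t : Fin n → Fin m → ℝ) : tMap i0 j0 r c (yOf i0 j0 r c t) = t := by
  funext j i
  rw [tMap_eq_add, ← tEquiv_apply]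
  unfold yOf
  rw [LinearEquiv.apply_symm_apply]
  ring

theorem yOf_tMap (y : Fin n × Fin m → ℝ) : yOf i0 j0 r c (tMap i0 j0 r c y) = y := by
  unfold yOf
  have h : (fun p : Fin n × Fin m => tMap i0 j0 r c y p.1 p.2 - tMap i0 j0 r c 0 p.1 p.2)
      = tEquiv i0 j0 r c y := by
    funext p
    rw [tMap_eq_add i0 j0 r c y p.1 p.2, tEquiv_apply]
    ring
  rw [h, LinearEquiv.symm_apply_apply]

theorem measurable_yOf : Measurable (yOf i0 j0 r c) := by
  have h1 : Continuous ((tEquiv i0 j0 r c).symm : (Fin n × Fin m → ℝ) →ₗ[ℝ] (Fin n × Fin m → ℝ)) :=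
    LinearMap.continuous_of_finiteDimensional _
  have h2 : Measurable fun (t : Fin n → Fin m → ℝ) (p : Fin n × Fin m) =>
      t p.1 p.2 - tMap i0 j0 r c 0 p.1 p.2 :=
    measurable_pi_lambda _ fun p => by
      have h3 : Measurable fun t : Fin n → Fin m → ℝ => t p.1 p.2 :=
        (measurable_pi_apply p.2).comp (measurable_pi_apply p.1)
      exact h3.sub measurable_const
  exact h1.measurable.comp h2

end Inverse

/-- The fine indices of a point. -/
noncomputable def fiK {ι : Type} (S : ℕ) (y : ι → ℝ) : ι → ℤ := fun k => fineIdx S (y k)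

theorem measurable_fiK {ι : Type} [Fintype ι] (S : ℕ) : Measurable (fiK (ι := ι) S) := by
  refine measurable_pi_lambda _ fun k => ?_
  unfold fiK fineIdx
  refine Int.measurable_floor.comp ?_
  exact (((measurable_pi_apply k).add measurable_const).mul measurable_const).div measurable_const

theorem measurable_comp_fiK {ι β : Type} [Fintype ι] [MeasurableSpace β] (S : ℕ)
    (f : (ι → ℤ) → β) : Measurable fun y : ι → ℝ => f (fiK S y) :=
  (measurable_of_countable f).comp (measurable_fiK S)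

theorem fiK_cellPt {ι : Type} {S : ℕ} (hS : 0 < S) (z : ι → Fin (cellM S)) (u : ι → ℝ) :
    fiK S (cellPt S z u)
      = fun k => ((z k : ℕ) : ℤ) * 2 ^ (S ^ 2) + ⌊u k * (2 : ℝ) ^ (S ^ 2)⌋ := by
  funext k
  unfold fiK fineIdx cellPt pf
  have hS' : (0 : ℝ) < S := by exact_mod_cast hS
  have hr : 0 < rQ S := by
    unfold rQ
    positivity
  have hM : (0 : ℝ) < cellM S := by
    unfold cellM
    positivity
  have hD : cellD S ≠ 0 := by
    unfold cellD
    positivity
  have h1 : (-rQ S + cellD S * (((z k : ℕ) : ℝ) + u k) + rQ S) * 2 ^ (S ^ 2) / cellD S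
      = ((((z k : ℕ) : ℤ) * 2 ^ (S ^ 2) : ℤ) : ℝ) + u k * (2 : ℝ) ^ (S ^ 2) := by
    push_cast
    field_simp
    ring
  rw [h1, Int.floor_intCast_add]

/-- A trial at the fine indices `κ`. -/
noncomputable def hK (S : ℕ) (r : Fin m → ℕ) (c0 : ℕ) (l : List ℕ)
    (κ : Fin (l.length + 1) × Fin m → ℤ) (x : Fin m → ℕ) : ℝ≥0∞ :=
  trialF S ((lN r, (c0 : ℤ), lL l), lK κ) (lN x)

variable {S : ℕ} {r : Fin m → ℕ} {c0 : ℕ} {l : List ℕ}

theorem cube_eq (hS : 0 < S) (z : Fin (l.length + 1) × Fin m → Fin (cellM S)) (x : Fin m → ℕ) :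
    ∫⁻ u in Set.Icc (0 : Fin (l.length + 1) × Fin m → ℝ) 1, hK S r c0 l (fiK S (cellPt S z u)) x
      = ((2 : ℝ≥0∞) ^ (S ^ 2 * Fintype.card (Fin (l.length + 1) × Fin m)))⁻¹
        * ∑ a : Fin (l.length + 1) × Fin m → Fin (2 ^ (S ^ 2)),
          hK S r c0 l (fun k => ((z k : ℕ) : ℤ) * 2 ^ (S ^ 2) + ((a k : ℕ) : ℤ)) x := by
  simp only [fiK_cellPt hS]
  exact lintegral_floor_cube (S ^ 2) fun b =>
    hK S r c0 l (fun k => ((z k : ℕ) : ℤ) * 2 ^ (S ^ 2) + b k) x

/-- No saturation in the low bits. -/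
theorem fine_range (hS : 1000000 ≤ S) (v : Fin (cellM S)) :
    (((v : ℕ) : ℤ) + 1) * 2 ^ (S ^ 2) ≤ 2 ^ wid S := by
  have h1 : S ^ 56 ≤ 2 ^ (56 * S) := by
    rw [pow_mul']
    exact Nat.pow_le_pow_left Nat.lt_two_pow_self.le 56
  have h2 : (v : ℕ) + 1 ≤ 2 ^ (56 * S + 3) := by
    have h3 : (v : ℕ) + 1 ≤ cellM S := v.2
    have h4 : cellM S = 4 * S ^ 56 + 1 := rfl
    have h5 : 1 ≤ S ^ 56 := Nat.one_le_pow _ _ (by omega)
    rw [pow_add]
    omega
  have h3 : 56 * S + 3 + S ^ 2 ≤ S ^ 6 := by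
    have h4 : 1000000 * S ≤ S ^ 2 := by
      rw [pow_two]
      exact Nat.mul_le_mul_right _ hS
    have h5 : S ^ 6 = S ^ 2 * S ^ 4 := by ring
    have h6 : 2 ≤ S ^ 4 := by
      calc 2 ≤ S := by omega
        _ = S ^ 1 := (pow_one _).symm
        _ ≤ S ^ 4 := Nat.pow_le_pow_right (by omega) (by norm_num)
    have h7 : S ^ 2 * 2 ≤ S ^ 2 * S ^ 4 := Nat.mul_le_mul_left _ h6
    omega
  have h4 : ((v : ℕ) + 1) * 2 ^ (S ^ 2) ≤ 2 ^ wid S := by
    calc ((v : ℕ) + 1) * 2 ^ (S ^ 2) ≤ 2 ^ (56 * S + 3) * 2 ^ (S ^ 2) := Nat.mul_le_mul_right _ h2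
      _ = 2 ^ (56 * S + 3 + S ^ 2) := (pow_add _ _ _).symm
      _ ≤ 2 ^ wid S := Nat.pow_le_pow_right (by norm_num) h3
  exact_mod_cast h4

theorem n_le_S (h : NodeOK S r (Fin.cons c0 l.get : Fin (l.length + 1) → ℕ)) :
    l.length + 1 ≤ S ∧ m ≤ S := by
  have h1 : (10 : ℝ) ^ 6 * (((l.length + 1 : ℕ) : ℝ) * m + 1) ^ 2 ≤ S := h.hW
  have hm : (1 : ℝ) ≤ m := by exact_mod_cast h.hm
  have hn : (1 : ℝ) ≤ ((l.length + 1 : ℕ) : ℝ) := by
    push_cast
    linarith [(Nat.cast_nonneg l.length : (0 : ℝ) ≤ _)]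
  set a : ℝ := ((l.length + 1 : ℕ) : ℝ) * m + 1 with ha
  have h2 : 1 ≤ a := by
    rw [ha]
    nlinarith
  have h3 : a ≤ 10 ^ 6 * a ^ 2 := by nlinarith
  have h4 : ((l.length + 1 : ℕ) : ℝ) ≤ a := by
    rw [ha]
    nlinarith
  have h5 : (m : ℝ) ≤ a := by
    rw [ha]
    nlinarith
  constructor
  · exact_mod_cast h4.trans (h3.trans h1)
  · exact_mod_cast h5.trans (h3.trans h1)

/-- The law of the move down, in a node which is not the last one. -/
theorem downF_apply (h : NodeOK S r (Fin.cons c0 l.get : Fin (l.length + 1) → ℕ)) (hl : l ≠ [])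
    {μ : PMF (Fin (l.length + 1) × Fin m → Fin (cellM S))}
    (hμ : chainF S (lN r, lN (Fin.cons c0 l.get : Fin (l.length + 1) → ℕ), ((S ^ 34 : ℕ) : ℤ))
      = μ.map lZ) (x : Fin m → ℕ) :
    downF S (lN r, (c0 : ℤ), lL l) (lN x)
      = ∑ z, μ z * ∫⁻ u in Set.Icc (0 : Fin (l.length + 1) × Fin m → ℝ) 1,
          hK S r c0 l (fiK S (cellPt S z u)) x := by
  classical
  have hS : 1000000 ≤ S := h.S_ge
  have hS0 : 0 < S := by omega
  obtain ⟨hn, hm⟩ := n_le_S h
  have h1 : downF S (lN r, (c0 : ℤ), lL l)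
      = (chainF S (lN r, lN (Fin.cons c0 l.get : Fin (l.length + 1) → ℕ), ((S ^ 34 : ℕ) : ℤ))).bind
        fun z => (drawK S z).bind fun κ => trialF S ((lN r, (c0 : ℤ), lL l), κ) := by
    have e1 : lN (Fin.cons c0 l.get : Fin (l.length + 1) → ℕ) = (c0 : ℤ) :: lL l := by
      rw [lN_cons, lN_get]
    have e2 : ((S ^ 34 : ℕ) : ℤ) = clamp S ((S : ℤ) ^ 34) := by
      rw [spow_eq hS (by norm_num)]
      push_cast
      rfl
    rw [e1, e2]
    cases l with
    | nil => exact absurd rfl hl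
    | cons a t => rfl
  rw [h1, hμ, PMF.bind_map, PMF.bind_apply, tsum_fintype]
  refine Finset.sum_congr rfl fun z _ => ?_
  congr 1
  rw [cube_eq hS0 z x]
  simp only [Function.comp_apply]
  have h2 : lZ z = List.ofFn fun j => List.ofFn fun i => ((fun k => ((z k : ℕ) : ℤ)) (j, i)) := rfl
  rw [h2, drawK_eq hn hm _ (fun k => Int.natCast_nonneg _) (fun k => fine_range hS (z k)),
    PMF.bind_map, PMF.bind_apply, tsum_fintype, Finset.mul_sum]
  refine Finset.sum_congr rfl fun a _ => ?_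
  rw [PMF.uniformOfFintype_apply]
  congr 1
  congr 1
  simp [pow_mul]

section Node

variable (h : NodeOK S r (Fin.cons c0 l.get : Fin (l.length + 1) → ℕ))

/-- The coordinates of a matrix. -/
noncomputable def yT (t : Fin (l.length + 1) → Fin m → ℝ) : Fin (l.length + 1) × Fin m → ℝ :=
  yOf (iMax h.hm r) (jMax h.hn (Fin.cons c0 l.get : Fin (l.length + 1) → ℕ)) r
    (Fin.cons c0 l.get : Fin (l.length + 1) → ℕ) t

/-- The good coordinates. -/
def goodY : Set (Fin (l.length + 1) × Fin m → ℝ) :=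
  bigQ _ S ∩ domY S (iMax h.hm r) (jMax h.hn (Fin.cons c0 l.get : Fin (l.length + 1) → ℕ)) r
    (Fin.cons c0 l.get : Fin (l.length + 1) → ℕ)

/-- The test of a trial at a matrix. -/
def passT (t : Fin (l.length + 1) → Fin m → ℝ) : Prop :=
  0 < passF S ((lN r, (c0 : ℤ), lL l), lK (fiK S (yT h t)))

/-- The computed minimiser at a matrix. -/
noncomputable def solB (t : Fin (l.length + 1) → Fin m → ℝ) : Fin (l.length + 1) → ℝ :=
  solR S (solBF S (lN r) ((c0 : ℤ) :: lL l) (lK (fiK S (yT h t))))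

/-- The exact minimiser. -/
noncomputable def solX (r : Fin m → ℕ) (c0 : ℕ) (l : List ℕ) :
    (Fin (l.length + 1) → Fin m → ℝ) → Fin (l.length + 1) → ℝ :=
  (exists_solver (m := m)).choose r c0 l

open Classical in
/-- The minimiser of the comparison. -/
noncomputable def solN (t : Fin (l.length + 1) → Fin m → ℝ) : Fin (l.length + 1) → ℝ :=
  if yT h t ∈ goodY h then solB h t else solX r c0 l t

/-- The set where a trial goes on. -/
def setG : Set (Fin (l.length + 1) → Fin m → ℝ) :=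
  {t | yT h t ∈ goodY h ∧ passT h t} ∪
    {t | yT h t ∉ goodY h ∧ ∃ i, (parS S).V0 m l.length c0 ≤ rowV r t (solX r c0 l t) i}

theorem tMap_yT (t : Fin (l.length + 1) → Fin m → ℝ) :
    tMap (iMax h.hm r) (jMax h.hn (Fin.cons c0 l.get : Fin (l.length + 1) → ℕ)) r
      (Fin.cons c0 l.get : Fin (l.length + 1) → ℕ) (yT h t) = t :=
  tMap_yOf _ _ _ _ t

theorem measurable_yT : Measurable (yT h) := measurable_yOf _ _ _ _

theorem measurable_comp_yT {β : Type} [MeasurableSpace β]
    (f : (Fin (l.length + 1) × Fin m → ℤ) → β) : Measurable fun t => f (fiK S (yT h t)) :=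
  (measurable_comp_fiK S f).comp (measurable_yT h)

theorem measurableSet_goodYT : MeasurableSet {t | yT h t ∈ goodY h} :=
  measurable_yT h ((measurableSet_bigQ _ S).inter (measurableSet_domY _ _ _ _ _))

theorem measurableSet_passT : MeasurableSet {t | passT h t} := by
  classical
  have h1 : Measurable fun t => (if 0 < passF S ((lN r, (c0 : ℤ), lL l), lK (fiK S (yT h t)))
      then (1 : ℝ) else 0) :=
    measurable_comp_yT h fun κ => if 0 < passF S ((lN r, (c0 : ℤ), lL l), lK κ) then (1 : ℝ) else 0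
  have h2 : {t | passT h t} = (fun t => (if 0 < passF S ((lN r, (c0 : ℤ), lL l), lK (fiK S (yT h t)))
      then (1 : ℝ) else 0)) ⁻¹' {1} := by
    ext t
    simp only [Set.mem_ofPred_eq, Set.mem_preimage, Set.mem_singleton_iff, passT]
    split_ifs with h3 <;> simp [h3]
  rw [h2]
  exact h1 (measurableSet_singleton 1)

include h in
theorem hbal : ∑ i, r i = c0 + ∑ j, l.get j := by
  have h1 := h.hsum
  rw [Fin.sum_univ_succ] at h1
  simpa using h1

include h in
theorem hbal' : ∑ i, r i = c0 + l.sum := by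
  rw [hbal h, sum_get]

open Classical in
/-- The specification of a trial at a matrix with good coordinates. -/
theorem spec_T (hl : l ≠ []) (t : Fin (l.length + 1) → Fin m → ℝ) (ht : yT h t ∈ goodY h) :
    ENNReal.ofReal (Phi r (Fin.cons c0 l.get) t (solB h t))
        ≤ 2 * capa r (Fin.cons c0 l.get) t
      ∧ (passT h t → ∃ i, (parS S).V0 m l.length c0 ≤ rowV r t (solB h t) i)
      ∧ (¬ passT h t → ∀ i, rowV r t (solB h t) i ≤ (parS S).V0 m l.length c0 + 1 / (14 * (m : ℝ)))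
      ∧ (¬ (0 < l.length ∧ (parS S).cs < c0) → passT h t)
      ∧ ∑ x ∈ lev r c0, |(hK S r c0 l (fiK S (yT h t)) x).toReal
          - (if passT h t then
              (parS S).K m l.length c0 * uval r l.get t x
                / (2 * (capa r (Fin.cons c0 l.get) t).toReal) else 0)|
        ≤ 1 / (S : ℝ) ^ 24 := by
  have h1 := trialF_spec h hl (y := yT h t) ht.1 ht.2
  simp only [tMap_yT h t] at h1
  refine ⟨h1.1, h1.2.1, h1.2.2.1, h1.2.2.2.1, ?_⟩
  refine le_of_eq_of_le ?_ h1.2.2.2.2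
  refine Finset.sum_congr rfl fun x _ => ?_
  congr!

include h in
theorem nodeSol_solX : NodeSol r c0 l.get (solX r c0 l) :=
  nodeSol_of (exists_solver (m := m)).choose_spec (hbal' h)

/-- The minimiser of the comparison is a numerical minimiser. -/
theorem nodeSol_solN (hl : l ≠ []) : NodeSol r c0 l.get (solN h) where
  meas := by
    classical
    have h1 : Measurable (solB h) := measurable_comp_yT h fun κ =>
      (solR S (solBF S (lN r) ((c0 : ℤ) :: lL l) (lK κ)) : Fin (l.length + 1) → ℝ)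
    exact Measurable.ite (measurableSet_goodYT h) h1 (nodeSol_solX h).meas
  pos := by
    intro t j
    unfold solN
    split_ifs
    · exact Real.exp_pos _
    · exact (nodeSol_solX h).pos t j
  near := by
    intro t ht
    unfold solN
    split_ifs with h1
    · exact (spec_T h hl t h1).1
    · exact (nodeSol_solX h).near t ht

theorem measurableSet_setG : MeasurableSet (setG h) := by
  refine MeasurableSet.union ((measurableSet_goodYT h).inter (measurableSet_passT h)) ?_
  refine (measurableSet_goodYT h).compl.inter ?_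
  exact Fpras.measurableSet_goodT (P := parS S) (r := r) (c0 := c0) (nodeSol_solX h).meas

/-- On the set `G` there is a row with a large variance. -/
theorem exists_row_of_mem (hl : l ≠ []) {t : Fin (l.length + 1) → Fin m → ℝ} (ht : t ∈ setG h) :
    ∃ i, (parS S).V0 m l.length c0 ≤ rowV r t (solN h t) i := by
  classical
  rcases ht with ⟨h1, h2⟩ | ⟨h1, h2⟩
  · have h3 : solN h t = solB h t := if_pos h1
    rw [h3]
    exact (spec_T h hl t h1).2.1 h2
  · have h3 : solN h t = solX r c0 l t := if_neg h1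
    rw [h3]
    exact h2

/-- **The set `G` has the properties needed.** -/
theorem gok_setG (hl : l ≠ []) : GOK (parS S) r c0 l.get (setG h) where
  meas := measurableSet_setG h
  bad := by
    classical
    refine ⟨solN h, nodeSol_solN h hl, fun t _ ht i => ?_⟩
    by_cases h1 : yT h t ∈ goodY h
    · have h3 : solN h t = solB h t := if_pos h1
      rw [h3]
      have h4 : ¬ passT h t := fun h5 => ht (Or.inl ⟨h1, h5⟩)
      exact (spec_T h hl t h1).2.2.1 h4 i
    · have h3 : solN h t = solX r c0 l t := if_neg h1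
      rw [h3]
      have h4 : ¬ ∃ i, (parS S).V0 m l.length c0 ≤ rowV r t (solX r c0 l t) i :=
        fun h5 => ht (Or.inr ⟨h1, h5⟩)
      push Not at h4
      have h5 : (0 : ℝ) ≤ 1 / (14 * (m : ℝ)) := by positivity
      linarith [h4 i]
  small := by
    intro hreg t htp
    classical
    by_cases h1 : yT h t ∈ goodY h
    · exact Or.inl ⟨h1, (spec_T h hl t h1).2.2.2.1 hreg⟩
    · refine Or.inr ⟨h1, ⟨⟨0, h.hm⟩, ?_⟩⟩
      have hV : (parS S).V0 m l.length c0 = 0 := by
        unfold Par.V0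
        rw [if_neg hreg]
      rw [hV]
      have hs := nodeSol_solX h
      have h2 := rowP_nonneg htp (hs.pos t) ⟨0, h.hm⟩
      have h3 := rowP_le_one htp (hs.pos t) ⟨0, h.hm⟩
      have h4 : 0 ≤ 1 - rowP t (solX r c0 l t) ⟨0, h.hm⟩ := by linarith
      unfold rowV
      positivity

/-- The probability that a trial returns `x`, given the matrix, in the ideal law. -/
noncomputable def gX (x : Fin m → ℕ) (t : Fin (l.length + 1) → Fin m → ℝ) : ℝ≥0∞ :=
  (setG h).indicator (fun t => ENNReal.ofReal ((parS S).K m l.length c0 * uval r l.get t x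
    / (2 * (capa r (Fin.cons c0 l.get) t).toReal))) t

theorem measurable_gX (x : Fin m → ℕ) : Measurable (gX h x) := by
  refine Measurable.indicator ?_ (measurableSet_setG h)
  refine Measurable.ennreal_ofReal ?_
  refine ((measurable_uval r l.get x).const_mul _).div ?_
  exact (capa_measurable _ _).ennreal_toReal.const_mul _

theorem gX_eq_trialP (hl : l ≠ []) {x : Fin m → ℕ} (hx : x ∈ lev r c0)
    {t : Fin (l.length + 1) → Fin m → ℝ} (htp : ∀ j i, 0 < t j i) :
    gX h x t = ENNReal.ofReal (trialP (parS S) r c0 l.get t (solN h t) x) ∨ t ∉ setG h := by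
  by_cases ht : t ∈ setG h
  · left
    unfold gX
    rw [Set.indicator_of_mem ht,
      trialP_eq_good (hbal h) htp ((nodeSol_solN h hl).pos t) hx (exists_row_of_mem h hl ht)]
  · exact Or.inr ht

/-- The total mass of the ideal law, given the matrix. -/
theorem sum_gX_le (hl : l ≠ []) {t : Fin (l.length + 1) → Fin m → ℝ} (htp : ∀ j i, 0 < t j i) :
    ∑ x ∈ lev r c0, gX h x t ≤ 1 := by
  have hs := nodeSol_solN h hl
  by_cases ht : t ∈ setG h
  · have h1 : ∀ x ∈ lev r c0, gX h x t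
        = ENNReal.ofReal (trialP (parS S) r c0 l.get t (solN h t) x) := by
      intro x hx
      rcases gX_eq_trialP h hl hx htp with h2 | h2
      · exact h2
      · exact absurd ht h2
    rw [Finset.sum_congr rfl h1,
      ← ENNReal.ofReal_sum_of_nonneg fun x hx => q_trialP_nonneg (hbal h) htp (hs.pos t) hx]
    exact ENNReal.ofReal_le_one.2 (q_trialP_sum_le (hbal h) htp (hs.pos t) (Phi_le_two_capa hs htp))
  · have h1 : ∀ x ∈ lev r c0, gX h x t = 0 := fun x _ => by
      unfold gX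
      rw [Set.indicator_of_notMem ht]
    rw [Finset.sum_eq_zero h1]
    exact zero_le_one

/-- The integral of the ideal law. -/
theorem lintegral_gX (x : Fin m → ℕ) :
    ∫⁻ t, gX h x t ∂(wLaw r (Fin.cons c0 l.get))
      = trialMG (parS S) r c0 l.get (setG h) x := by
  unfold trialMG
  rw [lintegral_wLaw, mul_left_comm]
  congr 1
  rw [← lintegral_indicator (measurableSet_setG h), ← lintegral_const_mul' _ _ ENNReal.ofReal_ne_top]
  refine lintegral_congr fun t => ?_
  by_cases hw : wmat t = 0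
  · by_cases ht : t ∈ setG h <;> simp [ht, hw]
  have htp := wmat_ne_zero_pos hw
  by_cases ht : t ∈ setG h
  · unfold gX
    rw [Set.indicator_of_mem ht, Set.indicator_of_mem ht]
    have hpos := capa_pos r (Fin.cons c0 l.get) h.hsum t htp
    have hfin := capa_lt_top r (Fin.cons c0 l.get) t
    set C := (capa r (Fin.cons c0 l.get) t).toReal with hC
    have hC0 : 0 < C := ENNReal.toReal_pos hpos.ne' hfin.ne
    have h1 : capa r (Fin.cons c0 l.get) t = ENNReal.ofReal C := (ENNReal.ofReal_toReal hfin.ne).symm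
    have hu0 := uval_nonneg' r l.get x htp
    have hK0 := K_nonneg' (parS S) m l.length c0
    rw [h1, mul_assoc, ← ENNReal.ofReal_mul hC0.le, mul_left_comm, ← ENNReal.ofReal_mul (by positivity)]
    congr 2
    field_simp
  · unfold gX
    simp [ht]

/-- A trial at a matrix. -/
noncomputable def hX (x : Fin m → ℕ) (t : Fin (l.length + 1) → Fin m → ℝ) : ℝ≥0∞ :=
  hK S r c0 l (fiK S (yT h t)) x

theorem measurable_hX (x : Fin m → ℕ) : Measurable (hX h x) :=
  measurable_comp_yT h fun κ => hK S r c0 l κ x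

theorem sum_hX_le (t : Fin (l.length + 1) → Fin m → ℝ) : ∑ x ∈ lev r c0, hX h x t ≤ 1 :=
  sum_pmf_le _ _ lN lN_inj

theorem hX_tMap (x : Fin m → ℕ) (y : Fin (l.length + 1) × Fin m → ℝ) :
    hX h x (tMap (iMax h.hm r) (jMax h.hn (Fin.cons c0 l.get : Fin (l.length + 1) → ℕ)) r
      (Fin.cons c0 l.get : Fin (l.length + 1) → ℕ) y) = hK S r c0 l (fiK S y) x := by
  unfold hX yT
  rw [yOf_tMap]

/-- The error, given the matrix. -/
noncomputable def errT (t : Fin (l.length + 1) → Fin m → ℝ) : ℝ≥0∞ :=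
  ∑ x ∈ lev r c0, ((hX h x t - gX h x t) + (gX h x t - hX h x t))

theorem measurable_errT : Measurable (errT h) :=
  Finset.measurable_sum _ fun x _ =>
    ((measurable_hX h x).sub (measurable_gX h x)).add ((measurable_gX h x).sub (measurable_hX h x))

theorem errT_le_two (hl : l ≠ []) {t : Fin (l.length + 1) → Fin m → ℝ} (htp : ∀ j i, 0 < t j i) :
    errT h t ≤ 2 := by
  unfold errT
  calc ∑ x ∈ lev r c0, ((hX h x t - gX h x t) + (gX h x t - hX h x t))
      ≤ ∑ x ∈ lev r c0, (hX h x t + gX h x t) :=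
        Finset.sum_le_sum fun x _ => add_le_add tsub_le_self tsub_le_self
    _ = ∑ x ∈ lev r c0, hX h x t + ∑ x ∈ lev r c0, gX h x t := Finset.sum_add_distrib
    _ ≤ 1 + 1 := add_le_add (sum_hX_le h t) (sum_gX_le h hl htp)
    _ = 2 := one_add_one_eq_two

/-- The error at a good point. -/
theorem errT_good (hl : l ≠ []) (hS : 0 < S) {t : Fin (l.length + 1) → Fin m → ℝ} (ht : yT h t ∈ goodY h) :
    errT h t ≤ ENNReal.ofReal (1 / (S : ℝ) ^ 24) := by
  classical
  obtain ⟨-, -, -, -, h5⟩ := spec_T h hl t ht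
  have htp : ∀ j i, 0 < t j i := by
    intro j i
    have h1 := ht.2 j i
    rw [tMap_yT h t] at h1
    exact (cutK_pos hS).trans_le h1
  set b : (Fin m → ℕ) → ℝ := fun x => if passT h t then
      (parS S).K m l.length c0 * uval r l.get t x
        / (2 * (capa r (Fin.cons c0 l.get) t).toReal) else 0 with hb
  have hb0 : ∀ x, 0 ≤ b x := by
    intro x
    simp only [hb]
    split_ifs
    · have h1 := K_nonneg' (parS S) m l.length c0
      have h2 := uval_nonneg' r l.get x htp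
      have h3 : 0 ≤ (capa r (Fin.cons c0 l.get) t).toReal := ENNReal.toReal_nonneg
      positivity
    · exact le_rfl
  have hg : ∀ x, gX h x t = ENNReal.ofReal (b x) := by
    intro x
    unfold gX
    by_cases hp : passT h t
    · have hm : t ∈ setG h := Or.inl ⟨ht, hp⟩
      rw [Set.indicator_of_mem hm]
      simp only [hb, if_pos hp]
    · have hm : t ∉ setG h := by
        rintro (⟨_, h2⟩ | ⟨h2, _⟩)
        · exact hp h2
        · exact h2 ht
      rw [Set.indicator_of_notMem hm]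
      simp [hb, hp]
  have hh : ∀ x, hX h x t = ENNReal.ofReal (hX h x t).toReal := fun x =>
    (ENNReal.ofReal_toReal (PMF.apply_ne_top _ _)).symm
  have hterm : ∀ x ∈ lev r c0, (hX h x t - gX h x t) + (gX h x t - hX h x t)
      = ENNReal.ofReal |(hX h x t).toReal - b x| := by
    intro x _
    rw [hg x]
    conv_lhs => rw [hh x]
    exact q_ofReal_tsub_add_tsub ENNReal.toReal_nonneg (hb0 x)
  unfold errT
  rw [Finset.sum_congr rfl hterm, ← ENNReal.ofReal_sum_of_nonneg fun x _ => abs_nonneg _]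
  exact ENNReal.ofReal_le_ofReal h5

/-- The comparison with the ideal law. -/
theorem compare (hl : l ≠ []) (hS : 0 < S)
    (hI : Ihat r (Fin.cons c0 l.get : Fin (l.length + 1) → ℕ) ≠ 0) :
    ∑ x ∈ lev r c0, |(∫⁻ t, hX h x t ∂(wLaw r (Fin.cons c0 l.get))).toReal
        - (trialMG (parS S) r c0 l.get (setG h) x).toReal|
      ≤ 1 / (S : ℝ) ^ 24 + 2 * (2 / (S : ℝ) ^ 25) := by
  classical
  have hμ1 : wLaw r (Fin.cons c0 l.get : Fin (l.length + 1) → ℕ) Set.univ = 1 := by
    have h1 := lintegral_wLaw r (Fin.cons c0 l.get : Fin (l.length + 1) → ℕ) (fun _ => 1)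
    simp only [lintegral_one, mul_one] at h1
    rw [h1, ENNReal.inv_mul_cancel (Z_ne_zero hI) (Z_ne_top r (Fin.cons c0 l.get : Fin (l.length + 1) → ℕ))]
  have hfm : Measurable fun t => min (errT h t) 2 := (measurable_errT h).min measurable_const
  have hS' : (0 : ℝ) < S := by exact_mod_cast hS
  have hfI : ∫⁻ t, min (errT h t) 2 ∂(wLaw r (Fin.cons c0 l.get : Fin (l.length + 1) → ℕ))
      ≤ ENNReal.ofReal (1 / (S : ℝ) ^ 24 + 2 * (2 / (S : ℝ) ^ 25)) := by
    have h1 := wLaw_good_bad h.inst h.hW hfm (a := ENNReal.ofReal (1 / (S : ℝ) ^ 24)) (b := 2)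
      (fun y hy hcut => (min_le_left _ _).trans (errT_good h hl hS (by
        have h2 : yT h (tMap (iMax h.hm r) (jMax h.hn (Fin.cons c0 l.get : Fin (l.length + 1) → ℕ)) r (Fin.cons c0 l.get : Fin (l.length + 1) → ℕ) y) = y := yOf_tMap _ _ _ _ y
        rw [h2]
        exact ⟨hy, hcut⟩))) (fun t => min_le_right _ _)
    refine h1.trans (le_of_eq ?_)
    have h2 : ENNReal.ofReal 2 = 2 := by simp
    rw [ENNReal.ofReal_add (by positivity) (by positivity), ENNReal.ofReal_mul (by norm_num), h2]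
  have hfinG : ∀ x ∈ lev r c0, ∫⁻ t, gX h x t ∂(wLaw r (Fin.cons c0 l.get : Fin (l.length + 1) → ℕ)) ≠ ⊤ := by
    intro x hx
    rw [lintegral_gX h x]
    unfold trialMG
    refine ENNReal.mul_ne_top ENNReal.ofReal_ne_top
      (ne_top_of_le_ne_top (b := ENNReal.ofReal (ratI r c0 l.get x)) ENNReal.ofReal_ne_top ?_)
    rw [← ideal_eq hI (mem_lev.1 hx).1]
    gcongr
    exact Measure.restrict_le_self
  have key := q_family_close (ν := volume) (μ := wLaw r (Fin.cons c0 l.get : Fin (l.length + 1) → ℕ)) (dens := fun t => wmat t * capa r (Fin.cons c0 l.get : Fin (l.length + 1) → ℕ) t)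
    (Z := ∫⁻ t, wmat t * capa r (Fin.cons c0 l.get : Fin (l.length + 1) → ℕ) t)
    (fun g => lintegral_wLaw r (Fin.cons c0 l.get : Fin (l.length + 1) → ℕ) g) (S := lev r c0) (H := hX h) (G := gX h) ?_ ?_ ?_ hfinG
    (δ := 1 / (S : ℝ) ^ 24 + 2 * (2 / (S : ℝ) ^ 25)) (by positivity) hfI ?_
  · refine le_of_eq_of_le ?_ key
    refine Finset.sum_congr rfl fun x _ => ?_
    rw [lintegral_gX h x]
  · intro x _
    exact (measurable_wmat.mul (capa_measurable _ _)).mul (measurable_hX h x)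
  · intro x _
    exact (measurable_wmat.mul (capa_measurable _ _)).mul (measurable_gX h x)
  · intro x hx
    refine ne_top_of_le_ne_top ENNReal.one_ne_top ?_
    calc ∫⁻ t, hX h x t ∂(wLaw r (Fin.cons c0 l.get : Fin (l.length + 1) → ℕ)) ≤ ∫⁻ _, 1 ∂(wLaw r (Fin.cons c0 l.get : Fin (l.length + 1) → ℕ)) := lintegral_mono fun t =>
          (Finset.single_le_sum (f := fun x => hX h x t) (fun _ _ => zero_le) hx).trans
            (sum_hX_le h t)
      _ = 1 := by rw [lintegral_one, hμ1]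
  · intro t hd
    have hw : wmat t ≠ 0 := left_ne_zero_of_mul hd
    exact le_min le_rfl (errT_le_two h hl (wmat_ne_zero_pos hw))

/-- The exponential beats the powers. -/
theorem two_exp_le (hS : 1000000 ≤ S) : 2 * Real.exp (-(S : ℝ)) ≤ 1 / (S : ℝ) ^ 24 := by
  have hS' : (1000000 : ℝ) ≤ S := by exact_mod_cast hS
  have hS0 : (0 : ℝ) < S := by linarith
  have h1 : (S : ℝ) / 50 ≤ Real.exp ((S : ℝ) / 50) := by
    linarith [Real.add_one_le_exp ((S : ℝ) / 50)]
  have h2 : ((S : ℝ) / 50) ^ 50 ≤ Real.exp ((S : ℝ) / 50) ^ 50 :=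
    pow_le_pow_left₀ (by positivity) h1 50
  have h3 : Real.exp ((S : ℝ) / 50) ^ 50 = Real.exp S := by
    rw [← Real.exp_nat_mul]
    congr 1
    push_cast
    ring
  have h4 : (2 : ℝ) * (S : ℝ) ^ 24 ≤ ((S : ℝ) / 50) ^ 50 := by
    have h5 : ((S : ℝ) / 50) ^ 50 = (S : ℝ) ^ 24 * ((S : ℝ) ^ 26 / 50 ^ 50) := by
      field_simp
    rw [h5, mul_comm]
    refine mul_le_mul_of_nonneg_left ?_ (by positivity)
    rw [le_div_iff₀ (by positivity)]
    have h6 : (1000000 : ℝ) ^ 26 ≤ (S : ℝ) ^ 26 := pow_le_pow_left₀ (by norm_num) hS' 26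
    refine le_trans ?_ h6
    norm_num
  have h7 : 2 * (S : ℝ) ^ 24 ≤ Real.exp S := by
    rw [← h3]
    exact h4.trans h2
  rw [Real.exp_neg, ← div_eq_mul_inv, div_le_div_iff₀ (Real.exp_pos _) (by positivity)]
  linarith

/-- The law of the sampler is close to the integral against `wLaw`. -/
theorem down_close (hl : l ≠ []) :
    ∑ x ∈ lev r c0, |(downF S (lN r, (c0 : ℤ), lL l) (lN x)).toReal
        - (∫⁻ t, hX h x t ∂(wLaw r (Fin.cons c0 l.get))).toReal|
      ≤ 20 / (S : ℝ) ^ 24 := by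
  classical
  have hS : 1000000 ≤ S := h.S_ge
  have hS0 : (0 : ℝ) < S := by
    have : 0 < S := by omega
    exact_mod_cast this
  obtain ⟨μ, hμ1, hμ2⟩ := chainF_spec h (S ^ 34) le_rfl
  have hk : (((S ^ 34 : ℕ) : ℝ) / (S : ℝ) ^ 34) = 1 := by
    push_cast
    exact div_self (by positivity)
  simp only [hk, one_mul] at hμ2
  have hL : ∑ z, |(μ z).toReal - Real.exp (-gF S r (Fin.cons c0 l.get : Fin (l.length + 1) → ℕ) z) / ∑ z', Real.exp (-gF S r (Fin.cons c0 l.get : Fin (l.length + 1) → ℕ) z')|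
      ≤ 1 / (S : ℝ) ^ 24 := hμ2.trans (two_exp_le hS)
  have key := samp_close_g h.inst h.hW h.hm h.hn (g := gF S r (Fin.cons c0 l.get : Fin (l.length + 1) → ℕ))
    (fun z u hu => gF_close h z hu) (L := fun z => (μ z).toReal) (fun z => ENNReal.toReal_nonneg) hL
    (Sx := lev r c0) (H := fun x y => hK S r c0 l (fiK S y) x)
    (fun x _ => measurable_comp_fiK S fun κ => hK S r c0 l κ x)
    (fun y => sum_pmf_le _ _ lN lN_inj)
  refine le_of_eq_of_le ?_ key
  refine Finset.sum_congr rfl fun x _ => ?_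
  have hvol : volume (Set.Icc (0 : Fin (l.length + 1) × Fin m → ℝ) 1) = 1 := volume_unit_cube
  have hfin : ∀ z : Fin (l.length + 1) × Fin m → Fin (cellM S),
      ∫⁻ u in Set.Icc (0 : Fin (l.length + 1) × Fin m → ℝ) 1,
        hK S r c0 l (fiK S (cellPt S z u)) x ≠ ⊤ := by
    intro z
    refine ne_top_of_le_ne_top ENNReal.one_ne_top ?_
    calc _ ≤ ∫⁻ _ in Set.Icc (0 : Fin (l.length + 1) × Fin m → ℝ) 1, 1 :=
          lintegral_mono fun u => PMF.coe_le_one _ _
      _ = 1 := by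
          rw [lintegral_one, Measure.restrict_apply_univ, hvol]
  have h1 : (downF S (lN r, (c0 : ℤ), lL l) (lN x)).toReal
      = ∑ z, (μ z).toReal * (∫⁻ u in Set.Icc (0 : Fin (l.length + 1) × Fin m → ℝ) 1,
          hK S r c0 l (fiK S (cellPt S z u)) x).toReal := by
    rw [downF_apply h hl hμ1 x, ENNReal.toReal_sum fun z _ =>
      ENNReal.mul_ne_top (PMF.apply_ne_top _ _) (hfin z)]
    refine Finset.sum_congr rfl fun z _ => ?_
    rw [ENNReal.toReal_mul]
  have h2 : ∫⁻ t, hX h x t ∂(wLaw r (Fin.cons c0 l.get : Fin (l.length + 1) → ℕ))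
      = (IFy (iMax h.hm r) (jMax h.hn (Fin.cons c0 l.get : Fin (l.length + 1) → ℕ)) r (Fin.cons c0 l.get : Fin (l.length + 1) → ℕ))⁻¹
        * ∫⁻ y, Fy (iMax h.hm r) (jMax h.hn (Fin.cons c0 l.get : Fin (l.length + 1) → ℕ)) r (Fin.cons c0 l.get : Fin (l.length + 1) → ℕ) y * hK S r c0 l (fiK S y) x := by
    rw [lintegral_wLaw_y h.inst (measurable_hX h x)]
    simp only [hX_tMap h x]
  rw [h1, h2]

include h in
/-- The main estimate in a node which is not the last. -/
theorem node_close_cons (hl : l ≠ [])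
    (hI : Ihat r (Fin.cons c0 l.get : Fin (l.length + 1) → ℕ) ≠ 0) :
    ∃ G, GOK (parS S) r c0 l.get G ∧
      ∑ x ∈ lev r c0, |(downF S (lN r, (c0 : ℤ), lL l) (lN x)).toReal
          - (trialMG (parS S) r c0 l.get G x).toReal| ≤ 30 / (S : ℝ) ^ 24 := by
  have hS : 1000000 ≤ S := h.S_ge
  have hS1 : (1000000 : ℝ) ≤ S := by exact_mod_cast hS
  have hS0 : 0 < S := by omega
  have hSr : (0 : ℝ) < S := by linarith
  refine ⟨setG h, gok_setG h hl, ?_⟩
  have h1 := down_close h hl
  have h2 := compare h hl hS0 hI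
  have h3 : ∑ x ∈ lev r c0, |(downF S (lN r, (c0 : ℤ), lL l) (lN x)).toReal
        - (trialMG (parS S) r c0 l.get (setG h) x).toReal|
      ≤ ∑ x ∈ lev r c0, (|(downF S (lN r, (c0 : ℤ), lL l) (lN x)).toReal
        - (∫⁻ t, hX h x t ∂(wLaw r (Fin.cons c0 l.get))).toReal|
        + |(∫⁻ t, hX h x t ∂(wLaw r (Fin.cons c0 l.get))).toReal
        - (trialMG (parS S) r c0 l.get (setG h) x).toReal|) :=
    Finset.sum_le_sum fun x _ => abs_sub_le _ _ _
  rw [Finset.sum_add_distrib] at h3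
  have h4 : (4 : ℝ) / (S : ℝ) ^ 25 ≤ 4 / (S : ℝ) ^ 24 := by
    refine div_le_div_of_nonneg_left (by norm_num) (by positivity) ?_
    exact pow_le_pow_right₀ (by linarith) (by norm_num)
  have h5 : (20 : ℝ) / (S : ℝ) ^ 24 + (1 / (S : ℝ) ^ 24 + 2 * (2 / (S : ℝ) ^ 25))
      ≤ 30 / (S : ℝ) ^ 24 := by
    have h6 : (2 : ℝ) * (2 / (S : ℝ) ^ 25) = 4 / (S : ℝ) ^ 25 := by ring
    rw [h6]
    have h7 : (30 : ℝ) / (S : ℝ) ^ 24 = 20 / (S : ℝ) ^ 24 + 1 / (S : ℝ) ^ 24 + 4 / (S : ℝ) ^ 24
        + 5 / (S : ℝ) ^ 24 := by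
      ring
    have h8 : (0 : ℝ) ≤ 5 / (S : ℝ) ^ 24 := by positivity
    linarith
  linarith

end Node

/-! ### The last column -/

theorem capa_no_col {R : Fin m → ℕ} (hR : ∀ i, R i = 0) (c : Fin 0 → ℕ) (t : Fin 0 → Fin m → ℝ) :
    capa R c t = 1 := by
  unfold capa
  have : Nonempty {b : Fin 0 → ℝ // ∀ j, 0 < b j} := ⟨⟨fun _ => 1, fun j => j.elim0⟩⟩
  simp [hR]

theorem capa_one_col {R : Fin m → ℕ} {c : Fin 1 → ℕ} (hsum : ∑ i, R i = c 0)
    (t : Fin 1 → Fin m → ℝ) : capa R c t = ENNReal.ofReal (∏ i, t 0 i ^ R i) := by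
  unfold capa
  have : Nonempty {b : Fin 1 → ℝ // ∀ j, 0 < b j} := ⟨⟨fun _ => 1, fun _ => one_pos⟩⟩
  have h1 : ∀ b : {b : Fin 1 → ℝ // ∀ j, 0 < b j},
      ENNReal.ofReal ((∏ i, (∑ j, t j i * b.1 j) ^ R i) / ∏ j, b.1 j ^ c j)
        = ENNReal.ofReal (∏ i, t 0 i ^ R i) := by
    rintro ⟨b, hb⟩
    congr 1
    have hb0 := hb 0
    simp only [Fin.sum_univ_one, Fin.prod_univ_one, mul_pow]
    rw [Finset.prod_mul_distrib, Finset.prod_pow_eq_pow_sum, hsum, mul_div_assoc,
      div_self (by positivity), mul_one]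
  simp only [h1]
  exact iInf_const

/-- The law of a trial at the last column. -/
theorem trialMG_nil {S : ℕ} {r : Fin m → ℕ} {c0 : ℕ} (hsum : ∑ i, r i = c0)
    (hI : Ihat r (Fin.cons c0 ([] : List ℕ).get : Fin 1 → ℕ) ≠ 0) :
    (trialMG (parS S) r c0 ([] : List ℕ).get Set.univ r).toReal = 1 / 2 := by
  have hK : (parS S).K m ([] : List ℕ).length c0 = 1 := by
    unfold Par.K
    simp
  have h1 : ∀ t : Fin (0 + 1) → Fin m → ℝ,
      wmat t * ENNReal.ofReal (uval r ([] : List ℕ).get t r)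
        = wmat t * capa r (Fin.cons c0 ([] : List ℕ).get : Fin 1 → ℕ) t := by
    intro t
    have h2 : capa r (Fin.cons c0 ([] : List ℕ).get : Fin 1 → ℕ) t
        = ENNReal.ofReal (∏ i, t 0 i ^ r i) := capa_one_col hsum t
    have h3 : uval r ([] : List ℕ).get t r = ∏ i, t 0 i ^ r i := by
      unfold uval
      rw [capa_no_col (fun i => Nat.sub_self _)]
      simp
    rw [h2, h3]
  unfold trialMG
  rw [hK]
  simp only [Measure.restrict_univ]
  have h4 : ∫⁻ t : Fin (0 + 1) → Fin m → ℝ, wmat t * ENNReal.ofReal (uval r ([] : List ℕ).get t r)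
      = ∫⁻ t, wmat t * capa r (Fin.cons c0 ([] : List ℕ).get : Fin 1 → ℕ) t :=
    lintegral_congr h1
  have h5 := ENNReal.inv_mul_cancel (Z_ne_zero hI) (Z_ne_top r (Fin.cons c0 ([] : List ℕ).get : Fin 1 → ℕ))
  erw [h4, h5]
  rw [mul_one, ENNReal.toReal_ofReal (by norm_num)]

theorem downF_nil {S : ℕ} {r : Fin m → ℕ} (hm : 0 < m) (c0 : ℤ) :
    (downF S (lN r, c0, []) (lN r)).toReal = 1 / 2 := by
  classical
  have h1 : downF S (lN r, c0, [])
      = (PMF.uniformOfFintype Bool).map fun b => if b then lN r else [] := by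
    show Rep.coinZ.map _ = _
    unfold Rep.coinZ
    rw [PMF.map_comp]
    congr 1
    funext b
    cases b <;> simp
  have h2 : lN r ≠ [] := by
    unfold lN
    intro h3
    have h4 := congrArg List.length h3
    simp at h4
    omega
  rw [h1, PMF.map_apply, tsum_fintype, Fintype.sum_bool]
  simp [h2, PMF.uniformOfFintype_apply]

end NodeAux

variable {S : ℕ} {r : Fin m → ℕ} {c0 : ℕ} {l : List ℕ}

open NodeAux in
theorem downF_support (h : NodeOK S r (Fin.cons c0 l.get : Fin (l.length + 1) → ℕ)) (u : List ℤ)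
    (hu : downF S (lN r, (c0 : ℤ), lL l) u ≠ 0) : u = [] ∨ ∃ x ∈ lev r c0, u = lN x := by
  classical
  cases l with
  | nil =>
    have h1 : u ∈ (downF S (lN r, (c0 : ℤ), lL [])).support := (PMF.mem_support_iff _ _).2 hu
    have h2 : downF S (lN r, (c0 : ℤ), lL []) = Rep.coinZ.map fun b => if 0 < b then lN r else [] := rfl
    rw [h2, PMF.mem_support_map_iff] at h1
    obtain ⟨b, -, hb⟩ := h1
    by_cases hp : 0 < b
    · right
      refine ⟨r, ?_, ?_⟩
      · rw [mem_lev]
        refine ⟨fun i => le_rfl, ?_⟩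
        have h3 := hbal' h
        simpa using h3
      · rw [← hb, if_pos hp]
    · left
      rw [← hb, if_neg hp]
  | cons a t =>
    have h1 : u ∈ (downF S (lN r, (c0 : ℤ), lL (a :: t))).support := (PMF.mem_support_iff _ _).2 hu
    have h2 : downF S (lN r, (c0 : ℤ), lL (a :: t))
        = (chainF S (lN r, (c0 : ℤ) :: lL (a :: t), clamp S ((S : ℤ) ^ 34))).bind fun z =>
          (drawK S z).bind fun κ => trialF S ((lN r, (c0 : ℤ), lL (a :: t)), κ) := rfl
    rw [h2, PMF.mem_support_bind_iff] at h1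
    obtain ⟨z, -, hz⟩ := h1
    rw [PMF.mem_support_bind_iff] at hz
    obtain ⟨κ, -, hκ⟩ := hz
    exact trialF_support h κ u ((PMF.mem_support_iff _ _).1 hκ)

open NodeAux in
/-- **The move down is close to a trial.** -/
theorem node_close (h : NodeOK S r (Fin.cons c0 l.get : Fin (l.length + 1) → ℕ))
    (hI : Ihat r (Fin.cons c0 l.get : Fin (l.length + 1) → ℕ) ≠ 0) :
    ∃ G, GOK (parS S) r c0 l.get G ∧
      ∑ x ∈ lev r c0, |(downF S (lN r, (c0 : ℤ), lL l) (lN x)).toReal
          - (trialMG (parS S) r c0 l.get G x).toReal| ≤ 30 / (S : ℝ) ^ 24 := by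
  classical
  cases l with
  | nil =>
    have hsum : ∑ i, r i = c0 := by
      have h3 := hbal' h
      simpa using h3
    refine ⟨Set.univ, ⟨MeasurableSet.univ, ⟨solX r c0 [], nodeSol_solX h,
      fun t _ ht => absurd (Set.mem_univ t) ht⟩, fun _ t _ => Set.mem_univ t⟩, ?_⟩
    have hlev : lev r c0 = {r} := by
      ext x
      simp only [mem_lev, Finset.mem_singleton]
      constructor
      · rintro ⟨h1, h2⟩
        have h3 : ∑ i, x i = ∑ i, r i := by rw [h2, hsum]
        have h4 := (Finset.sum_eq_sum_iff_of_le fun i _ => h1 i).1 h3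
        funext i
        exact h4 i (Finset.mem_univ i)
      · rintro rfl
        exact ⟨fun i => le_rfl, hsum⟩
    rw [hlev, Finset.sum_singleton]
    have h5 : (downF S (lN r, (c0 : ℤ), lL []) (lN r)).toReal = 1 / 2 := downF_nil h.hm _
    have h6 : (trialMG (parS S) r c0 ([] : List ℕ).get Set.univ r).toReal = 1 / 2 := trialMG_nil hsum hI
    rw [h5, h6, sub_self, abs_zero]
    positivity
  | cons a t =>
    exact node_close_cons h (List.cons_ne_nil a t) hI

end Vale.Agent.Lib.P328.Bit
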