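import Vale.Agent.Lib.P328.Bit.PsiReal

/-!
# P328, bit model: the potential in fixed point (module PSIF)

`psiF S r c z`: with `i0, j0` from `idxMaxF`, `y` the grid point of the cube `z` (`pointF`): for `k < S ^ 58`, `s_k = 1 + k δ`, `δ` the value of `stepF` (about `8 / S ^ 54`), `y_k = y / s_k` (fixed point), `t_k = tMapF y_k`.
If all entries of `t_k` are at least the threshold `thrF` (about `1/S^26 + 1/S^60`): the value is `v_k = s_k * (Σ t_k - logCapF t_k - phiMinF) + S^27 * (s_k - 1)`, otherwise `v_k = S^32`. `psiF` is the minimum of the `v_k`.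

Spec. `y* = cellPt S z u`, `ψ = psiE S i0 j0 r c`. With `Y` the real point of the word `y`: `|Y - y*|` is at most `cellD` plus a tiny number, and `reg_lip` gives `|ψ Y - ψ y*| ≤ 2 / S ^ 25`.
Lower bound: if the test passes for `k`, then with `W` the real point of `y_k`: `W ∈ domY`, and `v_k` is close to `regVal` at the point `s_k • W`, near `Y`. And `S^32 ≥ ψ Y`.
Upper bound: `reg_search` gives `s ≤ 4 S^4` with `regVal s < ψ + ξ`; take `s_k` in `[s + δ, s + 2 δ]`; then `W = (1 - θ) s⁻¹ Y + θ v`, with `θ = 1 - s / s_k` and `v` in the unit cube; with `tMap v ≥ 1/4` (`tMap_inner`) the test passes.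
-/

namespace Vale.Agent.Lib.P328.Bit

open Finset Vale.Agent.Lib.P328.Cap Vale.Agent.Lib.P328.Fpras Vale.Agent.Lib.P328.Samp

variable {m n : ℕ} {α : Type} [Enc α]

/-- The potential of a cube. -/
noncomputable def psiF (S : ℕ) (r c : List ℤ) (z : List (List ℤ)) : ℤ :=
  ((PsiAux.psiStep S (idxMaxF S r) (idxMaxF S c) r c (PsiAux.pointF S z))^[S ^ 58]
    (fone S, PsiAux.wS S 32)).2

theorem psiF_rep {fr fc : ℕ → α → List ℤ} {fz : ℕ → α → List (List ℤ)} (hr : DRep fr) (hc : DRep fc)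
    (hz : DRep fz) : DRep fun S x => psiF S (fr S x) (fc S x) (fz S x) := by
  have hstep := PsiAux.psiStep_rep (idxMaxF_rep hr) (idxMaxF_rep hc) hr hc (PsiAux.pointF_rep hz)
  have hit := DRep.iterPow 58 hstep
  have h0 : DRep (α := α) (β := α × (ℤ × ℤ)) fun S x => (x, (fone S, PsiAux.wS S 32)) :=
    DRep.id'.pair (fone_rep.pair (PsiAux.wS_rep 32))
  exact (h0.comp hit).comp DRep.snd

/-- The potential of a cube, as a real number. -/
noncomputable def gF (S : ℕ) (r : Fin m → ℕ) (c : Fin n → ℕ)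
    (z : Fin n × Fin m → Fin (cellM S)) : ℝ :=
  val S (psiF S (lN r) (lN c) (lZ z))

variable {S : ℕ} {r : Fin m → ℕ} {c : Fin n → ℕ}

namespace PsiAux

theorem frac_step {x u : ℝ} (hx0 : 0 < x) (hc : u ≤ x) (a : ℕ) : u / x ^ (a + 1) ≤ 1 / x ^ a := by
  rw [div_le_div_iff₀ (by positivity) (by positivity)]
  calc u * x ^ a ≤ x * x ^ a := mul_le_mul_of_nonneg_right hc (by positivity)
    _ = 1 * x ^ (a + 1) := by ring

theorem frac_mono {x : ℝ} (hx : 1 ≤ x) {a b : ℕ} (hab : a ≤ b) : 1 / x ^ b ≤ 1 / x ^ a :=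
  one_div_le_one_div_of_le (by positivity) (pow_le_pow_right₀ hx hab)

/-- Tiny numbers. -/
theorem tiny_le (hS : 1000000 ≤ S) {K : ℝ} (hK : K * (S : ℝ) ^ 60 ≤ aA S ^ 5) :
    K * eE S ≤ 1 / (S : ℝ) ^ 60 := by
  obtain ⟨he0, -, -, hP, -, -, hA1⟩ := nums hS
  have hx := x_facts hS
  have hP1 : (1 : ℝ) ≤ 2 ^ pf S := one_le_pow₀ (by norm_num)
  have h1 : eE S * aA S ^ 5 ≤ 1 := by
    have h2 : 0 ≤ eE S * aA S ^ 5 := by positivity
    have h3 : eE S * aA S ^ 5 * 1 ≤ eE S * aA S ^ 5 * 2 ^ pf S :=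
      mul_le_mul_of_nonneg_left hP1 h2
    linarith
  rw [le_div_iff₀ (by positivity)]
  calc K * eE S * (S : ℝ) ^ 60 = (K * (S : ℝ) ^ 60) * eE S := by ring
    _ ≤ aA S ^ 5 * eE S := mul_le_mul_of_nonneg_right hK he0.le
    _ ≤ 1 := by linarith [mul_comm (eE S) (aA S ^ 5)]

theorem node_facts (h : NodeOK S r c) :
    m ≤ S ∧ n ≤ S ∧ ((n : ℝ) * m + 1) ≤ S ∧ 1000000 * ((n : ℝ) * m) ≤ S ∧ 1 ≤ (n : ℝ) * m := by
  have hS := h.S_ge
  have hm1 : (1 : ℝ) ≤ m := by exact_mod_cast h.hm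
  have hn1 : (1 : ℝ) ≤ n := by exact_mod_cast h.hn
  have h1 : (1 : ℝ) ≤ (n : ℝ) * m := by nlinarith
  have h2 : (10 : ℝ) ^ 6 * ((n : ℝ) * m + 1) ^ 2 ≤ S := h.hW
  have h3 : 1000000 * ((n : ℝ) * m) ≤ S := by nlinarith
  have h4 : (n : ℝ) * m + 1 ≤ S := by nlinarith
  have h5 : (m : ℝ) ≤ S := by nlinarith
  have h6 : (n : ℝ) ≤ S := by nlinarith
  exact ⟨by exact_mod_cast h5, by exact_mod_cast h6, h4, h3, h1⟩

theorem tiny_bundle (hS : 1000000 ≤ S) :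
    eE S ≤ 1 / (S : ℝ) ^ 60 ∧ (S : ℝ) * eE S ≤ 1 / (S : ℝ) ^ 60
      ∧ (S : ℝ) * (2 * aA S * eE S) ≤ 1 / (S : ℝ) ^ 60
      ∧ aA S * (S : ℝ) ^ 27 * eE S ≤ 1 / (S : ℝ) ^ 60 := by
  obtain ⟨he0, heu, he4, hePA, hA6, h100, hA1⟩ := nums hS
  have hx := x_facts hS
  have hAA : aA S ≤ aA S ^ 5 := le_self_pow₀ hA1 (by norm_num)
  have hAA2 : aA S * aA S ≤ aA S ^ 5 := by
    have h1 : aA S * aA S = aA S ^ 2 := by ring
    rw [h1]
    exact pow_le_pow_right₀ hA1 (by norm_num)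
  have hxA : ∀ {k : ℕ}, k ≤ 100 → (S : ℝ) ^ k ≤ aA S := fun hk => pow_le_A hS hk
  have hA_big : (2 : ℝ) ≤ aA S := by
    have := hxA (k := 1) (by norm_num)
    rw [pow_one] at this
    linarith
  refine ⟨?_, ?_, ?_, ?_⟩
  · have h1 := tiny_le hS (K := 1) (by rw [one_mul]; exact (hxA (by norm_num)).trans hAA)
    rwa [one_mul] at h1
  · refine tiny_le hS ?_
    have h1 : (S : ℝ) * (S : ℝ) ^ 60 = (S : ℝ) ^ 61 := by ring
    rw [h1]
    exact (hxA (by norm_num)).trans hAA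
  · have h1 := tiny_le hS (K := (S : ℝ) * (2 * aA S)) (by
      have h2 : (S : ℝ) * (2 * aA S) * (S : ℝ) ^ 60 = 2 * ((S : ℝ) ^ 61 * aA S) := by ring
      rw [h2]
      have h3 : (S : ℝ) ^ 61 * aA S ≤ aA S * aA S :=
        mul_le_mul_of_nonneg_right (hxA (by norm_num)) (by linarith)
      have h5 : 0 ≤ aA S * aA S := by positivity
      have h6 : 2 * (aA S * aA S) ≤ aA S * (aA S * aA S) :=
        mul_le_mul_of_nonneg_right (by linarith) h5
      have h7 : aA S * (aA S * aA S) ≤ aA S ^ 5 := by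
        have h8 : aA S * (aA S * aA S) = aA S ^ 3 := by ring
        rw [h8]
        exact pow_le_pow_right₀ hA1 (by norm_num)
      linarith)
    linarith only [h1, mul_assoc (S : ℝ) (2 * aA S) (eE S)]
  · refine tiny_le hS ?_
    have h2 : aA S * (S : ℝ) ^ 27 * (S : ℝ) ^ 60 = aA S * (S : ℝ) ^ 87 := by ring
    rw [h2]
    exact (mul_le_mul_of_nonneg_left (hxA (by norm_num)) (by linarith)).trans hAA2

/-- The entries of the word matrix are in the range. -/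
theorem word_entry (hS : 1000000 ≤ S) {T v : ℝ} (hlow : 1 / (S : ℝ) ^ 26 ≤ T)
    (hup : T ≤ aA S * (S : ℝ) ^ 5) (htt : |v - T| ≤ eE S) :
    1 / (S : ℝ) ^ 27 ≤ v ∧ v ≤ aA S * (S : ℝ) ^ 6 := by
  obtain ⟨he1, -, -, -⟩ := tiny_bundle hS
  obtain ⟨he0, -, -, -, -, -, hA1⟩ := nums hS
  have hx := x_facts hS
  have hx1 : (1 : ℝ) ≤ S := by linarith
  have hx0 : (0 : ℝ) < S := by linarith
  have ht := abs_le.mp htt
  have h1 : 1 / (S : ℝ) ^ 60 ≤ 1 / (S : ℝ) ^ 27 := frac_mono hx1 (by norm_num)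
  have h2 := frac_step hx0 (u := 2) (by linarith) 26
  have h3 : (2 : ℝ) / (S : ℝ) ^ (26 + 1) = 1 / (S : ℝ) ^ 27 + 1 / (S : ℝ) ^ 27 := by
    norm_num
    ring
  rw [h3] at h2
  refine ⟨by linarith only [h1, h2, ht.1, he1, hlow], ?_⟩
  have h4 : aA S * (S : ℝ) ^ 6 = aA S * (S : ℝ) ^ 5 * (S : ℝ) := by ring
  have h5 : 0 ≤ aA S * (S : ℝ) ^ 5 := by positivity
  have h6 : (1 : ℝ) ≤ aA S * (S : ℝ) ^ 5 := by
    have h7 : (1 : ℝ) ≤ (S : ℝ) ^ 5 := one_le_pow₀ hx1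
    nlinarith
  have h8 : aA S * (S : ℝ) ^ 5 * 2 ≤ aA S * (S : ℝ) ^ 5 * (S : ℝ) :=
    mul_le_mul_of_nonneg_left (by linarith) h5
  have h9 : eE S ≤ 1 := by
    have h10 : 1 / (S : ℝ) ^ 60 ≤ 1 := by
      rw [div_le_one (by positivity)]
      exact one_le_pow₀ hx1
    linarith
  rw [h4]
  linarith only [h6, h8, h9, ht.2, hup]

/-- An entry and a near entry. -/
theorem le_scale_of_close {T T' e X : ℝ} (he : 0 ≤ e) (h1 : 1 ≤ T * X) (h2 : T' ≤ T + e) :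
    T' ≤ (1 + e * X) * T := by
  have h3 := mul_le_mul_of_nonneg_left h1 he
  linarith

/-- The capacity at a near matrix. -/
theorem cap_close (hS : 1000000 ≤ S) (hsum : ∑ i, r i = ∑ j, c j)
    (hN : ((∑ i, r i : ℕ) : ℝ) ≤ aA S) {T T' : Fin n → Fin m → ℝ}
    (hlow : ∀ j i, 1 / (S : ℝ) ^ 26 ≤ T j i) (hT' : ∀ j i, 1 / (S : ℝ) ^ 27 ≤ T' j i)
    (htt : ∀ j i, |T' j i - T j i| ≤ eE S) :
    |Real.log (capa r c T').toReal - Real.log (capa r c T).toReal| ≤ 1 / (S : ℝ) ^ 60 := by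
  obtain ⟨-, -, -, he5⟩ := tiny_bundle hS
  obtain ⟨he0, -, -, -, -, -, -⟩ := nums hS
  have hx := x_facts hS
  have hx1 : (1 : ℝ) ≤ S := by linarith
  have hTpos : ∀ j i, 0 < T j i := fun j i => lt_of_lt_of_le (by positivity) (hlow j i)
  have hTpos' : ∀ j i, 0 < T' j i := fun j i => lt_of_lt_of_le (by positivity) (hT' j i)
  have ha1 : 1 ≤ 1 + eE S * (S : ℝ) ^ 27 := by
    have : 0 ≤ eE S * (S : ℝ) ^ 27 := by positivity
    linarith
  have hA : ∀ j i, 1 ≤ T j i * (S : ℝ) ^ 27 := by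
    intro j i
    have h3 := hlow j i
    rw [div_le_iff₀ (by positivity)] at h3
    have h4 : (S : ℝ) ^ 27 = (S : ℝ) ^ 26 * (S : ℝ) := by ring
    have h5 : 0 ≤ T j i * (S : ℝ) ^ 26 := by
      have := hTpos j i
      positivity
    rw [h4, ← mul_assoc]
    nlinarith
  have hB : ∀ j i, 1 ≤ T' j i * (S : ℝ) ^ 27 := by
    intro j i
    have h3 := hT' j i
    rwa [div_le_iff₀ (by positivity)] at h3
  have h1 := log_capa_diff (r := r) (c := c) hsum hTpos' hTpos ha1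
    (fun j i => le_scale_of_close he0.le (hA j i) (by
      have := (abs_le.mp (htt j i)).2
      linarith))
    (fun j i => le_scale_of_close he0.le (hB j i) (by
      have := (abs_le.mp (htt j i)).1
      linarith))
  refine h1.trans ?_
  have h2 : ((∑ i, r i : ℕ) : ℝ) * (1 + eE S * (S : ℝ) ^ 27 - 1)
      ≤ aA S * (eE S * (S : ℝ) ^ 27) := by
    have : 1 + eE S * (S : ℝ) ^ 27 - 1 = eE S * (S : ℝ) ^ 27 := by ring
    rw [this]
    exact mul_le_mul_of_nonneg_right hN (by positivity)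
  have h3 : aA S * (eE S * (S : ℝ) ^ 27) = aA S * (S : ℝ) ^ 27 * eE S := by ring
  rw [h3] at h2
  exact h2.trans he5

/-- The sum of a matrix of words. -/
theorem sum_close (hS : 1000000 ≤ S) (hmS : m ≤ S) (hnS : n ≤ S) (hD : (n : ℝ) * m ≤ S)
    (hn1 : (1 : ℝ) ≤ n)
    (t' : Fin n → Fin m → ℤ) {T : Fin n → Fin m → ℝ} (hTpos : ∀ j i, 0 < T j i)
    (hup : ∀ j i, T j i ≤ aA S * (S : ℝ) ^ 5)
    (hT' : ∀ j i, 1 / (S : ℝ) ^ 27 ≤ val S (t' j i) ∧ val S (t' j i) ≤ aA S * (S : ℝ) ^ 6)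
    (htt : ∀ j i, |val S (t' j i) - T j i| ≤ eE S) :
    |val S (sumM S (lM t')) - ∑ j, ∑ i, T j i| ≤ (S : ℝ) * eE S
      ∧ |∑ j, ∑ i, T j i| ≤ aA S * aA S := by
  obtain ⟨he0, -, -, -, -, -, hA1⟩ := nums hS
  have hx := x_facts hS
  have hx1 : (1 : ℝ) ≤ S := by linarith
  have hxA : ∀ {k : ℕ}, k ≤ 100 → (S : ℝ) ^ k ≤ aA S := fun hk => pow_le_A hS hk
  have hBnn : 0 ≤ aA S * (S : ℝ) ^ 6 := by positivity
  have hDB : (n : ℝ) * ((m : ℝ) * (aA S * (S : ℝ) ^ 6)) ≤ aA S * aA S := by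
    have h1 : (n : ℝ) * ((m : ℝ) * (aA S * (S : ℝ) ^ 6))
        = ((n : ℝ) * m) * (S : ℝ) ^ 6 * aA S := by ring
    rw [h1]
    apply mul_le_mul_of_nonneg_right _ (by linarith)
    calc (n : ℝ) * m * (S : ℝ) ^ 6 ≤ (S : ℝ) * (S : ℝ) ^ 6 :=
          mul_le_mul_of_nonneg_right hD (by positivity)
      _ = (S : ℝ) ^ 7 := by ring
      _ ≤ aA S := hxA (by norm_num)
  have hA10 := A10_le_Big hS
  have hA2B : aA S * aA S ≤ Big S := by
    have h1 : aA S * aA S = aA S ^ 2 := by ring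
    rw [h1]
    exact (pow_le_pow_right₀ hA1 (by norm_num)).trans hA10
  have hmB : (m : ℝ) * (aA S * (S : ℝ) ^ 6) ≤ aA S * aA S := by
    have h0 : 0 ≤ (m : ℝ) * (aA S * (S : ℝ) ^ 6) := by positivity
    have h1 : (1 : ℝ) * ((m : ℝ) * (aA S * (S : ℝ) ^ 6))
        ≤ (n : ℝ) * ((m : ℝ) * (aA S * (S : ℝ) ^ 6)) := mul_le_mul_of_nonneg_right hn1 h0
    linarith
  have hSM := val_sumM hS hmS hnS t' hBnn (fun j i => by
    have h3 : 0 < val S (t' j i) := lt_of_lt_of_le (by positivity) (hT' j i).1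
    rw [abs_of_pos h3]
    exact (hT' j i).2) (hDB.trans hA2B) (hmB.trans hA2B)
  constructor
  · rw [hSM, ← Finset.sum_sub_distrib]
    simp only [← Finset.sum_sub_distrib]
    have h1 : ∀ j, |∑ i, (val S (t' j i) - T j i)| ≤ (m : ℝ) * eE S := fun j =>
      abs_sum_le' _ (htt j)
    refine (abs_sum_le' _ h1).trans ?_
    have h2 : (n : ℝ) * ((m : ℝ) * eE S) = ((n : ℝ) * m) * eE S := by ring
    rw [h2]
    exact mul_le_mul_of_nonneg_right hD he0.le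
  · have h1 : ∀ j, |∑ i, T j i| ≤ (m : ℝ) * (aA S * (S : ℝ) ^ 6) := fun j =>
      abs_sum_le' _ (fun i => by
        rw [abs_of_pos (hTpos j i)]
        have h2 : aA S * (S : ℝ) ^ 5 ≤ aA S * (S : ℝ) ^ 6 :=
          mul_le_mul_of_nonneg_left (pow_le_pow_right₀ hx1 (by norm_num)) (by linarith)
        exact (hup j i).trans h2)
    exact (abs_sum_le' _ h1).trans hDB

/-- The potential on the range of the matrices. -/
theorem phi_upper_A (hS : 1000000 ≤ S) (hD : (n : ℝ) * m ≤ S) (hsum : ∑ i, r i = ∑ j, c j)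
    (hN : ((∑ i, r i : ℕ) : ℝ) ≤ aA S) {T : Fin n → Fin m → ℝ}
    (hlow : ∀ j i, 1 / (S : ℝ) ^ 26 ≤ T j i) (hup : ∀ j i, T j i ≤ aA S * (S : ℝ) ^ 5) :
    phiT r c T ≤ aA S ^ 4 := by
  obtain ⟨he0, -, -, -, -, -, hA1⟩ := nums hS
  have hx := x_facts hS
  have hxA : ∀ {k : ℕ}, k ≤ 100 → (S : ℝ) ^ k ≤ aA S := fun hk => pow_le_A hS hk
  have hN0 : (0 : ℝ) ≤ ((∑ l, r l : ℕ) : ℝ) := Nat.cast_nonneg _
  have hA_big : (2 : ℝ) ≤ aA S := by
    have := hxA (k := 1) (by norm_num)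
    rw [pow_one] at this
    linarith
  have h1 := phiT_upper hsum (t := T) (lo := 1 / (S : ℝ) ^ 26) (hi := aA S * (S : ℝ) ^ 5)
    (by positivity) (fun j i => ⟨hlow j i, hup j i⟩)
  refine h1.trans ?_
  have h2 : (((∑ i, r i : ℕ) : ℝ)) ^ 2 / (1 / (S : ℝ) ^ 26) ≤ aA S ^ 2 * (S : ℝ) ^ 26 := by
    rw [div_div_eq_mul_div, div_one]
    exact mul_le_mul_of_nonneg_right (pow_le_pow_left₀ hN0 hN 2) (by positivity)
  have h3 : (n : ℝ) * ((m : ℝ) * (aA S * (S : ℝ) ^ 5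
      + (((∑ i, r i : ℕ) : ℝ)) ^ 2 / (1 / (S : ℝ) ^ 26)))
      ≤ (S : ℝ) * (aA S * (S : ℝ) ^ 5 + aA S ^ 2 * (S : ℝ) ^ 26) := by
    have h4 : (n : ℝ) * ((m : ℝ) * (aA S * (S : ℝ) ^ 5
      + (((∑ i, r i : ℕ) : ℝ)) ^ 2 / (1 / (S : ℝ) ^ 26)))
      = ((n : ℝ) * m) * (aA S * (S : ℝ) ^ 5
        + (((∑ i, r i : ℕ) : ℝ)) ^ 2 / (1 / (S : ℝ) ^ 26)) := by ring
    rw [h4]
    apply mul_le_mul hD (by linarith only [h2]) (by positivity) (by linarith)
  refine h3.trans ?_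
  have h5 : (S : ℝ) * (aA S * (S : ℝ) ^ 5 + aA S ^ 2 * (S : ℝ) ^ 26)
      = (S : ℝ) ^ 6 * aA S + aA S ^ 2 * (S : ℝ) ^ 27 := by ring
  rw [h5]
  have h6 : (S : ℝ) ^ 6 * aA S ≤ aA S * aA S :=
    mul_le_mul_of_nonneg_right (hxA (by norm_num)) (by linarith)
  have h7 : aA S ^ 2 * (S : ℝ) ^ 27 ≤ aA S ^ 2 * aA S :=
    mul_le_mul_of_nonneg_left (hxA (by norm_num)) (by positivity)
  have h8 : aA S ^ 4 = aA S * (aA S ^ 2 * aA S) := by ring
  have h9 : 0 ≤ aA S ^ 2 * aA S := by positivity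
  have h10 : 2 * (aA S ^ 2 * aA S) ≤ aA S * (aA S ^ 2 * aA S) :=
    mul_le_mul_of_nonneg_right hA_big h9
  have h11 : aA S * aA S ≤ aA S ^ 2 * aA S := by
    have h12 : aA S * aA S * 1 ≤ aA S * aA S * aA S :=
      mul_le_mul_of_nonneg_left hA1 (by positivity)
    nlinarith only [h12]
  rw [h8]
  linarith only [h6, h7, h10, h11]

/-- The arithmetic of the computed potential. -/
theorem phi_assemble {SM LC PM σ lg μ φ u v A4 x30 x60 eX eX2 : ℝ} (hφ : φ = σ - lg - μ)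
    (h1 : |SM - σ| ≤ eX) (h2 : |LC - u| ≤ 2 * x30) (h3 : |u - lg| ≤ x60) (h4 : |PM - μ| ≤ eX2)
    (hs : |σ| ≤ v) (h5 : |PM| ≤ A4) (hφ0 : 0 ≤ φ) (hφ1 : φ ≤ A4) (hv : v ≤ A4) (hx : x60 ≤ x30)
    (hx1 : x30 ≤ 1) (hx0 : 0 ≤ x30) (he1 : eX ≤ x60) (he2 : eX2 ≤ x60) (hA : 1 ≤ A4) :
    |SM - LC - PM - φ| ≤ 3 * x30 + x30 + x30 + x30 ∧ |SM| ≤ 2 * A4 ∧ |LC| ≤ 10 * A4 ∧ |PM| ≤ 2 * A4
      ∧ |SM - LC| ≤ 12 * A4 ∧ |SM - LC - PM| ≤ 13 * A4 := by
  have a1 := abs_le.mp h1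
  have a2 := abs_le.mp h2
  have a3 := abs_le.mp h3
  have a4 := abs_le.mp h4
  have a5 := abs_le.mp hs
  have a6 := abs_le.mp h5
  subst hφ
  refine ⟨?_, ?_, ?_, ?_, ?_, ?_⟩ <;> rw [abs_le] <;> constructor <;>
    linarith [a1.1, a1.2, a2.1, a2.2, a3.1, a3.2, a4.1, a4.2, a5.1, a5.2, a6.1, a6.2]

/-- The computed potential at a matrix near `tMap W`. -/
theorem phiW_close (h : NodeOK S r c) {i0 : Fin m} {j0 : Fin n} (hi : InstOK i0 j0 r c)
    (t' : Fin n → Fin m → ℤ) {W : Fin n × Fin m → ℝ} (hW : ∀ k, |W k| ≤ rQ S)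
    (hcut : ∀ j i, cutK S ≤ tMap i0 j0 r c W j i)
    (htt : ∀ j i, |val S (t' j i) - tMap i0 j0 r c W j i| ≤ eE S) :
    |val S (csub S (csub S (sumM S (lM t')) (logCapF S (lN r) (lN c) (lM t'))) (phiMinF S (lN r)))
        - phiY i0 j0 r c W| ≤ 6 / (S : ℝ) ^ 30
    ∧ |val S (csub S (csub S (sumM S (lM t')) (logCapF S (lN r) (lN c) (lM t')))
        (phiMinF S (lN r)))| ≤ aA S ^ 6 := by
  have hS := h.S_ge
  obtain ⟨he0, -, -, -, -, -, hA1⟩ := nums hS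
  have hx := x_facts hS
  have hx1 : (1 : ℝ) ≤ S := by linarith
  obtain ⟨hmS, hnS, hD1, hD2, hD3⟩ := node_facts h
  have hDS : (n : ℝ) * m ≤ S := by linarith
  have hn1 : (1 : ℝ) ≤ n := by exact_mod_cast h.hn
  have hupper0 := tMap_upper hi h.hW hW
  unfold phiY
  obtain ⟨T, hT⟩ : ∃ T, T = tMap i0 j0 r c W := ⟨_, rfl⟩
  rw [← hT] at hcut htt hupper0 ⊢
  have hNA : ((∑ l, r l : ℕ) : ℝ) + 1 ≤ aA S := by
    have h1 : (∑ l, r l) + 1 ≤ 2 ^ S := h.hN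
    unfold aA
    exact_mod_cast h1
  have hNA' : ((∑ l, r l : ℕ) : ℝ) ≤ aA S := by linarith
  have hp5 : (0 : ℝ) < (S : ℝ) ^ 5 := by positivity
  have hup : ∀ j i, T j i ≤ aA S * (S : ℝ) ^ 5 := fun j i =>
    (hupper0 j i).trans (mul_le_mul_of_nonneg_right hNA hp5.le)
  have hlow : ∀ j i, 1 / (S : ℝ) ^ 26 ≤ T j i := hcut
  have hTpos : ∀ j i, 0 < T j i := fun j i => lt_of_lt_of_le (by positivity) (hlow j i)
  have hent := fun j i => word_entry hS (hlow j i) (hup j i) (htt j i)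
  have hrange : TabRange S (rM S t') := fun j i => hent j i
  have hLC := logCapF_spec (r := r) (c := c) (t := t') h.hW h.hm h.hn h.hsum h.hN hrange
  have hcap := cap_close (r := r) (c := c) hS h.hsum hNA' (T := T) (T' := rM S t') hlow
    (fun j i => (hent j i).1) htt
  obtain ⟨hs1, hs2⟩ := sum_close hS hmS hnS hDS hn1 t' hTpos hup hent htt
  obtain ⟨hPM1, hPM2⟩ := val_phiMinF hS hmS h.hN
  obtain ⟨-, he2, he3, -⟩ := tiny_bundle hS
  have hA24 : aA S * aA S ≤ aA S ^ 4 := by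
    have h1 : aA S * aA S = aA S ^ 2 := by ring
    rw [h1]
    exact pow_le_pow_right₀ hA1 (by norm_num)
  have hA1' : (1 : ℝ) ≤ aA S ^ 4 := one_le_pow₀ hA1
  have hq30 : 1 / (S : ℝ) ^ 30 ≤ 1 := by
    rw [div_le_one (by positivity)]
    exact one_le_pow₀ hx1
  have h2x : (2 : ℝ) / (S : ℝ) ^ 30 = 2 * (1 / (S : ℝ) ^ 30) := by ring
  rw [h2x] at hLC
  obtain ⟨e1, e2, e3, e4, e5, e6⟩ := phi_assemble (SM := val S (sumM S (lM t')))
    (LC := val S (logCapF S (lN r) (lN c) (lM t'))) (PM := val S (phiMinF S (lN r)))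
    (σ := ∑ j, ∑ i, T j i) (lg := Real.log (capa r c T).toReal) (μ := phiMin r) (φ := phiT r c T)
    rfl hs1 hLC hcap hPM1 hs2 hPM2 (phiT_nonneg h.hsum hTpos)
    (phi_upper_A hS hDS h.hsum hNA' hlow hup) hA24 (frac_mono hx1 (by norm_num)) hq30
    (by positivity) he2 he3 hA1'
  have hA_big : (1000 : ℝ) ≤ aA S := by
    have := pow_le_A hS (k := 1) (by norm_num)
    rw [pow_one] at this
    linarith
  have hA45 : 100 * aA S ^ 4 ≤ aA S ^ 6 := by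
    have h1 : aA S ^ 6 = aA S * (aA S * aA S ^ 4) := by ring
    rw [h1]
    have h2 : 0 ≤ aA S ^ 4 := by positivity
    have h3 : 1000 * aA S ^ 4 ≤ aA S * aA S ^ 4 := mul_le_mul_of_nonneg_right hA_big h2
    have h4 : 0 ≤ aA S * aA S ^ 4 := by positivity
    have h5 : 1 * (aA S * aA S ^ 4) ≤ aA S * (aA S * aA S ^ 4) := mul_le_mul_of_nonneg_right hA1 h4
    linarith only [h3, h5, h2]
  have hA10 := A10_le_Big hS
  have hA6B : aA S ^ 6 ≤ Big S := (pow_le_pow_right₀ hA1 (by norm_num)).trans hA10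
  have h4B : 13 * aA S ^ 4 ≤ aA S ^ 6 := by
    have h2 : 0 ≤ aA S ^ 4 := by positivity
    linarith only [hA45, h2]
  have hbSM : |val S (sumM S (lM t'))| ≤ Big S := by linarith only [e2, h4B, hA6B, hA1']
  have hbLC : |val S (logCapF S (lN r) (lN c) (lM t'))| ≤ Big S := by
    linarith only [e3, h4B, hA6B, hA1']
  have hbPM : |val S (phiMinF S (lN r))| ≤ Big S := by linarith only [e4, h4B, hA6B, hA1']
  have v1 := val_sub hS hbSM hbLC
  have hbS2 : |val S (csub S (sumM S (lM t')) (logCapF S (lN r) (lN c) (lM t')))| ≤ Big S := by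
    rw [v1]
    linarith only [e5, h4B, hA6B, hA1']
  have v2 := val_sub hS hbS2 hbPM
  rw [v1] at v2
  rw [v2]
  constructor
  · have h6 : (6 : ℝ) / (S : ℝ) ^ 30 = 3 * (1 / (S : ℝ) ^ 30) + 1 / (S : ℝ) ^ 30 + 1 / (S : ℝ) ^ 30
        + 1 / (S : ℝ) ^ 30 := by ring
    rw [h6]
    exact e1
  · linarith only [e6, h4B, hA1']

/-- The value at a scale from the computed potential. -/
theorem value_close (hS : 1000000 ≤ S) {s Φw : ℤ} {φ : ℝ} (hs1 : 1 ≤ val S s)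
    (hs2 : val S s ≤ 10 * (S : ℝ) ^ 4) (hΦ : |val S Φw - φ| ≤ 6 / (S : ℝ) ^ 30)
    (hΦB : |val S Φw| ≤ aA S ^ 6) :
    |val S (cadd S (fmul S s Φw) (fmul S (wS S 27) (csub S s (fone S))))
        - (val S s * φ + (S : ℝ) ^ 27 * (val S s - 1))| ≤ 1 / (2 * (S : ℝ) ^ 25) := by
  obtain ⟨he0, heu, -, -, -, -, hA1⟩ := nums hS
  obtain ⟨he1, -, -, -⟩ := tiny_bundle hS
  have hx := x_facts hS
  have hx1 : (1 : ℝ) ≤ S := by linarith
  have hx0 : (0 : ℝ) < S := by linarith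
  have hxA : ∀ {k : ℕ}, k ≤ 100 → (S : ℝ) ^ k ≤ aA S := fun hk => pow_le_A hS hk
  have hA10 := A10_le_Big hS
  have hA_big : (1000 : ℝ) ≤ aA S := by
    have := hxA (k := 1) (by norm_num)
    rw [pow_one] at this
    linarith
  have hAp : ∀ {k : ℕ}, k ≤ 10 → aA S ^ k ≤ Big S := fun hk =>
    (pow_le_pow_right₀ hA1 hk).trans hA10
  obtain ⟨ŝ, hŝ⟩ : ∃ u, u = val S s := ⟨_, rfl⟩
  rw [← hŝ] at hs1 hs2 ⊢
  have hŝA : ŝ ≤ aA S := by
    have h1 : 10 * (S : ℝ) ^ 4 ≤ (S : ℝ) ^ 5 := by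
      have h2 : (S : ℝ) ^ 5 = (S : ℝ) * (S : ℝ) ^ 4 := by ring
      rw [h2]
      exact mul_le_mul_of_nonneg_right (by linarith) (by positivity)
    exact (hs2.trans h1).trans (hxA (by norm_num))
  have hŝB : |val S s| ≤ Big S := by
    rw [← hŝ, abs_of_nonneg (by linarith)]
    have h1 : aA S ≤ aA S ^ 10 := le_self_pow₀ hA1 (by norm_num)
    linarith only [hŝA, h1, hA10]
  have hΦB' : |val S Φw| ≤ Big S := hΦB.trans (hAp (by norm_num))
  have hf1 := val_fmul hS hŝB hΦB'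
  rw [← hŝ] at hf1
  have hone : |val S (fone S)| ≤ Big S := by
    rw [val_fone hS, abs_one]
    exact one_le_Big S
  have hsub := val_sub hS hŝB hone
  rw [val_fone hS, ← hŝ] at hsub
  have hsubB : |val S (csub S s (fone S))| ≤ Big S := by
    rw [hsub, abs_of_nonneg (by linarith)]
    have h1 : aA S ≤ aA S ^ 10 := le_self_pow₀ hA1 (by norm_num)
    linarith only [hŝA, h1, hA10]
  have hw := val_wS hS (k := 27) (by norm_num)
  have hwB : |val S (wS S 27)| ≤ Big S := by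
    rw [hw, abs_of_nonneg (by positivity)]
    exact (hxA (by norm_num)).trans (A_le_Big hS)
  have hf2 := val_fmul hS hwB hsubB
  rw [hw, hsub] at hf2
  have hu1 : ulp S ≤ 1 := ulp_small S
  have hprod1 : |ŝ * val S Φw| ≤ aA S * aA S ^ 6 := by
    rw [abs_mul, abs_of_nonneg (by linarith : (0 : ℝ) ≤ ŝ)]
    exact mul_le_mul hŝA hΦB (abs_nonneg _) (by linarith)
  have hprod2 : |(S : ℝ) ^ 27 * (ŝ - 1)| ≤ aA S * aA S := by
    rw [abs_mul, abs_of_nonneg (by positivity : (0 : ℝ) ≤ (S : ℝ) ^ 27),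
      abs_of_nonneg (by linarith : (0 : ℝ) ≤ ŝ - 1)]
    exact mul_le_mul (hxA (by norm_num)) (by linarith) (by linarith) (by linarith)
  have hA79 : aA S * aA S ^ 6 + 1 ≤ aA S ^ 8 := by
    have h1 : aA S ^ 8 = aA S * (aA S * aA S ^ 6) := by ring
    have h2 : 0 ≤ aA S * aA S ^ 6 := by positivity
    have h3 : 2 * (aA S * aA S ^ 6) ≤ aA S * (aA S * aA S ^ 6) :=
      mul_le_mul_of_nonneg_right (by linarith) h2
    have h4 : 1 ≤ aA S * aA S ^ 6 := by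
      have h5 : 1 ≤ aA S ^ 6 := one_le_pow₀ hA1
      nlinarith
    rw [h1]
    linarith only [h3, h4]
  have hA29 : aA S * aA S + 1 ≤ aA S ^ 8 := by
    have h1 : aA S * aA S ≤ aA S * aA S ^ 6 :=
      mul_le_mul_of_nonneg_left (le_self_pow₀ hA1 (by norm_num)) (by linarith)
    linarith only [hA79, h1]
  have hA8B : aA S ^ 8 ≤ Big S := hAp (by norm_num)
  have hf1B : |val S (fmul S s Φw)| ≤ Big S := by
    have a1 := abs_le.mp hf1
    have a2 := abs_le.mp hprod1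
    rw [abs_le]
    constructor <;> linarith only [a1.1, a1.2, a2.1, a2.2, hA79, hA8B, hu1]
  have hf2B : |val S (fmul S (wS S 27) (csub S s (fone S)))| ≤ Big S := by
    have a1 := abs_le.mp hf2
    have a2 := abs_le.mp hprod2
    rw [abs_le]
    constructor <;> linarith only [a1.1, a1.2, a2.1, a2.2, hA29, hA8B, hu1]
  rw [val_add hS hf1B hf2B]
  have hdiff : ŝ * |val S Φw - φ| ≤ 10 * (S : ℝ) ^ 4 * (6 / (S : ℝ) ^ 30) :=
    mul_le_mul hs2 hΦ (abs_nonneg _) (by positivity)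
  have hq : 10 * (S : ℝ) ^ 4 * (6 / (S : ℝ) ^ 30) = 60 / (S : ℝ) ^ 26 := by
    field_simp
    norm_num
  rw [hq] at hdiff
  have hq2 : 1 / (2 * (S : ℝ) ^ 25) = (1 / 2) * (1 / (S : ℝ) ^ 25) := by
    field_simp
  have hq3 := frac_step hx0 (u := 240) (by linarith) 25
  have hq4 : (240 : ℝ) / (S : ℝ) ^ (25 + 1) = 4 * (60 / (S : ℝ) ^ 26) := by
    norm_num
    ring
  rw [hq4] at hq3
  have hq5 : 1 / (S : ℝ) ^ 60 ≤ 1 / (S : ℝ) ^ 26 := frac_mono hx1 (by norm_num)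
  have hq6 := frac_step hx0 (u := 8) (by linarith) 25
  have hq7 : (8 : ℝ) / (S : ℝ) ^ (25 + 1) = 8 * (1 / (S : ℝ) ^ 26) := by
    norm_num
    ring
  rw [hq7] at hq6
  have e : val S (fmul S s Φw) + val S (fmul S (wS S 27) (csub S s (fone S)))
      - (ŝ * φ + (S : ℝ) ^ 27 * (ŝ - 1))
      = (val S (fmul S s Φw) - ŝ * val S Φw) + ŝ * (val S Φw - φ)
        + (val S (fmul S (wS S 27) (csub S s (fone S))) - (S : ℝ) ^ 27 * (ŝ - 1)) := by ring
  rw [e, hq2]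
  have h0 : |ŝ * (val S Φw - φ)| ≤ 60 / (S : ℝ) ^ 26 := by
    rw [abs_mul, abs_of_nonneg (by linarith : (0 : ℝ) ≤ ŝ)]
    exact hdiff
  have a1 := abs_le.mp hf1
  have a2 := abs_le.mp hf2
  have a3 := abs_le.mp h0
  rw [abs_le]
  constructor <;> linarith only [a1.1, a1.2, a2.1, a2.2, a3.1, a3.2, hq3, hq5, hq6, heu, he1]

/-- The scaled point and the matrix of a scale. -/
theorem scale_data (h : NodeOK S r c) (i0 : Fin m) (j0 : Fin n) (y0 : Fin n → Fin m → ℤ) {s : ℤ}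
    (hY : ∀ k, |rY S y0 k| + 2 * eE S ≤ rQ S) (hs1 : 1 ≤ val S s)
    (hs2 : val S s ≤ 10 * (S : ℝ) ^ 4) :
    ∃ (t' : Fin n → Fin m → ℤ) (W : Fin n × Fin m → ℝ),
      tMapF S ((i0 : ℕ) : ℤ) ((j0 : ℕ) : ℤ) (lN r) (lN c) (scaleF S s (lM y0)) = lM t'
      ∧ (∀ k, |W k - ((val S s)⁻¹ • rY S y0) k| ≤ ulp S)
      ∧ (∀ k, |W k| ≤ rQ S)
      ∧ (∀ j i, |val S (t' j i) - tMap i0 j0 r c W j i| ≤ eE S) := by
  have hS := h.S_ge
  obtain ⟨he0, heu, -, -, -, -, hA1⟩ := nums hS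
  have hx := x_facts hS
  have hx1 : (1 : ℝ) ≤ S := by linarith
  obtain ⟨hmS, hnS, hD1, hD2, hD3⟩ := node_facts h
  have hxA : ∀ {k : ℕ}, k ≤ 100 → (S : ℝ) ^ k ≤ aA S := fun hk => pow_le_A hS hk
  have hBA := A_le_Big hS
  have hŝ0 : 0 < val S s := by linarith
  have hŝB : |val S s| ≤ Big S := by
    rw [abs_of_pos hŝ0]
    have h1 : 10 * (S : ℝ) ^ 4 ≤ (S : ℝ) ^ 5 := by
      have h2 : (S : ℝ) ^ 5 = (S : ℝ) * (S : ℝ) ^ 4 := by ring
      rw [h2]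
      exact mul_le_mul_of_nonneg_right (by linarith) (by positivity)
    linarith only [hs2, h1, hxA (k := 5) (by norm_num), hBA]
  have hŝB0 : 1 / Big S ≤ |val S s| := by
    rw [abs_of_pos hŝ0]
    have h1 : 1 / Big S ≤ 1 := by
      rw [div_le_one (by linarith only [one_le_Big S])]
      exact one_le_Big S
    linarith only [h1, hs1]
  have hrq : rQ S ≤ Big S := by
    unfold rQ
    have h1 : 2 * (S : ℝ) ^ 4 ≤ (S : ℝ) ^ 5 := by
      have h2 : (S : ℝ) ^ 5 = (S : ℝ) * (S : ℝ) ^ 4 := by ring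
      rw [h2]
      exact mul_le_mul_of_nonneg_right (by linarith) (by positivity)
    linarith only [h1, hxA (k := 5) (by norm_num), hBA]
  have hy0 : ∀ j i, |val S (y0 j i)| + 2 * eE S ≤ rQ S := fun j i => hY (j, i)
  have hy0B : ∀ j i, |val S (y0 j i)| ≤ Big S := fun j i => by
    linarith only [hy0 j i, he0, hrq]
  have hfd := fun j i => val_fdiv hS (hy0B j i) hŝB hŝB0
  obtain ⟨W, hW⟩ : ∃ W, W = rY S (fun j i => fdiv S (y0 j i) s) := ⟨_, rfl⟩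
  have h1 : ∀ k, |W k - ((val S s)⁻¹ • rY S y0) k| ≤ ulp S := by
    rintro ⟨j, i⟩
    have h2 := hfd j i
    rw [hW]
    simp only [rY, Pi.smul_apply, smul_eq_mul]
    rw [inv_mul_eq_div]
    exact h2
  have h2 : ∀ k, |W k| ≤ rQ S := by
    intro k
    have h3 := abs_le.mp (h1 k)
    have h4 : |((val S s)⁻¹ • rY S y0) k| ≤ |rY S y0 k| := by
      simp only [Pi.smul_apply, smul_eq_mul, abs_mul, abs_inv, abs_of_pos hŝ0]
      rw [inv_mul_le_iff₀ hŝ0]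
      exact le_mul_of_one_le_left (abs_nonneg _) hs1
    have h5 := abs_le.mp h4
    have h6 := hY k
    rw [abs_le]
    constructor <;> linarith only [h3.1, h3.2, h5.1, h5.2, h6, heu, he0]
  have hrq2 : rQ S ≤ 2 * (S : ℝ) ^ 5 := by
    unfold rQ
    have h3 : (S : ℝ) ^ 4 ≤ (S : ℝ) ^ 5 := pow_le_pow_right₀ hx1 (by norm_num)
    linarith only [h3]
  obtain ⟨t', ht1, ht2⟩ := tMapF_spec (r := r) (c := c) hS hD1 h.hN h.hsum i0 j0
    (fun j i => fdiv S (y0 j i) s) (fun j i => by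
      have h3 := h2 (j, i)
      rw [hW] at h3
      exact h3.trans hrq2)
  refine ⟨t', W, ?_, h1, h2, ?_⟩
  · rw [scaleF_lM hmS hnS]
    exact ht1
  · rw [hW]
    exact ht2

/-- Lower bound for the value at any scale. -/
theorem valF_lower (h : NodeOK S r c) {i0 : Fin m} {j0 : Fin n} (hi : InstOK i0 j0 r c)
    (y0 : Fin n → Fin m → ℤ) {s : ℤ} (hY : ∀ k, |rY S y0 k| + 2 * eE S ≤ rQ S) (hs1 : 1 ≤ val S s)
    (hs2 : val S s ≤ 10 * (S : ℝ) ^ 4) :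
    psiE S i0 j0 r c (rY S y0) - 1 / (S : ℝ) ^ 25
      ≤ val S (valF S ((i0 : ℕ) : ℤ) ((j0 : ℕ) : ℤ) (lN r) (lN c) (lM y0) s) := by
  have hS := h.S_ge
  obtain ⟨he0, heu, -, -, -, -, hA1⟩ := nums hS
  obtain ⟨he1, he2, -, -⟩ := tiny_bundle hS
  have hx := x_facts hS
  have hx1 : (1 : ℝ) ≤ S := by linarith
  have hx0 : (0 : ℝ) < S := by linarith
  obtain ⟨hmS, hnS, hD1, hD2, hD3⟩ := node_facts h
  obtain ⟨t', W, ht, hW1, hW2, htt⟩ := scale_data h i0 j0 y0 hY hs1 hs2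
  have hR := regHyp_inst hi h.hW
  have hl0 : (0 : ℝ) ≤ (S : ℝ) ^ 27 := by positivity
  obtain ⟨hth1, hth2, hth3⟩ := val_thrF hS
  unfold valF
  rw [ht]
  by_cases hp : 0 < okM S (thrF S) (lM t')
  · rw [if_pos hp]
    have hall := (okM_lM hmS hnS t' hth2 hth3).mp hp
    have hcut : ∀ j i, cutK S ≤ tMap i0 j0 r c W j i := by
      intro j i
      have h1 : val S (thrF S) ≤ val S (t' j i) := (val_le_iff hS).mpr (hall j i)
      have h2 := abs_le.mp (htt j i)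
      have h3 := abs_le.mp hth1
      have h4 : 3 * eE S ≤ (S : ℝ) * eE S := mul_le_mul_of_nonneg_right (by linarith) he0.le
      unfold cutK
      linarith only [h1, h2.1, h2.2, h3.1, h3.2, h4, he2, heu]
    obtain ⟨hc1, hc2⟩ := phiW_close h hi t' hW2 hcut htt
    have hv := value_close hS hs1 hs2 hc1 hc2
    obtain ⟨ŝ, hŝ⟩ : ∃ u, u = val S s := ⟨_, rfl⟩
    rw [← hŝ] at hs1 hs2 hv hW1
    have hŝ0 : ŝ ≠ 0 := by
      have : 0 < ŝ := by linarith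
      exact this.ne'
    have hreg := reg_le_val hR hl0 (y := ŝ • W) hs1 (by
      rw [inv_smul_smul₀ hŝ0]
      exact hcut)
    have e1 : regVal (phiY i0 j0 r c) ((S : ℝ) ^ 27) (ŝ • W) ŝ
        = ŝ * phiY i0 j0 r c W + (S : ℝ) ^ 27 * (ŝ - 1) := by
      unfold regVal
      rw [inv_smul_smul₀ hŝ0]
    rw [e1] at hreg
    have hlip := reg_lip hR hl0 (a := ŝ * ulp S) (y := ŝ • W) (y' := rY S y0) (by
        have : 0 ≤ ulp S := by
          unfold ulp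
          positivity
        have h0 : 0 ≤ ŝ := by linarith
        positivity) (fun k => by
        have h3 := hW1 k
        have h4 : (ŝ • W) k - rY S y0 k = ŝ * (W k - (ŝ⁻¹ • rY S y0) k) := by
          simp only [Pi.smul_apply, smul_eq_mul]
          field_simp
        rw [h4, abs_mul, abs_of_nonneg (by linarith : (0 : ℝ) ≤ ŝ)]
        exact mul_le_mul_of_nonneg_left h3 (by linarith))
    have hU : 2 * ((n : ℝ) * m) + (S : ℝ) ^ 27 ≤ 2 * (S : ℝ) ^ 27 := by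
      have h3 : (S : ℝ) ^ 1 ≤ (S : ℝ) ^ 27 := pow_le_pow_right₀ hx1 (by norm_num)
      rw [pow_one] at h3
      linarith only [h3, hD2, hD3]
    have htiny : ŝ * ulp S * (2 * ((n : ℝ) * m) + (S : ℝ) ^ 27) ≤ 1 / (2 * (S : ℝ) ^ 25) := by
      have h3 : ŝ * ulp S * (2 * ((n : ℝ) * m) + (S : ℝ) ^ 27)
          ≤ 10 * (S : ℝ) ^ 4 * eE S * (2 * (S : ℝ) ^ 27) := by
        apply mul_le_mul _ hU (by positivity) (by positivity)
        exact mul_le_mul hs2 heu (by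
          unfold ulp
          positivity) (by positivity)
      have h4 := tiny_le hS (K := 10 * (S : ℝ) ^ 4 * (2 * (S : ℝ) ^ 27)) (by
        have h5 : 10 * (S : ℝ) ^ 4 * (2 * (S : ℝ) ^ 27) * (S : ℝ) ^ 60 = 20 * (S : ℝ) ^ 91 := by ring
        rw [h5]
        have h6 : 20 * (S : ℝ) ^ 91 ≤ (S : ℝ) ^ 92 := by
          have h7 : (S : ℝ) ^ 92 = (S : ℝ) * (S : ℝ) ^ 91 := by ring
          rw [h7]
          exact mul_le_mul_of_nonneg_right (by linarith) (by positivity)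
        have h8 : aA S ≤ aA S ^ 5 := le_self_pow₀ hA1 (by norm_num)
        linarith only [h6, h8, pow_le_A hS (k := 92) (by norm_num)])
      have h5 : 10 * (S : ℝ) ^ 4 * eE S * (2 * (S : ℝ) ^ 27)
          = 10 * (S : ℝ) ^ 4 * (2 * (S : ℝ) ^ 27) * eE S := by ring
      rw [h5] at h3
      have h6 : 1 / (S : ℝ) ^ 60 ≤ 1 / (2 * (S : ℝ) ^ 25) := by
        apply one_div_le_one_div_of_le (by positivity)
        have h7 : (S : ℝ) ^ 60 = (S : ℝ) * (S : ℝ) ^ 59 := by ring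
        have h8 : (S : ℝ) ^ 25 ≤ (S : ℝ) ^ 59 := pow_le_pow_right₀ hx1 (by norm_num)
        rw [h7]
        calc 2 * (S : ℝ) ^ 25 ≤ 2 * (S : ℝ) ^ 59 := by linarith only [h8]
          _ ≤ (S : ℝ) * (S : ℝ) ^ 59 := mul_le_mul_of_nonneg_right (by linarith) (by positivity)
      linarith only [h3, h4, h6]
    have hq : 1 / (S : ℝ) ^ 25 = 1 / (2 * (S : ℝ) ^ 25) + 1 / (2 * (S : ℝ) ^ 25) := by
      field_simp
      norm_num
    have hv' := (abs_le.mp hv).1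
    rw [hq]
    have hpsi : psiE S i0 j0 r c (rY S y0)
        = regPsi (domY S i0 j0 r c) (phiY i0 j0 r c) ((S : ℝ) ^ 27) (rY S y0) := rfl
    rw [hpsi]
    linarith only [hreg, hlip, htiny, hv']
  · rw [if_neg hp, val_wS hS (by norm_num)]
    have h1 := psiE_upper hi h.hW (y := rY S y0) (fun k => by
      have := hY k
      linarith only [this, he0])
    have h2 : (0 : ℝ) < 1 / (S : ℝ) ^ 25 := by positivity
    linarith only [h1, h2]

/-- Upper bound for the value at a scale larger than an admissible scale. -/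
theorem valF_upper (h : NodeOK S r c) {i0 : Fin m} {j0 : Fin n} (hi : InstOK i0 j0 r c)
    (y0 : Fin n → Fin m → ℤ) {s : ℤ} (hY : ∀ k, |rY S y0 k| + 2 * eE S ≤ rQ S) (hs1 : 1 ≤ val S s)
    (hs2 : val S s ≤ 10 * (S : ℝ) ^ 4) {s0 : ℝ} (h01 : 1 ≤ s0) (h02 : s0 < val S s)
    (hdom : s0⁻¹ • rY S y0 ∈ domY S i0 j0 r c)
    (hθ : 1 / (2 * (S : ℝ) ^ 58) ≤ 1 - s0 / val S s) :
    val S (valF S ((i0 : ℕ) : ℤ) ((j0 : ℕ) : ℤ) (lN r) (lN c) (lM y0) s)
      ≤ regVal (phiY i0 j0 r c) ((S : ℝ) ^ 27) (rY S y0) s0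
        + (val S s - s0) * (2 * ((n : ℝ) * m) + (S : ℝ) ^ 27) + 1 / (2 * (S : ℝ) ^ 25) := by
  have hS := h.S_ge
  obtain ⟨he0, heu, -, -, -, -, hA1⟩ := nums hS
  obtain ⟨he1, he2, -, -⟩ := tiny_bundle hS
  have hx := x_facts hS
  have hx1 : (1 : ℝ) ≤ S := by linarith
  have hx0 : (0 : ℝ) < S := by linarith
  obtain ⟨hmS, hnS, hD1, hD2, hD3⟩ := node_facts h
  obtain ⟨t', W, ht, hW1, hW2, htt⟩ := scale_data h i0 j0 y0 hY hs1 hs2
  have hR := regHyp_inst hi h.hW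
  obtain ⟨hth1, hth2, hth3⟩ := val_thrF hS
  have hs00 : 0 < s0 := by linarith
  have hq60 : 1 / (S : ℝ) ^ 60 ≤ 1 / (2 * (S : ℝ) ^ 58) := by
    apply one_div_le_one_div_of_le (by positivity)
    have h7 : (S : ℝ) ^ 60 = (S : ℝ) ^ 2 * (S : ℝ) ^ 58 := by ring
    rw [h7]
    apply mul_le_mul_of_nonneg_right _ (by positivity)
    nlinarith
  have hw : ∀ k, |W k - ((val S s)⁻¹ • rY S y0) k| ≤ 1 - s0 / val S s := fun k =>
    (hW1 k).trans (by linarith only [heu, he1, hq60, hθ])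
  obtain ⟨hWK, hphi⟩ := reg_perturb hR h01 h02 hdom hw
  have htm := tMap_perturb hi hs00 h02 (K0 := cutK S) hdom hw
  -- the test passes
  have hpass : ∀ j i, thrF S ≤ t' j i := by
    intro j i
    rw [← val_le_iff hS]
    have h1 := htm j i
    have h2 := abs_le.mp (htt j i)
    have h3 := abs_le.mp hth1
    obtain ⟨a, ha⟩ : ∃ a, a = s0 / val S s := ⟨_, rfl⟩
    rw [← ha] at h1 hθ
    have hcut8 : cutK S ≤ 1 / 8 := by
      unfold cutK
      rw [div_le_div_iff₀ (by positivity) (by norm_num)]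
      have h4 : (S : ℝ) ^ 1 ≤ (S : ℝ) ^ 26 := pow_le_pow_right₀ hx1 (by norm_num)
      rw [pow_one] at h4
      linarith only [h4, hx]
    have hcut0 : 0 ≤ cutK S := by
      unfold cutK
      positivity
    have h5 : (1 - a) * (1 / 8) ≤ (1 - a) * (1 / 4 - cutK S) :=
      mul_le_mul_of_nonneg_left (by linarith only [hcut8]) (by
        have : (0 : ℝ) < 1 / (2 * (S : ℝ) ^ 58) := by positivity
        linarith only [this, hθ])
    have h6 : 1 / (2 * (S : ℝ) ^ 58) * (1 / 8) ≤ (1 - a) * (1 / 8) :=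
      mul_le_mul_of_nonneg_right hθ (by norm_num)
    have h7 : (4 : ℝ) * (1 / (S : ℝ) ^ 60) ≤ 1 / (2 * (S : ℝ) ^ 58) * (1 / 8) := by
      have h8 : 1 / (2 * (S : ℝ) ^ 58) * (1 / 8) = (1 / 16) * (1 / (S : ℝ) ^ 58) := by
        field_simp
        norm_num
      rw [h8]
      have h9 := frac_step hx0 (u := 64) (by linarith) 58
      have h10 : 1 / (S : ℝ) ^ 60 ≤ 1 / (S : ℝ) ^ 59 := frac_mono hx1 (by norm_num)
      have h11 : (64 : ℝ) / (S : ℝ) ^ (58 + 1) = 64 * (1 / (S : ℝ) ^ 59) := by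
        norm_num
        ring
      rw [h11] at h9
      linarith only [h9, h10]
    have h8 : 3 * eE S ≤ (S : ℝ) * eE S := mul_le_mul_of_nonneg_right (by linarith) he0.le
    have e1 : a * cutK S + (1 - a) * (1 / 4) = cutK S + (1 - a) * (1 / 4 - cutK S) := by ring
    have e2 : cutK S = 1 / (S : ℝ) ^ 26 := rfl
    rw [e1] at h1
    have hpp : (0 : ℝ) < 1 / (S : ℝ) ^ 60 := by positivity
    linarith only [h1, h2.1, h3.2, h5, h6, h7, h8, he2, heu, e2, hpp]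
  have hp : 0 < okM S (thrF S) (lM t') := (okM_lM hmS hnS t' hth2 hth3).mpr hpass
  unfold valF
  rw [ht, if_pos hp]
  obtain ⟨hc1, hc2⟩ := phiW_close h hi t' hW2 hWK htt
  have hv := (abs_le.mp (value_close hS hs1 hs2 hc1 hc2)).2
  have e3 : regVal (phiY i0 j0 r c) ((S : ℝ) ^ 27) (rY S y0) s0
      = s0 * phiY i0 j0 r c (s0⁻¹ • rY S y0) + (S : ℝ) ^ 27 * (s0 - 1) := rfl
  rw [e3]
  have e4 : (val S s - s0) * (2 * ((n : ℝ) * m) + (S : ℝ) ^ 27)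
      = (val S s - s0) * (2 * ((n : ℝ) * m)) + (S : ℝ) ^ 27 * (val S s - 1)
        - (S : ℝ) ^ 27 * (s0 - 1) := by ring
  rw [e4]
  linarith only [hv, hphi]

theorem val_add_mul (S : ℕ) (a b : ℤ) (k : ℕ) : val S (a + k * b) = val S a + k * val S b := by
  unfold val
  push_cast
  ring

theorem step_facts (hS : 1000000 ≤ S) :
    7 / (S : ℝ) ^ 54 ≤ val S (stepF S) ∧ val S (stepF S) ≤ 9 / (S : ℝ) ^ 54
      ∧ clamp S (stepF S) = stepF S := by
  obtain ⟨he0, heu, -, -, -, -, hA1⟩ := nums hS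
  obtain ⟨he1, -, -, -⟩ := tiny_bundle hS
  have hx := x_facts hS
  have hx1 : (1 : ℝ) ≤ S := by linarith
  have h1 := abs_le.mp (val_stepF hS)
  have h2 : 1 / (S : ℝ) ^ 60 ≤ 1 / (S : ℝ) ^ 54 := frac_mono hx1 (by norm_num)
  have e7 : (7 : ℝ) / (S : ℝ) ^ 54 = 8 / (S : ℝ) ^ 54 - 1 / (S : ℝ) ^ 54 := by ring
  have e9 : (9 : ℝ) / (S : ℝ) ^ 54 = 8 / (S : ℝ) ^ 54 + 1 / (S : ℝ) ^ 54 := by ring
  rw [e7, e9]
  refine ⟨by linarith only [h1.1, h2, heu, he1], by linarith only [h1.2, h2, heu, he1], ?_⟩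
  unfold stepF fdiv cdiv
  exact clamp_clamp' S _

/-- The scales of the loop. -/
theorem scale_facts (hS : 1000000 ≤ S) {k : ℕ} (hk : k ≤ S ^ 58) :
    val S (fone S + k * stepF S) = 1 + k * val S (stepF S)
      ∧ 1 ≤ val S (fone S + k * stepF S) ∧ val S (fone S + k * stepF S) ≤ 10 * (S : ℝ) ^ 4
      ∧ clamp S (fone S + k * stepF S) = fone S + k * stepF S := by
  have hx := x_facts hS
  have hx1 : (1 : ℝ) ≤ S := by linarith
  have hx0 : (0 : ℝ) < S := by linarith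
  obtain ⟨h7, h9, -⟩ := step_facts hS
  have e : val S (fone S + k * stepF S) = 1 + k * val S (stepF S) := by
    rw [val_add_mul, val_fone hS]
  have hd0 : 0 < val S (stepF S) := lt_of_lt_of_le (by positivity) h7
  have hk0 : (0 : ℝ) ≤ k := Nat.cast_nonneg _
  have hkR : (k : ℝ) ≤ (S : ℝ) ^ 58 := by exact_mod_cast hk
  have h1 : (k : ℝ) * val S (stepF S) ≤ (S : ℝ) ^ 58 * (9 / (S : ℝ) ^ 54) :=
    mul_le_mul hkR h9 hd0.le (by positivity)
  have h2 : (S : ℝ) ^ 58 * (9 / (S : ℝ) ^ 54) = 9 * (S : ℝ) ^ 4 := by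
    field_simp
  have h3 : (1 : ℝ) ≤ (S : ℝ) ^ 4 := one_le_pow₀ hx1
  have h4 : 0 ≤ (k : ℝ) * val S (stepF S) := by positivity
  have hs1 : 1 ≤ val S (fone S + k * stepF S) := by
    rw [e]
    linarith only [h4]
  have hs2 : val S (fone S + k * stepF S) ≤ 10 * (S : ℝ) ^ 4 := by
    rw [e]
    linarith only [h1, h2, h3]
  refine ⟨e, hs1, hs2, ?_⟩
  apply clamp_of_val hS
  rw [abs_of_nonneg (by linarith only [hs1])]
  have h5 : 10 * (S : ℝ) ^ 4 ≤ (S : ℝ) ^ 5 := by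
    have h6 : (S : ℝ) ^ 5 = (S : ℝ) * (S : ℝ) ^ 4 := by ring
    rw [h6]
    exact mul_le_mul_of_nonneg_right (by linarith) (by positivity)
  linarith only [hs2, h5, pow_le_A hS (k := 5) (by norm_num), A_le_Big hS]

theorem valF_clamp (S : ℕ) (i0 j0 : ℤ) (r c : List ℤ) (y : List (List ℤ)) (s : ℤ) :
    clamp S (valF S i0 j0 r c y s) = valF S i0 j0 r c y s := by
  unfold valF
  split_ifs
  · unfold cadd
    exact clamp_clamp' S _
  · unfold wS fint cmul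
    exact clamp_clamp' S _

theorem wS_clamp (S k : ℕ) : clamp S (wS S k) = wS S k := by
  unfold wS fint cmul
  exact clamp_clamp' S _

/-- The upper bound: a scale of the loop near an almost optimal scale. -/
theorem exists_scale (h : NodeOK S r c) {i0 : Fin m} {j0 : Fin n} (hi : InstOK i0 j0 r c)
    (y0 : Fin n → Fin m → ℤ) (hY : ∀ k, |rY S y0 k| + 2 * eE S ≤ rQ S) :
    ∃ k : ℕ, k < S ^ 58 ∧ val S (valF S ((i0 : ℕ) : ℤ) ((j0 : ℕ) : ℤ) (lN r) (lN c) (lM y0)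
        (fone S + k * stepF S)) ≤ psiE S i0 j0 r c (rY S y0) + 1 / (S : ℝ) ^ 25 := by
  have hS := h.S_ge
  obtain ⟨he0, heu, -, -, -, -, hA1⟩ := nums hS
  have hx := x_facts hS
  have hx1 : (1 : ℝ) ≤ S := by linarith
  have hx0 : (0 : ℝ) < S := by linarith
  obtain ⟨hmS, hnS, hD1, hD2, hD3⟩ := node_facts h
  obtain ⟨h7, h9, -⟩ := step_facts hS
  have hR := regHyp_inst hi h.hW
  have h27 : (S : ℝ) ≤ (S : ℝ) ^ 27 := by
    have h3 : (S : ℝ) ^ 1 ≤ (S : ℝ) ^ 27 := pow_le_pow_right₀ hx1 (by norm_num)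
    rwa [pow_one] at h3
  have hUL : 2 * ((n : ℝ) * m) ≤ (S : ℝ) ^ 27 := by
    linarith only [hD2, hD3, h27]
  have hU0 : 0 ≤ 2 * ((n : ℝ) * m) := by positivity
  have hcube : ∀ k, |rY S y0 k| ≤ rQ S := fun k => by
    have := hY k
    linarith only [this, he0]
  have hξ : (0 : ℝ) < 1 / (4 * (S : ℝ) ^ 25) := by positivity
  obtain ⟨s0, hs1, hs2, hsd, hsv⟩ := reg_search hR hUL hU0 (psi_one_le_rQ hx1) hcube hξ
  obtain ⟨δ, hδ⟩ : ∃ u, u = val S (stepF S) := ⟨_, rfl⟩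
  rw [← hδ] at h7 h9
  have hδ0 : 0 < δ := lt_of_lt_of_le (by positivity) h7
  have hq0 : 0 ≤ (s0 - 1) / δ := div_nonneg (by linarith only [hs1]) hδ0.le
  have hK1 : (s0 - 1) / δ ≤ (⌈(s0 - 1) / δ⌉₊ : ℝ) := Nat.le_ceil _
  have hK2 : (⌈(s0 - 1) / δ⌉₊ : ℝ) < (s0 - 1) / δ + 1 := Nat.ceil_lt_add_one hq0
  obtain ⟨K0, hK0⟩ : ∃ u, u = ⌈(s0 - 1) / δ⌉₊ := ⟨_, rfl⟩
  rw [← hK0] at hK1 hK2
  -- the bound for the index
  have hs4 : s0 - 1 ≤ 4 * (S : ℝ) ^ 4 := by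
    have : rQ S = 2 * (S : ℝ) ^ 4 := rfl
    rw [this] at hs2
    linarith only [hs2]
  have hq2 : (s0 - 1) / δ + 2 ≤ (S : ℝ) ^ 58 := by
    rw [← le_sub_iff_add_le, div_le_iff₀ hδ0]
    have h2 : (2 : ℝ) ≤ (S : ℝ) ^ 58 := by
      have h3 : (S : ℝ) ^ 1 ≤ (S : ℝ) ^ 58 := pow_le_pow_right₀ hx1 (by norm_num)
      rw [pow_one] at h3
      linarith only [h3, hx]
    have h3 : ((S : ℝ) ^ 58 - 2) * (7 / (S : ℝ) ^ 54) ≤ ((S : ℝ) ^ 58 - 2) * δ :=
      mul_le_mul_of_nonneg_left h7 (by linarith only [h2])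
    have h4 : ((S : ℝ) ^ 58 - 2) * (7 / (S : ℝ) ^ 54) = 7 * (S : ℝ) ^ 4 - 14 / (S : ℝ) ^ 54 := by
      field_simp
      ring
    have h5 : (1 : ℝ) ≤ (S : ℝ) ^ 4 := one_le_pow₀ hx1
    have h6 : 14 / (S : ℝ) ^ 54 ≤ 14 := by
      rw [div_le_iff₀ (by positivity)]
      have h8 : (1 : ℝ) ≤ (S : ℝ) ^ 54 := one_le_pow₀ hx1
      linarith only [h8]
    have h8 : (S : ℝ) ^ 5 = (S : ℝ) * (S : ℝ) ^ 4 := by ring
    have h9' : 14 * (S : ℝ) ^ 0 ≤ 3 * (S : ℝ) ^ 4 := by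
      have h10 : (S : ℝ) ^ 4 = (S : ℝ) * (S : ℝ) ^ 3 := by ring
      have h11 : (1 : ℝ) ≤ (S : ℝ) ^ 3 := one_le_pow₀ hx1
      rw [h10, pow_zero]
      nlinarith only [h11, hx]
    rw [pow_zero] at h9'
    linarith only [h3, h4, h6, h9', hs4]
  have hKR : ((K0 + 1 : ℕ) : ℝ) < (S : ℝ) ^ 58 := by
    push_cast
    linarith only [hK2, hq2]
  have hKlt : K0 + 1 < S ^ 58 := by exact_mod_cast hKR
  obtain ⟨e, hŝ1, hŝ2, -⟩ := scale_facts hS (k := K0 + 1) hKlt.le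
  rw [← hδ] at e
  obtain ⟨ŝ, hŝ⟩ : ∃ u, u = val S (fone S + ((K0 + 1 : ℕ) : ℤ) * stepF S) := ⟨_, rfl⟩
  rw [← hŝ] at e hŝ1 hŝ2
  have hmul1 : (s0 - 1) / δ * δ = s0 - 1 := div_mul_cancel₀ _ hδ0.ne'
  have hl : (s0 - 1) / δ * δ ≤ (K0 : ℝ) * δ := mul_le_mul_of_nonneg_right hK1 hδ0.le
  have hu : (K0 : ℝ) * δ ≤ ((s0 - 1) / δ + 1) * δ := mul_le_mul_of_nonneg_right hK2.le hδ0.le
  have e' : ŝ = 1 + (K0 : ℝ) * δ + δ := by
    rw [e]
    push_cast
    ring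
  have hŝl : s0 + δ ≤ ŝ := by
    rw [e']
    linarith only [hmul1, hl]
  have hŝu : ŝ ≤ s0 + 2 * δ := by
    rw [e']
    have h3 : ((s0 - 1) / δ + 1) * δ = (s0 - 1) / δ * δ + δ := by ring
    linarith only [hmul1, hu, h3]
  have hŝ0 : 0 < ŝ := by linarith only [hŝ1]
  have hθ : 1 / (2 * (S : ℝ) ^ 58) ≤ 1 - s0 / ŝ := by
    have h3 : 1 - s0 / ŝ = (ŝ - s0) / ŝ := by
      field_simp
    rw [h3, le_div_iff₀ hŝ0]
    have h4 : 1 / (2 * (S : ℝ) ^ 58) * ŝ ≤ 1 / (2 * (S : ℝ) ^ 58) * (10 * (S : ℝ) ^ 4) :=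
      mul_le_mul_of_nonneg_left hŝ2 (by positivity)
    have h5 : 1 / (2 * (S : ℝ) ^ 58) * (10 * (S : ℝ) ^ 4) = 5 / (S : ℝ) ^ 54 := by
      field_simp
      norm_num
    have h6 : (5 : ℝ) / (S : ℝ) ^ 54 ≤ 7 / (S : ℝ) ^ 54 :=
      div_le_div_of_nonneg_right (by norm_num) (by positivity)
    linarith only [h4, h5, h6, h7, hŝl]
  have hv := valF_upper h hi y0 hY (s := fone S + ((K0 + 1 : ℕ) : ℤ) * stepF S) (by rw [← hŝ]; exact hŝ1)
    (by rw [← hŝ]; exact hŝ2) hs1 (by rw [← hŝ]; linarith only [hŝl, hδ0]) hsd (by rw [← hŝ]; exact hθ)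
  rw [← hŝ] at hv
  refine ⟨K0 + 1, hKlt, hv.trans ?_⟩
  have hU : 2 * ((n : ℝ) * m) + (S : ℝ) ^ 27 ≤ 2 * (S : ℝ) ^ 27 := by
    linarith only [hUL]
  have h3 : (ŝ - s0) * (2 * ((n : ℝ) * m) + (S : ℝ) ^ 27)
      ≤ (18 / (S : ℝ) ^ 54) * (2 * (S : ℝ) ^ 27) := by
    apply mul_le_mul _ hU (by positivity) (by positivity)
    have h4 : (18 : ℝ) / (S : ℝ) ^ 54 = 2 * (9 / (S : ℝ) ^ 54) := by ring
    rw [h4]
    linarith only [hŝu, h9]
  have h4 : (18 / (S : ℝ) ^ 54) * (2 * (S : ℝ) ^ 27) = 36 / (S : ℝ) ^ 27 := by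
    field_simp
    norm_num
  have h5 : 36 / (S : ℝ) ^ 27 ≤ 1 / (4 * (S : ℝ) ^ 25) := by
    rw [div_le_div_iff₀ (by positivity) (by positivity)]
    have h6 : (S : ℝ) ^ 27 = (S : ℝ) ^ 2 * (S : ℝ) ^ 25 := by ring
    rw [h6]
    have h7' : 144 ≤ (S : ℝ) ^ 2 := by nlinarith only [hx]
    have h8 : (0 : ℝ) < (S : ℝ) ^ 25 := by positivity
    have h9'' := mul_le_mul_of_nonneg_right h7' h8.le
    linarith only [h9'']
  have hpsi : psiE S i0 j0 r c (rY S y0)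
      = regPsi (domY S i0 j0 r c) (phiY i0 j0 r c) ((S : ℝ) ^ 27) (rY S y0) := rfl
  rw [hpsi]
  have hq : 1 / (S : ℝ) ^ 25
      = 1 / (4 * (S : ℝ) ^ 25) + 1 / (4 * (S : ℝ) ^ 25) + 1 / (2 * (S : ℝ) ^ 25) := by
    field_simp
    norm_num
  rw [hq]
  linarith only [hsv, h3, h4, h5]

/-- The loop finds the regularised potential at the point of a word matrix. -/
theorem psiWord_close (h : NodeOK S r c) {i0 : Fin m} {j0 : Fin n} (hi : InstOK i0 j0 r c)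
    (y0 : Fin n → Fin m → ℤ) (hY : ∀ k, |rY S y0 k| + 2 * eE S ≤ rQ S) :
    |val S ((psiStep S ((i0 : ℕ) : ℤ) ((j0 : ℕ) : ℤ) (lN r) (lN c) (lM y0))^[S ^ 58]
        (fone S, wS S 32)).2 - psiE S i0 j0 r c (rY S y0)| ≤ 1 / (S : ℝ) ^ 25 := by
  have hS := h.S_ge
  obtain ⟨he0, -, -, -, -, -, -⟩ := nums hS
  obtain ⟨-, -, hst⟩ := step_facts hS
  have hloop := loop_spec (S := S)
    (valF S ((i0 : ℕ) : ℤ) ((j0 : ℕ) : ℤ) (lN r) (lN c) (lM y0))
    (valF_clamp S _ _ _ _ _) (step := stepF S) (s0 := fone S) (init := wS S 32) (N := S ^ 58)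
    (wS_clamp S 32) hst (fun k hk => (scale_facts hS hk).2.2.2) (S ^ 58) le_rfl
  obtain ⟨-, -, -, h4, h5⟩ := hloop
  have e : (psiStep S ((i0 : ℕ) : ℤ) ((j0 : ℕ) : ℤ) (lN r) (lN c) (lM y0))
      = fun st : ℤ × ℤ => (cadd S st.1 (stepF S), minW S st.2
          (valF S ((i0 : ℕ) : ℤ) ((j0 : ℕ) : ℤ) (lN r) (lN c) (lM y0) st.1)) := rfl
  rw [e]
  generalize ((fun st : ℤ × ℤ => (cadd S st.1 (stepF S), minW S st.2
          (valF S ((i0 : ℕ) : ℤ) ((j0 : ℕ) : ℤ) (lN r) (lN c) (lM y0) st.1)))^[S ^ 58]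
        (fone S, wS S 32)).2 = w at h4 h5
  have hcube : ∀ k, |rY S y0 k| ≤ rQ S := fun k => by
    have := hY k
    linarith only [this, he0]
  rw [abs_le]
  constructor
  · rcases h5 with h6 | ⟨j, hj, h6⟩
    · rw [h6, val_wS hS (by norm_num)]
      have h1 := psiE_upper hi h.hW hcube
      have h2 : (0 : ℝ) < 1 / (S : ℝ) ^ 25 := by positivity
      linarith only [h1, h2]
    · rw [h6]
      obtain ⟨-, hs1, hs2, -⟩ := scale_facts hS (k := j) hj.le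
      have h1 := valF_lower h hi y0 hY hs1 hs2
      linarith only [h1]
  · obtain ⟨k, hk, hk2⟩ := exists_scale h hi y0 hY
    have h1 := (val_le_iff hS).mpr (h4 k hk)
    linarith only [h1, hk2]

/-- The coordinates of the grid point of a cube. -/
noncomputable def y0Of (S : ℕ) (z : Fin n × Fin m → Fin (cellM S)) : Fin n → Fin m → ℤ :=
  fun j i => yF S (kappaF S (((z (j, i) : Fin (cellM S)) : ℕ) : ℤ))

theorem cellD_bounds (hS : 1000000 ≤ S) :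
    1 / (S : ℝ) ^ 53 ≤ cellD S ∧ cellD S ≤ 1 / (S : ℝ) ^ 52 := by
  have hx := x_facts hS
  have hx1 : (1 : ℝ) ≤ S := by linarith
  have h56 : (1 : ℝ) ≤ (S : ℝ) ^ 56 := one_le_pow₀ hx1
  have hM : (0 : ℝ) < 4 * (S : ℝ) ^ 56 + 1 := by linarith only [h56]
  unfold cellD rQ
  rw [psi_cellM_cast]
  constructor
  · rw [div_le_div_iff₀ (by positivity) hM]
    have h1 : 2 * (2 * (S : ℝ) ^ 4) * (S : ℝ) ^ 53 = 4 * (S : ℝ) ^ 57 := by ring
    rw [h1]
    have h2 : (S : ℝ) ^ 57 = (S : ℝ) * (S : ℝ) ^ 56 := by ring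
    rw [h2]
    nlinarith only [h56, hx]
  · rw [div_le_div_iff₀ hM (by positivity)]
    have h1 : 2 * (2 * (S : ℝ) ^ 4) * (S : ℝ) ^ 52 = 4 * (S : ℝ) ^ 56 := by ring
    rw [h1, one_mul]
    linarith only []

/-- The facts on the grid point. -/
theorem point_facts (hS : 1000000 ≤ S) (z : Fin n × Fin m → Fin (cellM S))
    {u : Fin n × Fin m → ℝ} (hu : ∀ k, 0 ≤ u k ∧ u k ≤ 1) (k : Fin n × Fin m) :
    |rY S (y0Of S z) k| + 2 * eE S ≤ rQ S
      ∧ |rY S (y0Of S z) k - cellPt S z u k| ≤ cellD S + eE S := by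
  obtain ⟨j, i⟩ := k
  obtain ⟨he0, -, -, hP, -, -, hA1⟩ := nums hS
  have hx := x_facts hS
  have hx1 : (1 : ℝ) ≤ S := by linarith
  obtain ⟨hD1, -⟩ := cellD_bounds hS
  obtain ⟨a, ha⟩ : ∃ a : ℕ, a = ((z (j, i) : Fin (cellM S)) : ℕ) := ⟨_, rfl⟩
  have halt : a < cellM S := by
    rw [ha]
    exact (z (j, i)).2
  have hale : a ≤ 4 * S ^ 56 + 1 := by
    have : cellM S = 4 * S ^ 56 + 1 := rfl
    omega
  have hκ := kappaF_eq hS hale
  have hP1Z : (1 : ℤ) ≤ 2 ^ pf S := one_le_pow₀ (by norm_num)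
  have hspec := yF_spec hS (κ := (a : ℤ) * 2 ^ pf S + 1) (by positivity) (by
    have h1 : (a : ℤ) + 1 ≤ (cellM S : ℤ) := by exact_mod_cast halt
    have h2 : ((a : ℤ) + 1) * 2 ^ pf S ≤ (cellM S : ℤ) * 2 ^ pf S :=
      mul_le_mul_of_nonneg_right h1 (by positivity)
    have h3 : ((a : ℤ) + 1) * 2 ^ pf S = (a : ℤ) * 2 ^ pf S + 2 ^ pf S := by ring
    linarith only [h2, h3, hP1Z])
  have hY : rY S (y0Of S z) (j, i) = val S (yF S ((a : ℤ) * 2 ^ pf S + 1)) := by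
    show val S (yF S (kappaF S (((z (j, i) : Fin (cellM S)) : ℕ) : ℤ))) = _
    rw [← ha, hκ]
  rw [hY]
  have hcell : cellPt S z u (j, i) = -rQ S + cellD S * ((a : ℝ) + u (j, i)) := by
    unfold cellPt
    rw [ha]
  rw [hcell]
  -- the real coordinate
  obtain ⟨Y, hYdef⟩ : ∃ Y, Y = val S (yF S ((a : ℤ) * 2 ^ pf S + 1)) := ⟨_, rfl⟩
  rw [← hYdef] at hspec ⊢
  obtain ⟨P, hPdef⟩ : ∃ P : ℝ, P = 2 ^ pf S := ⟨_, rfl⟩
  have hP4 : (4 : ℝ) ≤ P := by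
    rw [hPdef]
    calc (4 : ℝ) = 2 ^ 2 := by norm_num
      _ ≤ 2 ^ pf S := pow_le_pow_right₀ (by norm_num) (by
        unfold pf
        calc 2 ≤ S := by omega
          _ ≤ S ^ 2 := Nat.le_self_pow (by norm_num) S)
  have hP0 : 0 < P := by linarith only [hP4]
  have hyR : yR S ((a : ℤ) * 2 ^ pf S + 1) = -rQ S + cellD S * ((a : ℝ) + 3 / 2 * (1 / P)) := by
    unfold yR
    rw [← hPdef]
    push_cast
    rw [← hPdef]
    congr 2
    field_simp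
    ring
  rw [hyR] at hspec
  obtain ⟨ρ, hρ⟩ : ∃ ρ : ℝ, ρ = 1 / P := ⟨_, rfl⟩
  have hρ0 : 0 < ρ := by
    rw [hρ]
    positivity
  have hρ4 : ρ ≤ 1 / 4 := by
    rw [hρ]
    exact one_div_le_one_div_of_le (by norm_num) hP4
  rw [← hρ] at hspec
  have hDM : cellD S * (cellM S : ℝ) = 2 * rQ S := by
    unfold cellD
    have : (cellM S : ℝ) ≠ 0 := by
      have := psi_cellM_pos S
      positivity
    field_simp
  have haM : (a : ℝ) + 1 ≤ (cellM S : ℝ) := by exact_mod_cast halt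
  have ha0 : (0 : ℝ) ≤ a := Nat.cast_nonneg _
  have hD0 : 0 < cellD S := lt_of_lt_of_le (by positivity) hD1
  -- the tiny number is small compared with the grid
  have htiny : 3 * eE S ≤ cellD S * ρ := by
    have h1 : 3 * (S : ℝ) ^ 53 ≤ aA S ^ 5 := by
      have h2 : 3 * (S : ℝ) ^ 53 ≤ (S : ℝ) ^ 54 := by
        have h3 : (S : ℝ) ^ 54 = (S : ℝ) * (S : ℝ) ^ 53 := by ring
        rw [h3]
        exact mul_le_mul_of_nonneg_right (by linarith) (by positivity)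
      have h4 := pow_le_A hS (k := 54) (by norm_num)
      have h5 : aA S ≤ aA S ^ 5 := le_self_pow₀ hA1 (by norm_num)
      linarith only [h2, h4, h5]
    have h6 : 3 * (S : ℝ) ^ 53 * (eE S * P) ≤ aA S ^ 5 * (eE S * P) :=
      mul_le_mul_of_nonneg_right h1 (by positivity)
    have h7 : aA S ^ 5 * (eE S * P) ≤ 1 := by
      have h8 : aA S ^ 5 * (eE S * P) = eE S * aA S ^ 5 * P := by ring
      rw [h8, hPdef]
      exact hP
    have h9 : 1 / (S : ℝ) ^ 53 * ρ ≤ cellD S * ρ := mul_le_mul_of_nonneg_right hD1 hρ0.le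
    have h10 : 3 * eE S ≤ 1 / (S : ℝ) ^ 53 * ρ := by
      rw [hρ, div_mul_div_comm, one_mul, le_div_iff₀ (by positivity)]
      have h11 : 3 * eE S * ((S : ℝ) ^ 53 * P) = 3 * (S : ℝ) ^ 53 * (eE S * P) := by ring
      rw [h11]
      linarith only [h6, h7]
    linarith only [h9, h10]
  have he_eq : (1 / 2 : ℝ) ^ (S ^ 5 / 8) = eE S := rfl
  rw [he_eq] at hspec
  have ht1 := abs_le.mp hspec
  -- the bounds for the real coordinate
  have hl : cellD S * ρ ≤ cellD S * ((a : ℝ) + 3 / 2 * ρ) :=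
    mul_le_mul_of_nonneg_left (by linarith only [ha0, hρ0]) hD0.le
  have hu' : cellD S * ((a : ℝ) + 3 / 2 * ρ) ≤ 2 * rQ S - cellD S * ρ := by
    have h1 : (a : ℝ) + 3 / 2 * ρ + ρ ≤ (cellM S : ℝ) := by linarith only [haM, hρ4, hρ0]
    have h2 := mul_le_mul_of_nonneg_left h1 hD0.le
    rw [hDM] at h2
    have h3 : cellD S * ((a : ℝ) + 3 / 2 * ρ + ρ)
        = cellD S * ((a : ℝ) + 3 / 2 * ρ) + cellD S * ρ := by ring
    linarith only [h2, h3]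
  constructor
  · have h1 : |Y| ≤ rQ S - 3 * eE S + eE S := by
      rw [abs_le]
      constructor <;> linarith only [ht1.1, ht1.2, hl, hu', htiny]
    linarith only [h1]
  · have hv : |3 / 2 * ρ - u (j, i)| ≤ 1 := by
      obtain ⟨h1, h2⟩ := hu (j, i)
      rw [abs_le]
      constructor <;> linarith only [h1, h2, hρ0, hρ4]
    have h1 : |cellD S * (3 / 2 * ρ - u (j, i))| ≤ cellD S := by
      rw [abs_mul, abs_of_pos hD0]
      exact mul_le_of_le_one_right hD0.le hv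
    have h2 := abs_le.mp h1
    have e1 : cellD S * (3 / 2 * ρ - u (j, i))
        = cellD S * ((a : ℝ) + 3 / 2 * ρ) - cellD S * ((a : ℝ) + u (j, i)) := by ring
    rw [e1] at h2
    rw [abs_le]
    constructor <;> linarith only [ht1.1, ht1.2, h2.1, h2.2]

theorem psiF_eq (h : NodeOK S r c) (z : Fin n × Fin m → Fin (cellM S)) :
    psiF S (lN r) (lN c) (lZ z)
      = ((psiStep S (((iMax h.hm r : Fin m) : ℕ) : ℤ) (((jMax h.hn c : Fin n) : ℕ) : ℤ)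
          (lN r) (lN c) (lM (y0Of S z)))^[S ^ 58] (fone S, wS S 32)).2 := by
  have hS := h.S_ge
  obtain ⟨hmS, hnS, -, -, -⟩ := node_facts h
  have hr : ∀ i, r i < 2 ^ S := fun i =>
    lt_of_le_of_lt (Finset.single_le_sum (f := r) (fun _ _ => Nat.zero_le _) (Finset.mem_univ i)) h.hN
  have hc : ∀ j, c j < 2 ^ S := fun j => by
    have h1 : c j ≤ ∑ j', c j' :=
      Finset.single_le_sum (f := c) (fun _ _ => Nat.zero_le _) (Finset.mem_univ j)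
    have h2 := h.hN
    rw [h.hsum] at h2
    omega
  have e1 : idxMaxF S (lN r) = (((iMax h.hm r : Fin m) : ℕ) : ℤ) :=
    idxMaxF_spec hS h.hm hmS r hr
  have e2 : idxMaxF S (lN c) = (((jMax h.hn c : Fin n) : ℕ) : ℤ) :=
    idxMaxF_spec hS h.hn hnS c hc
  unfold psiF
  rw [e1, e2, pointF_lZ hmS hnS]
  rfl

/-- The value of `gF` against the potential at the grid point. -/
theorem gF_word (h : NodeOK S r c) (z : Fin n × Fin m → Fin (cellM S)) :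
    |gF S r c z - psiE S (iMax h.hm r) (jMax h.hn c) r c (rY S (y0Of S z))| ≤ 1 / (S : ℝ) ^ 25
      ∧ ∀ k, |rY S (y0Of S z) k| + 2 * eE S ≤ rQ S := by
  have hS := h.S_ge
  have hc : ∀ k : Fin n × Fin m, (0 : ℝ) ≤ (fun _ : Fin n × Fin m => (1 / 2 : ℝ)) k
      ∧ (fun _ : Fin n × Fin m => (1 / 2 : ℝ)) k ≤ 1 := by
    intro k
    constructor <;> norm_num
  have hY : ∀ k, |rY S (y0Of S z) k| + 2 * eE S ≤ rQ S := fun k => (point_facts hS z hc k).1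
  refine ⟨?_, hY⟩
  unfold gF
  rw [psiF_eq h z]
  exact psiWord_close h h.inst (y0Of S z) hY

end PsiAux

open PsiAux in
theorem gF_close (h : NodeOK S r c) (z : Fin n × Fin m → Fin (cellM S)) {u : Fin n × Fin m → ℝ}
    (hu : ∀ k, 0 ≤ u k ∧ u k ≤ 1) :
    |gF S r c z - psiE S (iMax h.hm r) (jMax h.hn c) r c (cellPt S z u)| ≤ 3 / (S : ℝ) ^ 25 := by
  have hS := h.S_ge
  obtain ⟨he0, -, -, -, -, -, -⟩ := nums hS
  obtain ⟨he1, -, -, -⟩ := tiny_bundle hS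
  have hx := x_facts hS
  have hx1 : (1 : ℝ) ≤ S := by linarith
  obtain ⟨-, -, -, hD2, hD3⟩ := node_facts h
  obtain ⟨hg, -⟩ := gF_word h z
  have hclose := fun k => (point_facts hS z hu k).2
  obtain ⟨-, hD⟩ := cellD_bounds hS
  have hR := regHyp_inst h.inst h.hW
  have hl0 : (0 : ℝ) ≤ (S : ℝ) ^ 27 := by positivity
  have ha0 : 0 ≤ cellD S + eE S := by
    have : 0 ≤ cellD S := by
      unfold cellD rQ
      positivity
    linarith only [this, he0]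
  have hlip1 := reg_lip hR hl0 ha0 hclose
  have hlip2 := reg_lip hR hl0 ha0 (y := cellPt S z u) (y' := rY S (y0Of S z)) (fun k => by
    rw [abs_sub_comm]
    exact hclose k)
  have hA : (cellD S + eE S) * (2 * ((n : ℝ) * m) + (S : ℝ) ^ 27) ≤ 2 / (S : ℝ) ^ 25 := by
    have h60 : 1 / (S : ℝ) ^ 60 ≤ 1 / (S : ℝ) ^ 52 := frac_mono hx1 (by norm_num)
    have hq52 : (0 : ℝ) < 1 / (S : ℝ) ^ 52 := by positivity
    have h27 : (S : ℝ) * 3 ≤ (S : ℝ) ^ 27 := by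
      have h1 : (S : ℝ) ^ 27 = (S : ℝ) * (S : ℝ) ^ 26 := by ring
      rw [h1]
      apply mul_le_mul_of_nonneg_left _ (by linarith only [hx1])
      have h2 : (S : ℝ) ^ 1 ≤ (S : ℝ) ^ 26 := pow_le_pow_right₀ hx1 (by norm_num)
      rw [pow_one] at h2
      linarith only [h2, hx]
    have h1 : cellD S + eE S ≤ 3 / 2 * (1 / (S : ℝ) ^ 52) := by
      have h2 : 1 / (S : ℝ) ^ 60 ≤ 1 / 2 * (1 / (S : ℝ) ^ 52) := by
        have h3 := frac_step (x := (S : ℝ)) (by linarith only [hx1]) (u := 2) (by linarith only [hx]) 59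
        have h4 : (2 : ℝ) / (S : ℝ) ^ (59 + 1) = 2 * (1 / (S : ℝ) ^ 60) := by
          norm_num
          ring
        rw [h4] at h3
        have h5 : 1 / (S : ℝ) ^ 59 ≤ 1 / (S : ℝ) ^ 52 := frac_mono hx1 (by norm_num)
        linarith only [h3, h5]
      linarith only [hD, he1, h2]
    have h2 : 2 * ((n : ℝ) * m) + (S : ℝ) ^ 27 ≤ 4 / 3 * (S : ℝ) ^ 27 := by
      linarith only [hD2, hD3, h27]
    have h3 : (cellD S + eE S) * (2 * ((n : ℝ) * m) + (S : ℝ) ^ 27)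
        ≤ 3 / 2 * (1 / (S : ℝ) ^ 52) * (4 / 3 * (S : ℝ) ^ 27) :=
      mul_le_mul h1 h2 (by positivity) (by positivity)
    have h4 : 3 / 2 * (1 / (S : ℝ) ^ 52) * (4 / 3 * (S : ℝ) ^ 27) = 2 / (S : ℝ) ^ 25 := by
      field_simp
      norm_num
    linarith only [h3, h4]
  have hpsi : ∀ y, psiE S (iMax h.hm r) (jMax h.hn c) r c y
      = regPsi (domY S (iMax h.hm r) (jMax h.hn c) r c) (phiY (iMax h.hm r) (jMax h.hn c) r c)
          ((S : ℝ) ^ 27) y := fun _ => rfl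
  rw [hpsi] at hg ⊢
  have hq : (3 : ℝ) / (S : ℝ) ^ 25 = 1 / (S : ℝ) ^ 25 + 2 / (S : ℝ) ^ 25 := by ring
  rw [hq]
  have hg' := abs_le.mp hg
  rw [abs_le]
  constructor <;> linarith only [hg'.1, hg'.2, hlip1, hlip2, hA]

open PsiAux in
theorem gF_bounds (h : NodeOK S r c) (z : Fin n × Fin m → Fin (cellM S)) :
    -1 ≤ gF S r c z ∧ gF S r c z ≤ (S : ℝ) ^ 32 := by
  have hS := h.S_ge
  obtain ⟨he0, -, -, -, -, -, -⟩ := nums hS
  have hx := x_facts hS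
  have hx1 : (1 : ℝ) ≤ S := by linarith
  obtain ⟨hg, hY⟩ := gF_word h z
  have hR := regHyp_inst h.inst h.hW
  have hl0 : (0 : ℝ) ≤ (S : ℝ) ^ 27 := by positivity
  have h0 : 0 ≤ psiE S (iMax h.hm r) (jMax h.hn c) r c (rY S (y0Of S z)) := reg_nonneg hR hl0 _
  have h1 := psiE_upper h.inst h.hW (y := rY S (y0Of S z)) (fun k => by
    have := hY k
    linarith only [this, he0])
  have h2 : 1 / (S : ℝ) ^ 25 ≤ 1 := by
    rw [div_le_one (by positivity)]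
    exact one_le_pow₀ hx1
  have hg' := abs_le.mp hg
  constructor <;> linarith only [hg'.1, hg'.2, h0, h1, h2]

end Vale.Agent.Lib.P328.Bit
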