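import Vale.Agent.Lib.P328.Bit.PsiWords

/-!
# P328, bit model: the real analysis of the potential (module PSIF, part two)

The logarithm of the capacity is Lipschitz in the logarithms of the entries; the upper bound of the potential on the range of the matrices;
the step of the regularised potential with a perturbed point.
-/

namespace Vale.Agent.Lib.P328.Bit

open Finset Vale.Agent.Lib.P328.Cap Vale.Agent.Lib.P328.Fpras Vale.Agent.Lib.P328.Samp

namespace PsiAux

variable {m n : ℕ} {r : Fin m → ℕ} {c : Fin n → ℕ}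

/-- The capacity under a scaling of the matrix. -/
theorem capa_le_scale {t t' : Fin n → Fin m → ℝ} {a : ℝ} (ha : 1 ≤ a) (ht : ∀ j i, 0 ≤ t j i)
    (h : ∀ j i, t j i ≤ a * t' j i) :
    capa r c t ≤ ENNReal.ofReal (a ^ ∑ i, r i) * capa r c t' := by
  have ha0 : 0 < a := by linarith
  have hne : ENNReal.ofReal (a ^ ∑ i, r i) ≠ 0 := by
    rw [Ne, ENNReal.ofReal_eq_zero, not_le]
    positivity
  unfold capa
  rw [ENNReal.mul_iInf_of_ne hne ENNReal.ofReal_ne_top]
  refine iInf_mono fun b => ?_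
  rw [← ENNReal.ofReal_mul (by positivity)]
  apply ENNReal.ofReal_le_ofReal
  have hb := b.2
  have hden : 0 < ∏ j, b.1 j ^ c j := Finset.prod_pos fun j _ => pow_pos (hb j) _
  rw [← mul_div_assoc]
  apply div_le_div_of_nonneg_right _ hden.le
  rw [← Finset.prod_pow_eq_pow_sum, ← Finset.prod_mul_distrib]
  refine Finset.prod_le_prod (fun i _ => pow_nonneg (Finset.sum_nonneg fun j _ =>
    mul_nonneg (ht j i) (hb j).le) _) fun i _ => ?_
  rw [← mul_pow]
  apply pow_le_pow_left₀ (Finset.sum_nonneg fun j _ => mul_nonneg (ht j i) (hb j).le)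
  rw [Finset.mul_sum]
  refine Finset.sum_le_sum fun j _ => ?_
  have h1 := mul_le_mul_of_nonneg_right (h j i) (hb j).le
  linarith [mul_assoc a (t' j i) (b.1 j)]

/-- One side of the Lipschitz bound. -/
theorem log_capa_le_scale (hsum : ∑ i, r i = ∑ j, c j) {t t' : Fin n → Fin m → ℝ}
    (ht : ∀ j i, 0 < t j i) (ht' : ∀ j i, 0 < t' j i) {a : ℝ} (ha : 1 ≤ a)
    (h : ∀ j i, t j i ≤ a * t' j i) :
    Real.log (capa r c t).toReal
      ≤ Real.log (capa r c t').toReal + ((∑ i, r i : ℕ) : ℝ) * (a - 1) := by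
  have ha0 : 0 < a := by linarith
  have h1 := capa_le_scale (r := r) (c := c) ha (fun j i => (ht j i).le) h
  have hp := ENNReal.toReal_pos (capa_pos r c hsum t ht).ne' (capa_lt_top r c t).ne
  have hp' := ENNReal.toReal_pos (capa_pos r c hsum t' ht').ne' (capa_lt_top r c t').ne
  have h2 : (capa r c t).toReal ≤ a ^ (∑ i, r i) * (capa r c t').toReal := by
    have h3 := ENNReal.toReal_mono (ENNReal.mul_ne_top ENNReal.ofReal_ne_top (capa_lt_top r c t').ne) h1
    rwa [ENNReal.toReal_mul, ENNReal.toReal_ofReal (by positivity)] at h3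
  have h4 := Real.log_le_log hp h2
  rw [Real.log_mul (by positivity) hp'.ne', Real.log_pow] at h4
  have h5 : Real.log a ≤ a - 1 := Real.log_le_sub_one_of_pos ha0
  have h6 : ((∑ i, r i : ℕ) : ℝ) * Real.log a ≤ ((∑ i, r i : ℕ) : ℝ) * (a - 1) :=
    mul_le_mul_of_nonneg_left h5 (Nat.cast_nonneg _)
  linarith

/-- The logarithm of the capacity is Lipschitz. -/
theorem log_capa_diff (hsum : ∑ i, r i = ∑ j, c j) {t t' : Fin n → Fin m → ℝ}
    (ht : ∀ j i, 0 < t j i) (ht' : ∀ j i, 0 < t' j i) {a : ℝ} (ha : 1 ≤ a)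
    (h1 : ∀ j i, t j i ≤ a * t' j i) (h2 : ∀ j i, t' j i ≤ a * t j i) :
    |Real.log (capa r c t).toReal - Real.log (capa r c t').toReal|
      ≤ ((∑ i, r i : ℕ) : ℝ) * (a - 1) := by
  have h3 := log_capa_le_scale hsum ht ht' ha h1
  have h4 := log_capa_le_scale hsum ht' ht ha h2
  rw [abs_le]
  constructor <;> linarith

theorem hkl_le {a x : ℝ} (ha : 0 ≤ a) (hx : 0 < x) : hkl a x ≤ x + a ^ 2 / x := by
  unfold hkl
  rcases ha.eq_or_lt with rfl | ha0
  · simp
  · have h1 := Real.one_sub_inv_le_log_of_pos (show 0 < x / a by positivity)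
    have h2 : a * (1 - (x / a)⁻¹) ≤ a * Real.log (x / a) := mul_le_mul_of_nonneg_left h1 ha
    have h3 : a * (1 - (x / a)⁻¹) = a - a ^ 2 / x := by
      field_simp
    rw [h3] at h2
    linarith

/-- The upper bound of the potential on a box. -/
theorem phiT_upper (hsum : ∑ i, r i = ∑ j, c j) {t : Fin n → Fin m → ℝ} {lo hi : ℝ} (hlo : 0 < lo)
    (ht : ∀ j i, lo ≤ t j i ∧ t j i ≤ hi) :
    phiT r c t ≤ (n : ℝ) * ((m : ℝ) * (hi + (((∑ i, r i : ℕ) : ℝ)) ^ 2 / lo)) := by
  have hpos : ∀ j i, 0 < t j i := fun j i => lt_of_lt_of_le hlo (ht j i).1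
  have h1 := phiT_le_kl hsum hpos (A := centreTab r c) (centreTab_nonneg hsum) (centreTab_col hsum)
    (centreTab_row hsum)
  refine h1.trans ?_
  have hc : ∀ j i, centreTab r c j i ≤ ((∑ i, r i : ℕ) : ℝ) := by
    intro j i
    have h2 : centreTab r c j i ≤ ∑ i', centreTab r c j i' :=
      Finset.single_le_sum (f := fun i' => centreTab r c j i')
        (fun i' _ => centreTab_nonneg hsum j i') (Finset.mem_univ i)
    rw [centreTab_col hsum] at h2
    have h3 : c j ≤ ∑ j', c j' :=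
      Finset.single_le_sum (f := c) (fun _ _ => Nat.zero_le _) (Finset.mem_univ j)
    rw [← hsum] at h3
    have h4 : (c j : ℝ) ≤ ((∑ i, r i : ℕ) : ℝ) := by exact_mod_cast h3
    linarith
  have hentry : ∀ j i, hkl (centreTab r c j i) (t j i) ≤ hi + (((∑ i, r i : ℕ) : ℝ)) ^ 2 / lo := by
    intro j i
    have h2 := hkl_le (centreTab_nonneg hsum j i) (hpos j i)
    have h3 : (centreTab r c j i) ^ 2 / t j i ≤ (((∑ i, r i : ℕ) : ℝ)) ^ 2 / lo := by
      apply div_le_div₀ (by positivity) _ hlo (ht j i).1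
      exact pow_le_pow_left₀ (centreTab_nonneg hsum j i) (hc j i) 2
    linarith [(ht j i).2]
  calc ∑ j, ∑ i, hkl (centreTab r c j i) (t j i)
      ≤ ∑ _j : Fin n, ∑ _i : Fin m, (hi + (((∑ i, r i : ℕ) : ℝ)) ^ 2 / lo) :=
        Finset.sum_le_sum fun j _ => Finset.sum_le_sum fun i _ => hentry j i
    _ = _ := by simp; ring

section Reg

variable {ι : Type} [Fintype ι] [DecidableEq ι] {K : Set (ι → ℝ)} {φ : (ι → ℝ) → ℝ} {U0 : ℝ}

omit [Fintype ι] [DecidableEq ι] in
/-- The decomposition of a point near `y / s'`. -/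
theorem perturb_split {y w : ι → ℝ} {s s' : ℝ} (hs : 0 < s) (hss : s < s') :
    w = (s / s') • (s⁻¹ • y) + (1 - s / s') • ((1 - s / s')⁻¹ • (w - s'⁻¹ • y)) := by
  have hs' : 0 < s' := by linarith
  have hq : s / s' < 1 := by rwa [div_lt_one hs']
  have hθ : (1 - s / s') ≠ 0 := by
    have : 0 < 1 - s / s' := by linarith
    exact this.ne'
  rw [smul_smul _ _ (w - s'⁻¹ • y), mul_inv_cancel₀ hθ, one_smul, smul_smul]
  have e : s / s' * s⁻¹ = s'⁻¹ := by
    field_simp
  rw [e]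
  ext i
  simp only [Pi.add_apply, Pi.smul_apply, Pi.sub_apply, smul_eq_mul]
  ring

omit [Fintype ι] [DecidableEq ι] in
theorem perturb_cube {y w : ι → ℝ} {s s' : ℝ} (hs : 0 < s) (hss : s < s')
    (hw : ∀ i, |w i - (s'⁻¹ • y) i| ≤ 1 - s / s') (i : ι) :
    |((1 - s / s')⁻¹ • (w - s'⁻¹ • y)) i| ≤ 1 := by
  have hs' : 0 < s' := by linarith
  have hq : s / s' < 1 := by rwa [div_lt_one hs']
  have hθ : 0 < 1 - s / s' := by linarith
  simp only [Pi.smul_apply, Pi.sub_apply, smul_eq_mul, abs_mul, abs_inv, abs_of_pos hθ]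
  rw [inv_mul_le_iff₀ hθ, mul_one]
  exact hw i

/-- The step of the regularised potential with a perturbed point. -/
theorem reg_perturb (h : RegHyp K φ U0) {y w : ι → ℝ} {s s' : ℝ} (hs : 1 ≤ s) (hss : s < s')
    (hy : s⁻¹ • y ∈ K) (hw : ∀ i, |w i - (s'⁻¹ • y) i| ≤ 1 - s / s') :
    w ∈ K ∧ s' * φ w ≤ s * φ (s⁻¹ • y) + (s' - s) * U0 := by
  have hs0 : 0 < s := by linarith
  have hs' : 0 < s' := by linarith
  have hq : s / s' < 1 := by rwa [div_lt_one hs']
  have hθ : 0 < 1 - s / s' := by linarith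
  have ha : 0 ≤ s / s' := by positivity
  have hc := perturb_cube hs0 hss hw
  obtain ⟨hv1, hv2⟩ := h.inner _ hc
  obtain ⟨h1, h2⟩ := h.combo hy hv1 ha hθ.le (by ring)
  rw [← perturb_split hs0 hss] at h1 h2
  refine ⟨h1, ?_⟩
  calc s' * φ w ≤ s' * (s / s' * φ (s⁻¹ • y)
        + (1 - s / s') * φ ((1 - s / s')⁻¹ • (w - s'⁻¹ • y))) :=
        mul_le_mul_of_nonneg_left h2 hs'.le
    _ = s * φ (s⁻¹ • y) + (s' - s) * φ ((1 - s / s')⁻¹ • (w - s'⁻¹ • y)) := by
        field_simp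
    _ ≤ s * φ (s⁻¹ • y) + (s' - s) * U0 := by
        have : 0 ≤ s' - s := by linarith
        have := mul_le_mul_of_nonneg_left hv2 this
        linarith

end Reg

/-- The entries of the matrix at a perturbed point. -/
theorem tMap_perturb {i0 : Fin m} {j0 : Fin n} (h : InstOK i0 j0 r c) {y w : Fin n × Fin m → ℝ}
    {s s' K0 : ℝ} (hs : 0 < s) (hss : s < s')
    (hy : ∀ j i, K0 ≤ tMap i0 j0 r c (s⁻¹ • y) j i)
    (hw : ∀ i, |w i - (s'⁻¹ • y) i| ≤ 1 - s / s') (j : Fin n) (i : Fin m) :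
    s / s' * K0 + (1 - s / s') * (1 / 4) ≤ tMap i0 j0 r c w j i := by
  have hs' : 0 < s' := by linarith
  have hq : s / s' < 1 := by rwa [div_lt_one hs']
  have hθ : 0 < 1 - s / s' := by linarith
  have ha : 0 ≤ s / s' := by positivity
  have hc := perturb_cube hs hss hw
  have h1 := (tMap_inner h hc).1 j i
  have e := tMap_affine i0 j0 r c (s⁻¹ • y) ((1 - s / s')⁻¹ • (w - s'⁻¹ • y))
    (a := s / s') (b := 1 - s / s') (by ring)
  rw [← perturb_split hs hss] at e
  rw [e]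
  simp only [Pi.add_apply, Pi.smul_apply, smul_eq_mul]
  have h2 := mul_le_mul_of_nonneg_left (hy j i) ha
  have h3 := mul_le_mul_of_nonneg_left h1 hθ.le
  linarith

end PsiAux

end Vale.Agent.Lib.P328.Bit
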