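import Vale.Agent.Lib.P328.Bit.TabF

/-!
# P328, bit model: the programs of the potential (module PSIF, part one)

The definitions of the words used by `psiF`, the representability by programs, and the meaning of the
simple word operations: sums of lists, the test on a matrix, the minimum, the loop.
-/

namespace Vale.Agent.Lib.P328.Bit

open Finset Vale.Agent.Lib.P328.Cap Vale.Agent.Lib.P328.Fpras Vale.Agent.Lib.P328.Samp

namespace PsiAux

variable {m n : ℕ} {α : Type} [Enc α]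

/-- The word `2 ^ pf S`. -/
def pfW (S : ℕ) : ℤ := (fun s : ℤ => cadd S s s)^[S ^ 2] 1

/-- The fine index of a point of the cube with index `a`. -/
def kappaF (S : ℕ) (a : ℤ) : ℤ := cadd S (cmul S a (pfW S)) 1

/-- The grid point of a cube. -/
noncomputable def pointF (S : ℕ) (z : List (List ℤ)) : List (List ℤ) :=
  (z.take S).map fun col => (col.take S).map fun a => yF S (kappaF S a)

/-- The division of a matrix by a number. -/
noncomputable def scaleF (S : ℕ) (s : ℤ) (y : List (List ℤ)) : List (List ℤ) :=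
  (y.take S).map fun col => (col.take S).map fun a => fdiv S a s

/-- The sum of a list. -/
def sumL (S : ℕ) (l : List ℤ) : ℤ := (l.take S).foldl (fun s a => cadd S s a) 0

/-- The sum of a matrix. -/
def sumM (S : ℕ) (t : List (List ℤ)) : ℤ := (t.take S).foldl (fun s l => cadd S s (sumL S l)) 0

/-- The test on a list, with a start value. -/
def okL (S : ℕ) (thr : ℤ) (l : List ℤ) (s0 : ℤ) : ℤ :=
  (l.take S).foldl (fun s a => if 0 < csub S thr a then 0 else s) s0

/-- The test on a matrix. -/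
def okM (S : ℕ) (thr : ℤ) (t : List (List ℤ)) : ℤ :=
  (t.take S).foldl (fun s l => okL S thr l s) 1

/-- The word of the number `S ^ k`. -/
def wS (S k : ℕ) : ℤ := fint S (clamp S ((S : ℤ) ^ k))

/-- The threshold of the test: `1 / S ^ 26 + 1 / S ^ 60`. -/
def thrF (S : ℕ) : ℤ := cadd S (fdiv S (fone S) (wS S 26)) (fdiv S (fone S) (wS S 60))

/-- The step of the loop: `8 / S ^ 54`. -/
def stepF (S : ℕ) : ℤ := fdiv S (fint S (clamp S (8 : ℕ))) (wS S 54)

/-- The word of `phiMin`. -/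
noncomputable def phiMinF (S : ℕ) (r : List ℤ) : ℤ :=
  (r.take S).foldl (fun s a => cadd S s (csub S (fint S a) (fmul S (fint S a) (flog S (fint S a))))) 0

/-- The value at a scale `s`. -/
noncomputable def valF (S : ℕ) (i0 j0 : ℤ) (r c : List ℤ) (y : List (List ℤ)) (s : ℤ) : ℤ :=
  if 0 < okM S (thrF S) (tMapF S i0 j0 r c (scaleF S s y)) then
    cadd S (fmul S s (csub S (csub S (sumM S (tMapF S i0 j0 r c (scaleF S s y)))
        (logCapF S r c (tMapF S i0 j0 r c (scaleF S s y)))) (phiMinF S r)))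
      (fmul S (wS S 27) (csub S s (fone S)))
  else wS S 32

/-- The minimum of two words. -/
def minW (S : ℕ) (a b : ℤ) : ℤ := if 0 < csub S a b then b else a

/-- One round of the loop: the state is the scale and the best value. -/
noncomputable def psiStep (S : ℕ) (i0 j0 : ℤ) (r c : List ℤ) (y : List (List ℤ)) (st : ℤ × ℤ) : ℤ × ℤ :=
  (cadd S st.1 (stepF S), minW S st.2 (valF S i0 j0 r c y st.1))

/-! ### Programs -/

theorem pfW_rep : DRep (α := α) (β := ℤ) fun S _ => pfW S := by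
  have hb : DRep (α := α × ℤ) (β := ℤ) fun S y => cadd S y.2 y.2 :=
    DRep.add DRep.snd DRep.snd
  exact (DRep.id' (α := α)).pair (DRep.one (α := α)) |>.comp (DRep.iterPow 2 hb)

theorem kappaF_rep {f : ℕ → α → ℤ} (hf : DRep f) : DRep fun S x => kappaF S (f S x) :=
  (hf.mul pfW_rep).add DRep.one

theorem pointF_rep {f : ℕ → α → List (List ℤ)} (hf : DRep f) : DRep fun S x => pointF S (f S x) := by
  have hin : DRep (α := α × List ℤ) (β := List ℤ) fun S y =>
      (y.2.take S).map fun a => yF S (kappaF S a) := by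
    have h1 : DRep (α := (α × List ℤ) × ℤ) (β := ℤ) fun S y => yF S (kappaF S y.2) :=
      yF_rep (kappaF_rep DRep.snd)
    exact DRep.mapS (l := fun _ y => y.2) (f := fun S y => yF S (kappaF S y.2)) DRep.snd h1
  exact DRep.mapS hf hin

theorem scaleF_rep {fs : ℕ → α → ℤ} {f : ℕ → α → List (List ℤ)} (hs : DRep fs) (hf : DRep f) :
    DRep fun S x => scaleF S (fs S x) (f S x) := by
  have hin : DRep (α := α × List ℤ) (β := List ℤ) fun S y =>
      (y.2.take S).map fun a => fdiv S a (fs S y.1) := by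
    have h1 : DRep (α := (α × List ℤ) × ℤ) (β := ℤ) fun S y => fdiv S y.2 (fs S y.1.1) :=
      fdiv_rep DRep.snd ((DRep.fst.comp DRep.fst).comp hs)
    exact DRep.mapS (l := fun _ y => y.2) DRep.snd h1
  exact DRep.mapS hf hin

theorem sumL_rep {f : ℕ → α → List ℤ} (hf : DRep f) : DRep fun S x => sumL S (f S x) := by
  have h1 : DRep (α := α × (ℤ × ℤ)) (β := ℤ) fun S y => cadd S y.2.1 y.2.2 :=
    (DRep.snd.comp DRep.fst).add (DRep.snd.comp DRep.snd)
  exact DRep.foldS hf DRep.zero h1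

theorem sumM_rep {f : ℕ → α → List (List ℤ)} (hf : DRep f) : DRep fun S x => sumM S (f S x) := by
  have h1 : DRep (α := α × (ℤ × List ℤ)) (β := ℤ) fun S y => cadd S y.2.1 (sumL S y.2.2) :=
    (DRep.snd.comp DRep.fst).add (sumL_rep (DRep.snd.comp DRep.snd))
  exact DRep.foldS hf DRep.zero h1

theorem okL_rep {fth s0 : ℕ → α → ℤ} {f : ℕ → α → List ℤ} (hth : DRep fth) (hf : DRep f)
    (hs : DRep s0) : DRep fun S x => okL S (fth S x) (f S x) (s0 S x) := by
  have h1 : DRep (α := α × (ℤ × ℤ)) (β := ℤ) fun S y =>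
      if 0 < csub S (fth S y.1) y.2.2 then 0 else y.2.1 :=
    DRep.ite ((DRep.fst.comp hth).sub (DRep.snd.comp DRep.snd)) DRep.zero (DRep.snd.comp DRep.fst)
  exact DRep.foldS hf hs h1

theorem okM_rep {fth : ℕ → α → ℤ} {f : ℕ → α → List (List ℤ)} (hth : DRep fth) (hf : DRep f) :
    DRep fun S x => okM S (fth S x) (f S x) := by
  have h1 : DRep (α := α × (ℤ × List ℤ)) (β := ℤ) fun S y => okL S (fth S y.1) y.2.2 y.2.1 :=
    okL_rep (DRep.fst.comp hth) (DRep.snd.comp DRep.snd) (DRep.snd.comp DRep.fst)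
  exact DRep.foldS hf DRep.one h1

theorem wS_rep (k : ℕ) : DRep (α := α) (β := ℤ) fun S _ => wS S k :=
  fint_rep (spow_rep k)

theorem thrF_rep : DRep (α := α) (β := ℤ) fun S _ => thrF S :=
  (fdiv_rep fone_rep (wS_rep 26)).add (fdiv_rep fone_rep (wS_rep 60))

theorem stepF_rep : DRep (α := α) (β := ℤ) fun S _ => stepF S :=
  fdiv_rep (fint_rep (DRep.natConst 8)) (wS_rep 54)

theorem phiMinF_rep {f : ℕ → α → List ℤ} (hf : DRep f) : DRep fun S x => phiMinF S (f S x) := by
  have h0 : DRep (α := α × (ℤ × ℤ)) (β := ℤ) fun S y => y.2.2 := DRep.snd.comp DRep.snd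
  have h1 : DRep (α := α × (ℤ × ℤ)) (β := ℤ) fun S y =>
      cadd S y.2.1 (csub S (fint S y.2.2) (fmul S (fint S y.2.2) (flog S (fint S y.2.2)))) :=
    (DRep.snd.comp DRep.fst).add
      ((fint_rep h0).sub (fmul_rep (fint_rep h0) (flog_rep (fint_rep h0))))
  exact DRep.foldS hf DRep.zero h1

theorem valF_rep {fi fj fs : ℕ → α → ℤ} {fr fc : ℕ → α → List ℤ} {fy : ℕ → α → List (List ℤ)}
    (hi : DRep fi) (hj : DRep fj) (hr : DRep fr) (hc : DRep fc) (hy : DRep fy) (hs : DRep fs) :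
    DRep fun S x => valF S (fi S x) (fj S x) (fr S x) (fc S x) (fy S x) (fs S x) := by
  have ht := tMapF_rep hi hj hr hc (scaleF_rep hs hy)
  exact DRep.ite (okM_rep thrF_rep ht)
    ((fmul_rep hs (((sumM_rep ht).sub (logCapF_rep hr hc ht)).sub (phiMinF_rep hr))).add
      (fmul_rep (wS_rep 27) (hs.sub fone_rep)))
    (wS_rep 32)

theorem minW_rep {f g : ℕ → α → ℤ} (hf : DRep f) (hg : DRep g) :
    DRep fun S x => minW S (f S x) (g S x) :=
  DRep.ite (hf.sub hg) hg hf

theorem psiStep_rep {fi fj : ℕ → α → ℤ} {fr fc : ℕ → α → List ℤ} {fy : ℕ → α → List (List ℤ)}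
    (hi : DRep fi) (hj : DRep fj) (hr : DRep fr) (hc : DRep fc) (hy : DRep fy) :
    DRep (α := α × (ℤ × ℤ)) (β := ℤ × ℤ) fun S x =>
      psiStep S (fi S x.1) (fj S x.1) (fr S x.1) (fc S x.1) (fy S x.1) x.2 := by
  have h1 : DRep (α := α × (ℤ × ℤ)) (β := α) fun _ y => y.1 := DRep.fst
  have h2 : DRep (α := α × (ℤ × ℤ)) (β := ℤ) fun _ y => y.2.1 := DRep.snd.comp DRep.fst
  have h3 : DRep (α := α × (ℤ × ℤ)) (β := ℤ) fun _ y => y.2.2 := DRep.snd.comp DRep.snd
  exact (h2.add stepF_rep).pair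
    (minW_rep h3 (valF_rep (h1.comp hi) (h1.comp hj) (h1.comp hr) (h1.comp hc) (h1.comp hy) h2))

/-! ### Integers -/

section Words

variable {S : ℕ}

theorem pow_hundred_le (hS : 1000000 ≤ S) : S ^ 100 ≤ 2 ^ S := by
  have h1 : S / 200 + 1 ≤ 2 ^ (S / 200) := Nat.lt_two_pow_self
  have h2 : S ≤ 2 ^ (S / 200 + 8) := by
    have h3 : S < 200 * (S / 200 + 1) := by omega
    have h4 : (2 : ℕ) ^ (S / 200 + 8) = 256 * 2 ^ (S / 200) := by rw [pow_add]; ring
    rw [h4]
    generalize (2 : ℕ) ^ (S / 200) = u at h1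
    omega
  calc S ^ 100 ≤ (2 ^ (S / 200 + 8)) ^ 100 := Nat.pow_le_pow_left h2 100
    _ = 2 ^ ((S / 200 + 8) * 100) := (pow_mul _ _ _).symm
    _ ≤ 2 ^ S := Nat.pow_le_pow_right (by norm_num) (by omega)

theorem pfW_eq (hS : 1000000 ≤ S) : pfW S = 2 ^ pf S := by
  have h : S ^ 2 ≤ prec S := Nat.pow_le_pow_right (by omega) (by norm_num)
  exact doubling_iter S (S ^ 2) h

theorem kappaF_eq (hS : 1000000 ≤ S) {a : ℕ} (ha : a ≤ 4 * S ^ 56 + 1) :
    kappaF S (a : ℤ) = (a : ℤ) * 2 ^ pf S + 1 := by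
  have h100 := pow_hundred_le hS
  have h56 : 4 * S ^ 56 + 1 ≤ S ^ 100 := by
    have h1 : S ^ 100 = S ^ 44 * S ^ 56 := by rw [← pow_add]
    have h2 : 5 ≤ S ^ 44 := by
      calc 5 ≤ S := by omega
        _ ≤ S ^ 44 := Nat.le_self_pow (by norm_num) S
    have h3 : 1 ≤ S ^ 56 := Nat.one_le_pow _ _ (by omega)
    rw [h1]
    nlinarith
  have haS : a ≤ 2 ^ S := by omega
  have hexp : S + S ^ 2 + 1 ≤ S ^ 6 := by
    have h1 : S ^ 6 = S ^ 2 * S ^ 4 := by rw [← pow_add]
    have h2 : 2 ≤ S ^ 4 := by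
      calc 2 ≤ S := by omega
        _ ≤ S ^ 4 := Nat.le_self_pow (by norm_num) S
    have h3 : S ^ 2 = S * S := by ring
    rw [h1]
    nlinarith
  have hP : (a : ℤ) * 2 ^ pf S + 1 ≤ 2 ^ wid S := by
    have h1 : (a * 2 ^ pf S + 1 : ℕ) ≤ 2 ^ (S + S ^ 2 + 1) := by
      have h2 : 1 ≤ 2 ^ (S + S ^ 2) := Nat.one_le_two_pow
      have h3 : a * 2 ^ pf S ≤ 2 ^ (S + S ^ 2) := by
        rw [pow_add]
        exact Nat.mul_le_mul_right _ haS
      rw [pow_succ]
      omega
    have h4 : (2 : ℕ) ^ (S + S ^ 2 + 1) ≤ 2 ^ wid S := Nat.pow_le_pow_right (by norm_num) hexp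
    exact_mod_cast h1.trans h4
  have hnn : (0 : ℤ) ≤ (a : ℤ) * 2 ^ pf S := by positivity
  have hP1 : (1 : ℤ) ≤ 2 ^ pf S := one_le_pow₀ (by norm_num)
  have h0 : (0 : ℤ) ≤ (a : ℤ) := by positivity
  have hle : (a : ℤ) ≤ (a : ℤ) * 2 ^ pf S := by nlinarith
  have hpfle : (2 : ℤ) ^ pf S ≤ (a : ℤ) * 2 ^ pf S + 1 ∨ a = 0 := by
    rcases Nat.eq_zero_or_pos a with h | h
    · exact Or.inr h
    · left
      have : (1 : ℤ) ≤ a := by exact_mod_cast h
      nlinarith
  have hPw : (2 : ℤ) ^ pf S ≤ 2 ^ wid S := by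
    apply pow_le_pow_right₀ (by norm_num)
    unfold pf wid
    omega
  have hc1 : clamp S (a : ℤ) = a := clamp_of_abs_le (by rw [abs_of_nonneg h0]; linarith)
  have hc2 : clamp S ((2 : ℤ) ^ pf S) = 2 ^ pf S :=
    clamp_of_abs_le (by rw [abs_of_nonneg (by positivity)]; exact hPw)
  have hc3 : clamp S ((a : ℤ) * 2 ^ pf S) = (a : ℤ) * 2 ^ pf S :=
    clamp_of_abs_le (by rw [abs_of_nonneg hnn]; linarith)
  have hc4 : clamp S ((a : ℤ) * 2 ^ pf S + 1) = (a : ℤ) * 2 ^ pf S + 1 :=
    clamp_of_abs_le (by rw [abs_of_nonneg (by linarith)]; exact hP)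
  unfold kappaF cadd cmul
  rw [pfW_eq hS, hc1, hc2, hc3, hc3, clamp_one, hc4]

/-- Words are not changed by saturation a second time. -/
theorem clamp_clamp' (S : ℕ) (z : ℤ) : clamp S (clamp S z) = clamp S z := by
  have h5 : (0 : ℤ) ≤ 2 ^ wid S := by positivity
  apply clamp_of_abs_le
  apply abs_le.mpr
  unfold clamp
  constructor
  · exact le_max_left _ _
  · exact max_le (by linarith) (min_le_right _ _)

theorem csub_pos_iff {thr : ℤ} (a : ℤ) (h1 : -(2 ^ wid S) < thr) (h2 : thr ≤ 2 ^ wid S) :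
    0 < csub S thr a ↔ a < thr := by
  have hc : clamp S thr = thr := clamp_of_mem S h1.le h2
  unfold csub
  rw [clamp_pos_iff, hc, sub_pos]
  simp only [clamp]
  constructor
  · intro h
    by_contra hn
    rw [not_lt] at hn
    have h3 : thr ≤ min a (2 ^ wid S) := le_min hn h2
    have h4 := le_max_right (-(2 ^ wid S)) (min a (2 ^ wid S))
    linarith
  · intro h
    exact max_lt h1 (lt_of_le_of_lt (min_le_left _ _) h)

/-- The minimum of two saturated words. -/
theorem minW_eq {a b : ℤ} (ha : clamp S a = a) (hb : clamp S b = b) : minW S a b = min a b := by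
  unfold minW
  have e : 0 < csub S a b ↔ b < a := by
    unfold csub
    rw [clamp_pos_iff, ha, hb, sub_pos]
  split_ifs with h
  · exact (min_eq_right (e.mp h).le).symm
  · exact (min_eq_left (not_lt.mp (fun h' => h (e.mpr h')))).symm

theorem foldl_ok {S : ℕ} {thr : ℤ} (l : List ℤ) (s0 : ℤ) :
    l.foldl (fun s a => if 0 < csub S thr a then 0 else s) s0
      = if ∀ a ∈ l, ¬ 0 < csub S thr a then s0 else 0 := by
  induction l generalizing s0 with
  | nil => simp
  | cons a l ih =>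
    rw [List.foldl_cons, ih]
    simp only [List.forall_mem_cons]
    by_cases h1 : 0 < csub S thr a
    · have hn : ¬ (¬ 0 < csub S thr a ∧ ∀ b ∈ l, ¬ 0 < csub S thr b) := fun h => h.1 h1
      rw [if_neg hn, if_pos h1]
      exact ite_self 0
    · rw [if_neg h1]
      by_cases h2 : ∀ b ∈ l, ¬ 0 < csub S thr b
      · rw [if_pos h2, if_pos ⟨h1, h2⟩]
      · rw [if_neg h2, if_neg (fun h => h2 h.2)]

theorem take_ofFn {γ : Type} {k : ℕ} (hk : k ≤ S) (f : Fin k → γ) :
    (List.ofFn f).take S = List.ofFn f :=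
  List.take_of_length_le (by simpa using hk)

theorem okL_ofFn {thr : ℤ} {k : ℕ} (hk : k ≤ S) (f : Fin k → ℤ) (s0 : ℤ) :
    okL S thr (List.ofFn f) s0 = if ∀ i, ¬ 0 < csub S thr (f i) then s0 else 0 := by
  unfold okL
  rw [take_ofFn hk, foldl_ok]
  simp [List.mem_ofFn]

theorem foldl_okM {thr : ℤ} {l : ℕ} (hl : l ≤ S) (L : List (Fin l → ℤ)) (s0 : ℤ) :
    (L.map List.ofFn).foldl (fun s col => okL S thr col s) s0
      = if ∀ f ∈ L, ∀ i, ¬ 0 < csub S thr (f i) then s0 else 0 := by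
  induction L generalizing s0 with
  | nil => simp
  | cons f L ih =>
    rw [List.map_cons, List.foldl_cons, ih, okL_ofFn hl]
    simp only [List.forall_mem_cons]
    by_cases h1 : ∀ i, ¬ 0 < csub S thr (f i)
    · by_cases h2 : ∀ g ∈ L, ∀ i, ¬ 0 < csub S thr (g i)
      · rw [if_pos h2, if_pos h1, if_pos ⟨h1, h2⟩]
      · rw [if_neg h2, if_neg (fun h => h2 h.2)]
    · have hn : ¬ ((∀ i, ¬ 0 < csub S thr (f i)) ∧ ∀ g ∈ L, ∀ i, ¬ 0 < csub S thr (g i)) :=
        fun h => h1 h.1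
      rw [if_neg hn, if_neg h1]
      exact ite_self 0

theorem okM_lM {thr : ℤ} (hm : m ≤ S) (hn : n ≤ S) (t : Fin n → Fin m → ℤ)
    (h1 : -(2 ^ wid S) < thr) (h2 : thr ≤ 2 ^ wid S) :
    0 < okM S thr (lM t) ↔ ∀ j i, thr ≤ t j i := by
  have e : lM t = (List.ofFn t).map List.ofFn := by
    unfold lM
    rw [List.map_ofFn]
    rfl
  unfold okM
  rw [e, List.take_of_length_le (by simpa using hn), foldl_okM hm]
  have e3 : (∀ f ∈ List.ofFn t, ∀ i, ¬ 0 < csub S thr (f i)) ↔ ∀ j i, thr ≤ t j i := by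
    simp only [List.mem_ofFn, forall_exists_index, forall_apply_eq_imp_iff]
    refine forall_congr' fun j => forall_congr' fun i => ?_
    rw [csub_pos_iff _ h1 h2, not_lt]
  by_cases h : ∀ j i, thr ≤ t j i
  · rw [if_pos (e3.mpr h)]
    exact ⟨fun _ => h, fun _ => one_pos⟩
  · rw [if_neg (fun h' => h (e3.mp h'))]
    exact ⟨fun h' => absurd h' (lt_irrefl _), fun h' => absurd h' h⟩

end Words

/-! ### Numbers -/

/-- The error of the coordinates. -/
noncomputable def eE (S : ℕ) : ℝ := (1 / 2 : ℝ) ^ (S ^ 5 / 8)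

/-- The bound for the margins. -/
noncomputable def aA (S : ℕ) : ℝ := 2 ^ S

theorem one_le_Big (S : ℕ) : 1 ≤ Big S := by
  unfold Big
  exact one_le_pow₀ (by norm_num)

theorem ulp_small (S : ℕ) : ulp S ≤ 1 := by
  unfold ulp
  rw [div_le_one (by positivity)]
  exact one_le_pow₀ (by norm_num)

theorem abs_sum_le' {k : ℕ} (u : Fin k → ℝ) {B : ℝ} (h : ∀ i, |u i| ≤ B) :
    |∑ i, u i| ≤ (k : ℝ) * B := by
  refine (Finset.abs_sum_le_sum_abs _ _).trans ?_
  calc ∑ i, |u i| ≤ ∑ _i : Fin k, B := Finset.sum_le_sum fun i _ => h i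
    _ = (k : ℝ) * B := by simp

section Val

variable {S : ℕ} (hS : 1000000 ≤ S)

include hS

theorem nums : 0 < eE S ∧ ulp S ≤ eE S ∧ (1 / 2 : ℝ) ^ (S ^ 5 / 4) ≤ eE S
    ∧ eE S * aA S ^ 5 * 2 ^ pf S ≤ 1 ∧ aA S ^ 6 ≤ Big S ∧ (S : ℝ) ^ 100 ≤ aA S ∧ 1 ≤ aA S := by
  have h100 : (S : ℝ) ^ 100 ≤ aA S := by
    have := pow_hundred_le hS
    unfold aA
    exact_mod_cast this
  have hS3 : 48 ≤ S ^ 3 := by
    calc 48 ≤ S := by omega
      _ ≤ S ^ 3 := Nat.le_self_pow (by norm_num) S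
  have hS2 : S ≤ S ^ 2 := Nat.le_self_pow (by norm_num) S
  have h5 : S ^ 5 = S ^ 2 * S ^ 3 := by rw [← pow_add]
  have hq : 5 * S + S ^ 2 ≤ S ^ 5 / 8 := by
    rw [Nat.le_div_iff_mul_le (by norm_num), h5]
    nlinarith
  refine ⟨by unfold eE; positivity, ?_, ?_, ?_, ?_, h100, ?_⟩
  · unfold ulp eE
    rw [← one_div_pow]
    exact pow_le_pow_of_le_one (by norm_num) (by norm_num) (Nat.div_le_self _ _)
  · unfold eE
    exact pow_le_pow_of_le_one (by norm_num) (by norm_num) (Nat.div_le_div_left (by norm_num) (by norm_num))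
  · unfold eE aA pf
    have h1 : ((2 : ℝ) ^ S) ^ 5 * 2 ^ (S ^ 2) = 2 ^ (5 * S + S ^ 2) := by
      rw [pow_add, ← pow_mul, mul_comm S 5]
    rw [mul_assoc, h1, one_div_pow, one_div, inv_mul_le_iff₀ (by positivity), mul_one]
    exact pow_le_pow_right₀ (by norm_num) hq
  · unfold aA Big
    rw [← pow_mul]
    apply pow_le_pow_right₀ (by norm_num)
    have : S ^ 4 = S ^ 3 * S := by ring
    rw [this]
    nlinarith
  · unfold aA
    exact one_le_pow₀ (by norm_num)

theorem word_range {z : ℤ} (h : |val S z| ≤ Big S) : -(2 ^ wid S) < z ∧ z ≤ 2 ^ wid S := by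
  have h1 := abs_le_of_val h
  obtain ⟨h2, h3, h4⟩ := pow_facts hS
  have h5 : (2 : ℤ) ^ (S ^ 4 + S ^ 5) < 2 ^ wid S := by
    apply pow_lt_pow_right₀ (by norm_num)
    unfold wid
    omega
  have h6 := abs_le.mp h1
  constructor <;> linarith [h6.1, h6.2]

theorem x_facts : (1000000 : ℝ) ≤ S := by exact_mod_cast hS

theorem pow_le_A {k : ℕ} (hk : k ≤ 100) : (S : ℝ) ^ k ≤ aA S := by
  have hx := x_facts hS
  have h1 : (S : ℝ) ^ k ≤ (S : ℝ) ^ 100 := pow_le_pow_right₀ (by linarith) hk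
  exact h1.trans (nums hS).2.2.2.2.2.1

theorem A_le_Big : aA S ≤ Big S := by
  obtain ⟨-, -, -, -, h1, -, h2⟩ := nums hS
  have h3 : aA S ≤ aA S ^ 6 := le_self_pow₀ h2 (by norm_num)
  linarith

theorem A10_le_Big : aA S ^ 10 ≤ Big S := by
  unfold aA Big
  rw [← pow_mul]
  apply pow_le_pow_right₀ (by norm_num)
  have : S ^ 4 = S ^ 3 * S := by ring
  have h3 : 48 ≤ S ^ 3 := by
    calc 48 ≤ S := by omega
      _ ≤ S ^ 3 := Nat.le_self_pow (by norm_num) S
  rw [this]
  nlinarith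

theorem val_wS {k : ℕ} (hk : k ≤ 100) : val S (wS S k) = (S : ℝ) ^ k := by
  unfold wS
  rw [spow_eq hS (by omega), val_fint hS (by
    push_cast
    rw [abs_of_nonneg (by positivity)]
    exact (pow_le_A hS hk).trans (A_le_Big hS))]
  push_cast
  rfl

theorem val_div_wS {k : ℕ} (hk : k ≤ 100) {a : ℤ} (ha : |val S a| ≤ Big S) :
    |val S (fdiv S a (wS S k)) - val S a / (S : ℝ) ^ k| ≤ ulp S := by
  have hx := x_facts hS
  have h := val_fdiv hS ha (y := wS S k) (by
      rw [val_wS hS hk, abs_of_nonneg (by positivity)]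
      exact (pow_le_A hS hk).trans (A_le_Big hS)) (by
      rw [val_wS hS hk, abs_of_nonneg (by positivity)]
      have h1 : (1 : ℝ) ≤ (S : ℝ) ^ k := one_le_pow₀ (by linarith)
      have h2 := one_le_Big S
      refine le_trans ?_ h1
      rw [div_le_one (by linarith)]
      exact h2)
  rwa [val_wS hS hk] at h

theorem val_thrF : |val S (thrF S) - (1 / (S : ℝ) ^ 26 + 1 / (S : ℝ) ^ 60)| ≤ 2 * ulp S
    ∧ -(2 ^ wid S) < thrF S ∧ thrF S ≤ 2 ^ wid S := by
  have hx := x_facts hS
  have hone : |val S (fone S)| ≤ Big S := by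
    rw [val_fone hS, abs_one]
    exact one_le_Big S
  have h1 := val_div_wS hS (k := 26) (by norm_num) hone
  have h2 := val_div_wS hS (k := 60) (by norm_num) hone
  rw [val_fone hS] at h1 h2
  have hu := ulp_small S
  have hb := one_le_Big S
  have hp1 : 1 / (S : ℝ) ^ 26 ≤ 1 := by
    rw [div_le_one (by positivity)]
    exact one_le_pow₀ (by linarith)
  have hp2 : 1 / (S : ℝ) ^ 60 ≤ 1 := by
    rw [div_le_one (by positivity)]
    exact one_le_pow₀ (by linarith)
  have hp3 : 0 ≤ 1 / (S : ℝ) ^ 26 := by positivity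
  have hp4 : 0 ≤ 1 / (S : ℝ) ^ 60 := by positivity
  have hB2 : 2 ≤ Big S := by
    unfold Big
    calc (2 : ℝ) = 2 ^ 1 := by norm_num
      _ ≤ 2 ^ (S ^ 4) := pow_le_pow_right₀ (by norm_num) (Nat.one_le_pow _ _ (by omega))
  have hB6 : 6 ≤ Big S := by
    unfold Big
    calc (6 : ℝ) ≤ 2 ^ 3 := by norm_num
      _ ≤ 2 ^ (S ^ 4) := pow_le_pow_right₀ (by norm_num) (by
        calc 3 ≤ S := by omega
          _ ≤ S ^ 4 := Nat.le_self_pow (by norm_num) S)
  rw [abs_le] at h1 h2
  have h3 : |val S (fdiv S (fone S) (wS S 26))| ≤ Big S := by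
    rw [abs_le]
    constructor <;> linarith [h1.1, h1.2]
  have h4 : |val S (fdiv S (fone S) (wS S 60))| ≤ Big S := by
    rw [abs_le]
    constructor <;> linarith [h2.1, h2.2]
  have e : val S (thrF S) = val S (fdiv S (fone S) (wS S 26)) + val S (fdiv S (fone S) (wS S 60)) :=
    val_add hS h3 h4
  have h5 : |val S (thrF S) - (1 / (S : ℝ) ^ 26 + 1 / (S : ℝ) ^ 60)| ≤ 2 * ulp S := by
    rw [e, abs_le]
    constructor <;> linarith [h1.1, h1.2, h2.1, h2.2]
  refine ⟨h5, word_range hS ?_⟩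
  rw [e, abs_le]
  constructor <;> linarith [h1.1, h1.2, h2.1, h2.2]

theorem val_stepF : |val S (stepF S) - 8 / (S : ℝ) ^ 54| ≤ ulp S := by
  have h8 : clamp S ((8 : ℕ) : ℤ) = 8 := by
    apply clamp_of_abs_le
    have h1 : (8 : ℤ) ≤ 2 ^ 3 := by norm_num
    have h2 : (2 : ℤ) ^ 3 ≤ 2 ^ wid S := pow_le_pow_right₀ (by norm_num) (by
      unfold wid
      calc 3 ≤ S := by omega
        _ ≤ S ^ 6 := Nat.le_self_pow (by norm_num) S)
    norm_num
    linarith
  have hB8 : (8 : ℝ) ≤ Big S := by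
    unfold Big
    calc (8 : ℝ) = 2 ^ 3 := by norm_num
      _ ≤ 2 ^ (S ^ 4) := pow_le_pow_right₀ (by norm_num) (by
        calc 3 ≤ S := by omega
          _ ≤ S ^ 4 := Nat.le_self_pow (by norm_num) S)
  have h9 : val S (fint S (clamp S ((8 : ℕ) : ℤ))) = 8 := by
    rw [h8, val_fint hS (by norm_num; linarith)]
    norm_num
  have h := val_div_wS hS (k := 54) (by norm_num) (a := fint S (clamp S ((8 : ℕ) : ℤ))) (by
    rw [h9]
    norm_num
    linarith)
  rwa [h9] at h

/-! ### Sums -/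

theorem val_foldl {γ : Type} (g : γ → ℤ) (L : List γ) {B : ℝ} (hB : 0 ≤ B)
    (hL : ∀ a ∈ L, |val S (g a)| ≤ B) (a0 : ℤ) (h : |val S a0| + L.length * B ≤ Big S) :
    val S (L.foldl (fun s a => cadd S s (g a)) a0)
      = val S a0 + (L.map fun a => val S (g a)).sum := by
  induction L generalizing a0 with
  | nil => simp
  | cons a L ih =>
    simp only [List.foldl_cons, List.map_cons, List.sum_cons]
    have ha := hL a (by simp)
    have hlen : ((a :: L).length : ℝ) = L.length + 1 := by simp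
    rw [hlen] at h
    have hLn : (0 : ℝ) ≤ L.length := Nat.cast_nonneg _
    have hLB : 0 ≤ (L.length : ℝ) * B := mul_nonneg hLn hB
    have h0 : 0 ≤ |val S a0| := abs_nonneg _
    have h1 : |val S a0| ≤ Big S := by nlinarith
    have h2 : |val S (g a)| ≤ Big S := by nlinarith
    have e := val_add hS h1 h2
    rw [ih (fun b hb => hL b (by simp [hb])) (cadd S a0 (g a)) ?_, e]
    · ring
    · rw [e]
      have h3 := abs_add_le (val S a0) (val S (g a))
      nlinarith

theorem val_sum_ofFn {γ : Type} {k : ℕ} (hk : k ≤ S) (f : Fin k → γ) (g : γ → ℤ) {B : ℝ} (hB : 0 ≤ B)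
    (hL : ∀ i, |val S (g (f i))| ≤ B) (h : (k : ℝ) * B ≤ Big S) :
    val S (((List.ofFn f).take S).foldl (fun s a => cadd S s (g a)) 0) = ∑ i, val S (g (f i)) := by
  have e0 : val S 0 = 0 := by simp [val]
  have h1 : ∀ a ∈ List.ofFn f, |val S (g a)| ≤ B := by
    intro a ha
    rw [List.mem_ofFn] at ha
    obtain ⟨i, rfl⟩ := ha
    exact hL i
  have h2 : |val S 0| + ((List.ofFn f).length : ℝ) * B ≤ Big S := by
    simpa [e0] using h
  rw [take_ofFn hk, val_foldl hS g _ hB h1 0 h2, e0, zero_add, List.map_ofFn, List.sum_ofFn]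
  rfl

theorem val_sumM (hm : m ≤ S) (hn : n ≤ S) (t : Fin n → Fin m → ℤ) {B : ℝ} (hB : 0 ≤ B)
    (ht : ∀ j i, |val S (t j i)| ≤ B) (h : (n : ℝ) * ((m : ℝ) * B) ≤ Big S)
    (h' : (m : ℝ) * B ≤ Big S) :
    val S (sumM S (lM t)) = ∑ j, ∑ i, val S (t j i) := by
  have hin : ∀ j, val S (sumL S (List.ofFn (t j))) = ∑ i, val S (t j i) := by
    intro j
    exact val_sum_ofFn hS hm (t j) (fun a => a) hB (ht j) h'
  have hin2 : ∀ j, |val S (sumL S (List.ofFn (t j)))| ≤ (m : ℝ) * B := by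
    intro j
    rw [hin j]
    exact abs_sum_le' _ (ht j)
  have h1 := val_sum_ofFn hS hn (fun j => List.ofFn (t j)) (sumL S) (by positivity) hin2 h
  have e : sumM S (lM t)
      = ((List.ofFn fun j => List.ofFn (t j)).take S).foldl (fun s a => cadd S s (sumL S a)) 0 := rfl
  rw [e, h1]
  exact Finset.sum_congr rfl fun j _ => hin j

theorem phiEntry {a : ℕ} (ha : a < 2 ^ S) :
    |val S (csub S (fint S (a : ℤ)) (fmul S (fint S (a : ℤ)) (flog S (fint S (a : ℤ)))))
        - ((a : ℝ) - (a : ℝ) * Real.log a)| ≤ 2 * aA S * eE S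
      ∧ |val S (csub S (fint S (a : ℤ)) (fmul S (fint S (a : ℤ)) (flog S (fint S (a : ℤ)))))|
        ≤ aA S ^ 3 := by
  obtain ⟨he0, heu, he4, hePA, hA6, -, hA1⟩ := nums hS
  rcases Nat.eq_zero_or_pos a with rfl | ha0
  · have hc0 : clamp S 0 = 0 := clamp_of_abs_le (by
      simp only [abs_zero]
      positivity)
    have h1 : fint S ((0 : ℕ) : ℤ) = 0 := by
      unfold fint cmul
      simp [hc0]
    have h2 : ∀ u, fmul S 0 u = 0 := by
      intro u
      unfold fmul cdiv cmul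
      simp [hc0]
    have h3 : csub S 0 0 = 0 := by
      unfold csub
      simp [hc0]
    rw [h1, h2, h3]
    have e0 : val S 0 = 0 := by simp [val]
    rw [e0]
    simp only [Nat.cast_zero, zero_mul, sub_self, abs_zero]
    constructor <;> positivity
  · have hA : (a : ℝ) ≤ aA S := by
      unfold aA
      exact_mod_cast ha.le
    have ha1 : (1 : ℝ) ≤ a := by exact_mod_cast ha0
    have hBA := A_le_Big hS
    have h1 : val S (fint S (a : ℤ)) = a := by
      rw [val_fint hS (by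
        push_cast
        rw [abs_of_nonneg (by positivity)]
        linarith)]
      push_cast
      rfl
    have hVB : |val S (fint S (a : ℤ))| ≤ Big S := by
      rw [h1, abs_of_nonneg (by positivity)]
      linarith
    have hl := flog_spec hS (x := fint S (a : ℤ)) (by
        rw [h1]
        have : (1 / 2 : ℝ) ^ (S ^ 3) ≤ 1 := pow_le_one₀ (by norm_num) (by norm_num)
        linarith) (by
        rw [h1]
        have h3 : (2 : ℝ) ^ S ≤ 2 ^ (S ^ 3) :=
          pow_le_pow_right₀ (by norm_num) (Nat.le_self_pow (by norm_num) S)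
        unfold aA at hA
        linarith)
    rw [h1] at hl
    have hlog0 : 0 ≤ Real.log a := Real.log_nonneg ha1
    have hlog1 : Real.log a ≤ a - 1 := Real.log_le_sub_one_of_pos (by linarith)
    have he1 : eE S ≤ 1 := by
      unfold eE
      exact pow_le_one₀ (by norm_num) (by norm_num)
    have hlb := abs_le.mp hl
    have hLa : |val S (flog S (fint S (a : ℤ)))| ≤ aA S := by
      rw [abs_le]
      constructor <;> linarith [hlb.1, hlb.2]
    have hLB : |val S (flog S (fint S (a : ℤ)))| ≤ Big S := hLa.trans hBA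
    have hm := val_fmul hS hVB hLB
    rw [h1] at hm
    have hmb := abs_le.mp hm
    have hu1 := ulp_small S
    have hA2 : aA S * aA S + 1 ≤ aA S ^ 6 := by
      have h3 : aA S ^ 6 = aA S * aA S * (aA S ^ 4) := by ring
      have h4 : (2 : ℝ) ≤ aA S := by
        unfold aA
        calc (2 : ℝ) = 2 ^ 1 := by norm_num
          _ ≤ 2 ^ S := pow_le_pow_right₀ (by norm_num) (by omega)
      have h5 : 2 ≤ aA S ^ 4 := by
        calc 2 ≤ aA S := h4
          _ ≤ aA S ^ 4 := le_self_pow₀ hA1 (by norm_num)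
      have h6 : 1 ≤ aA S * aA S := by nlinarith
      rw [h3]
      nlinarith
    have hprod : |(a : ℝ) * val S (flog S (fint S (a : ℤ)))| ≤ aA S * aA S := by
      rw [abs_mul, abs_of_nonneg (by positivity : (0 : ℝ) ≤ a)]
      exact mul_le_mul hA hLa (abs_nonneg _) (by linarith)
    have hpb := abs_le.mp hprod
    have hMB : |val S (fmul S (fint S (a : ℤ)) (flog S (fint S (a : ℤ))))| ≤ Big S := by
      rw [abs_le]
      constructor <;> linarith [hmb.1, hmb.2, hpb.1, hpb.2]
    have hsub := val_sub hS hVB hMB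
    rw [hsub, h1]
    constructor
    · have e : (a : ℝ) - val S (fmul S (fint S (a : ℤ)) (flog S (fint S (a : ℤ))))
          - ((a : ℝ) - (a : ℝ) * Real.log a)
          = (a : ℝ) * (Real.log a - val S (flog S (fint S (a : ℤ))))
            - (val S (fmul S (fint S (a : ℤ)) (flog S (fint S (a : ℤ))))
              - (a : ℝ) * val S (flog S (fint S (a : ℤ)))) := by ring
      rw [e]
      refine (abs_sub _ _).trans ?_
      rw [abs_mul, abs_of_nonneg (by positivity : (0 : ℝ) ≤ a), abs_sub_comm (Real.log a)]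
      have h3 : (a : ℝ) * |val S (flog S (fint S (a : ℤ))) - Real.log a| ≤ aA S * eE S :=
        mul_le_mul hA (hl.trans he4) (abs_nonneg _) (by linarith)
      have h4 : eE S ≤ aA S * eE S := by nlinarith
      linarith
    · have h3 : aA S ^ 3 = aA S * (aA S * aA S) := by ring
      have h4 : (4 : ℝ) ≤ aA S := by
        unfold aA
        calc (4 : ℝ) = 2 ^ 2 := by norm_num
          _ ≤ 2 ^ S := pow_le_pow_right₀ (by norm_num) (by omega)
      have h6 : 4 * (aA S * aA S) ≤ aA S * (aA S * aA S) :=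
        mul_le_mul_of_nonneg_right h4 (by positivity)
      have h7 : aA S ≤ aA S * aA S := by nlinarith
      have h8 : 1 ≤ aA S * aA S := by nlinarith
      rw [h3, abs_le]
      constructor <;> linarith [hmb.1, hmb.2, hpb.1, hpb.2]

theorem val_phiMinF (hm : m ≤ S) {r : Fin m → ℕ} (hN : ∑ i, r i < 2 ^ S) :
    |val S (phiMinF S (lN r)) - phiMin r| ≤ (S : ℝ) * (2 * aA S * eE S)
      ∧ |val S (phiMinF S (lN r))| ≤ aA S ^ 4 := by
  obtain ⟨he0, heu, he4, hePA, hA6, h100, hA1⟩ := nums hS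
  have hx := x_facts hS
  have hr : ∀ i, r i < 2 ^ S := fun i =>
    lt_of_le_of_lt (Finset.single_le_sum (f := r) (fun _ _ => Nat.zero_le _) (Finset.mem_univ i)) hN
  have hmA : (m : ℝ) ≤ aA S := by
    have h1 : (m : ℝ) ≤ S := by exact_mod_cast hm
    have h2 := pow_le_A hS (k := 1) (by norm_num)
    rw [pow_one] at h2
    linarith
  have hS0 : (0 : ℝ) ≤ m := Nat.cast_nonneg _
  have hprod : (m : ℝ) * aA S ^ 3 ≤ aA S ^ 4 := by
    have h3 : aA S ^ 4 = aA S * aA S ^ 3 := by ring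
    rw [h3]
    exact mul_le_mul_of_nonneg_right hmA (by positivity)
  have hA46 : aA S ^ 4 ≤ aA S ^ 6 := pow_le_pow_right₀ hA1 (by norm_num)
  have e : val S (phiMinF S (lN r))
      = ∑ i, val S (csub S (fint S ((r i : ℕ) : ℤ)) (fmul S (fint S ((r i : ℕ) : ℤ))
          (flog S (fint S ((r i : ℕ) : ℤ))))) :=
    val_sum_ofFn hS hm (fun i => ((r i : ℕ) : ℤ))
      (fun a => csub S (fint S a) (fmul S (fint S a) (flog S (fint S a))))
      (B := aA S ^ 3) (by positivity) (fun i => (phiEntry hS (hr i)).2) (by linarith)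
  rw [e]
  constructor
  · unfold phiMin
    rw [← Finset.sum_sub_distrib]
    refine (abs_sum_le' _ (fun i => (phiEntry hS (hr i)).1)).trans ?_
    have h1 : (m : ℝ) ≤ S := by exact_mod_cast hm
    exact mul_le_mul_of_nonneg_right h1 (by positivity)
  · refine (abs_sum_le' _ (fun i => (phiEntry hS (hr i)).2)).trans hprod

end Val

/-! ### Lists -/

section Lists

variable {S : ℕ}

theorem scaleF_lM (hm : m ≤ S) (hn : n ≤ S) (s : ℤ) (y : Fin n → Fin m → ℤ) :
    scaleF S s (lM y) = lM fun j i => fdiv S (y j i) s := by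
  unfold scaleF lM
  rw [take_ofFn hn, List.map_ofFn]
  congr 1
  funext j
  simp only [Function.comp]
  rw [take_ofFn hm, List.map_ofFn]
  rfl

theorem pointF_lZ (hm : m ≤ S) (hn : n ≤ S) {M : ℕ} (z : Fin n × Fin m → Fin M) :
    pointF S (lZ z) = lM fun j i => yF S (kappaF S (((z (j, i) : Fin M) : ℕ) : ℤ)) := by
  unfold pointF lZ lM
  rw [take_ofFn hn, List.map_ofFn]
  congr 1
  funext j
  simp only [Function.comp]
  rw [take_ofFn hm, List.map_ofFn]
  rfl

/-- The meaning of the loop. -/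
theorem loop_spec (V : ℤ → ℤ) (hV : ∀ s, clamp S (V s) = V s) {step s0 init : ℤ} {N : ℕ}
    (hinit : clamp S init = init) (hstep : clamp S step = step)
    (hno : ∀ k : ℕ, k ≤ N → clamp S (s0 + k * step) = s0 + k * step) :
    ∀ k : ℕ, k ≤ N →
      ((fun st : ℤ × ℤ => (cadd S st.1 step, minW S st.2 (V st.1)))^[k] (s0, init)).1 = s0 + k * step
      ∧ clamp S ((fun st : ℤ × ℤ => (cadd S st.1 step, minW S st.2 (V st.1)))^[k] (s0, init)).2
          = ((fun st : ℤ × ℤ => (cadd S st.1 step, minW S st.2 (V st.1)))^[k] (s0, init)).2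
      ∧ ((fun st : ℤ × ℤ => (cadd S st.1 step, minW S st.2 (V st.1)))^[k] (s0, init)).2 ≤ init
      ∧ (∀ j : ℕ, j < k →
          ((fun st : ℤ × ℤ => (cadd S st.1 step, minW S st.2 (V st.1)))^[k] (s0, init)).2
            ≤ V (s0 + j * step))
      ∧ (((fun st : ℤ × ℤ => (cadd S st.1 step, minW S st.2 (V st.1)))^[k] (s0, init)).2 = init
          ∨ ∃ j : ℕ, j < k ∧
            ((fun st : ℤ × ℤ => (cadd S st.1 step, minW S st.2 (V st.1)))^[k] (s0, init)).2
              = V (s0 + j * step)) := by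
  intro k
  induction k with
  | zero =>
    intro _
    simp only [Function.iterate_zero, id_eq, Nat.cast_zero, zero_mul, add_zero]
    refine ⟨trivial, hinit, le_rfl, fun j hj => absurd hj (Nat.not_lt_zero j), Or.inl trivial⟩
  | succ k ih =>
    intro hk
    obtain ⟨h1, h2, h3, h4, h5⟩ := ih (by omega)
    rw [Function.iterate_succ_apply']
    generalize ((fun st : ℤ × ℤ => (cadd S st.1 step, minW S st.2 (V st.1)))^[k] (s0, init)) = st at h1 h2 h3 h4 h5
    simp only
    have hmin := minW_eq h2 (hV st.1)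
    have hc := hno k (by omega)
    have hc' := hno (k + 1) hk
    refine ⟨?_, ?_, ?_, ?_, ?_⟩
    · unfold cadd
      rw [h1, hc, hstep]
      push_cast at hc' ⊢
      have e : s0 + (k + 1) * step = s0 + k * step + step := by ring
      rw [← e]
      exact hc'
    · rw [hmin]
      rcases min_choice st.2 (V st.1) with h | h <;> rw [h]
      · exact h2
      · exact hV _
    · rw [hmin]
      exact (min_le_left _ _).trans h3
    · intro j hj
      rw [hmin]
      rcases Nat.lt_succ_iff_lt_or_eq.mp hj with hj' | rfl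
      · exact (min_le_left _ _).trans (h4 j hj')
      · rw [← h1]
        exact min_le_right _ _
    · rw [hmin]
      rcases min_choice st.2 (V st.1) with h | h <;> rw [h]
      · rcases h5 with h6 | ⟨j, hj, h6⟩
        · exact Or.inl h6
        · exact Or.inr ⟨j, by omega, h6⟩
      · refine Or.inr ⟨k, by omega, ?_⟩
        rw [h1]

end Lists

end PsiAux

end Vale.Agent.Lib.P328.Bit
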