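import Vale.Agent.Lib.P328.Bit.StepF
import Vale.Agent.Lib.P328.Bit.AnnealLaw

/-!
# P328, bit model: the runs of the walk (module RUNF)

`runF S (r, cl)`: `S ^ 3` independent runs; each run starts at the empty node and makes `S ^ 20` steps of `walkF`. The output is the pair of the number of runs that end at a node of the length of `cl`, and of the number of runs that end at the empty node.

`qF`: the kernel of `walkF` on the nodes. Statement `runF_law`: the law of the pair of counts, in terms of `runProb`, `lawT`.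

Proof. `lV` is injective, and the support condition `hsup` keeps the runs in the image of the nodes. So after `T` steps from `lV []`, the law of one run is the image under `lV` of `lawT V qF T` (induction on `T`, with `PMF.bind`; `lawT V P (T + 1) w = Σ_{v ∈ V} lawT V P T v * P v w`). `S^3` independent runs: the law of `ω : Fin R → node`, `∏ μ (ω i)`, with an induction over `R` (the program keeps the two counters): the probability of the event is the sum over `ω` in `piFinset V` of `∏ μ (ω i)` times the indicator.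
A node of `V` has length `cl.length` iff it is in `lvl (kids r cl) cl.length`. It is the empty list iff it is in `{[]}`.
-/

namespace Vale.Agent.Lib.P328.Bit

open Finset MeasureTheory Vale.Agent.Lib.P328.Cap Vale.Agent.Lib.P328.Fpras Vale.Agent.Lib.P328.Samp
open scoped ENNReal

variable {m : ℕ}

namespace RunAux

/-- The input. -/
abbrev XR : Type := List ℤ × List ℤ
/-- A node as words. -/
abbrev NR : Type := List (List ℤ)
/-- The two counters. -/
abbrev CR : Type := ℤ × ℤ

/-- One run of the walk. -/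
noncomputable def oneRun (S : ℕ) (x : XR) : PMF NR :=
  (fun μ : PMF NR => μ.bind fun s => walkF S (x, s))^[S ^ 20] (PMF.pure [])

theorem oneRun_rep : Rep oneRun :=
  CoinAux.comp_of_drep (h := fun _ (x : XR) => (x, ([] : NR)))
    (g := fun S (x : XR × NR) => (fun μ : PMF NR => μ.bind fun s => walkF S (x.1, s))^[S ^ 20] (PMF.pure x.2))
    (DRep.id'.pair DRep.nil') (Rep.iterPow (α := XR) (β := NR) 20 walkF_rep)

/-- The test: the node has the length of the list of columns. -/
def topT (S : ℕ) (x : XR) (v : NR) : ℤ :=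
  if 0 < csub S (cadd S ((v.take S).length : ℤ) 1) ((x.2.take S).length : ℤ) then
    (if 0 < csub S (cadd S ((x.2.take S).length : ℤ) 1) ((v.take S).length : ℤ) then 1 else 0)
  else 0

/-- The test: the node is the root. -/
def rootT (v : NR) : ℤ :=
  match v with
  | [] => 1
  | _ :: _ => 0

/-- The update of the counters. -/
def countF (S : ℕ) (x : XR) (p : CR) (v : NR) : CR :=
  (cadd S p.1 (topT S x v), cadd S p.2 (rootT v))

/-- One more run and the update of the counters. -/
noncomputable def stepRun (S : ℕ) (y : XR × CR) : PMF CR :=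
  (oneRun S y.1).bind fun v => PMF.pure (countF S y.1 y.2 v)

theorem topT_rep {α : Type} [Enc α] {fx : ℕ → α → XR} {fv : ℕ → α → NR} (hx : DRep fx) (hv : DRep fv) :
    DRep fun S a => topT S (fx S a) (fv S a) := by
  have h1 := DRep.lengthS hv
  have h2 := DRep.lengthS (hx.comp DRep.snd)
  exact ((h1.add DRep.one).sub h2).ite (((h2.add DRep.one).sub h1).ite DRep.one DRep.zero) DRep.zero

theorem rootT_rep {α : Type} [Enc α] {fv : ℕ → α → NR} (hv : DRep fv) :
    DRep fun S a => rootT (fv S a) := by
  have h := DRep.caseList (l := fv) (f := fun _ _ => (1 : ℤ)) (g := fun _ _ => (0 : ℤ)) hv DRep.one DRep.zero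
  refine h.congr fun S a => ?_
  cases fv S a <;> rfl

theorem stepRun_rep : Rep stepRun := by
  have h0 : Rep (α := XR × CR) (β := NR) fun S y => oneRun S y.1 :=
    CoinAux.comp_of_drep (h := fun _ (y : XR × CR) => y.1) DRep.fst oneRun_rep
  have hx : DRep (α := (XR × CR) × NR) (β := XR) fun _ y => y.1.1 := DRep.fst.comp DRep.fst
  have hp : DRep (α := (XR × CR) × NR) (β := CR) fun _ y => y.1.2 := DRep.fst.comp DRep.snd
  have hv : DRep (α := (XR × CR) × NR) (β := NR) fun _ y => y.2 := DRep.snd
  have h1 : DRep (α := (XR × CR) × NR) (β := CR) fun S y => countF S y.1.1 y.1.2 y.2 :=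
    ((hp.comp DRep.fst).add (topT_rep hx hv)).pair ((hp.comp DRep.snd).add (rootT_rep hv))
  exact Rep.bind h0 (Rep.ofD h1)

end RunAux

open RunAux

/-- The runs of the walk: input `(r, cl)`, output `(leaves, roots)`. -/
noncomputable def runF (S : ℕ) (x : List ℤ × List ℤ) : PMF (ℤ × ℤ) :=
  (fun μ : PMF CR => μ.bind fun s => stepRun S (x, s))^[S ^ 3] (PMF.pure (0, 0))

theorem runF_rep : Rep runF :=
  CoinAux.comp_of_drep (h := fun _ (x : XR) => (x, ((0, 0) : CR)))
    (g := fun S (x : XR × CR) => (fun μ : PMF CR => μ.bind fun s => stepRun S (x.1, s))^[S ^ 3] (PMF.pure x.2))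
    (DRep.id'.pair (DRep.zero.pair DRep.zero)) (Rep.iterPow (α := XR) (β := CR) 3 stepRun_rep)

/-- The kernel of the walk on the nodes. -/
noncomputable def qF (S : ℕ) (r : Fin m → ℕ) (cl : List ℕ) (v w : List (Fin m → ℕ)) : ℝ :=
  (walkF S ((lN r, lL cl), lV v) (lV w)).toReal

theorem lV_injective : Function.Injective (lV (m := m)) :=
  StepAux.lV_inj

namespace RunAux

/-- The law of a chain which stays in the image of the nodes. -/
theorem iter_law {X A : Type} [DecidableEq X] (e : List X → A) (he : Function.Injective e)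
    (V : Finset (List X)) (h0 : [] ∈ V) (K : A → PMF A)
    (hsup : ∀ v ∈ V, ∀ u, K (e v) u ≠ 0 → ∃ w ∈ V, u = e w) (T : ℕ) :
    (∀ w ∈ V, ((fun μ : PMF A => μ.bind K)^[T] (PMF.pure (e []))) (e w)
        = ENNReal.ofReal (lawT V (fun v w => (K (e v) (e w)).toReal) T w)) ∧
      (∀ u, (∀ w ∈ V, u ≠ e w) → ((fun μ : PMF A => μ.bind K)^[T] (PMF.pure (e []))) u = 0) := by
  classical
  have hP : ∀ v ∈ V, ∀ w, 0 ≤ (fun v w => (K (e v) (e w)).toReal : List X → List X → ℝ) v w :=
    fun _ _ _ => ENNReal.toReal_nonneg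
  induction T with
  | zero =>
    constructor
    · intro w _
      simp only [Function.iterate_zero, id, lawT, PMF.pure_apply]
      by_cases hw : w = []
      · subst hw; simp
      · rw [if_neg (fun h => hw (he h)), if_neg hw]; simp
    · intro u hu
      simp only [Function.iterate_zero, id, PMF.pure_apply]
      rw [if_neg (hu [] h0)]
  | succ T ih =>
    obtain ⟨ih1, ih2⟩ := ih
    rw [Function.iterate_succ_apply']
    set μ := (fun μ : PMF A => μ.bind K)^[T] (PMF.pure (e [])) with hμ
    have hsum : ∀ u, (μ.bind K) u = ∑ v ∈ V, μ (e v) * K (e v) u := by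
      intro u
      rw [PMF.bind_apply, tsum_eq_sum (s := V.image e), Finset.sum_image (fun a _ b _ h => he h)]
      intro a ha
      have : μ a = 0 := ih2 a fun w hw h => ha (Finset.mem_image.2 ⟨w, hw, h.symm⟩)
      rw [this, zero_mul]
    constructor
    · intro w _
      show (μ.bind K) (e w) = _
      rw [hsum]
      simp only [lawT]
      rw [ENNReal.ofReal_sum_of_nonneg fun v hv => mul_nonneg (lawT_nonneg hP T v) ENNReal.toReal_nonneg]
      refine Finset.sum_congr rfl fun v hv => ?_
      rw [ih1 v hv, ENNReal.ofReal_mul (lawT_nonneg hP T v), ENNReal.ofReal_toReal (PMF.apply_ne_top _ _)]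
    · intro u hu
      show (μ.bind K) u = 0
      rw [hsum]
      refine Finset.sum_eq_zero fun v hv => ?_
      have : K (e v) u = 0 := by
        by_contra hne
        obtain ⟨w, hw, hwu⟩ := hsup v hv u hne
        exact hu w hw hwu
      rw [this, mul_zero]

open AnnealAux in
open scoped Classical in
/-- The law of a function of independent samples which live on the image of the nodes. -/
theorem runLaw_outer {X A σ : Type} (e : List X → A) (he : Function.Injective e)
    (V : Finset (List X)) (μ : PMF A) (ρ : List X → ℝ) (hρ : ∀ v ∈ V, 0 ≤ ρ v)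
    (h1 : ∀ w ∈ V, μ (e w) = ENNReal.ofReal (ρ w)) (h2 : ∀ u, (∀ w ∈ V, u ≠ e w) → μ u = 0)
    (g : σ → A → σ) (s0 : σ) (R : ℕ) (Z : Set σ) :
    (runLaw (fun _ => μ) (fun _ => g) s0 R).toOuterMeasure Z
      = ENNReal.ofReal (∑ ω ∈ Fintype.piFinset (fun _ : Fin R => V), (∏ i, ρ (ω i)) *
          if foldU (fun _ => g) s0 R (fun i => e (ω i)) ∈ Z then 1 else 0) := by
  rw [runLaw_eq_map, PMF.toOuterMeasure_map_apply, PMF.toOuterMeasure_apply]
  set E : (Fin R → List X) → (Fin R → A) := fun ω i => e (ω i) with hE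
  have hEinj : Function.Injective E := by
    intro a b h
    funext i
    exact he (congrFun h i)
  rw [tsum_eq_sum (s := (Fintype.piFinset (fun _ : Fin R => V)).image E),
    Finset.sum_image (fun a _ b _ h => hEinj h)]
  · rw [ENNReal.ofReal_sum_of_nonneg]
    · refine Finset.sum_congr rfl fun ω hω => ?_
      have hω' := Fintype.mem_piFinset.1 hω
      have hval : piP (fun _ => μ) R (E ω) = ENNReal.ofReal (∏ i, ρ (ω i)) := by
        rw [piP_apply, ENNReal.ofReal_prod_of_nonneg fun i _ => hρ _ (hω' i)]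
        exact Finset.prod_congr rfl fun i _ => h1 _ (hω' i)
      by_cases hZ : foldU (fun _ => g) s0 R (E ω) ∈ Z
      · rw [Set.indicator_of_mem (show E ω ∈ foldU (fun _ => g) s0 R ⁻¹' Z from hZ), hval, if_pos hZ, mul_one]
      · rw [Set.indicator_of_notMem (show E ω ∉ foldU (fun _ => g) s0 R ⁻¹' Z from hZ), if_neg hZ]
        simp
    · intro ω hω
      have hω' := Fintype.mem_piFinset.1 hω
      refine mul_nonneg (Finset.prod_nonneg fun i _ => hρ _ (hω' i)) ?_
      split_ifs <;> norm_num
  · intro ω' hω'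
    have hex : ∃ t, ∀ w ∈ V, ω' t ≠ e w := by
      by_contra hn
      push Not at hn
      choose! f hf1 hf2 using hn
      apply hω'
      refine Finset.mem_image.2 ⟨f, Fintype.mem_piFinset.2 (fun t => ?_), ?_⟩
      · exact hf1 t
      · funext t
        exact (hf2 t).symm
    obtain ⟨t, ht⟩ := hex
    have h0 : piP (fun _ => μ) R ω' = 0 := by
      rw [piP_apply]
      exact Finset.prod_eq_zero (Finset.mem_univ t) (h2 _ ht)
    by_cases hZ : ω' ∈ foldU (fun _ => g) s0 R ⁻¹' Z
    · rw [Set.indicator_of_mem hZ, h0]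
    · rw [Set.indicator_of_notMem hZ]

section Count

variable {X : Type} [DecidableEq X]

theorem countIn_succ (G : Finset (List X)) {T : ℕ} (ω : Fin (T + 1) → List X) :
    countIn G ω = countIn G (Fin.init ω) + (if ω (Fin.last T) ∈ G then 1 else 0) := by
  unfold countIn
  rw [Finset.card_filter, Finset.card_filter, Fin.sum_univ_castSucc]
  rfl

theorem countIn_le (G : Finset (List X)) {T : ℕ} (ω : Fin T → List X) : countIn G ω ≤ T := by
  unfold countIn
  refine (Finset.card_le_univ _).trans ?_
  simp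

end Count

theorem word_big {S : ℕ} (hS : 1000000 ≤ S) : ((S : ℤ) ^ 3 + 1) ≤ 2 ^ wid S := by
  have h1 : S ^ 3 + 1 ≤ S ^ 6 := by
    have h2 : S ^ 6 = S ^ 3 * S ^ 3 := by ring
    have h3 : 2 ≤ S ^ 3 := by
      calc 2 ≤ S := by omega
        _ = S ^ 1 := (pow_one S).symm
        _ ≤ S ^ 3 := Nat.pow_le_pow_right (by omega) (by norm_num)
    nlinarith
  have h4 : wid S < 2 ^ wid S := Nat.lt_two_pow_self
  have h5 : S ^ 3 + 1 ≤ 2 ^ wid S := by
    unfold wid at h4 ⊢
    omega
  exact_mod_cast h5

theorem cadd_nat {S : ℕ} (hS : 1000000 ≤ S) {a b : ℕ} (hab : a + b ≤ S ^ 3 + 1) :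
    cadd S (a : ℤ) (b : ℤ) = ((a + b : ℕ) : ℤ) := by
  have hw := word_big hS
  have hab' : (a : ℤ) + b ≤ (S : ℤ) ^ 3 + 1 := by exact_mod_cast hab
  have ha : (0 : ℤ) ≤ a := Int.natCast_nonneg a
  have hb : (0 : ℤ) ≤ b := Int.natCast_nonneg b
  have hp : (0 : ℤ) < 2 ^ wid S := two_pow_wid_pos S
  unfold cadd
  rw [clamp_of_mem S (z := (a : ℤ)) (by linarith) (by linarith),
    clamp_of_mem S (z := (b : ℤ)) (by linarith) (by linarith),
    clamp_of_mem S (z := (a : ℤ) + b) (by linarith) (by linarith)]
  push_cast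
  rfl

/-- The test on small lengths. -/
theorem topT_eq {S : ℕ} (hS : 1000000 ≤ S) (x : XR) (v : NR) (hv : v.length ≤ S) (hx : x.2.length ≤ S) :
    topT S x v = if v.length = x.2.length then 1 else 0 := by
  have hS3 : (S : ℤ) ≤ (S : ℤ) ^ 3 := by
    have : S ≤ S ^ 3 := by
      calc S = S ^ 1 := (pow_one S).symm
        _ ≤ S ^ 3 := Nat.pow_le_pow_right (by omega) (by norm_num)
    exact_mod_cast this
  have hw := word_big hS
  have hp : (0 : ℤ) < 2 ^ wid S := two_pow_wid_pos S
  have hS0 : (0 : ℤ) ≤ (S : ℤ) := Int.natCast_nonneg S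
  have e1 : (v.take S).length = v.length := by rw [List.take_of_length_le hv]
  have e2 : (x.2.take S).length = x.2.length := by rw [List.take_of_length_le hx]
  have hv' : (v.length : ℤ) ≤ S := by exact_mod_cast hv
  have hx' : (x.2.length : ℤ) ≤ S := by exact_mod_cast hx
  have hv0 : (0 : ℤ) ≤ (v.length : ℤ) := Int.natCast_nonneg _
  have hx0 : (0 : ℤ) ≤ (x.2.length : ℤ) := Int.natCast_nonneg _
  have ha : ∀ a b : ℤ, 0 ≤ a → a ≤ S → 0 ≤ b → b ≤ S → csub S (cadd S a 1) b = a + 1 - b := by
    intro a b ha0 ha1 hb0 hb1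
    unfold csub cadd
    rw [clamp_of_mem S (z := a) (by linarith) (by linarith),
      clamp_of_mem S (z := (1 : ℤ)) (by linarith) (by nlinarith),
      clamp_of_mem S (z := a + 1) (by linarith) (by linarith),
      clamp_of_mem S (z := a + 1) (by linarith) (by linarith),
      clamp_of_mem S (z := b) (by linarith) (by linarith),
      clamp_of_mem S (z := a + 1 - b) (by linarith) (by linarith)]
  unfold topT
  rw [e1, e2, ha _ _ hv0 hv' hx0 hx', ha _ _ hx0 hx' hv0 hv']
  by_cases h : v.length = x.2.length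
  · rw [if_pos h, h]
    simp
  · rw [if_neg h]
    have hne : (v.length : ℤ) ≠ x.2.length := by exact_mod_cast h
    by_cases h1 : (0 : ℤ) < (v.length : ℤ) + 1 - x.2.length
    · rw [if_pos h1, if_neg (by omega)]
    · rw [if_neg h1]

end RunAux

variable {S : ℕ} {r : Fin m → ℕ} {cl : List ℕ}

theorem qF_nonneg (v w : List (Fin m → ℕ)) : 0 ≤ qF S r cl v w := ENNReal.toReal_nonneg

/-- The kernel is stochastic on the nodes. -/
theorem qF_sum {v : List (Fin m → ℕ)}
    (hsup : ∀ u, walkF S ((lN r, lL cl), lV v) u ≠ 0 → ∃ w ∈ nodes (kids r cl) cl.length, u = lV w) :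
    ∑ w ∈ nodes (kids r cl) cl.length, qF S r cl v w = 1 := by
  classical
  set V := nodes (kids r cl) cl.length with hV
  set K := walkF S ((lN r, lL cl), lV v) with hK
  have h1 : ∑' u, K u = 1 := K.tsum_coe
  rw [tsum_eq_sum (s := V.image lV), Finset.sum_image (fun a _ b _ h => lV_injective h)] at h1
  · have h2 : (∑ w ∈ V, K (lV w)).toReal = 1 := by rw [h1]; simp
    rw [ENNReal.toReal_sum (fun _ _ => PMF.apply_ne_top _ _)] at h2
    exact h2
  · intro u hu
    by_contra hne
    obtain ⟨w, hw, hwu⟩ := hsup u hne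
    exact hu (Finset.mem_image.2 ⟨w, hw, hwu.symm⟩)

namespace RunAux

/-- The counters after some runs, from the samples. -/
theorem foldU_count {S : ℕ} (hS : 1000000 ≤ S) (hlen : cl.length ≤ S) {r : Fin m → ℕ} (T : ℕ) (hT : T ≤ S ^ 3)
    (ω : Fin T → List (Fin m → ℕ)) (hω : ∀ i, ω i ∈ nodes (kids r cl) cl.length) :
    AnnealAux.foldU (fun _ => countF S (lN r, lL cl)) ((0, 0) : CR) T (fun i => lV (ω i))
      = ((countIn (lvl (kids r cl) cl.length) ω : ℤ), (countIn {[]} ω : ℤ)) := by
  induction T with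
  | zero =>
    simp [AnnealAux.foldU, countIn]
  | succ T ih =>
    have hT' : T ≤ S ^ 3 := by omega
    have h1 := ih hT' (Fin.init ω) (fun i => hω _)
    have e : AnnealAux.foldU (fun _ => countF S (lN r, lL cl)) ((0, 0) : CR) (T + 1) (fun i => lV (ω i))
        = countF S (lN r, lL cl) (AnnealAux.foldU (fun _ => countF S (lN r, lL cl)) ((0, 0) : CR) T
            (fun i => lV (Fin.init ω i))) (lV (ω (Fin.last T))) := rfl
    rw [e, h1, countIn_succ, countIn_succ]
    set w := ω (Fin.last T) with hw
    have hwV : w ∈ nodes (kids r cl) cl.length := hω _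
    have hwl : w.length ≤ cl.length := length_le_of_mem_nodes hwV
    have hlV : (lV w).length = w.length := by simp [lV]
    have hcl : (lL cl).length = cl.length := by simp [lL]
    have htop : topT S (lN r, lL cl) (lV w)
        = ((if w ∈ lvl (kids r cl) cl.length then 1 else 0 : ℕ) : ℤ) := by
      rw [topT_eq hS _ _ (by rw [hlV]; omega) (by simpa [hcl] using hlen)]
      by_cases hw2 : w.length = cl.length
      · have : w ∈ lvl (kids r cl) cl.length := by
          have := (mem_nodes.1 hwV).2
          rwa [hw2] at this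
        rw [if_pos (by simpa [hlV, hcl] using hw2), if_pos this]
        rfl
      · have : w ∉ lvl (kids r cl) cl.length := fun h => hw2 (mem_lvl_length h)
        rw [if_neg (by simpa [hlV, hcl] using hw2), if_neg this]
        rfl
    have hroot : rootT (lV w) = ((if w ∈ ({[]} : Finset (List (Fin m → ℕ))) then 1 else 0 : ℕ) : ℤ) := by
      cases w with
      | nil => simp [lV, rootT]
      | cons a t => simp [lV, rootT]
    have hc1 := countIn_le (lvl (kids r cl) cl.length) (Fin.init ω)
    have hc2 := countIn_le ({[]} : Finset (List (Fin m → ℕ))) (Fin.init ω)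
    unfold countF
    simp only [htop, hroot]
    rw [cadd_nat hS (by split_ifs <;> omega), cadd_nat hS (by split_ifs <;> omega)]

end RunAux

open Classical in
/-- **The law of the counts.** -/
theorem runF_law (_hm : 0 < m) (hS : 1000000 ≤ S) (hlen : cl.length ≤ S)
    (hsup : ∀ v ∈ nodes (kids r cl) cl.length, ∀ u, walkF S ((lN r, lL cl), lV v) u ≠ 0 →
      ∃ w ∈ nodes (kids r cl) cl.length, u = lV w) (E : ℕ → ℕ → Prop) :
    (runF S (lN r, lL cl)).toOuterMeasure {p | ∃ a b : ℕ, p = ((a : ℤ), (b : ℤ)) ∧ E a b}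
      = ENNReal.ofReal (runProb (nodes (kids r cl) cl.length)
          (lawT (nodes (kids r cl) cl.length) (qF S r cl) (S ^ 20)) (S ^ 3) fun ω =>
            E (countIn (lvl (kids r cl) cl.length) ω) (countIn {[]} ω)) := by
  set V := nodes (kids r cl) cl.length with hV
  set x : XR := (lN r, lL cl) with hx
  have h0 : ([] : List (Fin m → ℕ)) ∈ V := nil_mem_nodes
  have hchain := iter_law (lV (m := m)) lV_injective V h0 (fun s => walkF S (x, s)) hsup (S ^ 20)
  have hrun : runF S x = AnnealAux.runLaw (fun _ => oneRun S x) (fun _ => countF S x) (0, 0) (S ^ 3) :=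
    AnnealAux.iterate_eq_runLaw (oneRun S x) (countF S x) (0, 0) (S ^ 3)
  have hQ0 : ∀ v ∈ V, ∀ w, 0 ≤ qF S r cl v w := fun _ _ w => qF_nonneg _ w
  rw [hrun, runLaw_outer (lV (m := m)) lV_injective V (oneRun S x)
    (lawT V (qF S r cl) (S ^ 20)) (fun v _ => lawT_nonneg hQ0 _ v) hchain.1 hchain.2]
  congr 1
  unfold runProb
  refine Finset.sum_congr rfl fun ω hω => ?_
  have hω' := Fintype.mem_piFinset.1 hω
  rw [foldU_count hS hlen _ le_rfl ω hω']
  congr 1
  have hiff : (((countIn (lvl (kids r cl) cl.length) ω : ℤ), (countIn {[]} ω : ℤ)) ∈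
      {p : ℤ × ℤ | ∃ a b : ℕ, p = ((a : ℤ), (b : ℤ)) ∧ E a b})
      ↔ E (countIn (lvl (kids r cl) cl.length) ω) (countIn {[]} ω) := by
    constructor
    · rintro ⟨a, b, hab, hE⟩
      have h1 : (countIn (lvl (kids r cl) cl.length) ω : ℤ) = a := congrArg Prod.fst hab
      have h2 : (countIn {[]} ω : ℤ) = b := congrArg Prod.snd hab
      have h3 : countIn (lvl (kids r cl) cl.length) ω = a := by exact_mod_cast h1
      have h4 : countIn {[]} ω = b := by exact_mod_cast h2
      rw [h3, h4]
      exact hE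
    · intro hE
      exact ⟨_, _, rfl, hE⟩
  by_cases hE : E (countIn (lvl (kids r cl) cl.length) ω) (countIn {[]} ω)
  · rw [if_pos (hiff.2 hE), if_pos hE]
  · rw [if_neg (fun h => hE (hiff.1 h)), if_neg hE]

end Vale.Agent.Lib.P328.Bit
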