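import Vale.Agent.Lib.P328.Bit.LogFact
import Vale.Agent.Lib.P328.Bit.Coin

/-!
# P328, bit model: the binomial sampler (module SAMP)

`binF S (R, a, b)`: `a` is close to `p` and `b` close to `1 - p`, output a draw from the binomial law, or `-1` if no draw was accepted.
With `lp = flog a`, `lq = flog b`, `σ = fsqrt (R a b)`, the window has `2 ^ e` integers, where `2 ^ e` is the first power of two with `2 ^ e ≥ 4 * S ^ 14 * (⌈σ⌉ + 1)`, centred at `C = ⌊R a⌋`. (The powers of two in a loop of `S` rounds; `R ≤ 2 ^ S` so `σ ≤ 2 ^ S`, `e ≤ 2 S`.)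
One try: `U = bitsF S`, `v = C - 2 ^ (e - 1) + (U mod 2 ^ e)`. If `v < 0` or `v > R`: no. Otherwise accept with the coin `coinExpF (lbwF R v lp lq - log (Ũ))` where `Ũ = 2 min 1 (1/σ)`: i.e. `L = lbwF + log (max 1 σ) - log 2`.
`S ^ 16` tries (`Rep.iterPow`, state: the accepted value or `-1`), the first accepted value is returned.

Proof. `bw_sqrt_le`: `bw R p v * sqrt (R p (1 - p)) ≤ 1`, `bw ≤ 1`, so `bw v ≤ min 1 (1/σ_true)`. With `ρ(v)` the acceptance probability, `lbwF_spec` gives `|ρ v - bw v / Ũ_true| ≤ (8/S^42) bw v / Ũ_true + tiny` where `Ũ_true = 2 min 1 (1/σ_true)`: all of `σ - σ_true` are tiny (compare `coinExpF_spec` and the errors of `fsqrt`, `flog`) and `ρ v` is not truncated.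
Put `s = 2 ^ (-e) Σ_v ρ v` the success probability of one try. `binF v = (1 - (1 - s)^T) ρ v / Σ ρ` for `v` in the window, `0 ≤ v ≤ R`. (Geometric series: `T` tries.)
`Σ_{v in window} bw v ≥ 1 - 1/S^28`: by Chebyshev, or use `bw_tail` of `Vale/Agent/Lib/P328/RAM/BinTail.lean`: variance `σ²`, the window has radius at least `S^14 (σ + 1)`; `C` is within `1` of `R p`.
So `s ≥ 2 ^ (-e) (1/2) / Ũ ≥ 1 / (64 S^14)`: `2 ^ e ≤ 8 S^14 (σ + 2)`, `Ũ ≤ 2 min 1 (1/σ)`, so `2 ^ e Ũ ≤ 32 S^14` hmm up to a constant. `(1 - s)^T ≤ exp (-S)` for `T = S^16`.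
Total: `Σ_v |binF v - bw v| ≤ exp (-S) + 1/S^28 + 16/S^42 + tiny ≤ 1/S^26`.

The support statement needs nothing of the above.
-/

namespace Vale.Agent.Lib.P328.Bit

open Finset Vale.Agent.Lib.P328.Cap

namespace SampAux

/-- The word two. -/
def two (S : ℕ) : ℤ := cadd S 1 1

/-- The computed standard deviation. -/
def sigF (S : ℕ) (x : ℤ × ℤ × ℤ) : ℤ := fsqrt S (fmul S (fmul S (fint S x.1) x.2.1) x.2.2)

/-- The larger of one and a fixed point number. -/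
def maxOneF (S : ℕ) (z : ℤ) : ℤ := if 0 < csub S z (fone S) then z else fone S

/-- The logarithm of half of the larger of one and the standard deviation. -/
def logUpF (S : ℕ) (x : ℤ × ℤ × ℤ) : ℤ :=
  csub S (flog S (maxOneF S (sigF S x))) (flog S (fint S (two S)))

/-- The lower bound for the size of the window. -/
def winY (S : ℕ) (x : ℤ × ℤ × ℤ) : ℤ :=
  cmul S (cmul S (cadd S (two S) (two S)) (clamp S ((S : ℤ) ^ 14)))
    (cadd S (ffloor S (sigF S x)) (two S))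

/-- One doubling. -/
def dblStep (S : ℕ) (y : ℤ × ℤ) : ℤ := if 0 < csub S y.1 y.2 then cadd S y.2 y.2 else y.2

/-- The size of the window, a power of two. -/
def winW (S : ℕ) (x : ℤ × ℤ × ℤ) : ℤ := (fun w => dblStep S (winY S x, w))^[S ^ 2] 1

/-- The centre of the window. -/
def centerF (S : ℕ) (x : ℤ × ℤ × ℤ) : ℤ := ffloor S (fmul S (fint S x.1) x.2.1)

/-- The candidate from the random number `U`. -/
def candF (S : ℕ) (y : (ℤ × ℤ × ℤ) × ℤ) : ℤ :=
  cadd S (csub S (centerF S y.1) (cdiv S (winW S y.1) (two S)))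
    (csub S y.2 (cmul S (winW S y.1) (cdiv S y.2 (winW S y.1))))

/-- The logarithm of the probability of acceptance of the candidate. -/
noncomputable def acceptL (S : ℕ) (y : (ℤ × ℤ × ℤ) × ℤ) : ℤ :=
  cadd S (lbwF S y.1.1 (candF S y) (flog S y.1.2.1) (flog S y.1.2.2)) (logUpF S y.1)

/-- One try, given the input and the random number. -/
noncomputable def tryU (S : ℕ) (y : (ℤ × ℤ × ℤ) × ℤ) : PMF ℤ :=
  if 0 < cadd S (candF S y) 1 then
    if 0 < csub S (cadd S y.1.1 1) (candF S y) then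
      (coinExpF S (acceptL S y)).bind fun e => PMF.pure (if 0 < e then candF S y else -1)
    else PMF.pure (-1)
  else PMF.pure (-1)

/-- One try. -/
noncomputable def tryF (S : ℕ) (x : ℤ × ℤ × ℤ) : PMF ℤ :=
  (bitsF S).bind fun U => tryU S (x, U)

/-- One round: the state is the value found, or `-1`. -/
noncomputable def stepF (S : ℕ) (y : (ℤ × ℤ × ℤ) × ℤ) : PMF ℤ :=
  if 0 < cadd S y.2 1 then PMF.pure y.2 else tryF S y.1

end SampAux

open SampAux

/-- The binomial sampler; input `(R, a, b)`. -/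
noncomputable def binF (S : ℕ) (x : ℤ × ℤ × ℤ) : PMF ℤ :=
  (fun μ : PMF ℤ => μ.bind fun s => stepF S (x, s))^[S ^ 16] (PMF.pure (-1))

namespace SampAux

variable {α : Type} [Enc α]

theorem negOne_eq (S : ℕ) : csub S 0 1 = -1 := by
  have h0 : (1 : ℤ) ≤ 2 ^ wid S := one_le_pow₀ (by norm_num)
  have h1 : clamp S 0 = 0 := by
    simp only [clamp]
    rw [min_eq_left (by linarith), max_eq_right (by linarith)]
  have h2 : clamp S 1 = 1 := by
    simp only [clamp]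
    rw [min_eq_left h0, max_eq_right (by linarith)]
  have h3 : clamp S (-1) = -1 := by
    simp only [clamp]
    rw [min_eq_left (by linarith), max_eq_right (by linarith)]
  unfold csub
  rw [h1, h2]
  norm_num
  exact h3

theorem negOne_rep : DRep (α := α) (β := ℤ) fun _ _ => -1 := by
  have h := (DRep.zero (α := α)).sub (DRep.one (α := α))
  have e : (fun S (_ : α) => csub S 0 1) = fun _ _ => -1 := by
    funext S _
    exact negOne_eq S
  rwa [e] at h

theorem two_rep : DRep (α := α) (β := ℤ) fun S _ => two S := DRep.one.add DRep.one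

theorem sigF_rep : DRep (β := ℤ) fun S (x : ℤ × ℤ × ℤ) => sigF S x :=
  fsqrt_rep (fmul_rep (fmul_rep (fint_rep DRep.fst) (DRep.snd.comp DRep.fst))
    (DRep.snd.comp DRep.snd))

theorem maxOneF_rep {f : ℕ → α → ℤ} (hf : DRep f) : DRep fun S x => maxOneF S (f S x) :=
  (hf.sub fone_rep).ite hf fone_rep

theorem logUpF_rep : DRep (β := ℤ) fun S (x : ℤ × ℤ × ℤ) => logUpF S x :=
  (flog_rep (maxOneF_rep sigF_rep)).sub (flog_rep (fint_rep two_rep))

theorem winY_rep : DRep (β := ℤ) fun S (x : ℤ × ℤ × ℤ) => winY S x :=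
  ((two_rep.add two_rep).mul (spow_rep 14)).mul ((ffloor_rep sigF_rep).add two_rep)

theorem dblStep_rep : DRep (β := ℤ) fun S (y : ℤ × ℤ) => dblStep S y :=
  (DRep.fst.sub DRep.snd).ite (DRep.snd.add DRep.snd) DRep.snd

theorem winW_rep : DRep (β := ℤ) fun S (x : ℤ × ℤ × ℤ) => winW S x := by
  have h := DRep.iterPow (α := ℤ) (β := ℤ) 2 dblStep_rep
  have h2 : DRep (β := ℤ × ℤ) fun S (x : ℤ × ℤ × ℤ) => (winY S x, (1 : ℤ)) :=
    winY_rep.pair DRep.one
  exact h2.comp h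

theorem centerF_rep : DRep (β := ℤ) fun S (x : ℤ × ℤ × ℤ) => centerF S x :=
  ffloor_rep (fmul_rep (fint_rep DRep.fst) (DRep.snd.comp DRep.fst))

theorem candF_rep : DRep (β := ℤ) fun S (y : (ℤ × ℤ × ℤ) × ℤ) => candF S y := by
  have hw : DRep (β := ℤ) fun S (y : (ℤ × ℤ × ℤ) × ℤ) => winW S y.1 := DRep.fst.comp winW_rep
  exact ((DRep.fst.comp centerF_rep).sub (hw.div two_rep)).add
    (DRep.snd.sub (hw.mul (DRep.snd.div hw)))

theorem acceptL_rep : DRep (β := ℤ) fun S (y : (ℤ × ℤ × ℤ) × ℤ) => acceptL S y := by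
  have hR : DRep (β := ℤ) fun S (y : (ℤ × ℤ × ℤ) × ℤ) => y.1.1 := DRep.fst.comp DRep.fst
  have ha : DRep (β := ℤ) fun S (y : (ℤ × ℤ × ℤ) × ℤ) => y.1.2.1 :=
    DRep.fst.comp (DRep.snd.comp DRep.fst)
  have hb : DRep (β := ℤ) fun S (y : (ℤ × ℤ × ℤ) × ℤ) => y.1.2.2 :=
    DRep.fst.comp (DRep.snd.comp DRep.snd)
  exact (lbwF_rep hR candF_rep (flog_rep ha) (flog_rep hb)).add (DRep.fst.comp logUpF_rep)

/-- A randomized function after a deterministic one. -/
theorem rep_after {β γ : Type} [Enc β] [Enc γ] {f : ℕ → α → β} {g : ℕ → β → PMF γ} (hf : DRep f)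
    (hg : Rep g) : Rep fun S x => g S (f S x) := by
  obtain ⟨p, hp⟩ := hf
  obtain ⟨q, hq⟩ := hg
  refine ⟨.comp p q, fun S x => ?_⟩
  show (sem p S (enc x)).bind (sem q S) = _
  rw [hp, PMF.pure_bind, hq]

theorem tryU_rep : Rep fun S (y : (ℤ × ℤ × ℤ) × ℤ) => tryU S y := by
  have hR : DRep (β := ℤ) fun S (y : (ℤ × ℤ × ℤ) × ℤ) => y.1.1 := DRep.fst.comp DRep.fst
  have hcoin : Rep fun S (y : (ℤ × ℤ × ℤ) × ℤ) => coinExpF S (acceptL S y) :=
    rep_after acceptL_rep coinExpF_rep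
  have hcand : DRep (β := ℤ) fun S (z : ((ℤ × ℤ × ℤ) × ℤ) × ℤ) => candF S z.1 :=
    DRep.fst.comp candF_rep
  have hres : Rep fun S (z : ((ℤ × ℤ × ℤ) × ℤ) × ℤ) =>
      PMF.pure (if 0 < z.2 then candF S z.1 else -1) :=
    Rep.ofD (DRep.snd.ite hcand negOne_rep)
  have h1 := Rep.bind hcoin hres
  have h2 : Rep fun S (y : (ℤ × ℤ × ℤ) × ℤ) => (PMF.pure (-1) : PMF ℤ) := Rep.ofD negOne_rep
  exact Rep.ite (candF_rep.add DRep.one) (Rep.ite ((hR.add DRep.one).sub candF_rep) h1 h2) h2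

theorem tryF_rep : Rep fun S (x : ℤ × ℤ × ℤ) => tryF S x :=
  Rep.bind bitsF_rep tryU_rep

theorem stepF_rep : Rep fun S (y : (ℤ × ℤ × ℤ) × ℤ) => stepF S y :=
  Rep.ite (DRep.snd.add DRep.one) (Rep.ofD DRep.snd) (rep_after DRep.fst tryF_rep)

end SampAux

namespace SampAux

/-! ### Saturation -/

theorem two_pow_wid_pos (S : ℕ) : (0 : ℤ) < 2 ^ wid S := by positivity

theorem clamp_pos_iff (S : ℕ) (z : ℤ) : 0 < clamp S z ↔ 0 < z := by
  have h := two_pow_wid_pos S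
  unfold clamp
  constructor
  · intro h1
    by_contra h2
    push Not at h2
    have h3 : min z (2 ^ wid S) ≤ 0 := (min_le_left _ _).trans h2
    have h4 : max (-(2 ^ wid S : ℤ)) (min z (2 ^ wid S)) ≤ 0 := max_le (by linarith) h3
    linarith
  · intro h1
    exact lt_max_of_lt_right (lt_min h1 h)

theorem clamp_nonneg_iff (S : ℕ) (z : ℤ) : 0 ≤ clamp S z ↔ 0 ≤ z := by
  have h := two_pow_wid_pos S
  unfold clamp
  constructor
  · intro h1
    by_contra h2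
    push Not at h2
    have h3 : min z (2 ^ wid S) < 0 := lt_of_le_of_lt (min_le_left _ _) h2
    have h4 : max (-(2 ^ wid S : ℤ)) (min z (2 ^ wid S)) < 0 := max_lt (by linarith) h3
    linarith
  · intro h1
    exact le_max_of_le_right (le_min h1 h.le)

theorem clamp_one (S : ℕ) : clamp S 1 = 1 := by
  have h0 : (1 : ℤ) ≤ 2 ^ wid S := one_le_pow₀ (by norm_num)
  simp only [clamp]
  rw [min_eq_left h0, max_eq_right (by linarith)]

theorem clamp_neg_one (S : ℕ) : clamp S (-1) = -1 := by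
  have h0 : (1 : ℤ) ≤ 2 ^ wid S := one_le_pow₀ (by norm_num)
  simp only [clamp]
  rw [min_eq_left (by linarith), max_eq_right (by linarith)]

theorem clamp_zero (S : ℕ) : clamp S 0 = 0 := by
  have h0 : (1 : ℤ) ≤ 2 ^ wid S := one_le_pow₀ (by norm_num)
  simp only [clamp]
  rw [min_eq_left (by linarith), max_eq_right (by linarith)]

theorem cadd_neg_one (S : ℕ) : cadd S (-1) 1 = 0 := by
  unfold cadd
  rw [clamp_neg_one, clamp_one]
  norm_num
  exact clamp_zero S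

theorem cadd_one_pos {S : ℕ} {s : ℤ} (hs : 0 ≤ s) : 0 < cadd S s 1 := by
  unfold cadd
  rw [clamp_pos_iff, clamp_one]
  have := (clamp_nonneg_iff S s).2 hs
  linarith

theorem of_cadd_one_pos {S : ℕ} {s : ℤ} (h : 0 < cadd S s 1) : 0 ≤ s := by
  unfold cadd at h
  rw [clamp_pos_iff, clamp_one] at h
  rw [← clamp_nonneg_iff S s]
  linarith

theorem two_pow_S_le (S : ℕ) : (2 : ℤ) ^ S ≤ 2 ^ wid S := by
  refine pow_le_pow_right₀ (by norm_num) ?_
  unfold wid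
  exact Nat.le_self_pow (by norm_num) S

/-- The test of the upper end of the range of a candidate. -/
theorem le_of_csub_pos {S : ℕ} {R : ℕ} (hR : R < 2 ^ S) {v : ℤ}
    (h : 0 < csub S (cadd S (R : ℤ) 1) v) : v ≤ R := by
  have h2 := two_pow_S_le S
  have hR' : (R : ℤ) + 1 ≤ 2 ^ S := by exact_mod_cast hR
  have hR0 : (0 : ℤ) ≤ R := Int.natCast_nonneg R
  have hc : ∀ z : ℤ, 0 ≤ z → z ≤ 2 ^ wid S → clamp S z = z := by
    intro z h0 h1
    simp only [clamp]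
    rw [min_eq_left h1, max_eq_right (by linarith [two_pow_wid_pos S])]
  have hc1 : clamp S ((R : ℤ) + 1) = (R : ℤ) + 1 := hc _ (by linarith) (by linarith)
  unfold csub cadd at h
  rw [clamp_pos_iff, hc _ hR0 (by linarith), clamp_one, hc1, hc1] at h
  by_contra hv
  push Not at hv
  have h3 : (R : ℤ) + 1 ≤ clamp S v := by
    unfold clamp
    exact le_max_of_le_right (le_min (by omega) (by linarith))
  linarith

/-! ### The support -/

theorem tryU_support {S : ℕ} {R : ℕ} (hR : R < 2 ^ S) (a b U v : ℤ)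
    (h : tryU S (((R : ℤ), a, b), U) v ≠ 0) : v = -1 ∨ (0 ≤ v ∧ v ≤ R) := by
  unfold tryU at h
  simp only at h
  split_ifs at h with h1 h2
  · rw [PMF.bind_apply] at h
    obtain ⟨e, he⟩ := not_forall.1 (mt ENNReal.tsum_eq_zero.2 h)
    have he2 := right_ne_zero_of_mul he
    have he3 : v = if 0 < e then candF S (((R : ℤ), a, b), U) else -1 := by
      by_contra hne
      exact he2 (by simp [PMF.pure_apply, hne])
    by_cases he4 : 0 < e
    · rw [if_pos he4] at he3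
      right
      rw [he3]
      exact ⟨of_cadd_one_pos h1, le_of_csub_pos hR h2⟩
    · rw [if_neg he4] at he3
      exact Or.inl he3
  · left
    by_contra hne
    exact h (by simp [PMF.pure_apply, hne])
  · left
    by_contra hne
    exact h (by simp [PMF.pure_apply, hne])

theorem tryF_support {S : ℕ} {R : ℕ} (hR : R < 2 ^ S) (a b v : ℤ)
    (h : tryF S ((R : ℤ), a, b) v ≠ 0) : v = -1 ∨ (0 ≤ v ∧ v ≤ R) := by
  unfold tryF at h
  rw [PMF.bind_apply] at h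
  obtain ⟨U, hU⟩ := not_forall.1 (mt ENNReal.tsum_eq_zero.2 h)
  exact tryU_support hR a b U v (right_ne_zero_of_mul hU)

/-- The law of the state after `k` rounds. -/
theorem iter_law {S : ℕ} {x : ℤ × ℤ × ℤ} (hq : ∀ v, tryF S x v ≠ 0 → v = -1 ∨ 0 ≤ v) (k : ℕ) :
    ((fun μ : PMF ℤ => μ.bind fun s => stepF S (x, s))^[k] (PMF.pure (-1))) (-1)
        = (tryF S x (-1)) ^ k
      ∧ (∀ y, 0 ≤ y → ((fun μ : PMF ℤ => μ.bind fun s => stepF S (x, s))^[k] (PMF.pure (-1))) y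
          = tryF S x y * ∑ t ∈ range k, (tryF S x (-1)) ^ t)
      ∧ ∀ s, s < -1 → ((fun μ : PMF ℤ => μ.bind fun s => stepF S (x, s))^[k] (PMF.pure (-1))) s = 0 := by
  classical
  have hstep1 : stepF S (x, -1) = tryF S x := by
    unfold stepF
    simp only
    rw [cadd_neg_one, if_neg (lt_irrefl _)]
  have hstep2 : ∀ s : ℤ, 0 ≤ s → stepF S (x, s) = PMF.pure s := by
    intro s hs
    unfold stepF
    simp only
    rw [if_pos (cadd_one_pos hs)]
  induction k with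
  | zero =>
    refine ⟨by simp, fun y hy => ?_, fun s hs => ?_⟩
    · have : y ≠ -1 := by omega
      simp [PMF.pure_apply, this]
    · have : s ≠ -1 := by omega
      simp [PMF.pure_apply, this]
  | succ k ih =>
    obtain ⟨ih1, ih2, ih3⟩ := ih
    simp only [Function.iterate_succ_apply']
    set μ := (fun μ : PMF ℤ => μ.bind fun s => stepF S (x, s))^[k] (PMF.pure (-1)) with hμ
    refine ⟨?_, fun y hy => ?_, fun s hs => ?_⟩
    · rw [PMF.bind_apply, tsum_eq_single (-1 : ℤ)]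
      · rw [hstep1, ih1, pow_succ]
      · intro s hs
        rcases lt_trichotomy s (-1) with h | h | h
        · rw [ih3 s h, zero_mul]
        · exact absurd h hs
        · rw [hstep2 s (by omega), PMF.pure_apply, if_neg (by omega), mul_zero]
    · have hy1 : y ≠ -1 := by omega
      rw [PMF.bind_apply, tsum_eq_sum (s := {(-1 : ℤ), y})]
      · rw [Finset.sum_pair (Ne.symm hy1), hstep1, hstep2 y hy, ih1, ih2 y hy, PMF.pure_apply, if_pos rfl,
          mul_one, Finset.sum_range_succ, mul_add]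
        ring
      · intro s hs
        simp only [Finset.mem_insert, Finset.mem_singleton, not_or] at hs
        rcases lt_trichotomy s (-1) with h | h | h
        · rw [ih3 s h, zero_mul]
        · exact absurd h hs.1
        · rw [hstep2 s (by omega), PMF.pure_apply, if_neg (Ne.symm hs.2), mul_zero]
    · rw [PMF.bind_apply]
      refine ENNReal.tsum_eq_zero.2 fun s' => ?_
      rcases lt_trichotomy s' (-1) with h | h | h
      · rw [ih3 s' h, zero_mul]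
      · subst h
        rw [hstep1]
        have : tryF S x s = 0 := by
          by_contra hne
          rcases hq s hne with h2 | h2 <;> omega
        rw [this, mul_zero]
      · rw [hstep2 s' (by omega), PMF.pure_apply, if_neg (by omega), mul_zero]

/-! ### One try -/

/-- The logarithm of the probability of acceptance of the value `v`. -/
noncomputable def acceptV (S : ℕ) (x : ℤ × ℤ × ℤ) (v : ℤ) : ℤ :=
  cadd S (lbwF S x.1 v (flog S x.2.1) (flog S x.2.2)) (logUpF S x)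

theorem csub_pos_of_le {S : ℕ} {R : ℕ} (hR : R < 2 ^ S) {v : ℕ} (hv : v ≤ R) :
    0 < csub S (cadd S (R : ℤ) 1) (v : ℤ) := by
  have h2 := two_pow_S_le S
  have hR' : (R : ℤ) + 1 ≤ 2 ^ S := by exact_mod_cast hR
  have hR0 : (0 : ℤ) ≤ R := Int.natCast_nonneg R
  have hv0 : (0 : ℤ) ≤ v := Int.natCast_nonneg v
  have hv' : (v : ℤ) ≤ R := by exact_mod_cast hv
  have hc : ∀ z : ℤ, 0 ≤ z → z ≤ 2 ^ wid S → clamp S z = z := by
    intro z h0 h1
    simp only [clamp]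
    rw [min_eq_left h1, max_eq_right (by linarith [two_pow_wid_pos S])]
  have hc1 : clamp S ((R : ℤ) + 1) = (R : ℤ) + 1 := hc _ (by linarith) (by linarith)
  unfold csub cadd
  rw [clamp_pos_iff, hc _ hR0 (by linarith), clamp_one, hc1, hc1, hc _ hv0 (by linarith)]
  linarith

theorem tryU_eq {S : ℕ} (hS : 1000000 ≤ S) {R : ℕ} (hR : R < 2 ^ S) {a b U : ℤ} {v : ℕ} (hv : v ≤ R)
    (h : candF S (((R : ℤ), a, b), U) = v) :
    tryU S (((R : ℤ), a, b), U) v = coinExpF S (acceptV S ((R : ℤ), a, b) v) 1 := by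
  have hv0 : (0 : ℤ) ≤ v := Int.natCast_nonneg v
  have hL : acceptL S (((R : ℤ), a, b), U) = acceptV S ((R : ℤ), a, b) v := by
    unfold acceptL acceptV
    simp only
    rw [h]
  unfold tryU
  simp only
  rw [h, if_pos (cadd_one_pos hv0), if_pos (csub_pos_of_le hR hv), hL, PMF.bind_apply,
    tsum_eq_single (1 : ℤ)]
  · rw [if_pos (by norm_num), PMF.pure_apply, if_pos rfl, mul_one]
  · intro e he
    by_cases hc : coinExpF S (acceptV S ((R : ℤ), a, b) v) e = 0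
    · rw [hc, zero_mul]
    · rcases coinExpF_support hS _ e hc with h1 | h1
      · subst h1
        rw [if_neg (lt_irrefl _), PMF.pure_apply, if_neg (by omega), mul_zero]
      · exact absurd h1 he

theorem tryU_ne {S : ℕ} {R : ℕ} {a b U : ℤ} {v : ℕ}
    (h : candF S (((R : ℤ), a, b), U) ≠ v) :
    tryU S (((R : ℤ), a, b), U) v = 0 := by
  have hv0 : (0 : ℤ) ≤ v := Int.natCast_nonneg v
  have hn : (v : ℤ) ≠ -1 := by omega
  unfold tryU
  simp only
  split_ifs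
  · rw [PMF.bind_apply]
    refine ENNReal.tsum_eq_zero.2 fun e => ?_
    rw [PMF.pure_apply, if_neg, mul_zero]
    intro h2
    by_cases he : 0 < e
    · rw [if_pos he] at h2
      exact h h2.symm
    · rw [if_neg he] at h2
      exact hn h2
  · rw [PMF.pure_apply, if_neg hn]
  · rw [PMF.pure_apply, if_neg hn]

/-- The residues modulo a power of two are uniform. -/
theorem count_mod {n e : ℕ} (he : e ≤ n) {k : ℤ} (h0 : 0 ≤ k) (h1 : k < 2 ^ e) :
    ((Finset.Ico (0 : ℤ) (2 ^ n)).filter fun U => U % 2 ^ e = k).card = 2 ^ (n - e) := by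
  classical
  have hpe : (0 : ℤ) < 2 ^ e := by positivity
  have hn : (2 : ℤ) ^ n = 2 ^ e * 2 ^ (n - e) := by
    rw [← pow_add]
    congr 1
    omega
  have hset : (Finset.Ico (0 : ℤ) (2 ^ n)).filter (fun U => U % 2 ^ e = k)
      = (range (2 ^ (n - e))).image (fun j : ℕ => k + 2 ^ e * (j : ℤ)) := by
    ext U
    simp only [Finset.mem_filter, Finset.mem_Ico, Finset.mem_image, Finset.mem_range]
    constructor
    · rintro ⟨⟨h2, h3⟩, h4⟩
      have h5 := Int.emod_add_mul_ediv U (2 ^ e)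
      rw [h4] at h5
      have h6 : 0 ≤ U / 2 ^ e := Int.ediv_nonneg h2 hpe.le
      have h7 : U / 2 ^ e < 2 ^ (n - e) := by
        apply Int.ediv_lt_of_lt_mul hpe
        rw [mul_comm]
        rw [← hn]
        exact h3
      refine ⟨(U / 2 ^ e).toNat, ?_, ?_⟩
      · have : ((U / 2 ^ e).toNat : ℤ) < 2 ^ (n - e) := by
          rw [Int.toNat_of_nonneg h6]
          exact h7
        exact_mod_cast this
      · rw [Int.toNat_of_nonneg h6]
        exact h5
    · rintro ⟨j, hj, rfl⟩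
      have hj' : (j : ℤ) + 1 ≤ 2 ^ (n - e) := by exact_mod_cast hj
      have hj0 : (0 : ℤ) ≤ j := Int.natCast_nonneg j
      refine ⟨⟨by positivity, ?_⟩, ?_⟩
      · rw [hn]
        nlinarith
      · rw [Int.add_mul_emod_self_left, Int.emod_eq_of_lt h0 h1]
  rw [hset, Finset.card_image_of_injective, Finset.card_range]
  intro j j' hj
  simp only at hj
  have h2 : (2 : ℤ) ^ e * j = 2 ^ e * j' := by linarith
  have h3 := mul_left_cancel₀ hpe.ne' h2
  exact_mod_cast h3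

/-- **The law of one try.** -/
theorem tryF_toReal {S : ℕ} (hS : 1000000 ≤ S) {R : ℕ} (hR : R < 2 ^ S) {a b D : ℤ} {e : ℕ}
    (he : e ≤ S ^ 2)
    (hcand : ∀ U : ℤ, 0 ≤ U → U < 2 ^ (S ^ 2) → candF S (((R : ℤ), a, b), U) = D + U % 2 ^ e)
    {v : ℕ} (hv : v ≤ R) :
    (tryF S ((R : ℤ), a, b) v).toReal
      = if D ≤ v ∧ (v : ℤ) < D + 2 ^ e then
          (coinExpF S (acceptV S ((R : ℤ), a, b) v) 1).toReal / 2 ^ e else 0 := by
  classical
  set ρ := coinExpF S (acceptV S ((R : ℤ), a, b) v) 1 with hρ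
  have hρtop : ρ ≠ ⊤ := PMF.apply_ne_top _ _
  have h1 : tryF S ((R : ℤ), a, b) v
      = ∑ U ∈ Finset.Ico (0 : ℤ) (2 ^ (S ^ 2)),
        ((2 : ENNReal) ^ (S ^ 2))⁻¹ * (if D + U % 2 ^ e = v then ρ else 0) := by
    unfold tryF
    rw [PMF.bind_apply, tsum_eq_sum (s := Finset.Ico (0 : ℤ) (2 ^ (S ^ 2)))]
    · refine Finset.sum_congr rfl fun U hU => ?_
      obtain ⟨h2, h3⟩ := Finset.mem_Ico.1 hU
      rw [bitsF_apply hS, if_pos ⟨h2, h3⟩]
      have h5 : tryU S (((R : ℤ), a, b), U) v = if D + U % 2 ^ e = v then ρ else 0 := by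
        by_cases h4 : D + U % 2 ^ e = v
        · rw [if_pos h4, hρ]
          exact tryU_eq hS hR hv ((hcand U h2 h3).trans h4)
        · rw [if_neg h4]
          refine tryU_ne ?_
          rw [hcand U h2 h3]
          exact h4
      rw [h5]
    · intro U hU
      have h2 : ¬ (0 ≤ U ∧ U < 2 ^ (S ^ 2)) := fun h3 => hU (Finset.mem_Ico.2 h3)
      rw [bitsF_apply hS, if_neg h2, zero_mul]
  rw [h1, ← Finset.mul_sum, Finset.sum_ite, Finset.sum_const, Finset.sum_const_zero, add_zero,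
    ENNReal.toReal_mul, nsmul_eq_mul, ENNReal.toReal_mul, ENNReal.toReal_natCast, ENNReal.toReal_inv,
    ENNReal.toReal_pow]
  have htw : (2 : ENNReal).toReal = 2 := by norm_num
  rw [htw]
  by_cases hw : D ≤ v ∧ (v : ℤ) < D + 2 ^ e
  · rw [if_pos hw]
    have hset : (Finset.Ico (0 : ℤ) (2 ^ (S ^ 2))).filter (fun U => D + U % 2 ^ e = v)
        = (Finset.Ico (0 : ℤ) (2 ^ (S ^ 2))).filter (fun U => U % 2 ^ e = (v : ℤ) - D) := by
      refine Finset.filter_congr fun U _ => ?_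
      constructor <;> intro h <;> omega
    rw [hset, count_mod he (by omega) (by omega)]
    have hp : (2 : ℝ) ^ (S ^ 2) = 2 ^ e * 2 ^ (S ^ 2 - e) := by
      rw [← pow_add, Nat.add_sub_cancel' (by omega)]
    push_cast
    rw [hp]
    field_simp
  · rw [if_neg hw]
    have hset : (Finset.Ico (0 : ℤ) (2 ^ (S ^ 2))).filter (fun U => D + U % 2 ^ e = v) = ∅ := by
      refine Finset.filter_eq_empty_iff.2 fun U _ h => hw ?_
      have hpe : (0 : ℤ) < 2 ^ e := by positivity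
      have h2 := Int.emod_nonneg U hpe.ne'
      have h3 := Int.emod_lt_of_pos U hpe
      constructor <;> omega
    rw [hset]
    simp

/-- The law of the sampler in terms of the law of a try. -/
theorem binF_toReal {S : ℕ} {R : ℕ} (hR : R < 2 ^ S) (a b : ℤ) {v : ℕ} :
    (binF S ((R : ℤ), a, b) (v : ℤ)).toReal
      = (tryF S ((R : ℤ), a, b) v).toReal
        * ∑ t ∈ range (S ^ 16), ((tryF S ((R : ℤ), a, b) (-1)).toReal) ^ t := by
  have hq := fun v hv => tryF_support (S := S) hR a b v hv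
  have hq2 : ∀ v, tryF S ((R : ℤ), a, b) v ≠ 0 → v = -1 ∨ 0 ≤ v := fun v hv =>
    (hq v hv).imp_right fun h => h.1
  obtain ⟨_, h2, _⟩ := iter_law hq2 (S ^ 16)
  unfold binF
  rw [h2 v (Int.natCast_nonneg v), ENNReal.toReal_mul, ENNReal.toReal_sum]
  · simp only [ENNReal.toReal_pow]
  · intro t _
    exact ENNReal.pow_ne_top (PMF.apply_ne_top _ _)

/-- The total mass of a try. -/
theorem tryF_total {S : ℕ} {R : ℕ} (hR : R < 2 ^ S) (a b : ℤ) :
    (tryF S ((R : ℤ), a, b) (-1)).toReal = 1 - ∑ v ∈ range (R + 1), (tryF S ((R : ℤ), a, b) (v : ℤ)).toReal := by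
  classical
  have hq := fun v hv => tryF_support (S := S) hR a b v hv
  set μ := tryF S ((R : ℤ), a, b) with hμ
  have h1 := PMF.tsum_coe μ
  have hinj : Set.InjOn (fun v : ℕ => (v : ℤ)) (range (R + 1) : Set ℕ) := fun x _ y _ h =>
    Int.ofNat_inj.1 h
  have hnot : (-1 : ℤ) ∉ (range (R + 1)).image (fun v : ℕ => (v : ℤ)) := by
    simp only [Finset.mem_image, not_exists, not_and]
    intro v _
    omega
  rw [tsum_eq_sum (s := insert (-1 : ℤ) ((range (R + 1)).image fun v : ℕ => (v : ℤ)))] at h1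
  · rw [Finset.sum_insert hnot, Finset.sum_image hinj] at h1
    have h2 := congrArg ENNReal.toReal h1
    rw [ENNReal.toReal_add (PMF.apply_ne_top _ _)
      (ENNReal.sum_ne_top.2 fun v _ => PMF.apply_ne_top _ _), ENNReal.toReal_sum
      (fun v _ => PMF.apply_ne_top _ _)] at h2
    simp only [ENNReal.toReal_one] at h2
    linarith
  · intro v hv
    by_contra hne
    rcases hq v hne with h2 | ⟨h2, h3⟩
    · exact hv (by rw [h2]; exact Finset.mem_insert_self _ _)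
    · refine hv (Finset.mem_insert_of_mem (Finset.mem_image.2 ⟨v.toNat, ?_, Int.toNat_of_nonneg h2⟩))
      rw [Finset.mem_range]
      omega

/-! ### The normalisation -/

theorem l1_norm {ι : Type} [DecidableEq ι] {V G : Finset ι} (hG : G ⊆ V) {f g : ι → ℝ}
    (hf : ∀ v ∈ G, 0 ≤ f v) (hg : ∀ v ∈ V, 0 ≤ g v) (hgs : ∑ v ∈ V, g v = 1) {κ : ℝ} (hκ0 : 0 ≤ κ)
    (hκ1 : κ ≤ 1) (hF : 0 < ∑ v ∈ G, f v) :
    ∑ v ∈ V, |(if v ∈ G then κ * f v / ∑ u ∈ G, f u else 0) - g v|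
      ≤ (1 - κ) + 2 * (1 - ∑ v ∈ G, g v) + 2 * ∑ v ∈ G, |f v - g v| := by
  set F := ∑ u ∈ G, f u with hFd
  set B := ∑ v ∈ G, g v with hB
  set A := ∑ v ∈ G, |f v - g v| with hA
  have hsplit := Finset.sum_sdiff (f := fun v => |(if v ∈ G then κ * f v / F else 0) - g v|) hG
  have hout : ∑ v ∈ V \ G, |(if v ∈ G then κ * f v / F else 0) - g v| = 1 - B := by
    have h1 := Finset.sum_sdiff (f := g) hG
    have h2 : ∑ v ∈ V \ G, |(if v ∈ G then κ * f v / F else 0) - g v| = ∑ v ∈ V \ G, g v := by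
      refine Finset.sum_congr rfl fun v hv => ?_
      obtain ⟨hv1, hv2⟩ := Finset.mem_sdiff.1 hv
      rw [if_neg hv2, zero_sub, abs_neg, abs_of_nonneg (hg v hv1)]
    rw [h2]
    linarith
  have hin : ∑ v ∈ G, |(if v ∈ G then κ * f v / F else 0) - g v|
      ≤ ∑ v ∈ G, ((1 - κ) * (f v / F) + f v * |1 / F - 1| + |f v - g v|) := by
    refine Finset.sum_le_sum fun v hv => ?_
    rw [if_pos hv]
    have hfv := hf v hv
    have e : κ * f v / F - g v = -((1 - κ) * (f v / F)) + f v * (1 / F - 1) + (f v - g v) := by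
      field_simp
      ring
    rw [e]
    refine (abs_add_le _ _).trans (add_le_add ((abs_add_le _ _).trans (add_le_add ?_ ?_)) le_rfl)
    · rw [abs_neg, abs_of_nonneg (mul_nonneg (by linarith) (div_nonneg hfv hF.le))]
    · rw [abs_mul, abs_of_nonneg hfv]
  have hsum : ∑ v ∈ G, ((1 - κ) * (f v / F) + f v * |1 / F - 1| + |f v - g v|)
      = (1 - κ) + F * |1 / F - 1| + A := by
    rw [Finset.sum_add_distrib, Finset.sum_add_distrib, ← Finset.mul_sum, ← Finset.sum_div,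
      ← Finset.sum_mul, div_self hF.ne', mul_one]
  have hF2 : F * |1 / F - 1| = |1 - F| := by
    rw [← abs_of_pos hF, ← abs_mul, abs_of_pos hF]
    congr 1
    field_simp
  have hBF : |1 - F| ≤ (1 - B) + A := by
    have h1 : |B - F| ≤ A := by
      rw [hB, hFd, ← Finset.sum_sub_distrib]
      refine (Finset.abs_sum_le_sum_abs _ _).trans (Finset.sum_le_sum fun v _ => ?_)
      rw [abs_sub_comm]
    have h2 : B ≤ 1 := by
      rw [← hgs, hB]
      exact Finset.sum_le_sum_of_subset_of_nonneg hG fun v hv _ => hg v hv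
    have e : 1 - F = (1 - B) + (B - F) := by ring
    rw [e]
    refine (abs_add_le _ _).trans ?_
    rw [abs_of_nonneg (by linarith)]
    linarith
  calc _ = ∑ v ∈ V \ G, |(if v ∈ G then κ * f v / F else 0) - g v|
        + ∑ v ∈ G, |(if v ∈ G then κ * f v / F else 0) - g v| := hsplit.symm
    _ ≤ (1 - B) + ((1 - κ) + F * |1 / F - 1| + A) := by
        rw [hout, ← hsum]
        linarith
    _ ≤ _ := by
        rw [hF2]
        linarith

/-! ### Real analysis -/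

theorem log_diff_le {x y h : ℝ} (hh : 0 < h) (hx : h ≤ x) (hy : h ≤ y) :
    |Real.log x - Real.log y| ≤ |x - y| / h := by
  have hx0 : 0 < x := hh.trans_le hx
  have hy0 : 0 < y := hh.trans_le hy
  have key : ∀ {u v : ℝ}, h ≤ u → h ≤ v → Real.log u - Real.log v ≤ |u - v| / h := by
    intro u v hu hv
    have hu0 : 0 < u := hh.trans_le hu
    have hv0 : 0 < v := hh.trans_le hv
    have h1 := Real.log_le_sub_one_of_pos (div_pos hu0 hv0)
    rw [Real.log_div hu0.ne' hv0.ne'] at h1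
    refine h1.trans ?_
    have e : u / v - 1 = (u - v) / v := by field_simp
    rw [e]
    rcases le_total 0 (u - v) with h2 | h2
    · rw [abs_of_nonneg h2]
      exact div_le_div_of_nonneg_left h2 hh hv
    · have h3 : (u - v) / v ≤ 0 := div_nonpos_of_nonpos_of_nonneg h2 hv0.le
      exact h3.trans (div_nonneg (abs_nonneg _) hh.le)
  rw [abs_le]
  constructor
  · have := key hy hx
    rw [abs_sub_comm] at this
    linarith
  · exact key hx hy

theorem sqrt_diff_le {x y : ℝ} (hx : 0 ≤ x) (hy : 0 ≤ y) : |Real.sqrt x - Real.sqrt y| ≤ Real.sqrt |x - y| := by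
  have key : ∀ {u v : ℝ}, 0 ≤ u → 0 ≤ v → Real.sqrt u - Real.sqrt v ≤ Real.sqrt |u - v| := by
    intro u v hu hv
    have h1 : Real.sqrt u ≤ Real.sqrt v + Real.sqrt |u - v| := by
      rw [Real.sqrt_le_left (by positivity)]
      have h2 := Real.sq_sqrt hv
      have h3 := Real.sq_sqrt (abs_nonneg (u - v))
      have h4 := le_abs_self (u - v)
      nlinarith [Real.sqrt_nonneg v, Real.sqrt_nonneg |u - v|,
        mul_nonneg (Real.sqrt_nonneg v) (Real.sqrt_nonneg |u - v|)]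
    linarith
  rw [abs_le]
  constructor
  · have := key hy hx
    rw [abs_sub_comm] at this
    linarith
  · exact key hx hy

theorem half_pow_le {m n : ℕ} (h : m ≤ n) : (1 / 2 : ℝ) ^ n ≤ (1 / 2 : ℝ) ^ m :=
  pow_le_pow_of_le_one (by norm_num) (by norm_num) h

theorem half_pow_add (m n : ℕ) : (1 / 2 : ℝ) ^ (m + n) = (1 / 2 : ℝ) ^ m * (1 / 2 : ℝ) ^ n := pow_add _ _ _

theorem two_mul_half {n : ℕ} : 2 * (1 / 2 : ℝ) ^ (n + 1) = (1 / 2 : ℝ) ^ n := by
  rw [pow_succ]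
  ring

theorem two_pow_mul_half (n : ℕ) : (2 : ℝ) ^ n * (1 / 2 : ℝ) ^ n = 1 := by
  rw [← mul_pow]
  norm_num

/-- The powers of `S`. -/
theorem spow_facts {S : ℕ} (hS : 1000000 ≤ S) :
    S ^ 3 + 1 ≤ S ^ 5 / 4 ∧ 2 * S ^ 3 + S + 5 ≤ S ^ 4 ∧ S ^ 2 + 5 ≤ S ^ 3 ∧ S ^ 3 + 5 ≤ S ^ 4 ∧ S ^ 4 ≤ S ^ 5
      ∧ S + 5 ≤ S ^ 2 ∧ S ^ 4 ≤ S ^ 6 ∧ 1 ≤ S ^ 3 := by
  have h1 : 1 ≤ S ^ 3 := Nat.one_le_pow _ _ (by omega)
  have h2 : S ^ 2 = S * S := by ring
  have h3 : S ^ 3 = S * S ^ 2 := by ring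
  have h4 : S ^ 4 = S * S ^ 3 := by ring
  have h5 : S ^ 5 = S * S ^ 4 := by ring
  have h6 : S ^ 6 = S * S ^ 5 := by ring
  have hSS : 1000000 * S ≤ S * S := Nat.mul_le_mul_right _ hS
  have hc3 : 1000000 * S ^ 2 ≤ S ^ 3 := by rw [h3]; exact Nat.mul_le_mul_right _ hS
  have hc4 : 1000000 * S ^ 3 ≤ S ^ 4 := by rw [h4]; exact Nat.mul_le_mul_right _ hS
  have hc5 : 1000000 * S ^ 4 ≤ S ^ 5 := by rw [h5]; exact Nat.mul_le_mul_right _ hS
  have hc6 : 1000000 * S ^ 5 ≤ S ^ 6 := by rw [h6]; exact Nat.mul_le_mul_right _ hS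
  refine ⟨?_, ?_, ?_, ?_, ?_, ?_, ?_, h1⟩
  · rw [Nat.le_div_iff_mul_le (by norm_num)]
    omega
  · omega
  · omega
  · omega
  · omega
  · omega
  · omega

/-- The hypotheses of the sampler. -/
structure Good (S R : ℕ) (p : ℝ) (a b : ℤ) : Prop where
  hS : 1000000 ≤ S
  hR : R < 2 ^ S
  hp0 : 2 * (1 / 2 : ℝ) ^ (S ^ 3) ≤ p
  hp1 : 2 * (1 / 2 : ℝ) ^ (S ^ 3) ≤ 1 - p
  ha : |val S a - p| ≤ (1 / 2 : ℝ) ^ (S ^ 4)
  hb : |val S b - (1 - p)| ≤ (1 / 2 : ℝ) ^ (S ^ 4)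

section Good

variable {S R : ℕ} {p : ℝ} {a b : ℤ} (g : Good S R p a b)

include g

theorem Good.tiny : (1 / 2 : ℝ) ^ (S ^ 4) ≤ (1 / 2 : ℝ) ^ (S ^ 3) :=
  half_pow_le (by obtain ⟨_, _, _, h, _⟩ := spow_facts g.hS; omega)

theorem Good.p_pos : 0 < p := by
  have h := g.hp0
  have : (0 : ℝ) < (1 / 2 : ℝ) ^ (S ^ 3) := by positivity
  linarith

theorem Good.p_lt : p < 1 := by
  have h := g.hp1
  have : (0 : ℝ) < (1 / 2 : ℝ) ^ (S ^ 3) := by positivity
  linarith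

theorem Good.val_a : (1 / 2 : ℝ) ^ (S ^ 3) ≤ val S a ∧ val S a ≤ 2 := by
  have h := abs_le.1 g.ha
  have h1 := g.tiny
  have h2 := g.hp0
  have h3 := g.p_lt
  have h4 : (1 / 2 : ℝ) ^ (S ^ 3) ≤ 1 := pow_le_one₀ (by norm_num) (by norm_num)
  constructor <;> linarith

theorem Good.val_b : (1 / 2 : ℝ) ^ (S ^ 3) ≤ val S b ∧ val S b ≤ 2 := by
  have h := abs_le.1 g.hb
  have h1 := g.tiny
  have h2 := g.hp1
  have h3 := g.p_pos
  have h4 : (1 / 2 : ℝ) ^ (S ^ 3) ≤ 1 := pow_le_one₀ (by norm_num) (by norm_num)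
  constructor <;> linarith

theorem Good.two_le_big : (2 : ℝ) ^ (S ^ 3) ≤ Big S := by
  unfold Big
  exact pow_le_pow_right₀ (by norm_num) (by obtain ⟨_, _, _, h, _⟩ := spow_facts g.hS; omega)

/-- The logarithm of a number in the domain of `flog`, from an approximation. -/
theorem Good.log_close {q : ℝ} {w : ℤ} (hq0 : 2 * (1 / 2 : ℝ) ^ (S ^ 3) ≤ q)
    (hw : |val S w - q| ≤ (1 / 2 : ℝ) ^ (S ^ 4)) (hw1 : (1 / 2 : ℝ) ^ (S ^ 3) ≤ val S w)
    (hw2 : val S w ≤ 2) : |val S (flog S w) - Real.log q| ≤ (1 / 2 : ℝ) ^ (S ^ 3) := by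
  obtain ⟨f1, f2, -, -, -, -, -, -⟩ := spow_facts g.hS
  have hS1 : (2 : ℝ) ≤ 2 ^ (S ^ 3) := by
    calc (2 : ℝ) = 2 ^ 1 := by norm_num
      _ ≤ _ := pow_le_pow_right₀ (by norm_num) (Nat.one_le_pow _ _ (by have := g.hS; omega))
  have h1 := flog_spec g.hS hw1 (hw2.trans hS1)
  set h0 : ℝ := (1 / 2 : ℝ) ^ (S ^ 3) with hh0
  have hh0pos : 0 < h0 := by positivity
  have hq1 : h0 ≤ q := by linarith
  have h2 := log_diff_le hh0pos hw1 hq1
  have h3 : |val S w - q| / h0 ≤ (1 / 2 : ℝ) ^ (S ^ 3 + 1) := by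
    rw [div_le_iff₀ hh0pos, hh0, ← pow_add]
    exact hw.trans (half_pow_le (by omega))
  have h4 : (1 / 2 : ℝ) ^ (S ^ 5 / 4) ≤ (1 / 2 : ℝ) ^ (S ^ 3 + 1) := half_pow_le f1
  have h5 : |val S (flog S w) - Real.log q|
      ≤ |val S (flog S w) - Real.log (val S w)| + |Real.log (val S w) - Real.log q| := abs_sub_le _ _ _
  have h6 := two_mul_half (n := S ^ 3)
  linarith

theorem Good.log_a : |val S (flog S a) - Real.log p| ≤ (1 / 2 : ℝ) ^ (S ^ 3) :=
  g.log_close g.hp0 g.ha g.val_a.1 g.val_a.2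

theorem Good.log_b : |val S (flog S b) - Real.log (1 - p)| ≤ (1 / 2 : ℝ) ^ (S ^ 3) :=
  g.log_close g.hp1 g.hb g.val_b.1 g.val_b.2

theorem Good.R_real : (R : ℝ) + 1 ≤ 2 ^ S := by
  have := g.hR
  have h2 : R + 1 ≤ 2 ^ S := this
  exact_mod_cast h2

theorem Good.R_big : (R : ℝ) ≤ Big S := by
  have h1 := g.R_real
  have h2 : (2 : ℝ) ^ S ≤ 2 ^ (S ^ 3) :=
    pow_le_pow_right₀ (by norm_num) (by
      obtain ⟨_, _, f3, _, _, f6, _, _⟩ := spow_facts g.hS
      omega)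
  have h3 := g.two_le_big
  linarith

theorem Good.big_ge {n : ℕ} (hn : n ≤ S ^ 4) : (2 : ℝ) ^ n ≤ Big S := by
  unfold Big
  exact pow_le_pow_right₀ (by norm_num) hn

theorem Good.fint_R : val S (fint S (R : ℤ)) = R := by
  have h := val_fint (S := S) g.hS (n := (R : ℤ)) (by
    rw [Int.cast_natCast, abs_of_nonneg (Nat.cast_nonneg _)]
    exact g.R_big)
  rwa [Int.cast_natCast] at h

omit g in
theorem val_nonneg' {S : ℕ} {z : ℤ} (hz : 0 ≤ z) : 0 ≤ val S z := by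
  unfold val
  have : (0 : ℝ) ≤ z := by exact_mod_cast hz
  positivity

omit g in
theorem pos_of_val_pos {S : ℕ} {z : ℤ} (hz : 0 < val S z) : 0 < z := by
  by_contra h
  push Not at h
  have h2 : (z : ℝ) ≤ 0 := by exact_mod_cast h
  have h3 : val S z ≤ 0 := by
    unfold val
    exact div_nonpos_of_nonpos_of_nonneg h2 (by positivity)
  linarith

omit g in
theorem val_pos_iff {S : ℕ} {z : ℤ} : 0 < val S z ↔ 0 < z := by
  refine ⟨pos_of_val_pos, fun h => ?_⟩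
  unfold val
  have : (0 : ℝ) < z := by exact_mod_cast h
  positivity

omit g in
theorem fmul_nonneg' {S : ℕ} {x y : ℤ} (hx : 0 ≤ x) (hy : 0 ≤ y) : 0 ≤ fmul S x y := by
  unfold fmul cdiv cmul
  rw [clamp_nonneg_iff]
  refine Int.ediv_nonneg ?_ ?_
  · rw [clamp_nonneg_iff, clamp_nonneg_iff]
    exact mul_nonneg ((clamp_nonneg_iff S x).2 hx) ((clamp_nonneg_iff S y).2 hy)
  · rw [clamp_nonneg_iff]
    unfold fone
    positivity

omit g in
theorem fint_nonneg' {S : ℕ} {n : ℤ} (hn : 0 ≤ n) : 0 ≤ fint S n := by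
  unfold fint cmul
  rw [clamp_nonneg_iff]
  refine mul_nonneg ((clamp_nonneg_iff S n).2 hn) ?_
  rw [clamp_nonneg_iff]
  unfold fone
  positivity

theorem Good.a_pos : 0 < a := pos_of_val_pos (S := S) (lt_of_lt_of_le (by positivity) g.val_a.1)

theorem Good.b_pos : 0 < b := pos_of_val_pos (S := S) (lt_of_lt_of_le (by positivity) g.val_b.1)

theorem Good.ulp_le : ulp S ≤ (1 / 2 : ℝ) ^ (S ^ 4) := by
  have h : ulp S = (1 / 2 : ℝ) ^ (S ^ 5) := by
    unfold ulp prec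
    rw [one_div, one_div, inv_pow]
  rw [h]
  exact half_pow_le (by obtain ⟨_, _, _, _, f, _⟩ := spow_facts g.hS; exact f)

theorem Good.m1 : |val S (fmul S (fint S (R : ℤ)) a) - (R : ℝ) * val S a| ≤ ulp S := by
  have h := val_fmul (S := S) g.hS (x := fint S (R : ℤ)) (y := a)
    (by rw [g.fint_R, abs_of_nonneg (Nat.cast_nonneg _)]; exact g.R_big)
    (by
      rw [abs_of_nonneg ((lt_of_lt_of_le (by positivity) g.val_a.1 : 0 < val S a).le)]
      have h2 := g.big_ge (n := 1) (by have := spow_facts g.hS; omega)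
      have h3 := g.val_a.2
      norm_num at h2
      linarith)
  rwa [g.fint_R] at h

theorem Good.m1_abs : |val S (fmul S (fint S (R : ℤ)) a)| ≤ 2 * (R : ℝ) + 1 := by
  have h1 := abs_le.1 g.m1
  have h2 := g.val_a
  have h3 : ulp S ≤ 1 := g.ulp_le.trans (pow_le_one₀ (by norm_num) (by norm_num))
  have hR : (0 : ℝ) ≤ R := Nat.cast_nonneg _
  have h4 : (0 : ℝ) < val S a := lt_of_lt_of_le (by positivity) h2.1
  rw [abs_le]
  constructor
  · nlinarith
  · nlinarith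

theorem Good.m1_big : |val S (fmul S (fint S (R : ℤ)) a)| ≤ Big S := by
  have h1 := g.m1_abs
  have h2 := g.R_real
  have h3 := g.big_ge (n := S + 1) (by have := spow_facts g.hS; omega)
  have h4 : (2 : ℝ) ^ (S + 1) = 2 * 2 ^ S := by rw [pow_succ]; ring
  linarith

theorem Good.a_big : |val S a| ≤ Big S ∧ |val S b| ≤ Big S := by
  have h2 := g.big_ge (n := 1) (by have := spow_facts g.hS; omega)
  norm_num at h2
  have h4 : (0 : ℝ) < val S a := lt_of_lt_of_le (by positivity) g.val_a.1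
  have h5 : (0 : ℝ) < val S b := lt_of_lt_of_le (by positivity) g.val_b.1
  rw [abs_of_pos h4, abs_of_pos h5]
  exact ⟨by linarith [g.val_a.2], by linarith [g.val_b.2]⟩

/-- The word under the square root. -/
def x0F (S R : ℕ) (a b : ℤ) : ℤ := fmul S (fmul S (fint S (R : ℤ)) a) b

theorem Good.x0_nonneg : 0 ≤ x0F S R a b :=
  fmul_nonneg' (fmul_nonneg' (fint_nonneg' (Int.natCast_nonneg R)) g.a_pos.le) g.b_pos.le

theorem Good.x0_close : |val S (x0F S R a b) - (R : ℝ) * p * (1 - p)| ≤ (2 : ℝ) ^ (S + 3) * (1 / 2 : ℝ) ^ (S ^ 4) := by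
  set τ : ℝ := (1 / 2 : ℝ) ^ (S ^ 4) with hτ
  have hτ0 : 0 < τ := by positivity
  have h1 : |val S (x0F S R a b) - val S (fmul S (fint S (R : ℤ)) a) * val S b| ≤ ulp S :=
    val_fmul (S := S) g.hS g.m1_big g.a_big.2
  have h2 := g.m1
  have hu := g.ulp_le
  have hR : (0 : ℝ) ≤ R := Nat.cast_nonneg _
  have hRr := g.R_real
  have hb2 := g.val_b
  have hb0 : (0 : ℝ) < val S b := lt_of_lt_of_le (by positivity) hb2.1
  have hp0 := g.p_pos
  have hp1 := g.p_lt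
  have e : val S (fmul S (fint S (R : ℤ)) a) * val S b - (R : ℝ) * p * (1 - p)
      = (val S (fmul S (fint S (R : ℤ)) a) - (R : ℝ) * val S a) * val S b
        + (R : ℝ) * (val S a - p) * val S b + (R : ℝ) * p * (val S b - (1 - p)) := by ring
  have h3 : |(val S (fmul S (fint S (R : ℤ)) a) - (R : ℝ) * val S a) * val S b| ≤ τ * 2 := by
    rw [abs_mul, abs_of_pos hb0]
    exact mul_le_mul (h2.trans hu) hb2.2 hb0.le hτ0.le
  have h4 : |(R : ℝ) * (val S a - p) * val S b| ≤ (R : ℝ) * τ * 2 := by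
    rw [abs_mul, abs_mul, abs_of_pos hb0, abs_of_nonneg hR]
    exact mul_le_mul (mul_le_mul_of_nonneg_left g.ha hR) hb2.2 hb0.le (by positivity)
  have h5 : |(R : ℝ) * p * (val S b - (1 - p))| ≤ (R : ℝ) * τ := by
    rw [abs_mul, abs_mul, abs_of_pos hp0, abs_of_nonneg hR]
    exact mul_le_mul (by nlinarith) g.hb (abs_nonneg _) hR
  have h6 : |val S (x0F S R a b) - (R : ℝ) * p * (1 - p)|
      ≤ τ + (τ * 2 + (R : ℝ) * τ * 2 + (R : ℝ) * τ) := by
    have e2 : val S (x0F S R a b) - (R : ℝ) * p * (1 - p)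
        = (val S (x0F S R a b) - val S (fmul S (fint S (R : ℤ)) a) * val S b)
          + ((val S (fmul S (fint S (R : ℤ)) a) - (R : ℝ) * val S a) * val S b
            + (R : ℝ) * (val S a - p) * val S b + (R : ℝ) * p * (val S b - (1 - p))) := by
      rw [← e]; ring
    rw [e2]
    refine (abs_add_le _ _).trans (add_le_add (h1.trans hu) ?_)
    refine (abs_add_le _ _).trans (add_le_add ((abs_add_le _ _).trans (add_le_add h3 h4)) h5)
  refine h6.trans ?_
  have h7 : (2 : ℝ) ^ (S + 3) = 8 * 2 ^ S := by rw [pow_add]; ring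
  rw [h7]
  have h8 : (1 : ℝ) ≤ 2 ^ S := one_le_pow₀ (by norm_num)
  nlinarith

theorem Good.x0_le : val S (x0F S R a b) ≤ Big S := by
  have h1 := (abs_le.1 g.x0_close).2
  have hp0 := g.p_pos
  have hp1 := g.p_lt
  have hR : (0 : ℝ) ≤ R := Nat.cast_nonneg _
  have h2 : (R : ℝ) * p * (1 - p) ≤ R := by
    have h20 : p * (1 - p) ≤ 1 := by nlinarith
    calc (R : ℝ) * p * (1 - p) = (R : ℝ) * (p * (1 - p)) := by ring
      _ ≤ (R : ℝ) * 1 := mul_le_mul_of_nonneg_left h20 hR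
      _ = R := mul_one _
  have h3 : (2 : ℝ) ^ (S + 3) * (1 / 2 : ℝ) ^ (S ^ 4) ≤ 1 := by
    obtain ⟨_, f2, _⟩ := spow_facts g.hS
    have e : (1 / 2 : ℝ) ^ (S ^ 4) = (1 / 2 : ℝ) ^ (S + 3) * (1 / 2 : ℝ) ^ (S ^ 4 - (S + 3)) := by
      rw [← pow_add]
      congr 1
      omega
    rw [e, ← mul_assoc, two_pow_mul_half, one_mul]
    exact pow_le_one₀ (by norm_num) (by norm_num)
  have h4 := g.R_real
  have h5 := g.big_ge (n := S) (by have := spow_facts g.hS; omega)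
  linarith

/-- The true standard deviation. -/
noncomputable def sigT (R : ℕ) (p : ℝ) : ℝ := Real.sqrt ((R : ℝ) * p * (1 - p))

theorem Good.sig_close : |val S (sigF S ((R : ℤ), a, b)) - sigT R p| ≤ (1 / 2 : ℝ) ^ (S ^ 3) := by
  obtain ⟨f1, f2, _⟩ := spow_facts g.hS
  have h0 : sigF S ((R : ℤ), a, b) = fsqrt S (x0F S R a b) := rfl
  rw [h0]
  have hx0 : 0 ≤ val S (x0F S R a b) := val_nonneg' g.x0_nonneg
  have h1 := fsqrt_spec g.hS hx0 g.x0_le
  have hp0 := g.p_pos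
  have hp1 := g.p_lt
  have hR : (0 : ℝ) ≤ R := Nat.cast_nonneg _
  have hV0 : 0 ≤ (R : ℝ) * p * (1 - p) := mul_nonneg (mul_nonneg hR hp0.le) (by linarith)
  have h2 := sqrt_diff_le hx0 hV0
  have h3 : |val S (x0F S R a b) - (R : ℝ) * p * (1 - p)| ≤ ((1 / 2 : ℝ) ^ (S ^ 3 + 1)) ^ 2 := by
    refine g.x0_close.trans ?_
    have e : (1 / 2 : ℝ) ^ (S ^ 4) = (1 / 2 : ℝ) ^ (S + 3) * (1 / 2 : ℝ) ^ (S ^ 4 - (S + 3)) := by
      rw [← pow_add]
      congr 1
      omega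
    rw [e, ← mul_assoc, two_pow_mul_half, one_mul, ← pow_mul]
    exact half_pow_le (by omega)
  have h4 : Real.sqrt |val S (x0F S R a b) - (R : ℝ) * p * (1 - p)| ≤ (1 / 2 : ℝ) ^ (S ^ 3 + 1) := by
    rw [Real.sqrt_le_left (by positivity)]
    exact h3
  have h5 : (1 / 2 : ℝ) ^ (S ^ 5 / 4) ≤ (1 / 2 : ℝ) ^ (S ^ 3 + 1) := half_pow_le f1
  have h6 := two_mul_half (n := S ^ 3)
  have h7 := abs_sub_le (val S (fsqrt S (x0F S R a b))) (Real.sqrt (val S (x0F S R a b))) (sigT R p)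
  unfold sigT at h7 ⊢
  linarith

omit g in
theorem sigT_nonneg (R : ℕ) (p : ℝ) : 0 ≤ sigT R p := Real.sqrt_nonneg _

theorem Good.sigT_sq : sigT R p ^ 2 = (R : ℝ) * p * (1 - p) := by
  have hp0 := g.p_pos
  have hp1 := g.p_lt
  have hR : (0 : ℝ) ≤ R := Nat.cast_nonneg _
  exact Real.sq_sqrt (mul_nonneg (mul_nonneg hR hp0.le) (by linarith))

theorem Good.sigT_le : sigT R p ≤ 2 ^ S := by
  have hp0 := g.p_pos
  have hp1 := g.p_lt
  have hR : (0 : ℝ) ≤ R := Nat.cast_nonneg _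
  unfold sigT
  rw [Real.sqrt_le_left (by positivity)]
  have h1 : (R : ℝ) * p * (1 - p) ≤ R := by
    have h20 : p * (1 - p) ≤ 1 := by nlinarith
    calc (R : ℝ) * p * (1 - p) = (R : ℝ) * (p * (1 - p)) := by ring
      _ ≤ (R : ℝ) * 1 := mul_le_mul_of_nonneg_left h20 hR
      _ = R := mul_one _
  have h2 := g.R_real
  have h3 : (1 : ℝ) ≤ 2 ^ S := one_le_pow₀ (by norm_num)
  nlinarith

omit g in
theorem cadd_eq {S : ℕ} {x y : ℤ} (hx : |x| ≤ 2 ^ wid S) (hy : |y| ≤ 2 ^ wid S) (h : |x + y| ≤ 2 ^ wid S) :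
    cadd S x y = x + y := by
  unfold cadd
  rw [clamp_of_abs_le hx, clamp_of_abs_le hy, clamp_of_abs_le h]

omit g in
theorem csub_eq {S : ℕ} {x y : ℤ} (hx : |x| ≤ 2 ^ wid S) (hy : |y| ≤ 2 ^ wid S) (h : |x - y| ≤ 2 ^ wid S) :
    csub S x y = x - y := by
  unfold csub
  rw [clamp_of_abs_le hx, clamp_of_abs_le hy, clamp_of_abs_le h]

omit g in
theorem cmul_eq {S : ℕ} {x y : ℤ} (hx : |x| ≤ 2 ^ wid S) (hy : |y| ≤ 2 ^ wid S) (h : |x * y| ≤ 2 ^ wid S) :
    cmul S x y = x * y := by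
  unfold cmul
  rw [clamp_of_abs_le hx, clamp_of_abs_le hy, clamp_of_abs_le h]

omit g in
theorem cdiv_eq {S : ℕ} {x y : ℤ} (hx : |x| ≤ 2 ^ wid S) (hy : |y| ≤ 2 ^ wid S) (h : |x / y| ≤ 2 ^ wid S) :
    cdiv S x y = x / y := by
  unfold cdiv
  rw [clamp_of_abs_le hx, clamp_of_abs_le hy, clamp_of_abs_le h]

/-- Numbers of at most `2 ^ (S ^ 2 + 5)` are words. -/
theorem Good.wid_le : (2 : ℤ) ^ (S ^ 2 + 5) ≤ 2 ^ wid S := by
  refine pow_le_pow_right₀ (by norm_num) ?_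
  unfold wid
  obtain ⟨_, _, f3, f4, f5, _⟩ := spow_facts g.hS
  have h6 : S ^ 6 = S * S ^ 5 := by ring
  have : 1 * S ^ 5 ≤ S * S ^ 5 := Nat.mul_le_mul_right _ (by have := g.hS; omega)
  omega

theorem Good.small {z : ℤ} (h : |z| ≤ 2 ^ (S ^ 2 + 5)) : |z| ≤ 2 ^ wid S := h.trans g.wid_le

theorem Good.two_eq : two S = 2 := by
  have h1 : (1 : ℤ) ≤ 2 ^ (S ^ 2 + 5) := one_le_pow₀ (by norm_num)
  have h2 : (2 : ℤ) ^ 1 ≤ 2 ^ (S ^ 2 + 5) := pow_le_pow_right₀ (by norm_num) (by omega)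
  unfold two
  rw [cadd_eq]
  · norm_num
  · exact g.small (by simpa using h1)
  · exact g.small (by simpa using h1)
  · refine g.small ?_
    norm_num
    simpa using h2

/-- The value of the larger of one and a number. -/
theorem Good.maxOne {z : ℤ} (hz : |val S z| ≤ Big S) :
    val S (maxOneF S z) = max 1 (val S z) := by
  have h1 : (1 : ℝ) ≤ Big S := by
    unfold Big
    exact one_le_pow₀ (by norm_num)
  have h2 : |val S (fone S)| ≤ Big S := by
    rw [val_fone g.hS, abs_one]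
    exact h1
  have h3 := val_sub g.hS hz h2
  rw [val_fone g.hS] at h3
  unfold maxOneF
  by_cases h4 : 0 < csub S z (fone S)
  · rw [if_pos h4]
    have h5 := (val_pos_iff (S := S)).2 h4
    rw [h3] at h5
    rw [max_eq_right (by linarith)]
  · rw [if_neg h4, val_fone g.hS]
    have h5 : ¬ 0 < val S (csub S z (fone S)) := fun h => h4 (val_pos_iff.1 h)
    rw [h3] at h5
    rw [max_eq_left (by linarith)]

theorem Good.sig_abs : |val S (sigF S ((R : ℤ), a, b))| ≤ 2 ^ S + 1 := by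
  have h1 := abs_le.1 g.sig_close
  have h2 := g.sigT_le
  have h3 := sigT_nonneg R p
  have h4 : (1 / 2 : ℝ) ^ (S ^ 3) ≤ 1 := pow_le_one₀ (by norm_num) (by norm_num)
  rw [abs_le]
  constructor <;> linarith

theorem Good.sig_big : |val S (sigF S ((R : ℤ), a, b))| ≤ Big S := by
  have h1 := g.sig_abs
  have h3 := g.big_ge (n := S + 1) (by have := spow_facts g.hS; omega)
  have h4 : (2 : ℝ) ^ (S + 1) = 2 * 2 ^ S := by rw [pow_succ]; ring
  have h5 : (1 : ℝ) ≤ 2 ^ S := one_le_pow₀ (by norm_num)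
  linarith

/-- The larger of one and the standard deviation. -/
noncomputable def sigH (R : ℕ) (p : ℝ) : ℝ := max 1 (sigT R p)

omit g in
theorem sigH_ge (R : ℕ) (p : ℝ) : 1 ≤ sigH R p := le_max_left _ _

/-- The logarithm in the coin. -/
theorem Good.logUp : |val S (logUpF S ((R : ℤ), a, b)) - Real.log (sigH R p / 2)| ≤ 3 * (1 / 2 : ℝ) ^ (S ^ 3) := by
  obtain ⟨f1, _, f3, f4, f5, f6, _, f8⟩ := spow_facts g.hS
  set σc := sigF S ((R : ℤ), a, b) with hσc
  have hmax := g.maxOne (z := σc) g.sig_big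
  have hv1 : 1 ≤ val S (maxOneF S σc) := by rw [hmax]; exact le_max_left _ _
  have hv2 : val S (maxOneF S σc) ≤ 2 ^ S + 1 := by
    rw [hmax]
    refine max_le ?_ ?_
    · have h5 : (1 : ℝ) ≤ 2 ^ S := one_le_pow₀ (by norm_num)
      linarith
    · exact (le_abs_self _).trans g.sig_abs
  have hhalf : (1 / 2 : ℝ) ^ (S ^ 3) ≤ 1 := pow_le_one₀ (by norm_num) (by norm_num)
  have h2S : (2 : ℝ) ^ S + 1 ≤ 2 ^ (S ^ 3) := by
    have h5 : (2 : ℝ) ^ (S + 1) ≤ 2 ^ (S ^ 3) := pow_le_pow_right₀ (by norm_num) (by omega)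
    have h6 : (2 : ℝ) ^ (S + 1) = 2 * 2 ^ S := by rw [pow_succ]; ring
    have h7 : (1 : ℝ) ≤ 2 ^ S := one_le_pow₀ (by norm_num)
    linarith
  have hlog1 := flog_spec g.hS (x := maxOneF S σc) (hhalf.trans hv1) (hv2.trans h2S)
  have hftwo : val S (fint S (two S)) = 2 := by
    rw [g.two_eq]
    have h := val_fint (S := S) g.hS (n := 2) (by
      have h2 := g.big_ge (n := 1) (by have := spow_facts g.hS; omega)
      norm_num at h2 ⊢
      exact h2)
    simpa using h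
  have hlog2 := flog_spec g.hS (x := fint S (two S))
    (by rw [hftwo]; linarith)
    (by
      rw [hftwo]
      have h5 : (2 : ℝ) ^ 1 ≤ 2 ^ (S ^ 3) := pow_le_pow_right₀ (by norm_num) (by omega)
      simpa using h5)
  have htiny : (1 / 2 : ℝ) ^ (S ^ 5 / 4) ≤ (1 / 2 : ℝ) ^ (S ^ 3) := half_pow_le (by omega)
  have hbig2 : (2 : ℝ) ^ S + 2 ≤ Big S := by
    have h5 := g.big_ge (n := S + 1) (by omega)
    have h6 : (2 : ℝ) ^ (S + 1) = 2 * 2 ^ S := by rw [pow_succ]; ring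
    have h7 : (2 : ℝ) ≤ 2 ^ S := by
      calc (2 : ℝ) = 2 ^ 1 := by norm_num
        _ ≤ 2 ^ S := pow_le_pow_right₀ (by norm_num) (by have := g.hS; omega)
    linarith
  have habs1 : |val S (flog S (maxOneF S σc))| ≤ Big S := by
    have h5 : |Real.log (val S (maxOneF S σc))| ≤ val S (maxOneF S σc) := by
      rw [abs_of_nonneg (Real.log_nonneg hv1)]
      exact Real.log_le_self (by linarith)
    have h6 := abs_sub_abs_le_abs_sub (val S (flog S (maxOneF S σc))) (Real.log (val S (maxOneF S σc)))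
    linarith
  have habs2 : |val S (flog S (fint S (two S)))| ≤ Big S := by
    rw [hftwo] at hlog2
    have h5 : |Real.log 2| ≤ 1 := by
      rw [abs_of_pos (Real.log_pos (by norm_num))]
      exact Real.log_two_lt_d9.le.trans (by norm_num)
    have h6 := abs_sub_abs_le_abs_sub (val S (flog S (fint S (two S)))) (Real.log 2)
    have h7 : (1 : ℝ) ≤ 2 ^ S := one_le_pow₀ (by norm_num)
    linarith
  have hval : val S (logUpF S ((R : ℤ), a, b))
      = val S (flog S (maxOneF S σc)) - val S (flog S (fint S (two S))) := val_sub g.hS habs1 habs2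
  rw [hftwo] at hlog2
  have hdiff : |val S (maxOneF S σc) - sigH R p| ≤ (1 / 2 : ℝ) ^ (S ^ 3) := by
    rw [hmax]
    unfold sigH
    have h5 := abs_max_sub_max_le_abs (1 : ℝ) (val S σc) (sigT R p)
    simp only [max_comm (1 : ℝ)] at h5 ⊢
    have h6 := abs_max_sub_max_le_abs (val S σc) (sigT R p) 1
    exact h6.trans g.sig_close
  have hlog3 := log_diff_le (x := val S (maxOneF S σc)) (y := sigH R p) (h := 1) one_pos hv1 (sigH_ge R p)
  rw [div_one] at hlog3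
  have e : Real.log (sigH R p / 2) = Real.log (sigH R p) - Real.log 2 :=
    Real.log_div (by linarith [sigH_ge R p]) (by norm_num)
  rw [hval, e]
  have a1 := abs_le.1 hlog1
  have a2 := abs_le.1 hlog2
  have a3 := abs_le.1 (hlog3.trans hdiff)
  rw [abs_le]
  constructor <;> linarith [a1.1, a1.2, a2.1, a2.2, a3.1, a3.2]

/-! ### The window -/

/-- The number `⌊σ⌋ + 2`. -/
def nF (S : ℕ) (R : ℕ) (a b : ℤ) : ℤ := ffloor S (sigF S ((R : ℤ), a, b)) + 2

theorem Good.nF_real : (val S (sigF S ((R : ℤ), a, b)) + 1 < nF S R a b)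
    ∧ ((nF S R a b : ℝ) ≤ val S (sigF S ((R : ℤ), a, b)) + 2) := by
  have h := ffloor_eq g.hS g.sig_big
  unfold nF
  push_cast
  rw [h]
  have h1 := Int.lt_floor_add_one (val S (sigF S ((R : ℤ), a, b)))
  have h2 := Int.floor_le (val S (sigF S ((R : ℤ), a, b)))
  constructor <;> linarith

theorem Good.nF_pos : 1 ≤ nF S R a b := by
  have h1 := g.nF_real.1
  have h2 := abs_le.1 g.sig_close
  have h3 := sigT_nonneg R p
  have h4 : (1 / 2 : ℝ) ^ (S ^ 3) ≤ 1 := pow_le_one₀ (by norm_num) (by norm_num)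
  have h5 : (0 : ℝ) < nF S R a b := by linarith [h2.1]
  have h6 : 0 < nF S R a b := by exact_mod_cast h5
  omega

theorem Good.nF_le : nF S R a b ≤ 2 ^ (S + 2) := by
  have h1 := g.nF_real.2
  have h2 := g.sig_abs
  have h3 := le_abs_self (val S (sigF S ((R : ℤ), a, b)))
  have h4 : (nF S R a b : ℝ) ≤ 2 ^ (S + 2) := by
    have h5 : (2 : ℝ) ^ (S + 2) = 4 * 2 ^ S := by rw [pow_add]; ring
    have h7 : (1 : ℝ) ≤ 2 ^ S := one_le_pow₀ (by norm_num)
    rw [h5]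
    linarith
  exact_mod_cast h4

theorem Good.spow14 : (S : ℤ) ^ 14 ≤ 2 ^ (14 * S) := by
  have h1 : S < 2 ^ S := Nat.lt_two_pow_self
  have h2 : S ^ 14 ≤ (2 ^ S) ^ 14 := Nat.pow_le_pow_left h1.le 14
  rw [← pow_mul, mul_comm] at h2
  exact_mod_cast h2

/-- The bound of the window. -/
theorem Good.winY_eq : winY S ((R : ℤ), a, b) = 4 * (S : ℤ) ^ 14 * nF S R a b := by
  obtain ⟨_, _, _, _, _, f6, _⟩ := spow_facts g.hS
  have hpos : (0 : ℤ) ≤ (S : ℤ) ^ 14 := by positivity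
  have hS2 : 16 * S + 8 ≤ S ^ 2 := by
    have h2 : S ^ 2 = S * S := by ring
    have : 1000000 * S ≤ S * S := Nat.mul_le_mul_right _ g.hS
    have := g.hS
    omega
  have hle : ∀ {n : ℕ}, n ≤ S ^ 2 + 5 → (2 : ℤ) ^ n ≤ 2 ^ (S ^ 2 + 5) := fun h =>
    pow_le_pow_right₀ (by norm_num) h
  have h14 := g.spow14
  have hn1 := g.nF_pos
  have hn2 := g.nF_le
  have h4 : cadd S (two S) (two S) = 4 := by
    rw [g.two_eq, cadd_eq]
    · norm_num
    · refine g.small ?_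
      have := hle (n := 1) (by omega)
      norm_num at this ⊢
      exact this
    · refine g.small ?_
      have := hle (n := 1) (by omega)
      norm_num at this ⊢
      exact this
    · refine g.small ?_
      have := hle (n := 2) (by omega)
      norm_num at this ⊢
      exact this
  have h14c : clamp S ((S : ℤ) ^ 14) = (S : ℤ) ^ 14 := spow_eq g.hS (by norm_num)
  have hb1 : 4 * (S : ℤ) ^ 14 ≤ 2 ^ (14 * S + 2) := by
    rw [pow_add]
    linarith
  have hb2 : 4 * (S : ℤ) ^ 14 * nF S R a b ≤ 2 ^ (15 * S + 4) := by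
    have e : 15 * S + 4 = (14 * S + 2) + (S + 2) := by ring
    rw [e, pow_add]
    exact mul_le_mul hb1 hn2 (by omega) (by positivity)
  have hn3 : |nF S R a b| ≤ 2 ^ wid S := by
    refine g.small ?_
    rw [abs_of_nonneg (by omega)]
    exact hn2.trans (hle (by omega))
  have hff : |ffloor S (sigF S ((R : ℤ), a, b))| ≤ 2 ^ wid S := by
    refine g.small ?_
    have h5 : ffloor S (sigF S ((R : ℤ), a, b)) = nF S R a b - 2 := by unfold nF; ring
    rw [h5, abs_le]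
    have := hle (n := S + 2) (by omega)
    constructor <;> omega
  have h2sm : |(2 : ℤ)| ≤ 2 ^ wid S := by
    refine g.small ?_
    have := hle (n := 1) (by omega)
    norm_num at this ⊢
    exact this
  have h5 : cadd S (ffloor S (sigF S ((R : ℤ), a, b))) (two S) = nF S R a b := by
    rw [g.two_eq, cadd_eq hff h2sm hn3]
    rfl
  have hi : cmul S 4 ((S : ℤ) ^ 14) = 4 * (S : ℤ) ^ 14 := by
    refine cmul_eq ?_ ?_ ?_
    · refine g.small ?_
      have := hle (n := 2) (by omega)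
      norm_num at this ⊢
      exact this
    · refine g.small ?_
      rw [abs_of_nonneg hpos]
      exact h14.trans (hle (by omega))
    · refine g.small ?_
      rw [abs_of_nonneg (by positivity)]
      exact hb1.trans (hle (by omega))
  unfold winY
  rw [h4, h14c, h5, hi]
  refine cmul_eq ?_ hn3 ?_
  · refine g.small ?_
    rw [abs_of_nonneg (by positivity)]
    exact hb1.trans (hle (by omega))
  · refine g.small ?_
    rw [abs_of_nonneg (mul_nonneg (by positivity) (by omega))]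
    exact hb2.trans (hle (by omega))

theorem Good.winY_bounds : 4 ≤ winY S ((R : ℤ), a, b) ∧ 2 * winY S ((R : ℤ), a, b) ≤ 2 ^ (S ^ 2) := by
  rw [g.winY_eq]
  have hn1 := g.nF_pos
  have hn2 := g.nF_le
  have h14 := g.spow14
  have hS1 : (1 : ℤ) ≤ (S : ℤ) ^ 14 := one_le_pow₀ (by have := g.hS; omega)
  have hS2 : 16 * S + 8 ≤ S ^ 2 := by
    have h2 : S ^ 2 = S * S := by ring
    have : 1000000 * S ≤ S * S := Nat.mul_le_mul_right _ g.hS
    have := g.hS
    omega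
  constructor
  · nlinarith
  · have hb1 : 4 * (S : ℤ) ^ 14 ≤ 2 ^ (14 * S + 2) := by
      rw [pow_add]
      linarith
    have hb2 : 4 * (S : ℤ) ^ 14 * nF S R a b ≤ 2 ^ (15 * S + 4) := by
      have e : 15 * S + 4 = (14 * S + 2) + (S + 2) := by ring
      rw [e, pow_add]
      exact mul_le_mul hb1 hn2 (by omega) (by positivity)
    have h3 : (2 : ℤ) ^ (15 * S + 5) ≤ 2 ^ (S ^ 2) := pow_le_pow_right₀ (by norm_num) (by omega)
    have h4 : (2 : ℤ) ^ (15 * S + 5) = 2 * 2 ^ (15 * S + 4) := by rw [pow_succ]; ring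
    linarith

/-- The loop of the doubling. -/
theorem Good.dbl_iter {y : ℤ} (hy1 : 1 ≤ y) (hy2 : 2 * y ≤ 2 ^ (S ^ 2)) (k : ℕ) :
    ∃ e, e ≤ k ∧ (fun w => dblStep S (y, w))^[k] 1 = 2 ^ e ∧ (2 : ℤ) ^ e < 2 * y
      ∧ (e = k ∨ y ≤ 2 ^ e) := by
  have hpS : (2 : ℤ) ^ (S ^ 2) ≤ 2 ^ (S ^ 2 + 5) := pow_le_pow_right₀ (by norm_num) (by omega)
  induction k with
  | zero =>
    refine ⟨0, le_rfl, rfl, ?_, Or.inl rfl⟩
    norm_num
    omega
  | succ k ih =>
    obtain ⟨e, he, h1, h2, h3⟩ := ih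
    rw [Function.iterate_succ_apply', h1]
    have hw0 : (0 : ℤ) < 2 ^ e := by positivity
    have hsm1 : |y| ≤ 2 ^ wid S := g.small (by rw [abs_of_nonneg (by omega)]; linarith)
    have hsm2 : |(2 : ℤ) ^ e| ≤ 2 ^ wid S := g.small (by rw [abs_of_pos hw0]; linarith)
    have hsm3 : |y - (2 : ℤ) ^ e| ≤ 2 ^ wid S := g.small (by
      rw [abs_le]
      constructor <;> linarith)
    have hc : csub S y (2 ^ e) = y - 2 ^ e := csub_eq hsm1 hsm2 hsm3
    unfold dblStep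
    simp only
    rw [hc]
    by_cases h4 : 0 < y - 2 ^ e
    · rw [if_pos h4]
      have h5 : (2 : ℤ) ^ e + 2 ^ e = 2 ^ (e + 1) := by rw [pow_succ]; ring
      have h6 : cadd S ((2 : ℤ) ^ e) (2 ^ e) = 2 ^ (e + 1) := by
        rw [cadd_eq hsm2 hsm2, h5]
        refine g.small ?_
        rw [h5, abs_of_pos (by positivity)]
        linarith
      rw [h6]
      refine ⟨e + 1, by omega, rfl, by rw [← h5]; linarith, Or.inl ?_⟩
      rcases h3 with h7 | h7
      · omega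
      · omega
    · rw [if_neg h4]
      exact ⟨e, by omega, rfl, h2, Or.inr (by omega)⟩

/-- The size of the window. -/
theorem Good.winW_spec : ∃ e, 1 ≤ e ∧ e ≤ S ^ 2 ∧ winW S ((R : ℤ), a, b) = 2 ^ e
    ∧ winY S ((R : ℤ), a, b) ≤ 2 ^ e ∧ (2 : ℤ) ^ e < 2 * winY S ((R : ℤ), a, b) := by
  obtain ⟨hy1, hy2⟩ := g.winY_bounds
  obtain ⟨e, he, h1, h2, h3⟩ := g.dbl_iter (y := winY S ((R : ℤ), a, b)) (by omega) hy2 (S ^ 2)
  have h4 : winY S ((R : ℤ), a, b) ≤ 2 ^ e := by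
    rcases h3 with h3 | h3
    · rw [h3]
      linarith
    · exact h3
  refine ⟨e, ?_, he, h1, h4, h2⟩
  by_contra h5
  have h6 : e = 0 := by omega
  rw [h6] at h4
  norm_num at h4
  omega

theorem Good.center_close : |(centerF S ((R : ℤ), a, b) : ℝ) - (R : ℝ) * p| ≤ 2 := by
  have h := ffloor_eq g.hS g.m1_big
  have h0 : centerF S ((R : ℤ), a, b) = ffloor S (fmul S (fint S (R : ℤ)) a) := rfl
  rw [h0, h]
  set vm := val S (fmul S (fint S (R : ℤ)) a) with hvm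
  have h1 := Int.lt_floor_add_one vm
  have h2 := Int.floor_le vm
  have h3 := abs_le.1 g.m1
  rw [← hvm] at h3
  have h4 := abs_le.1 g.ha
  have hu := g.ulp_le
  have hτ : (1 / 2 : ℝ) ^ (S ^ 4) * (2 : ℝ) ^ S ≤ 1 / 4 := by
    obtain ⟨_, f2, _⟩ := spow_facts g.hS
    have e : (1 / 2 : ℝ) ^ (S ^ 4) = (1 / 2 : ℝ) ^ S * (1 / 2 : ℝ) ^ (S ^ 4 - S) := by
      rw [← pow_add]
      congr 1
      omega
    rw [e]
    have h5 : (1 / 2 : ℝ) ^ (S ^ 4 - S) ≤ (1 / 2 : ℝ) ^ 2 := half_pow_le (by omega)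
    have h6 := two_pow_mul_half S
    calc (1 / 2 : ℝ) ^ S * (1 / 2 : ℝ) ^ (S ^ 4 - S) * 2 ^ S
        = ((2 : ℝ) ^ S * (1 / 2 : ℝ) ^ S) * (1 / 2 : ℝ) ^ (S ^ 4 - S) := by ring
      _ ≤ 1 * (1 / 2 : ℝ) ^ 2 := by rw [h6, one_mul, one_mul]; exact h5
      _ = 1 / 4 := by norm_num
  have hR := g.R_real
  have hR0 : (0 : ℝ) ≤ R := Nat.cast_nonneg _
  have hτ0 : (0 : ℝ) < (1 / 2 : ℝ) ^ (S ^ 4) := by positivity
  have h5 : (R : ℝ) * (1 / 2 : ℝ) ^ (S ^ 4) ≤ 1 / 4 := by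
    have : (R : ℝ) ≤ 2 ^ S := by linarith
    nlinarith
  have h6 : (1 / 2 : ℝ) ^ (S ^ 4) ≤ 1 / 4 := by
    have h60 : (1 / 2 : ℝ) ^ (S ^ 4) ≤ (1 / 2 : ℝ) ^ 2 :=
      half_pow_le (by obtain ⟨_, f2, _⟩ := spow_facts g.hS; omega)
    norm_num at h60 ⊢
    exact h60
  have h7 : |(R : ℝ) * val S a - (R : ℝ) * p| ≤ 1 / 4 := by
    rw [← mul_sub, abs_mul, abs_of_nonneg hR0]
    exact (mul_le_mul_of_nonneg_left g.ha hR0).trans h5
  have h8 := abs_le.1 h7
  rw [abs_le]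
  constructor <;> linarith [h3.1, h3.2, h8.1, h8.2]

/-- The candidate in terms of the random number. -/
theorem Good.cand_eq {e : ℕ} (he1 : 1 ≤ e) (he2 : e ≤ S ^ 2) (hw : winW S ((R : ℤ), a, b) = 2 ^ e) {U : ℤ}
    (hU0 : 0 ≤ U) (hU1 : U < 2 ^ (S ^ 2)) :
    candF S (((R : ℤ), a, b), U) = centerF S ((R : ℤ), a, b) - 2 ^ (e - 1) + U % 2 ^ e := by
  set C := centerF S ((R : ℤ), a, b) with hC
  have hle : ∀ {n : ℕ}, n ≤ S ^ 2 + 5 → (2 : ℤ) ^ n ≤ 2 ^ (S ^ 2 + 5) := fun h =>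
    pow_le_pow_right₀ (by norm_num) h
  have hp1 : (2 : ℤ) ^ (S ^ 2) ≤ 2 ^ (S ^ 2 + 5) := hle (by omega)
  have hpe : (2 : ℤ) ^ e ≤ 2 ^ (S ^ 2) := pow_le_pow_right₀ (by norm_num) he2
  have hp2 : 2 * (2 : ℤ) ^ (S ^ 2) ≤ 2 ^ (S ^ 2 + 5) := by
    have := hle (n := S ^ 2 + 1) (by omega)
    rw [pow_succ] at this
    linarith
  have hw0 : (0 : ℤ) < 2 ^ e := by positivity
  have he' : (2 : ℤ) ^ e = 2 * 2 ^ (e - 1) := by
    rw [← pow_succ']
    congr 1
    omega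
  have hhalf : (2 : ℤ) ^ e / 2 = 2 ^ (e - 1) := by
    rw [he']
    exact Int.mul_ediv_cancel_left _ (by norm_num)
  have hCbd : |C| ≤ 2 ^ (S + 3) := by
    have h1 := abs_le.1 g.center_close
    have h2 := g.R_real
    have hR0 : (0 : ℝ) ≤ R := Nat.cast_nonneg _
    have hp0 := g.p_pos
    have hp1' := g.p_lt
    have h3 : (R : ℝ) * p ≤ R := by nlinarith
    have h4 : (0 : ℝ) ≤ (R : ℝ) * p := by positivity
    have h5 : (2 : ℝ) ^ (S + 3) = 8 * 2 ^ S := by rw [pow_add]; ring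
    have h7 : (1 : ℝ) ≤ 2 ^ S := one_le_pow₀ (by norm_num)
    have h8 : |(C : ℝ)| ≤ 2 ^ (S + 3) := by
      rw [abs_le, h5]
      constructor <;> linarith [h1.1, h1.2]
    exact_mod_cast h8
  have hS3 : S + 4 ≤ S ^ 2 := by obtain ⟨_, _, _, _, _, f6, _⟩ := spow_facts g.hS; omega
  have hCp : (2 : ℤ) ^ (S + 3) ≤ 2 ^ (S ^ 2) := pow_le_pow_right₀ (by norm_num) (by omega)
  have h2sm : |(2 : ℤ)| ≤ 2 ^ wid S := by
    refine g.small ?_
    have := hle (n := 1) (by omega)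
    norm_num at this ⊢
    exact this
  have hwsm : |(2 : ℤ) ^ e| ≤ 2 ^ wid S := g.small (by rw [abs_of_pos hw0]; linarith)
  have hUsm : |U| ≤ 2 ^ wid S := g.small (by rw [abs_of_nonneg hU0]; linarith)
  have hdiv0 : 0 ≤ U / 2 ^ e := Int.ediv_nonneg hU0 hw0.le
  have hdivle : U / 2 ^ e ≤ U := Int.ediv_le_self _ hU0
  have hmod : 2 ^ e * (U / 2 ^ e) = U - U % 2 ^ e := by
    rw [Int.emod_def]
    ring
  have hm0 : 0 ≤ U % 2 ^ e := Int.emod_nonneg _ hw0.ne'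
  have hm1 : U % 2 ^ e < 2 ^ e := Int.emod_lt_of_pos _ hw0
  have hd1 : cdiv S U (2 ^ e) = U / 2 ^ e :=
    cdiv_eq hUsm hwsm (g.small (by rw [abs_of_nonneg hdiv0]; linarith))
  have hd2 : cdiv S ((2 : ℤ) ^ e) (two S) = 2 ^ (e - 1) := by
    rw [g.two_eq, cdiv_eq hwsm h2sm, hhalf]
    refine g.small ?_
    rw [hhalf, abs_of_pos (by positivity)]
    have hpos : (0 : ℤ) < 2 ^ (e - 1) := by positivity
    linarith
  have hdsm : |U / 2 ^ e| ≤ 2 ^ wid S := g.small (by rw [abs_of_nonneg hdiv0]; linarith)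
  have hm2 : cmul S ((2 : ℤ) ^ e) (U / 2 ^ e) = 2 ^ e * (U / 2 ^ e) := by
    refine cmul_eq hwsm hdsm (g.small ?_)
    rw [hmod, abs_le]
    constructor <;> linarith
  have hs1 : csub S U (2 ^ e * (U / 2 ^ e)) = U % 2 ^ e := by
    have hmsm : |2 ^ e * (U / 2 ^ e)| ≤ 2 ^ wid S := g.small (by
      rw [hmod, abs_le]
      constructor <;> linarith)
    rw [csub_eq hUsm hmsm, hmod]
    · ring
    · refine g.small ?_
      rw [hmod]
      have : U - (U - U % 2 ^ e) = U % 2 ^ e := by ring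
      rw [this, abs_of_nonneg hm0]
      linarith
  have hCsm : |C| ≤ 2 ^ wid S := g.small (hCbd.trans (hCp.trans hp1))
  have hpe1 : (0 : ℤ) < 2 ^ (e - 1) := by positivity
  have habsC := abs_le.1 hCbd
  have hs2 : csub S C (2 ^ (e - 1)) = C - 2 ^ (e - 1) := by
    refine csub_eq hCsm (g.small ?_) (g.small ?_)
    · rw [abs_of_pos hpe1]; linarith
    · rw [abs_le]
      constructor <;> linarith [habsC.1, habsC.2]
  unfold candF
  simp only
  rw [← hC, hw, hd2, hd1, hm2, hs1, hs2]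
  refine cadd_eq ?_ ?_ ?_
  · refine g.small ?_
    rw [abs_le]
    constructor <;> linarith [habsC.1, habsC.2]
  · refine g.small ?_
    rw [abs_of_nonneg hm0]
    linarith
  · refine g.small ?_
    rw [abs_le]
    constructor <;> linarith [habsC.1, habsC.2]

/-! ### The coin -/

theorem Good.S_pos : (1000000 : ℝ) ≤ S := by
  have := g.hS
  exact_mod_cast this

theorem Good.spow_real (k : ℕ) : (S : ℝ) ^ k ≤ 2 ^ (k * S) := by
  have h1 : S < 2 ^ S := Nat.lt_two_pow_self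
  have h2 : S ^ k ≤ (2 ^ S) ^ k := Nat.pow_le_pow_left h1.le k
  rw [← pow_mul, mul_comm] at h2
  exact_mod_cast h2

/-- A tiny power of one half is much less than any fixed negative power of `S`. -/
theorem Good.half_le_inv {n k c : ℕ} (hc : c ≤ 2 ^ k) (h : k * S + k ≤ n) :
    (c : ℝ) * (1 / 2 : ℝ) ^ n ≤ 1 / (S : ℝ) ^ k := by
  have hS0 : (0 : ℝ) < (S : ℝ) := by linarith [g.S_pos]
  rw [le_div_iff₀ (by positivity)]
  have h1 := g.spow_real k
  have hc' : (c : ℝ) ≤ 2 ^ k := by exact_mod_cast hc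
  have h2 : (1 / 2 : ℝ) ^ n * 2 ^ (k * S + k) ≤ 1 := by
    have e : (1 / 2 : ℝ) ^ n = (1 / 2 : ℝ) ^ (k * S + k) * (1 / 2 : ℝ) ^ (n - (k * S + k)) := by
      rw [← pow_add]
      congr 1
      omega
    rw [e]
    have h3 := two_pow_mul_half (k * S + k)
    calc _ = ((2 : ℝ) ^ (k * S + k) * (1 / 2 : ℝ) ^ (k * S + k)) * (1 / 2 : ℝ) ^ (n - (k * S + k)) := by ring
      _ ≤ 1 := by
        rw [h3, one_mul]
        exact pow_le_one₀ (by norm_num) (by norm_num)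
  have h4 : (2 : ℝ) ^ (k * S + k) = 2 ^ (k * S) * 2 ^ k := pow_add _ _ _
  have hp : (0 : ℝ) < (1 / 2 : ℝ) ^ n := by positivity
  calc (c : ℝ) * (1 / 2 : ℝ) ^ n * (S : ℝ) ^ k
      ≤ (2 : ℝ) ^ k * (1 / 2 : ℝ) ^ n * 2 ^ (k * S) := by
        have : (0 : ℝ) ≤ (S : ℝ) ^ k := by positivity
        gcongr
    _ = (1 / 2 : ℝ) ^ n * 2 ^ (k * S + k) := by rw [h4]; ring
    _ ≤ 1 := h2

theorem Good.bw_pos {v : ℕ} (hv : v ≤ R) : 0 < bw R p v := by
  have hp0 := g.p_pos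
  have hp1 := g.p_lt
  unfold bw
  have h1 : (0 : ℝ) < (R.choose v : ℝ) := by exact_mod_cast Nat.choose_pos hv
  have h2 : 0 < 1 - p := by linarith
  positivity

theorem Good.bw_mul_sig {v : ℕ} (hv : v ≤ R) : bw R p v * sigH R p ≤ 1 := by
  have hp0 := g.p_pos
  have hp1 := g.p_lt
  have hb := g.bw_pos hv
  unfold sigH
  rcases le_total 1 (sigT R p) with h | h
  · rw [max_eq_right h]
    exact Vale.Agent.Lib.P328.Fpras.bw_sqrt_le R v hp0.le hp1.le
  · rw [max_eq_left h, mul_one]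
    have h2 : bw R p v ≤ ∑ w ∈ range (R + 1), bw R p w :=
      Finset.single_le_sum (f := fun w => bw R p w)
        (fun w _ => bw_nonneg hp0.le hp1.le w) (Finset.mem_range.2 (by omega))
    rwa [Vale.Agent.Lib.P328.Fpras.sum_bw_eq_one] at h2

theorem Good.bw_lower {v : ℕ} (hv : v ≤ R) : (((1 / 2 : ℝ) ^ (S ^ 3)) ^ R) ≤ bw R p v := by
  have hp0 := g.hp0
  have hp1 := g.hp1
  set h : ℝ := (1 / 2 : ℝ) ^ (S ^ 3) with hh
  have hpos : 0 < h := by positivity
  have hph : h ≤ p := by linarith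
  have hqh : h ≤ 1 - p := by linarith
  have e : h ^ R = h ^ v * h ^ (R - v) := by
    rw [← pow_add]
    congr 1
    omega
  unfold bw
  rw [e]
  have h1 : (1 : ℝ) ≤ (R.choose v : ℝ) := by exact_mod_cast Nat.choose_pos hv
  have h2 : h ^ v ≤ p ^ v := pow_le_pow_left₀ hpos.le hph _
  have h3 : h ^ (R - v) ≤ (1 - p) ^ (R - v) := pow_le_pow_left₀ hpos.le hqh _
  calc h ^ v * h ^ (R - v) ≤ p ^ v * (1 - p) ^ (R - v) := mul_le_mul h2 h3 (by positivity) (by
        have := g.p_pos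
        positivity)
    _ = 1 * (p ^ v * (1 - p) ^ (R - v)) := by ring
    _ ≤ (R.choose v : ℝ) * (p ^ v * (1 - p) ^ (R - v)) := by
        have h4 : 0 ≤ p ^ v * (1 - p) ^ (R - v) := by
          have := g.p_pos
          have h5 : 0 < 1 - p := by linarith [g.p_lt]
          positivity
        exact mul_le_mul_of_nonneg_right h1 h4
    _ = _ := by ring

theorem Good.abs_log_bw {v : ℕ} (hv : v ≤ R) : |Real.log (bw R p v)| ≤ 2 ^ (5 * S) := by
  have hb := g.bw_pos hv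
  have hb1 : bw R p v ≤ 1 := by
    have h := g.bw_mul_sig hv
    have h2 := sigH_ge R p
    nlinarith
  have hl := g.bw_lower hv
  have hlog : Real.log (((1 / 2 : ℝ) ^ (S ^ 3)) ^ R) ≤ Real.log (bw R p v) :=
    Real.log_le_log (by positivity) hl
  rw [Real.log_pow, Real.log_pow] at hlog
  have hlog2 : Real.log (1 / 2 : ℝ) = -Real.log 2 := by
    rw [one_div, Real.log_inv]
  rw [hlog2] at hlog
  have h2 : Real.log 2 ≤ 1 := Real.log_two_lt_d9.le.trans (by norm_num)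
  have h20 : 0 ≤ Real.log 2 := (Real.log_pos (by norm_num)).le
  rw [abs_of_nonpos (Real.log_nonpos hb.le hb1)]
  have hR := g.R_real
  have hR0 : (0 : ℝ) ≤ R := Nat.cast_nonneg _
  have h3 : ((S ^ 3 : ℕ) : ℝ) ≤ 2 ^ (3 * S) := by
    have := g.spow_real 3
    push_cast
    exact this
  have h4 : (R : ℝ) * ((S ^ 3 : ℕ) : ℝ) ≤ 2 ^ S * 2 ^ (3 * S) := by
    apply mul_le_mul (by linarith) h3 (by positivity) (by positivity)
  have h5 : (2 : ℝ) ^ S * 2 ^ (3 * S) ≤ 2 ^ (5 * S) := by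
    rw [← pow_add]
    exact pow_le_pow_right₀ (by norm_num) (by omega)
  have h6 : (R : ℝ) * (((S ^ 3 : ℕ) : ℝ) * Real.log 2) ≤ (R : ℝ) * ((S ^ 3 : ℕ) : ℝ) := by
    have h7 : (0 : ℝ) ≤ (R : ℝ) * ((S ^ 3 : ℕ) : ℝ) := by positivity
    nlinarith
  have h8 : (R : ℝ) * (((S ^ 3 : ℕ) : ℝ) * -Real.log 2) = -((R : ℝ) * (((S ^ 3 : ℕ) : ℝ) * Real.log 2)) := by ring
  rw [h8] at hlog
  linarith

/-- The acceptance probability of a value. -/
noncomputable def rhoV (S R : ℕ) (a b : ℤ) (v : ℕ) : ℝ :=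
  (coinExpF S (acceptV S ((R : ℤ), a, b) v) 1).toReal

theorem Good.rho_close {v : ℕ} (hv : v ≤ R) :
    |rhoV S R a b v / (sigH R p / 2) - bw R p v|
      ≤ 4 * (1 / 2 : ℝ) ^ (S ^ 2) + bw R p v * (10 / (S : ℝ) ^ 42) := by
  obtain ⟨f1, f2, f3, f4, f5, f6, f7, f8⟩ := spow_facts g.hS
  have hSr := g.S_pos
  have hS0 : (0 : ℝ) < (S : ℝ) := by linarith
  have hb := g.bw_pos hv
  have hσ := sigH_ge R p
  set u : ℝ := sigH R p / 2 with hu
  have hu0 : 0 < u := by positivity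
  have hu1 : 1 / 2 ≤ u := by rw [hu]; linarith
  have hbu : bw R p v * u ≤ 1 / 2 := by
    have := g.bw_mul_sig hv
    rw [hu]
    nlinarith
  set lp := flog S a with hlp
  set lq := flog S b with hlq
  have hl1 : |val S (lbwF S (R : ℤ) (v : ℤ) lp lq) - Real.log (bw R p v)| ≤ 4 / (S : ℝ) ^ 42 :=
    lbwF_spec g.hS g.hR hv g.p_pos g.p_lt (by linarith [g.hp0, (by positivity : (0 : ℝ) < (1 / 2 : ℝ) ^ (S ^ 3))])
      (by linarith [g.hp1, (by positivity : (0 : ℝ) < (1 / 2 : ℝ) ^ (S ^ 3))]) g.log_a g.log_b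
  have hl2 := g.logUp
  set h0 : ℝ := (1 / 2 : ℝ) ^ (S ^ 3) with hh0
  have h3h : 3 * h0 ≤ 1 / (S : ℝ) ^ 42 := by
    have := g.half_le_inv (n := S ^ 3) (k := 42) (c := 3) (by norm_num) (by
      have h3 : S ^ 3 = S * S ^ 2 := by ring
      have h4 : 43 * S ^ 2 ≤ S * S ^ 2 := Nat.mul_le_mul_right _ (by have := g.hS; omega)
      have h5 : S ^ 2 = S * S := by ring
      have h6 : 43 * S ≤ S * S := Nat.mul_le_mul_right _ (by have := g.hS; omega)
      have := g.hS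
      omega)
    rw [hh0]
    exact_mod_cast this
  have hinv : 1 / (S : ℝ) ^ 42 ≤ 1 / 100 := by
    have h5 : (100 : ℝ) ≤ (S : ℝ) ^ 42 := by
      have h6 : (S : ℝ) ≤ (S : ℝ) ^ 42 := le_self_pow₀ (by linarith) (by norm_num)
      linarith
    exact one_div_le_one_div_of_le (by norm_num) h5
  have hsum4 : 4 / (S : ℝ) ^ 42 = 4 * (1 / (S : ℝ) ^ 42) := by ring
  -- magnitudes
  have hbig : ∀ {n : ℕ}, n ≤ S ^ 4 → (2 : ℝ) ^ n ≤ Big S := fun h => g.big_ge h
  have hS5 : 5 * S + 1 ≤ S ^ 4 := by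
    have : 1000000 * S ≤ S * S := Nat.mul_le_mul_right _ g.hS
    have h2 : S ^ 2 = S * S := by ring
    omega
  have h1le : (1 : ℝ) ≤ 2 ^ (5 * S) := one_le_pow₀ (by norm_num)
  have hB : (2 : ℝ) * 2 ^ (5 * S) ≤ Big S := by
    have := hbig hS5
    rw [pow_succ] at this
    linarith
  have habs1 : |val S (lbwF S (R : ℤ) (v : ℤ) lp lq)| ≤ Big S := by
    have h5 := g.abs_log_bw hv
    have h6 := abs_sub_abs_le_abs_sub (val S (lbwF S (R : ℤ) (v : ℤ) lp lq)) (Real.log (bw R p v))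
    linarith
  have hlogu : |Real.log u| ≤ 2 ^ S + 1 := by
    have e : Real.log u = Real.log (sigH R p) - Real.log 2 :=
      Real.log_div (by linarith) (by norm_num)
    have h5 : 0 ≤ Real.log (sigH R p) := Real.log_nonneg hσ
    have h6 : Real.log (sigH R p) ≤ sigH R p := Real.log_le_self (by linarith)
    have h7 : sigH R p ≤ 2 ^ S := by
      unfold sigH
      exact max_le (one_le_pow₀ (by norm_num)) g.sigT_le
    have h8 : Real.log 2 ≤ 1 := Real.log_two_lt_d9.le.trans (by norm_num)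
    have h9 : 0 ≤ Real.log 2 := (Real.log_pos (by norm_num)).le
    have h10 : (1 : ℝ) ≤ 2 ^ S := one_le_pow₀ (by norm_num)
    rw [e, abs_le]
    constructor <;> linarith
  have habs2 : |val S (logUpF S ((R : ℤ), a, b))| ≤ Big S := by
    have h6 := abs_sub_abs_le_abs_sub (val S (logUpF S ((R : ℤ), a, b))) (Real.log u)
    have h7 : (2 : ℝ) ^ S ≤ 2 ^ (5 * S) := pow_le_pow_right₀ (by norm_num) (by omega)
    have h8 : h0 ≤ 1 := pow_le_one₀ (by norm_num) (by norm_num)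
    have hl2' : |val S (logUpF S ((R : ℤ), a, b)) - Real.log u| ≤ 3 * h0 := hl2
    have h9 : (0 : ℝ) ≤ h0 := by rw [hh0]; positivity
    have h10 : (4 : ℝ) ≤ 2 ^ (5 * S) := by
      have h11 : (2 : ℝ) ^ 2 ≤ 2 ^ (5 * S) := pow_le_pow_right₀ (by norm_num) (by have := g.hS; omega)
      norm_num at h11
      linarith
    linarith
  have hval : val S (acceptV S ((R : ℤ), a, b) v)
      = val S (lbwF S (R : ℤ) (v : ℤ) lp lq) + val S (logUpF S ((R : ℤ), a, b)) :=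
    val_add g.hS habs1 habs2
  -- the exponent
  set θ : ℝ := val S (acceptV S ((R : ℤ), a, b) v) - Real.log (bw R p v * u) with hθ
  have hlogmul : Real.log (bw R p v * u) = Real.log (bw R p v) + Real.log u :=
    Real.log_mul hb.ne' hu0.ne'
  have hθ1 : |θ| ≤ 5 / (S : ℝ) ^ 42 := by
    rw [hθ, hval, hlogmul]
    have a1 := abs_le.1 hl1
    have a2 := abs_le.1 hl2
    have e5 : 5 / (S : ℝ) ^ 42 = 4 / (S : ℝ) ^ 42 + 1 / (S : ℝ) ^ 42 := by ring
    rw [abs_le, e5]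
    constructor <;> linarith [a1.1, a1.2, a2.1, a2.2]
  have h5inv : 5 / (S : ℝ) ^ 42 = 5 * (1 / (S : ℝ) ^ 42) := by ring
  have hθ2 : |θ| ≤ 1 / 2 := by linarith
  have hexp : Real.exp (val S (acceptV S ((R : ℤ), a, b) v)) = bw R p v * u * Real.exp θ := by
    have : val S (acceptV S ((R : ℤ), a, b) v) = Real.log (bw R p v * u) + θ := by rw [hθ]; ring
    rw [this, Real.exp_add, Real.exp_log (by positivity)]
  have hexp1 := Real.abs_exp_sub_one_le (x := θ) (by linarith)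
  have hexp2 : Real.exp θ ≤ 2 := by
    have := (abs_le.1 hexp1).2
    linarith
  have hmin : min 1 (Real.exp (val S (acceptV S ((R : ℤ), a, b) v)))
      = bw R p v * u * Real.exp θ := by
    rw [hexp]
    refine min_eq_right ?_
    have h6 : 0 < Real.exp θ := Real.exp_pos _
    nlinarith
  have hcoin := coinExpF_spec g.hS (acceptV S ((R : ℤ), a, b) v)
  rw [hmin] at hcoin
  have h1 : rhoV S R a b v / u - bw R p v
      = (rhoV S R a b v - bw R p v * u * Real.exp θ) / u + bw R p v * (Real.exp θ - 1) := by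
    field_simp
    ring
  rw [h1]
  refine (abs_add_le _ _).trans (add_le_add ?_ ?_)
  · rw [abs_div, abs_of_pos hu0, div_le_iff₀ hu0]
    have h7 : (0 : ℝ) < (1 / 2 : ℝ) ^ (S ^ 2) := by positivity
    have h8 : |rhoV S R a b v - bw R p v * u * Real.exp θ| ≤ 2 * (1 / 2 : ℝ) ^ (S ^ 2) := hcoin
    nlinarith
  · rw [abs_mul, abs_of_pos hb]
    refine mul_le_mul_of_nonneg_left ?_ hb.le
    have e10 : 10 / (S : ℝ) ^ 42 = 2 * (5 / (S : ℝ) ^ 42) := by ring
    rw [e10]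
    linarith

/-- The integers of the window in the range. -/
def winSet (R : ℕ) (D : ℤ) (e : ℕ) : Finset ℕ :=
  (range (R + 1)).filter fun v => D ≤ (v : ℤ) ∧ (v : ℤ) < D + 2 ^ e

theorem Good.window_mass {e : ℕ} (he1 : 1 ≤ e) (hy : winY S ((R : ℤ), a, b) ≤ 2 ^ e) :
    1 - 1 / (S : ℝ) ^ 28
      ≤ ∑ v ∈ winSet R (centerF S ((R : ℤ), a, b) - 2 ^ (e - 1)) e, bw R p v := by
  have hSr := g.S_pos
  have hS0 : (0 : ℝ) < (S : ℝ) := by linarith
  have hp0 := g.p_pos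
  have hp1 := g.p_lt
  set C := centerF S ((R : ℤ), a, b) with hC
  set D : ℤ := C - 2 ^ (e - 1) with hD
  set G := winSet R D e with hG
  have hGV : G ⊆ range (R + 1) := filter_subset _ _
  have hn1 : (1 : ℝ) ≤ (nF S R a b : ℝ) := by exact_mod_cast g.nF_pos
  have hnr := g.nF_real.1
  have hcl := abs_le.1 g.sig_close
  have hτ : (1 / 2 : ℝ) ^ (S ^ 3) ≤ 1 := pow_le_one₀ (by norm_num) (by norm_num)
  have hσ : sigT R p ≤ (nF S R a b : ℝ) := by linarith [hcl.1]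
  have hy2 : 4 * (S : ℝ) ^ 14 * (nF S R a b : ℝ) ≤ 2 ^ e := by
    have := g.winY_eq
    rw [this] at hy
    exact_mod_cast hy
  have he2 : (2 : ℝ) ^ e = 2 * 2 ^ (e - 1) := by
    rw [← pow_succ']
    congr 1
    omega
  set r : ℝ := (S : ℝ) ^ 14 * (nF S R a b : ℝ) with hr
  have hS14 : (1000000 : ℝ) ≤ (S : ℝ) ^ 14 := hSr.trans (le_self_pow₀ (by linarith) (by norm_num))
  have hr2 : 1000000 ≤ r := by
    rw [hr]
    nlinarith
  have hy3 : 2 * r ≤ 2 ^ (e - 1) := by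
    rw [he2] at hy2
    rw [hr]
    linarith
  have hcc := abs_le.1 g.center_close
  rw [← hC] at hcc
  have hfar : ∀ v ∈ range (R + 1) \ G, r ^ 2 ≤ ((v : ℝ) - R * p) ^ 2 := by
    intro v hv
    rw [Finset.mem_sdiff] at hv
    have hnot : ¬ (D ≤ (v : ℤ) ∧ (v : ℤ) < D + 2 ^ e) := fun h =>
      hv.2 (Finset.mem_filter.2 ⟨hv.1, h⟩)
    have hrnn : 0 ≤ r := by linarith
    rw [not_and_or, not_le, not_lt] at hnot
    rcases hnot with h | h
    · have h' : (v : ℝ) < (C : ℝ) - 2 ^ (e - 1) := by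
        have : ((v : ℤ) : ℝ) < ((D : ℤ) : ℝ) := by exact_mod_cast h
        rw [hD] at this
        push_cast at this
        exact this
      have : r ≤ (R : ℝ) * p - v := by linarith [hcc.2]
      nlinarith
    · have h' : (C : ℝ) - 2 ^ (e - 1) + 2 ^ e ≤ (v : ℝ) := by
        have : ((D + 2 ^ e : ℤ) : ℝ) ≤ ((v : ℤ) : ℝ) := by exact_mod_cast h
        rw [hD] at this
        push_cast at this
        exact this
      have : r ≤ (v : ℝ) - R * p := by linarith [hcc.1]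
      nlinarith
  have key : r ^ 2 * ∑ v ∈ range (R + 1) \ G, bw R p v ≤ (nF S R a b : ℝ) ^ 2 := by
    calc r ^ 2 * ∑ v ∈ range (R + 1) \ G, bw R p v
        = ∑ v ∈ range (R + 1) \ G, r ^ 2 * bw R p v := Finset.mul_sum _ _ _
      _ ≤ ∑ v ∈ range (R + 1) \ G, ((v : ℝ) - R * p) ^ 2 * bw R p v :=
          Finset.sum_le_sum fun v hv =>
            mul_le_mul_of_nonneg_right (hfar v hv) (bw_nonneg hp0.le hp1.le v)
      _ ≤ ∑ v ∈ range (R + 1), ((v : ℝ) - R * p) ^ 2 * bw R p v :=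
          Finset.sum_le_sum_of_subset_of_nonneg Finset.sdiff_subset
            fun v _ _ => mul_nonneg (sq_nonneg _) (bw_nonneg hp0.le hp1.le v)
      _ = (R : ℝ) * p * (1 - p) := Vale.Agent.Lib.P328.Fpras.sum_sq_bw R p
      _ = sigT R p ^ 2 := g.sigT_sq.symm
      _ ≤ (nF S R a b : ℝ) ^ 2 := pow_le_pow_left₀ (sigT_nonneg R p) hσ 2
  have hsum := Finset.sum_sdiff (f := fun v => bw R p v) hGV
  rw [Vale.Agent.Lib.P328.Fpras.sum_bw_eq_one] at hsum
  have htail : ∑ v ∈ range (R + 1) \ G, bw R p v ≤ 1 / (S : ℝ) ^ 28 := by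
    rw [le_div_iff₀ (by positivity)]
    have e1 : r ^ 2 = (S : ℝ) ^ 28 * (nF S R a b : ℝ) ^ 2 := by rw [hr]; ring
    rw [e1] at key
    have hn2 : (0 : ℝ) < (nF S R a b : ℝ) ^ 2 := by positivity
    have : ((∑ v ∈ range (R + 1) \ G, bw R p v) * (S : ℝ) ^ 28) * (nF S R a b : ℝ) ^ 2
        ≤ 1 * (nF S R a b : ℝ) ^ 2 := by linarith [key]
    exact le_of_mul_le_mul_right this hn2
  linarith

/-- A large exponential. -/
theorem Good.exp_small : Real.exp (-((S : ℝ) ^ 2 / 128)) ≤ 1 / (S : ℝ) ^ 30 := by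
  have hSr := g.S_pos
  have hS0 : (0 : ℝ) < (S : ℝ) := by linarith
  rw [Real.exp_neg, ← one_div]
  refine one_div_le_one_div_of_le (by positivity) ?_
  set x : ℝ := (S : ℝ) ^ 2 / 3840 with hx
  have h1 : (S : ℝ) ≤ x := by
    rw [hx, le_div_iff₀ (by norm_num)]
    nlinarith
  have h2 : x ≤ Real.exp x := by linarith [Real.add_one_le_exp x]
  have h3 : (S : ℝ) ≤ Real.exp x := h1.trans h2
  have h4 : (S : ℝ) ^ 2 / 128 = ((30 : ℕ) : ℝ) * x := by
    rw [hx]
    push_cast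
    ring
  rw [h4, Real.exp_nat_mul]
  exact pow_le_pow_left₀ hS0.le h3 30

theorem Good.err_sum {G : Finset ℕ} (hGV : G ⊆ range (R + 1)) :
    ∑ v ∈ G, |rhoV S R a b v / (sigH R p / 2) - bw R p v| ≤ 11 / (S : ℝ) ^ 42 := by
  have hSr := g.S_pos
  have hS0 : (0 : ℝ) < (S : ℝ) := by linarith
  have hp0 := g.p_pos
  have hp1 := g.p_lt
  have hτ : ((R : ℝ) + 1) * (4 * (1 / 2 : ℝ) ^ (S ^ 2)) ≤ 1 / (S : ℝ) ^ 42 := by
    have hSS : 44 * S ≤ S * S := Nat.mul_le_mul_right _ (by have := g.hS; omega)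
    have hS2 : S ^ 2 = S * S := by ring
    have hS3 := g.hS
    have h1 := g.half_le_inv (n := S ^ 2 - (S + 2)) (k := 42) (c := 1) (by norm_num) (by omega)
    have e1 : (1 / 2 : ℝ) ^ (S ^ 2) = (1 / 2 : ℝ) ^ (S + 2) * (1 / 2 : ℝ) ^ (S ^ 2 - (S + 2)) := by
      rw [← pow_add]
      congr 1
      omega
    have hR1 : (R : ℝ) + 1 ≤ 2 ^ S := by
      have : R + 1 ≤ 2 ^ S := g.hR
      exact_mod_cast this
    have e2 : (2 : ℝ) ^ S * (4 * (1 / 2 : ℝ) ^ (S + 2)) = 1 := by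
      have h := two_pow_mul_half (S + 2)
      rw [pow_add (2 : ℝ), pow_two] at h
      linarith
    have h4 : ((R : ℝ) + 1) * (4 * (1 / 2 : ℝ) ^ (S + 2)) ≤ 1 := by
      calc _ ≤ (2 : ℝ) ^ S * (4 * (1 / 2 : ℝ) ^ (S + 2)) :=
            mul_le_mul_of_nonneg_right hR1 (by positivity)
        _ = 1 := e2
    rw [e1]
    have h6 : (0 : ℝ) < (1 / 2 : ℝ) ^ (S ^ 2 - (S + 2)) := by positivity
    calc ((R : ℝ) + 1) * (4 * ((1 / 2 : ℝ) ^ (S + 2) * (1 / 2 : ℝ) ^ (S ^ 2 - (S + 2))))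
        = (((R : ℝ) + 1) * (4 * (1 / 2 : ℝ) ^ (S + 2))) * (1 / 2 : ℝ) ^ (S ^ 2 - (S + 2)) := by ring
      _ ≤ 1 * (1 / 2 : ℝ) ^ (S ^ 2 - (S + 2)) := mul_le_mul_of_nonneg_right h4 h6.le
      _ ≤ 1 / (S : ℝ) ^ 42 := by
        have := h1
        push_cast at this
        exact this
  calc ∑ v ∈ G, |rhoV S R a b v / (sigH R p / 2) - bw R p v|
      ≤ ∑ v ∈ G, (4 * (1 / 2 : ℝ) ^ (S ^ 2) + bw R p v * (10 / (S : ℝ) ^ 42)) :=
        Finset.sum_le_sum fun v hv =>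
          g.rho_close (by
            have := Finset.mem_range.1 (hGV hv)
            omega)
    _ ≤ ∑ v ∈ range (R + 1), (4 * (1 / 2 : ℝ) ^ (S ^ 2) + bw R p v * (10 / (S : ℝ) ^ 42)) :=
        Finset.sum_le_sum_of_subset_of_nonneg hGV fun v _ _ => by
          have := bw_nonneg hp0.le hp1.le (R := R) v
          positivity
    _ = ((R : ℝ) + 1) * (4 * (1 / 2 : ℝ) ^ (S ^ 2)) + 10 / (S : ℝ) ^ 42 := by
        rw [Finset.sum_add_distrib, Finset.sum_const, Finset.card_range, nsmul_eq_mul,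
          ← Finset.sum_mul, Vale.Agent.Lib.P328.Fpras.sum_bw_eq_one]
        push_cast
        ring
    _ ≤ 11 / (S : ℝ) ^ 42 := by
        have e11 : 11 / (S : ℝ) ^ 42 = 1 / (S : ℝ) ^ 42 + 10 / (S : ℝ) ^ 42 := by ring
        rw [e11]
        linarith

/-- The size of the window against the standard deviation. -/
theorem Good.two_e_le {e : ℕ} (hy2 : (2 : ℤ) ^ e < 2 * winY S ((R : ℤ), a, b)) :
    (2 : ℝ) ^ e ≤ 64 * (S : ℝ) ^ 14 * (sigH R p / 2) := by
  have hSr := g.S_pos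
  have hS0 : (0 : ℝ) < (S : ℝ) := by linarith
  have hnr := g.nF_real.2
  have hcl := abs_le.1 g.sig_close
  have hτ1 : (1 / 2 : ℝ) ^ (S ^ 3) ≤ 1 := pow_le_one₀ (by norm_num) (by norm_num)
  have hσt : sigT R p ≤ sigH R p := le_max_right _ _
  have hσ := sigH_ge R p
  have hn4 : (nF S R a b : ℝ) ≤ 4 * sigH R p := by linarith [hcl.2]
  have hS14p : (0 : ℝ) < (S : ℝ) ^ 14 := by positivity
  rw [g.winY_eq] at hy2
  have h2 : (2 : ℝ) ^ e < 2 * (4 * (S : ℝ) ^ 14 * (nF S R a b : ℝ)) := by exact_mod_cast hy2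
  have h3 : (S : ℝ) ^ 14 * (nF S R a b : ℝ) ≤ (S : ℝ) ^ 14 * (4 * sigH R p) :=
    mul_le_mul_of_nonneg_left hn4 hS14p.le
  nlinarith

/-- The tail of the tries. -/
theorem Good.tries_tail {s Q : ℝ} (hQs : Q = 1 - s) (hQ0 : 0 ≤ Q)
    (hs1 : 1 / (128 * (S : ℝ) ^ 14) ≤ s) : Q ^ (S ^ 16) ≤ 1 / (S : ℝ) ^ 30 := by
  have hSr := g.S_pos
  have hS0 : (0 : ℝ) < (S : ℝ) := by linarith
  have h1 : Q ≤ Real.exp (-s) := by
    rw [hQs]
    exact Real.one_sub_le_exp_neg s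
  have h2 : Q ^ (S ^ 16) ≤ Real.exp (-s) ^ (S ^ 16) := pow_le_pow_left₀ hQ0 h1 _
  rw [← Real.exp_nat_mul] at h2
  have h3 : (S : ℝ) ^ 2 / 128 ≤ ((S ^ 16 : ℕ) : ℝ) * s := by
    have h4 : ((S ^ 16 : ℕ) : ℝ) = (S : ℝ) ^ 16 := by push_cast; ring
    rw [h4]
    have h5 : (S : ℝ) ^ 16 * (1 / (128 * (S : ℝ) ^ 14)) = (S : ℝ) ^ 2 / 128 := by
      field_simp
    rw [← h5]
    exact mul_le_mul_of_nonneg_left hs1 (by positivity)
  have h6 : Real.exp (((S ^ 16 : ℕ) : ℝ) * -s) ≤ Real.exp (-((S : ℝ) ^ 2 / 128)) := by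
    apply Real.exp_le_exp.2
    linarith
  exact h2.trans (h6.trans g.exp_small)

/-- The final count. -/
theorem Good.final_count {A B W : ℝ} (hW : W ≤ 1 / (S : ℝ) ^ 30)
    (hB : 1 - 1 / (S : ℝ) ^ 28 ≤ B) (hA : A ≤ 11 / (S : ℝ) ^ 42) :
    W + 2 * (1 - B) + 2 * A ≤ 1 / (S : ℝ) ^ 26 := by
  have hSr := g.S_pos
  have hS0 : (0 : ℝ) < (S : ℝ) := by linarith
  have hi28 : (0 : ℝ) < 1 / (S : ℝ) ^ 28 := by positivity
  have hS14 : (1000000 : ℝ) ≤ (S : ℝ) ^ 14 := hSr.trans (le_self_pow₀ (by linarith) (by norm_num))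
  have h42 : 11 / (S : ℝ) ^ 42 ≤ 1 / (S : ℝ) ^ 28 / 1000 := by
    have e1 : 11 / (S : ℝ) ^ 42 = 1 / (S : ℝ) ^ 28 * (11 / (S : ℝ) ^ 14) := by
      field_simp
    rw [e1, div_eq_mul_inv (1 / (S : ℝ) ^ 28)]
    refine mul_le_mul_of_nonneg_left ?_ hi28.le
    rw [div_le_iff₀ (by positivity)]
    norm_num
    linarith
  have h30 : 1 / (S : ℝ) ^ 30 ≤ 1 / (S : ℝ) ^ 28 := by
    refine one_div_le_one_div_of_le (by positivity) ?_
    exact pow_le_pow_right₀ (by linarith) (by norm_num)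
  have h26 : 1 / (S : ℝ) ^ 26 = (S : ℝ) ^ 2 * (1 / (S : ℝ) ^ 28) := by
    field_simp
  have hS2 : (1000000 : ℝ) ≤ (S : ℝ) ^ 2 := by nlinarith
  have h3 : 4 * (1 / (S : ℝ) ^ 28) ≤ (S : ℝ) ^ 2 * (1 / (S : ℝ) ^ 28) :=
    mul_le_mul_of_nonneg_right (by linarith) hi28.le
  rw [h26]
  linarith

/-- The mass of the window is at least one half. -/
theorem Good.half_le_mass {G : Finset ℕ}
    (hB : 1 - 1 / (S : ℝ) ^ 28 ≤ ∑ v ∈ G, bw R p v)
    (hA : ∑ v ∈ G, |rhoV S R a b v / (sigH R p / 2) - bw R p v| ≤ 11 / (S : ℝ) ^ 42) :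
    1 / 2 ≤ ∑ v ∈ G, rhoV S R a b v / (sigH R p / 2) := by
  have hSr := g.S_pos
  have h1 : ∑ v ∈ G, bw R p v - ∑ v ∈ G, rhoV S R a b v / (sigH R p / 2)
      ≤ ∑ v ∈ G, |rhoV S R a b v / (sigH R p / 2) - bw R p v| := by
    rw [← Finset.sum_sub_distrib]
    refine Finset.sum_le_sum fun v _ => ?_
    rw [abs_sub_comm]
    exact le_abs_self _
  have h2 : 1 / (S : ℝ) ^ 28 ≤ 1 / 100 := by
    have h5 : (100 : ℝ) ≤ (S : ℝ) ^ 28 := by
      have h6 : (S : ℝ) ≤ (S : ℝ) ^ 28 := le_self_pow₀ (by linarith) (by norm_num)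
      linarith
    exact one_div_le_one_div_of_le (by norm_num) h5
  have h3 : 11 / (S : ℝ) ^ 42 ≤ 1 / 100 := by
    have h5 : (1100 : ℝ) ≤ (S : ℝ) ^ 42 := by
      have h6 : (S : ℝ) ≤ (S : ℝ) ^ 42 := le_self_pow₀ (by linarith) (by norm_num)
      linarith
    rw [div_le_iff₀ (by positivity)]
    linarith
  linarith

omit g in
/-- The abstract form of the law of the tries. -/
theorem law_assemble {V G : Finset ℕ} (hGV : G ⊆ V) {rho bwf q P : ℕ → ℝ} {u E Q : ℝ} {T : ℕ}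
    (hu0 : 0 < u) (hE : 0 < E) (hrho : ∀ v ∈ G, 0 ≤ rho v) (hbw : ∀ v ∈ V, 0 ≤ bwf v)
    (hbw1 : ∑ v ∈ V, bwf v = 1)
    (hq : ∀ v ∈ V, q v = if v ∈ G then rho v / E else 0)
    (hQs : Q = 1 - ∑ v ∈ V, q v) (hQ0 : 0 ≤ Q)
    (hP : ∀ v ∈ V, P v = q v * ∑ t ∈ range T, Q ^ t)
    (hF : 1 / 2 ≤ ∑ v ∈ G, rho v / u) :
    (∑ v ∈ V, q v = u / E * ∑ v ∈ G, rho v / u)
    ∧ ∑ v ∈ V, |P v - bwf v|
      ≤ Q ^ T + 2 * (1 - ∑ v ∈ G, bwf v) + 2 * ∑ v ∈ G, |rho v / u - bwf v| := by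
  have hsF : ∑ v ∈ V, q v = u / E * ∑ v ∈ G, rho v / u := by
    rw [Finset.sum_congr rfl hq, Finset.sum_ite_mem, Finset.inter_eq_right.2 hGV, Finset.mul_sum]
    refine Finset.sum_congr rfl fun v _ => ?_
    field_simp
  refine ⟨hsF, ?_⟩
  set F : ℝ := ∑ v ∈ G, rho v / u with hFdef
  have hF0 : 0 < F := by linarith
  set s : ℝ := ∑ v ∈ V, q v with hs
  have hs0 : 0 < s := by
    rw [hsF]
    positivity
  have hQ1 : Q ≤ 1 := by linarith
  set Ξ : ℝ := ∑ t ∈ range T, Q ^ t with hΞ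
  have hsΞ : s * Ξ = 1 - Q ^ T := by
    have h1 := mul_neg_geom_sum Q T
    rw [← hΞ] at h1
    have h2 : 1 - Q = s := by linarith
    rw [h2] at h1
    exact h1
  have hQT0 : 0 ≤ Q ^ T := pow_nonneg hQ0 _
  have hQT1 : Q ^ T ≤ 1 := pow_le_one₀ hQ0 hQ1
  have hfnn : ∀ v ∈ G, 0 ≤ rho v / u := fun v hv => div_nonneg (hrho v hv) hu0.le
  have hl1 := l1_norm hGV hfnn hbw hbw1 (κ := 1 - Q ^ T) (by linarith) (by linarith) hF0
  have hPeq : ∀ v ∈ V, P v = if v ∈ G then (1 - Q ^ T) * (rho v / u) / F else 0 := by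
    intro v hv
    rw [hP v hv, hq v hv]
    by_cases h : v ∈ G
    · rw [if_pos h, if_pos h, ← hsΞ, hsF]
      field_simp
    · rw [if_neg h, if_neg h, zero_mul]
  have e1 : 1 - (1 - Q ^ T) = Q ^ T := by ring
  rw [e1] at hl1
  refine le_trans (le_of_eq ?_) hl1
  refine Finset.sum_congr rfl fun v hv => ?_
  rw [hPeq v hv]

theorem Good.close :
    ∑ v ∈ range (R + 1), |(binF S ((R : ℤ), a, b) (v : ℤ)).toReal - bw R p v|
      ≤ 1 / (S : ℝ) ^ 26 := by
  have hSr := g.S_pos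
  have hS0 : (0 : ℝ) < (S : ℝ) := by linarith
  have hp0 := g.p_pos
  have hp1 := g.p_lt
  obtain ⟨e, he1, he2, hw, hy1, hy2⟩ := g.winW_spec
  have hcand : ∀ U : ℤ, 0 ≤ U → U < 2 ^ (S ^ 2) →
      candF S (((R : ℤ), a, b), U)
        = (centerF S ((R : ℤ), a, b) - 2 ^ (e - 1)) + U % 2 ^ e := fun U h0 h1 =>
    g.cand_eq he1 he2 hw h0 h1
  have hGV : winSet R (centerF S ((R : ℤ), a, b) - 2 ^ (e - 1)) e ⊆ range (R + 1) :=
    filter_subset _ _
  have hσ := sigH_ge R p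
  have hu0 : 0 < sigH R p / 2 := by positivity
  have he0 : (0 : ℝ) < 2 ^ e := by positivity
  have hq : ∀ v ∈ range (R + 1), (tryF S ((R : ℤ), a, b) (v : ℤ)).toReal
      = if v ∈ winSet R (centerF S ((R : ℤ), a, b) - 2 ^ (e - 1)) e
        then rhoV S R a b v / 2 ^ e else 0 := by
    intro v hv
    have hvR : v ≤ R := by
      have := Finset.mem_range.1 hv
      omega
    rw [tryF_toReal g.hS g.hR he2 hcand hvR]
    have hmem : v ∈ winSet R (centerF S ((R : ℤ), a, b) - 2 ^ (e - 1)) e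
        ↔ (centerF S ((R : ℤ), a, b) - 2 ^ (e - 1) ≤ (v : ℤ)
          ∧ (v : ℤ) < centerF S ((R : ℤ), a, b) - 2 ^ (e - 1) + 2 ^ e) := by
      unfold winSet
      rw [Finset.mem_filter]
      exact ⟨fun h => h.2, fun h => ⟨hv, h⟩⟩
    by_cases h : centerF S ((R : ℤ), a, b) - 2 ^ (e - 1) ≤ (v : ℤ)
          ∧ (v : ℤ) < centerF S ((R : ℤ), a, b) - 2 ^ (e - 1) + 2 ^ e
    · rw [if_pos h, if_pos (hmem.2 h)]
      rfl
    · rw [if_neg h, if_neg (fun h2 => h (hmem.1 h2))]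
  have hA := g.err_sum hGV
  have hB := g.window_mass he1 hy1
  have hF := g.half_le_mass hB hA
  have hQs := tryF_total g.hR a b
  have hQ0 : 0 ≤ (tryF S ((R : ℤ), a, b) (-1)).toReal := ENNReal.toReal_nonneg
  obtain ⟨hsF, hl⟩ := law_assemble hGV hu0 he0 (fun v _ => (ENNReal.toReal_nonneg : 0 ≤ rhoV S R a b v))
    (fun v _ => bw_nonneg hp0.le hp1.le (R := R) v)
    (Vale.Agent.Lib.P328.Fpras.sum_bw_eq_one R p) hq hQs hQ0
    (T := S ^ 16) (P := fun v => (binF S ((R : ℤ), a, b) (v : ℤ)).toReal)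
    (fun v _ => binF_toReal g.hR a b) hF
  have h2e := g.two_e_le hy2
  have hs1 : 1 / (128 * (S : ℝ) ^ 14)
      ≤ ∑ v ∈ range (R + 1), (tryF S ((R : ℤ), a, b) (v : ℤ)).toReal := by
    rw [hsF, div_le_iff₀ (by positivity)]
    have h1 : 1 ≤ (sigH R p / 2) / 2 ^ e * (64 * (S : ℝ) ^ 14) := by
      rw [div_mul_eq_mul_div, le_div_iff₀ he0]
      linarith
    have h3 : 0 ≤ (sigH R p / 2) / 2 ^ e := by positivity
    calc (1 : ℝ) ≤ (sigH R p / 2) / 2 ^ e * (64 * (S : ℝ) ^ 14) := h1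
      _ = (sigH R p / 2) / 2 ^ e * (1 / 2) * (128 * (S : ℝ) ^ 14) := by ring
      _ ≤ _ := by
        gcongr
        exact hF
  have hW := g.tries_tail hQs hQ0 hs1
  exact hl.trans (g.final_count hW hB hA)

end Good

end SampAux

theorem binF_rep : Rep binF := by
  have h := Rep.iterPow (α := ℤ × ℤ × ℤ) (β := ℤ) 16 stepF_rep
  have h2 : DRep (β := (ℤ × ℤ × ℤ) × ℤ) fun S (x : ℤ × ℤ × ℤ) => (x, (-1 : ℤ)) :=
    DRep.id'.pair negOne_rep
  have h3 := rep_after h2 h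
  exact h3

theorem binF_support {S : ℕ} (hS : 1000000 ≤ S) {R : ℕ} (hR : R < 2 ^ S) (a b v : ℤ)
    (h : binF S ((R : ℤ), a, b) v ≠ 0) : v = -1 ∨ (0 ≤ v ∧ v ≤ R) := by
  have hq := fun v hv => tryF_support (S := S) hR a b v hv
  have hq2 : ∀ v, tryF S ((R : ℤ), a, b) v ≠ 0 → v = -1 ∨ 0 ≤ v := fun v hv =>
    (hq v hv).imp_right fun h => h.1
  obtain ⟨_, h2, h3⟩ := iter_law hq2 (S ^ 16)
  unfold binF at h
  rcases lt_trichotomy v (-1) with h4 | h4 | h4
  · exact absurd (h3 v h4) h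
  · exact Or.inl h4
  · right
    have hv0 : 0 ≤ v := by omega
    refine ⟨hv0, ?_⟩
    rw [h2 v hv0] at h
    exact (hq v (left_ne_zero_of_mul h)).elim (fun h5 => absurd h5 (by omega)) fun h5 => h5.2

/-- **The law of the sampler.** -/
theorem binF_close {S : ℕ} (hS : 1000000 ≤ S) {R : ℕ} (hR : R < 2 ^ S) {p : ℝ} {a b : ℤ}
    (hp0 : 2 * (1 / 2 : ℝ) ^ (S ^ 3) ≤ p) (hp1 : 2 * (1 / 2 : ℝ) ^ (S ^ 3) ≤ 1 - p)
    (ha : |val S a - p| ≤ (1 / 2 : ℝ) ^ (S ^ 4)) (hb : |val S b - (1 - p)| ≤ (1 / 2 : ℝ) ^ (S ^ 4)) :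
    ∑ v ∈ range (R + 1), |(binF S ((R : ℤ), a, b) (v : ℤ)).toReal - bw R p v| ≤ 1 / (S : ℝ) ^ 26 :=
  SampAux.Good.close ⟨hS, hR, hp0, hp1, ha, hb⟩

end Vale.Agent.Lib.P328.Bit
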