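import Vale.Agent.Lib.P328.Bit.Lists

/-!
# P328, bit model: the law of independent samples and of binds

`seqP_cons_apply`, `seqP_ofFn`, `seqP_length`, `exists_ofFn`, `bind_apply_single`, `exists_of_bind_ne`.
-/

namespace Vale.Agent.Lib.P328.Bit

/-! ### Independent samples -/

theorem seqP_cons_apply {β : Type} (μ : PMF β) (l : List (PMF β)) (a : β) (t : List β) :
    seqP (μ :: l) (a :: t) = μ a * seqP l t := by
  classical
  have e : seqP (μ :: l) = μ.bind fun a => (seqP l).bind fun t => PMF.pure (a :: t) := rfl
  rw [e, PMF.bind_apply, tsum_eq_single a]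
  · congr 1
    rw [PMF.bind_apply, tsum_eq_single t]
    · simp
    · intro t' ht'
      have : (a :: t) ≠ (a :: t') := fun h => ht' (List.cons.inj h).2.symm
      simp [PMF.pure_apply, this]
  · intro a' ha'
    have : ∀ t' : List β, (PMF.pure (a' :: t')) (a :: t) = 0 := fun t' => by
      have : (a :: t) ≠ (a' :: t') := fun h => ha' (List.cons.inj h).1.symm
      simp [PMF.pure_apply, this]
    simp [PMF.bind_apply, this]

theorem seqP_cons_nil {β : Type} (μ : PMF β) (l : List (PMF β)) : seqP (μ :: l) [] = 0 := by
  classical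
  have e : seqP (μ :: l) = μ.bind fun a => (seqP l).bind fun t => PMF.pure (a :: t) := rfl
  rw [e]
  simp [PMF.bind_apply, PMF.pure_apply]

theorem seqP_nil_cons {β : Type} (a : β) (t : List β) : seqP [] (a :: t) = 0 := by
  classical
  have e : seqP ([] : List (PMF β)) = PMF.pure [] := rfl
  rw [e]
  simp [PMF.pure_apply]

theorem seqP_nil_nil {β : Type} : seqP ([] : List (PMF β)) [] = 1 := by
  classical
  have e : seqP ([] : List (PMF β)) = PMF.pure [] := rfl
  rw [e]
  simp [PMF.pure_apply]

/-- The samples have the right length. -/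
theorem seqP_length {β : Type} (l : List (PMF β)) (xs : List β) (h : seqP l xs ≠ 0) :
    xs.length = l.length := by
  induction l generalizing xs with
  | nil =>
    cases xs with
    | nil => rfl
    | cons a t => exact absurd (seqP_nil_cons a t) h
  | cons μ l ih =>
    cases xs with
    | nil => exact absurd (seqP_cons_nil μ l) h
    | cons a t =>
      rw [seqP_cons_apply] at h
      have := ih t (right_ne_zero_of_mul h)
      simp [this]

/-- The law of independent samples. -/
theorem seqP_ofFn {β : Type} {k : ℕ} (μ : Fin k → PMF β) (g : Fin k → β) :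
    seqP (List.ofFn μ) (List.ofFn g) = ∏ a, μ a (g a) := by
  induction k with
  | zero => simp [seqP_nil_nil]
  | succ k ih =>
    rw [List.ofFn_succ, List.ofFn_succ, seqP_cons_apply, ih, Fin.prod_univ_succ]

/-- A list of the right length is of the form `ofFn`. -/
theorem exists_ofFn {β : Type} {k : ℕ} (xs : List β) (h : xs.length = k) :
    ∃ g : Fin k → β, xs = List.ofFn g := by
  subst h
  exact ⟨xs.get, (List.ofFn_get xs).symm⟩

/-- The law of a bind, if only one value contributes. -/
theorem bind_apply_single {β γ : Type} (μ : PMF β) (f : β → PMF γ) (b0 : β) (a : γ)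
    (h : ∀ b, b ≠ b0 → μ b = 0 ∨ f b a = 0) : (μ.bind f) a = μ b0 * f b0 a := by
  rw [PMF.bind_apply, tsum_eq_single b0]
  intro b hb
  rcases h b hb with h1 | h1 <;> simp [h1]

/-- The support of a bind. -/
theorem exists_of_bind_ne {β γ : Type} {μ : PMF β} {f : β → PMF γ} {a : γ} (h : (μ.bind f) a ≠ 0) :
    ∃ b, μ b ≠ 0 ∧ f b a ≠ 0 := by
  by_contra hcon
  push Not at hcon
  apply h
  rw [PMF.bind_apply]
  refine ENNReal.tsum_eq_zero.2 fun b => ?_
  by_cases hb : μ b = 0
  · simp [hb]
  · simp [hcon b hb]

end Vale.Agent.Lib.P328.Bit
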