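import Vale.Agent.Lib.P328.Bit.StepRate

/-!
# P328, bit model: one step of the walk (module STEPF)

Words: `r`, the list `cl` of all columns, the node `v` as `lV`. The node has the columns filled so far, the last first.
`walkF S ((r, cl), v)`: three coins. On `000`: the move up: if `v = []` stay. Else `rem = drop (length v - 1) cl`, `coinF (rateF (m, rem))`: on one: the tail of `v`; else stay. On `001`: the move down: `rem = drop (length v) cl`; if `rem = []` stay. Else `rem = c0 :: l`: the residual rows `r' = r - Σ_{x ∈ v} x` (a fold), `u = downF (r', c0, l)`; if `u = []` stay, else `u :: v`. On all other coins: stay.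
All lists have at most `S` elements.

`rateF S (m, c0 :: l)`: the value of `(parS S).rate m (length l) c0 C`, `C = c0 + Σ l`: `K * bw C (c0/C) c0 / 2`. If `l = []`: `1/2`. Otherwise with `lbwF C c0 (flog (c0/C)) (flog ((C - c0)/C))`, `fexp`; `K` as in `Par.K`: `fsqrt (c0 / (S^26 * 14 m))` if `S^28 < c0` and `1` otherwise. Errors: `lbwF_spec`, relative error `5/S^42`, `fexp_spec`; `rate ≤ 1`.

Statement: `walkF_close`. Proof: for `v` in the nodes, `lV`, `lN` are injective, `res r v` in words; `down' v x = (1/8) (trialMG ... G x).toReal` where `G = G v` is chosen with `node_close`, `down' v x = 0` if `c.drop v.length = []`. `NodeOK` at all nodes: `res_balance`, `inner_facts`, `WOK` is monotone in `n`. `Ihat ≠ 0` from `node_bounds` with `hbound_rhoP`. The law of `walkF` at a child is `(1/8) downF`, at the parent `(1/8) rateF`; so `Σ_w |...| ≤ 2 (1/8) (30/S^24) + 2 (1/8) (1/S^40) ≤ 1/S^22`, see `q_walk_close` in `Samp/QClose` for `down`, and the same for `up`.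
`upI`: in `Fpras/TreeWalk` or `Fpras/Chain`: `upI q v = (1/8) q v.tail` if `v ≠ []`.
-/

namespace Vale.Agent.Lib.P328.Bit

open Finset MeasureTheory Vale.Agent.Lib.P328.Cap Vale.Agent.Lib.P328.Fpras Vale.Agent.Lib.P328.Samp
open scoped ENNReal

variable {m : ℕ}

namespace StepAux

open FExpAux

/-! ### Lists of words -/

section Words

variable {α : Type} [Enc α]

theorem tail_rep {γ : Type} [Enc γ] {l : ℕ → α → List γ} (hl : DRep l) : DRep fun S x => (l S x).tail := by
  have h := DRep.caseList (l := l) (f := fun _ _ => ([] : List γ))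
    (g := fun _ z => z.2.2) hl DRep.nil' (DRep.snd.comp DRep.snd)
  refine h.congr fun S y => ?_
  cases l S y <;> rfl

/-- Drop as many elements as `L` has. -/
def dropF (S : ℕ) (l : List ℤ) (L : List (List ℤ)) : List ℤ :=
  (L.take S).foldl (fun s _ => s.tail) l

theorem dropF_rep {fl : ℕ → α → List ℤ} {fL : ℕ → α → List (List ℤ)} (hl : DRep fl) (hL : DRep fL) :
    DRep fun S x => dropF S (fl S x) (fL S x) :=
  have h1 : DRep (α := α × (List ℤ × List ℤ)) (β := List ℤ) fun _ y => y.2.1 := DRep.snd.comp DRep.fst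
  (DRep.foldS (l := fL) (i := fl) (f := fun _ (y : α × (List ℤ × List ℤ)) => y.2.1.tail) hL hl
    (tail_rep h1)).congr fun _ _ => rfl

theorem foldl_tail {γ : Type} (L : List γ) (l : List ℤ) :
    L.foldl (fun s _ => s.tail) l = l.drop L.length := by
  induction L generalizing l with
  | nil => simp
  | cons a t ih =>
    simp only [List.foldl_cons, List.length_cons, ih]
    rw [List.drop_tail]

theorem dropF_eq {S : ℕ} (l : List ℤ) (L : List (List ℤ)) (hL : L.length ≤ S) :
    dropF S l L = l.drop L.length := by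
  unfold dropF
  rw [List.take_of_length_le hL, foldl_tail]

/-- Truncated subtraction of words. -/
def tsub (S : ℕ) (a b : ℤ) : ℤ := if 0 < csub S a b then csub S a b else 0

theorem tsub_rep {f g : ℕ → α → ℤ} (hf : DRep f) (hg : DRep g) : DRep fun S x => tsub S (f S x) (g S x) :=
  DRep.ite (hf.sub hg) (hf.sub hg) DRep.zero

theorem tsub_nat {S : ℕ} (hS : 1000000 ≤ S) {a b : ℕ} (ha : a < 2 ^ (S ^ 2)) (hb : b < 2 ^ (S ^ 2)) :
    tsub S (a : ℤ) (b : ℤ) = ((a - b : ℕ) : ℤ) := by
  have h1 := word_nat hS ha
  have h2 := word_nat hS hb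
  have h3 : |(a : ℤ) - (b : ℤ)| ≤ 2 ^ wid S := by
    rw [abs_of_nonneg (by positivity)] at h1 h2
    rw [abs_le]
    constructor <;> omega
  have e := csub_eq hS h1 h2 h3
  unfold tsub
  rw [e]
  by_cases hab : b < a
  · rw [if_pos (by omega)]
    omega
  · rw [if_neg (by omega)]
    omega

/-- Subtract the rows of `x` from the rows of `s`. -/
def subL (S : ℕ) (s x : List ℤ) : List ℤ :=
  (((List.range (s.take S).length).map fun k : ℕ => (k : ℤ)).take S).map fun k =>
    tsub S ((s.take S).getD k.toNat 0) ((x.take S).getD k.toNat 0)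

theorem rangeLen_rep {f : ℕ → α → List ℤ} (hf : DRep f) : DRep (α := α) (β := List ℤ) fun S x =>
    (List.range ((f S x).take S).length).map fun k : ℕ => (k : ℤ) := by
  refine (DRep.rangeS (DRep.lengthS hf)).congr fun S x => ?_
  have h2 : min (((f S x).take S).length : ℤ).toNat S = ((f S x).take S).length := by
    simp only [Int.toNat_natCast, List.length_take]
    omega
  rw [h2]
  simp only [bind_pure_comp, List.map_eq_map, List.map_map]
  rfl

theorem subEntry_rep {f g : ℕ → α → List ℤ} (hf : DRep f) (hg : DRep g) :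
    DRep (α := α × ℤ) (β := ℤ) fun S y => tsub S (((f S y.1).take S).getD y.2.toNat 0)
      (((g S y.1).take S).getD y.2.toNat 0) := by
  have hk : DRep (α := α × ℤ) (β := ℤ) fun _ y => y.2 := DRep.snd
  have hf' : DRep (α := α × ℤ) (β := List ℤ) fun S y => f S y.1 := DRep.fst.comp hf
  have hg' : DRep (α := α × ℤ) (β := List ℤ) fun S y => g S y.1 := DRep.fst.comp hg
  have hz : DRep (α := α × ℤ) (β := ℤ) fun _ _ => 0 := DRep.zero
  exact tsub_rep (DRep.nthD hf' hk hz) (DRep.nthD hg' hk hz)

theorem subL_rep {f g : ℕ → α → List ℤ} (hf : DRep f) (hg : DRep g) :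
    DRep fun S x => subL S (f S x) (g S x) := by
  have h := DRep.mapS (l := fun S x => (List.range ((f S x).take S).length).map fun k : ℕ => (k : ℤ))
    (f := fun S (y : α × ℤ) => tsub S (((f S y.1).take S).getD y.2.toNat 0)
      (((g S y.1).take S).getD y.2.toNat 0)) (rangeLen_rep hf) (subEntry_rep hf hg)
  exact h.congr fun _ _ => rfl

theorem subL_lN {S : ℕ} (hS : 1000000 ≤ S) {a b : Fin m → ℕ} (hmS : m ≤ S) (ha : ∀ i, a i < 2 ^ (S ^ 2))
    (hb : ∀ i, b i < 2 ^ (S ^ 2)) : subL S (lN a) (lN b) = lN fun i => a i - b i := by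
  have hla : (lN a).length = m := by simp [lN]
  have hlb : (lN b).length = m := by simp [lN]
  unfold subL
  rw [List.take_of_length_le (by omega : (lN a).length ≤ S), List.take_of_length_le (by omega : (lN b).length ≤ S),
    hla, List.take_of_length_le (by simpa using hmS), List.map_map]
  apply List.ext_getElem
  · simp [lN]
  · intro i h1 h2
    have him : i < m := by simpa using h1
    have ea : (lN a).getD i 0 = (a ⟨i, him⟩ : ℤ) := by
      rw [List.getD_eq_getElem _ _ (by omega)]
      simp [lN]
    have eb : (lN b).getD i 0 = (b ⟨i, him⟩ : ℤ) := by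
      rw [List.getD_eq_getElem _ _ (by omega)]
      simp [lN]
    simp only [List.getElem_map, List.getElem_range, Function.comp, Int.toNat_natCast]
    rw [ea, eb, tsub_nat hS (ha _) (hb _)]
    simp [lN]

/-- The residual rows. -/
def resF (S : ℕ) (r : List ℤ) (v : List (List ℤ)) : List ℤ :=
  (v.take S).foldl (fun s x => subL S s x) r

theorem resF_rep {fr : ℕ → α → List ℤ} {fv : ℕ → α → List (List ℤ)} (hr : DRep fr) (hv : DRep fv) :
    DRep fun S x => resF S (fr S x) (fv S x) :=
  (DRep.foldS (l := fv) (i := fr) (f := fun S (y : α × (List ℤ × List ℤ)) => subL S y.2.1 y.2.2) hv hr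
    (subL_rep (DRep.snd.comp DRep.fst) (DRep.snd.comp DRep.snd))).congr fun _ _ => rfl

theorem resF_lV {S : ℕ} (hS : 1000000 ≤ S) (hmS : m ≤ S) {r : Fin m → ℕ} {v : List (Fin m → ℕ)} (hvS : v.length ≤ S)
    (hr : ∀ i, r i < 2 ^ (S ^ 2)) (hv : ∀ x ∈ v, ∀ i, x i < 2 ^ (S ^ 2)) :
    resF S (lN r) (lV v) = lN (res r v) := by
  unfold resF
  rw [List.take_of_length_le (by simpa [lV] using hvS)]
  induction v generalizing r with
  | nil => 
    have : res r [] = r := by
      funext i
      simp [res]
    simp [lV, this]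
  | cons x t ih =>
    have e : lV (x :: t) = lN x :: lV t := rfl
    rw [e, List.foldl_cons, subL_lN hS hmS hr (hv x (by simp))]
    rw [ih (by simpa using (by simpa using hvS : t.length + 1 ≤ S) |> fun h : t.length + 1 ≤ S => by omega) ?_ ?_]
    · congr 1
      funext i
      simp only [res, List.map_cons, List.sum_cons]
      omega
    · intro i
      exact lt_of_le_of_lt (Nat.sub_le _ _) (hr i)
    · intro y hy
      exact hv y (by simp [hy])

end Words


/-! ### The three parts of a step -/

section Prog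

/-- An even mixture of two laws. -/
noncomputable def mixF {β : Type} (f g : PMF β) : PMF β := Rep.coinZ.bind fun a => if 0 < a then f else g

theorem mixF_rep {α β : Type} [Enc α] [Enc β] {f g : ℕ → α → PMF β} (hf : Rep f) (hg : Rep g) :
    Rep fun S x => mixF (f S x) (g S x) := by
  have h1 : Rep (α := α × ℤ) (β := β) fun S y => if 0 < y.2 then f S y.1 else g S y.1 :=
    Rep.ite DRep.snd (CoinAux.comp_of_drep DRep.fst hf) (CoinAux.comp_of_drep DRep.fst hg)
  exact Rep.bind Rep.coin h1

/-- The move up. -/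
noncomputable def upF (S : ℕ) (x : (List ℤ × List ℤ) × List (List ℤ)) : PMF (List (List ℤ)) :=
  match x.2 with
  | [] => PMF.pure []
  | a :: t => (coinF S (rateF S ((((x.1.1.take S).length : ℕ) : ℤ), dropF S x.1.2 t))).bind fun c =>
      if 0 < c then PMF.pure t else PMF.pure (a :: t)

/-- The word of the coin of the move up. -/
theorem upWord_rep : DRep (α := ((List ℤ × List ℤ) × List (List ℤ)) × (List ℤ × List (List ℤ))) (β := ℤ)
    fun S z => rateF S ((((z.1.1.1.take S).length : ℕ) : ℤ), dropF S z.1.1.2 z.2.2) := by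
  have hr : DRep (α := ((List ℤ × List ℤ) × List (List ℤ)) × (List ℤ × List (List ℤ))) (β := List ℤ)
      fun _ z => z.1.1.1 := (DRep.fst.comp DRep.fst).comp DRep.fst
  have hc : DRep (α := ((List ℤ × List ℤ) × List (List ℤ)) × (List ℤ × List (List ℤ))) (β := List ℤ)
      fun _ z => z.1.1.2 := (DRep.fst.comp DRep.fst).comp DRep.snd
  have ht : DRep (α := ((List ℤ × List ℤ) × List (List ℤ)) × (List ℤ × List (List ℤ))) (β := List (List ℤ))
      fun _ z => z.2.2 := DRep.snd.comp DRep.snd
  exact ((DRep.lengthS hr).pair (dropF_rep hc ht)).comp rateF_rep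

theorem upF_rep : Rep upF := by
  have hg : Rep (α := ((List ℤ × List ℤ) × List (List ℤ)) × (List ℤ × List (List ℤ))) (β := List (List ℤ))
      fun S z => (coinF S (rateF S ((((z.1.1.1.take S).length : ℕ) : ℤ), dropF S z.1.1.2 z.2.2))).bind fun c =>
        if 0 < c then PMF.pure z.2.2 else PMF.pure (z.2.1 :: z.2.2) := by
    have h1 := CoinAux.comp_of_drep upWord_rep coinF_rep
    have h2 : Rep (α := (((List ℤ × List ℤ) × List (List ℤ)) × (List ℤ × List (List ℤ))) × ℤ)
        (β := List (List ℤ)) fun _ y => if 0 < y.2 then PMF.pure y.1.2.2 else PMF.pure (y.1.2.1 :: y.1.2.2) :=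
      Rep.ite DRep.snd (Rep.ofD ((DRep.fst.comp DRep.snd).comp DRep.snd))
        (Rep.ofD (DRep.cons ((DRep.fst.comp DRep.snd).comp DRep.fst) ((DRep.fst.comp DRep.snd).comp DRep.snd)))
    exact Rep.bind h1 h2
  have h := Rep.caseList (l := fun _ (x : (List ℤ × List ℤ) × List (List ℤ)) => x.2)
    (f := fun _ _ => PMF.pure []) DRep.snd (Rep.ofD DRep.nil') hg
  refine h.congr fun S x => ?_
  rcases x with ⟨a, v⟩
  cases v <;> rfl

/-- The continuation of the move down. -/
noncomputable def afterDn (V : List (List ℤ)) (u : List ℤ) : PMF (List (List ℤ)) :=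
  match u with
  | [] => PMF.pure V
  | a :: t => PMF.pure ((a :: t) :: V)

/-- The move down. -/
noncomputable def dnF (S : ℕ) (x : (List ℤ × List ℤ) × List (List ℤ)) : PMF (List (List ℤ)) :=
  match dropF S x.1.2 x.2 with
  | [] => PMF.pure x.2
  | c0 :: l => (downF S (resF S x.1.1 x.2, c0, l)).bind (afterDn x.2)

theorem afterDn_rep {α : Type} [Enc α] {fV : ℕ → α → List (List ℤ)} (hV : DRep fV) :
    Rep (α := α × List ℤ) (β := List (List ℤ)) fun S y => afterDn (fV S y.1) y.2 := by
  have hV' : DRep (α := α × List ℤ) (β := List (List ℤ)) fun S y => fV S y.1 := DRep.fst.comp hV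
  have hV'' : DRep (α := (α × List ℤ) × (ℤ × List ℤ)) (β := List (List ℤ)) fun S y => fV S y.1.1 :=
    DRep.fst.comp hV'
  have hg : Rep (α := (α × List ℤ) × (ℤ × List ℤ)) (β := List (List ℤ))
      fun S z => PMF.pure ((z.2.1 :: z.2.2) :: fV S z.1.1) :=
    Rep.ofD (DRep.cons (DRep.cons (DRep.snd.comp DRep.fst) (DRep.snd.comp DRep.snd)) hV'')
  have h := Rep.caseList (l := fun _ (y : α × List ℤ) => y.2) (f := fun S y => PMF.pure (fV S y.1))
    DRep.snd (Rep.ofD hV') hg
  refine h.congr fun S y => ?_
  rcases y with ⟨a, u⟩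
  cases u <;> rfl

theorem dnF_rep : Rep dnF := by
  have hl : DRep (α := (List ℤ × List ℤ) × List (List ℤ)) (β := List ℤ) fun S x => dropF S x.1.2 x.2 :=
    dropF_rep (DRep.fst.comp DRep.snd) DRep.snd
  have hd : DRep (α := ((List ℤ × List ℤ) × List (List ℤ)) × (ℤ × List ℤ)) (β := List ℤ × ℤ × List ℤ)
      fun S z => (resF S z.1.1.1 z.1.2, z.2.1, z.2.2) :=
    (resF_rep ((DRep.fst.comp DRep.fst).comp DRep.fst) (DRep.fst.comp DRep.snd)).pair DRep.snd
  have hV : DRep (α := ((List ℤ × List ℤ) × List (List ℤ)) × (ℤ × List ℤ)) (β := List (List ℤ))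
      fun _ z => z.1.2 := DRep.fst.comp DRep.snd
  have hg : Rep (α := ((List ℤ × List ℤ) × List (List ℤ)) × (ℤ × List ℤ)) (β := List (List ℤ))
      fun S z => (downF S (resF S z.1.1.1 z.1.2, z.2.1, z.2.2)).bind (afterDn z.1.2) :=
    Rep.bind (CoinAux.comp_of_drep hd downF_rep) (afterDn_rep hV)
  have h := Rep.caseList (l := fun S (x : (List ℤ × List ℤ) × List (List ℤ)) => dropF S x.1.2 x.2)
    (f := fun _ x => PMF.pure x.2) hl (Rep.ofD DRep.snd) hg
  refine h.congr fun S x => ?_
  unfold dnF
  cases dropF S x.1.2 x.2 <;> rfl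

end Prog


/-! ### The laws -/

section Law

variable {β : Type}

theorem mixF_eq (f g : PMF β) : mixF f g = (PMF.uniformOfFintype Bool).bind fun b => if b then f else g := by
  unfold mixF Rep.coinZ
  rw [PMF.bind_map]
  congr 1
  funext b
  cases b <;> simp

theorem pmf_ne_top (μ : PMF β) (u : β) : μ u ≠ ∞ := μ.apply_ne_top u

theorem mixF_apply (f g : PMF β) (u : β) : mixF f g u = 2⁻¹ * f u + 2⁻¹ * g u := by
  rw [mixF_eq, PMF.bind_apply, tsum_fintype, Fintype.sum_bool]
  simp [PMF.uniformOfFintype_apply]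

theorem mixF_toReal (f g : PMF β) (u : β) : (mixF f g u).toReal = (f u).toReal / 2 + (g u).toReal / 2 := by
  rw [mixF_apply, ENNReal.toReal_add (ENNReal.mul_ne_top (by simp) (pmf_ne_top _ _))
    (ENNReal.mul_ne_top (by simp) (pmf_ne_top _ _)), ENNReal.toReal_mul, ENNReal.toReal_mul]
  simp only [ENNReal.toReal_inv, ENNReal.toReal_ofNat]
  ring

theorem mixF_ne_zero {f g : PMF β} {u : β} (h : mixF f g u ≠ 0) : f u ≠ 0 ∨ g u ≠ 0 := by
  by_contra hcon
  push Not at hcon
  apply h
  rw [mixF_apply, hcon.1, hcon.2]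
  simp

open Classical in
theorem pure_toReal (a u : β) : ((PMF.pure a) u).toReal = if u = a then 1 else 0 := by
  rw [PMF.pure_apply]
  split_ifs <;> simp

/-- A coin with values in `{0, 1}`. -/
theorem coin_sum {μ : PMF ℤ} (hμ : ∀ v, μ v ≠ 0 → v = 0 ∨ v = 1) : μ 0 + μ 1 = 1 := by
  have h := μ.tsum_coe
  rw [tsum_eq_sum (s := ({0, 1} : Finset ℤ)) (fun b hb => ?_)] at h
  · rw [Finset.sum_pair (by norm_num)] at h
    exact h
  · by_contra hne
    rcases hμ b hne with rfl | rfl <;> simp at hb

theorem coin_zero_toReal {μ : PMF ℤ} (hμ : ∀ v, μ v ≠ 0 → v = 0 ∨ v = 1) :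
    (μ 0).toReal = 1 - (μ 1).toReal := by
  have h := congrArg ENNReal.toReal (coin_sum hμ)
  rw [ENNReal.toReal_add (pmf_ne_top _ _) (pmf_ne_top _ _)] at h
  simp only [ENNReal.toReal_one] at h
  linarith

theorem coin_bind_toReal {μ : PMF ℤ} (hμ : ∀ v, μ v ≠ 0 → v = 0 ∨ v = 1) (f g : PMF β) (u : β) :
    ((μ.bind fun c => if 0 < c then f else g) u).toReal
      = (μ 1).toReal * (f u).toReal + (1 - (μ 1).toReal) * (g u).toReal := by
  rw [PMF.bind_apply, tsum_eq_sum (s := ({0, 1} : Finset ℤ)) (fun b hb => ?_),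
    Finset.sum_pair (by norm_num)]
  · simp only [lt_self_iff_false, if_false, zero_lt_one, if_true]
    rw [ENNReal.toReal_add (ENNReal.mul_ne_top (pmf_ne_top _ _) (pmf_ne_top _ _))
      (ENNReal.mul_ne_top (pmf_ne_top _ _) (pmf_ne_top _ _)), ENNReal.toReal_mul, ENNReal.toReal_mul,
      coin_zero_toReal hμ]
    ring
  · have h0 : μ b = 0 := by
      by_contra hne
      rcases hμ b hne with rfl | rfl <;> simp at hb
    rw [h0, zero_mul]

theorem coin_bind_ne_zero {μ : PMF ℤ} {f g : PMF β} {u : β} (hμ : ∀ v, μ v ≠ 0 → v = 0 ∨ v = 1)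
    (h : (μ.bind fun c => if 0 < c then f else g) u ≠ 0) : f u ≠ 0 ∨ g u ≠ 0 := by
  have h1 : u ∈ (μ.bind fun c => if 0 < c then f else g).support := (PMF.mem_support_iff _ _).2 h
  obtain ⟨c, hc, hu⟩ := (PMF.mem_support_bind_iff _ _ _).1 h1
  have hu' := (PMF.mem_support_iff _ _).1 hu
  by_cases h0 : 0 < c
  · rw [if_pos h0] at hu'
    exact Or.inl hu'
  · rw [if_neg h0] at hu'
    exact Or.inr hu'

variable {A : Type}

theorem map_apply_inj {G : A → β} (hG : Function.Injective G) (μ : PMF A) (s : A) :
    (μ.map G) (G s) = μ s := by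
  classical
  rw [PMF.map_apply, tsum_eq_single s]
  · simp
  · intro b hb
    rw [if_neg]
    exact fun h => hb (hG h).symm

theorem map_apply_notin {G : A → β} (μ : PMF A) {y : β} (hy : ∀ s, y ≠ G s) : (μ.map G) y = 0 := by
  classical
  rw [PMF.map_apply]
  simp [hy]

/-- The image of the move down. -/
def gDn (V : List (List ℤ)) : List ℤ → List (List ℤ)
  | [] => V
  | a :: t => (a :: t) :: V

theorem gDn_inj (V : List (List ℤ)) : Function.Injective (gDn V) := by
  intro a b h
  cases a with
  | nil =>
    cases b with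
    | nil => rfl
    | cons c t =>
      have h2 := congrArg List.length h
      simp [gDn] at h2
  | cons c t =>
    cases b with
    | nil =>
      have h2 := congrArg List.length h
      simp [gDn] at h2
    | cons d t' =>
      simp only [gDn, List.cons.injEq, and_true] at h
      simp only [List.cons.injEq]
      exact h

theorem bind_afterDn (V : List (List ℤ)) (μ : PMF (List ℤ)) : μ.bind (afterDn V) = μ.map (gDn V) := by
  unfold PMF.map
  congr 1
  funext u
  cases u <;> rfl

end Law

/-! ### Words of the nodes -/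

section Words2

theorem lN_injective {k : ℕ} : Function.Injective (lN (k := k)) := by
  intro a b h
  unfold lN at h
  have h2 := List.ofFn_injective h
  funext i
  have h3 := congrFun h2 i
  exact_mod_cast h3

theorem lV_inj : Function.Injective (lV (m := m)) :=
  List.map_injective_iff.2 lN_injective

theorem lN_ne_nil (hm : 0 < m) (x : Fin m → ℕ) : lN x ≠ [] := by
  intro h
  have h2 := congrArg List.length h
  simp only [lN, List.length_ofFn, List.length_nil] at h2
  omega

theorem gDn_lN (hm : 0 < m) (V : List (List ℤ)) (x : Fin m → ℕ) : gDn V (lN x) = lN x :: V := by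
  cases hx : lN x with
  | nil => exact absurd hx (lN_ne_nil hm x)
  | cons a t => rfl

theorem lL_drop (cl : List ℕ) (k : ℕ) : (lL cl).drop k = lL (cl.drop k) := by
  unfold lL
  rw [List.map_drop]

end Words2

end StepAux

open StepAux

/-- One step of the walk. Input: `(r, cl)` and the node. -/
noncomputable def walkF (S : ℕ) (x : (List ℤ × List ℤ) × List (List ℤ)) : PMF (List (List ℤ)) :=
  mixF (PMF.pure x.2) (mixF (PMF.pure x.2) (mixF (upF S x) (dnF S x)))

theorem walkF_rep : Rep walkF := by
  have h0 : Rep (α := (List ℤ × List ℤ) × List (List ℤ)) (β := List (List ℤ)) fun _ x => PMF.pure x.2 :=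
    Rep.ofD DRep.snd
  exact mixF_rep h0 (mixF_rep h0 (mixF_rep upF_rep dnF_rep))


/-- The conditions at the root. -/
structure RootOK (S : ℕ) (r : Fin m → ℕ) (cl : List ℕ) : Prop where
  hm : 0 < m
  hc : cl.Pairwise (· ≤ ·)
  hpos : ∀ y ∈ cl, 0 < y
  hsum : ∑ i, r i = cl.sum
  hW : WOK m cl.length S
  hN : ∑ i, r i < 2 ^ S

variable {S : ℕ} {r : Fin m → ℕ} {cl : List ℕ}

namespace StepAux

open FExpAux

section Root

theorem root_S (h : RootOK S r cl) : 1000000 ≤ S := by
  have h1 : (10 : ℝ) ^ 6 * ((cl.length : ℝ) * m + 1) ^ 2 ≤ S := h.hW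
  have h2 : (1 : ℝ) ≤ ((cl.length : ℝ) * m + 1) ^ 2 := one_le_pow₀ (by
    have : (0 : ℝ) ≤ (cl.length : ℝ) * m := by positivity
    linarith)
  have h3 : (1000000 : ℝ) ≤ S := by nlinarith
  exact_mod_cast h3

theorem wok_le (h : WOK m cl.length S) {a b : ℕ} (hab : a ≤ cl.length * m + 1) (_hb : b = 0) : a ≤ S := by
  have h1 : (10 : ℝ) ^ 6 * ((cl.length : ℝ) * m + 1) ^ 2 ≤ S := h
  have h2 : (a : ℝ) ≤ (cl.length : ℝ) * m + 1 := by exact_mod_cast hab
  have h3 : (1 : ℝ) ≤ (cl.length : ℝ) * m + 1 := by
    have : (0 : ℝ) ≤ (cl.length : ℝ) * m := by positivity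
    linarith
  have h4 : (a : ℝ) ≤ S := by nlinarith
  exact_mod_cast h4

theorem root_len (h : RootOK S r cl) : cl.length ≤ S := by
  refine wok_le h.hW (b := 0) ?_ rfl
  have := h.hm
  nlinarith

theorem root_m (h : RootOK S r cl) (hcl : cl ≠ []) : m ≤ S := by
  refine wok_le h.hW (b := 0) ?_ rfl
  have := List.length_pos_iff.2 hcl
  nlinarith

theorem wok_mono (h : WOK m cl.length S) {k : ℕ} (hk : k ≤ cl.length) : WOK m k S := by
  have h1 : (10 : ℝ) ^ 6 * ((cl.length : ℝ) * m + 1) ^ 2 ≤ S := h
  show (10 : ℝ) ^ 6 * ((k : ℝ) * m + 1) ^ 2 ≤ S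
  refine le_trans ?_ h1
  have h2 : (k : ℝ) ≤ cl.length := by exact_mod_cast hk
  have h3 : (k : ℝ) * m ≤ (cl.length : ℝ) * m := mul_le_mul_of_nonneg_right h2 (by positivity)
  have h4 : (0 : ℝ) ≤ (k : ℝ) * m := by positivity
  apply mul_le_mul_of_nonneg_left _ (by norm_num)
  apply pow_le_pow_left₀ (by linarith)
  linarith

theorem node_len {v : List (Fin m → ℕ)} (hv : v ∈ nodes (kids r cl) cl.length) : v.length ≤ cl.length :=
  (mem_nodes.1 hv).1

theorem parent_node {x : Fin m → ℕ} {t : List (Fin m → ℕ)} (hv : x :: t ∈ nodes (kids r cl) cl.length) :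
    t ∈ nodes (kids r cl) cl.length ∧ x ∈ kids r cl t :=
  (cons_mem_nodes (fun v h => kids_empty r cl v h)).1 hv

theorem nil_node : ([] : List (Fin m → ℕ)) ∈ nodes (kids r cl) cl.length := by
  rw [mem_nodes]
  exact ⟨by simp, by simp [Fpras.lvl]⟩

theorem node_sum_le' {v : List (Fin m → ℕ)} (hv : v ∈ nodes (kids r cl) cl.length) (i : Fin m) :
    (v.map fun x => x i).sum ≤ r i := by
  induction v with
  | nil => simp
  | cons x p ih =>
    obtain ⟨h1, h2⟩ := parent_node hv
    have h3 := ih h1
    obtain ⟨c0, l, hd⟩ := exists_drop_of_kids h2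
    rw [kids_inner hd] at h2
    have h4 := (mem_lev.1 h2).1 i
    simp only [res] at h4
    simp only [List.map_cons, List.sum_cons]
    omega

theorem le_sum_map {k : ℕ} {v : List (Fin k → ℕ)} {x : Fin k → ℕ} (hx : x ∈ v) (i : Fin k) :
    x i ≤ (v.map fun y => y i).sum := by
  induction v with
  | nil => simp at hx
  | cons a t ih =>
    simp only [List.mem_cons] at hx
    simp only [List.map_cons, List.sum_cons]
    rcases hx with rfl | hx
    · omega
    · have := ih hx
      omega

theorem r_entry (h : RootOK S r cl) (i : Fin m) : r i < 2 ^ S :=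
  lt_of_le_of_lt (Finset.single_le_sum (f := r) (fun _ _ => Nat.zero_le _) (Finset.mem_univ i)) h.hN

theorem resF_node (h : RootOK S r cl) (hmS : m ≤ S) {v : List (Fin m → ℕ)}
    (hv : v ∈ nodes (kids r cl) cl.length) : resF S (lN r) (lV v) = lN (res r v) := by
  have hS := root_S h
  refine resF_lV hS hmS ((node_len hv).trans (root_len h)) (fun i => lt_sq hS (r_entry h i)) ?_
  intro x hx i
  refine lt_sq hS (lt_of_le_of_lt ?_ (r_entry h i))
  exact (le_sum_map hx i).trans (node_sum_le' hv i)

theorem dropF_node (h : RootOK S r cl) {v : List (Fin m → ℕ)} (hv : v ∈ nodes (kids r cl) cl.length) :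
    dropF S (lL cl) (lV v) = lL (cl.drop v.length) := by
  have e : (lV v).length = v.length := by simp [lV]
  rw [dropF_eq _ _ (by rw [e]; exact (node_len hv).trans (root_len h)), e, lL_drop]

theorem drop_len {k : ℕ} {c0 : ℕ} {l : List ℕ} (hd : cl.drop k = c0 :: l) :
    l.length + 1 ≤ cl.length := by
  have h5 := congrArg List.length hd
  simp only [List.length_drop, List.length_cons] at h5
  omega

theorem drop_ne {k : ℕ} {c0 : ℕ} {l : List ℕ} (hd : cl.drop k = c0 :: l) : cl ≠ [] := by
  rintro rfl
  simp at hd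

/-- What holds at the nodes. -/
theorem node_ok (h : RootOK S r cl) {v : List (Fin m → ℕ)} (hv : v ∈ nodes (kids r cl) cl.length) {c0 : ℕ}
    {l : List ℕ} (hd : cl.drop v.length = c0 :: l) :
    NodeOK S (res r v) (Fin.cons c0 l.get : Fin (l.length + 1) → ℕ) := by
  obtain ⟨h2, h3, -, h4⟩ := inner_facts h.hc h.hpos h.hsum hv hd
  refine ⟨h.hm, Nat.succ_pos _, ?_, ?_, wok_mono h.hW (drop_len hd), ?_⟩
  · intro j
    refine Fin.cases ?_ (fun k => ?_) j
    · simpa using h2
    · simpa using h3 _ (List.get_mem l k)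
  · rw [h4, Fin.sum_univ_succ]
    simp only [Fin.cons_zero, Fin.cons_succ]
    rw [sum_get]
  · refine lt_of_le_of_lt (Finset.sum_le_sum fun i _ => ?_) h.hN
    exact Nat.sub_le _ _

theorem Ihat_node (h : RootOK S r cl) {v : List (Fin m → ℕ)} (hv : v ∈ nodes (kids r cl) cl.length) {c0 : ℕ}
    {l : List ℕ} (hd : cl.drop v.length = c0 :: l) :
    Ihat (res r v) (Fin.cons c0 l.get : Fin (l.length + 1) → ℕ) ≠ 0 := by
  have hbd := node_bounds rhoP_one rhoP_mono_right hbound_rhoP (r := r) (c := cl) h.hpos h.hsum hv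
  have hAv := hbd.1
  rw [Aat_inner hd] at hAv
  exact Ihat_ne_zero_of_Aval hAv

/-- The total mass of the move down. -/
theorem down_total {r' : Fin m → ℕ} {c0 : ℕ} {l : List ℕ} (hm : 0 < m)
    (hOK : NodeOK S r' (Fin.cons c0 l.get : Fin (l.length + 1) → ℕ)) :
    ((downF S (lN r', (c0 : ℤ), lL l)) []).toReal
      = 1 - ∑ x ∈ lev r' c0, ((downF S (lN r', (c0 : ℤ), lL l)) (lN x)).toReal := by
  classical
  set μ := downF S (lN r', (c0 : ℤ), lL l) with hμ
  have hsum := μ.tsum_coe
  have hnil : ([] : List ℤ) ∉ (lev r' c0).image lN := by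
    simp only [Finset.mem_image, not_exists, not_and]
    intro x _
    exact lN_ne_nil hm x
  rw [tsum_eq_sum (s := insert ([] : List ℤ) ((lev r' c0).image lN)) (fun b hb => ?_),
    Finset.sum_insert hnil, Finset.sum_image (fun a _ b _ hab => lN_injective hab)] at hsum
  · have h2 := congrArg ENNReal.toReal hsum
    rw [ENNReal.toReal_add (pmf_ne_top _ _)
      (ENNReal.sum_ne_top.2 fun _ _ => pmf_ne_top _ _), ENNReal.toReal_sum fun _ _ => pmf_ne_top _ _] at h2
    simp only [ENNReal.toReal_one] at h2
    linarith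
  · by_contra hne
    rcases downF_support hOK b hne with rfl | ⟨x, hx, rfl⟩
    · simp at hb
    · simp only [Finset.mem_insert, Finset.mem_image, not_or, not_exists, not_and] at hb
      exact hb.2 x hx rfl

end Root

/-! ### The law of a step at the nodes -/

section Kernel

/-- The move down to a child in the numbers of the program. -/
noncomputable def dnLaw (S : ℕ) (r : Fin m → ℕ) (cl : List ℕ) (v : List (Fin m → ℕ)) (x : Fin m → ℕ) : ℝ :=
  match cl.drop v.length with
  | [] => 0
  | c0 :: l => (downF S (lN (res r v), (c0 : ℤ), lL l) (lN x)).toReal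

/-- The move up in the numbers of the program. -/
noncomputable def piLaw (S : ℕ) (cl : List ℕ) (v : List (Fin m → ℕ)) : ℝ :=
  match v with
  | [] => 0
  | _ :: t => (coinF S (rateF S ((m : ℤ), lL (cl.drop t.length))) 1).toReal

theorem dnLaw_inner {v : List (Fin m → ℕ)} {c0 : ℕ} {l : List ℕ} (hd : cl.drop v.length = c0 :: l)
    (x : Fin m → ℕ) :
    dnLaw S r cl v x = (downF S (lN (res r v), (c0 : ℤ), lL l) (lN x)).toReal := by
  unfold dnLaw
  rw [hd]

theorem take_lN (hmS : m ≤ S) : (((lN r).take S).length : ℕ) = m := by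
  have hla : (lN r).length = m := by simp [lN]
  rw [List.take_of_length_le (by omega), hla]

/-- The move up. -/
theorem upPart (h : RootOK S r cl) {v : List (Fin m → ℕ)} (hv : v ∈ nodes (kids r cl) cl.length)
    (w : List (Fin m → ℕ)) :
    (upF S ((lN r, lL cl), lV v) (lV w)).toReal
      = (if w = v then 1 - piLaw S cl v else 0) + (if v ≠ [] ∧ v.tail = w then piLaw S cl v else 0) := by
  cases v with
  | nil =>
    have e : upF S ((lN r, lL cl), lV ([] : List (Fin m → ℕ))) = PMF.pure [] := rfl
    rw [e]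
    have e2 : ((PMF.pure ([] : List (List ℤ))) (lV w)).toReal = if w = [] then 1 else 0 := by
      classical
      rw [pure_toReal]
      by_cases hw : w = []
      · simp [hw, lV]
      · rw [if_neg hw, if_neg]
        intro h0
        apply hw
        apply lV_inj
        rw [h0]
        rfl
    rw [e2]
    simp [piLaw]
  | cons x t =>
    have hcl : cl ≠ [] := by
      rintro rfl
      have := node_len hv
      simp at this
    have hmS := root_m h hcl
    have ht := (parent_node hv).1
    have e1 : upF S ((lN r, lL cl), lV (x :: t))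
        = (coinF S (rateF S ((m : ℤ), lL (cl.drop t.length)))).bind fun c =>
            if 0 < c then PMF.pure (lV t) else PMF.pure (lV (x :: t)) := by
      have e0 : lV (x :: t) = lN x :: lV t := rfl
      have e2 : upF S ((lN r, lL cl), lN x :: lV t)
          = (coinF S (rateF S ((((((lN r).take S).length : ℕ) : ℤ)), dropF S (lL cl) (lV t)))).bind fun c =>
            if 0 < c then PMF.pure (lV t) else PMF.pure (lN x :: lV t) := rfl
      rw [e0, e2, take_lN hmS, dropF_node h ht]
    rw [e1, coin_bind_toReal (coinF_support (root_S h) _)]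
    classical
    rw [pure_toReal, pure_toReal]
    have e3 : piLaw S cl (x :: t) = (coinF S (rateF S ((m : ℤ), lL (cl.drop t.length))) 1).toReal := rfl
    rw [← e3]
    have hne : x :: t ≠ t := by
      intro h0
      have := congrArg List.length h0
      simp at this
    have hne' : lV t ≠ lV (x :: t) := fun h0 => hne (lV_inj h0).symm
    by_cases hw1 : w = t
    · subst hw1
      simp [hne, hne']
    · by_cases hw2 : w = x :: t
      · subst hw2
        simp [hne, hne'.symm]
      · have h3 : lV w ≠ lV t := fun h0 => hw1 (lV_inj h0)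
        have h4 : lV w ≠ lV (x :: t) := fun h0 => hw2 (lV_inj h0)
        have h5 : ¬ t = w := fun h0 => hw1 h0.symm
        simp [h3, h4, hw2, h5]

theorem lV_ne_gDn {v w : List (Fin m → ℕ)} (hwv : w ≠ v) (hch : ∀ x, w ≠ x :: v) (s : List ℤ) :
    lV w ≠ gDn (lV v) s := by
  intro h0
  cases s with
  | nil => exact hwv (lV_inj h0)
  | cons a t =>
    cases w with
    | nil => simp [lV, gDn] at h0
    | cons x p =>
      have e : lN x :: lV p = (a :: t) :: lV v := h0
      have hp : p = v := lV_inj (List.cons.inj e).2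
      exact hch x (by rw [hp])

/-- The move down. -/
theorem dnPart (h : RootOK S r cl) {v w : List (Fin m → ℕ)} (hv : v ∈ nodes (kids r cl) cl.length)
    (hw : w ∈ nodes (kids r cl) cl.length) :
    (dnF S ((lN r, lL cl), lV v) (lV w)).toReal
      = (if w = v then 1 - ∑ x ∈ kids r cl v, dnLaw S r cl v x else 0) + toChild (kids r cl) (dnLaw S r cl) v w := by
  cases hd : cl.drop v.length with
  | nil =>
    have e1 : dnF S ((lN r, lL cl), lV v) = PMF.pure (lV v) := by
      have e0 : dropF S (lL cl) (lV v) = [] := by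
        rw [dropF_node h hv, hd]
        rfl
      unfold dnF
      simp only [e0]
    classical
    have e2 : toChild (kids r cl) (dnLaw S r cl) v w = 0 := by
      cases w with
      | nil => rfl
      | cons x p =>
        simp only [toChild]
        rw [if_neg]
        rintro ⟨rfl, hx⟩
        rw [kids_nil hd] at hx
        simp at hx
    rw [e1, pure_toReal, kids_nil hd, Finset.sum_empty, sub_zero, e2, add_zero]
    by_cases hw' : w = v
    · subst hw'
      simp
    · rw [if_neg (fun h0 => hw' (lV_inj h0)), if_neg hw']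
  | cons c0 l =>
    have hcl := drop_ne hd
    have hmS := root_m h hcl
    set μ := downF S (lN (res r v), (c0 : ℤ), lL l) with hμ
    have e1 : dnF S ((lN r, lL cl), lV v) = μ.map (gDn (lV v)) := by
      have e0 : dropF S (lL cl) (lV v) = (c0 : ℤ) :: lL l := by
        rw [dropF_node h hv, hd]
        rfl
      unfold dnF
      simp only [e0]
      rw [resF_node h hmS hv, bind_afterDn]
    rw [e1]
    by_cases hwv : w = v
    · subst hwv
      have e4 : (μ.map (gDn (lV w))) (lV w) = μ [] := map_apply_inj (gDn_inj (lV w)) μ []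
      have e5 : toChild (kids r cl) (dnLaw S r cl) w w = 0 := by
        cases w with
        | nil => rfl
        | cons x p =>
          simp only [toChild]
          rw [if_neg]
          rintro ⟨h0, -⟩
          have := congrArg List.length h0
          simp at this
      have e6 : ∑ x ∈ kids r cl w, dnLaw S r cl w x = ∑ x ∈ lev (res r w) c0, (μ (lN x)).toReal := by
        rw [kids_inner hd]
        exact Finset.sum_congr rfl fun x _ => dnLaw_inner hd x
      rw [e4, if_pos rfl, e5, add_zero, e6]
      exact down_total h.hm (node_ok h hv hd)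
    · rw [if_neg hwv, zero_add]
      cases w with
      | nil =>
        have e5 : toChild (kids r cl) (dnLaw S r cl) v [] = 0 := rfl
        rw [e5, map_apply_notin μ (lV_ne_gDn hwv (fun x h0 => by simp at h0))]
        simp
      | cons x p =>
        by_cases hp : p = v
        · subst hp
          have hk := (parent_node hw).2
          have e5 : toChild (kids r cl) (dnLaw S r cl) p (x :: p) = dnLaw S r cl p x := by
            simp only [toChild, true_and]
            rw [if_pos hk]
          have e6 : lV (x :: p) = gDn (lV p) (lN x) := by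
            rw [gDn_lN h.hm]
            rfl
          rw [e5, e6, map_apply_inj (gDn_inj (lV p)) μ, dnLaw_inner hd x]
        · have e5 : toChild (kids r cl) (dnLaw S r cl) v (x :: p) = 0 := by
            simp only [toChild]
            rw [if_neg]
            rintro ⟨h0, -⟩
            exact hp h0
          rw [e5, map_apply_notin μ (lV_ne_gDn hwv (fun y h0 => hp (List.cons.inj h0).2))]
          simp

theorem toChild_smul {X : Type} [DecidableEq X] (A : List X → Finset X) (d : List X → X → ℝ) (a : ℝ)
    (v w : List X) : toChild A (fun v x => a * d v x) v w = a * toChild A d v w := by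
  cases w with
  | nil => simp [toChild]
  | cons x p =>
    simp only [toChild]
    split_ifs <;> simp

/-- The law of a step at the nodes is the walk with the moves of the program. -/
theorem walkF_node (h : RootOK S r cl) {v w : List (Fin m → ℕ)} (hv : v ∈ nodes (kids r cl) cl.length)
    (hw : w ∈ nodes (kids r cl) cl.length) :
    (walkF S ((lN r, lL cl), lV v) (lV w)).toReal
      = walk (kids r cl) (fun v x => (1 / 8) * dnLaw S r cl v x) (fun v => (1 / 8) * piLaw S cl v) v w := by
  classical
  have e0 : ((PMF.pure (lV v)) (lV w)).toReal = if w = v then 1 else 0 := by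
    rw [pure_toReal]
    by_cases hw' : w = v
    · subst hw'
      simp
    · rw [if_neg (fun h0 => hw' (lV_inj h0)), if_neg hw']
  unfold walkF
  simp only []
  rw [mixF_toReal, mixF_toReal, mixF_toReal, e0, upPart h hv, dnPart h hv hw]
  unfold walk toParent
  rw [toChild_smul, ← Finset.mul_sum]
  by_cases hw1 : w = v
  · by_cases hw2 : v ≠ [] ∧ v.tail = w
    · simp only [if_pos hw1, if_pos hw2]
      ring
    · simp only [if_pos hw1, if_neg hw2]
      ring
  · by_cases hw2 : v ≠ [] ∧ v.tail = w
    · simp only [if_neg hw1, if_pos hw2]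
      ring
    · simp only [if_neg hw1, if_neg hw2]
      ring

/-- The support of a step. -/
theorem walkF_support (h : RootOK S r cl) {v : List (Fin m → ℕ)} (hv : v ∈ nodes (kids r cl) cl.length)
    (u : List (List ℤ)) (hu : walkF S ((lN r, lL cl), lV v) u ≠ 0) :
    ∃ w ∈ nodes (kids r cl) cl.length, u = lV w := by
  classical
  have hpure : ∀ {a u : List (List ℤ)}, (PMF.pure a) u ≠ 0 → u = a := by
    intro a u h0
    by_contra hne
    exact h0 (by rw [PMF.pure_apply, if_neg hne])
  unfold walkF at hu
  simp only [] at hu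
  rcases mixF_ne_zero hu with h1 | h1
  · exact ⟨v, hv, hpure h1⟩
  rcases mixF_ne_zero h1 with h2 | h2
  · exact ⟨v, hv, hpure h2⟩
  rcases mixF_ne_zero h2 with h3 | h3
  · cases v with
    | nil =>
      have e : upF S ((lN r, lL cl), lV ([] : List (Fin m → ℕ))) = PMF.pure [] := rfl
      rw [e] at h3
      exact ⟨[], nil_node, hpure h3⟩
    | cons x t =>
      have e2 : upF S ((lN r, lL cl), lV (x :: t))
          = (coinF S (rateF S ((((((lN r).take S).length : ℕ) : ℤ)), dropF S (lL cl) (lV t)))).bind fun c =>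
            if 0 < c then PMF.pure (lV t) else PMF.pure (lV (x :: t)) := rfl
      rw [e2] at h3
      rcases coin_bind_ne_zero (coinF_support (root_S h) _) h3 with h4 | h4
      · exact ⟨t, (parent_node hv).1, hpure h4⟩
      · exact ⟨x :: t, hv, hpure h4⟩
  · cases hd : cl.drop v.length with
    | nil =>
      have e1 : dnF S ((lN r, lL cl), lV v) = PMF.pure (lV v) := by
        have e0 : dropF S (lL cl) (lV v) = [] := by
          rw [dropF_node h hv, hd]
          rfl
        unfold dnF
        simp only [e0]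
      rw [e1] at h3
      exact ⟨v, hv, hpure h3⟩
    | cons c0 l =>
      have hcl := drop_ne hd
      have hmS := root_m h hcl
      have e1 : dnF S ((lN r, lL cl), lV v) = (downF S (lN (res r v), (c0 : ℤ), lL l)).map (gDn (lV v)) := by
        have e0 : dropF S (lL cl) (lV v) = (c0 : ℤ) :: lL l := by
          rw [dropF_node h hv, hd]
          rfl
        unfold dnF
        simp only [e0]
        rw [resF_node h hmS hv, bind_afterDn]
      rw [e1] at h3
      have h4 := (PMF.mem_support_iff _ _).2 h3
      obtain ⟨s, hs, rfl⟩ := (PMF.mem_support_map_iff _ _ _).1 h4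
      rcases downF_support (node_ok h hv hd) s ((PMF.mem_support_iff _ _).1 hs) with rfl | ⟨x, hx, rfl⟩
      · exact ⟨v, hv, rfl⟩
      · refine ⟨x :: v, ?_, ?_⟩
        · refine (cons_mem_nodes (fun v h => kids_empty r cl v h)).2 ⟨hv, ?_⟩
          rw [kids_inner hd]
          exact hx
        · rw [gDn_lN h.hm]
          rfl

/-- The move up is close to the rate. -/
theorem pi_close (h : RootOK S r cl) {x : Fin m → ℕ} {t : List (Fin m → ℕ)}
    (hv : x :: t ∈ nodes (kids r cl) cl.length) :
    |piLaw S cl (x :: t) - rateAt (parS S) r cl t| ≤ 1 / (S : ℝ) ^ 40 + (1 / 2 : ℝ) ^ (S ^ 2) := by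
  have hS := root_S h
  have hcl : cl ≠ [] := by
    rintro rfl
    have := node_len hv
    simp at this
  have hmS := root_m h hcl
  obtain ⟨ht, hk⟩ := parent_node hv
  obtain ⟨c0, l, hd⟩ := exists_drop_of_kids hk
  obtain ⟨h2, -, h3, h4⟩ := inner_facts h.hc h.hpos h.hsum ht hd
  have hlS : l.length ≤ S := by
    have := drop_len hd
    have := root_len h
    omega
  have hN : c0 + l.sum < 2 ^ S := by
    rw [← h4]
    refine lt_of_le_of_lt (Finset.sum_le_sum fun i _ => ?_) h.hN
    exact Nat.sub_le _ _
  have hr := rateF_spec hS h.hm hmS h2 h3 hlS hN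
  have hw : lL (cl.drop t.length) = (c0 : ℤ) :: lL l := by
    rw [hd]
    rfl
  have e1 : piLaw S cl (x :: t) = (coinF S (rateF S ((m : ℤ), (c0 : ℤ) :: lL l)) 1).toReal := by
    show (coinF S (rateF S ((m : ℤ), lL (cl.drop t.length))) 1).toReal = _
    rw [hw]
  have e2 : rateAt (parS S) r cl t = (parS S).rate m l.length c0 (c0 + l.sum) := by
    rw [rateAt_inner hd, h4]
  obtain ⟨hb0, hb1⟩ := rateAt_bounds (parS_ok hS h.hm hmS) h.hc h.hpos h.hsum ht
  rw [e1]
  rw [e2] at hb0 hb1 ⊢
  set q : ℝ := (parS S).rate m l.length c0 (c0 + l.sum) with hq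
  set w : ℤ := rateF S ((m : ℤ), (c0 : ℤ) :: lL l) with hwd
  have h5 := coinF_spec hS w
  have h6 := CoinAux.clip_close (y := val S w) hb0 (by linarith)
  have e : (coinF S w 1).toReal - q
      = ((coinF S w 1).toReal - max 0 (min 1 (val S w))) + (max 0 (min 1 (val S w)) - q) := by ring
  rw [e]
  refine (abs_add_le _ _).trans ?_
  linarith

/-- Moves up that are close. -/
theorem walk_up_close {X : Type} [DecidableEq X] (A : List X → Finset X) (down : List X → X → ℝ)
    (up up' : List X → ℝ) (V : Finset (List X)) (v : List X) :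
    ∑ w ∈ V, |walk A down up v w - walk A down up' v w| ≤ 2 * |up v - up' v| := by
  set e := |up v - up' v| with he
  have he0 : 0 ≤ e := abs_nonneg _
  have hterm : ∀ w, |walk A down up v w - walk A down up' v w|
      ≤ (if w = v then e else 0) + (if v ≠ [] ∧ v.tail = w then e else 0) := by
    intro w
    unfold walk toParent
    by_cases hw1 : w = v
    · by_cases hw2 : v ≠ [] ∧ v.tail = w
      · simp only [if_pos hw1, if_pos hw2]
        have e1 : 1 - up v - ∑ x ∈ A v, down v x + toChild A down v w + up v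
            - (1 - up' v - ∑ x ∈ A v, down v x + toChild A down v w + up' v) = 0 := by ring
        rw [e1, abs_zero]
        linarith
      · simp only [if_pos hw1, if_neg hw2]
        have e1 : 1 - up v - ∑ x ∈ A v, down v x + toChild A down v w + 0
            - (1 - up' v - ∑ x ∈ A v, down v x + toChild A down v w + 0) = up' v - up v := by ring
        rw [e1, abs_sub_comm]
        linarith
    · by_cases hw2 : v ≠ [] ∧ v.tail = w
      · simp only [if_neg hw1, if_pos hw2]
        have e1 : 0 + toChild A down v w + up v - (0 + toChild A down v w + up' v) = up v - up' v := by ring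
        rw [e1]
        linarith
      · simp only [if_neg hw1, if_neg hw2]
        have e1 : 0 + toChild A down v w + 0 - (0 + toChild A down v w + 0) = 0 := by ring
        rw [e1, abs_zero]
        linarith
  refine (Finset.sum_le_sum fun w _ => hterm w).trans ?_
  rw [Finset.sum_add_distrib]
  have h1 : ∑ w ∈ V, (if w = v then e else 0) ≤ e := by
    rw [Finset.sum_ite_eq']
    split_ifs
    · exact le_rfl
    · exact he0
  have h2 : ∑ w ∈ V, (if v ≠ [] ∧ v.tail = w then e else 0) ≤ e := by
    by_cases hv : v ≠ []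
    · simp only [hv, ne_eq, not_false_eq_true, true_and]
      rw [Finset.sum_ite_eq]
      split_ifs
      · exact le_rfl
      · exact he0
    · simp only [hv, false_and, if_false, Finset.sum_const_zero]
      exact he0
  linarith

/-- The numbers. -/
theorem walk_numbers (hS : 1000000 ≤ S) {a b : ℝ} (ha : a ≤ (1 / 8) * (30 / (S : ℝ) ^ 24))
    (hb : b ≤ (1 / 8) * (1 / (S : ℝ) ^ 40 + (1 / 2 : ℝ) ^ (S ^ 2))) : 2 * a + 2 * b ≤ 1 / (S : ℝ) ^ 22 := by
  have hS1 : (1000000 : ℝ) ≤ S := by exact_mod_cast hS
  have hSpos : (0 : ℝ) < S := by linarith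
  have hT := tiny_le hS (T := S ^ 2) (by nlinarith)
  have h42 : 1 / (S : ℝ) ^ 42 ≤ 1 / (S : ℝ) ^ 22 :=
    one_div_le_one_div_of_le (by positivity) (pow_le_pow_right₀ (by linarith) (by norm_num))
  have h40 : 1 / (S : ℝ) ^ 40 ≤ 1 / (S : ℝ) ^ 22 :=
    one_div_le_one_div_of_le (by positivity) (pow_le_pow_right₀ (by linarith) (by norm_num))
  have h24 : 30 / (S : ℝ) ^ 24 ≤ 1 / (S : ℝ) ^ 22 := by
    rw [div_le_div_iff₀ (by positivity) (by positivity)]
    have e : (S : ℝ) ^ 24 = (S : ℝ) ^ 22 * (S * S) := by ring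
    rw [e]
    have h3 : (30 : ℝ) ≤ S * S := by nlinarith
    have h4 : (0 : ℝ) < (S : ℝ) ^ 22 := by positivity
    nlinarith
  have h0 : 0 ≤ (1 / 2 : ℝ) ^ (S ^ 2) := by positivity
  linarith

end Kernel

end StepAux

open StepAux

/-- **The step of the walk is close to the walk with moves down given by trials.** -/
theorem walkF_close (h : RootOK S r cl) :
    ∃ down' : List (Fin m → ℕ) → (Fin m → ℕ) → ℝ,
      (∀ v ∈ nodes (kids r cl) cl.length, ∀ (c0 : ℕ) (l : List ℕ), cl.drop v.length = c0 :: l →
        ∃ G, GOK (parS S) (res r v) c0 l.get G ∧ ∀ x ∈ kids r cl v,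
          down' v x = (1 / 8) * (trialMG (parS S) (res r v) c0 l.get G x).toReal)
      ∧ ∀ v ∈ nodes (kids r cl) cl.length,
        (∀ u, walkF S ((lN r, lL cl), lV v) u ≠ 0 → ∃ w ∈ nodes (kids r cl) cl.length, u = lV w)
        ∧ ∑ w ∈ nodes (kids r cl) cl.length, |(walkF S ((lN r, lL cl), lV v) (lV w)).toReal
            - walk (kids r cl) down' (upI (rateAt (parS S) r cl)) v w| ≤ 1 / (S : ℝ) ^ 22 := by
  have hS := root_S h
  have key : ∀ v : List (Fin m → ℕ), ∃ f : (Fin m → ℕ) → ℝ, v ∈ nodes (kids r cl) cl.length →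
      ∀ (c0 : ℕ) (l : List ℕ), cl.drop v.length = c0 :: l →
        (∃ G, GOK (parS S) (res r v) c0 l.get G ∧ ∀ x ∈ kids r cl v,
          f x = (1 / 8) * (trialMG (parS S) (res r v) c0 l.get G x).toReal)
        ∧ ∑ x ∈ kids r cl v, |(1 / 8) * dnLaw S r cl v x - f x| ≤ (1 / 8) * (30 / (S : ℝ) ^ 24) := by
    intro v
    by_cases hv : v ∈ nodes (kids r cl) cl.length
    · cases hd : cl.drop v.length with
      | nil => exact ⟨fun _ => 0, fun _ c0 l h0 => by simp at h0⟩
      | cons c0 l =>
        obtain ⟨G, hG, hclose⟩ := node_close (node_ok h hv hd) (Ihat_node h hv hd)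
        refine ⟨fun x => (1 / 8) * (trialMG (parS S) (res r v) c0 l.get G x).toReal, fun _ c1 l1 h0 => ?_⟩
        obtain ⟨rfl, rfl⟩ := List.cons.inj h0
        refine ⟨⟨G, hG, fun _ _ => rfl⟩, ?_⟩
        rw [kids_inner hd]
        have e : ∀ x ∈ lev (res r v) c0,
            |(1 / 8) * dnLaw S r cl v x - (1 / 8) * (trialMG (parS S) (res r v) c0 l.get G x).toReal|
              = (1 / 8) * |(downF S (lN (res r v), (c0 : ℤ), lL l) (lN x)).toReal
                  - (trialMG (parS S) (res r v) c0 l.get G x).toReal| := by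
          intro x _
          rw [dnLaw_inner hd, ← mul_sub, abs_mul]
          norm_num
        rw [Finset.sum_congr rfl e, ← Finset.mul_sum]
        exact mul_le_mul_of_nonneg_left hclose (by norm_num)
    · exact ⟨fun _ => 0, fun h0 => absurd h0 hv⟩
  choose f hf using key
  refine ⟨f, fun v hv c0 l hd => (hf v hv c0 l hd).1, fun v hv => ⟨walkF_support h hv, ?_⟩⟩
  set V := nodes (kids r cl) cl.length with hV
  set D : List (Fin m → ℕ) → (Fin m → ℕ) → ℝ := fun v x => (1 / 8) * dnLaw S r cl v x with hD
  set U : List (Fin m → ℕ) → ℝ := fun v => (1 / 8) * piLaw S cl v with hU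
  have e1 : ∑ w ∈ V, |(walkF S ((lN r, lL cl), lV v) (lV w)).toReal
        - walk (kids r cl) f (upI (rateAt (parS S) r cl)) v w|
      = ∑ w ∈ V, |walk (kids r cl) D U v w - walk (kids r cl) f (upI (rateAt (parS S) r cl)) v w| :=
    Finset.sum_congr rfl fun w hw => by rw [walkF_node h hv hw]
  rw [e1]
  have h1 := q_walk_close (S := kids r cl) (D := cl.length) (fun v h => kids_empty r cl v h) D f U hv
  have h2 := walk_up_close (kids r cl) f U (upI (rateAt (parS S) r cl)) V v
  have htri : ∑ w ∈ V, |walk (kids r cl) D U v w - walk (kids r cl) f (upI (rateAt (parS S) r cl)) v w|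
      ≤ ∑ w ∈ V, |walk (kids r cl) D U v w - walk (kids r cl) f U v w|
        + ∑ w ∈ V, |walk (kids r cl) f U v w - walk (kids r cl) f (upI (rateAt (parS S) r cl)) v w| := by
    rw [← Finset.sum_add_distrib]
    exact Finset.sum_le_sum fun w _ => abs_sub_le _ _ _
  refine htri.trans ((add_le_add h1 h2).trans (walk_numbers hS ?_ ?_))
  · cases hd : cl.drop v.length with
    | nil =>
      rw [kids_nil hd, Finset.sum_empty]
      positivity
    | cons c0 l => exact (hf v hv c0 l hd).2
  · have e2 : upI (rateAt (parS S) r cl) v = if v = [] then 0 else (1 / 8) * rateAt (parS S) r cl v.tail := rfl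
    rw [e2]
    cases v with
    | nil =>
      have e3 : U [] = 0 := by
        show (1 / 8) * piLaw S cl ([] : List (Fin m → ℕ)) = 0
        simp [piLaw]
      simp only [if_true, e3, sub_zero, abs_zero]
      positivity
    | cons x t =>
      have e3 : U (x :: t) = (1 / 8) * piLaw S cl (x :: t) := rfl
      have hne : x :: t ≠ [] := by simp
      rw [if_neg hne, e3, List.tail_cons, ← mul_sub, abs_mul]
      have : |(1 / 8 : ℝ)| = 1 / 8 := abs_of_pos (by norm_num)
      rw [this]
      exact mul_le_mul_of_nonneg_left (pi_close h hv) (by norm_num)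

end Vale.Agent.Lib.P328.Bit
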