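import Vale.Agent.Lib.P328.Bit.NodeF
import Vale.Agent.Lib.P328.Fpras.HFinal

/-!
# P328, bit model: the rate of the move up (module STEPF, first part)

`rateF S (m, c0 :: l)`: the value of `(parS S).rate m (length l) c0 C`, `C = c0 + Σ l`: `K * bw C (c0/C) c0 / 2`. If `l = []`: `1/2`. Otherwise with `lbwF C c0 (flog (c0/C)) (flog ((C - c0)/C))`, `fexp`; `K` as in `Par.K`: `fsqrt (c0 / (S^26 * 14 m))` if `S^28 < c0` and `1` otherwise.
Statement: `rateF_spec`. Errors: `lbwF_spec`, relative error `8/S^42`, `fexp_spec`; `rate ≤ 1`.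
-/

namespace Vale.Agent.Lib.P328.Bit

open Finset MeasureTheory Vale.Agent.Lib.P328.Cap Vale.Agent.Lib.P328.Fpras Vale.Agent.Lib.P328.Samp
open scoped ENNReal

variable {m : ℕ}

namespace StepAux

open FExpAux

/-! ### The rate on words -/

/-- The sum of the first `S` elements. -/
def sumF (S : ℕ) (l : List ℤ) : ℤ := (l.take S).foldl (fun s a => cadd S s a) 0

theorem sumF_rep {α : Type} [Enc α] {f : ℕ → α → List ℤ} (hf : DRep f) : DRep fun S x => sumF S (f S x) :=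
  DRep.foldS (f := fun S y => cadd S y.2.1 y.2.2) hf DRep.zero
    ((DRep.snd.comp DRep.fst).add (DRep.snd.comp DRep.snd))

/-- The gain on words: input `m`, `c0`. -/
noncomputable def kF (S : ℕ) (m c0 : ℤ) : ℤ :=
  if 0 < csub S c0 (clamp S ((S : ℤ) ^ 28)) then
    fsqrt S (fdiv S (fint S c0) (fint S (cmul S (cmul S (clamp S ((S : ℤ) ^ 26)) (clamp S ((14 : ℕ) : ℤ))) m)))
  else fone S

theorem kF_rep {α : Type} [Enc α] {fm fc : ℕ → α → ℤ} (hm : DRep fm) (hc : DRep fc) :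
    DRep fun S x => kF S (fm S x) (fc S x) :=
  DRep.ite (hc.sub (spow_rep 28))
    (fsqrt_rep (fdiv_rep (fint_rep hc) (fint_rep (((spow_rep 26).mul (DRep.natConst 14)).mul hm))))
    fone_rep

/-- The rate when more columns remain: input `m`, `c0`, the other columns. -/
noncomputable def rateMain (S : ℕ) (x : ℤ × (ℤ × List ℤ)) : ℤ :=
  fdiv S (fmul S (kF S x.1 x.2.1)
    (fexp S (lbwF S (cadd S x.2.1 (sumF S x.2.2)) x.2.1
      (flog S (fdiv S (fint S x.2.1) (fint S (cadd S x.2.1 (sumF S x.2.2)))))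
      (flog S (fdiv S (fint S (csub S (cadd S x.2.1 (sumF S x.2.2)) x.2.1))
        (fint S (cadd S x.2.1 (sumF S x.2.2)))))))) (fint S (clamp S ((2 : ℕ) : ℤ)))

theorem rateMain_rep : DRep rateMain := by
  have hm : DRep (α := ℤ × (ℤ × List ℤ)) (β := ℤ) fun _ x => x.1 := DRep.fst
  have hc : DRep (α := ℤ × (ℤ × List ℤ)) (β := ℤ) fun _ x => x.2.1 := DRep.snd.comp DRep.fst
  have hl : DRep (α := ℤ × (ℤ × List ℤ)) (β := List ℤ) fun _ x => x.2.2 := DRep.snd.comp DRep.snd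
  have hC : DRep (α := ℤ × (ℤ × List ℤ)) (β := ℤ) fun S x => cadd S x.2.1 (sumF S x.2.2) :=
    hc.add (sumF_rep hl)
  exact fdiv_rep (fmul_rep (kF_rep hm hc)
    (fexp_rep (lbwF_rep hC hc (flog_rep (fdiv_rep (fint_rep hc) (fint_rep hC)))
      (flog_rep (fdiv_rep (fint_rep (hC.sub hc)) (fint_rep hC))))))
    (fint_rep (DRep.natConst 2))

end StepAux

open StepAux

namespace StepAux

/-- The word `1/2`. -/
noncomputable def halfW (S : ℕ) : ℤ := fdiv S (fone S) (fint S (clamp S ((2 : ℕ) : ℤ)))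

theorem halfW_rep {α : Type} [Enc α] : DRep (α := α) (β := ℤ) fun S _ => halfW S :=
  fdiv_rep fone_rep (fint_rep (DRep.natConst 2))

/-- The rate when one column at least remains. -/
noncomputable def rateCons (S : ℕ) (z : (ℤ × List ℤ) × (ℤ × List ℤ)) : ℤ :=
  match z.2.2 with
  | [] => halfW S
  | y :: t => rateMain S (z.1.1, (z.2.1, y :: t))

theorem rateCons_rep : DRep rateCons := by
  have h0 : DRep (α := ((ℤ × List ℤ) × (ℤ × List ℤ)) × (ℤ × List ℤ)) (β := ℤ × (ℤ × List ℤ))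
      fun _ w => (w.1.1.1, (w.1.2.1, w.2.1 :: w.2.2)) :=
    ((DRep.fst.comp DRep.fst).comp DRep.fst).pair
      (((DRep.fst.comp DRep.snd).comp DRep.fst).pair
        (DRep.cons (DRep.snd.comp DRep.fst) (DRep.snd.comp DRep.snd)))
  have hg := h0.comp rateMain_rep
  have h := DRep.caseList (α := (ℤ × List ℤ) × (ℤ × List ℤ)) (γ := ℤ)
    (l := fun _ z => z.2.2) (f := fun S _ => halfW S)
    (g := fun S w => rateMain S (w.1.1.1, (w.1.2.1, w.2.1 :: w.2.2)))
    (DRep.snd.comp DRep.snd) halfW_rep hg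
  refine h.congr fun S z => ?_
  rcases z with ⟨a, b, l⟩
  cases l <;> rfl

end StepAux

/-- The rate: input: `m`, and the columns that remain. -/
noncomputable def rateF (S : ℕ) (x : ℤ × List ℤ) : ℤ :=
  match x.2 with
  | [] => 0
  | c0 :: l => rateCons S (x, (c0, l))

theorem rateF_rep : DRep rateF := by
  have h := DRep.caseList (l := fun _ (x : ℤ × List ℤ) => x.2) (f := fun _ _ => (0 : ℤ))
    (g := fun S z => rateCons S z) DRep.snd DRep.zero rateCons_rep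
  refine h.congr fun S x => ?_
  rcases x with ⟨m, l⟩
  cases l <;> rfl

namespace StepAux

open FExpAux

section Spec

variable {S : ℕ}

theorem half_pow_add {A B C : ℕ} (hA : C + 1 ≤ A) (hB : C + 1 ≤ B) :
    (1 / 2 : ℝ) ^ A + (1 / 2 : ℝ) ^ B ≤ (1 / 2 : ℝ) ^ C := by
  have h1 : (1 / 2 : ℝ) ^ A ≤ (1 / 2 : ℝ) ^ (C + 1) :=
    pow_le_pow_of_le_one (by norm_num) (by norm_num) hA
  have h2 : (1 / 2 : ℝ) ^ B ≤ (1 / 2 : ℝ) ^ (C + 1) :=
    pow_le_pow_of_le_one (by norm_num) (by norm_num) hB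
  have h3 : (1 / 2 : ℝ) ^ (C + 1) = (1 / 2) ^ C / 2 := by
    rw [pow_succ]
    ring
  have h4 : 0 < (1 / 2 : ℝ) ^ C := by positivity
  linarith

theorem log_close {a b t e : ℝ} (ht : 0 < t) (ha : t ≤ a) (hb : t ≤ b) (h : |a - b| ≤ e) :
    |Real.log a - Real.log b| ≤ e / t := by
  have he : 0 ≤ e := (abs_nonneg _).trans h
  have key : ∀ {x y : ℝ}, t ≤ x → t ≤ y → x - y ≤ e → Real.log x - Real.log y ≤ e / t := by
    intro x y hx hy hxy
    have hy0 : 0 < y := by linarith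
    have hx0 : 0 < x := by linarith
    rw [← Real.log_div hx0.ne' hy0.ne']
    have h1 := Real.log_le_sub_one_of_pos (div_pos hx0 hy0)
    refine h1.trans ?_
    have e1 : x / y - 1 = (x - y) / y := by
      field_simp
    rw [e1]
    calc (x - y) / y ≤ e / y := div_le_div_of_nonneg_right hxy hy0.le
      _ ≤ e / t := div_le_div_of_nonneg_left he ht hy
  have h2 := abs_le.1 h
  rw [abs_le]
  constructor
  · have := key hb ha (by linarith [h2.1])
    linarith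
  · exact key ha hb (by linarith [h2.2])

theorem sqrt_close {a V : ℝ} (ha : 0 ≤ a) (hV : 1 ≤ V) : |Real.sqrt a - Real.sqrt V| ≤ |a - V| := by
  have h1 : 1 ≤ Real.sqrt V := by
    rw [Real.one_le_sqrt]
    exact hV
  have h2 : 0 ≤ Real.sqrt a := Real.sqrt_nonneg a
  have e : a - V = (Real.sqrt a - Real.sqrt V) * (Real.sqrt a + Real.sqrt V) := by
    have h3 := Real.sq_sqrt ha
    have h4 := Real.sq_sqrt (by linarith : 0 ≤ V)
    nlinarith
  rw [e, abs_mul]
  have h5 : |Real.sqrt a + Real.sqrt V| = Real.sqrt a + Real.sqrt V := abs_of_nonneg (by linarith)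
  rw [h5]
  have h6 : 0 ≤ |Real.sqrt a - Real.sqrt V| := abs_nonneg _
  nlinarith

theorem ulp_eq : ulp S = (1 / 2 : ℝ) ^ (S ^ 5) := by
  unfold ulp prec
  rw [one_div_pow]

theorem lt_sq (hS : 1000000 ≤ S) {a : ℕ} (ha : a < 2 ^ S) : a < 2 ^ (S ^ 2) :=
  lt_of_lt_of_le ha (Nat.pow_le_pow_right (by norm_num) (by nlinarith))

theorem word_nat (hS : 1000000 ≤ S) {a : ℕ} (ha : a < 2 ^ (S ^ 2)) : |(a : ℤ)| ≤ 2 ^ wid S := by
  rw [abs_of_nonneg (by positivity)]
  have h1 : (a : ℤ) ≤ 2 ^ (S ^ 2) := by exact_mod_cast ha.le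
  have h2 : S ^ 2 ≤ wid S := CoinAux.pow_le_wid hS (e := 2) (by norm_num)
  exact h1.trans (pow_le_pow_right₀ (by norm_num) h2)

theorem big_nat (hS : 1000000 ≤ S) {a : ℕ} (ha : a < 2 ^ (S ^ 2)) : |((a : ℤ) : ℝ)| ≤ Big S := by
  have h1 : ((a : ℤ) : ℝ) = (a : ℝ) := by norm_cast
  rw [h1, abs_of_nonneg (by positivity)]
  have h2 : (a : ℝ) ≤ 2 ^ (S ^ 2) := by exact_mod_cast ha.le
  unfold Big
  have h3 : S ^ 2 ≤ S ^ 4 := Nat.pow_le_pow_right (by omega) (by norm_num)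
  exact h2.trans (pow_le_pow_right₀ (by norm_num) h3)

theorem val_fint_nat (hS : 1000000 ≤ S) {a : ℕ} (ha : a < 2 ^ (S ^ 2)) : val S (fint S (a : ℤ)) = a := by
  have := val_fint hS (big_nat hS ha)
  rw [this]
  norm_cast

theorem abs_val_fint_nat (hS : 1000000 ≤ S) {a : ℕ} (ha : a < 2 ^ (S ^ 2)) : |val S (fint S (a : ℤ))| ≤ Big S := by
  rw [val_fint_nat hS ha]
  have := big_nat hS ha
  simpa using this

theorem one_div_big_le : 1 / Big S ≤ 1 := by
  unfold Big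
  rw [div_le_one (by positivity)]
  exact one_le_pow₀ (by norm_num)

/-- The quotient of two natural numbers. -/
theorem val_fdiv_nat (hS : 1000000 ≤ S) {a b : ℕ} (ha : a < 2 ^ (S ^ 2)) (hb : b < 2 ^ (S ^ 2)) (hb0 : 0 < b) :
    |val S (fdiv S (fint S (a : ℤ)) (fint S (b : ℤ))) - (a : ℝ) / b| ≤ ulp S := by
  have h := val_fdiv hS (abs_val_fint_nat hS ha) (abs_val_fint_nat hS hb) (by
    rw [val_fint_nat hS hb, abs_of_nonneg (by positivity)]
    have h1 : (1 : ℝ) ≤ b := by exact_mod_cast hb0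
    exact one_div_big_le.trans h1)
  rwa [val_fint_nat hS ha, val_fint_nat hS hb] at h

theorem two_mul_le_cube (hS : 1000000 ≤ S) : 2 * S ≤ S ^ 3 := by
  have h1 : S ^ 3 = S * (S * S) := by ring
  rw [h1]
  have h2 : 2 ≤ S * S := by nlinarith
  nlinarith

/-- The logarithm of a value close to `x`. -/
theorem flog_close (hS : 1000000 ≤ S) {w : ℤ} {x : ℝ} (hx0 : (1 / 2 : ℝ) ^ S ≤ x) (hx1 : x ≤ 1)
    (hw : |val S w - x| ≤ ulp S) : |val S (flog S w) - Real.log x| ≤ (1 / 2 : ℝ) ^ (S ^ 3) := by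
  obtain ⟨h6, h53, h31, h54, -⟩ := exps hS
  have h2S : 2 * S ≤ S ^ 3 := two_mul_le_cube hS
  have h5big : 100 * S ≤ S ^ 5 := by nlinarith
  rw [ulp_eq] at hw
  have hw2 := abs_le.1 hw
  have hs1 : (1 / 2 : ℝ) ^ (S ^ 5) + (1 / 2 : ℝ) ^ (S ^ 5) ≤ (1 / 2 : ℝ) ^ S :=
    half_pow_add (by omega) (by omega)
  have ht : (1 / 2 : ℝ) ^ (S + 1) = (1 / 2 : ℝ) ^ S / 2 := by
    rw [pow_succ]
    ring
  have htpos : (0 : ℝ) < (1 / 2 : ℝ) ^ (S + 1) := by positivity
  have hu : (1 / 2 : ℝ) ^ (S ^ 5) ≤ (1 / 2 : ℝ) ^ (S + 1) := by linarith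
  have hlow : (1 / 2 : ℝ) ^ (S + 1) ≤ val S w := by linarith [hw2.1]
  have hx2 : (1 / 2 : ℝ) ^ (S + 1) ≤ x := by
    have : (0 : ℝ) < (1 / 2 : ℝ) ^ S := by positivity
    linarith
  have hhigh : val S w ≤ 2 := by
    have : (1 / 2 : ℝ) ^ (S ^ 5) ≤ 1 := pow_le_one₀ (by norm_num) (by norm_num)
    linarith [hw2.2]
  have h1 : (1 / 2 : ℝ) ^ (S ^ 3) ≤ val S w := by
    refine le_trans ?_ hlow
    exact pow_le_pow_of_le_one (by norm_num) (by norm_num) (by omega)
  have h2 : val S w ≤ 2 ^ (S ^ 3) := by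
    refine hhigh.trans ?_
    have h3 : (2 : ℝ) ^ 1 ≤ 2 ^ (S ^ 3) := pow_le_pow_right₀ (by norm_num) (by omega)
    simpa using h3
  have h3 := flog_spec hS h1 h2
  have h4 := log_close htpos hlow hx2 hw
  have h5 : (1 / 2 : ℝ) ^ (S ^ 5) / (1 / 2 : ℝ) ^ (S + 1) = (1 / 2 : ℝ) ^ (S ^ 5 - (S + 1)) := by
    rw [div_eq_iff htpos.ne', ← pow_add]
    congr 1
    omega
  rw [h5] at h4
  have h6' := half_pow_add (A := S ^ 5 / 4) (B := S ^ 5 - (S + 1)) (C := S ^ 3) (by omega) (by omega)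
  have e : val S (flog S w) - Real.log x
      = (val S (flog S w) - Real.log (val S w)) + (Real.log (val S w) - Real.log x) := by ring
  rw [e]
  exact (abs_add_le _ _).trans ((add_le_add h3 h4).trans h6')

/-- The sum of the columns in words. -/
theorem sumF_lL (hS : 1000000 ≤ S) {l : List ℕ} (hlS : l.length ≤ S) (hl : l.sum < 2 ^ S) :
    sumF S (lL l) = (l.sum : ℤ) := by
  have key : ∀ (L : List ℕ) (a : ℕ), a + L.sum < 2 ^ S →
      (L.map fun a : ℕ => (a : ℤ)).foldl (fun s b => cadd S s b) (a : ℤ) = ((a + L.sum : ℕ) : ℤ) := by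
    intro L
    induction L with
    | nil => intro a _; simp
    | cons y t ih =>
      intro a h
      simp only [List.sum_cons] at h
      simp only [List.map_cons, List.foldl_cons, List.sum_cons]
      have hlt : ∀ b, b ≤ a + (y + t.sum) → b < 2 ^ (S ^ 2) := fun b hb =>
        lt_sq hS (by omega)
      have e : cadd S (a : ℤ) (y : ℤ) = ((a + y : ℕ) : ℤ) := by
        rw [cadd_eq hS (word_nat hS (hlt _ (by omega))) (word_nat hS (hlt _ (by omega)))]
        · push_cast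
          ring
        · have := word_nat hS (a := a + y) (hlt _ (by omega))
          push_cast at this
          exact this
      rw [e, ih (a + y) (by omega)]
      congr 1
      omega
  unfold sumF lL
  rw [List.take_of_length_le (by simpa using hlS)]
  have := key l 0 (by omega)
  simpa using this

theorem S_le_pow (hS : 1000000 ≤ S) (n : ℕ) : (S : ℝ) ^ n ≤ 2 ^ (n * S) := by
  rw [mul_comm, pow_mul]
  exact pow_le_pow_left₀ (by positivity) (nat_le_two_pow S) n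

/-- The parameters are good. -/
theorem parS_ok (hS : 1000000 ≤ S) (hm : 0 < m) (hmS : m ≤ S) :
    ParOK (parS S) m 0 (Real.exp (-((parS S).d * (parS S).cs / 2)) / 8) := by
  have hS1 : (1000000 : ℝ) ≤ S := by exact_mod_cast hS
  have hmr : (m : ℝ) ≤ S := by exact_mod_cast hmS
  have hm0 : (0 : ℝ) < m := by exact_mod_cast hm
  refine ⟨hm, ?_, ?_, ?_, ?_, ?_⟩
  · show 0 < 1 / (S : ℝ) ^ 26
    positivity
  · show 1 / (S : ℝ) ^ 26 ≤ 1 / (8 * (m : ℝ))
    apply one_div_le_one_div_of_le (by positivity)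
    have h1 : (S : ℝ) ^ 26 = S * S ^ 25 := by ring
    have h2 : (1 : ℝ) ≤ (S : ℝ) ^ 24 := one_le_pow₀ (by linarith)
    have h3 : (S : ℝ) ^ 25 = S * S ^ 24 := by ring
    have h4 : (S : ℝ) ≤ S ^ 25 := by nlinarith
    nlinarith
  · show 8 * m ≤ S ^ 28
    have h1 : S ^ 28 = S * S ^ 27 := by ring
    have h2 : 1 ≤ S ^ 26 := Nat.one_le_pow _ _ (by omega)
    have h3 : S ^ 27 = S * S ^ 26 := by ring
    have h4 : S ≤ S ^ 27 := by nlinarith
    nlinarith
  · simp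
  · have h1 : Real.exp (-((parS S).d * (parS S).cs / 2)) ≤ 1 := by
      rw [Real.exp_le_one_iff]
      have : 0 ≤ (parS S).d * (parS S).cs / 2 := by
        show 0 ≤ 1 / (S : ℝ) ^ 26 * ((S ^ 28 : ℕ) : ℝ) / 2
        positivity
      linarith
    linarith

/-- The word `K`. -/
theorem kF_close (hS : 1000000 ≤ S) {c0 n : ℕ} (hn : 0 < n) (hm : 0 < m) (hmS : m ≤ S) (hc0 : 0 < c0)
    (hN : c0 < 2 ^ S) :
    |val S (kF S (m : ℤ) (c0 : ℤ)) - (parS S).K m n c0| ≤ 2 * (1 / 2 : ℝ) ^ (S ^ 5 / 4)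
      ∧ (parS S).K m n c0 ≤ 2 ^ S ∧ |val S (kF S (m : ℤ) (c0 : ℤ))| ≤ 2 ^ (S + 1) := by
  obtain ⟨h6, h53, h31, h54, -⟩ := exps hS
  have h2S : 2 * S ≤ S ^ 3 := two_mul_le_cube hS
  have hpos : (0 : ℝ) < (1 / 2 : ℝ) ^ (S ^ 5 / 4) := by positivity
  have hS1 : (1000000 : ℝ) ≤ S := by exact_mod_cast hS
  have hSS : 100 * S ≤ S ^ 2 := by nlinarith
  have hcs : clamp S ((S : ℤ) ^ 28) = (S : ℤ) ^ 28 := spow_eq hS (by norm_num)
  have hs26 : clamp S ((S : ℤ) ^ 26) = (S : ℤ) ^ 26 := spow_eq hS (by norm_num)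
  have hpwN : ∀ k : ℕ, S ^ k ≤ 2 ^ (k * S) := by
    intro k
    rw [mul_comm, pow_mul]
    exact Nat.pow_le_pow_left (Nat.lt_two_pow_self (n := S)).le k
  have hpw : ∀ k : ℕ, (S : ℤ) ^ k ≤ 2 ^ (k * S) := by
    intro k
    exact_mod_cast hpwN k
  have hW : ∀ a, a ≤ S ^ 2 → (2 : ℤ) ^ a ≤ 2 ^ wid S := fun a ha =>
    pow_le_pow_right₀ (by norm_num) (ha.trans (CoinAux.pow_le_wid hS (e := 2) (by norm_num)))
  have hcsub : csub S (c0 : ℤ) (clamp S ((S : ℤ) ^ 28)) = (c0 : ℤ) - (S : ℤ) ^ 28 := by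
    rw [hcs]
    apply csub_eq hS (word_nat hS (lt_sq hS hN))
    · rw [abs_of_nonneg (by positivity)]
      exact (hpw 28).trans (hW _ (by omega))
    · have h1 : (S : ℤ) ^ 28 ≤ 2 ^ (28 * S) := hpw 28
      have h2 : (c0 : ℤ) ≤ 2 ^ S := by exact_mod_cast hN.le
      have h3 : (2 : ℤ) ^ S ≤ 2 ^ (28 * S) := pow_le_pow_right₀ (by norm_num) (by omega)
      have h5 : (2 : ℤ) ^ (28 * S) ≤ 2 ^ wid S := hW _ (by omega)
      have h7 : (0 : ℤ) ≤ (S : ℤ) ^ 28 := by positivity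
      have h8 : (0 : ℤ) ≤ c0 := Int.natCast_nonneg c0
      rw [abs_le]
      constructor <;> linarith
  by_cases hreg : S ^ 28 < c0
  · -- the second regime
    have hr2 : 0 < n ∧ (parS S).cs < c0 := ⟨hn, hreg⟩
    have hK := K_pos_reg (P := parS S) (m := m) (n := n) (c0 := c0) hr2
    have htest : 0 < csub S (c0 : ℤ) (clamp S ((S : ℤ) ^ 28)) := by
      rw [hcsub]
      have : ((S ^ 28 : ℕ) : ℤ) < (c0 : ℤ) := by exact_mod_cast hreg
      push_cast at this
      linarith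
    set D : ℕ := S ^ 26 * 14 * m with hD
    have hD0 : 0 < D := by positivity
    have hDle : D ≤ S ^ 28 := by
      have h1 : S ^ 26 * 14 * m ≤ S ^ 26 * 14 * S := Nat.mul_le_mul_left _ hmS
      have h3 : 14 * S ≤ S * S := by nlinarith
      calc D ≤ S ^ 26 * 14 * S := h1
        _ = S ^ 26 * (14 * S) := by ring
        _ ≤ S ^ 26 * (S * S) := Nat.mul_le_mul_left _ h3
        _ = S ^ 28 := by ring
    have hDlt : D < 2 ^ (S ^ 2) := by
      refine lt_of_le_of_lt (hDle.trans (hpwN 28)) ?_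
      exact Nat.pow_lt_pow_right (by norm_num) (by omega)
    have hDw : cmul S (cmul S (clamp S ((S : ℤ) ^ 26)) (clamp S ((14 : ℕ) : ℤ))) (m : ℤ) = (D : ℤ) := by
      have h14 : clamp S ((14 : ℕ) : ℤ) = (14 : ℤ) := by
        apply clamp_eq hS
        have h0 : (14 : ℤ) ≤ 2 ^ 4 := by norm_num
        have : (2 : ℤ) ^ 4 ≤ 2 ^ wid S := hW 4 (by omega)
        rw [abs_of_nonneg (by norm_num)]
        push_cast
        linarith
      have hmlt : m < 2 ^ (S ^ 2) := lt_sq hS (lt_of_le_of_lt hmS Nat.lt_two_pow_self)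
      have hS26lt : S ^ 26 * 14 < 2 ^ (S ^ 2) := by
        have h1 : S ^ 26 * 14 ≤ S ^ 28 := by
          have : S ^ 28 = S ^ 26 * (S * S) := by ring
          rw [this]
          exact Nat.mul_le_mul_left _ (by nlinarith)
        exact lt_of_le_of_lt (h1.trans (hpwN 28)) (Nat.pow_lt_pow_right (by norm_num) (by omega))
      have hS26lt' : S ^ 26 < 2 ^ (S ^ 2) := lt_of_le_of_lt (Nat.le_mul_of_pos_right _ (by norm_num)) hS26lt
      have e1 : cmul S ((S : ℤ) ^ 26) (14 : ℤ) = ((S ^ 26 * 14 : ℕ) : ℤ) := by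
        have h2 := word_nat hS hS26lt
        have h3 := word_nat hS hS26lt'
        rw [cmul_eq hS (by simpa using h3) (by
          rw [abs_of_nonneg (by norm_num)]
          have : (2 : ℤ) ^ 4 ≤ 2 ^ wid S := hW 4 (by omega)
          linarith) (by simpa using h2)]
        push_cast
        ring
      rw [hs26, h14, e1]
      have h2 := word_nat hS hS26lt
      have h3 := word_nat hS hmlt
      have h4 := word_nat hS hDlt
      rw [cmul_eq hS h2 h3 (by
        rw [hD] at h4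
        simpa using h4)]
      rw [hD]
      push_cast
      ring
    have hkF : kF S (m : ℤ) (c0 : ℤ) = fsqrt S (fdiv S (fint S c0) (fint S D)) := by
      unfold kF
      rw [if_pos htest, hDw]
    have hc0sq : c0 < 2 ^ (S ^ 2) := lt_sq hS hN
    have ha := val_fdiv_nat hS hc0sq hDlt hD0
    set a : ℤ := fdiv S (fint S c0) (fint S D) with hadef
    set V : ℝ := (c0 : ℝ) / D with hV
    have hVe : (parS S).d * c0 / (14 * m) = V := by
      rw [hV, hD]
      show 1 / (S : ℝ) ^ 26 * c0 / (14 * m) = _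
      push_cast
      have hS0 : (S : ℝ) ≠ 0 := by positivity
      have hm0 : (m : ℝ) ≠ 0 := by
        have : (0 : ℝ) < m := by exact_mod_cast hm
        exact this.ne'
      field_simp
    rw [hVe] at hK
    have hDr : (D : ℝ) ≤ (S : ℝ) ^ 28 := by exact_mod_cast hDle
    have hc0r : (S : ℝ) ^ 28 ≤ c0 := by exact_mod_cast hreg.le
    have hDpos : (0 : ℝ) < D := by exact_mod_cast hD0
    have hV1 : 1 ≤ V := by
      rw [hV, one_le_div hDpos]
      linarith
    have hVu : V ≤ 2 ^ S := by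
      rw [hV, div_le_iff₀ hDpos]
      have h1 : (c0 : ℝ) ≤ 2 ^ S := by exact_mod_cast hN.le
      have h2 : (1 : ℝ) ≤ D := by exact_mod_cast hD0
      have h3 : (0 : ℝ) < 2 ^ S := by positivity
      nlinarith
    rw [ulp_eq] at ha
    have ha2 := abs_le.1 ha
    have hu1 : (1 / 2 : ℝ) ^ (S ^ 5) ≤ 1 := pow_le_one₀ (by norm_num) (by norm_num)
    have hu2 : (1 / 2 : ℝ) ^ (S ^ 5) ≤ (1 / 2 : ℝ) ^ (S ^ 5 / 4) :=
      pow_le_pow_of_le_one (by norm_num) (by norm_num) (by omega)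
    have hav0 : 0 ≤ val S a := by linarith [ha2.1]
    have hBig : val S a ≤ Big S := by
      unfold Big
      have h1 : (2 : ℝ) ^ (S + 1) ≤ 2 ^ (S ^ 4) := pow_le_pow_right₀ (by norm_num) (by
        have : S ^ 3 ≤ S ^ 4 := Nat.pow_le_pow_right (by omega) (by norm_num)
        omega)
      have h2 : (2 : ℝ) ^ (S + 1) = 2 * 2 ^ S := by
        rw [pow_succ]
        ring
      have h3 : (1 : ℝ) ≤ 2 ^ S := one_le_pow₀ (by norm_num)
      linarith [ha2.2]
    have hs1 := fsqrt_spec hS hav0 hBig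
    have hs2 := sqrt_close hav0 hV1
    have hk1 : |val S (fsqrt S a) - Real.sqrt V| ≤ 2 * (1 / 2 : ℝ) ^ (S ^ 5 / 4) := by
      have e : val S (fsqrt S a) - Real.sqrt V
          = (val S (fsqrt S a) - Real.sqrt (val S a)) + (Real.sqrt (val S a) - Real.sqrt V) := by ring
      rw [e]
      refine (abs_add_le _ _).trans ?_
      linarith
    have hsV : Real.sqrt V ≤ 2 ^ S := by
      rw [Real.sqrt_le_left (by positivity)]
      have h3 : (1 : ℝ) ≤ 2 ^ S := one_le_pow₀ (by norm_num)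
      nlinarith
    have hsmall : 2 * (1 / 2 : ℝ) ^ (S ^ 5 / 4) ≤ 2 ^ S := by
      have h1 : (1 / 2 : ℝ) ^ (S ^ 5 / 4) ≤ 1 := pow_le_one₀ (by norm_num) (by norm_num)
      have h3 : (2 : ℝ) ≤ 2 ^ S := by
        calc (2 : ℝ) = 2 ^ 1 := by norm_num
          _ ≤ 2 ^ S := pow_le_pow_right₀ (by norm_num) (by omega)
      linarith
    rw [hK, hkF]
    refine ⟨hk1, hsV, ?_⟩
    have h2 : (2 : ℝ) ^ (S + 1) = 2 * 2 ^ S := by
      rw [pow_succ]
      ring
    have h3 := abs_le.1 hk1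
    have h5 : 0 ≤ Real.sqrt V := Real.sqrt_nonneg V
    rw [abs_le]
    constructor <;> linarith [h3.1, h3.2]
  · -- the first regime
    have hr1 : ¬ (0 < n ∧ (parS S).cs < c0) := fun h => hreg h.2
    have hK := K_neg_reg (P := parS S) (m := m) (n := n) (c0 := c0) hr1
    have htest : ¬ 0 < csub S (c0 : ℤ) (clamp S ((S : ℤ) ^ 28)) := by
      rw [hcsub]
      have : (c0 : ℤ) ≤ ((S ^ 28 : ℕ) : ℤ) := by exact_mod_cast not_lt.1 hreg
      push_cast at this
      linarith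
    have hkF : kF S (m : ℤ) (c0 : ℤ) = fone S := by
      unfold kF
      rw [if_neg htest]
    rw [hK, hkF, val_fone hS]
    have h3 : (1 : ℝ) ≤ 2 ^ S := one_le_pow₀ (by norm_num)
    refine ⟨?_, h3, ?_⟩
    · simp only [sub_self, abs_zero]
      positivity
    · rw [abs_one]
      exact one_le_pow₀ (by norm_num)


/-- Small numbers. -/
theorem tiny_le (hS : 1000000 ≤ S) {T : ℕ} (hT : 50 * S ≤ T) : 100 * (1 / 2 : ℝ) ^ T ≤ 1 / (S : ℝ) ^ 42 := by
  have hS0 : (0 : ℝ) < (S : ℝ) ^ 42 := by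
    have : (0 : ℝ) < S := by
      have : 0 < S := by omega
      exact_mod_cast this
    positivity
  rw [le_div_iff₀ hS0]
  have h1 := S_le_pow hS 42
  have h2 : (1 / 2 : ℝ) ^ T ≤ (1 / 2 : ℝ) ^ (50 * S) :=
    pow_le_pow_of_le_one (by norm_num) (by norm_num) hT
  have h3 : (1 / 2 : ℝ) ^ (50 * S) = (1 / 2 : ℝ) ^ (42 * S) * (1 / 2 : ℝ) ^ (8 * S) := by
    rw [← pow_add]
    congr 1
    ring
  have h4 : (1 / 2 : ℝ) ^ (8 * S) ≤ (1 / 2 : ℝ) ^ 7 :=
    pow_le_pow_of_le_one (by norm_num) (by norm_num) (by omega)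
  have h5 : (1 / 2 : ℝ) ^ (42 * S) * 2 ^ (42 * S) = 1 := by
    rw [← mul_pow]
    norm_num
  have h6 : (0 : ℝ) < (1 / 2 : ℝ) ^ (42 * S) := by positivity
  have h7 : (0 : ℝ) < (2 : ℝ) ^ (42 * S) := by positivity
  have h8 : (0 : ℝ) ≤ (1 / 2 : ℝ) ^ T := by positivity
  calc 100 * (1 / 2 : ℝ) ^ T * (S : ℝ) ^ 42
      ≤ 100 * (1 / 2 : ℝ) ^ T * 2 ^ (42 * S) := by
        apply mul_le_mul_of_nonneg_left h1
        positivity
    _ ≤ 100 * ((1 / 2 : ℝ) ^ (42 * S) * (1 / 2 : ℝ) ^ 7) * 2 ^ (42 * S) := by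
        apply mul_le_mul_of_nonneg_right _ h7.le
        apply mul_le_mul_of_nonneg_left _ (by norm_num)
        rw [h3] at h2
        exact h2.trans (mul_le_mul_of_nonneg_left h4 h6.le)
    _ = 100 * (1 / 2 : ℝ) ^ 7 * ((1 / 2 : ℝ) ^ (42 * S) * 2 ^ (42 * S)) := by ring
    _ ≤ 1 := by
        rw [h5]
        norm_num

/-- The exponential of the logarithm of the binomial weight. -/
theorem expw_close (hS : 1000000 ≤ S) {c0 C : ℕ} (hc0 : 0 < c0) (hc0C : c0 < C) (hN : C < 2 ^ S) :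
    0 < bw C ((c0 : ℝ) / C) c0 ∧
    |val S (fexp S (lbwF S (C : ℤ) (c0 : ℤ) (flog S (fdiv S (fint S (c0 : ℤ)) (fint S (C : ℤ))))
      (flog S (fdiv S (fint S ((C - c0 : ℕ) : ℤ)) (fint S (C : ℤ)))))) - bw C ((c0 : ℝ) / C) c0|
      ≤ bw C ((c0 : ℝ) / C) c0 * (8 / (S : ℝ) ^ 42) + (1 / 2 : ℝ) ^ (S ^ 5 / 2) := by
  obtain ⟨h6, h53, h31, h54, -⟩ := exps hS
  have h2S : 2 * S ≤ S ^ 3 := two_mul_le_cube hS
  have hS1 : (1000000 : ℝ) ≤ S := by exact_mod_cast hS
  have hSpos : (0 : ℝ) < S := by linarith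
  have hCpos : 0 < C := by omega
  have hCr : (0 : ℝ) < C := by exact_mod_cast hCpos
  have hCsq := lt_sq hS hN
  have hc0sq : c0 < 2 ^ (S ^ 2) := lt_sq hS (by omega)
  have hdsq : C - c0 < 2 ^ (S ^ 2) := lt_of_le_of_lt (by omega) hCsq
  -- the parameter
  set p : ℝ := (c0 : ℝ) / C with hp
  have hc0r : (0 : ℝ) < c0 := by exact_mod_cast hc0
  have hc0Cr : (c0 : ℝ) < C := by exact_mod_cast hc0C
  have hp0 : 0 < p := by positivity
  have hp1 : p < 1 := by
    rw [hp, div_lt_one hCr]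
    exact hc0Cr
  have hCle : (C : ℝ) ≤ 2 ^ S := by exact_mod_cast hN.le
  have hinv : (1 / 2 : ℝ) ^ S ≤ 1 / C := by
    rw [one_div_pow]
    exact one_div_le_one_div_of_le hCr hCle
  have hpl : (1 / 2 : ℝ) ^ S ≤ p := by
    refine hinv.trans ?_
    rw [hp]
    apply div_le_div_of_nonneg_right _ hCr.le
    exact_mod_cast hc0
  have hq : 1 - p = ((C - c0 : ℕ) : ℝ) / C := by
    rw [Nat.cast_sub hc0C.le, hp]
    field_simp
  have hql : (1 / 2 : ℝ) ^ S ≤ 1 - p := by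
    refine hinv.trans ?_
    rw [hq]
    apply div_le_div_of_nonneg_right _ hCr.le
    have : 1 ≤ C - c0 := by omega
    exact_mod_cast this
  have hSS3 : (1 / 2 : ℝ) ^ (S ^ 3) ≤ (1 / 2 : ℝ) ^ S :=
    pow_le_pow_of_le_one (by norm_num) (by norm_num) (by omega)
  have hw1 := val_fdiv_nat hS hc0sq hCsq hCpos
  have hw2 := val_fdiv_nat hS hdsq hCsq hCpos
  rw [← hq] at hw2
  have hl1 := flog_close hS hpl hp1.le hw1
  have hl2 := flog_close hS hql (by linarith) hw2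
  -- the logarithm of the binomial weight
  have hL := lbwF_spec hS hN hc0C.le hp0 hp1 (hSS3.trans hpl) (hSS3.trans hql) hl1 hl2
  set b : ℝ := bw C p c0 with hb
  set Lw : ℤ := lbwF S (C : ℤ) (c0 : ℤ) (flog S (fdiv S (fint S (c0 : ℤ)) (fint S (C : ℤ))))
    (flog S (fdiv S (fint S ((C - c0 : ℕ) : ℤ)) (fint S (C : ℤ)))) with hLw
  have hmode : 1 ≤ 7 * Real.sqrt c0 * b := bw_mode_sqrt hc0 hc0C
  have hb1 : b ≤ 1 := bw_le_one' hp0.le hp1.le hc0C.le
  have hsqc : Real.sqrt c0 ≤ 2 ^ S := by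
    rw [Real.sqrt_le_left (by positivity)]
    have h1 : (c0 : ℝ) ≤ C := hc0Cr.le
    have h2 : (1 : ℝ) ≤ 2 ^ S := one_le_pow₀ (by norm_num)
    nlinarith
  have hsq0 : 0 ≤ Real.sqrt (c0 : ℝ) := Real.sqrt_nonneg _
  have hb0 : 0 < b := by
    by_contra hcon
    have hb' : b ≤ 0 := not_lt.1 hcon
    have : 7 * Real.sqrt c0 * b ≤ 0 := mul_nonpos_of_nonneg_of_nonpos (by positivity) hb'
    linarith
  have hblow : (1 / 2 : ℝ) ^ (S + 3) ≤ b := by
    have h1 : (1 / 2 : ℝ) ^ (S + 3) = 1 / (8 * 2 ^ S) := by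
      rw [one_div_pow, pow_add]
      ring
    rw [h1, div_le_iff₀ (by positivity)]
    have h2 : 7 * Real.sqrt c0 * b ≤ 8 * 2 ^ S * b := by
      apply mul_le_mul_of_nonneg_right _ hb0.le
      have : (0 : ℝ) ≤ 2 ^ S := by positivity
      linarith
    linarith
  have hlogb : |Real.log b| ≤ S + 3 := by
    rw [abs_of_nonpos (Real.log_nonpos hb0.le hb1)]
    have h1 : Real.log ((1 / 2 : ℝ) ^ (S + 3)) ≤ Real.log b := Real.log_le_log (by positivity) hblow
    rw [Real.log_pow] at h1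
    have h2 : Real.log (1 / 2 : ℝ) = - Real.log 2 := by
      rw [one_div, Real.log_inv]
    rw [h2] at h1
    have h3 : Real.log 2 ≤ 1 := by
      have := Real.log_two_lt_d9
      linarith
    have h4 : (0 : ℝ) ≤ ((S + 3 : ℕ) : ℝ) := by positivity
    push_cast at h1 h4
    nlinarith
  have hs42 : 1 / (S : ℝ) ^ 42 ≤ 1 / 1000000 := by
    apply one_div_le_one_div_of_le (by norm_num)
    have : (S : ℝ) ≤ (S : ℝ) ^ 42 := le_self_pow₀ (by linarith) (by norm_num)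
    linarith
  have hLb : |val S Lw - Real.log b| ≤ 4 / (S : ℝ) ^ 42 := hL
  have h442 : 4 / (S : ℝ) ^ 42 = 4 * (1 / (S : ℝ) ^ 42) := by ring
  have hLabs : |val S Lw| ≤ (S : ℝ) ^ 3 := by
    have h1 : |val S Lw| ≤ |val S Lw - Real.log b| + |Real.log b| := by
      have := abs_add_le (val S Lw - Real.log b) (Real.log b)
      simpa using this
    have h3 : (2 : ℝ) * S ≤ (S : ℝ) ^ 3 := by exact_mod_cast h2S
    have h4 : 4 / (S : ℝ) ^ 42 ≤ 1 := by
      rw [h442]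
      linarith
    linarith
  have hE := fexp_spec hS hLabs
  -- the exponential
  have hexp : |Real.exp (val S Lw) - b| ≤ b * (8 / (S : ℝ) ^ 42) := by
    have e : Real.exp (val S Lw) - b = b * (Real.exp (val S Lw - Real.log b) - 1) := by
      rw [Real.exp_sub, Real.exp_log hb0]
      field_simp
    rw [e, abs_mul, abs_of_pos hb0]
    apply mul_le_mul_of_nonneg_left _ hb0.le
    have h1 : |val S Lw - Real.log b| ≤ 1 := by
      refine hLb.trans ?_
      rw [h442]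
      linarith
    have h2 := Real.abs_exp_sub_one_le h1
    have e8 : 8 / (S : ℝ) ^ 42 = 2 * (4 / (S : ℝ) ^ 42) := by ring
    rw [e8]
    linarith
  refine ⟨hb0, ?_⟩
  have e : val S (fexp S Lw) - b = (val S (fexp S Lw) - Real.exp (val S Lw)) + (Real.exp (val S Lw) - b) := by ring
  rw [e]
  refine (abs_add_le _ _).trans ?_
  linarith

/-- The arithmetic of the product of the gain and the weight. -/
theorem rate_arith {s k K E b M D tiny tiny2 u : ℝ} (hs : 1000000 ≤ s) (h42 : 100 * tiny ≤ 1 / s ^ 42)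
    (htiny0 : 0 ≤ tiny) (hk1 : |k - K| ≤ 2 * tiny) (hK0 : 0 ≤ K) (hKb : K * b ≤ 1) (hb0 : 0 ≤ b) (hb1 : b ≤ 1)
    (hE : |E - b| ≤ b * (8 / s ^ 42) + tiny2) (hKt : K * tiny2 ≤ tiny) (ht2 : tiny2 ≤ tiny)
    (hu : u ≤ tiny) (hM : |M - k * E| ≤ u) (hD : |D - M / 2| ≤ u) :
    |E| ≤ 2 ∧ |M| ≤ 2 ∧ |D - K * b / 2| ≤ 1 / s ^ 40 := by
  have hspos : 0 < s := by linarith
  have hs42 : 1 / s ^ 42 ≤ 1 / 1000000 := by
    apply one_div_le_one_div_of_le (by norm_num)
    have : s ≤ s ^ 42 := le_self_pow₀ (by linarith) (by norm_num)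
    linarith
  have e8 : 8 / s ^ 42 = 8 * (1 / s ^ 42) := by ring
  have hinv : 0 < 1 / s ^ 42 := by positivity
  set i : ℝ := 1 / s ^ 42 with hi
  rw [e8] at hE
  have hbi : b * (8 * i) ≤ 8 * i := by nlinarith
  have hEabs : |E| ≤ 2 := by
    have h1 := abs_le.1 hE
    rw [abs_le]
    constructor <;> linarith [h1.1, h1.2]
  have hprod : |k * E - K * b| ≤ 2 * (2 * tiny) + (8 * i + tiny) := by
    have e : k * E - K * b = (k - K) * E + K * (E - b) := by ring
    rw [e]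
    refine (abs_add_le _ _).trans (add_le_add ?_ ?_)
    · rw [abs_mul, mul_comm]
      exact mul_le_mul hEabs hk1 (abs_nonneg _) (by norm_num)
    · rw [abs_mul, abs_of_nonneg hK0]
      have h2 : K * |E - b| ≤ K * (b * (8 * i) + tiny2) := mul_le_mul_of_nonneg_left hE hK0
      have h4 : K * (b * (8 * i)) = (K * b) * (8 * i) := by ring
      have h5 : (K * b) * (8 * i) ≤ 1 * (8 * i) := mul_le_mul_of_nonneg_right hKb (by positivity)
      rw [mul_add, h4] at h2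
      linarith
  have hM2 : |M - K * b| ≤ tiny + (2 * (2 * tiny) + (8 * i + tiny)) := by
    have e : M - K * b = (M - k * E) + (k * E - K * b) := by ring
    rw [e]
    exact (abs_add_le _ _).trans (add_le_add (hM.trans hu) hprod)
  have hKb0 : 0 ≤ K * b := mul_nonneg hK0 hb0
  have hMabs : |M| ≤ 2 := by
    have h1 := abs_le.1 hM2
    rw [abs_le]
    constructor <;> linarith [h1.1, h1.2]
  refine ⟨hEabs, hMabs, ?_⟩
  have e : D - K * b / 2 = (D - M / 2) + (M - K * b) / 2 := by ring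
  rw [e]
  refine (abs_add_le _ _).trans ?_
  rw [abs_div, abs_of_pos (by norm_num : (0 : ℝ) < 2)]
  have hS2 : 1 / s ^ 40 = s ^ 2 * i := by
    rw [hi]
    field_simp
  have hS22 : (100 : ℝ) ≤ s ^ 2 := by nlinarith
  rw [hS2]
  have h100 : 100 * i ≤ s ^ 2 * i := mul_le_mul_of_nonneg_right hS22 hinv.le
  linarith

theorem clamp_two (hS : 1000000 ≤ S) : clamp S ((2 : ℕ) : ℤ) = ((2 : ℕ) : ℤ) := by
  apply clamp_eq hS
  have h1 : (2 : ℤ) ^ 1 ≤ 2 ^ wid S := pow_le_pow_right₀ (by norm_num) (by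
    have h2 := CoinAux.pow_le_wid hS (e := 2) (by norm_num)
    have : 1 ≤ S ^ 2 := Nat.one_le_iff_ne_zero.2 (by positivity)
    omega)
  push_cast
  rw [abs_of_nonneg (by norm_num)]
  simpa using h1

theorem two_lt_sq (hS : 1000000 ≤ S) : (2 : ℕ) < 2 ^ (S ^ 2) := by
  calc 2 = 2 ^ 1 := by norm_num
    _ < 2 ^ (S ^ 2) := Nat.pow_lt_pow_right (by norm_num) (by nlinarith)

theorem val_fint_two (hS : 1000000 ≤ S) : val S (fint S ((2 : ℕ) : ℤ)) = 2 := by
  rw [val_fint_nat hS (two_lt_sq hS)]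
  norm_num

/-- The rate when other columns remain. -/
theorem rateMain_spec (hS : 1000000 ≤ S) {c0 : ℕ} {l : List ℕ} (hm : 0 < m) (hmS : m ≤ S) (hc0 : 0 < c0)
    (hl : ∀ y ∈ l, c0 ≤ y) (hlS : l.length ≤ S) (hN : c0 + l.sum < 2 ^ S) (hne : l ≠ []) :
    |val S (rateMain S ((m : ℤ), ((c0 : ℤ), lL l))) - (parS S).rate m l.length c0 (c0 + l.sum)|
      ≤ 1 / (S : ℝ) ^ 40 := by
  obtain ⟨h6, h53, h31, h54, -⟩ := exps hS
  have h2S : 2 * S ≤ S ^ 3 := two_mul_le_cube hS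
  have hS1 : (1000000 : ℝ) ≤ S := by exact_mod_cast hS
  have hSpos : (0 : ℝ) < S := by linarith
  have h5big : 1000 * S ≤ S ^ 5 := by
    have : S ^ 5 = S * (S * (S * (S * S))) := by ring
    rw [this, mul_comm 1000]
    refine Nat.mul_le_mul_left _ ?_
    have : 1 ≤ S * (S * S) := Nat.one_le_iff_ne_zero.2 (by positivity)
    nlinarith
  -- the total
  have hlpos : c0 ≤ l.sum := by
    obtain ⟨y, t, rfl⟩ := List.exists_cons_of_ne_nil hne
    have := hl y (by simp)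
    simp only [List.sum_cons]
    omega
  set C : ℕ := c0 + l.sum with hC
  have hc0C : c0 < C := by omega
  have hCsq := lt_sq hS hN
  have hc0sq : c0 < 2 ^ (S ^ 2) := lt_sq hS (by omega)
  have hsum : sumF S (lL l) = (l.sum : ℤ) := sumF_lL hS hlS (by omega)
  have hCw : cadd S (c0 : ℤ) (sumF S (lL l)) = (C : ℤ) := by
    have h1 : ((c0 : ℤ) + (l.sum : ℤ)) = (C : ℤ) := by
      rw [hC, Nat.cast_add]
    rw [hsum, cadd_eq hS (word_nat hS hc0sq) (word_nat hS (lt_sq hS (by omega))), h1]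
    rw [h1]
    exact word_nat hS hCsq
  have hdsq : C - c0 < 2 ^ (S ^ 2) := lt_of_le_of_lt (by omega) hCsq
  have hsubw : csub S (C : ℤ) (c0 : ℤ) = ((C - c0 : ℕ) : ℤ) := by
    have e : ((C - c0 : ℕ) : ℤ) = (C : ℤ) - c0 := by
      rw [Nat.cast_sub hc0C.le]
    rw [csub_eq hS (word_nat hS hCsq) (word_nat hS hc0sq) (by
      rw [← e]
      exact word_nat hS hdsq), e]
  obtain ⟨hb0, hEb⟩ := expw_close hS hc0 hc0C hN
  set b : ℝ := bw C ((c0 : ℝ) / C) c0 with hb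
  set Ew : ℤ := fexp S (lbwF S (C : ℤ) (c0 : ℤ) (flog S (fdiv S (fint S (c0 : ℤ)) (fint S (C : ℤ))))
      (flog S (fdiv S (fint S ((C - c0 : ℕ) : ℤ)) (fint S (C : ℤ))))) with hEw
  have hCpos : (0 : ℝ) < C := by
    have : 0 < C := by omega
    exact_mod_cast this
  have hc0Cr : (c0 : ℝ) < C := by exact_mod_cast hc0C
  have hb1 : b ≤ 1 := bw_le_one' (by positivity) (by
    rw [div_le_one hCpos]
    exact hc0Cr.le) hc0C.le
  -- the gain
  have hlenpos : 0 < l.length := List.length_pos_iff.2 hne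
  obtain ⟨hk1, hk2, hk3⟩ := kF_close hS (n := l.length) hlenpos hm hmS hc0 (show c0 < 2 ^ S by omega)
  set K : ℝ := (parS S).K m l.length c0 with hK
  set kw : ℤ := kF S (m : ℤ) (c0 : ℤ) with hkw
  have hKb : K * b ≤ 1 := by
    have := rate_le (parS_ok hS hm hmS) hc0 hl
    unfold Par.rate at this
    have e : K * b / 2 ≤ 1 / 2 := this
    linarith
  have hK0 : 0 ≤ K := K_nonneg
  have hBig2 : ∀ {x : ℝ}, |x| ≤ 2 ^ (S + 1) → |x| ≤ Big S := by
    intro x hx
    refine hx.trans ?_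
    unfold Big
    exact pow_le_pow_right₀ (by norm_num) (by
      have : S ^ 3 ≤ S ^ 4 := Nat.pow_le_pow_right (by omega) (by norm_num)
      omega)
  have hone2 : (2 : ℝ) ≤ 2 ^ (S + 1) := by
    calc (2 : ℝ) = 2 ^ 1 := by norm_num
      _ ≤ 2 ^ (S + 1) := pow_le_pow_right₀ (by norm_num) (by omega)
  set tiny : ℝ := (1 / 2 : ℝ) ^ (S ^ 5 / 4) with htiny
  have htiny0 : 0 < tiny := by positivity
  have ht1 : (1 / 2 : ℝ) ^ (S ^ 5 / 2) ≤ tiny :=
    pow_le_pow_of_le_one (by norm_num) (by norm_num) (by omega)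
  have ht2 : K * (1 / 2 : ℝ) ^ (S ^ 5 / 2) ≤ tiny := by
    have h3 : K * (1 / 2 : ℝ) ^ (S ^ 5 / 2) ≤ 2 ^ S * (1 / 2 : ℝ) ^ (S ^ 5 / 2) :=
      mul_le_mul_of_nonneg_right hk2 (by positivity)
    refine h3.trans ?_
    have h1 : (1 / 2 : ℝ) ^ (S ^ 5 / 2) = (1 / 2 : ℝ) ^ S * (1 / 2 : ℝ) ^ (S ^ 5 / 2 - S) := by
      rw [← pow_add]
      congr 1
      omega
    have h2 : (2 : ℝ) ^ S * (1 / 2 : ℝ) ^ S = 1 := by
      rw [← mul_pow]
      norm_num
    rw [h1, ← mul_assoc, h2, one_mul]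
    exact pow_le_pow_of_le_one (by norm_num) (by norm_num) (by omega)
  have hulp : ulp S ≤ tiny := by
    rw [ulp_eq]
    exact pow_le_pow_of_le_one (by norm_num) (by norm_num) (by omega)
  have hT100 : 100 * tiny ≤ 1 / (S : ℝ) ^ 42 := tiny_le hS (by omega)
  have hE2 : |val S Ew| ≤ 2 := by
    have h1 := abs_le.1 hEb
    have h2 : 8 / (S : ℝ) ^ 42 ≤ 1 / 2 := by
      rw [div_le_iff₀ (by positivity)]
      have : (S : ℝ) ≤ (S : ℝ) ^ 42 := le_self_pow₀ (by linarith) (by norm_num)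
      linarith
    have h3 : b * (8 / (S : ℝ) ^ 42) ≤ 1 * (8 / (S : ℝ) ^ 42) :=
      mul_le_mul_of_nonneg_right hb1 (by positivity)
    have h4 : tiny ≤ 1 / 4 := by
      have : tiny ≤ (1 / 2 : ℝ) ^ 2 := pow_le_pow_of_le_one (by norm_num) (by norm_num) (by omega)
      refine this.trans (by norm_num)
    have h8pos : 0 ≤ 8 / (S : ℝ) ^ 42 := by positivity
    have h5 : (0 : ℝ) ≤ b * (8 / (S : ℝ) ^ 42) := by positivity
    have h6' := h1.1
    have h7 := h1.2
    have h8 : 0 ≤ (1 / 2 : ℝ) ^ (S ^ 5 / 2) := by positivity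
    rw [abs_le]
    constructor <;> linarith
  have hm1 := val_fmul hS (hBig2 hk3) (hBig2 (hE2.trans hone2))
  set Mw : ℤ := fmul S kw Ew with hMw
  have hM2 : |val S Mw| ≤ 2 := by
    have hu0 : 0 ≤ ulp S := by
      unfold ulp
      positivity
    have hh := rate_arith (D := val S Mw / 2) hS1 hT100 htiny0.le hk1 hK0 hKb hb0.le hb1 hEb ht2 ht1 hulp hm1
      (by rw [sub_self, abs_zero]; exact hu0)
    exact hh.2.1
  have hd := val_fdiv hS (hBig2 (hM2.trans hone2)) (abs_val_fint_nat hS (two_lt_sq hS)) (by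
    rw [val_fint_two hS, abs_of_pos (by norm_num)]
    exact one_div_big_le.trans (by norm_num))
  rw [val_fint_two hS] at hd
  have hgoal : rateMain S ((m : ℤ), ((c0 : ℤ), lL l)) = fdiv S Mw (fint S ((2 : ℕ) : ℤ)) := by
    unfold rateMain
    simp only []
    rw [hCw, hsubw, clamp_two hS]
  have hrate : (parS S).rate m l.length c0 (c0 + l.sum) = K * b / 2 := rfl
  rw [hgoal, hrate]
  exact (rate_arith hS1 hT100 htiny0.le hk1 hK0 hKb hb0.le hb1 hEb ht2 ht1 hulp hm1 hd).2.2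

/-- The word `1/2`. -/
theorem halfW_close (hS : 1000000 ≤ S) : |val S (halfW S) - 1 / 2| ≤ 1 / (S : ℝ) ^ 40 := by
  have hS1 : (1000000 : ℝ) ≤ S := by exact_mod_cast hS
  have hSpos : (0 : ℝ) < S := by linarith
  have hclamp2 := clamp_two hS
  have h2sq := two_lt_sq hS
  have hv2 := val_fint_two hS
  have hbig1 : (1 : ℝ) ≤ Big S := by
    unfold Big
    exact one_le_pow₀ (by norm_num)
  have hd := val_fdiv hS (x := fone S) (y := fint S ((2 : ℕ) : ℤ))
    (by rw [val_fone hS, abs_one]; exact hbig1) (abs_val_fint_nat hS h2sq) (by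
    rw [hv2, abs_of_pos (by norm_num)]
    exact one_div_big_le.trans (by norm_num))
  rw [hv2, val_fone hS] at hd
  unfold halfW
  rw [hclamp2]
  refine hd.trans ?_
  rw [ulp_eq]
  have h := tiny_le hS (T := S ^ 5) (by
    have : S ^ 5 = S * (S * (S * (S * S))) := by ring
    rw [this, mul_comm 50]
    refine Nat.mul_le_mul_left _ ?_
    have : 1 ≤ S * (S * S) := Nat.one_le_iff_ne_zero.2 (by positivity)
    nlinarith)
  have h2 : 1 / (S : ℝ) ^ 42 ≤ 1 / (S : ℝ) ^ 40 :=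
    one_div_le_one_div_of_le (by positivity) (pow_le_pow_right₀ (by linarith) (by norm_num))
  have h3 : 0 ≤ (1 / 2 : ℝ) ^ (S ^ 5) := by positivity
  linarith

end Spec

end StepAux

open StepAux

/-- The value of the rate. -/
theorem rateF_spec {S : ℕ} (hS : 1000000 ≤ S) {c0 : ℕ} {l : List ℕ} (hm : 0 < m) (hmS : m ≤ S) (hc0 : 0 < c0)
    (hl : ∀ y ∈ l, c0 ≤ y) (hlS : l.length ≤ S) (hN : c0 + l.sum < 2 ^ S) :
    |val S (rateF S ((m : ℤ), (c0 : ℤ) :: lL l)) - (parS S).rate m l.length c0 (c0 + l.sum)|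
      ≤ 1 / (S : ℝ) ^ 40 := by
  cases l with
  | nil =>
    have h1 : rateF S ((m : ℤ), (c0 : ℤ) :: lL ([] : List ℕ)) = halfW S := rfl
    have hK : (parS S).K m ([] : List ℕ).length c0 = 1 := K_neg_reg (by simp)
    have h2 : (parS S).rate m ([] : List ℕ).length c0 (c0 + ([] : List ℕ).sum) = 1 / 2 := by
      unfold Par.rate
      rw [hK]
      simp only [List.sum_nil, add_zero]
      rw [bw_self_one hc0]
      norm_num
    rw [h1, h2]
    exact halfW_close hS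
  | cons y t =>
    have h1 : rateF S ((m : ℤ), (c0 : ℤ) :: lL (y :: t)) = rateMain S ((m : ℤ), ((c0 : ℤ), lL (y :: t))) := rfl
    rw [h1]
    exact rateMain_spec hS hm hmS hc0 hl hlS hN (by simp)

end Vale.Agent.Lib.P328.Bit
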