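import Vale.Agent.Lib.P328.Bit.Code

/-!
# P328, bit model: a calculus of approximations for module TABF

`Ap S x a k`: the word `x` has the value `a`, `|a| ≤ 2 ^ (k S)`, up to the error `2 ^ (k S) * eta S`.
Sums over index ranges, list access, exact integer arithmetic on small words.
-/

namespace Vale.Agent.Lib.P328.Bit.TabW

open Finset

variable {α β : Type} [Enc α] [Enc β]

/-- The unit of error. -/
noncomputable def eta (S : ℕ) : ℝ := (1 / 2 : ℝ) ^ (S ^ 5 / 4)

/-- The word `x` approximates the number `a`, at the scale `2 ^ (k S)`. -/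
def Ap (S : ℕ) (x : ℤ) (a : ℝ) (k : ℕ) : Prop :=
  |a| ≤ 2 ^ (k * S) ∧ |val S x - a| ≤ 2 ^ (k * S) * eta S

section Calc

variable {S : ℕ}

theorem eta_pos (S : ℕ) : 0 < eta S := by unfold eta; positivity

theorem ulp_le_eta (S : ℕ) : ulp S ≤ eta S := by
  unfold ulp eta prec
  rw [one_div, ← inv_pow, show (2 : ℝ)⁻¹ = 1 / 2 by norm_num]
  exact pow_le_pow_of_le_one (by norm_num) (by norm_num) (Nat.div_le_self _ _)

theorem two_pow_ge_one (a : ℕ) : (1 : ℝ) ≤ 2 ^ a := one_le_pow₀ (by norm_num)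

theorem scale_succ (k : ℕ) : (2 : ℝ) ^ ((k + 1) * S) = 2 ^ (k * S) * 2 ^ S := by
  rw [← pow_add]; congr 1; ring

theorem Ap.mono {x : ℤ} {a : ℝ} {k l : ℕ} (h : Ap S x a k) (hkl : k ≤ l) : Ap S x a l := by
  have h1 : (2 : ℝ) ^ (k * S) ≤ 2 ^ (l * S) :=
    pow_le_pow_right₀ (by norm_num) (Nat.mul_le_mul_right _ hkl)
  exact ⟨h.1.trans h1, h.2.trans (by have := eta_pos S; gcongr)⟩

theorem Ap.zero : Ap S 0 0 0 := by
  have := eta_pos S
  refine ⟨by simp, ?_⟩
  simp [val]
  linarith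

variable (hS : 1000000 ≤ S)

include hS

theorem k_mul_le {k : ℕ} (hk : k ≤ 1000) : k * S + S ≤ S ^ 5 / 4 ∧ k * S + 1 ≤ S ^ 4 := by
  have h1 : k * S ≤ 1000 * S := Nat.mul_le_mul_right _ hk
  have h2 : S ^ 4 = S * S * S * S := by ring
  have h3 : 1000000 * 1000000 ≤ S * S := Nat.mul_le_mul hS hS
  have h4 : S * S * 1 ≤ S * S * (S * S) := Nat.mul_le_mul_left _ (by nlinarith)
  have h5 : S ^ 5 = S * S ^ 4 := by ring
  have h6 : 1000000 * S ≤ S * S := Nat.mul_le_mul_right _ hS
  have h7 : S ^ 4 = S * S * (S * S) := by ring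
  have h8 : 1000000 * 1000000 ≤ S ^ 4 := by nlinarith
  constructor
  · rw [Nat.le_div_iff_mul_le (by norm_num)]
    have h9 : S * (1000000 * 1000000) ≤ S * S ^ 4 := Nat.mul_le_mul_left _ h8
    nlinarith
  · nlinarith

theorem scale_eta_le {k : ℕ} (hk : k ≤ 1000) : (2 : ℝ) ^ (k * S) * eta S ≤ 1 := by
  have h := (k_mul_le hS hk).1
  unfold eta
  have h1 : (2 : ℝ) ^ (k * S) * (1 / 2) ^ (k * S) = 1 := by
    rw [← mul_pow]
    norm_num
  have h2 : ((1 : ℝ) / 2) ^ (S ^ 5 / 4) ≤ (1 / 2) ^ (k * S) :=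
    pow_le_pow_of_le_one (by norm_num) (by norm_num) (by omega)
  calc (2 : ℝ) ^ (k * S) * (1 / 2) ^ (S ^ 5 / 4) ≤ 2 ^ (k * S) * (1 / 2) ^ (k * S) := by gcongr
    _ = 1 := h1

theorem two_le_pow : (16 : ℝ) ≤ 2 ^ S := by
  calc (16 : ℝ) = 2 ^ 4 := by norm_num
    _ ≤ 2 ^ S := pow_le_pow_right₀ (by norm_num) (by omega)

theorem Ap.val_abs_le {x : ℤ} {a : ℝ} {k : ℕ} (h : Ap S x a k) (hk : k ≤ 1000) :
    |val S x| ≤ 2 ^ (k * S) + 1 := by
  have h1 := scale_eta_le hS hk
  have h2 : |val S x| ≤ |a| + |val S x - a| := by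
    have := abs_add_le a (val S x - a)
    simpa using this
  linarith [h.1, h.2]

theorem scale_big {k : ℕ} (hk : k ≤ 1000) : (2 : ℝ) ^ (k * S) + 1 ≤ Big S := by
  have h := (k_mul_le hS hk).2
  unfold Big
  have h1 : (1 : ℝ) ≤ 2 ^ (k * S) := two_pow_ge_one _
  calc (2 : ℝ) ^ (k * S) + 1 ≤ 2 ^ (k * S) * 2 := by linarith
    _ = 2 ^ (k * S + 1) := by rw [pow_succ]
    _ ≤ 2 ^ S ^ 4 := pow_le_pow_right₀ (by norm_num) h

theorem Ap.val_big {x : ℤ} {a : ℝ} {k : ℕ} (h : Ap S x a k) (hk : k ≤ 1000) : |val S x| ≤ Big S :=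
  (h.val_abs_le hS hk).trans (scale_big hS hk)

theorem Ap.add {x y : ℤ} {a b : ℝ} {k : ℕ} (hx : Ap S x a k) (hy : Ap S y b k) (hk : k ≤ 1000) :
    Ap S (cadd S x y) (a + b) (k + 1) := by
  have hs := two_le_pow hS
  have hp : (0 : ℝ) < 2 ^ (k * S) := by positivity
  have he := eta_pos S
  rw [Ap, scale_succ]
  constructor
  · have := abs_add_le a b
    nlinarith [hx.1, hy.1]
  · rw [val_add hS (hx.val_big hS hk) (hy.val_big hS hk)]
    have e : val S x + val S y - (a + b) = (val S x - a) + (val S y - b) := by ring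
    rw [e]
    have h1 := abs_add_le (val S x - a) (val S y - b)
    have h2 : (0 : ℝ) < 2 ^ (k * S) * eta S := by positivity
    nlinarith [hx.2, hy.2]

theorem Ap.sub {x y : ℤ} {a b : ℝ} {k : ℕ} (hx : Ap S x a k) (hy : Ap S y b k) (hk : k ≤ 1000) :
    Ap S (csub S x y) (a - b) (k + 1) := by
  have hs := two_le_pow hS
  have hp : (0 : ℝ) < 2 ^ (k * S) := by positivity
  have he := eta_pos S
  rw [Ap, scale_succ]
  constructor
  · have := abs_sub a b
    nlinarith [hx.1, hy.1]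
  · rw [val_sub hS (hx.val_big hS hk) (hy.val_big hS hk)]
    have e : val S x - val S y - (a - b) = (val S x - a) - (val S y - b) := by ring
    rw [e]
    have h1 := abs_sub (val S x - a) (val S y - b)
    have h2 : (0 : ℝ) < 2 ^ (k * S) * eta S := by positivity
    nlinarith [hx.2, hy.2]

theorem Ap.mul {x y : ℤ} {a b : ℝ} {k : ℕ} (hx : Ap S x a k) (hy : Ap S y b k) (hk : k ≤ 1000) :
    Ap S (fmul S x y) (a * b) (2 * k + 1) := by
  have hs := two_le_pow hS
  have hP1 : (1 : ℝ) ≤ 2 ^ (k * S) := two_pow_ge_one _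
  set P : ℝ := 2 ^ (k * S) with hP
  have he := eta_pos S
  have e0 : (2 : ℝ) ^ ((2 * k + 1) * S) = P * P * 2 ^ S := by
    rw [hP, ← pow_add, ← pow_add]; congr 1; ring
  have hPP : (1 : ℝ) ≤ P * P := by nlinarith
  rw [Ap, e0]
  constructor
  · rw [abs_mul]
    have h1 : |a| * |b| ≤ P * P := mul_le_mul hx.1 hy.1 (abs_nonneg _) (by linarith)
    nlinarith
  · have h1 := val_fmul hS (hx.val_big hS hk) (hy.val_big hS hk)
    have h2 := ulp_le_eta S
    have h3 : |val S y| ≤ P + 1 := hy.val_abs_le hS hk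
    have e : val S (fmul S x y) - a * b
        = (val S (fmul S x y) - val S x * val S y) + ((val S x - a) * val S y + a * (val S y - b)) := by ring
    rw [e]
    have h4 := abs_add_le (val S (fmul S x y) - val S x * val S y) ((val S x - a) * val S y + a * (val S y - b))
    have h5 := abs_add_le ((val S x - a) * val S y) (a * (val S y - b))
    rw [abs_mul] at h5
    rw [abs_mul a] at h5
    have h6 : |val S x - a| * |val S y| ≤ (P * eta S) * (P + 1) :=
      mul_le_mul hx.2 h3 (abs_nonneg _) (by positivity)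
    have h7 : |a| * |val S y - b| ≤ P * (P * eta S) :=
      mul_le_mul hx.1 hy.2 (abs_nonneg _) (by positivity)
    have h8 : 1 * eta S ≤ P * P * eta S := by gcongr
    have h9 : P * eta S ≤ P * P * eta S := by
      have : P * 1 ≤ P * P := by gcongr
      have h10 : P * 1 * eta S ≤ P * P * eta S := by gcongr
      simpa using h10
    have h11 : (P * P * eta S) * 16 ≤ (P * P * eta S) * 2 ^ S := by
      have : 0 ≤ P * P * eta S := by positivity
      gcongr
    nlinarith

theorem Ap.fint {z : ℤ} {k : ℕ} (hz : |z| ≤ (2 : ℤ) ^ (k * S)) (hk : k ≤ 1000) :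
    Ap S (fint S z) z k := by
  have hz' : |(z : ℝ)| ≤ 2 ^ (k * S) := by
    have : ((|z| : ℤ) : ℝ) ≤ (((2 : ℤ) ^ (k * S) : ℤ) : ℝ) := by exact_mod_cast hz
    simpa using this
  have hb : |(z : ℝ)| ≤ Big S := hz'.trans (by linarith [scale_big hS hk])
  refine ⟨hz', ?_⟩
  rw [val_fint hS hb, sub_self, abs_zero]
  have := eta_pos S
  positivity

theorem Ap.fone : Ap S (fone S) 1 0 := by
  have := eta_pos S
  refine ⟨by simp, ?_⟩
  rw [val_fone hS]
  simp
  linarith

/-- Division by an exact nonnegative integer. -/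
theorem Ap.div {x d : ℤ} {a : ℝ} {k : ℕ} (hx : Ap S x a k) (hd0 : 0 ≤ d) (hd : d ≤ (2 : ℤ) ^ (k * S))
    (hk : k ≤ 1000) : Ap S (fdiv S x (Vale.Agent.Lib.P328.Bit.fint S d)) (a / d) (k + 1) := by
  have hs := two_le_pow hS
  have hp : (0 : ℝ) < 2 ^ (k * S) := by positivity
  have he := eta_pos S
  rcases hd0.eq_or_lt with h0 | h1
  · -- division by zero
    subst h0
    have e1 : Vale.Agent.Lib.P328.Bit.fint S 0 = 0 := by
      have h0 : clamp S (0 : ℤ) = 0 := clamp_of_abs_le (by simp)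
      simp [Vale.Agent.Lib.P328.Bit.fint, cmul, h0]
    have e2 : fdiv S x 0 = 0 := by
      have h0 : clamp S (0 : ℤ) = 0 := clamp_of_abs_le (by simp)
      simp [fdiv, cdiv, h0]
    rw [e1, e2]
    simp only [Int.cast_zero, div_zero]
    refine ⟨by simp, ?_⟩
    simp [val]
    positivity
  · have hd1 : (1 : ℤ) ≤ d := h1
    have hdR : (1 : ℝ) ≤ d := by exact_mod_cast hd1
    have hdabs : |(d : ℝ)| ≤ 2 ^ (k * S) := by
      rw [abs_of_nonneg (by linarith)]
      exact_mod_cast hd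
    have hdbig : |(d : ℝ)| ≤ Big S := hdabs.trans (by linarith [scale_big hS hk])
    have hv : val S (Vale.Agent.Lib.P328.Bit.fint S d) = d := val_fint hS hdbig
    have hBig1 : 1 ≤ Big S := by unfold Big; exact two_pow_ge_one _
    have h3 := val_fdiv hS (hx.val_big hS hk) (x := x) (y := Vale.Agent.Lib.P328.Bit.fint S d)
      (by rw [hv]; exact hdbig)
      (by
        rw [hv, abs_of_nonneg (by linarith)]
        calc 1 / Big S ≤ 1 := by rw [div_le_one (by linarith)]; exact hBig1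
          _ ≤ d := hdR)
    rw [hv] at h3
    have h2 := ulp_le_eta S
    rw [Ap, scale_succ]
    constructor
    · rw [abs_div, abs_of_nonneg (by linarith : (0 : ℝ) ≤ d)]
      have h4 : |a| / d ≤ |a| := div_le_self (abs_nonneg _) hdR
      have h5 := hx.1
      nlinarith
    · have e : val S (fdiv S x (Vale.Agent.Lib.P328.Bit.fint S d)) - a / d
          = (val S (fdiv S x (Vale.Agent.Lib.P328.Bit.fint S d)) - val S x / d) + (val S x - a) / d := by
        field_simp
        ring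
      rw [e]
      have h4 := abs_add_le (val S (fdiv S x (Vale.Agent.Lib.P328.Bit.fint S d)) - val S x / d) ((val S x - a) / d)
      have h5 : |(val S x - a) / d| ≤ |val S x - a| := by
        rw [abs_div, abs_of_nonneg (by linarith : (0 : ℝ) ≤ d)]
        exact div_le_self (abs_nonneg _) hdR
      have h6 := hx.2
      have h7 : 1 * eta S ≤ 2 ^ (k * S) * eta S := by
        gcongr
        exact two_pow_ge_one _
      have h8 : (0 : ℝ) < 2 ^ (k * S) * eta S := by positivity
      nlinarith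

/-- The square root of an exact nonnegative integer. -/
theorem Ap.sqrt {z : ℤ} {k : ℕ} (hz0 : 0 ≤ z) (hz : z ≤ (2 : ℤ) ^ (k * S)) (hk : k ≤ 1000) :
    Ap S (fsqrt S (Vale.Agent.Lib.P328.Bit.fint S z)) (Real.sqrt z) k := by
  have hzR : (z : ℝ) ≤ 2 ^ (k * S) := by exact_mod_cast hz
  have hz0R : (0 : ℝ) ≤ z := by exact_mod_cast hz0
  have hP := two_pow_ge_one (k * S)
  have hb : |(z : ℝ)| ≤ Big S := by
    rw [abs_of_nonneg hz0R]
    linarith [scale_big hS hk]
  have hv := val_fint hS hb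
  have he := eta_pos S
  refine ⟨?_, ?_⟩
  · rw [abs_of_nonneg (Real.sqrt_nonneg _), Real.sqrt_le_iff]
    exact ⟨by positivity, by nlinarith⟩
  · have h := fsqrt_spec hS (x := Vale.Agent.Lib.P328.Bit.fint S z) (by rw [hv]; exact hz0R)
      (by rw [hv]; exact (le_abs_self _).trans hb)
    rw [hv] at h
    refine h.trans ?_
    have h7 : 1 * eta S ≤ 2 ^ (k * S) * eta S := by gcongr
    simpa [eta] using h7

end Calc

/-! ### Index ranges -/

/-- The indices `0, …, L - 1` (at most `S` of them). -/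
def rangeZ (S : ℕ) (L : ℤ) : List ℤ := (List.range (min L.toNat S)).map fun k => (k : ℤ)

theorem rangeZ_rep {fL : ℕ → α → ℤ} (hL : DRep fL) : DRep fun S x => rangeZ S (fL S x) :=
  DRep.rangeS hL

/-- The sum of a function of the indices. -/
def sumRange (S : ℕ) (L : ℤ) (g : ℤ → ℤ) : ℤ :=
  ((rangeZ S L).take S).foldl (fun s a => cadd S s (g a)) 0

theorem sumRange_rep {fL : ℕ → α → ℤ} {g : ℕ → α → ℤ → ℤ} (hL : DRep fL)
    (hg : DRep fun S (p : α × ℤ) => g S p.1 p.2) : DRep fun S x => sumRange S (fL S x) (g S x) := by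
  have h1 : DRep fun S (q : α × (ℤ × ℤ)) => ((q.1, q.2.2) : α × ℤ) :=
    DRep.fst.pair (DRep.snd.comp DRep.snd)
  have h2 : DRep fun S (q : α × (ℤ × ℤ)) => g S q.1 q.2.2 := h1.comp hg
  have h3 : DRep fun S (q : α × (ℤ × ℤ)) => cadd S q.2.1 (g S q.1 q.2.2) :=
    (DRep.snd.comp DRep.fst).add h2
  exact DRep.foldS (rangeZ_rep hL) DRep.zero h3

/-- A list indexed by the indices. -/
def mapRange (S : ℕ) (L : ℤ) (g : ℤ → β) : List β := ((rangeZ S L).take S).map g

theorem mapRange_rep {fL : ℕ → α → ℤ} {g : ℕ → α → ℤ → β} (hL : DRep fL)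
    (hg : DRep fun S (p : α × ℤ) => g S p.1 p.2) : DRep fun S x => mapRange S (fL S x) (g S x) :=
  DRep.mapS (rangeZ_rep hL) hg

section Spec2

variable {S : ℕ}

theorem rangeZ_eq_map (S : ℕ) (L : ℤ) :
    rangeZ S L = (List.range (min L.toNat S)).map (fun k : ℕ => (k : ℤ)) := by
  unfold rangeZ
  simp [List.map_eq_flatMap]

theorem rangeZ_nat {L : ℕ} (h : L ≤ S) :
    (rangeZ S (L : ℤ)).take S = (List.range L).map (fun k : ℕ => (k : ℤ)) := by
  have e : min ((L : ℤ).toNat) S = L := by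
    rw [Int.toNat_natCast]
    exact min_eq_left h
  rw [rangeZ_eq_map, e]
  apply List.take_of_length_le
  simpa using h

theorem mapRange_nat {L : ℕ} (h : L ≤ S) (g : ℤ → β) :
    mapRange S (L : ℤ) g = List.ofFn fun i : Fin L => g ((i : ℕ) : ℤ) := by
  unfold mapRange
  rw [rangeZ_nat h, List.map_map]
  apply List.ext_getElem
  · simp
  · intro i h1 h2
    simp

/-- The length of a list, of at most `S` elements. -/
def lenZ (S : ℕ) {γ : Type} (l : List γ) : ℤ := ((l.take S).length : ℤ)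

theorem lenZ_eq {γ : Type} {l : List γ} (h : l.length ≤ S) : lenZ S l = (l.length : ℤ) := by
  unfold lenZ
  rw [List.take_of_length_le h]

/-- An element of a list of words. -/
def getZ (S : ℕ) (l : List ℤ) (k : ℤ) : ℤ := (l.take S).getD k.toNat 0

/-- A row of a list of lists. -/
def getL (S : ℕ) (y : List (List ℤ)) (j : ℤ) : List ℤ := (y.take S).getD j.toNat []

/-- An element of a list of lists. -/
def getM (S : ℕ) (y : List (List ℤ)) (j i : ℤ) : ℤ := getZ S (getL S y j) i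

theorem lenZ_lN {k : ℕ} (h : k ≤ S) (f : Fin k → ℕ) : lenZ S (lN f) = k := by
  rw [lenZ_eq (by simpa [lN] using h)]
  simp [lN]

theorem getZ_ofFn {k : ℕ} (h : k ≤ S) (f : Fin k → ℤ) (i : Fin k) :
    getZ S (List.ofFn f) ((i : ℕ) : ℤ) = f i := by
  unfold getZ
  rw [List.take_of_length_le (by simpa using h), Int.toNat_natCast,
    List.getD_eq_getElem _ _ (by simp)]
  simp

theorem getZ_lN {k : ℕ} (h : k ≤ S) (f : Fin k → ℕ) (i : Fin k) : getZ S (lN f) ((i : ℕ) : ℤ) = f i :=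
  getZ_ofFn h _ i

variable {m n : ℕ}

theorem getL_lM (hn : n ≤ S) (t : Fin n → Fin m → ℤ) (j : Fin n) :
    getL S (lM t) ((j : ℕ) : ℤ) = List.ofFn (t j) := by
  unfold getL lM
  rw [List.take_of_length_le (by simpa using hn), Int.toNat_natCast,
    List.getD_eq_getElem _ _ (by simp)]
  simp

theorem getM_lM (hn : n ≤ S) (hm : m ≤ S) (t : Fin n → Fin m → ℤ) (j : Fin n) (i : Fin m) :
    getM S (lM t) ((j : ℕ) : ℤ) ((i : ℕ) : ℤ) = t j i := by
  unfold getM
  rw [getL_lM hn, getZ_ofFn hm]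

end Spec2

theorem getZ_rep {fl : ℕ → α → List ℤ} {fk : ℕ → α → ℤ} (hl : DRep fl) (hk : DRep fk) :
    DRep fun S x => getZ S (fl S x) (fk S x) :=
  DRep.nthD hl hk DRep.zero

theorem getL_rep {fl : ℕ → α → List (List ℤ)} {fk : ℕ → α → ℤ} (hl : DRep fl) (hk : DRep fk) :
    DRep fun S x => getL S (fl S x) (fk S x) :=
  DRep.nthD hl hk DRep.nil'

theorem getM_rep {fl : ℕ → α → List (List ℤ)} {fj fi : ℕ → α → ℤ} (hl : DRep fl) (hj : DRep fj)
    (hi : DRep fi) : DRep fun S x => getM S (fl S x) (fj S x) (fi S x) :=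
  getZ_rep (getL_rep hl hj) hi

theorem lenZ_rep {γ : Type} [Enc γ] {fl : ℕ → α → List γ} (hl : DRep fl) :
    DRep fun S x => lenZ S (fl S x) :=
  DRep.lengthS hl

/-! ### Exact arithmetic on small words -/

section Small

variable {S : ℕ} (hS : 1000000 ≤ S)

include hS

theorem scale_wid {k : ℕ} (hk : k ≤ 1000) : k * S + 1 ≤ wid S := by
  have h := (k_mul_le hS hk).2
  have h2 : S ^ 4 ≤ S ^ 6 := Nat.pow_le_pow_right (by omega) (by norm_num)
  unfold wid
  omega

theorem clamp_small {k : ℕ} {z : ℤ} (hk : k ≤ 1000) (h : |z| ≤ (2 : ℤ) ^ (k * S)) : clamp S z = z :=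
  clamp_of_abs_le (h.trans (pow_le_pow_right₀ (by norm_num) (by have := scale_wid hS hk; omega)))

theorem cadd_small {k : ℕ} {a b : ℤ} (hk : k ≤ 1000) (ha : |a| ≤ (2 : ℤ) ^ (k * S))
    (hb : |b| ≤ (2 : ℤ) ^ (k * S)) : cadd S a b = a + b := by
  unfold cadd
  rw [clamp_small hS hk ha, clamp_small hS hk hb]
  apply clamp_of_abs_le
  refine (abs_add_le a b).trans ?_
  have h := scale_wid hS hk
  have h2 : (2 : ℤ) ^ (k * S + 1) ≤ 2 ^ wid S := pow_le_pow_right₀ (by norm_num) h
  rw [pow_succ] at h2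
  linarith

theorem csub_small {k : ℕ} {a b : ℤ} (hk : k ≤ 1000) (ha : |a| ≤ (2 : ℤ) ^ (k * S))
    (hb : |b| ≤ (2 : ℤ) ^ (k * S)) : csub S a b = a - b := by
  unfold csub
  rw [clamp_small hS hk ha, clamp_small hS hk hb]
  apply clamp_of_abs_le
  refine (abs_sub a b).trans ?_
  have h := scale_wid hS hk
  have h2 : (2 : ℤ) ^ (k * S + 1) ≤ 2 ^ wid S := pow_le_pow_right₀ (by norm_num) h
  rw [pow_succ] at h2
  linarith

theorem cmul_small {k : ℕ} {a b : ℤ} (hk : k ≤ 500) (ha : |a| ≤ (2 : ℤ) ^ (k * S))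
    (hb : |b| ≤ (2 : ℤ) ^ (k * S)) : cmul S a b = a * b := by
  unfold cmul
  rw [clamp_small hS (by omega) ha, clamp_small hS (by omega) hb]
  apply clamp_small hS (k := 2 * k) (by omega)
  rw [abs_mul]
  calc |a| * |b| ≤ (2 : ℤ) ^ (k * S) * 2 ^ (k * S) := mul_le_mul ha hb (abs_nonneg _) (by positivity)
    _ = 2 ^ (2 * k * S) := by rw [← pow_add]; congr 1; ring

end Small

/-- The minimum of two words. -/
noncomputable def minZ (S : ℕ) (a b : ℤ) : ℤ := if 0 < csub S a b then b else a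

theorem minZ_rep {fa fb : ℕ → α → ℤ} (ha : DRep fa) (hb : DRep fb) :
    DRep fun S x => minZ S (fa S x) (fb S x) :=
  DRep.ite (ha.sub hb) hb ha

/-- A test for equality of words: positive iff equal. -/
def eqT (S : ℕ) (a b : ℤ) : ℤ := csub S 1 (cmul S (csub S a b) (csub S a b))

theorem eqT_rep {fa fb : ℕ → α → ℤ} (ha : DRep fa) (hb : DRep fb) :
    DRep fun S x => eqT S (fa S x) (fb S x) :=
  DRep.one.sub ((ha.sub hb).mul (ha.sub hb))

section Small2

variable {S : ℕ} (hS : 1000000 ≤ S)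

include hS

theorem minZ_eq {k : ℕ} {a b : ℤ} (hk : k ≤ 1000) (ha : |a| ≤ (2 : ℤ) ^ (k * S))
    (hb : |b| ≤ (2 : ℤ) ^ (k * S)) : minZ S a b = min a b := by
  unfold minZ
  rw [csub_small hS hk ha hb]
  rw [min_def]
  split_ifs <;> omega

theorem eqT_pos {a b : ℤ} (ha : |a| ≤ (2 : ℤ) ^ (1 * S)) (hb : |b| ≤ (2 : ℤ) ^ (1 * S)) :
    0 < eqT S a b ↔ a = b := by
  unfold eqT
  have h1 := csub_small hS (k := 1) (by norm_num) ha hb
  rw [h1]
  have hd : |a - b| ≤ (2 : ℤ) ^ (2 * S) := by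
    refine (abs_sub a b).trans ?_
    have h2 : (2 : ℤ) ^ (2 * S) = 2 ^ (1 * S) * 2 ^ S := by rw [← pow_add]; congr 1; ring
    have h3 : (2 : ℤ) ≤ 2 ^ S := by
      calc (2 : ℤ) = 2 ^ 1 := by norm_num
        _ ≤ 2 ^ S := pow_le_pow_right₀ (by norm_num) (by omega)
    have h4 : (0 : ℤ) < 2 ^ (1 * S) := by positivity
    nlinarith
  rw [cmul_small hS (k := 2) (by norm_num) hd hd]
  have hdd : |(a - b) * (a - b)| ≤ (2 : ℤ) ^ (4 * S) := by
    rw [abs_mul]
    calc |a - b| * |a - b| ≤ (2 : ℤ) ^ (2 * S) * 2 ^ (2 * S) := mul_le_mul hd hd (abs_nonneg _) (by positivity)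
      _ = 2 ^ (4 * S) := by rw [← pow_add]; congr 1; ring
  have h1' : |(1 : ℤ)| ≤ (2 : ℤ) ^ (4 * S) := by
    rw [abs_one]
    exact one_le_pow₀ (by norm_num)
  rw [csub_small hS (k := 4) (by norm_num) h1' hdd]
  constructor
  · intro h
    by_contra hne
    have h2 : a - b ≠ 0 := sub_ne_zero.mpr hne
    have h3 : 1 ≤ |a - b| := Int.one_le_abs h2
    have h4 : 1 ≤ (a - b) * (a - b) := by
      have h5 : (a - b) * (a - b) = |a - b| * |a - b| := (abs_mul_abs_self _).symm
      rw [h5]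
      nlinarith
    omega
  · rintro rfl
    simp

end Small2

/-! ### Sums -/

section Sums

variable {S : ℕ} (hS : 1000000 ≤ S)

theorem foldl_range_succ (g : ℤ → ℤ) (p : ℕ) :
    ((List.range (p + 1)).map fun k : ℕ => (k : ℤ)).foldl (fun s a => cadd S s (g a)) 0
      = cadd S (((List.range p).map fun k : ℕ => (k : ℤ)).foldl (fun s a => cadd S s (g a)) 0) (g p) := by
  rw [List.range_succ, List.map_append, List.foldl_append]
  rfl

include hS

/-- The sum of words approximating numbers approximates the sum. -/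
theorem Ap.sumRange {L k : ℕ} (hL : L ≤ S) (hk : k ≤ 999) {g : ℤ → ℤ} {a : Fin L → ℝ}
    (h : ∀ i : Fin L, Ap S (g ((i : ℕ) : ℤ)) (a i) k) :
    Ap S (sumRange S (L : ℤ) g) (∑ i, a i) (k + 1) := by
  classical
  set a' : ℕ → ℝ := fun i => if h : i < L then a ⟨i, h⟩ else 0 with ha'
  have hsum : ∑ i, a i = ∑ i ∈ range L, a' i := by
    rw [← Fin.sum_univ_eq_sum_range a' L]
    refine Finset.sum_congr rfl fun i _ => ?_
    simp [ha']
  have he := eta_pos S
  set P : ℝ := 2 ^ (k * S) with hP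
  have hP1 : (1 : ℝ) ≤ P := two_pow_ge_one _
  have hPe : P * eta S ≤ 1 := scale_eta_le hS (by omega)
  have hLS : (L : ℝ) ≤ 2 ^ S := by
    have h1 : L < 2 ^ S := lt_of_le_of_lt hL Nat.lt_two_pow_self
    exact_mod_cast h1.le
  have hBig : (2 : ℝ) ^ ((k + 1) * S) + 1 ≤ Big S := scale_big hS (by omega)
  have hmain : ∀ p ≤ L,
      |∑ i ∈ range p, a' i| ≤ p * P
      ∧ |val S (((List.range p).map fun k : ℕ => (k : ℤ)).foldl (fun s a => cadd S s (g a)) 0)
          - ∑ i ∈ range p, a' i| ≤ p * (P * eta S) := by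
    intro p
    induction p with
    | zero =>
      intro _
      simp [val]
    | succ p ih =>
      intro hp
      obtain ⟨h1, h2⟩ := ih (by omega)
      have hpL : (p : ℝ) + 1 ≤ 2 ^ S := by
        have : ((p + 1 : ℕ) : ℝ) ≤ L := by exact_mod_cast hp
        push_cast at this
        linarith
      set w := ((List.range p).map fun k : ℕ => (k : ℤ)).foldl (fun s a => cadd S s (g a)) 0 with hw
      have hi := h ⟨p, hp⟩
      have hai : a' p = a ⟨p, hp⟩ := by simp [ha', show p < L from hp]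
      have hp0 : (0 : ℝ) ≤ p := Nat.cast_nonneg p
      have hscale : (2 : ℝ) ^ ((k + 1) * S) = P * 2 ^ S := scale_succ k
      have hw1 : |val S w| ≤ Big S := by
        have h3 : |val S w| ≤ |∑ i ∈ range p, a' i| + |val S w - ∑ i ∈ range p, a' i| := by
          have := abs_add_le (∑ i ∈ range p, a' i) (val S w - ∑ i ∈ range p, a' i)
          simpa using this
        have h4 : (p : ℝ) * (P * eta S) ≤ 1 := by
          have h41 : (p : ℝ) * (P * eta S) ≤ 2 ^ S * (P * eta S) := by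
            have : 0 ≤ P * eta S := by positivity
            gcongr
            linarith
          have h42 : (2 : ℝ) ^ ((k + 1) * S) * eta S ≤ 1 := scale_eta_le hS (by omega)
          rw [hscale] at h42
          nlinarith
        have h5 : (p : ℝ) * P + 1 ≤ P * 2 ^ S := by nlinarith
        rw [hscale] at hBig
        linarith
      have hg1 : |val S (g (p : ℤ))| ≤ Big S := by
        have := hi.val_big hS (by omega)
        simpa using this
      rw [foldl_range_succ, Finset.sum_range_succ, ← hw, hai]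
      have h6 := val_add hS hw1 hg1
      rw [h6]
      constructor
      · have h7 := abs_add_le (∑ i ∈ range p, a' i) (a ⟨p, hp⟩)
        push_cast
        have h8 := hi.1
        nlinarith
      · have e : val S w + val S (g (p : ℤ)) - (∑ i ∈ range p, a' i + a ⟨p, hp⟩)
            = (val S w - ∑ i ∈ range p, a' i) + (val S (g (p : ℤ)) - a ⟨p, hp⟩) := by ring
        rw [e]
        have h7 := abs_add_le (val S w - ∑ i ∈ range p, a' i) (val S (g (p : ℤ)) - a ⟨p, hp⟩)
        have h8 : |val S (g (p : ℤ)) - a ⟨p, hp⟩| ≤ P * eta S := hi.2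
        push_cast
        linarith
  obtain ⟨h1, h2⟩ := hmain L le_rfl
  rw [hsum]
  have e3 : Vale.Agent.Lib.P328.Bit.TabW.sumRange S (L : ℤ) g
      = ((List.range L).map fun k : ℕ => (k : ℤ)).foldl (fun s a => cadd S s (g a)) 0 := by
    unfold Vale.Agent.Lib.P328.Bit.TabW.sumRange
    rw [rangeZ_nat hL]
  rw [e3]
  have hscale : (2 : ℝ) ^ ((k + 1) * S) = P * 2 ^ S := scale_succ k
  rw [Ap, hscale]
  have hLP : (L : ℝ) * P ≤ P * 2 ^ S := by nlinarith
  have hLPe : (L : ℝ) * (P * eta S) ≤ P * 2 ^ S * eta S := by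
    have : (L : ℝ) * (P * eta S) = (L * P) * eta S := by ring
    rw [this]
    gcongr
  exact ⟨h1.trans hLP, h2.trans hLPe⟩

/-- The sum of small nonnegative integers is exact. -/
theorem sumRange_exact {L : ℕ} (hL : L ≤ S) {g : ℤ → ℤ} (h0 : ∀ i < L, 0 ≤ g (i : ℤ))
    (hb : ∑ i ∈ range L, g (i : ℤ) ≤ 2 ^ (1 * S)) :
    sumRange S (L : ℤ) g = ∑ i ∈ range L, g (i : ℤ) := by
  have hmain : ∀ p ≤ L, ((List.range p).map fun k : ℕ => (k : ℤ)).foldl (fun s a => cadd S s (g a)) 0
      = ∑ i ∈ range p, g (i : ℤ) := by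
    intro p
    induction p with
    | zero =>
      intro _
      simp
    | succ p ih =>
      intro hp
      rw [foldl_range_succ, ih (by omega), Finset.sum_range_succ]
      have hle : ∀ q ≤ L, ∑ i ∈ range q, g (i : ℤ) ≤ ∑ i ∈ range L, g (i : ℤ) := by
        intro q hq
        apply Finset.sum_le_sum_of_subset_of_nonneg (Finset.range_subset_range.mpr hq)
        intro i hi _
        exact h0 i (Finset.mem_range.mp hi)
      have h1 : 0 ≤ ∑ i ∈ range p, g (i : ℤ) :=
        Finset.sum_nonneg fun i hi => h0 i (by have := Finset.mem_range.mp hi; omega)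
      have h2 : g (p : ℤ) ≤ ∑ i ∈ range (p + 1), g (i : ℤ) := by
        rw [Finset.sum_range_succ]
        linarith
      have h3 := hle (p + 1) hp
      have h4 := hle p (by omega)
      apply cadd_small hS (k := 1) (by norm_num)
      · rw [abs_of_nonneg h1]
        linarith
      · rw [abs_of_nonneg (h0 p (by omega))]
        linarith
  unfold Vale.Agent.Lib.P328.Bit.TabW.sumRange
  rw [rangeZ_nat hL]
  exact hmain L le_rfl

end Sums

end Vale.Agent.Lib.P328.Bit.TabW
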