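import Vale.Agent.Lib.P328.Bit.CapF
import Vale.Agent.Lib.P328.Bit.TabAux

/-!
# P328, bit model: the coordinates in fixed point (module TABF)

`iMaxF`, `jMaxF`: the first index of a largest entry. `tMapF`: `tMap` on words, using `cornerTab`, `centreTab`, `scS` (`fsqrt`), `scF`, in the order of `Samp/Defs`.
All quantities: margins `< 2^S`, `D = n m ≤ S`, `|y| ≤ 2 S^5`: magnitudes at most `2 ^ (15 S)`, each of the finitely many nested operations adds an error of at most `ulp` or the error of `fsqrt`, multiplied by at most `2 ^ (15 S)`. Total at most `(1/2)^(S^5/8)`.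
-/

namespace Vale.Agent.Lib.P328.Bit

open Finset Vale.Agent.Lib.P328.Cap Vale.Agent.Lib.P328.Fpras Vale.Agent.Lib.P328.Samp

open TabW

variable {m n : ℕ} {α : Type} [Enc α]

/-! ### The first largest entry -/

namespace TabW

/-- One step of the search: best value, its index, the current index. -/
noncomputable def idxStep (S : ℕ) (s : ℤ × (ℤ × ℤ)) (a : ℤ) : ℤ × (ℤ × ℤ) :=
  if 0 < csub S a s.1 then (a, (s.2.2, cadd S s.2.2 1)) else (s.1, (s.2.1, cadd S s.2.2 1))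

end TabW

/-- The index of the first largest entry of a list (at most `S` elements). -/
noncomputable def idxMaxF (S : ℕ) (l : List ℤ) : ℤ :=
  ((l.take S).foldl (idxStep S) (csub S 0 1, (0, 0))).2.1

theorem idxMaxF_rep {f : ℕ → α → List ℤ} (hf : DRep f) : DRep fun S x => idxMaxF S (f S x) := by
  have ha : DRep fun _ (q : α × ((ℤ × (ℤ × ℤ)) × ℤ)) => q.2.2 := DRep.snd.comp DRep.snd
  have hs : DRep fun _ (q : α × ((ℤ × (ℤ × ℤ)) × ℤ)) => q.2.1 := DRep.snd.comp DRep.fst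
  have hb : DRep fun _ (q : α × ((ℤ × (ℤ × ℤ)) × ℤ)) => q.2.1.1 := hs.comp DRep.fst
  have hi : DRep fun _ (q : α × ((ℤ × (ℤ × ℤ)) × ℤ)) => q.2.1.2.1 := hs.comp (DRep.snd.comp DRep.fst)
  have hc : DRep fun _ (q : α × ((ℤ × (ℤ × ℤ)) × ℤ)) => q.2.1.2.2 := hs.comp (DRep.snd.comp DRep.snd)
  have hstep : DRep fun S (q : α × ((ℤ × (ℤ × ℤ)) × ℤ)) => idxStep S q.2.1 q.2.2 :=
    DRep.ite (ha.sub hb) (ha.pair (hc.pair (hc.add DRep.one)))
      (hb.pair (hi.pair (hc.add DRep.one)))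
  have hinit : DRep fun S (_ : α) => ((csub S 0 1, (0, 0)) : ℤ × (ℤ × ℤ)) :=
    (DRep.zero.sub DRep.one).pair (DRep.zero.pair DRep.zero)
  exact (DRep.foldS hf hinit hstep).comp (DRep.snd.comp DRep.fst)

namespace TabW

theorem idx_fold {S k : ℕ} (hS : 1000000 ≤ S) (hkS : k ≤ S) (f : ℕ → ℕ) (hf : ∀ q < k, f q < 2 ^ S) :
    ∀ p ≤ k, ∃ I : ℕ,
      (((List.range p).map fun q : ℕ => (f q : ℤ)).foldl (idxStep S) (csub S 0 1, (0, 0))).2.2 = p
      ∧ (0 < p → I < p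
        ∧ (((List.range p).map fun q : ℕ => (f q : ℤ)).foldl (idxStep S) (csub S 0 1, (0, 0))).1 = f I
        ∧ (((List.range p).map fun q : ℕ => (f q : ℤ)).foldl (idxStep S) (csub S 0 1, (0, 0))).2.1 = I
        ∧ (∀ q < p, f q ≤ f I) ∧ ∀ q < I, f q < f I)
      ∧ (p = 0 → (((List.range p).map fun q : ℕ => (f q : ℤ)).foldl (idxStep S) (csub S 0 1, (0, 0))).1 = -1) := by
  have hm1 : csub S 0 1 = -1 := by
    rw [csub_small hS (k := 1) (by norm_num)]
    · norm_num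
    · simp
    · simpa using one_le_pow₀ (M₀ := ℤ) (by norm_num)
  intro p
  induction p with
  | zero =>
    intro _
    exact ⟨0, by simp, by simp, by simp [hm1]⟩
  | succ p ih =>
    intro hp
    obtain ⟨I, h1, h2, h3⟩ := ih (by omega)
    rw [List.range_succ, List.map_append, List.foldl_append]
    set s := ((List.range p).map fun q : ℕ => (f q : ℤ)).foldl (idxStep S) (csub S 0 1, (0, 0)) with hs
    have hfp := hf p (by omega)
    have hpS : p < 2 ^ S := lt_of_le_of_lt (by omega) Nat.lt_two_pow_self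
    have hfpZ : (f p : ℤ) < 2 ^ S := by exact_mod_cast hfp
    have hs1 : |s.1| ≤ (2 : ℤ) ^ (1 * S) := by
      rcases Nat.eq_zero_or_pos p with h0 | h0
      · rw [h3 h0]
        simpa using one_le_pow₀ (M₀ := ℤ) (by norm_num)
      · obtain ⟨h4, h5, -, -, -⟩ := h2 h0
        rw [h5, abs_of_nonneg (by positivity), one_mul]
        have := hf I (by omega)
        exact_mod_cast this.le
    have hfpabs : |(f p : ℤ)| ≤ (2 : ℤ) ^ (1 * S) := by
      rw [abs_of_nonneg (by positivity), one_mul]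
      exact hfpZ.le
    have hc : cadd S s.2.2 1 = ((p + 1 : ℕ) : ℤ) := by
      rw [h1, cadd_small hS (k := 1) (by norm_num)]
      · push_cast; rfl
      · rw [abs_of_nonneg (by positivity), one_mul]
        exact_mod_cast hpS.le
      · simpa using one_le_pow₀ (M₀ := ℤ) (by norm_num)
    have hstep : (List.foldl (idxStep S) s [(f p : ℤ)]) = idxStep S s (f p) := rfl
    simp only [List.map_cons, List.map_nil]
    rw [hstep]
    have hsub := csub_small hS (k := 1) (by norm_num) hfpabs hs1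
    unfold idxStep
    rw [hsub, hc]
    by_cases hlt : 0 < (f p : ℤ) - s.1
    · rw [if_pos hlt]
      refine ⟨p, rfl, fun _ => ⟨by omega, rfl, ?_, ?_, ?_⟩, by simp⟩
      · exact h1
      · intro q hq
        rcases Nat.lt_succ_iff_lt_or_eq.mp hq with hq | hq
        · obtain ⟨h4, h5, -, h7, -⟩ := h2 (by omega)
          have := h7 q hq
          rw [h5] at hlt
          have h9 : (f I : ℤ) < f p := by omega
          have h10 : f I < f p := by exact_mod_cast h9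
          omega
        · rw [hq]
      · intro q hq
        obtain ⟨h4, h5, -, h7, -⟩ := h2 (by omega)
        have := h7 q hq
        rw [h5] at hlt
        have h9 : (f I : ℤ) < f p := by omega
        have h10 : f I < f p := by exact_mod_cast h9
        omega
    · rw [if_neg hlt]
      rcases Nat.eq_zero_or_pos p with h0 | h0
      · exfalso
        apply hlt
        rw [h3 h0]
        have : (0 : ℤ) ≤ f p := by positivity
        omega
      · obtain ⟨h4, h5, h6, h7, h8⟩ := h2 h0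
        refine ⟨I, rfl, fun _ => ⟨by omega, h5, h6, ?_, h8⟩, by simp⟩
        intro q hq
        rcases Nat.lt_succ_iff_lt_or_eq.mp hq with hq | hq
        · exact h7 q hq
        · rw [hq]
          rw [h5] at hlt
          have h9 : (f p : ℤ) ≤ f I := by omega
          exact_mod_cast h9

end TabW

theorem idxMaxF_spec {k S : ℕ} (hS : 1000000 ≤ S) (hk : 0 < k) (hkS : k ≤ S) (f : Fin k → ℕ)
    (hf : ∀ i, f i < 2 ^ S) : idxMaxF S (lN f) = (((firstIdx (fun i => ∀ i', f i' ≤ f i) (exists_largest hk f) : Fin k) : ℕ) : ℤ) := by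
  classical
  set f' : ℕ → ℕ := fun q => if h : q < k then f ⟨q, h⟩ else 0 with hf'
  have hf'v : ∀ i : Fin k, f' i = f i := fun i => by simp [hf', i.2]
  have hlist : lN f = (List.range k).map fun q : ℕ => (f' q : ℤ) := by
    apply List.ext_getElem
    · simp [lN]
    · intro i h1 h2
      have hik : i < k := by simpa [lN] using h1
      simp [lN, hf', hik]
  obtain ⟨I, -, h2, -⟩ := idx_fold hS hkS f' (fun q hq => by simpa [hf', hq] using hf ⟨q, hq⟩) k le_rfl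
  obtain ⟨h4, -, h6, h7, h8⟩ := h2 hk
  have htake : (lN f).take S = lN f := List.take_of_length_le (by simpa [lN] using hkS)
  unfold idxMaxF
  rw [htake, hlist, h6]
  congr 1
  have hp : ∀ i', f i' ≤ f ⟨I, h4⟩ := by
    intro i'
    have h9 := h7 i' i'.2
    rw [hf'v] at h9
    have h10 : f' I = f ⟨I, h4⟩ := hf'v ⟨I, h4⟩
    rwa [h10] at h9
  set F := firstIdx (fun i => ∀ i', f i' ≤ f i) (exists_largest hk f) with hF
  have hF1 : ∀ i', f i' ≤ f F := firstIdx_spec (fun i => ∀ i', f i' ≤ f i) (exists_largest hk f)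
  have hle : (F : ℕ) ≤ I := by
    have : F ≤ (⟨I, h4⟩ : Fin k) := by
      rw [hF]
      unfold firstIdx
      exact Finset.min'_le _ _ (by simp [hp])
    exact this
  have hge : I ≤ (F : ℕ) := by
    by_contra hlt
    have h9 := h8 F (by omega)
    rw [hf'v] at h9
    have h10 : f' I = f ⟨I, h4⟩ := hf'v ⟨I, h4⟩
    rw [h10] at h9
    have := hF1 ⟨I, h4⟩
    omega
  omega

/-! ### `tMap` on words -/

namespace TabW

section Defs

/-- The sum of a list of words. -/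
def sumZ (S : ℕ) (r : List ℤ) : ℤ := sumRange S (lenZ S r) (getZ S r)

/-- The entry of the corner: the minimum of the margins. -/
noncomputable def uF (S : ℕ) (r c : List ℤ) (j' i' : ℤ) : ℤ := minZ S (getZ S r i') (getZ S c j')

/-- `cornerTab` on words. -/
noncomputable def cornerF (S : ℕ) (r c : List ℤ) (j' i' j i : ℤ) : ℤ :=
  cadd S
    (fint S (if 0 < eqT S j j' then (if 0 < eqT S i i' then uF S r c j' i' else 0) else 0))
    (fdiv S
      (fint S (cmul S (csub S (getZ S r i) (if 0 < eqT S i i' then uF S r c j' i' else 0))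
        (csub S (getZ S c j) (if 0 < eqT S j j' then uF S r c j' i' else 0))))
      (fint S (csub S (sumZ S r) (uF S r c j' i'))))

/-- The product of the numbers of rows and columns. -/
def dimZ (S : ℕ) (r c : List ℤ) : ℤ := cmul S (lenZ S c) (lenZ S r)

/-- `centreTab` on words. -/
noncomputable def centreF (S : ℕ) (r c : List ℤ) (j i : ℤ) : ℤ :=
  fdiv S
    (sumRange S (lenZ S c) fun j' => sumRange S (lenZ S r) fun i' => cornerF S r c j' i' j i)
    (fint S (dimZ S r c))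

/-- `scS` on words. -/
noncomputable def scSF (S : ℕ) (r c : List ℤ) (x : ℤ) : ℤ :=
  fdiv S (cadd S (fone S) (fsqrt S (fint S x)))
    (fint S (cmul S (clamp S ((16 : ℕ) : ℤ)) (cmul S (dimZ S r c) (dimZ S r c))))

/-- `scF` on words. -/
noncomputable def scFF (S : ℕ) (r c : List ℤ) (j i : ℤ) : ℤ :=
  fdiv S (fint S (cadd S (minZ S (getZ S r i) (getZ S c j)) 1))
    (fint S (cmul S (clamp S ((2 : ℕ) : ℤ)) (cmul S (dimZ S r c) (dimZ S r c))))

/-- `tFree` on words. -/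
noncomputable def tFreeF (S : ℕ) (r c : List ℤ) (y : List (List ℤ)) (j i : ℤ) : ℤ :=
  cadd S (cadd S (centreF S r c j i) (fone S)) (fmul S (scFF S r c j i) (getM S y j i))

/-- `tCol` on words. -/
noncomputable def tColF (S : ℕ) (i0 : ℤ) (r c : List ℤ) (y : List (List ℤ)) (j : ℤ) : ℤ :=
  csub S
    (cadd S (cadd S (fint S (getZ S c j)) (fint S (lenZ S r)))
      (fmul S (scSF S r c (getZ S c j)) (getM S y j i0)))
    (sumRange S (lenZ S r) fun i' => if 0 < eqT S i' i0 then 0 else tFreeF S r c y j i')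

/-- The entries of `tMap` on words. -/
noncomputable def entryF (S : ℕ) (i0 j0 : ℤ) (r c : List ℤ) (y : List (List ℤ)) (j i : ℤ) : ℤ :=
  if 0 < eqT S j j0 then
    if 0 < eqT S i i0 then
      csub S
        (cadd S (cadd S (fint S (getZ S r i0)) (fint S (lenZ S c)))
          (fmul S (scSF S r c (getZ S r i0)) (getM S y j0 i0)))
        (sumRange S (lenZ S c) fun j' => if 0 < eqT S j' j0 then 0 else tColF S i0 r c y j')
    else
      csub S
        (cadd S (cadd S (fint S (getZ S r i)) (fint S (lenZ S c)))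
          (fmul S (scSF S r c (getZ S r i)) (getM S y j0 i)))
        (sumRange S (lenZ S c) fun j' => if 0 < eqT S j' j0 then 0 else tFreeF S r c y j' i)
  else
    if 0 < eqT S i i0 then tColF S i0 r c y j else tFreeF S r c y j i

end Defs

end TabW

/-- `tMap` on words: `i0`, `j0` as indices, rows, columns, the coordinates `y` as a matrix (columns, rows). -/
noncomputable def tMapF (S : ℕ) (i0 j0 : ℤ) (r c : List ℤ) (y : List (List ℤ)) : List (List ℤ) :=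
  mapRange S (lenZ S c) fun j => mapRange S (lenZ S r) fun i => entryF S i0 j0 r c y j i

namespace TabW

section Reps

variable {fr fc : ℕ → α → List ℤ} {fy : ℕ → α → List (List ℤ)}

theorem sumZ_rep (hr : DRep fr) : DRep fun S x => sumZ S (fr S x) :=
  sumRange_rep (g := fun S x => getZ S (fr S x)) (lenZ_rep hr)
    (getZ_rep (DRep.fst.comp hr) DRep.snd)

theorem uF_rep {fj' fi' : ℕ → α → ℤ} (hr : DRep fr) (hc : DRep fc) (hj' : DRep fj') (hi' : DRep fi') :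
    DRep fun S x => uF S (fr S x) (fc S x) (fj' S x) (fi' S x) :=
  minZ_rep (getZ_rep hr hi') (getZ_rep hc hj')

theorem cornerF_rep {fj' fi' fj fi : ℕ → α → ℤ} (hr : DRep fr) (hc : DRep fc) (hj' : DRep fj')
    (hi' : DRep fi') (hj : DRep fj) (hi : DRep fi) :
    DRep fun S x => cornerF S (fr S x) (fc S x) (fj' S x) (fi' S x) (fj S x) (fi S x) := by
  have hU := uF_rep hr hc hj' hi'
  have hEj := eqT_rep hj hj'
  have hEi := eqT_rep hi hi'
  have hI := DRep.ite hEi hU (DRep.zero (α := α))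
  have hJ := DRep.ite hEj hU (DRep.zero (α := α))
  have hT := DRep.ite hEj hI (DRep.zero (α := α))
  have hA := (getZ_rep hr hi).sub hI
  have hB := (getZ_rep hc hj).sub hJ
  exact (fint_rep hT).add (fdiv_rep (fint_rep (hA.mul hB)) (fint_rep ((sumZ_rep hr).sub hU)))

theorem dimZ_rep (hr : DRep fr) (hc : DRep fc) : DRep fun S x => dimZ S (fr S x) (fc S x) :=
  (lenZ_rep hc).mul (lenZ_rep hr)

theorem centreF_rep {fj fi : ℕ → α → ℤ} (hr : DRep fr) (hc : DRep fc) (hj : DRep fj) (hi : DRep fi) :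
    DRep fun S x => centreF S (fr S x) (fc S x) (fj S x) (fi S x) := by
  have hr1 : DRep fun S (p : α × ℤ) => fr S p.1 := DRep.fst.comp hr
  have hc1 : DRep fun S (p : α × ℤ) => fc S p.1 := DRep.fst.comp hc
  have hj1 : DRep fun S (p : α × ℤ) => fj S p.1 := DRep.fst.comp hj
  have hi1 : DRep fun S (p : α × ℤ) => fi S p.1 := DRep.fst.comp hi
  have hr2 : DRep fun S (p : (α × ℤ) × ℤ) => fr S p.1.1 := DRep.fst.comp hr1
  have hc2 : DRep fun S (p : (α × ℤ) × ℤ) => fc S p.1.1 := DRep.fst.comp hc1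
  have hj2 : DRep fun S (p : (α × ℤ) × ℤ) => fj S p.1.1 := DRep.fst.comp hj1
  have hi2 : DRep fun S (p : (α × ℤ) × ℤ) => fi S p.1.1 := DRep.fst.comp hi1
  have hk1 : DRep fun _ (p : (α × ℤ) × ℤ) => p.1.2 := DRep.fst.comp DRep.snd
  have hk2 : DRep fun _ (p : (α × ℤ) × ℤ) => p.2 := DRep.snd
  have hinner : DRep fun S (p : (α × ℤ) × ℤ) =>
      cornerF S (fr S p.1.1) (fc S p.1.1) p.1.2 p.2 (fj S p.1.1) (fi S p.1.1) :=
    cornerF_rep hr2 hc2 hk1 hk2 hj2 hi2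
  have houter : DRep fun S (p : α × ℤ) =>
      sumRange S (lenZ S (fr S p.1)) fun i' =>
        cornerF S (fr S p.1) (fc S p.1) p.2 i' (fj S p.1) (fi S p.1) :=
    sumRange_rep (g := fun S (p : α × ℤ) i' =>
        cornerF S (fr S p.1) (fc S p.1) p.2 i' (fj S p.1) (fi S p.1)) (lenZ_rep hr1) hinner
  exact fdiv_rep (sumRange_rep (g := fun S x j' => sumRange S (lenZ S (fr S x)) fun i' =>
      cornerF S (fr S x) (fc S x) j' i' (fj S x) (fi S x)) (lenZ_rep hc) houter)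
    (fint_rep (dimZ_rep hr hc))

theorem scSF_rep {fx : ℕ → α → ℤ} (hr : DRep fr) (hc : DRep fc) (hx : DRep fx) :
    DRep fun S x => scSF S (fr S x) (fc S x) (fx S x) :=
  fdiv_rep ((fone_rep).add (fsqrt_rep (fint_rep hx)))
    (fint_rep ((DRep.natConst 16).mul ((dimZ_rep hr hc).mul (dimZ_rep hr hc))))

theorem scFF_rep {fj fi : ℕ → α → ℤ} (hr : DRep fr) (hc : DRep fc) (hj : DRep fj) (hi : DRep fi) :
    DRep fun S x => scFF S (fr S x) (fc S x) (fj S x) (fi S x) :=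
  fdiv_rep (fint_rep ((minZ_rep (getZ_rep hr hi) (getZ_rep hc hj)).add DRep.one))
    (fint_rep ((DRep.natConst 2).mul ((dimZ_rep hr hc).mul (dimZ_rep hr hc))))

theorem tFreeF_rep {fj fi : ℕ → α → ℤ} (hr : DRep fr) (hc : DRep fc) (hy : DRep fy) (hj : DRep fj)
    (hi : DRep fi) : DRep fun S x => tFreeF S (fr S x) (fc S x) (fy S x) (fj S x) (fi S x) :=
  ((centreF_rep hr hc hj hi).add fone_rep).add
    (fmul_rep (scFF_rep hr hc hj hi) (getM_rep hy hj hi))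

theorem tColF_rep {fi0 fj : ℕ → α → ℤ} (hi0 : DRep fi0) (hr : DRep fr) (hc : DRep fc) (hy : DRep fy)
    (hj : DRep fj) : DRep fun S x => tColF S (fi0 S x) (fr S x) (fc S x) (fy S x) (fj S x) := by
  have hr1 : DRep fun S (p : α × ℤ) => fr S p.1 := DRep.fst.comp hr
  have hc1 : DRep fun S (p : α × ℤ) => fc S p.1 := DRep.fst.comp hc
  have hy1 : DRep fun S (p : α × ℤ) => fy S p.1 := DRep.fst.comp hy
  have hj1 : DRep fun S (p : α × ℤ) => fj S p.1 := DRep.fst.comp hj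
  have hi01 : DRep fun S (p : α × ℤ) => fi0 S p.1 := DRep.fst.comp hi0
  have hk : DRep fun _ (p : α × ℤ) => p.2 := DRep.snd
  have hbody : DRep fun S (p : α × ℤ) =>
      if 0 < eqT S p.2 (fi0 S p.1) then 0 else tFreeF S (fr S p.1) (fc S p.1) (fy S p.1) (fj S p.1) p.2 :=
    DRep.ite (eqT_rep hk hi01) DRep.zero (tFreeF_rep hr1 hc1 hy1 hj1 hk)
  exact (((fint_rep (getZ_rep hc hj)).add (fint_rep (lenZ_rep hr))).add
      (fmul_rep (scSF_rep hr hc (getZ_rep hc hj)) (getM_rep hy hj hi0))).sub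
    (sumRange_rep (g := fun S x i' =>
      if 0 < eqT S i' (fi0 S x) then 0 else tFreeF S (fr S x) (fc S x) (fy S x) (fj S x) i')
      (lenZ_rep hr) hbody)

theorem entryF_rep {fi0 fj0 fj fi : ℕ → α → ℤ} (hi0 : DRep fi0) (hj0 : DRep fj0) (hr : DRep fr)
    (hc : DRep fc) (hy : DRep fy) (hj : DRep fj) (hi : DRep fi) :
    DRep fun S x => entryF S (fi0 S x) (fj0 S x) (fr S x) (fc S x) (fy S x) (fj S x) (fi S x) := by
  have hr1 : DRep fun S (p : α × ℤ) => fr S p.1 := DRep.fst.comp hr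
  have hc1 : DRep fun S (p : α × ℤ) => fc S p.1 := DRep.fst.comp hc
  have hy1 : DRep fun S (p : α × ℤ) => fy S p.1 := DRep.fst.comp hy
  have hi1 : DRep fun S (p : α × ℤ) => fi S p.1 := DRep.fst.comp hi
  have hi01 : DRep fun S (p : α × ℤ) => fi0 S p.1 := DRep.fst.comp hi0
  have hj01 : DRep fun S (p : α × ℤ) => fj0 S p.1 := DRep.fst.comp hj0
  have hk : DRep fun _ (p : α × ℤ) => p.2 := DRep.snd
  have hbody1 : DRep fun S (p : α × ℤ) =>
      if 0 < eqT S p.2 (fj0 S p.1) then 0 else tColF S (fi0 S p.1) (fr S p.1) (fc S p.1) (fy S p.1) p.2 :=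
    DRep.ite (eqT_rep hk hj01) DRep.zero (tColF_rep hi01 hr1 hc1 hy1 hk)
  have hbody2 : DRep fun S (p : α × ℤ) =>
      if 0 < eqT S p.2 (fj0 S p.1) then 0 else tFreeF S (fr S p.1) (fc S p.1) (fy S p.1) p.2 (fi S p.1) :=
    DRep.ite (eqT_rep hk hj01) DRep.zero (tFreeF_rep hr1 hc1 hy1 hk hi1)
  have hS1 := sumRange_rep (g := fun S x j' =>
      if 0 < eqT S j' (fj0 S x) then 0 else tColF S (fi0 S x) (fr S x) (fc S x) (fy S x) j')
      (lenZ_rep hc) hbody1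
  have hS2 := sumRange_rep (g := fun S x j' =>
      if 0 < eqT S j' (fj0 S x) then 0 else tFreeF S (fr S x) (fc S x) (fy S x) j' (fi S x))
      (lenZ_rep hc) hbody2
  have hA := (((fint_rep (getZ_rep hr hi0)).add (fint_rep (lenZ_rep hc))).add
      (fmul_rep (scSF_rep hr hc (getZ_rep hr hi0)) (getM_rep hy hj0 hi0))).sub hS1
  have hB := (((fint_rep (getZ_rep hr hi)).add (fint_rep (lenZ_rep hc))).add
      (fmul_rep (scSF_rep hr hc (getZ_rep hr hi)) (getM_rep hy hj0 hi))).sub hS2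
  exact DRep.ite (eqT_rep hj hj0) (DRep.ite (eqT_rep hi hi0) hA hB)
    (DRep.ite (eqT_rep hi hi0) (tColF_rep hi0 hr hc hy hj) (tFreeF_rep hr hc hy hj hi))

end Reps

end TabW

theorem tMapF_rep {fi fj : ℕ → α → ℤ} {fr fc : ℕ → α → List ℤ} {fy : ℕ → α → List (List ℤ)}
    (hi : DRep fi) (hj : DRep fj) (hr : DRep fr) (hc : DRep fc) (hy : DRep fy) :
    DRep fun S x => tMapF S (fi S x) (fj S x) (fr S x) (fc S x) (fy S x) := by
  have hr1 : DRep fun S (p : α × ℤ) => fr S p.1 := DRep.fst.comp hr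
  have hc1 : DRep fun S (p : α × ℤ) => fc S p.1 := DRep.fst.comp hc
  have hy1 : DRep fun S (p : α × ℤ) => fy S p.1 := DRep.fst.comp hy
  have hi1 : DRep fun S (p : α × ℤ) => fi S p.1 := DRep.fst.comp hi
  have hj1 : DRep fun S (p : α × ℤ) => fj S p.1 := DRep.fst.comp hj
  have hk : DRep fun _ (p : α × ℤ) => p.2 := DRep.snd
  have hr2 : DRep fun S (p : (α × ℤ) × ℤ) => fr S p.1.1 := DRep.fst.comp hr1
  have hc2 : DRep fun S (p : (α × ℤ) × ℤ) => fc S p.1.1 := DRep.fst.comp hc1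
  have hy2 : DRep fun S (p : (α × ℤ) × ℤ) => fy S p.1.1 := DRep.fst.comp hy1
  have hi2 : DRep fun S (p : (α × ℤ) × ℤ) => fi S p.1.1 := DRep.fst.comp hi1
  have hj2 : DRep fun S (p : (α × ℤ) × ℤ) => fj S p.1.1 := DRep.fst.comp hj1
  have hk1 : DRep fun _ (p : (α × ℤ) × ℤ) => p.1.2 := DRep.fst.comp DRep.snd
  have hk2 : DRep fun _ (p : (α × ℤ) × ℤ) => p.2 := DRep.snd
  have hinner : DRep fun S (p : (α × ℤ) × ℤ) =>
      entryF S (fi S p.1.1) (fj S p.1.1) (fr S p.1.1) (fc S p.1.1) (fy S p.1.1) p.1.2 p.2 :=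
    entryF_rep hi2 hj2 hr2 hc2 hy2 hk1 hk2
  have houter : DRep fun S (p : α × ℤ) =>
      mapRange S (lenZ S (fr S p.1)) fun i' =>
        entryF S (fi S p.1) (fj S p.1) (fr S p.1) (fc S p.1) (fy S p.1) p.2 i' :=
    mapRange_rep (g := fun S (p : α × ℤ) i' =>
        entryF S (fi S p.1) (fj S p.1) (fr S p.1) (fc S p.1) (fy S p.1) p.2 i') (lenZ_rep hr1) hinner
  exact mapRange_rep (g := fun S x j' => mapRange S (lenZ S (fr S x)) fun i' =>
      entryF S (fi S x) (fj S x) (fr S x) (fc S x) (fy S x) j' i') (lenZ_rep hc) houter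

/-- The coordinates as a function on the pairs of indices. -/
noncomputable def rY (S : ℕ) (y : Fin n → Fin m → ℤ) : Fin n × Fin m → ℝ := fun k => val S (y k.1 k.2)

/-! ### The spec of `tMapF` -/

namespace TabW

section Spec

/-- The conditions at a node, for the arithmetic on words. -/
structure TabH (S : ℕ) (r : Fin m → ℕ) (c : Fin n → ℕ) : Prop where
  hS : 1000000 ≤ S
  hm : m ≤ S
  hn : n ≤ S
  hD : n * m ≤ S
  hN : ∑ i, r i < 2 ^ S
  hc : ∀ j, c j < 2 ^ S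

variable {S : ℕ} {r : Fin m → ℕ} {c : Fin n → ℕ}

theorem TabH.hr (H : TabH S r c) (i : Fin m) : r i < 2 ^ S :=
  lt_of_le_of_lt (Finset.single_le_sum (f := r) (fun _ _ => Nat.zero_le _) (Finset.mem_univ i)) H.hN

theorem small_one {k : ℕ} (hk : 1 ≤ k) {S : ℕ} {a : ℕ} (h : a < 2 ^ S) : |(a : ℤ)| ≤ (2 : ℤ) ^ (k * S) := by
  rw [abs_of_nonneg (by positivity)]
  have h1 : (a : ℤ) ≤ 2 ^ S := by exact_mod_cast h.le
  refine h1.trans (pow_le_pow_right₀ (by norm_num) ?_)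
  exact Nat.le_mul_of_pos_left _ hk

theorem idx_small {S k : ℕ} (hk : k ≤ S) (a : Fin k) : |((a : ℕ) : ℤ)| ≤ (2 : ℤ) ^ (1 * S) :=
  small_one le_rfl (lt_of_le_of_lt (by have := a.2; omega) Nat.lt_two_pow_self)

theorem ite_eqT_fin {k : ℕ} (hS : 1000000 ≤ S) (hk : k ≤ S) (a b : Fin k) {γ : Type} (X Y : γ) :
    (if 0 < eqT S ((a : ℕ) : ℤ) ((b : ℕ) : ℤ) then X else Y) = if a = b then X else Y := by
  have h := eqT_pos hS (idx_small hk a) (idx_small hk b)
  by_cases hab : a = b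
  · rw [if_pos hab, if_pos (h.2 (by rw [hab]))]
  · rw [if_neg hab, if_neg]
    intro h1
    apply hab
    have := h.1 h1
    exact Fin.ext (by exact_mod_cast this)

theorem dimZ_eq (H : TabH S r c) : dimZ S (lN r) (lN c) = ((n * m : ℕ) : ℤ) := by
  unfold dimZ
  rw [lenZ_lN H.hn, lenZ_lN H.hm, cmul_small H.hS (k := 1) (by norm_num)]
  · push_cast; rfl
  · exact small_one le_rfl (lt_of_le_of_lt H.hn Nat.lt_two_pow_self)
  · exact small_one le_rfl (lt_of_le_of_lt H.hm Nat.lt_two_pow_self)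

theorem sumZ_eq (H : TabH S r c) : sumZ S (lN r) = ((∑ i, r i : ℕ) : ℤ) := by
  unfold sumZ
  have hg : ∀ i : Fin m, getZ S (lN r) (((i : ℕ) : ℤ)) = r i := fun i => getZ_lN H.hm r i
  have hsum : ∑ i ∈ range m, getZ S (lN r) ((i : ℕ) : ℤ) = ((∑ i, r i : ℕ) : ℤ) := by
    rw [← Fin.sum_univ_eq_sum_range (fun i => getZ S (lN r) ((i : ℕ) : ℤ)) m]
    push_cast
    exact Finset.sum_congr rfl fun i _ => hg i
  rw [lenZ_lN H.hm, sumRange_exact H.hS H.hm, hsum]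
  · intro i hi
    have := hg ⟨i, hi⟩
    simp only at this
    rw [this]
    positivity
  · rw [hsum, one_mul]
    exact_mod_cast H.hN.le

theorem uF_eq (H : TabH S r c) (j' : Fin n) (i' : Fin m) :
    uF S (lN r) (lN c) ((j' : ℕ) : ℤ) ((i' : ℕ) : ℤ) = min ((r i' : ℕ) : ℤ) ((c j' : ℕ) : ℤ) := by
  unfold uF
  rw [getZ_lN H.hm, getZ_lN H.hn]
  exact minZ_eq H.hS (k := 1) (by norm_num) (small_one le_rfl (H.hr i')) (small_one le_rfl (H.hc j'))

theorem Ap.fintN {S k : ℕ} (hS : 1000000 ≤ S) {z : ℕ} (hk : 1 ≤ k) (hk1 : k ≤ 1000) (hz : z < 2 ^ S) :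
    Ap S (Vale.Agent.Lib.P328.Bit.fint S (z : ℤ)) (z : ℝ) k := by
  have := Ap.fint hS (small_one hk hz) hk1
  simpa using this

theorem cornerF_ap (H : TabH S r c) (j' : Fin n) (i' : Fin m) (j : Fin n) (i : Fin m) :
    Ap S (cornerF S (lN r) (lN c) ((j' : ℕ) : ℤ) ((i' : ℕ) : ℤ) ((j : ℕ) : ℤ) ((i : ℕ) : ℤ))
      (cornerTab r c j' i' j i) 6 := by
  have hS := H.hS
  have hr' := H.hr i'
  have hc' := H.hc j'
  have hri := H.hr i
  have hcj := H.hc j
  set u : ℤ := min ((r i' : ℕ) : ℤ) ((c j' : ℕ) : ℤ) with hu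
  have hu0 : 0 ≤ u := le_min (by positivity) (by positivity)
  have hu1 : u ≤ ((r i' : ℕ) : ℤ) := min_le_left _ _
  have hNu : ((r i' : ℕ) : ℤ) ≤ ((∑ l, r l : ℕ) : ℤ) := by
    exact_mod_cast Finset.single_le_sum (f := r) (fun _ _ => Nat.zero_le _) (Finset.mem_univ i')
  have hNZ : ((∑ l, r l : ℕ) : ℤ) ≤ 2 ^ S := by exact_mod_cast H.hN.le
  have hP : (1 : ℤ) ≤ 2 ^ S := one_le_pow₀ (by norm_num)
  have hu2 : u ≤ 2 ^ S := by
    have : ((r i' : ℕ) : ℤ) ≤ 2 ^ S := by exact_mod_cast hr'.le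
    linarith
  have hsmall1 : ∀ z : ℤ, 0 ≤ z → z ≤ 2 ^ S → |z| ≤ (2 : ℤ) ^ (1 * S) := by
    intro z h0 h1
    rw [abs_of_nonneg h0, one_mul]
    exact h1
  unfold cornerF
  rw [uF_eq H, sumZ_eq H, ← hu]
  simp only [ite_eqT_fin hS H.hn, ite_eqT_fin hS H.hm]
  rw [getZ_lN H.hm, getZ_lN H.hn]
  set a : ℤ := if i = i' then u else 0 with ha
  set b : ℤ := if j = j' then u else 0 with hb
  have ha0 : 0 ≤ a := by rw [ha]; split_ifs <;> omega
  have ha1 : a ≤ 2 ^ S := by rw [ha]; split_ifs <;> omega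
  have hb0 : 0 ≤ b := by rw [hb]; split_ifs <;> omega
  have hb1 : b ≤ 2 ^ S := by rw [hb]; split_ifs <;> omega
  have hri' : ((r i : ℕ) : ℤ) ≤ 2 ^ S := by exact_mod_cast hri.le
  have hcj' : ((c j : ℕ) : ℤ) ≤ 2 ^ S := by exact_mod_cast hcj.le
  rw [csub_small hS (k := 1) (by norm_num) (hsmall1 _ (by positivity) hri') (hsmall1 _ ha0 ha1),
    csub_small hS (k := 1) (by norm_num) (hsmall1 _ (by positivity) hcj') (hsmall1 _ hb0 hb1),
    csub_small hS (k := 1) (by norm_num) (hsmall1 _ (by positivity) hNZ) (hsmall1 _ hu0 hu2)]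
  have hP2 : (2 : ℤ) ^ (2 * S) = 2 ^ S * 2 ^ S := by rw [← pow_add]; congr 1; ring
  have hA : |((r i : ℕ) : ℤ) - a| ≤ (2 : ℤ) ^ (2 * S) := by
    have h1 : (0 : ℤ) ≤ ((r i : ℕ) : ℤ) := by positivity
    rw [hP2, abs_le]
    constructor <;> nlinarith
  have hB : |((c j : ℕ) : ℤ) - b| ≤ (2 : ℤ) ^ (2 * S) := by
    have h1 : (0 : ℤ) ≤ ((c j : ℕ) : ℤ) := by positivity
    rw [hP2, abs_le]
    constructor <;> nlinarith
  rw [cmul_small hS (k := 2) (by norm_num) hA hB]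
  have hAB : |(((r i : ℕ) : ℤ) - a) * (((c j : ℕ) : ℤ) - b)| ≤ (2 : ℤ) ^ (4 * S) := by
    rw [abs_mul]
    calc _ ≤ (2 : ℤ) ^ (2 * S) * 2 ^ (2 * S) := mul_le_mul hA hB (abs_nonneg _) (by positivity)
      _ = 2 ^ (4 * S) := by rw [← pow_add]; congr 1; ring
  have h2 := Ap.fint hS hAB (by norm_num)
  have hd0 : 0 ≤ ((∑ l, r l : ℕ) : ℤ) - u := by linarith
  have hd1 : ((∑ l, r l : ℕ) : ℤ) - u ≤ (2 : ℤ) ^ (4 * S) := by
    have : (2 : ℤ) ^ S ≤ 2 ^ (4 * S) := pow_le_pow_right₀ (by norm_num) (by omega)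
    linarith
  have h3 := Ap.div hS h2 hd0 hd1 (by norm_num)
  have hT : |(if j = j' then a else 0 : ℤ)| ≤ (2 : ℤ) ^ (5 * S) := by
    have h4 : (2 : ℤ) ^ S ≤ 2 ^ (5 * S) := pow_le_pow_right₀ (by norm_num) (by omega)
    split_ifs
    · rw [abs_of_nonneg ha0]
      linarith
    · simp
  have h1 := Ap.fint hS hT (by norm_num)
  have h4 := Ap.add hS h1 h3 (by norm_num)
  have hv : cornerTab r c j' i' j i
      = ((if j = j' then a else 0 : ℤ) : ℝ)
        + (((((r i : ℕ) : ℤ) - a) * (((c j : ℕ) : ℤ) - b) : ℤ) : ℝ) / ((((∑ l, r l : ℕ) : ℤ) - u : ℤ) : ℝ) := by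
    have huR : (u : ℝ) = min (r i' : ℝ) (c j' : ℝ) := by
      rw [hu]
      push_cast
      rfl
    unfold cornerTab
    dsimp only
    rw [← huR]
    by_cases hj : j = j' <;> by_cases hi : i = i' <;> simp [ha, hb, hj, hi]
  rw [hv]
  exact h4

theorem centreF_ap (H : TabH S r c) (j : Fin n) (i : Fin m) :
    Ap S (centreF S (lN r) (lN c) ((j : ℕ) : ℤ) ((i : ℕ) : ℤ)) (centreTab r c j i) 9 := by
  have hS := H.hS
  unfold centreF
  rw [dimZ_eq H, lenZ_lN H.hn, lenZ_lN H.hm]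
  have hinner : ∀ j' : Fin n, Ap S (sumRange S (m : ℤ) fun i' => cornerF S (lN r) (lN c) ((j' : ℕ) : ℤ) i' ((j : ℕ) : ℤ) ((i : ℕ) : ℤ))
      (∑ i', cornerTab r c j' i' j i) 7 := fun j' =>
    Ap.sumRange hS H.hm (by norm_num) fun i' => cornerF_ap H j' i' j i
  have houter := Ap.sumRange (g := fun j' => sumRange S (m : ℤ) fun i' => cornerF S (lN r) (lN c) j' i' ((j : ℕ) : ℤ) ((i : ℕ) : ℤ))
    hS H.hn (by norm_num) hinner
  have hd : ((n * m : ℕ) : ℤ) ≤ (2 : ℤ) ^ (8 * S) := by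
    have h1 := small_one (k := 8) (by norm_num) (lt_of_le_of_lt H.hD (Nat.lt_two_pow_self (n := S)))
    have h2 := le_abs_self ((n * m : ℕ) : ℤ)
    have h3 : ((n * m : ℕ) : ℤ) ≤ ((S : ℕ) : ℤ) := by exact_mod_cast H.hD
    linarith [le_abs_self ((S : ℕ) : ℤ)]
  have h := Ap.div hS houter (by positivity) hd (by norm_num)
  have hv : centreTab r c j i = (∑ j', ∑ i', cornerTab r c j' i' j i) / (((n * m : ℕ) : ℤ) : ℝ) := by
    unfold centreTab
    push_cast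
    rfl
  rw [hv]
  exact h

theorem dim_sq_small (H : TabH S r c) {K : ℕ} (hK : K = 2 ∨ K = 16) :
    cmul S (clamp S ((K : ℕ) : ℤ)) (cmul S (dimZ S (lN r) (lN c)) (dimZ S (lN r) (lN c)))
      = ((K * ((n * m) * (n * m)) : ℕ) : ℤ)
    ∧ 0 ≤ ((K * ((n * m) * (n * m)) : ℕ) : ℤ)
    ∧ ((K * ((n * m) * (n * m)) : ℕ) : ℤ) ≤ (2 : ℤ) ^ (3 * S) := by
  have hS := H.hS
  have hP := two_le_pow hS
  have hP' : (16 : ℤ) ≤ 2 ^ S := by exact_mod_cast hP
  have hD : ((n * m : ℕ) : ℤ) ≤ 2 ^ S := by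
    have h1 : n * m < 2 ^ S := lt_of_le_of_lt H.hD Nat.lt_two_pow_self
    exact_mod_cast h1.le
  have hD0 : (0 : ℤ) ≤ ((n * m : ℕ) : ℤ) := by positivity
  have hK0 : (0 : ℤ) ≤ ((K : ℕ) : ℤ) := by positivity
  have hK1 : ((K : ℕ) : ℤ) ≤ 16 := by
    rcases hK with rfl | rfl <;> norm_num
  have hP2 : (2 : ℤ) ^ (2 * S) = 2 ^ S * 2 ^ S := by rw [← pow_add]; congr 1; ring
  have hP3 : (2 : ℤ) ^ (3 * S) = 2 ^ (2 * S) * 2 ^ S := by rw [← pow_add]; congr 1; ring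
  have hKc : clamp S ((K : ℕ) : ℤ) = K :=
    clamp_small hS (k := 1) (by norm_num) (by
      rw [abs_of_nonneg hK0, one_mul]
      linarith)
  have hDD0 : (0 : ℤ) ≤ ((n * m : ℕ) : ℤ) * ((n * m : ℕ) : ℤ) := by positivity
  have hDD : ((n * m : ℕ) : ℤ) * ((n * m : ℕ) : ℤ) ≤ (2 : ℤ) ^ (2 * S) := by
    rw [hP2]
    exact mul_le_mul hD hD hD0 (by positivity)
  have e1 : cmul S ((n * m : ℕ) : ℤ) ((n * m : ℕ) : ℤ) = ((n * m : ℕ) : ℤ) * ((n * m : ℕ) : ℤ) :=
    cmul_small hS (k := 1) (by norm_num) (by rw [abs_of_nonneg hD0, one_mul]; exact hD)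
      (by rw [abs_of_nonneg hD0, one_mul]; exact hD)
  have e2 : cmul S (K : ℤ) (((n * m : ℕ) : ℤ) * ((n * m : ℕ) : ℤ))
      = K * (((n * m : ℕ) : ℤ) * ((n * m : ℕ) : ℤ)) :=
    cmul_small hS (k := 2) (by norm_num)
      (by
        rw [abs_of_nonneg hK0]
        have : (16 : ℤ) ≤ 2 ^ (2 * S) := hP'.trans (pow_le_pow_right₀ (by norm_num) (by omega))
        linarith)
      (by rw [abs_of_nonneg hDD0]; exact hDD)
  rw [dimZ_eq H, e1, hKc, e2]
  have e : ((K * ((n * m) * (n * m)) : ℕ) : ℤ) = K * (((n * m : ℕ) : ℤ) * ((n * m : ℕ) : ℤ)) := by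
    push_cast
    ring
  refine ⟨e.symm, by positivity, ?_⟩
  rw [e, hP3]
  have hP4 : (0 : ℤ) < 2 ^ (2 * S) := by positivity
  nlinarith

theorem scSF_ap (H : TabH S r c) {x : ℕ} (hx : x < 2 ^ S) :
    Ap S (scSF S (lN r) (lN c) (x : ℤ)) (scS m n x) 4 := by
  have hS := H.hS
  unfold scSF
  obtain ⟨h1, h2, h3⟩ := dim_sq_small H (K := 16) (Or.inr rfl)
  have h16 : ((16 : ℕ) : ℤ) = ((16 : ℕ) : ℤ) := rfl
  rw [h1]
  have hs := Ap.sqrt hS (z := (x : ℤ)) (k := 1) (by positivity)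
    (by rw [one_mul]; exact_mod_cast hx.le) (by norm_num)
  have h4 := Ap.add hS ((Ap.fone hS).mono (by norm_num : 0 ≤ 1)) hs (by norm_num)
  have h5 := Ap.div hS (h4.mono (by norm_num : 2 ≤ 3)) h2 h3 (by norm_num)
  have hv : scS m n x = (1 + Real.sqrt (((x : ℕ) : ℤ) : ℝ)) / (((16 * ((n * m) * (n * m)) : ℕ) : ℤ) : ℝ) := by
    unfold scS
    push_cast
    congr 1
    ring
  rw [hv]
  exact h5

theorem scFF_ap (H : TabH S r c) (j : Fin n) (i : Fin m) :
    Ap S (scFF S (lN r) (lN c) ((j : ℕ) : ℤ) ((i : ℕ) : ℤ)) (scF r c j i) 4 := by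
  have hS := H.hS
  unfold scFF
  obtain ⟨h1, h2, h3⟩ := dim_sq_small H (K := 2) (Or.inl rfl)
  rw [h1, getZ_lN H.hm, getZ_lN H.hn]
  have hri := H.hr i
  have hri' : ((r i : ℕ) : ℤ) ≤ 2 ^ S := by exact_mod_cast hri.le
  have hP : (1 : ℤ) ≤ 2 ^ S := one_le_pow₀ (by norm_num)
  rw [minZ_eq hS (k := 1) (by norm_num) (small_one le_rfl hri) (small_one le_rfl (H.hc j))]
  set u : ℤ := min ((r i : ℕ) : ℤ) ((c j : ℕ) : ℤ) with hu
  have hu0 : 0 ≤ u := le_min (by positivity) (by positivity)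
  have hu1 : u ≤ 2 ^ S := (min_le_left _ _).trans hri'
  rw [cadd_small hS (k := 1) (by norm_num) (by rw [abs_of_nonneg hu0, one_mul]; exact hu1)
    (by rw [abs_one, one_mul]; exact hP)]
  have hZ : |u + 1| ≤ (2 : ℤ) ^ (3 * S) := by
    rw [abs_of_nonneg (by omega)]
    have h4 : (2 : ℤ) ^ (S + 1) ≤ 2 ^ (3 * S) := pow_le_pow_right₀ (by norm_num) (by omega)
    rw [pow_succ] at h4
    linarith
  have h5 := Ap.div hS (Ap.fint hS hZ (by norm_num)) h2 h3 (by norm_num)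
  have hv : scF r c j i = ((u + 1 : ℤ) : ℝ) / (((2 * ((n * m) * (n * m)) : ℕ) : ℤ) : ℝ) := by
    unfold scF
    rw [hu]
    push_cast
    congr 1
    ring
  rw [hv]
  exact h5

/-- A big exponent beats a power of `S`. -/
theorem two_mul_pow_five_le {S : ℕ} (hS : 100 ≤ S) : 2 * S ^ 5 ≤ 2 ^ S := by
  induction S, hS using Nat.le_induction with
  | base => norm_num
  | succ k hk ih =>
    have h1 : (10 * (k + 1)) ^ 5 ≤ (11 * k) ^ 5 := Nat.pow_le_pow_left (by omega) 5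
    have h2 : (10 * (k + 1)) ^ 5 = 100000 * (k + 1) ^ 5 := by ring
    have h3 : (11 * k) ^ 5 = 161051 * k ^ 5 := by ring
    rw [pow_succ 2 k]
    omega

theorem val_ap {S : ℕ} (hS : 1000000 ≤ S) {x : ℤ} (hx : |val S x| ≤ 2 * (S : ℝ) ^ 5) :
    Ap S x (val S x) 1 := by
  have h := two_mul_pow_five_le (S := S) (by omega)
  have h' : 2 * (S : ℝ) ^ 5 ≤ 2 ^ S := by exact_mod_cast h
  refine ⟨by rw [one_mul]; exact hx.trans h', ?_⟩
  rw [sub_self, abs_zero]
  have := eta_pos S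
  positivity

variable {y : Fin n → Fin m → ℤ}

theorem tFreeF_ap (H : TabH S r c) (hy : ∀ j i, |val S (y j i)| ≤ 2 * (S : ℝ) ^ 5) (j : Fin n) (i : Fin m) :
    Ap S (tFreeF S (lN r) (lN c) (lM y) ((j : ℕ) : ℤ) ((i : ℕ) : ℤ)) (tFree r c (rY S y) j i) 11 := by
  have hS := H.hS
  unfold tFreeF
  rw [getM_lM H.hn H.hm]
  have h1 := Ap.add hS (centreF_ap H j i) ((Ap.fone hS).mono (by norm_num : 0 ≤ 9)) (by norm_num)
  have h2 := Ap.mul hS (scFF_ap H j i) ((val_ap hS (hy j i)).mono (by norm_num : 1 ≤ 4)) (by norm_num)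
  exact Ap.add hS h1 (h2.mono (by norm_num)) (by norm_num)

theorem sum_erase_ite {k : ℕ} (i0 : Fin k) (a : Fin k → ℝ) :
    ∑ i ∈ univ.erase i0, a i = ∑ i, if i = i0 then 0 else a i := by
  rw [← Finset.sum_erase univ (a := i0) (f := fun i => if i = i0 then 0 else a i) (by simp)]
  refine Finset.sum_congr rfl fun i hi => ?_
  rw [if_neg (Finset.ne_of_mem_erase hi)]

theorem tColHead_ap (H : TabH S r c) (hy : ∀ j i, |val S (y j i)| ≤ 2 * (S : ℝ) ^ 5) (i0 : Fin m) (j : Fin n) :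
    Ap S (cadd S (cadd S (fint S ((c j : ℕ) : ℤ)) (fint S ((m : ℕ) : ℤ)))
        (fmul S (scSF S (lN r) (lN c) ((c j : ℕ) : ℤ)) (y j i0)))
      ((c j : ℝ) + m + scS m n (c j) * rY S y (j, i0)) 10 := by
  have hS := H.hS
  have h1 := Ap.fintN hS (k := 1) le_rfl (by norm_num) (H.hc j)
  have h2 := Ap.fintN hS (k := 1) (z := m) le_rfl (by norm_num) (lt_of_le_of_lt H.hm Nat.lt_two_pow_self)
  have h3 := Ap.add hS h1 h2 (by norm_num)
  have h4 := Ap.mul hS (scSF_ap H (H.hc j)) ((val_ap hS (hy j i0)).mono (by norm_num : 1 ≤ 4)) (by norm_num)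
  exact Ap.add hS (h3.mono (by norm_num : 2 ≤ 9)) h4 (by norm_num)

theorem tColSum_ap (H : TabH S r c) (hy : ∀ j i, |val S (y j i)| ≤ 2 * (S : ℝ) ^ 5) (i0 : Fin m) (j : Fin n) :
    Ap S (sumRange S (m : ℤ) fun i' => if 0 < eqT S i' ((i0 : ℕ) : ℤ) then 0 else
        tFreeF S (lN r) (lN c) (lM y) ((j : ℕ) : ℤ) i')
      (∑ i', if i' = i0 then 0 else tFree r c (rY S y) j i') 12 := by
  have hS := H.hS
  refine Ap.sumRange hS H.hm (k := 11) (by norm_num) (fun i' => ?_)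
  show Ap S (if 0 < eqT S ((i' : ℕ) : ℤ) ((i0 : ℕ) : ℤ) then 0 else _) _ _
  rw [ite_eqT_fin hS H.hm]
  by_cases h : i' = i0
  · rw [if_pos h, if_pos h]
    exact Ap.zero.mono (by norm_num)
  · rw [if_neg h, if_neg h]
    exact tFreeF_ap H hy j i'

theorem tColF_eq (H : TabH S r c) (i0 : Fin m) (j : Fin n) :
    tColF S ((i0 : ℕ) : ℤ) (lN r) (lN c) (lM y) ((j : ℕ) : ℤ)
      = csub S (cadd S (cadd S (fint S ((c j : ℕ) : ℤ)) (fint S ((m : ℕ) : ℤ)))
        (fmul S (scSF S (lN r) (lN c) ((c j : ℕ) : ℤ)) (y j i0)))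
        (sumRange S (m : ℤ) fun i' => if 0 < eqT S i' ((i0 : ℕ) : ℤ) then 0 else
          tFreeF S (lN r) (lN c) (lM y) ((j : ℕ) : ℤ) i') := by
  unfold tColF
  rw [getM_lM H.hn H.hm, lenZ_lN H.hm, getZ_lN H.hn]

theorem tColF_ap (H : TabH S r c) (hy : ∀ j i, |val S (y j i)| ≤ 2 * (S : ℝ) ^ 5) (i0 : Fin m) (j : Fin n) :
    Ap S (tColF S ((i0 : ℕ) : ℤ) (lN r) (lN c) (lM y) ((j : ℕ) : ℤ)) (tCol i0 r c (rY S y) j) 13 := by
  have hS := H.hS
  rw [tColF_eq H]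
  have h7 := Ap.sub hS ((tColHead_ap H hy i0 j).mono (by norm_num : 10 ≤ 12)) (tColSum_ap H hy i0 j) (by norm_num)
  have hv : tCol i0 r c (rY S y) j = ((c j : ℝ) + m + scS m n (c j) * rY S y (j, i0))
      - ∑ i', if i' = i0 then 0 else tFree r c (rY S y) j i' := by
    unfold tCol
    rw [sum_erase_ite]
  rw [hv]
  exact h7

theorem entryF_ap (H : TabH S r c) (hy : ∀ j i, |val S (y j i)| ≤ 2 * (S : ℝ) ^ 5) (i0 : Fin m) (j0 : Fin n)
    (j : Fin n) (i : Fin m) :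
    Ap S (entryF S ((i0 : ℕ) : ℤ) ((j0 : ℕ) : ℤ) (lN r) (lN c) (lM y) ((j : ℕ) : ℤ) ((i : ℕ) : ℤ))
      (tMap i0 j0 r c (rY S y) j i) 15 := by
  have hS := H.hS
  have hside : ∀ i1 : Fin m,
      Ap S (cadd S (cadd S (fint S (getZ S (lN r) ((i1 : ℕ) : ℤ))) (fint S (lenZ S (lN c))))
          (fmul S (scSF S (lN r) (lN c) (getZ S (lN r) ((i1 : ℕ) : ℤ))) (getM S (lM y) ((j0 : ℕ) : ℤ) ((i1 : ℕ) : ℤ))))
        ((r i1 : ℝ) + n + scS m n (r i1) * rY S y (j0, i1)) 10 := by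
    intro i1
    rw [getM_lM H.hn H.hm, lenZ_lN H.hn, getZ_lN H.hm]
    have h1 := Ap.fintN hS (k := 1) le_rfl (by norm_num) (H.hr i1)
    have h2 := Ap.fintN hS (k := 1) (z := n) le_rfl (by norm_num) (lt_of_le_of_lt H.hn Nat.lt_two_pow_self)
    have h3 := Ap.add hS h1 h2 (by norm_num)
    have h4 := Ap.mul hS (scSF_ap H (H.hr i1)) ((val_ap hS (hy j0 i1)).mono (by norm_num : 1 ≤ 4)) (by norm_num)
    exact Ap.add hS (h3.mono (by norm_num : 2 ≤ 9)) h4 (by norm_num)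
  unfold entryF tMap
  simp only [ite_eqT_fin hS H.hn, ite_eqT_fin hS H.hm]
  by_cases hj : j = j0
  · rw [if_pos hj, if_pos hj]
    subst hj
    by_cases hi : i = i0
    · rw [if_pos hi, if_pos hi]
      subst hi
      have h6 := Ap.sumRange (g := fun j' => if 0 < eqT S j' ((j : ℕ) : ℤ) then 0 else
          tColF S ((i : ℕ) : ℤ) (lN r) (lN c) (lM y) j')
        (a := fun j' => if j' = j then 0 else tCol i r c (rY S y) j')
        hS H.hn (k := 13) (by norm_num) (fun j' => by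
          show Ap S (if 0 < eqT S ((j' : ℕ) : ℤ) ((j : ℕ) : ℤ) then 0 else _) _ _
          rw [ite_eqT_fin hS H.hn]
          by_cases h : j' = j
          · rw [if_pos h, if_pos h]
            exact Ap.zero.mono (by norm_num)
          · rw [if_neg h, if_neg h]
            exact tColF_ap H hy i j')
      rw [lenZ_lN H.hn, sum_erase_ite]
      have h7 := Ap.sub hS ((hside i).mono (by norm_num : 10 ≤ 14)) h6 (by norm_num)
      rw [lenZ_lN H.hn] at h7
      exact h7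
    · rw [if_neg hi, if_neg hi]
      have h6 := Ap.sumRange (g := fun j' => if 0 < eqT S j' ((j : ℕ) : ℤ) then 0 else
          tFreeF S (lN r) (lN c) (lM y) j' ((i : ℕ) : ℤ))
        (a := fun j' => if j' = j then 0 else tFree r c (rY S y) j' i)
        hS H.hn (k := 11) (by norm_num) (fun j' => by
          show Ap S (if 0 < eqT S ((j' : ℕ) : ℤ) ((j : ℕ) : ℤ) then 0 else _) _ _
          rw [ite_eqT_fin hS H.hn]
          by_cases h : j' = j
          · rw [if_pos h, if_pos h]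
            exact Ap.zero.mono (by norm_num)
          · rw [if_neg h, if_neg h]
            exact tFreeF_ap H hy j' i)
      rw [lenZ_lN H.hn, sum_erase_ite]
      have h7 := Ap.sub hS ((hside i).mono (by norm_num : 10 ≤ 12)) h6 (by norm_num)
      rw [lenZ_lN H.hn] at h7
      exact h7.mono (by norm_num)
  · rw [if_neg hj, if_neg hj]
    by_cases hi : i = i0
    · rw [if_pos hi, if_pos hi]
      exact (tColF_ap H hy i0 j).mono (by norm_num)
    · rw [if_neg hi, if_neg hi]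
      exact (tFreeF_ap H hy j i).mono (by norm_num)

theorem tMapF_eq (H : TabH S r c) (i0 j0 : ℤ) :
    tMapF S i0 j0 (lN r) (lN c) (lM y)
      = lM fun (j : Fin n) (i : Fin m) => entryF S i0 j0 (lN r) (lN c) (lM y) ((j : ℕ) : ℤ) ((i : ℕ) : ℤ) := by
  unfold tMapF
  rw [lenZ_lN H.hn, lenZ_lN H.hm, mapRange_nat H.hn]
  unfold lM
  congr 1
  funext j
  rw [mapRange_nat H.hm]

end Spec

end TabW

/-- The spec of `tMapF`. -/
theorem tMapF_spec {S : ℕ} {r : Fin m → ℕ} {c : Fin n → ℕ} (hS : 1000000 ≤ S)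
    (hD : ((n : ℝ) * m + 1) ≤ S) (hN : ∑ i, r i < 2 ^ S) (hsum : ∑ i, r i = ∑ j, c j) (i0 : Fin m) (j0 : Fin n)
    (y : Fin n → Fin m → ℤ) (hy : ∀ j i, |val S (y j i)| ≤ 2 * (S : ℝ) ^ 5) :
    ∃ t : Fin n → Fin m → ℤ,
      tMapF S ((i0 : ℕ) : ℤ) ((j0 : ℕ) : ℤ) (lN r) (lN c) (lM y) = lM t
      ∧ ∀ j i, |val S (t j i) - tMap i0 j0 r c (rY S y) j i| ≤ (1 / 2 : ℝ) ^ (S ^ 5 / 8) := by
  have hm0 : 0 < m := lt_of_le_of_lt (Nat.zero_le _) i0.2
  have hn0 : 0 < n := lt_of_le_of_lt (Nat.zero_le _) j0.2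
  have hDN : n * m + 1 ≤ S := by exact_mod_cast hD
  have H : TabH S r c :=
    { hS := hS
      hm := by nlinarith
      hn := by nlinarith
      hD := by omega
      hN := hN
      hc := fun j => by
        have h1 := Finset.single_le_sum (f := c) (fun _ _ => Nat.zero_le _) (Finset.mem_univ j)
        omega }
  refine ⟨_, tMapF_eq H _ _, fun j i => ?_⟩
  refine (entryF_ap H hy i0 j0 j i).2.trans ?_
  unfold eta
  have h8 : S ^ 5 / 8 + 15 * S ≤ S ^ 5 / 4 := by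
    have h1 := (k_mul_le hS (k := 999) (by norm_num)).1
    have h2 : S ^ 5 / 8 + S ^ 5 / 8 ≤ S ^ 5 / 4 := by omega
    have h3 : 15 * S ≤ S ^ 5 / 8 := by
      rw [Nat.le_div_iff_mul_le (by norm_num)]
      have h4 : 999 * S + S ≤ S ^ 5 / 4 := h1
      have h5 : S ^ 5 / 4 * 4 ≤ S ^ 5 := Nat.div_mul_le_self _ _
      omega
    omega
  have e : ((1 : ℝ) / 2) ^ (S ^ 5 / 4) ≤ (1 / 2) ^ (S ^ 5 / 8 + 15 * S) :=
    pow_le_pow_of_le_one (by norm_num) (by norm_num) h8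
  have e2 : (2 : ℝ) ^ (15 * S) * (1 / 2) ^ (S ^ 5 / 8 + 15 * S) = (1 / 2) ^ (S ^ 5 / 8) := by
    rw [pow_add]
    have : (2 : ℝ) ^ (15 * S) * (1 / 2) ^ (15 * S) = 1 := by
      rw [← mul_pow]
      norm_num
    calc _ = ((1 : ℝ) / 2) ^ (S ^ 5 / 8) * ((2 : ℝ) ^ (15 * S) * (1 / 2) ^ (15 * S)) := by ring
      _ = _ := by rw [this, mul_one]
  calc (2 : ℝ) ^ (15 * S) * (1 / 2) ^ (S ^ 5 / 4)
      ≤ 2 ^ (15 * S) * (1 / 2) ^ (S ^ 5 / 8 + 15 * S) := by gcongr
    _ = _ := e2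

/-! ### The grid -/

/-- The number of extra bits of a coordinate of a random point. -/
def pf (S : ℕ) : ℕ := S ^ 2

namespace TabW

/-- The word `2 ^ (S ^ 2)`. -/
def pow2F (S : ℕ) : ℤ := (fun s : ℤ => cadd S s s)^[S ^ 2] 1

theorem pow2F_rep : DRep (α := α) (β := ℤ) fun S _ => pow2F S := by
  have hb : DRep (α := α × ℤ) (β := ℤ) fun S y => cadd S y.2 y.2 :=
    DRep.add DRep.snd DRep.snd
  exact ((DRep.id' (α := α)).pair (DRep.one (α := α))).comp (DRep.iterPow 2 hb)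

/-- The numerator of the point of the cube `κ`, above the lower corner. -/
def yNum (S : ℕ) (κ : ℤ) : ℤ :=
  cmul S (cmul S (clamp S ((2 : ℕ) : ℤ)) (clamp S ((S : ℤ) ^ 4))) (cadd S (cmul S (clamp S ((2 : ℕ) : ℤ)) κ) 1)

/-- The denominator of the point of the cube `κ`. -/
def yDen (S : ℕ) : ℤ :=
  cmul S (cadd S (cmul S (clamp S ((4 : ℕ) : ℤ)) (clamp S ((S : ℤ) ^ 56))) 1) (pow2F S)

end TabW

/-- The fixed point coordinate of the point of the cube `κ / 2 ^ pf S`, i.e. `-rQ + cellD * (κ + 1/2) / 2 ^ pf`: the centre of a cube of side `cellD / 2 ^ pf`. -/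
noncomputable def yF (S : ℕ) (κ : ℤ) : ℤ :=
  csub S (fdiv S (fint S (yNum S κ)) (fint S (yDen S)))
    (fint S (cmul S (clamp S ((2 : ℕ) : ℤ)) (clamp S ((S : ℤ) ^ 4))))

theorem yF_rep {f : ℕ → α → ℤ} (hf : DRep f) : DRep fun S x => yF S (f S x) := by
  have h2 := DRep.natConst (α := α) 2
  have h4 := DRep.natConst (α := α) 4
  have hs4 := spow_rep (α := α) 4
  have hs56 := spow_rep (α := α) 56
  have hN : DRep fun S x => yNum S (f S x) := (h2.mul hs4).mul ((h2.mul hf).add DRep.one)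
  have hD : DRep fun S (_ : α) => yDen S := ((h4.mul hs56).add DRep.one).mul pow2F_rep
  exact (fdiv_rep (fint_rep hN) (fint_rep hD)).sub (fint_rep (h2.mul hs4))

/-- The real coordinate. -/
noncomputable def yR (S : ℕ) (κ : ℤ) : ℝ := -rQ S + cellD S * (((κ : ℝ) + 1 / 2) / 2 ^ pf S)

namespace TabW

section YSpec

variable {S : ℕ}

theorem clamp_le_wid {z : ℤ} (h : |z| ≤ 2 ^ wid S) : clamp S z = z := clamp_of_abs_le h

theorem cmul_wid {a b : ℤ} (ha : |a| ≤ 2 ^ wid S) (hb : |b| ≤ 2 ^ wid S) (hab : |a * b| ≤ 2 ^ wid S) :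
    cmul S a b = a * b := by
  unfold cmul
  rw [clamp_of_abs_le ha, clamp_of_abs_le hb, clamp_of_abs_le hab]

theorem cadd_wid {a b : ℤ} (ha : |a| ≤ 2 ^ wid S) (hb : |b| ≤ 2 ^ wid S) (hab : |a + b| ≤ 2 ^ wid S) :
    cadd S a b = a + b := by
  unfold cadd
  rw [clamp_of_abs_le ha, clamp_of_abs_le hb, clamp_of_abs_le hab]

theorem mul_le_two_pow {a b : ℤ} {x y : ℕ} (ha0 : 0 ≤ a) (hb0 : 0 ≤ b) (ha : a ≤ 2 ^ x) (hb : b ≤ 2 ^ y) :
    a * b ≤ 2 ^ (x + y) := by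
  rw [pow_add]
  exact mul_le_mul ha hb hb0 (by positivity)

theorem succ_le_two_pow {a : ℤ} {x : ℕ} (ha0 : 0 ≤ a) (ha : a ≤ 2 ^ x) : a + 1 ≤ 2 ^ (x + 1) := by
  rw [pow_succ]
  have : (1 : ℤ) ≤ 2 ^ x := one_le_pow₀ (by norm_num)
  linarith

theorem pow_S_le (S k : ℕ) : (S : ℤ) ^ k ≤ 2 ^ (k * S) := by
  have hSlt : (S : ℤ) ≤ 2 ^ S := by
    have : S < 2 ^ S := Nat.lt_two_pow_self
    exact_mod_cast this.le
  calc (S : ℤ) ^ k ≤ (2 ^ S) ^ k := pow_le_pow_left₀ (by positivity) hSlt k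
    _ = 2 ^ (k * S) := by rw [← pow_mul]; congr 1; ring

/-- The exact values of the numerator and denominator. -/
theorem y_words (hS : 1000000 ≤ S) {κ : ℤ} (h0 : 0 ≤ κ) (h1 : κ ≤ (cellM S : ℤ) * 2 ^ pf S) :
    yDen S = (cellM S : ℤ) * 2 ^ pf S
    ∧ yNum S κ = 2 * (S : ℤ) ^ 4 * (2 * κ + 1)
    ∧ cmul S (clamp S ((2 : ℕ) : ℤ)) (clamp S ((S : ℤ) ^ 4)) = 2 * (S : ℤ) ^ 4
    ∧ |(cellM S : ℤ) * 2 ^ pf S| ≤ 2 ^ (S ^ 4)
    ∧ |2 * (S : ℤ) ^ 4 * (2 * κ + 1)| ≤ 2 ^ (S ^ 4 - 1)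
    ∧ |2 * (S : ℤ) ^ 4| ≤ 2 ^ (S ^ 4) := by
  have hSpos : 0 < S := by omega
  have hS2 : S ^ 2 ≤ prec S := Nat.pow_le_pow_right hSpos (by norm_num)
  have hpow : pow2F S = 2 ^ pf S := doubling_iter S (S ^ 2) hS2
  have hQ : S ^ 4 + 2 ≤ wid S ∧ 100 * S + pf S + 2 ≤ S ^ 4 := by
    have h2 : S ^ 2 * 1000000 ≤ S ^ 2 * (S * S) := Nat.mul_le_mul_left _ (Nat.mul_le_mul hS (by omega : 1 ≤ S))
    have h3 : S ^ 4 = S ^ 2 * (S * S) := by ring
    have h4 : S ^ 2 = S * S := by ring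
    have h5 : S * 1000000 ≤ S * S := Nat.mul_le_mul_left _ hS
    have h6 : S ^ 4 * 1000000 ≤ S ^ 4 * (S * S) := Nat.mul_le_mul_left _ (Nat.mul_le_mul hS (by omega : 1 ≤ S))
    have h7 : S ^ 6 = S ^ 4 * (S * S) := by ring
    unfold wid pf
    constructor
    · have h8 : 1 ≤ S ^ 4 := Nat.one_le_pow _ _ hSpos
      omega
    · have h8 : 1 ≤ S ^ 2 := Nat.one_le_pow _ _ hSpos
      omega
  obtain ⟨hQ1, hQ2⟩ := hQ
  have hbig : ∀ a : ℕ, a ≤ S ^ 4 → (2 : ℤ) ^ a ≤ 2 ^ wid S := fun a ha =>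
    pow_le_pow_right₀ (by norm_num) (by omega)
  have habs : ∀ {z : ℤ} {a : ℕ}, 0 ≤ z → z ≤ 2 ^ a → a ≤ S ^ 4 → |z| ≤ 2 ^ wid S := by
    intro z a h1 h2 h3
    rw [abs_of_nonneg h1]
    exact h2.trans (hbig a h3)
  have h2S : (2 : ℤ) ≤ 2 ^ 1 := by norm_num
  have h4S : (4 : ℤ) ≤ 2 ^ 2 := by norm_num
  have hs40 : (0 : ℤ) ≤ (S : ℤ) ^ 4 := by positivity
  have hs560 : (0 : ℤ) ≤ (S : ℤ) ^ 56 := by positivity
  have hT0 : (0 : ℤ) ≤ 2 ^ pf S := by positivity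
  have hc2 : clamp S ((2 : ℕ) : ℤ) = 2 := by
    rw [clamp_of_abs_le]
    · norm_num
    · exact habs (a := 1) (by norm_num) (by norm_num) (by omega)
  have hc4 : clamp S ((4 : ℕ) : ℤ) = 4 := by
    rw [clamp_of_abs_le]
    · norm_num
    · exact habs (a := 2) (by norm_num) (by norm_num) (by omega)
  have hcS4 : clamp S ((S : ℤ) ^ 4) = (S : ℤ) ^ 4 := spow_eq hS (by norm_num)
  have hcS56 : clamp S ((S : ℤ) ^ 56) = (S : ℤ) ^ 56 := spow_eq hS (by norm_num)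
  -- the pieces
  have b1 := pow_S_le S 4
  have b2 := pow_S_le S 56
  have b3 : 2 * (S : ℤ) ^ 4 ≤ 2 ^ (1 + 4 * S) := mul_le_two_pow (by norm_num) hs40 h2S b1
  have b4 : 4 * (S : ℤ) ^ 56 ≤ 2 ^ (2 + 56 * S) := mul_le_two_pow (by norm_num) hs560 h4S b2
  have b5 : 4 * (S : ℤ) ^ 56 + 1 ≤ 2 ^ (2 + 56 * S + 1) := succ_le_two_pow (by positivity) b4
  have b6 : (4 * (S : ℤ) ^ 56 + 1) * 2 ^ pf S ≤ 2 ^ (2 + 56 * S + 1 + pf S) :=
    mul_le_two_pow (by positivity) hT0 b5 le_rfl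
  have hcell : (cellM S : ℤ) = 4 * (S : ℤ) ^ 56 + 1 := by
    unfold cellM
    push_cast
    rfl
  rw [hcell] at h1 ⊢
  have b7 : κ ≤ 2 ^ (2 + 56 * S + 1 + pf S) := h1.trans b6
  have b8 : 2 * κ ≤ 2 ^ (1 + (2 + 56 * S + 1 + pf S)) := mul_le_two_pow (by norm_num) h0 h2S b7
  have b9 : 2 * κ + 1 ≤ 2 ^ (1 + (2 + 56 * S + 1 + pf S) + 1) := succ_le_two_pow (by positivity) b8
  have b10 : 2 * (S : ℤ) ^ 4 * (2 * κ + 1) ≤ 2 ^ (1 + 4 * S + (1 + (2 + 56 * S + 1 + pf S) + 1)) :=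
    mul_le_two_pow (by positivity) (by positivity) b3 b9
  have hexp : 1 + 4 * S + (1 + (2 + 56 * S + 1 + pf S) + 1) ≤ S ^ 4 - 1 := by omega
  have b11 : 2 * (S : ℤ) ^ 4 * (2 * κ + 1) ≤ 2 ^ (S ^ 4 - 1) :=
    b10.trans (pow_le_pow_right₀ (by norm_num) hexp)
  have hw : ∀ {z : ℤ} {a : ℕ}, 0 ≤ z → z ≤ 2 ^ a → a ≤ S ^ 4 → |z| ≤ 2 ^ wid S := habs
  have e1 : cmul S 2 ((S : ℤ) ^ 4) = 2 * (S : ℤ) ^ 4 :=
    cmul_wid (hw (a := 1) (by norm_num) (by norm_num) (by omega)) (hw hs40 b1 (by omega))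
      (hw (by positivity) b3 (by omega))
  have e2 : cmul S 4 ((S : ℤ) ^ 56) = 4 * (S : ℤ) ^ 56 :=
    cmul_wid (hw (a := 2) (by norm_num) (by norm_num) (by omega)) (hw hs560 b2 (by omega))
      (hw (by positivity) b4 (by omega))
  have e3 : cadd S (4 * (S : ℤ) ^ 56) 1 = 4 * (S : ℤ) ^ 56 + 1 :=
    cadd_wid (hw (by positivity) b4 (by omega)) (hw (a := 1) (by norm_num) (by norm_num) (by omega))
      (hw (by positivity) b5 (by omega))
  have e4 : cmul S (4 * (S : ℤ) ^ 56 + 1) (2 ^ pf S) = (4 * (S : ℤ) ^ 56 + 1) * 2 ^ pf S :=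
    cmul_wid (hw (by positivity) b5 (by omega)) (hw hT0 (a := pf S) le_rfl (by omega))
      (hw (by positivity) b6 (by omega))
  have e5 : cmul S 2 κ = 2 * κ :=
    cmul_wid (hw (a := 1) (by norm_num) (by norm_num) (by omega)) (hw h0 b7 (by omega))
      (hw (by positivity) b8 (by omega))
  have e6 : cadd S (2 * κ) 1 = 2 * κ + 1 :=
    cadd_wid (hw (by positivity) b8 (by omega)) (hw (a := 1) (by norm_num) (by norm_num) (by omega))
      (hw (by positivity) b9 (by omega))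
  have e7 : cmul S (2 * (S : ℤ) ^ 4) (2 * κ + 1) = 2 * (S : ℤ) ^ 4 * (2 * κ + 1) :=
    cmul_wid (hw (by positivity) b3 (by omega)) (hw (by positivity) b9 (by omega))
      (hw (by positivity) b10 (by omega))
  refine ⟨?_, ?_, ?_, ?_, ?_, ?_⟩
  · unfold yDen
    rw [hc4, hcS56, e2, e3, hpow, e4]
  · unfold yNum
    rw [hc2, hcS4, e1, e5, e6, e7]
  · rw [hc2, hcS4, e1]
  · rw [abs_of_nonneg (by positivity)]
    exact b6.trans (pow_le_pow_right₀ (by norm_num) (by omega))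
  · rw [abs_of_nonneg (by positivity)]
    exact b11
  · rw [abs_of_nonneg (by positivity)]
    exact b3.trans (pow_le_pow_right₀ (by norm_num) (by omega))

end YSpec

end TabW

theorem yF_spec {S : ℕ} (hS : 1000000 ≤ S) {κ : ℤ} (h0 : 0 ≤ κ) (h1 : κ ≤ (cellM S : ℤ) * 2 ^ pf S) :
    |val S (yF S κ) - yR S κ| ≤ (1 / 2 : ℝ) ^ (S ^ 5 / 8) := by
  obtain ⟨hd, hn, h2s, hdB, hnB, h2B⟩ := y_words hS h0 h1
  unfold yF
  rw [hd, hn, h2s]
  set Num : ℤ := 2 * (S : ℤ) ^ 4 * (2 * κ + 1) with hNum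
  set Den : ℤ := (cellM S : ℤ) * 2 ^ pf S with hDen
  have hcast : ∀ {z : ℤ} {a : ℕ}, |z| ≤ 2 ^ a → |(z : ℝ)| ≤ 2 ^ a := by
    intro z a h
    have : ((|z| : ℤ) : ℝ) ≤ ((2 ^ a : ℤ) : ℝ) := by exact_mod_cast h
    simpa using this
  have hSp : 1 ≤ S ^ 4 := Nat.one_le_pow _ _ (by omega)
  have hBig : (2 : ℝ) ^ (S ^ 4 - 1) * 2 = Big S := by
    unfold Big
    rw [← pow_succ]
    congr 1
    omega
  have hP1 : (1 : ℝ) ≤ 2 ^ (S ^ 4 - 1) := one_le_pow₀ (by norm_num)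
  have hNR : |(Num : ℝ)| ≤ 2 ^ (S ^ 4 - 1) := hcast hnB
  have hDR : |(Den : ℝ)| ≤ Big S := hcast hdB
  have hZR : |((2 * (S : ℤ) ^ 4 : ℤ) : ℝ)| ≤ Big S := hcast h2B
  have hNB : |(Num : ℝ)| ≤ Big S := by linarith
  have vX := val_fint hS hNB
  have vY := val_fint hS hDR
  have vZ := val_fint hS hZR
  have hDen1 : (1 : ℤ) ≤ Den := by
    have h2 : (1 : ℤ) ≤ (cellM S : ℤ) := by
      have : 1 ≤ cellM S := by unfold cellM; omega
      exact_mod_cast this
    have h3 : (1 : ℤ) ≤ 2 ^ pf S := one_le_pow₀ (by norm_num)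
    rw [hDen]
    nlinarith
  have hDenR : (1 : ℝ) ≤ (Den : ℝ) := by exact_mod_cast hDen1
  have hBig1 : 1 ≤ Big S := by linarith
  have h3 := val_fdiv hS (x := fint S Num) (y := fint S Den) (by rw [vX]; exact hNB) (by rw [vY]; exact hDR)
    (by
      rw [vY, abs_of_nonneg (by linarith)]
      calc 1 / Big S ≤ 1 := by rw [div_le_one (by linarith)]; exact hBig1
        _ ≤ (Den : ℝ) := hDenR)
  rw [vX, vY] at h3
  have hul : ulp S ≤ 1 := by
    unfold ulp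
    rw [div_le_one (by positivity)]
    exact one_le_pow₀ (by norm_num)
  have hquot : |(Num : ℝ) / Den| ≤ 2 ^ (S ^ 4 - 1) := by
    rw [abs_div, abs_of_nonneg (by linarith : (0 : ℝ) ≤ Den)]
    exact (div_le_self (abs_nonneg _) hDenR).trans hNR
  have hA : |val S (fdiv S (fint S Num) (fint S Den))| ≤ Big S := by
    have h4 : |val S (fdiv S (fint S Num) (fint S Den))|
        ≤ |(Num : ℝ) / Den| + |val S (fdiv S (fint S Num) (fint S Den)) - (Num : ℝ) / Den| := by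
      have := abs_add_le ((Num : ℝ) / Den) (val S (fdiv S (fint S Num) (fint S Den)) - (Num : ℝ) / Den)
      simpa using this
    linarith
  rw [val_sub hS hA (by rw [vZ]; exact hZR), vZ]
  have hreal : ((2 * (S : ℤ) ^ 4 : ℤ) : ℝ) + yR S κ = (Num : ℝ) / Den := by
    have hM : ((cellM S : ℕ) : ℝ) ≠ 0 := by
      have : 0 < cellM S := by unfold cellM; omega
      exact_mod_cast this.ne'
    unfold yR cellD rQ
    rw [hNum, hDen]
    push_cast
    field_simp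
    ring
  have e : val S (fdiv S (fint S Num) (fint S Den)) - ((2 * (S : ℤ) ^ 4 : ℤ) : ℝ) - yR S κ
      = val S (fdiv S (fint S Num) (fint S Den)) - (Num : ℝ) / Den := by
    rw [← hreal]
    ring
  rw [e]
  refine h3.trans ?_
  unfold ulp prec
  rw [one_div, ← inv_pow, show (2 : ℝ)⁻¹ = 1 / 2 by norm_num]
  exact pow_le_pow_of_le_one (by norm_num) (by norm_num) (Nat.div_le_self _ _)

/-- The fine index of a real coordinate. -/
noncomputable def fineIdx (S : ℕ) (y : ℝ) : ℤ := ⌊(y + rQ S) * 2 ^ pf S / cellD S⌋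

/-- A real coordinate is near the centre of its fine cube. -/
theorem yR_fineIdx {S : ℕ} (hS : 1000000 ≤ S) (y : ℝ) :
    |yR S (fineIdx S y) - y| ≤ cellD S / 2 ^ pf S := by
  have hS0 : (0 : ℝ) < S := by
    have : 0 < S := by omega
    exact_mod_cast this
  have hd : 0 < cellD S := by
    unfold cellD rQ
    have hM : (0 : ℝ) < (cellM S : ℝ) := by
      have : 0 < cellM S := by unfold cellM; omega
      exact_mod_cast this
    positivity
  have hQ : (0 : ℝ) < 2 ^ pf S := by positivity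
  set t : ℝ := (y + rQ S) * 2 ^ pf S / cellD S with ht
  have h1 := Int.floor_le t
  have h2 := Int.lt_floor_add_one t
  have e : yR S (fineIdx S y) - y = cellD S / 2 ^ pf S * ((⌊t⌋ : ℝ) + 1 / 2 - t) := by
    unfold yR fineIdx
    rw [← ht]
    rw [ht]
    field_simp
    ring
  rw [e, abs_mul, abs_of_pos (div_pos hd hQ)]
  have h3 : |(⌊t⌋ : ℝ) + 1 / 2 - t| ≤ 1 := by
    rw [abs_le]
    constructor <;> linarith
  have h4 : 0 < cellD S / 2 ^ pf S := div_pos hd hQ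
  nlinarith

end Vale.Agent.Lib.P328.Bit
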