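import Vale.Agent.Lib.P328.Fpras.Trial

/-!
# P328, bit model: the estimate of the law of a trial, without the machine (module TRIALF-B, second part)

`sum_prod_sub_le`: the `ℓ¹` distance of two products of weights is at most the sum of the distances of the factors.
`trial_abs`: the `ℓ¹` distance between `∏_{a ≠ i} A_a(x_a) c1(x) c2(x)` and `∏_{a ≠ i} B_a(x_a) a1(x) a2(x)` on a level of a box.
`min_exp_close`: a coin with probability `min 1 (exp ℓ)` for `ℓ` near `log a`, `a ≤ 1`.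
-/

namespace Vale.Agent.Lib.P328.Bit

open Finset Vale.Agent.Lib.P328.Cap

variable {m : ℕ}

/-- The `ℓ¹` distance of two products of weights. -/
theorem sum_prod_sub_le (R : Fin m → Finset ℕ) (f g : Fin m → ℕ → ℝ)
    (hf0 : ∀ a v, 0 ≤ f a v) (hg0 : ∀ a v, 0 ≤ g a v)
    (hf1 : ∀ a, ∑ v ∈ R a, f a v ≤ 1) (hg1 : ∀ a, ∑ v ∈ R a, g a v ≤ 1) :
    ∑ y ∈ Fintype.piFinset R, |∏ a, f a (y a) - ∏ a, g a (y a)| ≤ ∑ a, ∑ v ∈ R a, |f a v - g a v| := by
  classical
  -- the products in between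
  let H : Finset (Fin m) → (Fin m → ℕ) → ℝ := fun s y => ∏ a, if a ∈ s then g a (y a) else f a (y a)
  have hstep : ∀ (s : Finset (Fin m)) (a : Fin m), a ∉ s →
      ∑ y ∈ Fintype.piFinset R, |H s y - H (insert a s) y| ≤ ∑ v ∈ R a, |f a v - g a v| := by
    intro s a ha
    -- the factorisation
    let k : Fin m → ℕ → ℝ := fun b v =>
      if b = a then |f a v - g a v| else if b ∈ s then g b v else f b v
    have hk0 : ∀ b v, 0 ≤ k b v := by
      intro b v
      simp only [k]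
      split_ifs
      · exact abs_nonneg _
      · exact hg0 _ _
      · exact hf0 _ _
    have hpt : ∀ y, |H s y - H (insert a s) y| = ∏ b, k b (y b) := by
      intro y
      simp only [H]
      rw [← Finset.mul_prod_erase univ _ (mem_univ a), ← Finset.mul_prod_erase univ _ (mem_univ a),
        ← Finset.mul_prod_erase univ (fun b => k b (y b)) (mem_univ a)]
      have e1 : (if a ∈ s then g a (y a) else f a (y a)) = f a (y a) := by simp [ha]
      have e2 : (if a ∈ insert a s then g a (y a) else f a (y a)) = g a (y a) := by simp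
      have e3 : ∏ b ∈ univ.erase a, (if b ∈ insert a s then g b (y b) else f b (y b))
          = ∏ b ∈ univ.erase a, (if b ∈ s then g b (y b) else f b (y b)) := by
        refine Finset.prod_congr rfl fun b hb => ?_
        have : b ≠ a := Finset.ne_of_mem_erase hb
        simp [Finset.mem_insert, this]
      have e4 : ∏ b ∈ univ.erase a, k b (y b)
          = ∏ b ∈ univ.erase a, (if b ∈ s then g b (y b) else f b (y b)) := by
        refine Finset.prod_congr rfl fun b hb => ?_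
        have : b ≠ a := Finset.ne_of_mem_erase hb
        simp [k, this]
      have e5 : k a (y a) = |f a (y a) - g a (y a)| := by simp [k]
      rw [e1, e2, e3, e4, e5, ← sub_mul, abs_mul, abs_of_nonneg (a := ∏ b ∈ univ.erase a, _)]
      refine Finset.prod_nonneg fun b _ => ?_
      split_ifs
      · exact hg0 _ _
      · exact hf0 _ _
    simp only [hpt]
    rw [← Finset.prod_univ_sum (fun b => R b) k]
    rw [← Finset.mul_prod_erase univ _ (mem_univ a)]
    have e6 : ∑ v ∈ R a, k a v = ∑ v ∈ R a, |f a v - g a v| := by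
      refine Finset.sum_congr rfl fun v _ => ?_
      simp [k]
    rw [e6]
    have h0 : 0 ≤ ∑ v ∈ R a, |f a v - g a v| := Finset.sum_nonneg fun _ _ => abs_nonneg _
    have h1 : ∏ b ∈ univ.erase a, ∑ v ∈ R b, k b v ≤ 1 := by
      refine Finset.prod_le_one (fun b _ => Finset.sum_nonneg fun v _ => hk0 b v) fun b hb => ?_
      have hba : b ≠ a := Finset.ne_of_mem_erase hb
      by_cases hbs : b ∈ s
      · have : ∑ v ∈ R b, k b v = ∑ v ∈ R b, g b v :=
          Finset.sum_congr rfl fun v _ => by simp [k, hba, hbs]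
        rw [this]
        exact hg1 b
      · have : ∑ v ∈ R b, k b v = ∑ v ∈ R b, f b v :=
          Finset.sum_congr rfl fun v _ => by simp [k, hba, hbs]
        rw [this]
        exact hf1 b
    calc _ ≤ (∑ v ∈ R a, |f a v - g a v|) * 1 := mul_le_mul_of_nonneg_left h1 h0
      _ = _ := mul_one _
  have hind : ∀ s : Finset (Fin m), ∑ y ∈ Fintype.piFinset R, |H ∅ y - H s y|
      ≤ ∑ a ∈ s, ∑ v ∈ R a, |f a v - g a v| := by
    intro s
    induction s using Finset.induction_on with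
    | empty => simp
    | insert a s ha ih =>
      rw [Finset.sum_insert ha]
      have h1 : ∀ y ∈ Fintype.piFinset R, |H ∅ y - H (insert a s) y|
          ≤ |H s y - H (insert a s) y| + |H ∅ y - H s y| := by
        intro y _
        have := abs_sub_le (H ∅ y) (H s y) (H (insert a s) y)
        linarith
      refine (Finset.sum_le_sum h1).trans ?_
      rw [Finset.sum_add_distrib]
      exact add_le_add (hstep s a ha) ih
  have h := hind univ
  have e1 : ∀ y, H ∅ y = ∏ a, f a (y a) := fun y => by simp [H]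
  have e2 : ∀ y, H univ y = ∏ a, g a (y a) := fun y => by simp [H]
  simpa only [e1, e2] using h

/-- A coin with probability `min 1 (exp ℓ)`, for `ℓ` near `log a`, `a ≤ 1`. -/
theorem min_exp_close {a l η : ℝ} (ha0 : 0 < a) (ha1 : a ≤ 1) (hη0 : 0 ≤ η) (hη1 : η ≤ 1)
    (h : |l - Real.log a| ≤ η) : |min 1 (Real.exp l) - a| ≤ 2 * η * a := by
  have h1 := abs_le.1 h
  have hup : Real.exp l ≤ a * (1 + 2 * η) := by
    have h2 : Real.exp l ≤ Real.exp (Real.log a + η) := Real.exp_le_exp.2 (by linarith)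
    rw [Real.exp_add, Real.exp_log ha0] at h2
    have h3 := Real.abs_exp_sub_one_le (x := η) (by rwa [abs_of_nonneg hη0])
    rw [abs_of_nonneg hη0] at h3
    have h4 := (abs_le.1 h3).2
    have h5 : a * Real.exp η ≤ a * (1 + 2 * η) := mul_le_mul_of_nonneg_left (by linarith) ha0.le
    linarith
  have hlo : a * (1 - η) ≤ Real.exp l := by
    have h2 : Real.exp (Real.log a - η) ≤ Real.exp l := Real.exp_le_exp.2 (by linarith)
    rw [sub_eq_add_neg, Real.exp_add, Real.exp_log ha0] at h2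
    have h3 := Real.add_one_le_exp (-η)
    have h5 : a * (1 - η) ≤ a * Real.exp (-η) := mul_le_mul_of_nonneg_left (by linarith) ha0.le
    linarith
  have hlo1 : a * (1 - η) ≤ 1 := by nlinarith
  have hmin1 : min 1 (Real.exp l) ≤ a * (1 + 2 * η) := (min_le_right _ _).trans hup
  have hmin2 : a * (1 - η) ≤ min 1 (Real.exp l) := le_min hlo1 hlo
  rw [abs_le]
  constructor <;> nlinarith

section Main

variable {r : Fin m → ℕ} {c0 : ℕ} (i : Fin m)

/-- The first column without the row `i`. -/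
def dropRow (x : Fin m → ℕ) : Fin m → ℕ := Function.update x i 0

theorem dropRow_inj {x x' : Fin m → ℕ} (hx : x ∈ lev r c0) (hx' : x' ∈ lev r c0)
    (h : dropRow i x = dropRow i x') : x = x' := by
  classical
  have h1 : ∀ a, a ≠ i → x a = x' a := by
    intro a ha
    have := congrFun h a
    simpa [dropRow, Function.update_of_ne ha] using this
  have h2 := (mem_lev.1 hx).2
  have h3 := (mem_lev.1 hx').2
  rw [← Finset.add_sum_erase univ _ (mem_univ i)] at h2 h3
  have h4 : ∑ a ∈ univ.erase i, x a = ∑ a ∈ univ.erase i, x' a :=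
    Finset.sum_congr rfl fun a ha => h1 a (Finset.ne_of_mem_erase ha)
  funext a
  by_cases ha : a = i
  · subst ha
    omega
  · exact h1 a ha

theorem dropRow_mem {x : Fin m → ℕ} (hx : x ∈ lev r c0) :
    dropRow i x ∈ box (Function.update r i 0) := by
  classical
  rw [mem_box]
  intro a
  by_cases ha : a = i
  · subst ha
    simp [dropRow]
  · simpa [dropRow, Function.update_of_ne ha] using (mem_lev.1 hx).1 a

/-- A sum over a level is at most a sum over the box without the row `i`. -/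
theorem sum_lev_le_box {F : (Fin m → ℕ) → ℝ} (hF : ∀ y, 0 ≤ F y) :
    ∑ x ∈ lev r c0, F (dropRow i x) ≤ ∑ y ∈ box (Function.update r i 0), F y := by
  classical
  have h1 : ∑ x ∈ lev r c0, F (dropRow i x) = ∑ y ∈ (lev r c0).image (dropRow i), F y := by
    rw [Finset.sum_image]
    intro x hx x' hx' h
    exact dropRow_inj i hx hx' h
  rw [h1]
  refine Finset.sum_le_sum_of_subset_of_nonneg ?_ fun y _ _ => hF y
  intro y hy
  obtain ⟨x, hx, rfl⟩ := Finset.mem_image.1 hy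
  exact dropRow_mem i hx

/-- The weights with the row `i` fixed at zero. -/
noncomputable def wOut (A : Fin m → ℕ → ℝ) (a : Fin m) (v : ℕ) : ℝ :=
  open Classical in if a = i then (if v = 0 then 1 else 0) else A a v

theorem prod_wOut (A : Fin m → ℕ → ℝ) (x : Fin m → ℕ) :
    ∏ a, wOut i A a (dropRow i x a) = ∏ a ∈ univ.erase i, A a (x a) := by
  classical
  rw [← Finset.mul_prod_erase univ _ (mem_univ i)]
  have e1 : wOut i A i (dropRow i x i) = 1 := by simp [wOut, dropRow]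
  rw [e1, one_mul]
  refine Finset.prod_congr rfl fun a ha => ?_
  have hai : a ≠ i := Finset.ne_of_mem_erase ha
  simp [wOut, dropRow, Function.update_of_ne hai, hai]

theorem wOut_nonneg {A : Fin m → ℕ → ℝ} (hA : ∀ a v, 0 ≤ A a v) (a : Fin m) (v : ℕ) :
    0 ≤ wOut i A a v := by
  classical
  unfold wOut
  split_ifs
  · exact zero_le_one
  · exact le_rfl
  · exact hA _ _

theorem sum_wOut_le {A : Fin m → ℕ → ℝ} (hA1 : ∀ a, ∑ v ∈ range (r a + 1), A a v ≤ 1) (a : Fin m) :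
    ∑ v ∈ range (Function.update r i 0 a + 1), wOut i A a v ≤ 1 := by
  classical
  by_cases ha : a = i
  · subst ha
    simp [wOut]
  · simp only [wOut, ha, if_false, Function.update_of_ne ha]
    exact hA1 a

theorem prod_erase_mass {B : Fin m → ℕ → ℝ} (hB0 : ∀ a v, 0 ≤ B a v)
    (hB1 : ∀ a, ∑ v ∈ range (r a + 1), B a v ≤ 1) :
    ∑ x ∈ lev r c0, ∏ a ∈ univ.erase i, B a (x a) ≤ 1 := by
  classical
  let F : (Fin m → ℕ) → ℝ := fun y => ∏ a, wOut i B a (y a)
  have hF : ∀ y, 0 ≤ F y := fun y => Finset.prod_nonneg fun a _ => wOut_nonneg i hB0 a _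
  have h1 : ∑ x ∈ lev r c0, ∏ a ∈ univ.erase i, B a (x a) = ∑ x ∈ lev r c0, F (dropRow i x) :=
    Finset.sum_congr rfl fun x _ => (prod_wOut i B x).symm
  rw [h1]
  refine (sum_lev_le_box i hF).trans ?_
  simp only [F]
  unfold Cap.box
  rw [← Finset.prod_univ_sum (fun a => range (Function.update r i 0 a + 1)) (wOut i B)]
  exact Finset.prod_le_one (fun a _ => Finset.sum_nonneg fun v _ => wOut_nonneg i hB0 a v)
    fun a _ => sum_wOut_le i hB1 a

theorem prod_erase_close {A B : Fin m → ℕ → ℝ} (hA0 : ∀ a v, 0 ≤ A a v) (hB0 : ∀ a v, 0 ≤ B a v)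
    (hA1 : ∀ a, ∑ v ∈ range (r a + 1), A a v ≤ 1) (hB1 : ∀ a, ∑ v ∈ range (r a + 1), B a v ≤ 1)
    {δ : ℝ} (hδ : 0 ≤ δ) (hAB : ∀ a, a ≠ i → ∑ v ∈ range (r a + 1), |A a v - B a v| ≤ δ) :
    ∑ x ∈ lev r c0, |∏ a ∈ univ.erase i, A a (x a) - ∏ a ∈ univ.erase i, B a (x a)| ≤ (m : ℝ) * δ := by
  classical
  let F : (Fin m → ℕ) → ℝ := fun y => |∏ a, wOut i A a (y a) - ∏ a, wOut i B a (y a)|
  have hF : ∀ y, 0 ≤ F y := fun y => abs_nonneg _
  have h1 : ∑ x ∈ lev r c0, |∏ a ∈ univ.erase i, A a (x a) - ∏ a ∈ univ.erase i, B a (x a)|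
      = ∑ x ∈ lev r c0, F (dropRow i x) :=
    Finset.sum_congr rfl fun x _ => by simp only [F]; rw [prod_wOut, prod_wOut]
  rw [h1]
  refine (sum_lev_le_box i hF).trans ?_
  simp only [F]
  unfold Cap.box
  refine (sum_prod_sub_le _ _ _ (wOut_nonneg i hA0) (wOut_nonneg i hB0) (sum_wOut_le i hA1)
    (sum_wOut_le i hB1)).trans ?_
  have h2 : ∀ a ∈ (univ : Finset (Fin m)),
      ∑ v ∈ range (Function.update r i 0 a + 1), |wOut i A a v - wOut i B a v| ≤ δ := by
    intro a _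
    by_cases ha : a = i
    · subst ha
      simp [wOut, hδ]
    · simp only [wOut, ha, if_false, Function.update_of_ne ha]
      exact hAB a ha
  have h3 := Finset.sum_le_card_nsmul _ _ _ h2
  rwa [Finset.card_univ, Fintype.card_fin, nsmul_eq_mul] at h3

/-- **The estimate of the law of a trial.** -/
theorem trial_abs {A B : Fin m → ℕ → ℝ} (hA0 : ∀ a v, 0 ≤ A a v) (hB0 : ∀ a v, 0 ≤ B a v)
    (hA1 : ∀ a, ∑ v ∈ range (r a + 1), A a v ≤ 1) (hB1 : ∀ a, ∑ v ∈ range (r a + 1), B a v ≤ 1)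
    {δ : ℝ} (hδ : 0 ≤ δ) (hAB : ∀ a, a ≠ i → ∑ v ∈ range (r a + 1), |A a v - B a v| ≤ δ)
    {c1 c2 a1 a2 : (Fin m → ℕ) → ℝ} {e1 e2 τ1 τ2 : ℝ}
    (he : 0 ≤ e1 + e2 + τ2)
    (hτ1 : 0 ≤ τ1)
    (hc1 : ∀ x ∈ lev r c0, 0 ≤ c1 x ∧ c1 x ≤ 1) (hc2 : ∀ x ∈ lev r c0, 0 ≤ c2 x ∧ c2 x ≤ 1)
    (ha1 : ∀ x ∈ lev r c0, 0 ≤ a1 x) (ha2 : ∀ x ∈ lev r c0, 0 ≤ a2 x ∧ a2 x ≤ 1)
    (h1 : ∀ x ∈ lev r c0, |c1 x - a1 x| ≤ e1 * a1 x + τ1)
    (h2 : ∀ x ∈ lev r c0, |c2 x - a2 x| ≤ e2 * a2 x + τ2)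
    (he2 : 0 ≤ e2)
    (hmass : ∑ x ∈ lev r c0, (∏ a ∈ univ.erase i, B a (x a)) * a1 x ≤ 1) :
    ∑ x ∈ lev r c0, |(∏ a ∈ univ.erase i, A a (x a)) * c1 x * c2 x
        - (∏ a ∈ univ.erase i, B a (x a)) * a1 x * a2 x|
      ≤ (m : ℝ) * δ + (e1 + e2 + τ2) + τ1 := by
  have hclose := prod_erase_close (c0 := c0) i hA0 hB0 hA1 hB1 hδ hAB
  have hone := prod_erase_mass (c0 := c0) i hB0 hB1
  have hpt : ∀ x ∈ lev r c0, |(∏ a ∈ univ.erase i, A a (x a)) * c1 x * c2 x
        - (∏ a ∈ univ.erase i, B a (x a)) * a1 x * a2 x|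
      ≤ |∏ a ∈ univ.erase i, A a (x a) - ∏ a ∈ univ.erase i, B a (x a)|
        + (e1 + e2 + τ2) * ((∏ a ∈ univ.erase i, B a (x a)) * a1 x)
        + τ1 * ∏ a ∈ univ.erase i, B a (x a) := by
    intro x hx
    set P := ∏ a ∈ univ.erase i, A a (x a) with hP
    set Q := ∏ a ∈ univ.erase i, B a (x a) with hQ
    have hQ0 : 0 ≤ Q := Finset.prod_nonneg fun a _ => hB0 a _
    obtain ⟨c1a, c1b⟩ := hc1 x hx
    obtain ⟨c2a, c2b⟩ := hc2 x hx
    have ha10 := ha1 x hx
    obtain ⟨a2a, a2b⟩ := ha2 x hx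
    have e0 : P * c1 x * c2 x - Q * a1 x * a2 x
        = (P - Q) * (c1 x * c2 x) + Q * ((c1 x - a1 x) * c2 x) + Q * (a1 x * (c2 x - a2 x)) := by ring
    rw [e0]
    have h3 : |(P - Q) * (c1 x * c2 x)| ≤ |P - Q| := by
      rw [abs_mul, abs_of_nonneg (mul_nonneg c1a c2a)]
      have : c1 x * c2 x ≤ 1 := mul_le_one₀ c1b c2a c2b
      exact mul_le_of_le_one_right (abs_nonneg _) this
    have h4 : |Q * ((c1 x - a1 x) * c2 x)| ≤ Q * (e1 * a1 x + τ1) := by
      rw [abs_mul, abs_of_nonneg hQ0, abs_mul, abs_of_nonneg c2a]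
      refine mul_le_mul_of_nonneg_left ?_ hQ0
      calc _ ≤ |c1 x - a1 x| * 1 := mul_le_mul_of_nonneg_left c2b (abs_nonneg _)
        _ ≤ _ := by
          rw [mul_one]
          exact h1 x hx
    have h5 : |Q * (a1 x * (c2 x - a2 x))| ≤ Q * (a1 x * (e2 + τ2)) := by
      rw [abs_mul, abs_of_nonneg hQ0, abs_mul, abs_of_nonneg ha10]
      refine mul_le_mul_of_nonneg_left (mul_le_mul_of_nonneg_left ?_ ha10) hQ0
      have := h2 x hx
      have h6 : e2 * a2 x ≤ e2 * 1 := mul_le_mul_of_nonneg_left a2b he2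
      linarith
    have h6 := abs_add_le ((P - Q) * (c1 x * c2 x) + Q * ((c1 x - a1 x) * c2 x))
      (Q * (a1 x * (c2 x - a2 x)))
    have h7 := abs_add_le ((P - Q) * (c1 x * c2 x)) (Q * ((c1 x - a1 x) * c2 x))
    have e8 : Q * (e1 * a1 x + τ1) + Q * (a1 x * (e2 + τ2))
        = (e1 + e2 + τ2) * (Q * a1 x) + τ1 * Q := by ring
    linarith
  refine (Finset.sum_le_sum hpt).trans ?_
  rw [Finset.sum_add_distrib, Finset.sum_add_distrib, ← Finset.mul_sum, ← Finset.mul_sum]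
  have h8 : (e1 + e2 + τ2) * ∑ x ∈ lev r c0, (∏ a ∈ univ.erase i, B a (x a)) * a1 x ≤ (e1 + e2 + τ2) * 1 :=
    mul_le_mul_of_nonneg_left hmass he
  have h9 : τ1 * ∑ x ∈ lev r c0, ∏ a ∈ univ.erase i, B a (x a) ≤ τ1 * 1 :=
    mul_le_mul_of_nonneg_left hone hτ1
  linarith

end Main

end Vale.Agent.Lib.P328.Bit
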