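import Vale.Agent.Lib.P328.Bit.TrialSpec

/-!
# P328, bit model: the second coin of a trial (module TRIALF-B)

`coinL2_close`: the logarithm computed for the second coin is within `5 / S^30` of the logarithm of `uval t' z / (2 capa t' wt)`.
-/

namespace Vale.Agent.Lib.P328.Bit

open Finset Vale.Agent.Lib.P328.Cap Vale.Agent.Lib.P328.Fpras Vale.Agent.Lib.P328.Samp

namespace TrialP

/-! ### The size of the logarithm of a capacity -/

section Size

variable {S m n : ℕ} {r : Fin m → ℕ} {c : Fin n → ℕ} {tw : Fin n → Fin m → ℤ}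

theorem log_natCast_le (S : ℕ) : Real.log (S : ℝ) ≤ S := by
  have h : (0 : ℝ) ≤ S := Nat.cast_nonneg _
  rcases h.eq_or_lt with h0 | h0
  · rw [← h0]
    simp
  · have := Real.log_le_sub_one_of_pos h0
    linarith

theorem log_rows_abs (hS : 1000000 ≤ S) (hnS : n ≤ S) (hn : 0 < n) (ht : TabRange S (rM S tw))
    {b : Fin n → ℝ} (hb : ∀ j, |b j| ≤ (S : ℝ) ^ 2) (i : Fin m) :
    |Real.log (∑ j, rM S tw j i * Real.exp (b j))| ≤ 2 * (S : ℝ) ^ 2 := by
  have hS0 : (0 : ℝ) < S := by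
    have h : 0 < S := by omega
    exact_mod_cast h
  have hS6 : (1000000 : ℝ) ≤ S := by exact_mod_cast hS
  have hlogS := log_natCast_le S
  have hterm0 : ∀ j, 0 < rM S tw j i := fun j => lt_of_lt_of_le (by positivity) (ht j i).1
  have hlow : (1 / (S : ℝ) ^ 27) * Real.exp (-(S : ℝ) ^ 2) ≤ ∑ j, rM S tw j i * Real.exp (b j) := by
    let j0 : Fin n := ⟨0, hn⟩
    have h1 : rM S tw j0 i * Real.exp (b j0) ≤ ∑ j, rM S tw j i * Real.exp (b j) :=
      Finset.single_le_sum (f := fun j => rM S tw j i * Real.exp (b j))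
        (fun j _ => mul_nonneg (hterm0 j).le (Real.exp_pos _).le) (mem_univ j0)
    refine le_trans ?_ h1
    refine mul_le_mul (ht j0 i).1 (Real.exp_le_exp.2 ?_) (Real.exp_pos _).le (hterm0 j0).le
    have := (abs_le.1 (hb j0)).1
    linarith
  have hup : ∑ j, rM S tw j i * Real.exp (b j) ≤ (S : ℝ) * (2 ^ S * (S : ℝ) ^ 6 * Real.exp ((S : ℝ) ^ 2)) := by
    have h1 : ∀ j ∈ (univ : Finset (Fin n)), rM S tw j i * Real.exp (b j)
        ≤ 2 ^ S * (S : ℝ) ^ 6 * Real.exp ((S : ℝ) ^ 2) := by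
      intro j _
      refine mul_le_mul (ht j i).2 (Real.exp_le_exp.2 ?_) (Real.exp_pos _).le (by positivity)
      exact (abs_le.1 (hb j)).2
    have h2 := Finset.sum_le_card_nsmul _ _ _ h1
    rw [Finset.card_univ, Fintype.card_fin, nsmul_eq_mul] at h2
    refine h2.trans (mul_le_mul_of_nonneg_right ?_ (by positivity))
    exact_mod_cast hnS
  have hpos : 0 < (1 / (S : ℝ) ^ 27) * Real.exp (-(S : ℝ) ^ 2) := by positivity
  have hsumpos := lt_of_lt_of_le hpos hlow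
  have h1 := Real.log_le_log hpos hlow
  have h2 := Real.log_le_log hsumpos hup
  rw [Real.log_mul (by positivity) (by positivity), Real.log_exp, one_div, Real.log_inv, Real.log_pow] at h1
  rw [Real.log_mul (by positivity) (by positivity), Real.log_mul (by positivity) (by positivity),
    Real.log_mul (by positivity) (by positivity), Real.log_exp, Real.log_pow, Real.log_pow] at h2
  have hlog2 := Real.log_two_lt_d9
  have hlog20 : 0 < Real.log 2 := Real.log_pos (by norm_num)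
  have h3 : (S : ℝ) * Real.log 2 ≤ S * 1 := mul_le_mul_of_nonneg_left (by linarith) hS0.le
  have hSS : 100 * (S : ℝ) ≤ (S : ℝ) ^ 2 := by nlinarith
  push_cast at h1 h2
  rw [abs_le]
  constructor
  · linarith
  · linarith

theorem log_capa_abs (h : 10 ^ 6 * ((n : ℝ) * m + 1) ^ 2 ≤ S) (hm : 0 < m) (hn : 0 < n)
    (hsum : ∑ i, r i = ∑ j, c j) (hN : ∑ i, r i < 2 ^ S) (ht : TabRange S (rM S tw)) :
    |Real.log (capa r c (rM S tw)).toReal| ≤ 4 * (S : ℝ) ^ 2 * 2 ^ S := by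
  have hm1 : (1 : ℝ) ≤ m := by exact_mod_cast hm
  have hn1 : (1 : ℝ) ≤ n := by exact_mod_cast hn
  have hX : (1 : ℝ) ≤ (n : ℝ) * m + 1 := by
    have : (0 : ℝ) ≤ (n : ℝ) * m := by positivity
    linarith
  have hnX : (n : ℝ) ≤ (n : ℝ) * m + 1 := by nlinarith
  have hXX : (n : ℝ) * m + 1 ≤ ((n : ℝ) * m + 1) ^ 2 := by nlinarith
  have hnS' : (n : ℝ) ≤ S := by nlinarith
  have hnS : n ≤ S := by exact_mod_cast hnS'
  have hS' : (1000000 : ℝ) ≤ S := by nlinarith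
  have hS : 1000000 ≤ S := by exact_mod_cast hS'
  have hS0 : (0 : ℝ) < S := by linarith
  obtain ⟨β, -, hβ, h1, h2⟩ := betaF_spec h hm hn hsum hN ht
  have hrows := fun i => log_rows_abs (b := fun j => val S (β j)) hS hnS hn ht hβ i
  have hNR : (((∑ i, r i : ℕ)) : ℝ) ≤ 2 ^ S := by exact_mod_cast hN.le
  have hS2 : (0 : ℝ) ≤ (S : ℝ) ^ 2 := by positivity
  have hA : |∑ i, (r i : ℝ) * Real.log (∑ j, rM S tw j i * Real.exp (val S (β j)))|
      ≤ (((∑ i, r i : ℕ)) : ℝ) * (2 * (S : ℝ) ^ 2) := by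
    refine (Finset.abs_sum_le_sum_abs _ _).trans ?_
    rw [Nat.cast_sum, Finset.sum_mul]
    refine Finset.sum_le_sum fun i _ => ?_
    rw [abs_mul, abs_of_nonneg (Nat.cast_nonneg _)]
    exact mul_le_mul_of_nonneg_left (hrows i) (Nat.cast_nonneg _)
  have hB : |∑ j, (c j : ℝ) * val S (β j)| ≤ (((∑ i, r i : ℕ)) : ℝ) * (S : ℝ) ^ 2 := by
    refine (Finset.abs_sum_le_sum_abs _ _).trans ?_
    rw [hsum, Nat.cast_sum, Finset.sum_mul]
    refine Finset.sum_le_sum fun j _ => ?_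
    rw [abs_mul, abs_of_nonneg (Nat.cast_nonneg _)]
    exact mul_le_mul_of_nonneg_left (hβ j) (Nat.cast_nonneg _)
  have hG : |capG r c (rM S tw) (fun j => val S (β j))|
      ≤ (((∑ i, r i : ℕ)) : ℝ) * (2 * (S : ℝ) ^ 2) + (((∑ i, r i : ℕ)) : ℝ) * (S : ℝ) ^ 2 := by
    unfold capG
    refine (abs_sub _ _).trans ?_
    exact add_le_add hA hB
  have hN0 : (0 : ℝ) ≤ ((∑ i, r i : ℕ) : ℝ) := Nat.cast_nonneg _
  have hG1 : (((∑ i, r i : ℕ)) : ℝ) * (2 * (S : ℝ) ^ 2) + (((∑ i, r i : ℕ)) : ℝ) * (S : ℝ) ^ 2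
      ≤ 3 * (S : ℝ) ^ 2 * 2 ^ S := by
    have : (((∑ i, r i : ℕ)) : ℝ) * (S : ℝ) ^ 2 ≤ 2 ^ S * (S : ℝ) ^ 2 :=
      mul_le_mul_of_nonneg_right hNR hS2
    nlinarith
  obtain ⟨h3, h4⟩ := abs_le.1 (hG.trans hG1)
  have hS30 : 1 / (S : ℝ) ^ 30 ≤ 1 := by
    rw [div_le_one (by positivity)]
    exact one_le_pow₀ (by linarith)
  have h5 : (1 : ℝ) ≤ (S : ℝ) ^ 2 * 2 ^ S := by
    have h6 : (1 : ℝ) ≤ (S : ℝ) ^ 2 := one_le_pow₀ (by linarith)
    have h7 : (1 : ℝ) ≤ 2 ^ S := one_le_pow₀ (by norm_num)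
    nlinarith
  rw [abs_le]
  constructor <;> nlinarith

end Size

/-! ### The second coin -/

namespace Pt

variable {S m : ℕ} {r : Fin m → ℕ} {c0 : ℕ} {l : List ℕ} {κ : List (List ℤ)}
  {t : Fin (l.length + 1) → Fin m → ℝ} {tw : Fin (l.length + 1) → Fin m → ℤ}
  {β : Fin (l.length + 1) → ℤ}

/-- The probability of the second coin. -/
noncomputable def a2 (S : ℕ) (r : Fin m → ℕ) (c0 : ℕ) (l : List ℕ) (tw : Fin (l.length + 1) → Fin m → ℤ)
    (β : Fin (l.length + 1) → ℤ) (z : Fin m → ℕ) : ℝ :=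
  uval r l.get (rM S tw) z
    / (2 * (capa r (Fin.cons c0 l.get) (rM S tw)).toReal * wt r (rowP (rM S tw) (bb S β)) z)

/-- The main part of the term of a row in the second coin. -/
noncomputable def tT (S : ℕ) (r : Fin m → ℕ) (tw : Fin (l.length + 1) → Fin m → ℤ)
    (β : Fin (l.length + 1) → ℤ) (z : Fin m → ℕ) (a : Fin m) : ℝ :=
  (z a : ℝ) * (Real.log (rM S tw 0 a) - Real.log (rowP (rM S tw) (bb S β) a))
    - ((r a - z a : ℕ) : ℝ) * Real.log (1 - rowP (rM S tw) (bb S β) a)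

/-- The capacity of the rest. -/
noncomputable def cC (S : ℕ) (r : Fin m → ℕ) (l : List ℕ) (tw : Fin (l.length + 1) → Fin m → ℤ)
    (z : Fin m → ℕ) : ℝ :=
  (capa (fun i => r i - z i) l.get fun j => rM S tw j.succ).toReal

variable (P : Pt S r c0 l κ t tw β)

include P

theorem p_pos (a : Fin m) : 0 < rowP (rM S tw) (bb S β) a :=
  lt_of_lt_of_le (by positivity) (P.pF a).1

theorem q_pos (a : Fin m) : 0 < 1 - rowP (rM S tw) (bb S β) a :=
  lt_of_lt_of_le (by positivity) (P.pF a).2.1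

theorem sum_sub {z : Fin m → ℕ} (hz : z ∈ lev r c0) : ∑ a, (r a - z a) = ∑ j, l.get j := by
  obtain ⟨h1, h2⟩ := mem_lev.1 hz
  have h3 := P.hsum
  have h4 : ∑ a, (r a - z a) + ∑ a, z a = ∑ a, r a := by
    rw [← Finset.sum_add_distrib]
    exact Finset.sum_congr rfl fun a _ => Nat.sub_add_cancel (h1 a)
  omega

theorem sum_sub_lt {z : Fin m → ℕ} (hz : z ∈ lev r c0) : ∑ a, (r a - z a) < 2 ^ S := by
  have h1 : ∑ a, (r a - z a) ≤ ∑ a, r a := Finset.sum_le_sum fun a _ => Nat.sub_le _ _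
  exact lt_of_le_of_lt h1 P.hN

theorem hWc : (10 : ℝ) ^ 6 * ((l.length : ℝ) * m + 1) ^ 2 ≤ S := by
  refine le_trans ?_ P.hW
  have hm : (0 : ℝ) ≤ m := Nat.cast_nonneg _
  have hn : (0 : ℝ) ≤ l.length := Nat.cast_nonneg _
  push_cast
  have h1 : (l.length : ℝ) * m + 1 ≤ ((l.length : ℝ) + 1) * m + 1 := by nlinarith
  have h2 : (0 : ℝ) ≤ (l.length : ℝ) * m + 1 := by positivity
  have h3 := pow_le_pow_left₀ h2 h1 2
  linarith

theorem htrc : TabRange S (rM S fun j : Fin l.length => tw j.succ) := fun j i => P.htr j.succ i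

theorem tail_eq : (nodeT S (xOf r c0 l κ)).tail = lM fun j : Fin l.length => tw j.succ := by
  rw [P.hT]
  unfold lM
  rw [List.ofFn_succ, List.tail_cons]

omit P in
theorem cons_eq : (c0 : ℤ) :: lL l = lN (Fin.cons c0 l.get : Fin (l.length + 1) → ℕ) := by
  rw [lN_cons, lN_get]

/-- The capacity of the node in the second coin. -/
theorem capP_close :
    |val S (logCapF S (lN r) ((c0 : ℤ) :: lL l) (nodeT S (xOf r c0 l κ)))
        - Real.log (capa r (Fin.cons c0 l.get) (rM S tw)).toReal| ≤ 2 / (S : ℝ) ^ 30 := by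
  rw [cons_eq, P.hT]
  exact logCapF_spec P.hok.hW P.hok.hm P.hok.hn P.hok.hsum P.hok.hN P.htr

theorem res_eq {z : Fin m → ℕ} (hz : z ∈ lev r c0) :
    resF S (xOf r c0 l κ) (lN z) = lN fun a => r a - z a := by
  obtain ⟨h1, -⟩ := mem_lev.1 hz
  have hS6 := P.hS
  unfold resF
  show ((idxL S (lN r)).take S).map _ = _
  unfold lN
  rw [map_idx_ofFn P.hmS]
  congr 1
  funext a
  have e2 : getL S (inR (xOf r c0 l κ)) ((a : ℕ) : ℤ) = (r a : ℤ) := getL_lN P.hmS r a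
  have e3 : getL S (List.ofFn fun i => (z i : ℤ)) ((a : ℕ) : ℤ) = (z a : ℤ) := getL_lN P.hmS z a
  rw [e2, e3]
  have hra : r a < 2 ^ S := lt_of_le_of_lt
    (Finset.single_le_sum (f := r) (fun _ _ => Nat.zero_le _) (Finset.mem_univ a)) P.hN
  have hw : (2 : ℤ) ^ S ≤ 2 ^ wid S := pow_le_pow_right₀ (by norm_num) (by
    unfold wid
    exact Nat.le_self_pow (by norm_num) S)
  have hr' : ((r a : ℕ) : ℤ) ≤ 2 ^ S := by exact_mod_cast hra.le
  have hz' : ((z a : ℕ) : ℤ) ≤ (r a : ℤ) := by exact_mod_cast h1 a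
  have hz0 : (0 : ℤ) ≤ (z a : ℤ) := by positivity
  rw [FExpAux.csub_eq hS6 (by rw [abs_of_nonneg (by positivity)]; linarith)
    (by rw [abs_of_nonneg hz0]; linarith)
    (by rw [abs_of_nonneg (by linarith)]; linarith)]
  show _ = ((r a - z a : ℕ) : ℤ)
  rw [Nat.cast_sub (h1 a)]

/-- The capacity of the rest in the second coin. -/
theorem capC_close {z : Fin m → ℕ} (hz : z ∈ lev r c0) :
    |val S (logCapF S (resF S (xOf r c0 l κ) (lN z)) (lL l) (nodeT S (xOf r c0 l κ)).tail)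
        - Real.log (cC S r l tw z)| ≤ 2 / (S : ℝ) ^ 30 := by
  rw [P.res_eq hz, P.tail_eq, ← lN_get]
  exact logCapF_spec P.hWc P.hok.hm P.hl (P.sum_sub hz) (P.sum_sub_lt hz) P.htrc

theorem capP_abs : |Real.log (capa r (Fin.cons c0 l.get) (rM S tw)).toReal| ≤ 4 * (S : ℝ) ^ 2 * 2 ^ S :=
  log_capa_abs P.hok.hW P.hok.hm P.hok.hn P.hok.hsum P.hok.hN P.htr

theorem capC_abs {z : Fin m → ℕ} (hz : z ∈ lev r c0) :
    |Real.log (cC S r l tw z)| ≤ 4 * (S : ℝ) ^ 2 * 2 ^ S :=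
  log_capa_abs (r := fun a => r a - z a) P.hWc P.hok.hm P.hl (P.sum_sub hz) (P.sum_sub_lt hz) P.htrc

theorem cC_pos {z : Fin m → ℕ} (hz : z ∈ lev r c0) : 0 < cC S r l tw z := by
  refine ENNReal.toReal_pos (capa_pos _ _ (P.sum_sub hz) _ fun j i => P.ht' j.succ i).ne'
    (capa_lt_top _ _ _).ne

omit P in
theorem small_big4 (hS : 1000000 ≤ S) : (S : ℝ) ^ 4 * 2 ^ S * 32 ≤ Big S := by
  have h1 := natCast_pow_le_two_pow S 4
  have hf := half_pow_facts hS
  calc (S : ℝ) ^ 4 * 2 ^ S * 32 ≤ 2 ^ (4 * S) * 2 ^ S * 2 ^ 5 := by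
        norm_num
        gcongr
    _ = 2 ^ (4 * S + S + 5) := by simp only [pow_add]
    _ ≤ _ := by
        unfold Big
        apply pow_le_pow_right₀ (by norm_num)
        omega

omit P in
theorem log_half_abs {q : ℝ} {e : ℕ} (h0 : (1 / 2 : ℝ) ^ e ≤ q) (h1 : q ≤ 1) : |Real.log q| ≤ e := by
  have hq : 0 < q := lt_of_lt_of_le (by positivity) h0
  have h7 := Real.log_nonpos hq.le h1
  have h8 := Real.log_le_log (by positivity) h0
  rw [Real.log_pow, one_div, Real.log_inv] at h8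
  have h9 := Real.log_two_lt_d9
  have h10 : 0 < Real.log 2 := Real.log_pos (by norm_num)
  rw [abs_of_nonpos h7]
  have h11 : (e : ℝ) * Real.log 2 ≤ (e : ℝ) * 1 := mul_le_mul_of_nonneg_left (by linarith) (Nat.cast_nonneg _)
  linarith

/-- The logarithm of an entry of the first column. -/
theorem flog_t (a : Fin m) :
    |val S (flog S (tw 0 a)) - Real.log (rM S tw 0 a)| ≤ (1 / 2 : ℝ) ^ (S ^ 4)
      ∧ |Real.log (rM S tw 0 a)| ≤ 27 * (S : ℝ) := by
  have hS6 := P.hS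
  have hS0 := P.S_pos
  have hf := half_pow_facts hS6
  have h0 : 1 / (S : ℝ) ^ 27 ≤ rM S tw 0 a := (P.htr 0 a).1
  have h1 : rM S tw 0 a ≤ 2 ^ S * (S : ℝ) ^ 6 := (P.htr 0 a).2
  have h32 : 1000000 * S ^ 2 ≤ S ^ 3 := by
    have e : S ^ 3 = S * S ^ 2 := by ring
    rw [e]
    exact Nat.mul_le_mul_right _ hS6
  have hlow : (1 / 2 : ℝ) ^ (S ^ 3) ≤ val S (tw 0 a) :=
    (half_mono (a := S ^ 2 / 4) (by omega)).trans ((half_le_inv hS6 (k := 27) (by norm_num)).trans h0)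
  have hup : val S (tw 0 a) ≤ 2 ^ (S ^ 3) := by
    refine h1.trans ?_
    have h6 := natCast_pow_le_two_pow S 6
    calc (2 : ℝ) ^ S * (S : ℝ) ^ 6 ≤ 2 ^ S * 2 ^ (6 * S) := by gcongr
      _ = 2 ^ (S + 6 * S) := by rw [pow_add]
      _ ≤ _ := pow_le_pow_right₀ (by norm_num) (by omega)
  have h2 := flog_spec hS6 hlow hup
  have hlogS := log_natCast_le S
  constructor
  · refine h2.trans (half_mono ?_)
    have h3 := hf.2.1
    have : 0 < S ^ 4 := by positivity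
    omega
  · have hpos : 0 < rM S tw 0 a := P.ht' 0 a
    have h3 := Real.log_le_log (by positivity) h0
    have h4 := Real.log_le_log hpos h1
    rw [one_div, Real.log_inv, Real.log_pow] at h3
    rw [Real.log_mul (by positivity) (by positivity), Real.log_pow, Real.log_pow] at h4
    have hlog2 := Real.log_two_lt_d9
    have h5 : (S : ℝ) * Real.log 2 ≤ S * 1 := mul_le_mul_of_nonneg_left (by linarith) hS0.le
    push_cast at h3 h4
    rw [abs_le]
    constructor <;> linarith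

theorem csub_rz {z : Fin m → ℕ} (hz : z ∈ lev r c0) (a : Fin m) :
    csub S (r a : ℤ) (z a : ℤ) = ((r a - z a : ℕ) : ℤ) := by
  obtain ⟨h1, -⟩ := mem_lev.1 hz
  have hS6 := P.hS
  have hra : r a < 2 ^ S := lt_of_le_of_lt
    (Finset.single_le_sum (f := r) (fun _ _ => Nat.zero_le _) (Finset.mem_univ a)) P.hN
  have hw : (2 : ℤ) ^ S ≤ 2 ^ wid S := pow_le_pow_right₀ (by norm_num) (by
    unfold wid
    exact Nat.le_self_pow (by norm_num) S)
  have hr' : ((r a : ℕ) : ℤ) ≤ 2 ^ S := by exact_mod_cast hra.le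
  have hz' : ((z a : ℕ) : ℤ) ≤ (r a : ℤ) := by exact_mod_cast h1 a
  have hz0 : (0 : ℤ) ≤ (z a : ℤ) := by positivity
  rw [FExpAux.csub_eq hS6 (by rw [abs_of_nonneg (by positivity)]; linarith)
    (by rw [abs_of_nonneg hz0]; linarith)
    (by rw [abs_of_nonneg (by linarith)]; linarith)]
  rw [Nat.cast_sub (h1 a)]

theorem termF_eq {z : Fin m → ℕ} (hz : z ∈ lev r c0) (a : Fin m) :
    termF S (xOf r c0 l κ, lN z) ((a : ℕ) : ℤ)
      = csub S (cmul S (z a : ℤ) (csub S (flog S (tw 0 a)) (flog S (aF S (xOf r c0 l κ) ((a : ℕ) : ℤ)))))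
          (cmul S ((r a - z a : ℕ) : ℤ) (flog S (bF S (xOf r c0 l κ) ((a : ℕ) : ℤ)))) := by
  unfold termF
  simp only
  have e2 : getL S (inR (xOf r c0 l κ)) ((a : ℕ) : ℤ) = (r a : ℤ) := getL_lN P.hmS r a
  have e3 : getL S (lN z) ((a : ℕ) : ℤ) = (z a : ℤ) := getL_lN P.hmS z a
  have e4 : getM S (nodeT S (xOf r c0 l κ)) 0 ((a : ℕ) : ℤ) = tw 0 a := by
    rw [P.hT]
    have h := getM_lM P.hnS P.hmS tw 0 a
    rwa [Fin.val_zero, Nat.cast_zero] at h
  rw [e2, e3, e4, P.csub_rz hz]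

/-- The term of a row. -/
theorem term_close {z : Fin m → ℕ} (hz : z ∈ lev r c0) (a : Fin m) :
    |val S (termF S (xOf r c0 l κ, lN z) ((a : ℕ) : ℤ)) - tT S r tw β z a| ≤ 2 ^ (S + 1) * (1 / 2 : ℝ) ^ (S ^ 4)
      ∧ |val S (termF S (xOf r c0 l κ, lN z) ((a : ℕ) : ℤ))| ≤ 3 * ((S : ℝ) ^ 3 * 2 ^ S) := by
  have hS6 := P.hS
  have hS0 := P.S_pos
  have hf := half_pow_facts hS6
  obtain ⟨hzr, -⟩ := mem_lev.1 hz
  obtain ⟨h1, h2, h3, h4⟩ := P.pF a
  have hp0 := P.p_nonneg a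
  have hp1 := P.p_le_one a
  obtain ⟨hT1, hT2⟩ := P.flog_t a
  have hl1 := flog_close hS6 h1 hp1 h3
  have hl2 := flog_close hS6 h2 (by linarith) h4
  have hb1 := log_half_abs h1 hp1
  have hb2 := log_half_abs h2 (by linarith)
  rw [P.termF_eq hz]
  unfold tT
  set e : ℝ := (1 / 2 : ℝ) ^ (S ^ 4) with he
  have he0 : 0 ≤ e := by positivity
  have he1 : e ≤ 1 := pow_le_one₀ (by norm_num) (by norm_num)
  set A := val S (flog S (tw 0 a)) with hA
  set B := val S (flog S (aF S (xOf r c0 l κ) ((a : ℕ) : ℤ))) with hB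
  set C := val S (flog S (bF S (xOf r c0 l κ) ((a : ℕ) : ℤ))) with hC
  set L0 := Real.log (rM S tw 0 a) with hL0
  set Lp := Real.log (rowP (rM S tw) (bb S β) a) with hLp
  set Lq := Real.log (1 - rowP (rM S tw) (bb S β) a) with hLq
  have hSS1 : (1000000 : ℝ) ≤ S := by exact_mod_cast hS6
  have hS3 : 5 * (S : ℝ) ^ 2 + 27 * (S : ℝ) + 1 ≤ (S : ℝ) ^ 3 := by nlinarith [sq_nonneg (S : ℝ)]
  have hS3' : (0 : ℝ) ≤ (S : ℝ) ^ 3 := by positivity
  have hcast : ((5 * S ^ 2 : ℕ) : ℝ) = 5 * (S : ℝ) ^ 2 := by push_cast; ring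
  rw [hcast] at hb1 hb2
  have hAS : |A| ≤ (S : ℝ) ^ 3 := by
    have h5 := abs_sub_abs_le_abs_sub A L0
    have h6 : (0 : ℝ) ≤ (S : ℝ) ^ 2 := by positivity
    linarith
  have hBS : |B| ≤ (S : ℝ) ^ 3 := by
    have h5 := abs_sub_abs_le_abs_sub B Lp
    have h6 : (0 : ℝ) ≤ (S : ℝ) := hS0.le
    linarith
  have hCS : |C| ≤ (S : ℝ) ^ 3 := by
    have h5 := abs_sub_abs_le_abs_sub C Lq
    have h6 : (0 : ℝ) ≤ (S : ℝ) := hS0.le
    linarith
  have hsb := small_big hS6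
  have h2S : (1 : ℝ) ≤ 2 ^ S := one_le_pow₀ (by norm_num)
  have hX : (S : ℝ) ^ 3 * 2 ^ S * 128 = 128 * ((S : ℝ) ^ 3 * 2 ^ S) := by ring
  have hS32 : (S : ℝ) ^ 3 ≤ (S : ℝ) ^ 3 * 2 ^ S := le_mul_of_one_le_right hS3' h2S
  have hS32' : (2 : ℝ) ^ S ≤ (S : ℝ) ^ 3 * 2 ^ S := by
    have : (1 : ℝ) ≤ (S : ℝ) ^ 3 := by nlinarith
    exact le_mul_of_one_le_left (by positivity) this
  have hY0 : (0 : ℝ) ≤ (S : ℝ) ^ 3 * 2 ^ S := by positivity
  have hAB : |A| ≤ Big S := by linarith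
  have hBB : |B| ≤ Big S := by linarith
  have hCB : |C| ≤ Big S := by linarith
  have e1 := val_sub hS6 hAB hBB
  rw [← hA, ← hB] at e1
  set W := csub S (flog S (tw 0 a)) (flog S (aF S (xOf r c0 l κ) ((a : ℕ) : ℤ))) with hW
  have hABd : |A - B| ≤ 2 * (S : ℝ) ^ 3 := by
    refine (abs_sub _ _).trans ?_
    linarith
  have hWB : |val S W| ≤ Big S := by
    rw [e1]
    linarith
  have hra : (r a : ℝ) ≤ 2 ^ S := by
    have h5 : r a ≤ ∑ k, r k := Finset.single_le_sum (f := r) (fun _ _ => Nat.zero_le _) (Finset.mem_univ a)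
    have h6 := P.hN
    have h7 : r a ≤ 2 ^ S := by omega
    exact_mod_cast h7
  have hza : (z a : ℝ) ≤ r a := by exact_mod_cast hzr a
  have hrz : ((r a - z a : ℕ) : ℝ) = (r a : ℝ) - z a := by
    rw [Nat.cast_sub (hzr a)]
  have hz0 : (0 : ℝ) ≤ z a := Nat.cast_nonneg _
  have hzB : |(((z a : ℕ) : ℤ) : ℝ)| ≤ Big S := by
    push_cast
    rw [abs_of_nonneg hz0]
    linarith
  have hrzB : |(((r a - z a : ℕ) : ℤ) : ℝ)| ≤ Big S := by
    push_cast
    rw [hrz, abs_of_nonneg (by linarith)]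
    linarith
  have hzW : |(((z a : ℕ) : ℤ) : ℝ) * val S W| ≤ 2 * ((S : ℝ) ^ 3 * 2 ^ S) := by
    push_cast
    rw [abs_mul, abs_of_nonneg hz0, e1]
    calc (z a : ℝ) * |A - B| ≤ 2 ^ S * (2 * (S : ℝ) ^ 3) :=
          mul_le_mul (by linarith) hABd (abs_nonneg _) (by positivity)
      _ = _ := by ring
  have hrzC : |(((r a - z a : ℕ) : ℤ) : ℝ) * C| ≤ (S : ℝ) ^ 3 * 2 ^ S := by
    push_cast
    rw [abs_mul, hrz, abs_of_nonneg (by linarith)]
    calc ((r a : ℝ) - z a) * |C| ≤ 2 ^ S * (S : ℝ) ^ 3 :=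
          mul_le_mul (by linarith) hCS (abs_nonneg _) (by positivity)
      _ = _ := by ring
  have e2 := val_cmul' hS6 hzB hWB (hzW.trans (by linarith))
  have e3 := val_cmul' hS6 hrzB hCB (hrzC.trans (by linarith))
  have hV1 : |val S (cmul S (z a : ℤ) W)| ≤ Big S := by
    rw [e2]
    linarith
  have hV2 : |val S (cmul S ((r a - z a : ℕ) : ℤ) (flog S (bF S (xOf r c0 l κ) ((a : ℕ) : ℤ))))| ≤ Big S := by
    rw [e3]
    linarith
  have e4 := val_sub hS6 hV1 hV2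
  rw [e2, e3, e1] at e4
  rw [e4]
  push_cast
  rw [hrz]
  constructor
  · have e5 : (z a : ℝ) * (A - B) - ((r a : ℝ) - z a) * C - ((z a : ℝ) * (L0 - Lp) - ((r a : ℝ) - z a) * Lq)
        = (z a : ℝ) * ((A - L0) - (B - Lp)) - ((r a : ℝ) - z a) * (C - Lq) := by ring
    rw [e5]
    refine (abs_sub _ _).trans ?_
    rw [abs_mul, abs_mul, abs_of_nonneg hz0, abs_of_nonneg (show (0 : ℝ) ≤ (r a : ℝ) - z a by linarith)]
    have h5 : |(A - L0) - (B - Lp)| ≤ 2 * e := by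
      refine (abs_sub _ _).trans ?_
      linarith
    have h6 : (z a : ℝ) * |(A - L0) - (B - Lp)| ≤ (z a : ℝ) * (2 * e) :=
      mul_le_mul_of_nonneg_left h5 hz0
    have h7 : ((r a : ℝ) - z a) * |C - Lq| ≤ ((r a : ℝ) - z a) * (2 * e) :=
      mul_le_mul_of_nonneg_left (by linarith) (by linarith)
    have h8 : (r a : ℝ) * (2 * e) ≤ 2 ^ S * (2 * e) := mul_le_mul_of_nonneg_right hra (by positivity)
    have e6 : (2 : ℝ) ^ (S + 1) * e = 2 ^ S * (2 * e) := by
      rw [pow_succ]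
      ring
    rw [e6]
    linarith
  · push_cast at hzW hrzC
    rw [hrz] at hrzC
    rw [e1] at hzW
    show |(z a : ℝ) * (A - B) - ((r a : ℝ) - z a) * C| ≤ _
    refine (abs_sub _ _).trans ?_
    linarith

theorem choose_pos' {z : Fin m → ℕ} (hz : z ∈ lev r c0) (a : Fin m) : (0 : ℝ) < ((r a).choose (z a) : ℝ) := by
  exact_mod_cast Nat.choose_pos ((mem_lev.1 hz).1 a)

theorem wt_pos' {z : Fin m → ℕ} (hz : z ∈ lev r c0) : 0 < wt r (rowP (rM S tw) (bb S β)) z := by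
  unfold wt
  refine Finset.prod_pos fun a _ => ?_
  unfold bw
  have h1 := P.choose_pos' hz a
  have h2 := P.p_pos a
  have h3 := P.q_pos a
  positivity

theorem U_pos {z : Fin m → ℕ} (hz : z ∈ lev r c0) :
    0 < ∏ a, ((r a).choose (z a) : ℝ) * rM S tw 0 a ^ z a :=
  Finset.prod_pos fun a _ => mul_pos (P.choose_pos' hz a) (pow_pos (P.ht' 0 a) _)

theorem a2_pos {z : Fin m → ℕ} (hz : z ∈ lev r c0) : 0 < a2 S r c0 l tw β z := by
  unfold a2 uval
  have h1 := P.U_pos hz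
  have h2 := P.cC_pos hz
  have h3 := P.wt_pos' hz
  have h4 := P.capa_t'_pos
  unfold cC at h2
  positivity

theorem a2_le_one {z : Fin m → ℕ} (hz : z ∈ lev r c0) : a2 S r c0 l tw β z ≤ 1 := by
  unfold a2
  have h3 := P.wt_pos' hz
  have h4 := P.capa_t'_pos
  have h5 := uval_le r c0 l.get (rM S tw) (bb S β) P.ht' (fun j => bb_pos j) hz
  have h6 := P.phi_t'_le
  have h7 := P.exp_small
  have hS1 : (1 : ℝ) ≤ S := by
    have := P.hS
    have h : 1 ≤ S := by omega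
    exact_mod_cast h
  have h8 : 2 / (S : ℝ) ^ 30 ≤ 1 := by
    have h9 : (1000000 : ℝ) ≤ S := by exact_mod_cast P.hS
    have h10 : (S : ℝ) ≤ (S : ℝ) ^ 30 := le_self_pow₀ hS1 (by norm_num)
    rw [div_le_one (by positivity)]
    linarith
  rw [div_le_one (by positivity)]
  have h9 : Phi r (Fin.cons c0 l.get) (rM S tw) (bb S β) ≤ 2 * (capa r (Fin.cons c0 l.get) (rM S tw)).toReal := by
    refine h6.trans (mul_le_mul_of_nonneg_right (by linarith) h4.le)
  exact h5.trans (mul_le_mul_of_nonneg_right h9 h3.le)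

/-- The logarithm of the probability of the second coin. -/
theorem log_a2 {z : Fin m → ℕ} (hz : z ∈ lev r c0) :
    Real.log (a2 S r c0 l tw β z)
      = ∑ a, tT S r tw β z a + Real.log (cC S r l tw z)
        - Real.log (capa r (Fin.cons c0 l.get) (rM S tw)).toReal - Real.log 2 := by
  have h1 := P.U_pos hz
  have h2 := P.cC_pos hz
  have h3 := P.wt_pos' hz
  have h4 := P.capa_t'_pos
  obtain ⟨hzr, -⟩ := mem_lev.1 hz
  have hU : Real.log (∏ a, ((r a).choose (z a) : ℝ) * rM S tw 0 a ^ z a)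
      = ∑ a, (Real.log ((r a).choose (z a) : ℝ) + (z a : ℝ) * Real.log (rM S tw 0 a)) := by
    rw [Real.log_prod (fun a _ => (mul_pos (P.choose_pos' hz a) (pow_pos (P.ht' 0 a) _)).ne')]
    refine Finset.sum_congr rfl fun a _ => ?_
    rw [Real.log_mul (P.choose_pos' hz a).ne' (pow_pos (P.ht' 0 a) _).ne', Real.log_pow]
  have hW : Real.log (wt r (rowP (rM S tw) (bb S β)) z)
      = ∑ a, (Real.log ((r a).choose (z a) : ℝ) + (z a : ℝ) * Real.log (rowP (rM S tw) (bb S β) a)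
          + ((r a - z a : ℕ) : ℝ) * Real.log (1 - rowP (rM S tw) (bb S β) a)) := by
    unfold wt
    have hb : ∀ a, 0 < bw (r a) (rowP (rM S tw) (bb S β) a) (z a) := by
      intro a
      unfold bw
      have h1 := P.choose_pos' hz a
      have h2 := P.p_pos a
      have h3 := P.q_pos a
      positivity
    rw [Real.log_prod (fun a _ => (hb a).ne')]
    refine Finset.sum_congr rfl fun a _ => ?_
    unfold bw
    have h5 := P.p_pos a
    have h6 := P.q_pos a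
    rw [Real.log_mul (mul_pos (P.choose_pos' hz a) (pow_pos h5 _)).ne' (pow_pos h6 _).ne',
      Real.log_mul (P.choose_pos' hz a).ne' (pow_pos h5 _).ne', Real.log_pow, Real.log_pow]
  have hT : ∑ a, tT S r tw β z a
      = Real.log (∏ a, ((r a).choose (z a) : ℝ) * rM S tw 0 a ^ z a)
        - Real.log (wt r (rowP (rM S tw) (bb S β)) z) := by
    rw [hU, hW, ← Finset.sum_sub_distrib]
    refine Finset.sum_congr rfl fun a _ => ?_
    unfold tT
    ring
  rw [hT]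
  unfold a2 uval
  have h2' : 0 < (capa (fun i => r i - z i) l.get fun j => rM S tw j.succ).toReal := h2
  rw [Real.log_div (by positivity) (by positivity), Real.log_mul h1.ne' h2'.ne',
    Real.log_mul (by positivity) h3.ne', Real.log_mul (by norm_num) h4.ne']
  unfold cC
  ring

omit P in
theorem flog_two (hS : 1000000 ≤ S) :
    |val S (flog S (fint S (cadd S 1 1))) - Real.log 2| ≤ (1 / 2 : ℝ) ^ (S ^ 5 / 4) := by
  have hc2 : cadd S 1 1 = 2 := by
    unfold cadd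
    rw [TrialP.clamp_one]
    have h2 : (2 : ℤ) ^ 1 ≤ 2 ^ wid S := pow_le_pow_right₀ (by norm_num) (by
      unfold wid
      have : 0 < S ^ 6 := by positivity
      omega)
    exact clamp_eq hS (by norm_num; linarith)
  rw [hc2]
  have hsb := big_ge hS
  have h1 : (1 : ℝ) ≤ 2 ^ S := one_le_pow₀ (by norm_num)
  have e8 : (2 : ℝ) ^ (S + 3) = 2 ^ S * 8 := by
    rw [pow_add]
    norm_num
  have hv : val S (fint S 2) = 2 := by
    have := val_fint hS (n := 2) (by norm_num; linarith)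
    simpa using this
  have hf := flog_spec hS (x := fint S 2) (by
      rw [hv]
      have : (1 / 2 : ℝ) ^ (S ^ 3) ≤ 1 := pow_le_one₀ (by norm_num) (by norm_num)
      linarith) (by
      rw [hv]
      have : (2 : ℝ) ^ 1 ≤ 2 ^ (S ^ 3) := pow_le_pow_right₀ (by norm_num) (by
        have : 0 < S ^ 3 := by positivity
        omega)
      simpa using this)
  rwa [hv] at hf

/-- **The second coin.** -/
theorem coinL2_close {z : Fin m → ℕ} (hz : z ∈ lev r c0) :
    |val S (coinL2 S (xOf r c0 l κ, lN z)) - Real.log (a2 S r c0 l tw β z)| ≤ 5 / (S : ℝ) ^ 30 := by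
  have hS6 := P.hS
  have hS0 := P.S_pos
  have hf := half_pow_facts hS6
  have hS1 : (1 : ℝ) ≤ S := by
    have h : 1 ≤ S := by omega
    exact_mod_cast h
  have h2S : (1 : ℝ) ≤ 2 ^ S := one_le_pow₀ (by norm_num)
  set Y : ℝ := (S : ℝ) ^ 4 * 2 ^ S with hY
  have hY0 : 0 < Y := by positivity
  have hYB : 32 * Y ≤ Big S := by
    have := small_big4 hS6
    rw [hY]
    linarith
  have hS24 : (S : ℝ) ^ 2 ≤ (S : ℝ) ^ 4 := pow_le_pow_right₀ hS1 (by norm_num)
  have hS34 : (S : ℝ) ^ 3 ≤ (S : ℝ) ^ 4 := pow_le_pow_right₀ hS1 (by norm_num)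
  have hY1 : 1 ≤ Y := by
    have : (1 : ℝ) ≤ (S : ℝ) ^ 4 := one_le_pow₀ hS1
    rw [hY]
    nlinarith
  have hY2 : 4 * (S : ℝ) ^ 2 * 2 ^ S ≤ 4 * Y := by
    rw [hY]
    have : (S : ℝ) ^ 2 * 2 ^ S ≤ (S : ℝ) ^ 4 * 2 ^ S := mul_le_mul_of_nonneg_right hS24 (by positivity)
    linarith
  have hS30 : 2 / (S : ℝ) ^ 30 ≤ 1 := by
    have h9 : (1000000 : ℝ) ≤ S := by exact_mod_cast hS6
    have h10 : (S : ℝ) ≤ (S : ℝ) ^ 30 := le_self_pow₀ hS1 (by norm_num)
    rw [div_le_one (by positivity)]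
    linarith
  -- the terms
  set tm : Fin m → ℤ := fun a => termF S (xOf r c0 l κ, lN z) ((a : ℕ) : ℤ) with htm
  have hmS : (m : ℝ) ≤ S := by exact_mod_cast P.hmS
  have hm0 : (0 : ℝ) ≤ m := Nat.cast_nonneg _
  have hT := fun a => P.term_close (β := β) hz a
  have hS3Y : 3 * ((S : ℝ) ^ 3 * 2 ^ S) ≥ 0 := by positivity
  have hkB : (m : ℝ) * (3 * ((S : ℝ) ^ 3 * 2 ^ S)) ≤ 3 * Y := by
    calc (m : ℝ) * (3 * ((S : ℝ) ^ 3 * 2 ^ S)) ≤ S * (3 * ((S : ℝ) ^ 3 * 2 ^ S)) :=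
          mul_le_mul_of_nonneg_right hmS hS3Y
      _ = 3 * Y := by
          rw [hY]
          ring
  have hsum := sumL_ofFn_val hS6 P.hmS tm hS3Y (fun a => (hT a).2) (hkB.trans (by linarith))
  have hsumB : |∑ a, val S (tm a)| ≤ 3 * Y := by
    refine (Finset.abs_sum_le_sum_abs _ _).trans ?_
    refine le_trans ?_ hkB
    have h1 := Finset.sum_le_card_nsmul (univ : Finset (Fin m)) (fun a => |val S (tm a)|)
      (3 * ((S : ℝ) ^ 3 * 2 ^ S)) (fun a _ => (hT a).2)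
    rwa [Finset.card_univ, Fintype.card_fin, nsmul_eq_mul] at h1
  set e : ℝ := (1 / 2 : ℝ) ^ (S ^ 4) with he
  have hsumC : |∑ a, val S (tm a) - ∑ a, tT S r tw β z a| ≤ (m : ℝ) * (2 ^ (S + 1) * e) := by
    rw [← Finset.sum_sub_distrib]
    refine (Finset.abs_sum_le_sum_abs _ _).trans ?_
    have h1 := Finset.sum_le_card_nsmul (univ : Finset (Fin m)) (fun a => |val S (tm a) - tT S r tw β z a|)
      (2 ^ (S + 1) * e) (fun a _ => (hT a).1)
    rwa [Finset.card_univ, Fintype.card_fin, nsmul_eq_mul] at h1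
  -- the capacities
  have hC := P.capC_close hz
  have hCa := P.capC_abs hz
  have hP := P.capP_close
  have hPa := P.capP_abs
  have hTw := flog_two hS6
  have hlog2 := Real.log_two_lt_d9
  have hlog20 : 0 < Real.log 2 := Real.log_pos (by norm_num)
  have he5 : (1 / 2 : ℝ) ^ (S ^ 5 / 4) ≤ 1 := pow_le_one₀ (by norm_num) (by norm_num)
  rw [P.log_a2 hz]
  set LC := logCapF S (resF S (xOf r c0 l κ) (lN z)) (lL l) (nodeT S (xOf r c0 l κ)).tail with hLC
  set LP := logCapF S (lN r) ((c0 : ℤ) :: lL l) (nodeT S (xOf r c0 l κ)) with hLP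
  set LT := flog S (fint S (cadd S 1 1)) with hLT
  set lC := Real.log (cC S r l tw z) with hlC
  set lP := Real.log (capa r (Fin.cons c0 l.get) (rM S tw)).toReal with hlP
  have hLCB : |val S LC| ≤ 5 * Y := by
    have h1 := abs_sub_abs_le_abs_sub (val S LC) lC
    linarith
  have hLPB : |val S LP| ≤ 5 * Y := by
    have h1 := abs_sub_abs_le_abs_sub (val S LP) lP
    linarith
  have hLTB : |val S LT| ≤ 2 * Y := by
    have h1 := abs_sub_abs_le_abs_sub (val S LT) (Real.log 2)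
    rw [abs_of_pos hlog20] at h1
    linarith
  have e0 : ((idxL S (inR (xOf r c0 l κ))).take S).map (fun j => termF S (xOf r c0 l κ, lN z) j)
      = List.ofFn tm := by
    show ((idxL S (lN r)).take S).map _ = _
    unfold lN
    exact map_idx_ofFn P.hmS _ _
  have e1 : coinL2 S (xOf r c0 l κ, lN z) = csub S (csub S (cadd S (sumL S (List.ofFn tm)) LC) LP) LT := by
    rw [← e0]
    rfl
  rw [e1]
  have hA : |val S (sumL S (List.ofFn tm))| ≤ Big S := by
    rw [hsum]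
    linarith
  have hB1 : |val S LC| ≤ Big S := by linarith
  have hB2 : |val S LP| ≤ Big S := by linarith
  have hB3 : |val S LT| ≤ Big S := by linarith
  have v1 := val_add hS6 hA hB1
  have hA1 : |val S (cadd S (sumL S (List.ofFn tm)) LC)| ≤ Big S := by
    rw [v1, hsum]
    refine (abs_add_le _ _).trans ?_
    linarith
  have v2 := val_sub hS6 hA1 hB2
  have hA2 : |val S (csub S (cadd S (sumL S (List.ofFn tm)) LC) LP)| ≤ Big S := by
    rw [v2, v1, hsum]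
    refine (abs_sub _ _).trans ?_
    have h1 := abs_add_le (∑ a, val S (tm a)) (val S LC)
    linarith
  have v3 := val_sub hS6 hA2 hB3
  rw [v3, v2, v1, hsum]
  -- the tiny errors
  have h32 : S ^ 2 ≤ S ^ 4 := Nat.pow_le_pow_right (by omega) (by norm_num)
  have hfS := hf.2.2.2.2.1
  have hte : (m : ℝ) * (2 ^ (S + 1) * e) ≤ (1 / 2 : ℝ) ^ (S ^ 2 / 4) := by
    have h1 := natCast_le_two_pow S
    have h3 : (m : ℝ) * (2 ^ (S + 1) * e) ≤ 2 ^ S * (2 ^ (S + 1) * e) :=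
      mul_le_mul_of_nonneg_right (hmS.trans h1) (by positivity)
    refine h3.trans ?_
    rw [← mul_assoc, ← pow_add]
    exact two_pow_mul_half_pow (by omega)
  have hte5 : (1 / 2 : ℝ) ^ (S ^ 5 / 4) ≤ (1 / 2 : ℝ) ^ (S ^ 2 / 4) := half_mono (by
    have := hf.2.1
    omega)
  have hinv := half_le_inv hS6 (k := 31) (by norm_num)
  have hinv2 : 2 * (1 / (S : ℝ) ^ 31) ≤ 1 / (S : ℝ) ^ 30 := by
    have h9 : (2 : ℝ) ≤ S := by
      have : (1000000 : ℝ) ≤ S := by exact_mod_cast hS6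
      linarith
    rw [mul_one_div, div_le_div_iff₀ (by positivity) (by positivity)]
    have e2 : 1 * (S : ℝ) ^ 31 = (S : ℝ) ^ 30 * S := by ring
    rw [e2, mul_comm]
    exact mul_le_mul_of_nonneg_left h9 (by positivity)
  have e5 : 5 / (S : ℝ) ^ 30 = 2 / (S : ℝ) ^ 30 + 2 / (S : ℝ) ^ 30 + 1 / (S : ℝ) ^ 30 := by ring
  have e6 : ∑ a, val S (tm a) + val S LC - val S LP - val S LT
      - (∑ a, tT S r tw β z a + lC - lP - Real.log 2)
      = (∑ a, val S (tm a) - ∑ a, tT S r tw β z a) + (val S LC - lC) - (val S LP - lP)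
        - (val S LT - Real.log 2) := by ring
  rw [e6]
  have h7 := abs_sub ((∑ a, val S (tm a) - ∑ a, tT S r tw β z a) + (val S LC - lC) - (val S LP - lP))
    (val S LT - Real.log 2)
  have h8 := abs_sub ((∑ a, val S (tm a) - ∑ a, tT S r tw β z a) + (val S LC - lC)) (val S LP - lP)
  have h9 := abs_add_le (∑ a, val S (tm a) - ∑ a, tT S r tw β z a) (val S LC - lC)
  linarith

end Pt

end TrialP

end Vale.Agent.Lib.P328.Bit
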