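import Vale.Agent.Lib.P328.Bit.TrialCoin

/-!
# P328, bit model: the law of one trial at a good point, the end (module TRIALF-B)

`p3`: the estimate of the law of a trial; `trialF_spec`.
-/

namespace Vale.Agent.Lib.P328.Bit

open Finset Vale.Agent.Lib.P328.Cap Vale.Agent.Lib.P328.Fpras Vale.Agent.Lib.P328.Samp

namespace TrialP

theorem pmf_sum_le' (p : PMF ℤ) (s : Finset ℕ) : ∑ v ∈ s, (p (v : ℤ)).toReal ≤ 1 := by
  classical
  have h1 : ∑ v ∈ s, p (v : ℤ) = ∑ w ∈ s.image (fun v : ℕ => (v : ℤ)), p w :=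
    (Finset.sum_image fun a _ b _ h => Int.ofNat.inj h).symm
  have h2 : ∑ v ∈ s, p (v : ℤ) ≤ 1 := by
    rw [h1]
    calc _ ≤ ∑' w, p w := ENNReal.sum_le_tsum _
      _ = 1 := p.tsum_coe
  have h3 : ∑ v ∈ s, p (v : ℤ) ≠ ⊤ := (lt_of_le_of_lt h2 ENNReal.one_lt_top).ne
  have h4 : ∑ v ∈ s, (p (v : ℤ)).toReal = (∑ v ∈ s, p (v : ℤ)).toReal := by
    rw [ENNReal.toReal_sum]
    intro v hv
    exact (lt_of_le_of_lt (p.coe_le_one _) ENNReal.one_lt_top).ne
  rw [h4]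
  exact ENNReal.toReal_le_of_le_ofReal zero_le_one (by simpa using h2)

theorem pmf_toReal_le_one {β : Type} (p : PMF β) (x : β) : (p x).toReal ≤ 1 :=
  ENNReal.toReal_le_of_le_ofReal zero_le_one (by simpa using p.coe_le_one x)

theorem coin_close {S : ℕ} (hS : 1000000 ≤ S) {a η : ℝ} {L : ℤ} (ha0 : 0 < a) (ha1 : a ≤ 1) (hη0 : 0 ≤ η)
    (hη1 : η ≤ 1) (h : |val S L - Real.log a| ≤ η) :
    |(coinExpF S L 1).toReal - a| ≤ 2 * η * a + 2 * (1 / 2 : ℝ) ^ (S ^ 2) := by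
  have h1 := coinExpF_spec hS L
  have h2 := min_exp_close ha0 ha1 hη0 hη1 h
  have h3 := abs_sub_le (coinExpF S L 1).toReal (min 1 (Real.exp (val S L))) a
  linarith

namespace Pt

variable {S m : ℕ} {r : Fin m → ℕ} {c0 : ℕ} {l : List ℕ} {κ : List (List ℤ)}
  {t : Fin (l.length + 1) → Fin m → ℝ} {tw : Fin (l.length + 1) → Fin m → ℤ}
  {β : Fin (l.length + 1) → ℤ}

variable (P : Pt S r c0 l κ t tw β)

include P

theorem numbers :
    (m : ℝ) * (1 / (S : ℝ) ^ 26) + (2 * (5 / (S : ℝ) ^ 42) + 2 * (5 / (S : ℝ) ^ 30) + 2 * (1 / 2 : ℝ) ^ (S ^ 2))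
        + 2 * (1 / 2 : ℝ) ^ (S ^ 2) + 3 * (1 / 2 : ℝ) ^ (S ^ 2 / 4) ≤ 1 / (S : ℝ) ^ 24 := by
  have hS6 := P.hS
  have hS0 := P.S_pos
  have hSS : (1000000 : ℝ) ≤ S := by exact_mod_cast hS6
  have hS1 : (1 : ℝ) ≤ S := by linarith
  have hmS : (m : ℝ) ≤ S := by exact_mod_cast P.hmS
  set w : ℝ := 1 / (S : ℝ) ^ 25 with hw
  have hw0 : 0 < w := by positivity
  have h1 : (m : ℝ) * (1 / (S : ℝ) ^ 26) ≤ w := by
    have e : w = (S : ℝ) * (1 / (S : ℝ) ^ 26) := by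
      rw [hw]
      field_simp
    rw [e]
    exact mul_le_mul_of_nonneg_right hmS (by positivity)
  have h2 : 2 * (5 / (S : ℝ) ^ 42) ≤ w / 8 := by
    have e : 2 * (5 / (S : ℝ) ^ 42) = w * (10 / (S : ℝ) ^ 17) := by
      rw [hw]
      field_simp
      ring
    have h3 : (S : ℝ) ≤ (S : ℝ) ^ 17 := le_self_pow₀ hS1 (by norm_num)
    have h4 : (10 : ℝ) / (S : ℝ) ^ 17 ≤ 1 / 8 := by
      rw [div_le_div_iff₀ (by positivity) (by norm_num)]
      linarith
    rw [e]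
    calc w * (10 / (S : ℝ) ^ 17) ≤ w * (1 / 8) := mul_le_mul_of_nonneg_left h4 hw0.le
      _ = w / 8 := by ring
  have h3 : 2 * (5 / (S : ℝ) ^ 30) ≤ w / 8 := by
    have e : 2 * (5 / (S : ℝ) ^ 30) = w * (10 / (S : ℝ) ^ 5) := by
      rw [hw]
      field_simp
      ring
    have h3 : (S : ℝ) ≤ (S : ℝ) ^ 5 := le_self_pow₀ hS1 (by norm_num)
    have h4 : (10 : ℝ) / (S : ℝ) ^ 5 ≤ 1 / 8 := by
      rw [div_le_div_iff₀ (by positivity) (by norm_num)]
      linarith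
    rw [e]
    calc w * (10 / (S : ℝ) ^ 5) ≤ w * (1 / 8) := mul_le_mul_of_nonneg_left h4 hw0.le
      _ = w / 8 := by ring
  have h4 : (1 / 2 : ℝ) ^ (S ^ 2 / 4) ≤ w / 64 := by
    refine (half_le_inv hS6 (k := 26) (by norm_num)).trans ?_
    have e : 1 / (S : ℝ) ^ 26 = w * (1 / (S : ℝ)) := by
      rw [hw]
      field_simp
    have h4 : (1 : ℝ) / (S : ℝ) ≤ 1 / 64 := by
      rw [div_le_div_iff₀ hS0 (by norm_num)]
      linarith
    rw [e]
    calc w * (1 / (S : ℝ)) ≤ w * (1 / 64) := mul_le_mul_of_nonneg_left h4 hw0.le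
      _ = w / 64 := by ring
  have h5 : (1 / 2 : ℝ) ^ (S ^ 2) ≤ (1 / 2 : ℝ) ^ (S ^ 2 / 4) := half_mono (Nat.div_le_self _ _)
  have h6 : 2 * w ≤ 1 / (S : ℝ) ^ 24 := by
    have e : 1 / (S : ℝ) ^ 24 = (S : ℝ) * w := by
      rw [hw]
      field_simp
    rw [e]
    exact mul_le_mul_of_nonneg_right (by linarith) hw0.le
  linarith

/-- **The law of a trial that goes on.** -/
theorem p3 (hp : 0 < passF S (xOf r c0 l κ)) :
    ∑ z ∈ lev r c0, |(trialF S (xOf r c0 l κ) (lN z)).toReal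
        - (parS S).K m l.length c0 * uval r l.get t z / (2 * (capa r (Fin.cons c0 l.get) t).toReal)|
      ≤ 1 / (S : ℝ) ^ 24 := by
  classical
  have hS6 := P.hS
  have hS0 := P.S_pos
  have hf := half_pow_facts hS6
  have hS1 : (1 : ℝ) ≤ S := by
    have h : 1 ≤ S := by omega
    exact_mod_cast h
  obtain ⟨i, hidx, hV', hV⟩ := P.pass_spec hp
  set x := xOf r c0 l κ with hx
  set p := rowP (rM S tw) (bb S β) with hp'
  have hp0 : ∀ a, 0 ≤ p a := P.p_nonneg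
  have hp1 : ∀ a, p a ≤ 1 := P.p_le_one
  let A : Fin m → ℕ → ℝ := fun a v => (binF S ((r a : ℤ), aF S x ((a : ℕ) : ℤ), bF S x ((a : ℕ) : ℤ)) (v : ℤ)).toReal
  let B : Fin m → ℕ → ℝ := fun a v => bw (r a) (p a) v
  let c1 : (Fin m → ℕ) → ℝ := fun z => (coinExpF S (coinL1 S (x, lN z)) 1).toReal
  let c2 : (Fin m → ℕ) → ℝ := fun z => (coinExpF S (coinL2 S (x, lN z)) 1).toReal
  let a1 : (Fin m → ℕ) → ℝ := fun z => (parS S).K m l.length c0 * bw (r i) (p i) (z i)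
  let a2' : (Fin m → ℕ) → ℝ := fun z => a2 S r c0 l tw β z
  have hK0 := P.K_pos
  have hA0 : ∀ a v, 0 ≤ A a v := fun a v => ENNReal.toReal_nonneg
  have hB0 : ∀ a v, 0 ≤ B a v := fun a v => bw_nonneg (hp0 a) (hp1 a) v
  have hA1 : ∀ a, ∑ v ∈ range (r a + 1), A a v ≤ 1 := fun a => pmf_sum_le' _ _
  have hB1 : ∀ a, ∑ v ∈ range (r a + 1), B a v ≤ 1 := fun a => by
    show ∑ v ∈ range (r a + 1), bw (r a) (p a) v ≤ 1
    rw [sum_bw]
  have hδ : (0 : ℝ) ≤ 1 / (S : ℝ) ^ 26 := by positivity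
  have hAB : ∀ a, a ≠ i → ∑ v ∈ range (r a + 1), |A a v - B a v| ≤ 1 / (S : ℝ) ^ 26 := by
    intro a _
    obtain ⟨h1, h2, h3, h4⟩ := P.pF a
    have hRr : r a < 2 ^ S := lt_of_le_of_lt
      (Finset.single_le_sum (f := r) (fun _ _ => Nat.zero_le _) (Finset.mem_univ a)) P.hN
    have h32 : 1000000 * S ^ 2 ≤ S ^ 3 := by
      have e : S ^ 3 = S * S ^ 2 := by ring
      rw [e]
      exact Nat.mul_le_mul_right _ hS6
    have h2S : 2 * (1 / 2 : ℝ) ^ (S ^ 3) ≤ (1 / 2 : ℝ) ^ (5 * S ^ 2) := by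
      have := two_pow_mul_half_pow (a := 1) (b := S ^ 3) (c := 5 * S ^ 2) (by
        have : 0 < S ^ 2 := by positivity
        omega)
      simpa using this
    have h34 : (1 / 2 : ℝ) ^ (3 * S ^ 4) ≤ (1 / 2 : ℝ) ^ (S ^ 4) := half_mono (by omega)
    exact binF_close hS6 hRr (h2S.trans h1) (h2S.trans h2) (h3.trans h34) (h4.trans h34)
  have hc1 : ∀ z ∈ lev r c0, 0 ≤ c1 z ∧ c1 z ≤ 1 := fun z _ => ⟨ENNReal.toReal_nonneg, pmf_toReal_le_one _ _⟩
  have hc2 : ∀ z ∈ lev r c0, 0 ≤ c2 z ∧ c2 z ≤ 1 := fun z _ => ⟨ENNReal.toReal_nonneg, pmf_toReal_le_one _ _⟩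
  have ha1 : ∀ z ∈ lev r c0, 0 ≤ a1 z := fun z _ => mul_nonneg hK0.le (bw_nonneg (hp0 i) (hp1 i) _)
  have ha2 : ∀ z ∈ lev r c0, 0 ≤ a2' z ∧ a2' z ≤ 1 := fun z hz => ⟨(P.a2_pos hz).le, P.a2_le_one hz⟩
  have hη : ∀ k : ℕ, 1 ≤ k → (5 : ℝ) / (S : ℝ) ^ k ≤ 1 := by
    intro k hk
    have h9 : (1000000 : ℝ) ≤ S := by exact_mod_cast hS6
    have h10 : (S : ℝ) ≤ (S : ℝ) ^ k := le_self_pow₀ hS1 (by omega)
    rw [div_le_one (by positivity)]
    linarith
  have h1 : ∀ z ∈ lev r c0, |c1 z - a1 z| ≤ 2 * (5 / (S : ℝ) ^ 42) * a1 z + 2 * (1 / 2 : ℝ) ^ (S ^ 2) := by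
    intro z hz
    have hb0 : 0 < bw (r i) (p i) (z i) := by
      unfold bw
      have h1 := P.choose_pos' hz i
      have h2 := P.p_pos i
      have h3 := P.q_pos i
      positivity
    exact coin_close hS6 (mul_pos hK0 hb0) (P.K_bw_le hV' _) (by positivity) (hη 42 (by norm_num))
      (P.coinL1_close hidx hz)
  have h2 : ∀ z ∈ lev r c0, |c2 z - a2' z| ≤ 2 * (5 / (S : ℝ) ^ 30) * a2' z + 2 * (1 / 2 : ℝ) ^ (S ^ 2) := by
    intro z hz
    exact coin_close hS6 (P.a2_pos hz) (P.a2_le_one hz) (by positivity) (hη 30 (by norm_num))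
      (P.coinL2_close hz)
  have hmass : ∑ z ∈ lev r c0, (∏ a ∈ univ.erase i, B a (z a)) * a1 z ≤ 1 := by
    have h3 := K_sum_wt_le (P := parS S) (r := r) (c0 := c0) P.ht' (fun j => bb_pos (S := S) (β := β) j) hV'
    rw [Finset.mul_sum] at h3
    refine le_trans (le_of_eq ?_) h3
    refine Finset.sum_congr rfl fun z _ => ?_
    rw [wt_factor r p z i]
    show (∏ a ∈ univ.erase i, bw (r a) (p a) (z a)) * ((parS S).K m l.length c0 * bw (r i) (p i) (z i)) = _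
    ring
  have key := trial_abs (i := i) (r := r) (c0 := c0) (A := A) (B := B) (δ := 1 / (S : ℝ) ^ 26)
    (c1 := c1) (c2 := c2) (a1 := a1) (a2 := a2')
    (e1 := 2 * (5 / (S : ℝ) ^ 42)) (e2 := 2 * (5 / (S : ℝ) ^ 30))
    (τ1 := 2 * (1 / 2 : ℝ) ^ (S ^ 2)) (τ2 := 2 * (1 / 2 : ℝ) ^ (S ^ 2))
    hA0 hB0 hA1 hB1 hδ hAB (by positivity) (by positivity) hc1 hc2 ha1 ha2 h1 h2 (by positivity) hmass
  -- the law
  have hlaw : ∀ z ∈ lev r c0, (trialF S x (lN z)).toReal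
      = (∏ a ∈ univ.erase i, A a (z a)) * c1 z * c2 z := by
    intro z hz
    rw [hx, xOf, trialF_law P.hok κ hp i hidx hz, ENNReal.toReal_mul, ENNReal.toReal_mul, ENNReal.toReal_prod]
  -- the target at `t'`
  set C' := (capa r (Fin.cons c0 l.get) (rM S tw)).toReal with hC'
  set C := (capa r (Fin.cons c0 l.get) t).toReal with hC
  have hC'0 : 0 < C' := P.capa_t'_pos
  have hC0 : 0 < C := P.capa_t_pos
  have htar : ∀ z ∈ lev r c0, (∏ a ∈ univ.erase i, B a (z a)) * a1 z * a2' z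
      = (parS S).K m l.length c0 * uval r l.get (rM S tw) z / (2 * C') := by
    intro z hz
    have hW := P.wt_pos' hz
    rw [wt_factor r _ z i] at hW
    show (∏ a ∈ univ.erase i, bw (r a) (p a) (z a)) * ((parS S).K m l.length c0 * bw (r i) (p i) (z i))
        * (uval r l.get (rM S tw) z / (2 * C' * wt r p z)) = _
    rw [wt_factor r p z i]
    have h3 : (∏ a ∈ univ.erase i, bw (r a) (p a) (z a)) ≠ 0 := left_ne_zero_of_mul hW.ne'
    have h4 : bw (r i) (p i) (z i) ≠ 0 := right_ne_zero_of_mul hW.ne'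
    field_simp
  -- from `t'` to `t`
  have h0ξ := xiT_nonneg S
  set F := (1 + xiT S) ^ (∑ a, r a) with hF
  have hF1 : 1 ≤ F := one_le_pow₀ (by linarith)
  have hF2 := F_le hS6 P.hN
  have hcomp : ∀ z ∈ lev r c0,
      |(parS S).K m l.length c0 * uval r l.get t z / (2 * C)
        - (parS S).K m l.length c0 * uval r l.get (rM S tw) z / (2 * C')|
      ≤ (F ^ 2 - 1) * ((parS S).K m l.length c0 * uval r l.get (rM S tw) z / (2 * C')) := by
    intro z hz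
    obtain ⟨hzr, -⟩ := mem_lev.1 hz
    have hu0 : 0 ≤ uval r l.get t z := uval_nonneg' r l.get z P.ht_pos
    have hu'0 : 0 ≤ uval r l.get (rM S tw) z := uval_nonneg' r l.get z P.ht'
    exact target_close hK0.le hu'0 hC0 hC'0 hF1 hu0
      (trUval_le r l.get h0ξ (fun j i => (P.ht_pos j i).le) (fun j i => (P.ht' j i).le) P.t_le hzr)
      (trUval_le r l.get h0ξ (fun j i => (P.ht' j i).le) (fun j i => (P.ht_pos j i).le) P.t'_le hzr)
      (trCapa_le r _ h0ξ (fun j i => (P.ht_pos j i).le) P.t_le)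
      (trCapa_le r _ h0ξ (fun j i => (P.ht' j i).le) P.t'_le)
  have hsum1 : ∑ z ∈ lev r c0, (parS S).K m l.length c0 * uval r l.get (rM S tw) z / (2 * C') ≤ 1 := by
    refine le_trans ?_ hmass
    refine Finset.sum_le_sum fun z hz => ?_
    rw [← htar z hz]
    have h3 := ha2 z hz
    have h4 : 0 ≤ (∏ a ∈ univ.erase i, B a (z a)) * a1 z :=
      mul_nonneg (Finset.prod_nonneg fun a _ => hB0 a _) (ha1 z hz)
    exact mul_le_of_le_one_right h4 h3.2
  have hFF : F ^ 2 - 1 ≤ 3 * (1 / 2 : ℝ) ^ (S ^ 2 / 4) := by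
    have h5 : (1 / 2 : ℝ) ^ (S ^ 2 / 4) ≤ 1 := pow_le_one₀ (by norm_num) (by norm_num)
    have h6 : 0 ≤ (1 / 2 : ℝ) ^ (S ^ 2 / 4) := by positivity
    nlinarith
  have hF20 : 0 ≤ F ^ 2 - 1 := by nlinarith
  have hpoint : ∀ z ∈ lev r c0, |(trialF S x (lN z)).toReal
        - (parS S).K m l.length c0 * uval r l.get t z / (2 * C)|
      ≤ |(∏ a ∈ univ.erase i, A a (z a)) * c1 z * c2 z - (∏ a ∈ univ.erase i, B a (z a)) * a1 z * a2' z|
        + (F ^ 2 - 1) * ((parS S).K m l.length c0 * uval r l.get (rM S tw) z / (2 * C')) := by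
    intro z hz
    rw [hlaw z hz, htar z hz]
    have h3 := abs_sub_le ((∏ a ∈ univ.erase i, A a (z a)) * c1 z * c2 z)
      ((parS S).K m l.length c0 * uval r l.get (rM S tw) z / (2 * C'))
      ((parS S).K m l.length c0 * uval r l.get t z / (2 * C))
    have h4 := hcomp z hz
    rw [abs_sub_comm] at h4
    linarith
  refine (Finset.sum_le_sum hpoint).trans ?_
  rw [Finset.sum_add_distrib, ← Finset.mul_sum]
  have h5 : (F ^ 2 - 1) * ∑ z ∈ lev r c0, (parS S).K m l.length c0 * uval r l.get (rM S tw) z / (2 * C')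
      ≤ (F ^ 2 - 1) * 1 := mul_le_mul_of_nonneg_left hsum1 hF20
  have h6 := P.numbers
  linarith

end Pt

end TrialP

open TrialP TrialP.Pt in
/-- **The law of one trial at a good point.** -/
theorem trialF_spec {S m : ℕ} {r : Fin m → ℕ} {c0 : ℕ} {l : List ℕ}
    (h : NodeOK S r (Fin.cons c0 l.get : Fin (l.length + 1) → ℕ)) (hl : l ≠ [])
    {y : Fin (l.length + 1) × Fin m → ℝ} (hy : ∀ k, |y k| ≤ rQ S)
    (hcut : ∀ j i, cutK S ≤ tMap (iMax h.hm r) (jMax h.hn (Fin.cons c0 l.get)) r (Fin.cons c0 l.get) y j i) :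
    let cc : Fin (l.length + 1) → ℕ := Fin.cons c0 l.get
    let t := tMap (iMax h.hm r) (jMax h.hn cc) r cc y
    let κ : List (List ℤ) := lK fun k => fineIdx S (y k)
    let b : Fin (l.length + 1) → ℝ := solR S (solBF S (lN r) ((c0 : ℤ) :: lL l) κ)
    let pass : Prop := 0 < passF S ((lN r, (c0 : ℤ), lL l), κ)
    ENNReal.ofReal (Phi r cc t b) ≤ 2 * capa r cc t
      ∧ (pass → ∃ i, (parS S).V0 m l.length c0 ≤ rowV r t b i)
      ∧ (¬ pass → ∀ i, rowV r t b i ≤ (parS S).V0 m l.length c0 + 1 / (14 * (m : ℝ)))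
      ∧ (¬ (0 < l.length ∧ (parS S).cs < c0) → pass)
      ∧ ∑ x ∈ lev r c0, |(trialF S ((lN r, (c0 : ℤ), lL l), κ) (lN x)).toReal
          - (open Classical in if pass then
              (parS S).K m l.length c0 * uval r l.get t x / (2 * (capa r cc t).toReal) else 0)|
        ≤ 1 / (S : ℝ) ^ 24 := by
  intro cc t κ b pass
  obtain ⟨tw, β, hT, hB, htt, htr, hcut', hβ, hc1, hc2⟩ := trial_point h hy hcut
  have P : Pt S r c0 l κ t tw β :=
    ⟨h, List.length_pos_iff.2 hl, hT, hB, htt, hcut, htr, hcut', hβ, hc1, hc2⟩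
  have hb : b = bb S β := P.solR_eq
  rw [hb]
  refine ⟨P.p1, fun hp => ?_, fun hp i => P.notpass_spec hp i, P.regime_one_pass, ?_⟩
  · obtain ⟨i, -, -, h3⟩ := P.pass_spec hp
    exact ⟨i, h3⟩
  · by_cases hp : pass
    · simp only [if_pos hp]
      exact P.p3 hp
    · simp only [if_neg hp, sub_zero]
      have h0 : ∀ x ∈ lev r c0, |(trialF S ((lN r, (c0 : ℤ), lL l), κ) (lN x)).toReal| = 0 := by
        intro x _
        rw [trialF_not_pass P.hm0 hp x]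
        simp
      rw [Finset.sum_eq_zero h0]
      have := P.S_pos
      positivity

end Vale.Agent.Lib.P328.Bit
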