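import Vale.Agent.Lib.P328.Bit.TabF
import Vale.Agent.Lib.P328.Bit.SeqLaw
import Vale.Agent.Lib.P328.Bit.Sampler
import Vale.Agent.Lib.P328.Fpras.Trial

/-!
# P328, bit model: one trial (module TRIALF)

Input: `(r, c0, l)`, the rows and the columns of the node, as words, and a matrix `κ` of fine indices (`TabF`).
`trialF` with `l ≠ []` (the case `l = []` is in `NodeF` and needs no trial) goes as follows; `[]` means failure. `c = c0 :: l`.

1. `t = tabF r c κ`, i.e. `tMapF` at the coordinates `yF κ`, with `i0, j0` from `idxMaxF`. If an entry is below `1 / (2 S^26)`: fail.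
2. `β = solBF r c κ = betaF r c t`. `B_j = fexp β_j`, `D_i = Σ_j t_ji B_j`, `E_i = Σ_{j ≠ 0} t_ji B_j`; `a_i = t_0i B_0 / D_i`, `b_i = E_i / D_i`; the computed variance `V_i = r_i a_i b_i`.
3. Regime two is `0 < length l` (true here) and `S^28 < c0`: `V0 = c0 / (S^26 * 14 m)`, `K = fsqrt V0`. The test: `passF` is positive iff the cut test of step 1 holds and (regime one, or there is a row with `V_i ≥ V0 + 1/S`). `i` = the first such row (regime one: row zero). Otherwise fail.
4. For the other rows `j ≠ i`: `x_j = binF (r_j, a_j, b_j)`. If some `x_j = -1`: fail. `x_i = c0 - Σ_{j ≠ i} x_j`; if not in `[0, r_i]`: fail.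
5. First coin: `coinExpF (log K + lbwF r_i x_i (flog a_i) (flog b_i))` (in regime one without `log K`).
6. Second coin: `coinExpF L`, with `L = Σ_i (x_i (flog t_0i - flog a_i) - (r_i - x_i) flog b_i) + logCapF (r - x) l (tail t) - logCapF r c t - log 2`. This is the logarithm of `uval / (2 capa wt)`: the binomial coefficients cancel.
7. If both coins are one: output `x` (as `lN x`).

The specification. `y` a point of the big cube with `cutK ≤ tMap y`, `κ = fineIdx ∘ y`, `t = tMap y`, `t' = rM (tabF ...)`, `b = solR (solBF ...)`. Then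
* `|yF κ - y| ≤ cellD / 2 ^ pf S + tiny` (`yR_fineIdx`, `yF_spec`), `|t' - t| ≤ 2^(3 S) 2^(-S^2)` since `tMap` is affine with coefficients at most `2 ^ (2 S)` (`tMapF_spec`), so `t'` is in `TabRange`, and the cut test holds.
* Lipschitz: with `t ≤ (1 + ξ) t'` entrywise, `ξ = 2^(-S^2/2)`: `capa t ≤ (1 + ξ)^N capa t'` (homogeneous of degree `r_i` in row `i`, monotone), `N < 2^S`, so the factor is at most `1 + 2^(-S^2/4)`. The same for `Phi`, `uval`. So P1 from `betaF_spec`: `Phi t b ≤ (1 + 2^(-S^2/4)) exp (1/S^30) capa t ≤ 2 capa t`.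
* `rowV r t b i` and the computed `V_i` differ by a tiny amount, so P2 with the margin `1/S` (`S ≥ 14 m * 2`).
* P3: the probability of the output `x ∈ lev r c0` is `(∏_{j≠i} binF_j (x j)) * C x`, `C x = coin1 (x i) * coin2 x`, `0 ≤ C ≤ 1`.
  Replace the `binF_j` by `bw (r j) (p j)`, `p = rowP t' b`: error at most `m / S^26` (telescoping: `Σ_x |∏ a_j(x_j) - ∏ b_j(x_j)| C x ≤ Σ_j Σ_v |a_j v - b_j v|`, on `lev` the value of `x i` is determined by the others; `binF_close`).
  Replace `coin1` by `K bw (r i) (p i) (x i)` (`coinExpF_spec`, `lbwF_spec`, relative error at most `5/S^42` plus tiny) and `coin2` by `uval(t') / (2 capa(t') wt)` (relative error at most `5/S^30` from `logCapF_spec`, plus tiny; note it is at most about one by `uval_le`, P1, so `min` does no harm). With `K_sum_wt_le`, `Σ_x K wt(x) ≤ 1` bounds all relative errors. The tiny absolute errors are multiplied by `|lev| ≤ ∏ (r_i + 1)`?: avoid that: absolute errors of coins multiply `∏_{j ≠ i} bw_j(x_j)` whose sum over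 `x ∈ lev` is at most one.
  Then `K wt uval(t') / (2 capa(t') wt) = K uval(t') / (2 capa t')`, and `t' → t` (Lipschitz, relative error `2^(-S^2/4)`).
  Total: `m / S^26 + 10 / S^30 + ... ≤ 1 / S^24`.
-/

namespace Vale.Agent.Lib.P328.Bit

open Finset Vale.Agent.Lib.P328.Cap Vale.Agent.Lib.P328.Fpras Vale.Agent.Lib.P328.Samp

variable {m n : ℕ} {α : Type} [Enc α]

/-- A matrix of words in the form of a function on the pairs of indices. -/
def lK {k l : ℕ} (κ : Fin k × Fin l → ℤ) : List (List ℤ) :=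
  List.ofFn fun j => List.ofFn fun i => κ (j, i)

/-- The natural numbers of a list as words. -/
theorem lN_cons {k : ℕ} (c0 : ℕ) (l : Fin k → ℕ) :
    lN (Fin.cons c0 l : Fin (k + 1) → ℕ) = (c0 : ℤ) :: lN l := by
  simp [lN, List.ofFn_succ]

theorem lN_get (l : List ℕ) : lN l.get = lL l := by
  unfold lN lL
  refine List.ext_getElem (by simp) fun i h1 h2 => ?_
  rw [List.getElem_ofFn, List.getElem_map]
  rfl

/-- The matrix of fixed point coordinates of a matrix of fine indices. -/
noncomputable def yMatF (S : ℕ) (κ : List (List ℤ)) : List (List ℤ) :=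
  (κ.take S).map fun col => (col.take S).map (yF S)

theorem yMatF_rep {fk : ℕ → α → List (List ℤ)} (hk : DRep fk) : DRep fun S x => yMatF S (fk S x) :=
  DRep.mapS (l := fk) (f := fun S (y : α × List ℤ) => (y.2.take S).map (yF S)) hk
    (DRep.mapS (l := fun _ (y : α × List ℤ) => y.2)
      (f := fun S (z : (α × List ℤ) × ℤ) => yF S z.2) DRep.snd (yF_rep DRep.snd))

/-- The matrix of a trial, from the matrix `κ` of fine indices: rows, columns, `κ`. -/
noncomputable def tabF (S : ℕ) (r c : List ℤ) (κ : List (List ℤ)) : List (List ℤ) :=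
  tMapF S (idxMaxF S r) (idxMaxF S c) r c (yMatF S κ)

theorem tabF_rep {fr fc : ℕ → α → List ℤ} {fk : ℕ → α → List (List ℤ)} (hr : DRep fr) (hc : DRep fc)
    (hk : DRep fk) : DRep fun S x => tabF S (fr S x) (fc S x) (fk S x) :=
  tMapF_rep (idxMaxF_rep hr) (idxMaxF_rep hc) hr hc (yMatF_rep hk)

/-- The computed minimiser (in logarithms): rows, columns, `κ`. -/
noncomputable def solBF (S : ℕ) (r c : List ℤ) (κ : List (List ℤ)) : List ℤ :=
  betaF S r c (tabF S r c κ)

/-- The vector `exp β` of a list of words. -/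
noncomputable def solR {k : ℕ} (S : ℕ) (β : List ℤ) : Fin k → ℝ :=
  fun j => Real.exp (val S (β.getD j 0))

namespace TrialP

/-! ### Small list programs -/

/-- The indices of the first `S` elements of a list. -/
def idxL {γ : Type} (S : ℕ) (L : List γ) : List ℤ :=
  (List.range (min (((L.take S).length : ℤ)).toNat S)).map fun k => (k : ℤ)

theorem idxL_eq {γ : Type} (S : ℕ) (L : List γ) :
    idxL S L = (List.range (min (((L.take S).length : ℤ)).toNat S)).map fun k : ℕ => (k : ℤ) := by
  unfold idxL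
  simp [List.map_eq_flatMap]

theorem idxL_rep {γ : Type} [Enc γ] {f : ℕ → α → List γ} (hf : DRep f) :
    DRep fun S x => idxL S (f S x) :=
  DRep.rangeS (DRep.lengthS hf)

/-- The saturating sum of the first `S` elements. -/
def sumL (S : ℕ) (L : List ℤ) : ℤ := (L.take S).foldl (fun s a => cadd S s a) 0

theorem sumL_rep {f : ℕ → α → List ℤ} (hf : DRep f) : DRep fun S x => sumL S (f S x) :=
  DRep.foldS (l := f) (i := fun _ _ => (0 : ℤ))
    (f := fun S (y : α × (ℤ × ℤ)) => cadd S y.2.1 y.2.2) hf DRep.zero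
    ((DRep.snd.comp DRep.fst).add (DRep.snd.comp DRep.snd))

/-- An entry of a vector (`0` outside). -/
def getL (S : ℕ) (L : List ℤ) (k : ℤ) : ℤ := (L.take S).getD k.toNat 0

theorem getL_rep {f : ℕ → α → List ℤ} {k : ℕ → α → ℤ} (hf : DRep f) (hk : DRep k) :
    DRep fun S x => getL S (f S x) (k S x) :=
  DRep.nthD hf hk DRep.zero

/-- An entry of a matrix (`0` outside): column `j`, row `i`. -/
def getM (S : ℕ) (t : List (List ℤ)) (j i : ℤ) : ℤ :=
  getL S ((t.take S).getD j.toNat []) i

theorem getM_rep {f : ℕ → α → List (List ℤ)} {j i : ℕ → α → ℤ} (hf : DRep f) (hj : DRep j)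
    (hi : DRep i) : DRep fun S x => getM S (f S x) (j S x) (i S x) :=
  getL_rep (DRep.nthD hf hj DRep.nil') hi

/-- Positive iff the two words differ (unless they saturate). -/
def neF (S : ℕ) (a b : ℤ) : ℤ := cmul S (csub S a b) (csub S a b)

theorem neF_rep {f g : ℕ → α → ℤ} (hf : DRep f) (hg : DRep g) : DRep fun S x => neF S (f S x) (g S x) :=
  (hf.sub hg).mul (hf.sub hg)

/-- One step of the search for the first positive entry: the state is the result (`0`: not found,
`k + 1`: found at the index `k`) and the number of entries seen. -/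
def firstStep (S : ℕ) (st : ℤ × ℤ) (a : ℤ) : ℤ × ℤ :=
  if 0 < st.1 then (st.1, cadd S st.2 1)
  else if 0 < a then (cadd S st.2 1, cadd S st.2 1) else (st.1, cadd S st.2 1)

/-- `k + 1` for the first index `k` with a positive entry, and `0` if there is none. -/
def firstPos (S : ℕ) (L : List ℤ) : ℤ := ((L.take S).foldl (fun st a => firstStep S st a) (0, 0)).1

theorem firstPos_rep {f : ℕ → α → List ℤ} (hf : DRep f) : DRep fun S x => firstPos S (f S x) := by
  have hs : DRep (α := α × ((ℤ × ℤ) × ℤ)) (β := ℤ × ℤ) fun S y => firstStep S y.2.1 y.2.2 := by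
    have h1 : DRep (α := α × ((ℤ × ℤ) × ℤ)) (β := ℤ) fun _ y => y.2.1.1 :=
      (DRep.snd.comp DRep.fst).comp DRep.fst
    have h2 : DRep (α := α × ((ℤ × ℤ) × ℤ)) (β := ℤ) fun _ y => y.2.1.2 :=
      (DRep.snd.comp DRep.fst).comp DRep.snd
    have h3 : DRep (α := α × ((ℤ × ℤ) × ℤ)) (β := ℤ) fun _ y => y.2.2 :=
      DRep.snd.comp DRep.snd
    have h4 := h2.add (DRep.one (α := α × ((ℤ × ℤ) × ℤ)))
    exact h1.ite (h1.pair h4) (h3.ite (h4.pair h4) (h1.pair h4))
  exact (DRep.foldS (l := f) (i := fun _ _ => ((0 : ℤ), (0 : ℤ)))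
    (f := fun S (y : α × ((ℤ × ℤ) × ℤ)) => firstStep S y.2.1 y.2.2) hf
    (DRep.zero.pair DRep.zero) hs).comp DRep.fst

/-- The cut: `1 / (2 S ^ 26)`. -/
def cutW (S : ℕ) : ℤ := fdiv S (fone S) (fint S (cmul S (cadd S 1 1) (clamp S ((S : ℤ) ^ 26))))

theorem cutW_rep : DRep (α := α) (β := ℤ) fun S _ => cutW S :=
  fdiv_rep fone_rep (fint_rep ((DRep.one.add DRep.one).mul (spow_rep 26)))

/-- One step of the cut test. -/
def cutStep (S : ℕ) (s a : ℤ) : ℤ := if 0 < cadd S (csub S a (cutW S)) 1 then s else 0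

/-- The cut test, positive iff all entries are at least `cutW S`. -/
def cutOK (S : ℕ) (t : List (List ℤ)) : ℤ :=
  (t.take S).foldl (fun s col => (col.take S).foldl (fun s' a => cutStep S s' a) s) 1

theorem cutOK_rep {f : ℕ → α → List (List ℤ)} (hf : DRep f) : DRep fun S x => cutOK S (f S x) := by
  have hs : DRep (α := (α × (ℤ × List ℤ)) × (ℤ × ℤ)) (β := ℤ) fun S z => cutStep S z.2.1 z.2.2 := by
    have h1 : DRep (α := (α × (ℤ × List ℤ)) × (ℤ × ℤ)) (β := ℤ) fun _ z => z.2.1 :=
      DRep.snd.comp DRep.fst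
    have h2 : DRep (α := (α × (ℤ × List ℤ)) × (ℤ × ℤ)) (β := ℤ) fun _ z => z.2.2 :=
      DRep.snd.comp DRep.snd
    exact ((h2.sub cutW_rep).add DRep.one).ite h1 DRep.zero
  have hin : DRep (α := α × (ℤ × List ℤ)) (β := ℤ)
      fun S y => (y.2.2.take S).foldl (fun s' a => cutStep S s' a) y.2.1 :=
    DRep.foldS (l := fun _ (y : α × (ℤ × List ℤ)) => y.2.2)
      (i := fun _ (y : α × (ℤ × List ℤ)) => y.2.1)
      (f := fun S (z : (α × (ℤ × List ℤ)) × (ℤ × ℤ)) => cutStep S z.2.1 z.2.2)
      (DRep.snd.comp DRep.snd) (DRep.snd.comp DRep.fst) hs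
  exact DRep.foldS (l := f) (i := fun _ _ => (1 : ℤ))
    (f := fun S (y : α × (ℤ × List ℤ)) => (y.2.2.take S).foldl (fun s' a => cutStep S s' a) y.2.1)
    hf DRep.one hin

/-! ### One row -/

/-- The terms `t_ji B_j` of the row `i`. -/
noncomputable def rowTerms (S : ℕ) (t : List (List ℤ)) (B : List ℤ) (i : ℤ) : List ℤ :=
  ((idxL S t).take S).map fun j => fmul S (getM S t j i) (getL S B j)

theorem rowTerms_rep {ft : ℕ → α → List (List ℤ)} {fB : ℕ → α → List ℤ} {fi : ℕ → α → ℤ} (ht : DRep ft)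
    (hB : DRep fB) (hi : DRep fi) : DRep fun S x => rowTerms S (ft S x) (fB S x) (fi S x) :=
  DRep.mapS (l := fun S x => idxL S (ft S x))
    (f := fun S (y : α × ℤ) => fmul S (getM S (ft S y.1) y.2 (fi S y.1)) (getL S (fB S y.1) y.2))
    (idxL_rep ht)
    (fmul_rep (getM_rep (DRep.fst.comp ht) DRep.snd (DRep.fst.comp hi))
      (getL_rep (DRep.fst.comp hB) DRep.snd))

/-- `D_i = Σ_j t_ji B_j`. -/
noncomputable def rowD (S : ℕ) (t : List (List ℤ)) (B : List ℤ) (i : ℤ) : ℤ := sumL S (rowTerms S t B i)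

/-- `t_0i B_0`. -/
noncomputable def rowA (S : ℕ) (t : List (List ℤ)) (B : List ℤ) (i : ℤ) : ℤ :=
  fmul S (getM S t 0 i) (getL S B 0)

/-- `E_i = Σ_{j ≠ 0} t_ji B_j`. -/
noncomputable def rowE (S : ℕ) (t : List (List ℤ)) (B : List ℤ) (i : ℤ) : ℤ :=
  csub S (rowD S t B i) (rowA S t B i)

/-- `a_i`: the computed value of `rowP`. -/
noncomputable def rowPF (S : ℕ) (t : List (List ℤ)) (B : List ℤ) (i : ℤ) : ℤ :=
  fdiv S (rowA S t B i) (rowD S t B i)

/-- `b_i`: the computed value of `1 - rowP`. -/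
noncomputable def rowQF (S : ℕ) (t : List (List ℤ)) (B : List ℤ) (i : ℤ) : ℤ :=
  fdiv S (rowE S t B i) (rowD S t B i)

theorem rowD_rep {ft : ℕ → α → List (List ℤ)} {fB : ℕ → α → List ℤ} {fi : ℕ → α → ℤ} (ht : DRep ft)
    (hB : DRep fB) (hi : DRep fi) : DRep fun S x => rowD S (ft S x) (fB S x) (fi S x) :=
  sumL_rep (rowTerms_rep ht hB hi)

theorem rowA_rep {ft : ℕ → α → List (List ℤ)} {fB : ℕ → α → List ℤ} {fi : ℕ → α → ℤ} (ht : DRep ft)
    (hB : DRep fB) (hi : DRep fi) : DRep fun S x => rowA S (ft S x) (fB S x) (fi S x) :=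
  fmul_rep (getM_rep ht DRep.zero hi) (getL_rep hB DRep.zero)

theorem rowPF_rep {ft : ℕ → α → List (List ℤ)} {fB : ℕ → α → List ℤ} {fi : ℕ → α → ℤ} (ht : DRep ft)
    (hB : DRep fB) (hi : DRep fi) : DRep fun S x => rowPF S (ft S x) (fB S x) (fi S x) :=
  fdiv_rep (rowA_rep ht hB hi) (rowD_rep ht hB hi)

theorem rowQF_rep {ft : ℕ → α → List (List ℤ)} {fB : ℕ → α → List ℤ} {fi : ℕ → α → ℤ} (ht : DRep ft)
    (hB : DRep fB) (hi : DRep fi) : DRep fun S x => rowQF S (ft S x) (fB S x) (fi S x) :=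
  fdiv_rep ((rowD_rep ht hB hi).sub (rowA_rep ht hB hi)) (rowD_rep ht hB hi)

/-! ### The quantities of a trial -/

/-- The input of a trial: the node `(r, c0, l)` and `κ`. -/
abbrev In := (List ℤ × ℤ × List ℤ) × List (List ℤ)

/-- The rows of the input. -/
abbrev inR (x : In) : List ℤ := x.1.1

/-- The first column of the input. -/
abbrev inC (x : In) : ℤ := x.1.2.1

/-- The other columns of the input. -/
abbrev inL (x : In) : List ℤ := x.1.2.2

theorem inR_rep {f : ℕ → α → In} (hf : DRep f) : DRep fun S y => inR (f S y) :=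
  hf.comp (DRep.fst.comp DRep.fst)

theorem inC_rep {f : ℕ → α → In} (hf : DRep f) : DRep fun S y => inC (f S y) :=
  hf.comp ((DRep.fst.comp DRep.snd).comp DRep.fst)

theorem inL_rep {f : ℕ → α → In} (hf : DRep f) : DRep fun S y => inL (f S y) :=
  hf.comp ((DRep.fst.comp DRep.snd).comp DRep.snd)

/-- The matrix of the trial. -/
noncomputable def nodeT (S : ℕ) (x : In) : List (List ℤ) := tabF S (inR x) (inC x :: inL x) x.2

theorem nodeT_rep {f : ℕ → α → In} (hf : DRep f) : DRep fun S y => nodeT S (f S y) :=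
  tabF_rep (inR_rep hf) ((inC_rep hf).cons (inL_rep hf)) (hf.comp DRep.snd)

/-- The vector `B_j = exp β_j` of the trial. -/
noncomputable def nodeB (S : ℕ) (x : In) : List ℤ :=
  ((solBF S (inR x) (inC x :: inL x) x.2).take S).map (fexp S)

theorem nodeB_rep {f : ℕ → α → In} (hf : DRep f) : DRep fun S y => nodeB S (f S y) :=
  DRep.mapS (l := fun S y => solBF S (inR (f S y)) (inC (f S y) :: inL (f S y)) (f S y).2)
    (f := fun S (z : α × ℤ) => fexp S z.2)
    (betaF_rep (inR_rep hf) ((inC_rep hf).cons (inL_rep hf))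
      (tabF_rep (inR_rep hf) ((inC_rep hf).cons (inL_rep hf)) (hf.comp DRep.snd)))
    (fexp_rep DRep.snd)

/-- `a_i`. -/
noncomputable def aF (S : ℕ) (x : In) (i : ℤ) : ℤ := rowPF S (nodeT S x) (nodeB S x) i

/-- `b_i`. -/
noncomputable def bF (S : ℕ) (x : In) (i : ℤ) : ℤ := rowQF S (nodeT S x) (nodeB S x) i

theorem aF_rep {f : ℕ → α → In} {fi : ℕ → α → ℤ} (hf : DRep f) (hi : DRep fi) :
    DRep fun S y => aF S (f S y) (fi S y) :=
  rowPF_rep (nodeT_rep hf) (nodeB_rep hf) hi

theorem bF_rep {f : ℕ → α → In} {fi : ℕ → α → ℤ} (hf : DRep f) (hi : DRep fi) :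
    DRep fun S y => bF S (f S y) (fi S y) :=
  rowQF_rep (nodeT_rep hf) (nodeB_rep hf) hi

/-- `V_i = r_i a_i b_i`. -/
noncomputable def vF (S : ℕ) (x : In) (i : ℤ) : ℤ :=
  cmul S (getL S (inR x) i) (fmul S (aF S x i) (bF S x i))

theorem vF_rep {f : ℕ → α → In} {fi : ℕ → α → ℤ} (hf : DRep f) (hi : DRep fi) :
    DRep fun S y => vF S (f S y) (fi S y) :=
  (getL_rep (inR_rep hf) hi).mul (fmul_rep (aF_rep hf hi) (bF_rep hf hi))

/-- Positive in regime two: `0 < length l` and `S ^ 28 < c0`. -/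
def regF (S : ℕ) (x : In) : ℤ :=
  if 0 < (((inL x).take S).length : ℤ) then
    if 0 < csub S (inC x) (clamp S ((S : ℤ) ^ 28)) then 1 else 0
  else 0

theorem regF_rep {f : ℕ → α → In} (hf : DRep f) : DRep fun S y => regF S (f S y) :=
  (DRep.lengthS (inL_rep hf)).ite (((inC_rep hf).sub (spow_rep 28)).ite DRep.one DRep.zero) DRep.zero

/-- The required variance in regime two: `c0 / (S ^ 26 * 14 m)`. -/
def v0F (S : ℕ) (x : In) : ℤ :=
  fdiv S (fint S (inC x))
    (fint S (cmul S (clamp S ((S : ℤ) ^ 26)) (cmul S (clamp S ((14 : ℕ) : ℤ)) (((inR x).take S).length : ℤ))))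

theorem v0F_rep {f : ℕ → α → In} (hf : DRep f) : DRep fun S y => v0F S (f S y) :=
  fdiv_rep (fint_rep (inC_rep hf))
    (fint_rep ((spow_rep 26).mul ((DRep.natConst 14).mul (DRep.lengthS (inR_rep hf)))))

/-- The margin `1 / S` of the variance test. -/
def margF (S : ℕ) : ℤ := fdiv S (fone S) (fint S (S : ℤ))

theorem margF_rep : DRep (α := α) (β := ℤ) fun S _ => margF S :=
  fdiv_rep fone_rep (fint_rep DRep.param)

/-- Positive iff `V_i ≥ V0 + 1 / S`, in words. -/
noncomputable def rowTest (S : ℕ) (x : In) (i : ℤ) : ℤ :=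
  cadd S (csub S (vF S x i) (cadd S (v0F S x) (margF S))) 1

theorem rowTest_rep {f : ℕ → α → In} {fi : ℕ → α → ℤ} (hf : DRep f) (hi : DRep fi) :
    DRep fun S y => rowTest S (f S y) (fi S y) :=
  ((vF_rep hf hi).sub ((v0F_rep hf).add margF_rep)).add DRep.one

/-- The row that is solved last, plus one; zero if the trial fails. In regime one this is row zero. -/
noncomputable def pickF (S : ℕ) (x : In) : ℤ :=
  if 0 < regF S x then firstPos S (((idxL S (inR x)).take S).map fun i => rowTest S x i) else 1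

theorem pickF_rep {f : ℕ → α → In} (hf : DRep f) : DRep fun S y => pickF S (f S y) :=
  (regF_rep hf).ite
    (firstPos_rep (DRep.mapS (l := fun S y => idxL S (inR (f S y)))
      (f := fun S (z : α × ℤ) => rowTest S (f S z.1) z.2) (idxL_rep (inR_rep hf))
      (rowTest_rep (DRep.fst.comp hf) DRep.snd)))
    DRep.one

/-- The row that is solved last. -/
noncomputable def idxF (S : ℕ) (x : In) : ℤ := csub S (pickF S x) 1

theorem idxF_rep {f : ℕ → α → In} (hf : DRep f) : DRep fun S y => idxF S (f S y) :=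
  (pickF_rep hf).sub DRep.one

end TrialP

open TrialP

/-- The test of a trial: the trial goes on iff this is positive. Input: the node, `κ`. -/
noncomputable def passF (S : ℕ) (x : (List ℤ × ℤ × List ℤ) × List (List ℤ)) : ℤ :=
  if 0 < cutOK S (nodeT S x) then pickF S x else 0

theorem passF_rep : DRep passF :=
  (cutOK_rep (nodeT_rep DRep.id')).ite (pickF_rep DRep.id') DRep.zero

namespace TrialP

/-! ### The sample -/

/-- The draw of the row `j`: a binomial, and nothing for the row that is solved last. -/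
noncomputable def drawF (S : ℕ) (x : In) (j : ℤ) : PMF ℤ :=
  if 0 < neF S j (idxF S x) then binF S (getL S (inR x) j, aF S x j, bF S x j) else PMF.pure 0

/-- Composition of a deterministic function with a randomized one. -/
theorem rep_compD {β γ : Type} [Enc β] [Enc γ] {f : ℕ → α → β} {g : ℕ → β → PMF γ} (hf : DRep f)
    (hg : Rep g) : Rep fun S x => g S (f S x) := by
  obtain ⟨p, hp⟩ := hf
  obtain ⟨q, hq⟩ := hg
  refine ⟨.comp p q, fun S x => ?_⟩
  show (sem p S (enc x)).bind (sem q S) = _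
  rw [hp, PMF.pure_bind, hq]

theorem drawF_rep : Rep (α := In × ℤ) (β := ℤ) fun S y => drawF S y.1 y.2 := by
  have hx : DRep (α := In × ℤ) (β := In) fun _ y => y.1 := DRep.fst
  have hj : DRep (α := In × ℤ) (β := ℤ) fun _ y => y.2 := DRep.snd
  exact Rep.ite (neF_rep hj (idxF_rep hx))
    (rep_compD ((getL_rep (inR_rep hx) hj).pair ((aF_rep hx hj).pair (bF_rep hx hj))) binF_rep)
    (Rep.ofD DRep.zero)

/-- The draws of all rows. -/
noncomputable def sampleF (S : ℕ) (x : In) : PMF (List ℤ) :=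
  seqP (((idxL S (inR x)).take S).map fun j => drawF S x j)

theorem sampleF_rep : Rep (α := In) (β := List ℤ) sampleF :=
  Rep.mapS (l := fun S x => idxL S (inR x)) (f := fun S (y : In × ℤ) => drawF S y.1 y.2)
    (idxL_rep (inR_rep DRep.id')) drawF_rep

/-- The first column from the draws: the last row takes what the column sum leaves. -/
noncomputable def finishF (S : ℕ) (x : In) (X : List ℤ) : List ℤ :=
  ((idxL S (inR x)).take S).map fun j =>
    if 0 < neF S j (idxF S x) then getL S X j else csub S (inC x) (sumL S X)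

theorem finishF_rep : DRep (α := In × List ℤ) (β := List ℤ) fun S y => finishF S y.1 y.2 := by
  have hx : DRep (α := (In × List ℤ) × ℤ) (β := In) fun _ z => z.1.1 := DRep.fst.comp DRep.fst
  have hX : DRep (α := (In × List ℤ) × ℤ) (β := List ℤ) fun _ z => z.1.2 := DRep.fst.comp DRep.snd
  have hj : DRep (α := (In × List ℤ) × ℤ) (β := ℤ) fun _ z => z.2 := DRep.snd
  exact DRep.mapS (l := fun S (y : In × List ℤ) => idxL S (inR y.1))
    (f := fun S (z : (In × List ℤ) × ℤ) =>
      if 0 < neF S z.2 (idxF S z.1.1) then getL S z.1.2 z.2 else csub S (inC z.1.1) (sumL S z.1.2))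
    (idxL_rep (inR_rep DRep.fst))
    ((neF_rep hj (idxF_rep hx)).ite (getL_rep hX hj) ((inC_rep hx).sub (sumL_rep hX)))

/-- The test of a first column `u`: the entries are in range and the sum is `c0`. -/
def validF (S : ℕ) (x : In) (u : List ℤ) : ℤ :=
  ((idxL S (inR x)).take S).foldl
    (fun s j =>
      if 0 < cadd S (getL S u j) 1 then
        (if 0 < cadd S (csub S (getL S (inR x) j) (getL S u j)) 1 then s else 0)
      else 0)
    (if 0 < neF S (sumL S u) (inC x) then 0 else 1)

theorem validF_rep : DRep (α := In × List ℤ) (β := ℤ) fun S y => validF S y.1 y.2 := by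
  have hx : DRep (α := (In × List ℤ) × (ℤ × ℤ)) (β := In) fun _ z => z.1.1 := DRep.fst.comp DRep.fst
  have hu : DRep (α := (In × List ℤ) × (ℤ × ℤ)) (β := List ℤ) fun _ z => z.1.2 := DRep.fst.comp DRep.snd
  have hs : DRep (α := (In × List ℤ) × (ℤ × ℤ)) (β := ℤ) fun _ z => z.2.1 := DRep.snd.comp DRep.fst
  have hj : DRep (α := (In × List ℤ) × (ℤ × ℤ)) (β := ℤ) fun _ z => z.2.2 := DRep.snd.comp DRep.snd
  have hx0 : DRep (α := In × List ℤ) (β := In) fun _ y => y.1 := DRep.fst
  have hu0 : DRep (α := In × List ℤ) (β := List ℤ) fun _ y => y.2 := DRep.snd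
  exact DRep.foldS (l := fun S (y : In × List ℤ) => idxL S (inR y.1))
    (i := fun S y => if 0 < neF S (sumL S y.2) (inC y.1) then 0 else 1)
    (f := fun S (z : (In × List ℤ) × (ℤ × ℤ)) =>
      if 0 < cadd S (getL S z.1.2 z.2.2) 1 then
        (if 0 < cadd S (csub S (getL S (inR z.1.1) z.2.2) (getL S z.1.2 z.2.2)) 1 then z.2.1 else 0)
      else 0)
    (idxL_rep (inR_rep DRep.fst))
    ((neF_rep (sumL_rep hu0) (inC_rep hx0)).ite DRep.zero DRep.one)
    (((getL_rep hu hj).add DRep.one).ite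
      ((((getL_rep (inR_rep hx) hj).sub (getL_rep hu hj)).add DRep.one).ite hs DRep.zero) DRep.zero)

/-- The remaining rows, `r - u`. -/
noncomputable def resF (S : ℕ) (x : In) (u : List ℤ) : List ℤ :=
  ((idxL S (inR x)).take S).map fun j => csub S (getL S (inR x) j) (getL S u j)

theorem resF_rep {f : ℕ → α → In} {g : ℕ → α → List ℤ} (hf : DRep f) (hg : DRep g) :
    DRep fun S y => resF S (f S y) (g S y) :=
  DRep.mapS (l := fun S y => idxL S (inR (f S y)))
    (f := fun S (z : α × ℤ) => csub S (getL S (inR (f S z.1)) z.2) (getL S (g S z.1) z.2))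
    (idxL_rep (inR_rep hf))
    ((getL_rep (inR_rep (DRep.fst.comp hf)) DRep.snd).sub (getL_rep (DRep.fst.comp hg) DRep.snd))

/-- The logarithm of the gain `K`. -/
noncomputable def logKF (S : ℕ) (x : In) : ℤ :=
  if 0 < regF S x then flog S (fsqrt S (v0F S x)) else 0

theorem logKF_rep {f : ℕ → α → In} (hf : DRep f) : DRep fun S y => logKF S (f S y) :=
  (regF_rep hf).ite (flog_rep (fsqrt_rep (v0F_rep hf))) DRep.zero

/-- The logarithm of the probability of the first coin. Input: the trial and the first column. -/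
noncomputable def coinL1 (S : ℕ) (y : In × List ℤ) : ℤ :=
  cadd S (logKF S y.1)
    (lbwF S (getL S (inR y.1) (idxF S y.1)) (getL S y.2 (idxF S y.1))
      (flog S (aF S y.1 (idxF S y.1))) (flog S (bF S y.1 (idxF S y.1))))

theorem coinL1_rep : DRep (α := In × List ℤ) (β := ℤ) coinL1 := by
  have hx : DRep (α := In × List ℤ) (β := In) fun _ y => y.1 := DRep.fst
  have hu : DRep (α := In × List ℤ) (β := List ℤ) fun _ y => y.2 := DRep.snd
  have hi := idxF_rep hx
  exact (logKF_rep hx).add (lbwF_rep (getL_rep (inR_rep hx) hi) (getL_rep hu hi)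
    (flog_rep (aF_rep hx hi)) (flog_rep (bF_rep hx hi)))

/-- The term of the row `j` in the second coin:
`u_j (log t_0j - log a_j) - (r_j - u_j) log b_j`. -/
noncomputable def termF (S : ℕ) (y : In × List ℤ) (j : ℤ) : ℤ :=
  csub S
    (cmul S (getL S y.2 j) (csub S (flog S (getM S (nodeT S y.1) 0 j)) (flog S (aF S y.1 j))))
    (cmul S (csub S (getL S (inR y.1) j) (getL S y.2 j)) (flog S (bF S y.1 j)))

theorem termF_rep {f : ℕ → α → In × List ℤ} {fj : ℕ → α → ℤ} (hf : DRep f) (hj : DRep fj) :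
    DRep fun S z => termF S (f S z) (fj S z) := by
  have hx : DRep (α := α) (β := In) fun S z => (f S z).1 := hf.comp DRep.fst
  have hu : DRep (α := α) (β := List ℤ) fun S z => (f S z).2 := hf.comp DRep.snd
  exact ((getL_rep hu hj).mul ((flog_rep (getM_rep (nodeT_rep hx) DRep.zero hj)).sub
      (flog_rep (aF_rep hx hj)))).sub
    (((getL_rep (inR_rep hx) hj).sub (getL_rep hu hj)).mul (flog_rep (bF_rep hx hj)))

/-- The tail of a list, as a program. -/
theorem tail_rep {γ : Type} [Enc γ] {f : ℕ → α → List γ} (hf : DRep f) : DRep fun S x => (f S x).tail := by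
  have h := DRep.caseList (l := f) (f := fun _ _ => ([] : List γ))
    (g := fun _ (y : α × (γ × List γ)) => y.2.2) hf DRep.nil' (DRep.snd.comp DRep.snd)
  obtain ⟨p, hp⟩ := h
  refine ⟨p, fun S x => ?_⟩
  rw [hp]
  cases f S x <;> rfl

/-- The logarithm of the probability of the second coin, `uval / (2 capa wt)`. -/
noncomputable def coinL2 (S : ℕ) (y : In × List ℤ) : ℤ :=
  csub S
    (csub S
      (cadd S (sumL S (((idxL S (inR y.1)).take S).map fun j => termF S y j))
        (logCapF S (resF S y.1 y.2) (inL y.1) (nodeT S y.1).tail))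
      (logCapF S (inR y.1) (inC y.1 :: inL y.1) (nodeT S y.1)))
    (flog S (fint S (cadd S 1 1)))

theorem coinL2_rep : DRep (α := In × List ℤ) (β := ℤ) coinL2 := by
  have hx : DRep (α := In × List ℤ) (β := In) fun _ y => y.1 := DRep.fst
  have hu : DRep (α := In × List ℤ) (β := List ℤ) fun _ y => y.2 := DRep.snd
  have hs : DRep (α := In × List ℤ) (β := ℤ)
      fun S y => sumL S (((idxL S (inR y.1)).take S).map fun j => termF S y j) :=
    sumL_rep (DRep.mapS (l := fun S (y : In × List ℤ) => idxL S (inR y.1))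
      (f := fun S (z : (In × List ℤ) × ℤ) => termF S z.1 z.2) (idxL_rep (inR_rep hx))
      (termF_rep DRep.fst DRep.snd))
  exact ((hs.add (logCapF_rep (resF_rep hx hu) (inL_rep hx) (tail_rep (nodeT_rep hx)))).sub
    (logCapF_rep (inR_rep hx) ((inC_rep hx).cons (inL_rep hx)) (nodeT_rep hx))).sub
    (flog_rep (fint_rep (DRep.one.add DRep.one)))

/-- The two coins. Input: the trial and the first column. -/
noncomputable def coinsF (S : ℕ) (y : In × List ℤ) : PMF (List ℤ) :=
  (coinExpF S (coinL1 S y)).bind fun a =>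
    (coinExpF S (coinL2 S y)).bind fun b =>
      if 0 < cmul S a b then PMF.pure y.2 else PMF.pure []

theorem coinsF_rep : Rep (α := In × List ℤ) (β := List ℤ) coinsF := by
  have h1 : Rep (α := In × List ℤ) (β := ℤ) fun S y => coinExpF S (coinL1 S y) :=
    rep_compD coinL1_rep coinExpF_rep
  have h2 : Rep (α := (In × List ℤ) × ℤ) (β := ℤ) fun S z => coinExpF S (coinL2 S z.1) :=
    rep_compD (DRep.fst.comp coinL2_rep) coinExpF_rep
  have h3 : Rep (α := ((In × List ℤ) × ℤ) × ℤ) (β := List ℤ) fun S w =>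
      if 0 < cmul S w.1.2 w.2 then PMF.pure w.1.1.2 else PMF.pure [] :=
    Rep.ite ((DRep.fst.comp DRep.snd).mul DRep.snd)
      (Rep.ofD ((DRep.fst.comp DRep.fst).comp DRep.snd)) (Rep.ofD DRep.nil')
  exact Rep.bind h1 (Rep.bind h2 h3)

/-- What follows the sample. -/
noncomputable def afterF (S : ℕ) (y : In × List ℤ) : PMF (List ℤ) :=
  if 0 < validF S y.1 (finishF S y.1 y.2) then coinsF S (y.1, finishF S y.1 y.2) else PMF.pure []

theorem afterF_rep : Rep (α := In × List ℤ) (β := List ℤ) afterF := by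
  have h : DRep (α := In × List ℤ) (β := In × List ℤ) fun S y => (y.1, finishF S y.1 y.2) :=
    DRep.fst.pair finishF_rep
  exact Rep.ite (h.comp validF_rep) (rep_compD h coinsF_rep) (Rep.ofD DRep.nil')

end TrialP

/-- **One trial.** Input: the node `(r, c0, l)` and `κ`. -/
noncomputable def trialF (S : ℕ) (x : (List ℤ × ℤ × List ℤ) × List (List ℤ)) : PMF (List ℤ) :=
  if 0 < passF S x then (sampleF S x).bind fun X => afterF S (x, X) else PMF.pure []

theorem trialF_rep : Rep trialF :=
  Rep.ite passF_rep (Rep.bind sampleF_rep afterF_rep) (Rep.ofD DRep.nil')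

namespace TrialP

/-! ### The support of a trial -/

section Support

variable {S : ℕ}

theorem clamp_pos_iff {z : ℤ} : 0 < clamp S z ↔ 0 < z := by
  unfold clamp
  have hB : (0 : ℤ) < 2 ^ wid S := by positivity
  constructor
  · intro h
    by_contra hz
    have hz' : z ≤ 0 := not_lt.1 hz
    have h1 : min z (2 ^ wid S) ≤ 0 := le_trans (min_le_left _ _) hz'
    have h2 : max (-(2 ^ wid S)) (min z (2 ^ wid S)) ≤ 0 := max_le (by linarith) h1
    linarith
  · intro h
    exact lt_of_lt_of_le (lt_min h hB) (le_max_right _ _)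

theorem clamp_nonneg_iff {z : ℤ} : 0 ≤ clamp S z ↔ 0 ≤ z := by
  unfold clamp
  have hB : (0 : ℤ) < 2 ^ wid S := by positivity
  constructor
  · intro h
    by_contra hz
    have hz' : z < 0 := not_le.1 hz
    have h1 : min z (2 ^ wid S) < 0 := lt_of_le_of_lt (min_le_left _ _) hz'
    have h2 : max (-(2 ^ wid S)) (min z (2 ^ wid S)) < 0 := max_lt (by linarith) h1
    linarith
  · intro h
    exact le_trans (le_min h hB.le) (le_max_right _ _)

theorem clamp_self {z : ℤ} (h0 : -(2 ^ wid S) ≤ z) (h1 : z ≤ 2 ^ wid S) : clamp S z = z := by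
  unfold clamp
  rw [min_eq_left h1, max_eq_right h0]

theorem clamp_one : clamp S 1 = 1 := by
  have hB : (1 : ℤ) ≤ 2 ^ wid S := one_le_pow₀ (by norm_num)
  exact clamp_self (by linarith) hB

theorem nonneg_of_test {a : ℤ} (h : 0 < cadd S a 1) : 0 ≤ a := by
  unfold cadd at h
  rw [clamp_pos_iff, clamp_one] at h
  exact clamp_nonneg_iff.1 (by linarith)

theorem le_of_test {R a : ℤ} (hR0 : 0 ≤ R) (hR1 : R < 2 ^ wid S)
    (h : 0 < cadd S (csub S R a) 1) : a ≤ R := by
  have h1 := nonneg_of_test h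
  unfold csub at h1
  rw [clamp_nonneg_iff, clamp_self (by linarith) hR1.le] at h1
  by_contra hc
  have hc' : R < a := not_le.1 hc
  have h2 : R < min a (2 ^ wid S) := lt_min hc' hR1
  have h3 : min a (2 ^ wid S) ≤ clamp S a := le_max_right _ _
  linarith

theorem foldl_cadd (L : List ℤ) (s B : ℤ) (hB : B ≤ 2 ^ wid S) (hs : 0 ≤ s) (hL : ∀ a ∈ L, 0 ≤ a)
    (hsum : s + L.sum ≤ B) : L.foldl (fun s a => cadd S s a) s = s + L.sum := by
  have hB0 : (0 : ℤ) < 2 ^ wid S := by positivity
  induction L generalizing s with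
  | nil => simp
  | cons a L ih =>
    have ha : 0 ≤ a := hL a (by simp)
    have hL' : ∀ a ∈ L, 0 ≤ a := fun b hb => hL b (List.mem_cons_of_mem _ hb)
    have hLs : 0 ≤ L.sum := List.sum_nonneg hL'
    rw [List.sum_cons] at hsum
    have e : cadd S s a = s + a := by
      unfold cadd
      rw [clamp_self (S := S) (z := s) (by linarith) (by linarith),
        clamp_self (S := S) (z := a) (by linarith) (by linarith),
        clamp_self (S := S) (z := s + a) (by linarith) (by linarith)]
    rw [List.foldl_cons, e, ih (s + a) (by linarith) hL' (by linarith), List.sum_cons]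
    ring

theorem eq_of_not_neF {a b : ℤ} (ha : |a| ≤ 2 ^ (wid S - 1)) (hb : |b| ≤ 2 ^ (wid S - 1))
    (hw : 0 < wid S) (h : ¬ 0 < neF S a b) : a = b := by
  have hpow : (2 : ℤ) ^ wid S = 2 * 2 ^ (wid S - 1) := by
    obtain ⟨k, hk⟩ : ∃ k, wid S = k + 1 := ⟨wid S - 1, by omega⟩
    rw [hk]
    simp [pow_succ, mul_comm]
  have hP : (0 : ℤ) ≤ 2 ^ (wid S - 1) := by positivity
  obtain ⟨ha0, ha1⟩ := abs_le.1 ha
  obtain ⟨hb0, hb1⟩ := abs_le.1 hb
  have hca : clamp S a = a := clamp_self (by linarith) (by linarith)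
  have hcb : clamp S b = b := clamp_self (by linarith) (by linarith)
  have hd : csub S a b = a - b := by
    unfold csub
    rw [hca, hcb]
    exact clamp_self (by linarith) (by linarith)
  unfold neF at h
  rw [hd] at h
  unfold cmul at h
  by_contra hne
  apply h
  rw [clamp_pos_iff]
  have hne' : a - b ≠ 0 := sub_ne_zero.2 hne
  have hc : clamp S (a - b) = a - b := clamp_self (by linarith) (by linarith)
  rw [hc]
  exact mul_self_pos.2 hne'

theorem fold_valid (A B : ℤ → ℤ) (L : List ℤ) (s : ℤ)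
    (h : 0 < L.foldl (fun s j => if 0 < A j then (if 0 < B j then s else 0) else 0) s) :
    0 < s ∧ ∀ j ∈ L, 0 < A j ∧ 0 < B j := by
  induction L generalizing s with
  | nil => simpa using h
  | cons a L ih =>
    rw [List.foldl_cons] at h
    obtain ⟨h1, h2⟩ := ih _ h
    by_cases hA : 0 < A a
    · by_cases hB : 0 < B a
      · simp only [hA, hB, if_true] at h1
        refine ⟨h1, fun j hj => ?_⟩
        rcases List.mem_cons.1 hj with rfl | hj
        · exact ⟨hA, hB⟩
        · exact h2 j hj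
      · simp [hA, hB] at h1
    · simp [hA] at h1

theorem idxL_lN {k : ℕ} (hk : k ≤ S) (f : Fin k → ℕ) :
    (idxL S (lN f)).take S = (List.range k).map fun j : ℕ => (j : ℤ) := by
  have h1 : (lN f).length = k := by simp [lN]
  have h2 : ((lN f).take S).length = k := by
    rw [List.length_take, h1]
    exact min_eq_right hk
  rw [idxL_eq, h2]
  have h3 : (((k : ℤ)).toNat) = k := Int.toNat_natCast k
  rw [h3, min_eq_left hk]
  exact List.take_of_length_le (by simpa using hk)

theorem getL_lN {k : ℕ} (hk : k ≤ S) (f : Fin k → ℕ) (i : Fin k) : getL S (lN f) ((i : ℕ) : ℤ) = f i := by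
  unfold getL
  rw [List.take_of_length_le (by simpa [lN] using hk), Int.toNat_natCast]
  unfold lN
  rw [List.getD_eq_getElem _ _ (by simp)]
  simp

theorem valid_imp {m : ℕ} {r : Fin m → ℕ} {c0 : ℕ} {x : In} (hx : inR x = lN r) (hc : inC x = c0)
    (hm : m ≤ S) (hS : S ≤ wid S - 1) (hw : 0 < wid S) (hN : ∑ i, r i < 2 ^ S) (hc0 : c0 ≤ ∑ i, r i) {X : List ℤ}
    (hv : 0 < validF S x (finishF S x X)) : ∃ y ∈ lev r c0, finishF S x X = lN y := by
  have hP : (2 : ℤ) ^ S ≤ 2 ^ (wid S - 1) := pow_le_pow_right₀ (by norm_num) hS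
  have hP2 : (2 : ℤ) ^ (wid S - 1) < 2 ^ wid S := pow_lt_pow_right₀ (by norm_num) (by omega)
  have hNZ : ((∑ i, r i : ℕ) : ℤ) < 2 ^ S := by exact_mod_cast hN
  have hidx : (idxL S (inR x)).take S = (List.range m).map fun j : ℕ => (j : ℤ) := by
    rw [hx]
    exact idxL_lN hm r
  set g : ℤ → ℤ := fun j =>
    if 0 < neF S j (idxF S x) then getL S X j else csub S (inC x) (sumL S X) with hg
  have hw' : finishF S x X = ((List.range m).map fun j : ℕ => (j : ℤ)).map g := by
    unfold finishF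
    rw [hidx]
  have hofn : finishF S x X = List.ofFn fun i : Fin m => g ((i : ℕ) : ℤ) := by
    rw [hw']
    refine List.ext_getElem (by simp) fun i h1 h2 => ?_
    simp
  generalize hu : finishF S x X = u at hv hofn
  unfold validF at hv
  rw [hidx] at hv
  obtain ⟨h0, hall⟩ := fold_valid _ _ _ _ hv
  have hget : ∀ i : Fin m, getL S u ((i : ℕ) : ℤ) = g ((i : ℕ) : ℤ) := by
    intro i
    unfold getL
    rw [hofn, List.take_of_length_le (by simpa using hm), Int.toNat_natCast,
      List.getD_eq_getElem _ _ (by simp)]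
    simp
  have hrle : ∀ i : Fin m, r i ≤ ∑ i, r i := fun i =>
    Finset.single_le_sum (fun _ _ => Nat.zero_le _) (Finset.mem_univ i)
  have hnn : ∀ i : Fin m, 0 ≤ g ((i : ℕ) : ℤ) := by
    intro i
    have := (hall ((i : ℕ) : ℤ) (by simp)).1
    rw [hget] at this
    exact nonneg_of_test this
  have hle : ∀ i : Fin m, g ((i : ℕ) : ℤ) ≤ r i := by
    intro i
    have := (hall ((i : ℕ) : ℤ) (by simp)).2
    rw [hget, hx, getL_lN hm] at this
    refine le_of_test (by positivity) ?_ this
    have : (r i : ℤ) ≤ ((∑ i, r i : ℕ) : ℤ) := by exact_mod_cast hrle i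
    linarith
  refine ⟨fun i => (g ((i : ℕ) : ℤ)).toNat, ?_, ?_⟩
  · rw [mem_lev]
    have hcast : ∀ i : Fin m, (((g ((i : ℕ) : ℤ)).toNat : ℕ) : ℤ) = g ((i : ℕ) : ℤ) := fun i =>
      Int.toNat_of_nonneg (hnn i)
    have hle' : ∀ i : Fin m, (g ((i : ℕ) : ℤ)).toNat ≤ r i := by
      intro i
      have := hle i
      rw [← hcast i] at this
      exact_mod_cast this
    refine ⟨hle', ?_⟩
    have hsum : u.sum = ∑ i : Fin m, g ((i : ℕ) : ℤ) := by
      rw [hofn, List.sum_ofFn]
    have hsumle : u.sum ≤ ((∑ i, r i : ℕ) : ℤ) := by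
      rw [hsum]
      push_cast
      exact Finset.sum_le_sum fun i _ => hle i
    have hsnn : ∀ a ∈ u, 0 ≤ a := by
      intro a ha
      rw [hofn, List.mem_ofFn] at ha
      obtain ⟨i, rfl⟩ := ha
      exact hnn i
    have hsumL : sumL S u = u.sum := by
      unfold sumL
      rw [List.take_of_length_le (by rw [hofn]; simpa using hm)]
      have := foldl_cadd (S := S) u 0 ((∑ i, r i : ℕ) : ℤ) (by linarith) le_rfl hsnn (by linarith)
      rw [this, zero_add]
    have h00 : ¬ 0 < neF S (sumL S u) (inC x) := by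
      intro hh
      simp [hh] at h0
    have hsum0 : 0 ≤ u.sum := List.sum_nonneg hsnn
    have hc1 : (c0 : ℤ) ≤ ((∑ i, r i : ℕ) : ℤ) := by exact_mod_cast hc0
    have e := eq_of_not_neF (S := S) (a := sumL S u) (b := inC x)
      (by rw [hsumL, abs_of_nonneg hsum0]; linarith)
      (by rw [hc, abs_of_nonneg (by positivity)]; linarith) hw h00
    rw [hsumL, hsum, hc] at e
    have : ((∑ i : Fin m, (g ((i : ℕ) : ℤ)).toNat : ℕ) : ℤ) = c0 := by
      push_cast
      rw [← e]
      exact Finset.sum_congr rfl fun i _ => hcast i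
    exact_mod_cast this
  · rw [hofn]
    unfold lN
    congr 1
    funext i
    exact (Int.toNat_of_nonneg (hnn i)).symm

end Support

end TrialP

namespace TrialP

/-! ### The law of a trial -/

section Law

variable {S : ℕ}

theorem clamp_zero : clamp S 0 = 0 := by
  have hB : (0 : ℤ) ≤ 2 ^ wid S := by positivity
  exact clamp_self (by linarith) hB

theorem cmul_zero_left (b : ℤ) : cmul S 0 b = 0 := by
  unfold cmul
  rw [clamp_zero, zero_mul, clamp_zero]

theorem cmul_zero_right (a : ℤ) : cmul S a 0 = 0 := by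
  unfold cmul
  rw [clamp_zero, mul_zero, clamp_zero]

theorem cmul_one_one : cmul S 1 1 = 1 := by
  unfold cmul
  rw [clamp_one, mul_one, clamp_one]

theorem neF_self (a : ℤ) : neF S a a = 0 := by
  unfold neF csub
  rw [sub_self, clamp_zero, cmul_zero_left]

theorem neF_pos {a b : ℤ} (ha : |a| ≤ 2 ^ (wid S - 1)) (hb : |b| ≤ 2 ^ (wid S - 1)) (hw : 0 < wid S)
    (h : a ≠ b) : 0 < neF S a b := by
  by_contra hc
  exact h (eq_of_not_neF ha hb hw hc)

theorem map_range_ofFn {β : Type} {k : ℕ} (f : ℤ → β) :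
    ((List.range k).map fun j : ℕ => (j : ℤ)).map f = List.ofFn fun a : Fin k => f ((a : ℕ) : ℤ) := by
  refine List.ext_getElem (by simp) fun i h1 h2 => ?_
  simp

theorem getL_ofFn {k : ℕ} (hk : k ≤ S) (g : Fin k → ℤ) (a : Fin k) :
    getL S (List.ofFn g) ((a : ℕ) : ℤ) = g a := by
  unfold getL
  rw [List.take_of_length_le (by simpa using hk), Int.toNat_natCast,
    List.getD_eq_getElem _ _ (by simp)]
  simp

theorem sumL_ofFn {k : ℕ} (hk : k ≤ S) (g : Fin k → ℤ) {B : ℤ} (hB : B ≤ 2 ^ wid S)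
    (h0 : ∀ a, 0 ≤ g a) (h1 : ∑ a, g a ≤ B) : sumL S (List.ofFn g) = ∑ a, g a := by
  unfold sumL
  rw [List.take_of_length_le (by simpa using hk)]
  have hs : (List.ofFn g).sum = ∑ a, g a := List.sum_ofFn
  have hnn : ∀ a ∈ List.ofFn g, 0 ≤ a := by
    intro a ha
    rw [List.mem_ofFn] at ha
    obtain ⟨i, rfl⟩ := ha
    exact h0 i
  rw [foldl_cadd (S := S) _ 0 B hB le_rfl hnn (by rw [zero_add, hs]; exact h1), zero_add, hs]

variable {m : ℕ} {r : Fin m → ℕ} {c0 : ℕ} {x : In}

theorem sampleF_eq (hx : inR x = lN r) (hm : m ≤ S) :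
    sampleF S x = seqP (List.ofFn fun a : Fin m => drawF S x ((a : ℕ) : ℤ)) := by
  unfold sampleF
  rw [hx, idxL_lN hm r, map_range_ofFn]

theorem finishF_eq (hx : inR x = lN r) (hm : m ≤ S) (X : List ℤ) :
    finishF S x X = List.ofFn fun a : Fin m =>
      if 0 < neF S ((a : ℕ) : ℤ) (idxF S x) then getL S X ((a : ℕ) : ℤ)
      else csub S (inC x) (sumL S X) := by
  unfold finishF
  rw [hx, idxL_lN hm r, map_range_ofFn]

theorem fold_valid_eq (A B : ℤ → ℤ) (L : List ℤ) (s : ℤ) (h : ∀ j ∈ L, 0 < A j ∧ 0 < B j) :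
    L.foldl (fun s j => if 0 < A j then (if 0 < B j then s else 0) else 0) s = s := by
  induction L with
  | nil => rfl
  | cons a L ih =>
    rw [List.foldl_cons, if_pos (h a (by simp)).1, if_pos (h a (by simp)).2]
    exact ih fun j hj => h j (List.mem_cons_of_mem _ hj)

/-- The size conditions that are used. -/
structure Sz (S m : ℕ) (r : Fin m → ℕ) (c0 : ℕ) : Prop where
  hS : 1000000 ≤ S
  hm : m ≤ S
  hw : S + 1 ≤ wid S
  hN : ∑ i, r i < 2 ^ S
  hc0 : c0 ≤ ∑ i, r i

variable (hs : Sz S m r c0)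

include hs

theorem Sz.pow_le : (2 : ℤ) ^ S ≤ 2 ^ (wid S - 1) :=
  pow_le_pow_right₀ (by norm_num) (by have := hs.hw; omega)

theorem Sz.pow_lt : (2 : ℤ) ^ (wid S - 1) < 2 ^ wid S :=
  pow_lt_pow_right₀ (by norm_num) (by have := hs.hw; omega)

theorem Sz.idx_abs (a : Fin m) : |((a : ℕ) : ℤ)| ≤ 2 ^ (wid S - 1) := by
  rw [abs_of_nonneg (by positivity)]
  have h1 : (((a : ℕ) : ℤ)) < 2 ^ S := by
    have h2 : (a : ℕ) < 2 ^ S :=
      lt_of_lt_of_le a.2 (le_trans hs.hm (le_of_lt Nat.lt_two_pow_self))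
    exact_mod_cast h2
  have := hs.pow_le
  linarith

theorem Sz.sum_lt : ((∑ i, r i : ℕ) : ℤ) < 2 ^ S := by
  exact_mod_cast hs.hN

/-- The test of a first column of the node. -/
theorem validF_lN (hx : inR x = lN r) (hc : inC x = c0) {z : Fin m → ℕ} (hz : z ∈ lev r c0) :
    0 < validF S x (lN z) := by
  obtain ⟨hzr, hzs⟩ := mem_lev.1 hz
  have hP := hs.pow_le
  have hP2 := hs.pow_lt
  have hNZ := hs.sum_lt
  have hrle : ∀ i : Fin m, ((r i : ℕ) : ℤ) ≤ ((∑ i, r i : ℕ) : ℤ) := fun i => by
    exact_mod_cast Finset.single_le_sum (fun _ _ => Nat.zero_le _) (Finset.mem_univ i)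
  have hsum : sumL S (lN z) = (c0 : ℤ) := by
    have e : lN z = List.ofFn fun a => ((z a : ℕ) : ℤ) := rfl
    rw [e, sumL_ofFn hs.hm _ (B := ((∑ i, r i : ℕ) : ℤ)) (by linarith) (fun a => by positivity)
      (by
        have hc1 : (c0 : ℤ) ≤ ((∑ i, r i : ℕ) : ℤ) := by exact_mod_cast hs.hc0
        have : ∑ a, ((z a : ℕ) : ℤ) = c0 := by exact_mod_cast hzs
        linarith)]
    exact_mod_cast hzs
  unfold validF
  rw [hx, idxL_lN hs.hm r, ← hx, hc, hsum, neF_self, if_neg (lt_irrefl _), fold_valid_eq]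
  · exact one_pos
  · intro j hj
    rw [List.mem_map] at hj
    obtain ⟨k, hk, rfl⟩ := hj
    have hk' : k < m := List.mem_range.1 hk
    have e1 : getL S (lN z) ((k : ℕ) : ℤ) = z ⟨k, hk'⟩ := getL_lN hs.hm z ⟨k, hk'⟩
    have e2 : getL S (inR x) ((k : ℕ) : ℤ) = r ⟨k, hk'⟩ := by
      rw [hx]
      exact getL_lN hs.hm r ⟨k, hk'⟩
    rw [e1, e2]
    have hzr' : ((z ⟨k, hk'⟩ : ℕ) : ℤ) ≤ r ⟨k, hk'⟩ := by exact_mod_cast hzr _
    have hr' := hrle ⟨k, hk'⟩
    have hz0 : (0 : ℤ) ≤ ((z ⟨k, hk'⟩ : ℕ) : ℤ) := by positivity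
    have hB : (1 : ℤ) ≤ 2 ^ wid S := one_le_pow₀ (by norm_num)
    constructor
    · unfold cadd
      rw [clamp_pos_iff, clamp_one, clamp_self (by linarith) (by linarith)]
      linarith
    · unfold cadd
      rw [clamp_pos_iff, clamp_one, clamp_self (S := S) (z := csub S _ _) ?_ ?_]
      · unfold csub
        rw [clamp_self (S := S) (z := ((r ⟨k, hk'⟩ : ℕ) : ℤ)) (by linarith) (by linarith),
          clamp_self (S := S) (z := ((z ⟨k, hk'⟩ : ℕ) : ℤ)) (by linarith) (by linarith),
          clamp_self (by linarith) (by linarith)]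
        linarith
      · unfold csub
        rw [clamp_self (S := S) (z := ((r ⟨k, hk'⟩ : ℕ) : ℤ)) (by linarith) (by linarith),
          clamp_self (S := S) (z := ((z ⟨k, hk'⟩ : ℕ) : ℤ)) (by linarith) (by linarith),
          clamp_self (by linarith) (by linarith)]
        linarith
      · unfold csub
        rw [clamp_self (S := S) (z := ((r ⟨k, hk'⟩ : ℕ) : ℤ)) (by linarith) (by linarith),
          clamp_self (S := S) (z := ((z ⟨k, hk'⟩ : ℕ) : ℤ)) (by linarith) (by linarith),
          clamp_self (by linarith) (by linarith)]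
        linarith

omit hs in
/-- The draws that lead to the column `z`: the entries of `z`, and zero at the last row. -/
theorem coinsF_apply (hS : 1000000 ≤ S) {u : List ℤ} (hu : u ≠ []) :
    coinsF S (x, u) u = coinExpF S (coinL1 S (x, u)) 1 * coinExpF S (coinL2 S (x, u)) 1 := by
  classical
  have hne : (PMF.pure ([] : List ℤ)) u = 0 := by simp [PMF.pure_apply, hu]
  unfold coinsF
  rw [bind_apply_single _ _ 1]
  · congr 1
    rw [bind_apply_single _ _ 1]
    · rw [cmul_one_one, if_pos one_pos]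
      simp [PMF.pure_apply]
    · intro b hb
      by_cases hb0 : b = 0
      · right
        subst hb0
        rw [cmul_zero_right, if_neg (lt_irrefl _)]
        exact hne
      · left
        by_contra hc
        rcases coinExpF_support hS _ _ hc with h1 | h1
        · exact hb0 h1
        · exact hb h1
  · intro a ha
    by_cases ha0 : a = 0
    · right
      subst ha0
      rw [PMF.bind_apply]
      refine ENNReal.tsum_eq_zero.2 fun b => ?_
      rw [cmul_zero_left, if_neg (lt_irrefl _), hne, mul_zero]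
    · left
      by_contra hc
      rcases coinExpF_support hS _ _ hc with h1 | h1
      · exact ha0 h1
      · exact ha h1

/-- **The exact law of a trial at a first column of the node.** -/
theorem trial_law (hx : inR x = lN r) (hc : inC x = c0) (i : Fin m)
    (hi : idxF S x = ((i : ℕ) : ℤ)) {z : Fin m → ℕ} (hz : z ∈ lev r c0) :
    (sampleF S x).bind (fun X => afterF S (x, X)) (lN z)
      = (∏ a ∈ Finset.univ.erase i, binF S ((r a : ℤ), aF S x ((a : ℕ) : ℤ), bF S x ((a : ℕ) : ℤ)) ((z a : ℕ) : ℤ))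
        * coinExpF S (coinL1 S (x, lN z)) 1 * coinExpF S (coinL2 S (x, lN z)) 1 := by
  classical
  obtain ⟨hzr, hzs⟩ := mem_lev.1 hz
  have hP := hs.pow_le
  have hP2 := hs.pow_lt
  have hNZ := hs.sum_lt
  have hwpos : 0 < wid S := by have := hs.hw; omega
  have hlN : lN z ≠ [] := by
    unfold lN
    intro h
    have := congrArg List.length h
    simp at this
    exact absurd this (by have := i.2; omega)
  -- the draws
  set g : Fin m → ℤ := fun a => if a = i then 0 else ((z a : ℕ) : ℤ) with hg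
  have hdi : ∀ a : Fin m, a ≠ i → 0 < neF S ((a : ℕ) : ℤ) (idxF S x) := by
    intro a ha
    rw [hi]
    refine neF_pos (hs.idx_abs a) (hs.idx_abs i) hwpos fun h => ha (Fin.ext ?_)
    exact_mod_cast h
  have hdi0 : ¬ 0 < neF S ((i : ℕ) : ℤ) (idxF S x) := by
    rw [hi, neF_self]
    exact lt_irrefl _
  have hdraw : ∀ a : Fin m, a ≠ i → drawF S x ((a : ℕ) : ℤ)
      = binF S ((r a : ℤ), aF S x ((a : ℕ) : ℤ), bF S x ((a : ℕ) : ℤ)) := by
    intro a ha
    unfold drawF
    rw [if_pos (hdi a ha), hx, getL_lN hs.hm r a]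
  have hdraw0 : drawF S x ((i : ℕ) : ℤ) = PMF.pure 0 := by
    unfold drawF
    rw [if_neg hdi0]
  -- the column from the draws
  have hsumg : ∑ a, g a = (c0 : ℤ) - z i := by
    have h1 : ∑ a, ((z a : ℕ) : ℤ) = c0 := by exact_mod_cast hzs
    have h2 : ∑ a, g a = ∑ a ∈ Finset.univ.erase i, ((z a : ℕ) : ℤ) := by
      rw [← Finset.sum_erase (Finset.univ) (a := i) (f := g) (by simp [hg])]
      refine Finset.sum_congr rfl fun a ha => ?_
      simp [hg, Finset.ne_of_mem_erase ha]
    rw [h2, ← h1, ← Finset.add_sum_erase _ _ (Finset.mem_univ i)]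
    ring
  have hc1 : (c0 : ℤ) ≤ ((∑ i, r i : ℕ) : ℤ) := by exact_mod_cast hs.hc0
  have hzi : ((z i : ℕ) : ℤ) ≤ c0 := by
    rw [← hzs]
    push_cast
    exact Finset.single_le_sum (f := fun a => ((z a : ℕ) : ℤ)) (fun a _ => by positivity)
      (Finset.mem_univ i)
  have hsumL : sumL S (List.ofFn g) = (c0 : ℤ) - z i := by
    rw [sumL_ofFn hs.hm g (B := (c0 : ℤ)) (by linarith)
      (fun a => by simp only [hg]; split_ifs <;> positivity)
      (by rw [hsumg]; have : (0 : ℤ) ≤ ((z i : ℕ) : ℤ) := by positivity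
          linarith), hsumg]
  have hfin : finishF S x (List.ofFn g) = lN z := by
    rw [finishF_eq hx hs.hm]
    unfold lN
    congr 1
    funext a
    by_cases ha : a = i
    · subst ha
      rw [if_neg hdi0, hc, hsumL]
      have h0 : (0 : ℤ) ≤ ((z a : ℕ) : ℤ) := by positivity
      unfold csub
      rw [clamp_self (S := S) (z := (c0 : ℤ)) (by linarith) (by linarith),
        clamp_self (S := S) (z := (c0 : ℤ) - z a) (by linarith) (by linarith),
        clamp_self (by linarith) (by linarith)]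
      ring
    · rw [if_pos (hdi a ha), getL_ofFn hs.hm]
      simp [hg, ha]
  -- only one sample contributes
  have hsamp : sampleF S x = seqP (List.ofFn fun a : Fin m => drawF S x ((a : ℕ) : ℤ)) :=
    sampleF_eq hx hs.hm
  rw [bind_apply_single _ _ (List.ofFn g)]
  · have h1 : sampleF S x (List.ofFn g) = ∏ a ∈ Finset.univ.erase i,
        binF S ((r a : ℤ), aF S x ((a : ℕ) : ℤ), bF S x ((a : ℕ) : ℤ)) ((z a : ℕ) : ℤ) := by
      rw [hsamp, seqP_ofFn, ← Finset.prod_erase_mul _ _ (Finset.mem_univ i)]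
      have e1 : drawF S x ((i : ℕ) : ℤ) (g i) = 1 := by
        rw [hdraw0]
        simp [hg, PMF.pure_apply]
      rw [e1, mul_one]
      refine Finset.prod_congr rfl fun a ha => ?_
      have ha' := Finset.ne_of_mem_erase ha
      rw [hdraw a ha']
      simp [hg, ha']
    have h2 : afterF S (x, List.ofFn g) (lN z)
        = coinExpF S (coinL1 S (x, lN z)) 1 * coinExpF S (coinL2 S (x, lN z)) 1 := by
      show (if 0 < validF S x (finishF S x (List.ofFn g)) then coinsF S (x, finishF S x (List.ofFn g))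
        else PMF.pure []) (lN z) = _
      rw [hfin, if_pos (validF_lN hs hx hc hz), coinsF_apply hs.hS hlN]
    rw [h1, h2, mul_assoc]
  · intro b hb
    by_contra hcon
    push Not at hcon
    obtain ⟨h1, h2⟩ := hcon
    apply hb
    rw [hsamp] at h1
    have hlen := seqP_length _ _ h1
    simp only [List.length_ofFn] at hlen
    obtain ⟨g', rfl⟩ := exists_ofFn b hlen
    rw [seqP_ofFn] at h1
    have hne := Finset.prod_ne_zero_iff.1 h1
    have hp0 : (PMF.pure ([] : List ℤ)) (lN z) = 0 := by simp [PMF.pure_apply, hlN]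
    have hfb : lN z = finishF S x (List.ofFn g') := by
      change (if 0 < validF S x (finishF S x (List.ofFn g')) then coinsF S (x, finishF S x (List.ofFn g'))
        else PMF.pure []) (lN z) ≠ 0 at h2
      split_ifs at h2 with hv
      · unfold coinsF at h2
        obtain ⟨a, -, ha⟩ := exists_of_bind_ne h2
        obtain ⟨b', -, hb'⟩ := exists_of_bind_ne ha
        split_ifs at hb' with hab
        · by_contra hcon
          exact hb' (by simp [PMF.pure_apply, hcon])
        · exact absurd hp0 hb'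
      · exact absurd hp0 h2
    congr 1
    funext a
    by_cases ha : a = i
    · subst ha
      have h3 := hne a (Finset.mem_univ a)
      rw [hdraw0] at h3
      have h4 : g' a = 0 := by
        by_contra hcon
        exact h3 (by simp [PMF.pure_apply, hcon])
      rw [h4]
      simp [hg]
    · rw [finishF_eq hx hs.hm] at hfb
      unfold lN at hfb
      have h5 := List.ofFn_injective hfb
      have h6 := congrFun h5 a
      rw [if_pos (hdi a ha), getL_ofFn hs.hm] at h6
      simp [hg, ha, h6]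

omit hs in
theorem firstStep_pos (L : List ℤ) (f n : ℤ) (hf : 0 < f) :
    (L.foldl (fun st a => firstStep S st a) (f, n)).1 = f := by
  induction L generalizing n with
  | nil => rfl
  | cons a L ih =>
    rw [List.foldl_cons]
    have e : firstStep S (f, n) a = (f, cadd S n 1) := by
      unfold firstStep
      simp [hf]
    rw [e]
    exact ih _

omit hs in
theorem firstStep_spec (L : List ℤ) (n : ℤ) (hn : 0 ≤ n) (hL : n + L.length < 2 ^ wid S) :
    ((L.foldl (fun st a => firstStep S st a) (0, n)).1 = 0 ∧ ∀ a ∈ L, a ≤ 0)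
      ∨ ∃ k : ℕ, ∃ hk : k < L.length,
        (L.foldl (fun st a => firstStep S st a) (0, n)).1 = n + k + 1 ∧ 0 < L[k] := by
  induction L generalizing n with
  | nil =>
    left
    simp
  | cons a L ih =>
    have hlen : (((a :: L).length : ℕ) : ℤ) = L.length + 1 := by simp
    rw [hlen] at hL
    have hcadd : cadd S n 1 = n + 1 := by
      unfold cadd
      have hB : (0 : ℤ) < 2 ^ wid S := by positivity
      have hL0 : (0 : ℤ) ≤ L.length := by positivity
      rw [clamp_one, clamp_self (S := S) (z := n) (by linarith) (by linarith),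
        clamp_self (S := S) (z := n + 1) (by linarith) (by linarith)]
    rw [List.foldl_cons]
    by_cases ha : 0 < a
    · right
      have e : firstStep S (0, n) a = (n + 1, n + 1) := by
        unfold firstStep
        simp [ha, hcadd]
      rw [e, firstStep_pos L (n + 1) (n + 1) (by linarith)]
      exact ⟨0, by simp, by simp, by simpa using ha⟩
    · have e : firstStep S (0, n) a = (0, n + 1) := by
        unfold firstStep
        simp [ha, hcadd]
      rw [e]
      rcases ih (n + 1) (by linarith) (by linarith) with ⟨h1, h2⟩ | ⟨k, hk, h1, h2⟩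
      · left
        refine ⟨h1, fun b hb => ?_⟩
        rcases List.mem_cons.1 hb with rfl | hb
        · exact not_lt.1 ha
        · exact h2 b hb
      · right
        refine ⟨k + 1, by simpa using hk, ?_, by simpa using h2⟩
        rw [h1]
        push_cast
        ring

/-- The result of the search for the last row, in regime two. -/
theorem pickF_spec (hx : inR x = lN r) (hreg : 0 < regF S x) :
    (pickF S x = 0 ∧ ∀ a : Fin m, rowTest S x ((a : ℕ) : ℤ) ≤ 0)
      ∨ ∃ i : Fin m, pickF S x = ((i : ℕ) : ℤ) + 1 ∧ 0 < rowTest S x ((i : ℕ) : ℤ) := by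
  unfold pickF
  rw [if_pos hreg, hx, idxL_lN hs.hm r, map_range_ofFn]
  unfold firstPos
  rw [List.take_of_length_le (by simpa using hs.hm)]
  have hlt : ((List.ofFn fun a : Fin m => rowTest S x ((a : ℕ) : ℤ)).length : ℤ) < 2 ^ wid S := by
    have h1 : ((m : ℕ) : ℤ) < 2 ^ S := by
      have h2 : m < 2 ^ S := lt_of_le_of_lt hs.hm Nat.lt_two_pow_self
      exact_mod_cast h2
    have := hs.pow_le
    have := hs.pow_lt
    simp only [List.length_ofFn]
    linarith
  rcases firstStep_spec (S := S) (List.ofFn fun a : Fin m => rowTest S x ((a : ℕ) : ℤ)) 0 le_rfl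
    (by simpa using hlt) with ⟨h1, h2⟩ | ⟨k, hk, h1, h2⟩
  · left
    exact ⟨h1, fun a => h2 _ (List.mem_ofFn.2 ⟨a, rfl⟩)⟩
  · right
    have hk' : k < m := by simpa using hk
    refine ⟨⟨k, hk'⟩, ?_, by simpa using h2⟩
    rw [h1]
    push_cast
    ring

end Law

end TrialP

variable {S : ℕ} {r : Fin m → ℕ} {c0 : ℕ} {l : List ℕ}

/-- A trial returns a first column of the node, or fails. Here `κ` is arbitrary. -/
theorem trialF_support (h : NodeOK S r (Fin.cons c0 l.get : Fin (l.length + 1) → ℕ))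
    (κ : List (List ℤ)) (u : List ℤ) (hu : trialF S ((lN r, (c0 : ℤ), lL l), κ) u ≠ 0) :
    u = [] ∨ ∃ x ∈ lev r c0, u = lN x := by
  have hS6 : 1000000 ≤ S := h.S_ge
  have hwS : S + 1 ≤ wid S := by
    unfold wid
    have h2 : S ^ 1 ≤ S ^ 5 := pow_le_pow_right₀ (by omega) (by omega)
    nlinarith [pow_pos (show 0 < S by omega) 5]
  have hW : (10 : ℝ) ^ 6 * (((l.length + 1 : ℕ) : ℝ) * m + 1) ^ 2 ≤ S := h.hW
  have hmS : m ≤ S := by
    have h1 : (m : ℝ) ≤ ((l.length + 1 : ℕ) : ℝ) * m + 1 := by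
      push_cast
      nlinarith [(Nat.cast_nonneg l.length : (0 : ℝ) ≤ l.length), (Nat.cast_nonneg m : (0 : ℝ) ≤ m)]
    have h2 : (1 : ℝ) ≤ ((l.length + 1 : ℕ) : ℝ) * m + 1 := by
      have : (0 : ℝ) ≤ ((l.length + 1 : ℕ) : ℝ) * m := by positivity
      linarith
    have h3 : ((l.length + 1 : ℕ) : ℝ) * m + 1 ≤ (((l.length + 1 : ℕ) : ℝ) * m + 1) ^ 2 := by nlinarith
    have h4 : (m : ℝ) ≤ S := by nlinarith
    exact_mod_cast h4
  have hc0 : c0 ≤ ∑ i, r i := by
    rw [h.hsum, Fin.sum_univ_succ]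
    simp
  have hu' : u ∈ (trialF S ((lN r, (c0 : ℤ), lL l), κ)).support := (PMF.mem_support_iff _ _).2 hu
  unfold trialF at hu'
  split_ifs at hu' with hp
  · rw [PMF.mem_support_bind_iff] at hu'
    obtain ⟨X, -, hX⟩ := hu'
    unfold afterF at hX
    split_ifs at hX with hv
    · unfold coinsF at hX
      rw [PMF.mem_support_bind_iff] at hX
      obtain ⟨a, -, ha⟩ := hX
      rw [PMF.mem_support_bind_iff] at ha
      obtain ⟨b, -, hb⟩ := ha
      split_ifs at hb with hab
      · right
        rw [PMF.mem_support_pure_iff] at hb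
        obtain ⟨y, hy, hy2⟩ := valid_imp (S := S) (r := r) (c0 := c0)
          (x := ((lN r, (c0 : ℤ), lL l), κ)) rfl rfl hmS (by omega) (by omega) h.hN hc0 hv
        exact ⟨y, hy, by rw [hb]; exact hy2⟩
      · left
        simpa [PMF.mem_support_pure_iff] using hb
    · left
      simpa [PMF.mem_support_pure_iff] using hX
  · left
    simpa [PMF.mem_support_pure_iff] using hu'

/-- The size conditions, at a node. -/
theorem NodeOK.sz (h : NodeOK S r (Fin.cons c0 l.get : Fin (l.length + 1) → ℕ)) :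
    TrialP.Sz S m r c0 := by
  have hS6 : 1000000 ≤ S := h.S_ge
  have hwS : S + 1 ≤ wid S := by
    unfold wid
    have h2 : S ^ 1 ≤ S ^ 5 := pow_le_pow_right₀ (by omega) (by omega)
    nlinarith [pow_pos (show 0 < S by omega) 5]
  have hW : (10 : ℝ) ^ 6 * (((l.length + 1 : ℕ) : ℝ) * m + 1) ^ 2 ≤ S := h.hW
  have hmS : m ≤ S := by
    have h1 : (m : ℝ) ≤ ((l.length + 1 : ℕ) : ℝ) * m + 1 := by
      push_cast
      nlinarith [(Nat.cast_nonneg l.length : (0 : ℝ) ≤ l.length), (Nat.cast_nonneg m : (0 : ℝ) ≤ m)]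
    have h2 : (1 : ℝ) ≤ ((l.length + 1 : ℕ) : ℝ) * m + 1 := by
      have : (0 : ℝ) ≤ ((l.length + 1 : ℕ) : ℝ) * m := by positivity
      linarith
    have h3 : ((l.length + 1 : ℕ) : ℝ) * m + 1 ≤ (((l.length + 1 : ℕ) : ℝ) * m + 1) ^ 2 := by nlinarith
    have h4 : (m : ℝ) ≤ S := by nlinarith
    exact_mod_cast h4
  have hc0 : c0 ≤ ∑ i, r i := by
    rw [h.hsum, Fin.sum_univ_succ]
    simp
  exact ⟨hS6, hmS, hwS, h.hN, hc0⟩

/-- **The exact law of a trial at a first column of the node, when the trial goes on.**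
`idxF` is the row that is solved last. -/
theorem trialF_law (h : NodeOK S r (Fin.cons c0 l.get : Fin (l.length + 1) → ℕ)) (κ : List (List ℤ))
    (hp : 0 < passF S ((lN r, (c0 : ℤ), lL l), κ)) (i : Fin m)
    (hi : idxF S ((lN r, (c0 : ℤ), lL l), κ) = ((i : ℕ) : ℤ)) {z : Fin m → ℕ} (hz : z ∈ lev r c0) :
    trialF S ((lN r, (c0 : ℤ), lL l), κ) (lN z)
      = (∏ a ∈ univ.erase i, binF S ((r a : ℤ), aF S ((lN r, (c0 : ℤ), lL l), κ) ((a : ℕ) : ℤ),
            bF S ((lN r, (c0 : ℤ), lL l), κ) ((a : ℕ) : ℤ)) ((z a : ℕ) : ℤ))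
        * coinExpF S (coinL1 S (((lN r, (c0 : ℤ), lL l), κ), lN z)) 1
        * coinExpF S (coinL2 S (((lN r, (c0 : ℤ), lL l), κ), lN z)) 1 := by
  unfold trialF
  rw [if_pos hp]
  exact trial_law (NodeOK.sz h) rfl rfl i hi hz

/-- A trial that does not go on returns no first column. -/
theorem trialF_not_pass (hm : 0 < m) {x : TrialP.In} (hp : ¬ 0 < passF S x) (z : Fin m → ℕ) :
    trialF S x (lN z) = 0 := by
  classical
  have hlN : lN z ≠ [] := by
    unfold lN
    intro h
    have := congrArg List.length h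
    simp at this
    omega
  unfold trialF
  rw [if_neg hp]
  simp [PMF.pure_apply, hlN]

/-- The search for the last row in regime two. `rowTest` is positive iff the computed variance
is at least `V0 + 1 / S`, in words. -/
theorem pickF_node (h : NodeOK S r (Fin.cons c0 l.get : Fin (l.length + 1) → ℕ)) (κ : List (List ℤ))
    (hreg : 0 < regF S ((lN r, (c0 : ℤ), lL l), κ)) :
    (pickF S ((lN r, (c0 : ℤ), lL l), κ) = 0
        ∧ ∀ a : Fin m, rowTest S ((lN r, (c0 : ℤ), lL l), κ) ((a : ℕ) : ℤ) ≤ 0)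
      ∨ ∃ i : Fin m, pickF S ((lN r, (c0 : ℤ), lL l), κ) = ((i : ℕ) : ℤ) + 1
        ∧ 0 < rowTest S ((lN r, (c0 : ℤ), lL l), κ) ((i : ℕ) : ℤ) :=
  pickF_spec (NodeOK.sz h) rfl hreg

end Vale.Agent.Lib.P328.Bit
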