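import Vale.Agent.Lib.P328.Bit.Code
import Vale.Agent.Lib.P328.Fpras.Trial

/-!
# P328, bit model: Lipschitz bounds for a trial (module TRIALF-B)

`trPhi_le`, `trCapa_le`, `trUval_le`: if `t ≤ (1 + ξ) t'` entrywise then `Phi`, `capa`, `uval` at `t` are at most `(1 + ξ) ^ N` times their values at `t'`, `N = Σ r`.
`trTMap_lip`: `tMap` is Lipschitz.
`quot_close`, `val_cmul'`, `abs_log_sub_le`: small facts on numbers.
-/

namespace Vale.Agent.Lib.P328.Bit

open Finset Vale.Agent.Lib.P328.Cap Vale.Agent.Lib.P328.Fpras Vale.Agent.Lib.P328.Samp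

variable {m n : ℕ}

section Lip

variable {t t' : Fin n → Fin m → ℝ} {ξ : ℝ}

theorem trRow_le (hξ : 0 ≤ ξ) (h : ∀ j i, t j i ≤ (1 + ξ) * t' j i) {b : Fin n → ℝ} (hb : ∀ j, 0 < b j)
    (i : Fin m) : ∑ j, t j i * b j ≤ (1 + ξ) * ∑ j, t' j i * b j := by
  rw [Finset.mul_sum]
  refine Finset.sum_le_sum fun j _ => ?_
  have := mul_le_mul_of_nonneg_right (h j i) (hb j).le
  linarith

/-- `Phi` for two close matrices. -/
theorem trPhi_le (r : Fin m → ℕ) (c : Fin n → ℕ) (hξ : 0 ≤ ξ) (ht : ∀ j i, 0 ≤ t j i)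
    (h : ∀ j i, t j i ≤ (1 + ξ) * t' j i) {b : Fin n → ℝ} (hb : ∀ j, 0 < b j) :
    Phi r c t b ≤ (1 + ξ) ^ (∑ i, r i) * Phi r c t' b := by
  unfold Phi
  rw [← mul_div_assoc]
  have hd : 0 ≤ ∏ j, b j ^ c j := Finset.prod_nonneg fun j _ => pow_nonneg (hb j).le _
  refine div_le_div_of_nonneg_right ?_ hd
  rw [← Finset.prod_pow_eq_pow_sum, ← Finset.prod_mul_distrib]
  refine Finset.prod_le_prod (fun i _ => ?_) fun i _ => ?_
  · exact pow_nonneg (Finset.sum_nonneg fun j _ => mul_nonneg (ht j i) (hb j).le) _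
  · rw [← mul_pow]
    exact pow_le_pow_left₀ (Finset.sum_nonneg fun j _ => mul_nonneg (ht j i) (hb j).le)
      (trRow_le hξ h hb i) _

/-- The capacity for two close matrices. -/
theorem trCapa_le' (r : Fin m → ℕ) (c : Fin n → ℕ) (hξ : 0 ≤ ξ) (ht : ∀ j i, 0 ≤ t j i)
    (h : ∀ j i, t j i ≤ (1 + ξ) * t' j i) :
    capa r c t ≤ ENNReal.ofReal ((1 + ξ) ^ (∑ i, r i)) * capa r c t' := by
  have hpos : (0 : ℝ) < (1 + ξ) ^ (∑ i, r i) := by positivity
  unfold capa
  rw [ENNReal.mul_iInf_of_ne (by simpa using hpos) ENNReal.ofReal_ne_top]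
  refine le_iInf fun b => iInf_le_of_le b ?_
  rw [← ENNReal.ofReal_mul hpos.le]
  apply ENNReal.ofReal_le_ofReal
  exact trPhi_le r c hξ ht h b.2

theorem trCapa_le (r : Fin m → ℕ) (c : Fin n → ℕ) (hξ : 0 ≤ ξ) (ht : ∀ j i, 0 ≤ t j i)
    (h : ∀ j i, t j i ≤ (1 + ξ) * t' j i) :
    (capa r c t).toReal ≤ (1 + ξ) ^ (∑ i, r i) * (capa r c t').toReal := by
  have hpos : (0 : ℝ) < (1 + ξ) ^ (∑ i, r i) := by positivity
  have h1 := trCapa_le' r c hξ ht h
  have h2 := ENNReal.toReal_mono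
    (ENNReal.mul_ne_top ENNReal.ofReal_ne_top (capa_lt_top r c t').ne) h1
  rwa [ENNReal.toReal_mul, ENNReal.toReal_ofReal hpos.le] at h2

end Lip

/-- `uval` for two close matrices. -/
theorem trUval_le {t t' : Fin (n + 1) → Fin m → ℝ} {ξ : ℝ} (r : Fin m → ℕ) (c' : Fin n → ℕ)
    (hξ : 0 ≤ ξ) (ht : ∀ j i, 0 ≤ t j i) (ht' : ∀ j i, 0 ≤ t' j i)
    (h : ∀ j i, t j i ≤ (1 + ξ) * t' j i) {x : Fin m → ℕ} (hx : ∀ i, x i ≤ r i) :
    uval r c' t x ≤ (1 + ξ) ^ (∑ i, r i) * uval r c' t' x := by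
  rw [uval_eq, uval_eq]
  have h1 : colW r x (t 0) ≤ (1 + ξ) ^ (∑ i, x i) * colW r x (t' 0) := by
    unfold colW
    rw [← Finset.prod_pow_eq_pow_sum, ← Finset.prod_mul_distrib]
    refine Finset.prod_le_prod (fun i _ => ?_) fun i _ => ?_
    · exact mul_nonneg (Nat.cast_nonneg _) (pow_nonneg (ht 0 i) _)
    · have h2 : t 0 i ^ x i ≤ ((1 + ξ) * t' 0 i) ^ x i := pow_le_pow_left₀ (ht 0 i) (h 0 i) _
      rw [mul_pow] at h2
      have h3 : (0 : ℝ) ≤ ((r i).choose (x i) : ℝ) := Nat.cast_nonneg _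
      calc _ ≤ ((r i).choose (x i) : ℝ) * ((1 + ξ) ^ x i * t' 0 i ^ x i) :=
            mul_le_mul_of_nonneg_left h2 h3
        _ = _ := by ring
  have h2 := trCapa_le (t := fun l => t l.succ) (t' := fun l => t' l.succ) (ξ := ξ)
    (fun i => r i - x i) c' hξ (fun j i => ht _ _) (fun j i => h _ _)
  have hsum : ∑ i, r i = ∑ i, x i + ∑ i, (r i - x i) := by
    rw [← Finset.sum_add_distrib]
    exact Finset.sum_congr rfl fun i _ => by have := hx i; omega
  rw [hsum, pow_add]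
  have h3 : 0 ≤ colW r x (t' 0) := colW_nonneg r x fun i => ht' 0 i
  have h4 : 0 ≤ (capa (fun i => r i - x i) c' fun l => t l.succ).toReal := ENNReal.toReal_nonneg
  have h5 : (0 : ℝ) ≤ (1 + ξ) ^ (∑ i, x i) := by positivity
  calc _ ≤ ((1 + ξ) ^ (∑ i, x i) * colW r x (t' 0))
        * ((1 + ξ) ^ (∑ i, (r i - x i)) * (capa (fun i => r i - x i) c' fun l => t' l.succ).toReal) :=
        mul_le_mul h1 h2 h4 (mul_nonneg h5 h3)
    _ = _ := by ring

/-! ### Numbers -/

/-- Entrywise closeness in relative form. -/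
theorem rel_of_abs {u v ζ lo : ℝ} (hlo : 0 < lo) (hv : lo ≤ v) (h : |u - v| ≤ ζ) :
    u ≤ (1 + ζ / lo) * v := by
  have h1 := (abs_le.1 h).2
  have h0 : 0 ≤ ζ := (abs_nonneg _).trans h
  have h2 : ζ ≤ ζ / lo * v := by
    rw [div_mul_eq_mul_div, le_div_iff₀ hlo]
    exact mul_le_mul_of_nonneg_left hv h0
  linarith

/-- A power of a number close to one. -/
theorem one_add_pow_le {ξ : ℝ} {k : ℕ} (hξ : 0 ≤ ξ) (h : (k : ℝ) * ξ ≤ 1) :
    (1 + ξ) ^ k ≤ 1 + 2 * ((k : ℝ) * ξ) := by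
  have h1 : (1 + ξ) ^ k ≤ Real.exp ((k : ℝ) * ξ) := by
    have h2 : 1 + ξ ≤ Real.exp ξ := by
      have := Real.add_one_le_exp ξ
      linarith
    calc (1 + ξ) ^ k ≤ Real.exp ξ ^ k := pow_le_pow_left₀ (by linarith) h2 _
      _ = _ := by rw [← Real.exp_nat_mul]
  have h0 : 0 ≤ (k : ℝ) * ξ := by positivity
  have h3 := Real.abs_exp_sub_one_le (x := (k : ℝ) * ξ) (by rwa [abs_of_nonneg h0])
  rw [abs_of_nonneg h0] at h3
  have h4 := (abs_le.1 h3).2
  linarith

/-- The value of the target for two close matrices. -/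
theorem target_close {K u u' C C' F : ℝ} (hK : 0 ≤ K) (hu' : 0 ≤ u') (hC : 0 < C) (hC' : 0 < C')
    (hF : 1 ≤ F) (hu0 : 0 ≤ u) (h1 : u ≤ F * u') (h2 : u' ≤ F * u) (h3 : C ≤ F * C') (h4 : C' ≤ F * C) :
    |K * u / (2 * C) - K * u' / (2 * C')| ≤ (F ^ 2 - 1) * (K * u' / (2 * C')) := by
  have hF0 : 0 < F := by linarith
  set T' := K * u' / (2 * C') with hT'
  set T := K * u / (2 * C) with hT
  have hT0 : 0 ≤ T := by positivity
  have hT'0 : 0 ≤ T' := by positivity
  have h5 : T ≤ F ^ 2 * T' := by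
    rw [hT, hT', div_le_iff₀ (by positivity)]
    have e : F ^ 2 * (K * u' / (2 * C')) * (2 * C) = K * (F * u') * (F * C / C') := by
      field_simp
    rw [e]
    have h6 : 1 ≤ F * C / C' := by
      rw [le_div_iff₀ hC']
      linarith
    have h7 : K * u ≤ K * (F * u') := mul_le_mul_of_nonneg_left h1 hK
    have h8 : 0 ≤ K * (F * u') := by positivity
    nlinarith
  have h6 : T' ≤ F ^ 2 * T := by
    rw [hT, hT', div_le_iff₀ (by positivity)]
    have e : F ^ 2 * (K * u / (2 * C)) * (2 * C') = K * (F * u) * (F * C' / C) := by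
      field_simp
    rw [e]
    have h6 : 1 ≤ F * C' / C := by
      rw [le_div_iff₀ hC]
      linarith
    have h7 : K * u' ≤ K * (F * u) := mul_le_mul_of_nonneg_left h2 hK
    have h8 : 0 ≤ K * (F * u) := by positivity
    nlinarith
  have hF2 : 1 ≤ F ^ 2 := one_le_pow₀ hF
  rw [abs_le]
  constructor
  · -- `T' - T ≤ (F^2 - 1) T'`: from `T' ≤ F^2 T`
    have h7 : T' - T ≤ (F ^ 2 - 1) * T := by linarith
    have h8 : T ≤ T' ∨ T' ≤ T := le_total T T'
    rcases h8 with h8 | h8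
    · have h9 : (F ^ 2 - 1) * T ≤ (F ^ 2 - 1) * T' :=
        mul_le_mul_of_nonneg_left h8 (by linarith)
      linarith
    · have h9 : 0 ≤ (F ^ 2 - 1) * T' := mul_nonneg (by linarith) hT'0
      linarith
  · linarith

/-- Two quotients. -/
theorem quot_close {x y w D δ μ : ℝ} (hD : 0 < D) (hw0 : 0 ≤ w) (hwD : w ≤ D) (hx : |x - w| ≤ δ)
    (hy : |y - D| ≤ δ) (hμ : 0 < μ) (hy0 : μ ≤ y) : |x / y - w / D| ≤ 2 * δ / μ := by
  have hy1 : 0 < y := lt_of_lt_of_le hμ hy0
  have h0 : 0 ≤ δ := (abs_nonneg _).trans hx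
  have e : x / y - w / D = ((x - w) * D + w * (D - y)) / (y * D) := by
    field_simp
    ring
  rw [e, abs_div, abs_of_pos (mul_pos hy1 hD)]
  have h1 : |(x - w) * D + w * (D - y)| ≤ δ * D + D * δ := by
    refine (abs_add_le _ _).trans ?_
    rw [abs_mul, abs_mul, abs_of_pos hD, abs_of_nonneg hw0]
    have h2 : |D - y| ≤ δ := by rwa [abs_sub_comm]
    have h3 : |x - w| * D ≤ δ * D := mul_le_mul_of_nonneg_right hx hD.le
    have h4 : w * |D - y| ≤ D * δ := mul_le_mul hwD h2 (abs_nonneg _) hD.le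
    linarith
  rw [div_le_div_iff₀ (mul_pos hy1 hD) hμ]
  have h5 : (δ * D + D * δ) * μ ≤ 2 * δ * (y * D) := by
    have : D * δ * μ ≤ D * δ * y := mul_le_mul_of_nonneg_left hy0 (by positivity)
    nlinarith
  calc |(x - w) * D + w * (D - y)| * μ ≤ (δ * D + D * δ) * μ := mul_le_mul_of_nonneg_right h1 hμ.le
    _ ≤ _ := h5

/-- The logarithm is Lipschitz away from zero. -/
theorem abs_log_sub_le {u v lo : ℝ} (hlo : 0 < lo) (hu : lo ≤ u) (hv : lo ≤ v) :
    |Real.log u - Real.log v| ≤ |u - v| / lo := by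
  have hu0 : 0 < u := by linarith
  have hv0 : 0 < v := by linarith
  have key : ∀ {a b : ℝ}, lo ≤ a → lo ≤ b → Real.log a - Real.log b ≤ |a - b| / lo := by
    intro a b ha hb
    have ha0 : 0 < a := by linarith
    have hb0 : 0 < b := by linarith
    rw [← Real.log_div ha0.ne' hb0.ne']
    have h1 := Real.log_le_sub_one_of_pos (div_pos ha0 hb0)
    refine h1.trans ?_
    have h2 : a / b - 1 = (a - b) / b := by field_simp
    rw [h2]
    have h3 : (a - b) / b ≤ |a - b| / b := div_le_div_of_nonneg_right (le_abs_self _) hb0.le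
    exact h3.trans (div_le_div_of_nonneg_left (abs_nonneg _) hlo hb)
  rw [abs_le]
  constructor
  · have := key hv hu
    rw [abs_sub_comm] at this
    linarith
  · exact key hu hv

/-! ### The map `tMap` is Lipschitz -/

section TMap

variable {r : Fin m → ℕ} {c : Fin n → ℕ}

theorem trSum_le_pos {x : ℕ} : (x : ℝ) + 1 ≤ ((x + 2 : ℕ) : ℝ) := by
  push_cast
  linarith

/-- The scales are at most `X = Σ r + 2`. -/
theorem trScF_le (hsum : ∑ i, r i = ∑ j, c j) (j : Fin n) (i : Fin m) :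
    |scF r c j i| ≤ ((∑ l, r l : ℕ) : ℝ) + 2 := by
  have hm : 0 < m := lt_of_le_of_lt (Nat.zero_le _) i.isLt
  have hn : 0 < n := lt_of_le_of_lt (Nat.zero_le _) j.isLt
  have hD : (1 : ℝ) ≤ (n : ℝ) * m := by
    have h1 : (1 : ℝ) ≤ n := by exact_mod_cast hn
    have h2 : (1 : ℝ) ≤ m := by exact_mod_cast hm
    nlinarith
  have hr : (r i : ℝ) ≤ ((∑ l, r l : ℕ) : ℝ) := by
    exact_mod_cast Finset.single_le_sum (fun _ _ => Nat.zero_le _) (Finset.mem_univ i)
  have h0 : (0 : ℝ) ≤ min (r i : ℝ) (c j) := le_min (Nat.cast_nonneg _) (Nat.cast_nonneg _)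
  have hpos : 0 ≤ scF r c j i := by
    unfold scF
    positivity
  rw [abs_of_nonneg hpos]
  unfold scF
  rw [div_le_iff₀ (by positivity)]
  have h1 : min (r i : ℝ) (c j) ≤ r i := min_le_left _ _
  have h2 : (1 : ℝ) ≤ 2 * ((n : ℝ) * m) ^ 2 := by nlinarith
  have h3 : (0 : ℝ) ≤ ((∑ l, r l : ℕ) : ℝ) := Nat.cast_nonneg _
  nlinarith

theorem trScS_le {x : ℕ} (hx : x ≤ ∑ l, r l) (hD : (1 : ℝ) ≤ (n : ℝ) * m) :
    |scS m n x| ≤ ((∑ l, r l : ℕ) : ℝ) + 2 := by
  have hpos : 0 ≤ scS m n x := by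
    unfold scS
    positivity
  rw [abs_of_nonneg hpos]
  unfold scS
  rw [div_le_iff₀ (by positivity)]
  have h1 : Real.sqrt x ≤ (x : ℝ) + 1 := by
    rw [Real.sqrt_le_left (by positivity)]
    have : (0 : ℝ) ≤ x := Nat.cast_nonneg _
    nlinarith
  have h2 : (x : ℝ) ≤ ((∑ l, r l : ℕ) : ℝ) := by exact_mod_cast hx
  have h3 : (1 : ℝ) ≤ 16 * ((n : ℝ) * m) ^ 2 := by nlinarith
  have h4 : (0 : ℝ) ≤ ((∑ l, r l : ℕ) : ℝ) := Nat.cast_nonneg _
  nlinarith

/-- **`tMap` is Lipschitz.** -/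
theorem trTMap_lip (hsum : ∑ i, r i = ∑ j, c j) (i0 : Fin m) (j0 : Fin n) {y y' : Fin n × Fin m → ℝ}
    {a : ℝ} (ha : 0 ≤ a) (hyy : ∀ k, |y k - y' k| ≤ a) (j : Fin n) (i : Fin m) :
    |tMap i0 j0 r c y j i - tMap i0 j0 r c y' j i|
      ≤ ((n : ℝ) + 1) * ((m : ℝ) + 1) * (((∑ l, r l : ℕ) : ℝ) + 2) * a := by
  have hD : (1 : ℝ) ≤ (n : ℝ) * m := by
    have hm : 0 < m := lt_of_le_of_lt (Nat.zero_le _) i.isLt
    have hn : 0 < n := lt_of_le_of_lt (Nat.zero_le _) j.isLt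
    have h1 : (1 : ℝ) ≤ n := by exact_mod_cast hn
    have h2 : (1 : ℝ) ≤ m := by exact_mod_cast hm
    nlinarith
  set X : ℝ := ((∑ l, r l : ℕ) : ℝ) + 2 with hX
  have hX0 : 0 ≤ X := by
    have : (0 : ℝ) ≤ ((∑ l, r l : ℕ) : ℝ) := Nat.cast_nonneg _
    linarith
  have hm0 : (0 : ℝ) ≤ m := Nat.cast_nonneg _
  have hn0 : (0 : ℝ) ≤ n := Nat.cast_nonneg _
  have hXa : 0 ≤ X * a := mul_nonneg hX0 ha
  have hmul : ∀ {s u : ℝ}, |s| ≤ X → |u| ≤ a → |s * u| ≤ X * a := by
    intro s u hs hu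
    rw [abs_mul]
    exact mul_le_mul hs hu (abs_nonneg _) hX0
  have hF : ∀ j i, |tFree r c y j i - tFree r c y' j i| ≤ X * a := by
    intro j i
    unfold tFree
    have e : centreTab r c j i + 1 + scF r c j i * y (j, i) - (centreTab r c j i + 1 + scF r c j i * y' (j, i))
        = scF r c j i * (y (j, i) - y' (j, i)) := by ring
    rw [e]
    exact hmul (trScF_le hsum j i) (hyy _)
  have hsumF : ∀ (s : Finset (Fin m)) (j : Fin n),
      |∑ i' ∈ s, tFree r c y j i' - ∑ i' ∈ s, tFree r c y' j i'| ≤ (m : ℝ) * (X * a) := by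
    intro s j
    rw [← Finset.sum_sub_distrib]
    refine (Finset.abs_sum_le_sum_abs _ _).trans ?_
    refine (Finset.sum_le_sum fun i' _ => hF j i').trans ?_
    rw [Finset.sum_const, nsmul_eq_mul]
    have : (s.card : ℝ) ≤ m := by
      have := Finset.card_le_univ s
      simp only [Fintype.card_fin] at this
      exact_mod_cast this
    exact mul_le_mul_of_nonneg_right this hXa
  have hsumF' : ∀ (s : Finset (Fin n)) (i : Fin m),
      |∑ j' ∈ s, tFree r c y j' i - ∑ j' ∈ s, tFree r c y' j' i| ≤ (n : ℝ) * (X * a) := by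
    intro s i
    rw [← Finset.sum_sub_distrib]
    refine (Finset.abs_sum_le_sum_abs _ _).trans ?_
    refine (Finset.sum_le_sum fun i' _ => hF i' i).trans ?_
    rw [Finset.sum_const, nsmul_eq_mul]
    have : (s.card : ℝ) ≤ n := by
      have := Finset.card_le_univ s
      simp only [Fintype.card_fin] at this
      exact_mod_cast this
    exact mul_le_mul_of_nonneg_right this hXa
  have hc : ∀ j, c j ≤ ∑ l, r l := by
    intro j
    rw [hsum]
    exact Finset.single_le_sum (fun _ _ => Nat.zero_le _) (Finset.mem_univ j)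
  have hr : ∀ i, r i ≤ ∑ l, r l := fun i =>
    Finset.single_le_sum (fun _ _ => Nat.zero_le _) (Finset.mem_univ i)
  have hCol : ∀ (j : Fin n) (i0 : Fin m), |tCol i0 r c y j - tCol i0 r c y' j| ≤ ((m : ℝ) + 1) * (X * a) := by
    intro j i0
    unfold tCol
    have e : (c j : ℝ) + m + scS m n (c j) * y (j, i0) - ∑ i' ∈ univ.erase i0, tFree r c y j i'
        - ((c j : ℝ) + m + scS m n (c j) * y' (j, i0) - ∑ i' ∈ univ.erase i0, tFree r c y' j i')
        = scS m n (c j) * (y (j, i0) - y' (j, i0))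
          - (∑ i' ∈ univ.erase i0, tFree r c y j i' - ∑ i' ∈ univ.erase i0, tFree r c y' j i') := by ring
    rw [e]
    refine (abs_sub _ _).trans ?_
    have h1 := hmul (trScS_le (r := r) (hc j) hD) (hyy (j, i0))
    have h2 := hsumF (univ.erase i0) j
    nlinarith
  have hsumC : |∑ j' ∈ univ.erase j0, tCol i0 r c y j' - ∑ j' ∈ univ.erase j0, tCol i0 r c y' j'|
      ≤ (n : ℝ) * (((m : ℝ) + 1) * (X * a)) := by
    rw [← Finset.sum_sub_distrib]
    refine (Finset.abs_sum_le_sum_abs _ _).trans ?_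
    refine (Finset.sum_le_sum fun j' _ => hCol j' i0).trans ?_
    rw [Finset.sum_const, nsmul_eq_mul]
    have : ((univ.erase j0).card : ℝ) ≤ n := by
      have := Finset.card_le_univ (univ.erase j0)
      simp only [Fintype.card_fin] at this
      exact_mod_cast this
    exact mul_le_mul_of_nonneg_right this (by positivity)
  have hgoal : ((n : ℝ) + 1) * ((m : ℝ) + 1) * X * a = ((n : ℝ) + 1) * (((m : ℝ) + 1) * (X * a)) := by ring
  rw [hgoal]
  have hY : 0 ≤ ((m : ℝ) + 1) * (X * a) := by positivity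
  unfold tMap
  by_cases hj : j = j0
  · by_cases hi : i = i0
    · simp only [hj, hi, if_true]
      have e : (r i0 : ℝ) + n + scS m n (r i0) * y (j0, i0) - ∑ j' ∈ univ.erase j0, tCol i0 r c y j'
          - ((r i0 : ℝ) + n + scS m n (r i0) * y' (j0, i0) - ∑ j' ∈ univ.erase j0, tCol i0 r c y' j')
          = scS m n (r i0) * (y (j0, i0) - y' (j0, i0))
            - (∑ j' ∈ univ.erase j0, tCol i0 r c y j' - ∑ j' ∈ univ.erase j0, tCol i0 r c y' j') := by ring
      rw [e]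
      refine (abs_sub _ _).trans ?_
      have h1 := hmul (trScS_le (r := r) (hr i0) hD) (hyy (j0, i0))
      nlinarith
    · simp only [hj, hi, if_true, if_false]
      have e : (r i : ℝ) + n + scS m n (r i) * y (j0, i) - ∑ j' ∈ univ.erase j0, tFree r c y j' i
          - ((r i : ℝ) + n + scS m n (r i) * y' (j0, i) - ∑ j' ∈ univ.erase j0, tFree r c y' j' i)
          = scS m n (r i) * (y (j0, i) - y' (j0, i))
            - (∑ j' ∈ univ.erase j0, tFree r c y j' i - ∑ j' ∈ univ.erase j0, tFree r c y' j' i) := by ring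
      rw [e]
      refine (abs_sub _ _).trans ?_
      have h1 := hmul (trScS_le (r := r) (hr i) hD) (hyy (j0, i))
      have h2 := hsumF' (univ.erase j0) i
      nlinarith
  · by_cases hi : i = i0
    · simp only [hj, hi, if_true, if_false]
      have h1 := hCol j i0
      nlinarith
    · simp only [hj, hi, if_false]
      have h1 := hF j i
      nlinarith

end TMap

/-! ### Words -/

section Words

variable {S : ℕ}

theorem val_intCast_mul (S : ℕ) (a b : ℤ) : val S (a * b) = (a : ℝ) * val S b := by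
  unfold val
  push_cast
  ring

/-- The product of an integer and a word, without rounding. -/
theorem val_cmul' (hS : 1000000 ≤ S) {a w : ℤ} (ha : |(a : ℝ)| ≤ Big S) (hw : |val S w| ≤ Big S)
    (haw : |(a : ℝ) * val S w| ≤ Big S) : val S (cmul S a w) = (a : ℝ) * val S w := by
  have h2 : |val S a| ≤ Big S := by
    unfold val
    rw [abs_div, abs_of_pos (show (0 : ℝ) < 2 ^ prec S by positivity)]
    refine le_trans ?_ ha
    rw [div_le_iff₀ (by positivity)]
    have h3 : (1 : ℝ) ≤ 2 ^ prec S := one_le_pow₀ (by norm_num)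
    nlinarith [abs_nonneg (a : ℝ)]
  unfold cmul
  rw [clamp_of_val hS h2, clamp_of_val hS hw, clamp_of_val hS (by rwa [val_intCast_mul]), val_intCast_mul]

/-- Powers of two. -/
theorem two_pow_mul_half_pow {a b c : ℕ} (h : a + c ≤ b) :
    (2 : ℝ) ^ a * (1 / 2 : ℝ) ^ b ≤ (1 / 2 : ℝ) ^ c := by
  obtain ⟨d, rfl⟩ : ∃ d, b = a + c + d := ⟨b - (a + c), by omega⟩
  have e : (2 : ℝ) ^ a * (1 / 2 : ℝ) ^ (a + c + d) = (1 / 2 : ℝ) ^ c * (1 / 2 : ℝ) ^ d := by
    rw [add_assoc, pow_add, ← mul_assoc, ← mul_pow, pow_add]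
    norm_num
  rw [e]
  exact mul_le_of_le_one_right (by positivity) (pow_le_one₀ (by norm_num) (by norm_num))

theorem natCast_le_two_pow (S : ℕ) : (S : ℝ) ≤ 2 ^ S := by
  have := Nat.lt_two_pow_self (n := S)
  exact_mod_cast this.le

theorem natCast_pow_le_two_pow (S k : ℕ) : (S : ℝ) ^ k ≤ 2 ^ (k * S) := by
  rw [mul_comm, pow_mul]
  exact pow_le_pow_left₀ (Nat.cast_nonneg _) (natCast_le_two_pow S) k

end Words

end Vale.Agent.Lib.P328.Bit
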