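import Vale.Agent.Lib.P328.Bit.TrialF
import Vale.Agent.Lib.P328.Bit.TrialLip
import Vale.Agent.Lib.P328.Bit.CapF

/-!
# P328, bit model: the words of a trial at a good point (module TRIALF-B)

`trial_point`: at a point `y` of the big cube with `cutK ≤ tMap y` and `κ = fineIdx ∘ y`, the matrix of the trial is `lM tw`, with `rM S tw` within `(1/2)^(S^2/2)` of `t = tMap y`, the matrix is in `TabRange`, the cut test holds, and the computed minimiser is `lF β` with the spec of `betaF_spec`.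
-/

namespace Vale.Agent.Lib.P328.Bit

open Finset Vale.Agent.Lib.P328.Cap Vale.Agent.Lib.P328.Fpras Vale.Agent.Lib.P328.Samp

namespace TrialPt

variable {S m : ℕ}

theorem yMatF_lK {k l : ℕ} (hk : k ≤ S) (hl : l ≤ S) (κ : Fin k × Fin l → ℤ) :
    yMatF S (lK κ) = lM (fun j i => yF S (κ (j, i))) := by
  unfold yMatF lK lM
  rw [List.take_of_length_le (by simpa using hk), List.map_ofFn]
  refine congrArg List.ofFn (funext fun j => ?_)
  simp only [Function.comp]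
  rw [List.take_of_length_le (by simpa using hl), List.map_ofFn]
  rfl

theorem cellM_pos (S : ℕ) : (0 : ℝ) < (cellM S : ℝ) := by
  have : 0 < cellM S := by unfold cellM; omega
  exact_mod_cast this

theorem cellD_pos (hS : 1000000 ≤ S) : 0 < cellD S := by
  have hS0 : (0 : ℝ) < S := by
    have : 0 < S := by omega
    exact_mod_cast this
  unfold cellD rQ
  have hM := cellM_pos S
  positivity

theorem cellD_le (hS : 1000000 ≤ S) : cellD S ≤ 1 := by
  have hS0 : (1 : ℝ) ≤ S := by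
    have : 1 ≤ S := by omega
    exact_mod_cast this
  have hM := cellM_pos S
  unfold cellD rQ
  rw [div_le_one hM]
  unfold cellM
  push_cast
  have h1 : (S : ℝ) ^ 4 ≤ (S : ℝ) ^ 56 := pow_le_pow_right₀ hS0 (by norm_num)
  linarith

theorem fineIdx_range (hS : 1000000 ≤ S) {y : ℝ} (hy : |y| ≤ rQ S) :
    0 ≤ fineIdx S y ∧ fineIdx S y ≤ (cellM S : ℤ) * 2 ^ pf S := by
  have hd := cellD_pos hS
  have hQ : (0 : ℝ) < 2 ^ pf S := by positivity
  have hy' := abs_le.1 hy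
  have hM := cellM_pos S
  have hr : 0 ≤ rQ S := (abs_nonneg y).trans hy
  unfold fineIdx
  constructor
  · apply Int.floor_nonneg.2
    have : 0 ≤ y + rQ S := by linarith
    positivity
  · have h1 : (y + rQ S) * 2 ^ pf S / cellD S ≤ (((cellM S : ℤ) * 2 ^ pf S : ℤ) : ℝ) := by
      rw [div_le_iff₀ hd]
      push_cast
      have e : (cellM S : ℝ) * 2 ^ pf S * cellD S = 2 * rQ S * 2 ^ pf S := by
        unfold cellD
        field_simp
      rw [e]
      have : y + rQ S ≤ 2 * rQ S := by linarith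
      exact mul_le_mul_of_nonneg_right this hQ.le
    have h2 := Int.floor_le_floor h1
    rwa [Int.floor_intCast] at h2

theorem pow_facts' (hS : 1000000 ≤ S) :
    S ^ 2 + S ^ 2 / 2 + 1 ≤ S ^ 5 / 8 ∧ 30 * S + 3 + S ^ 2 / 2 ≤ S ^ 2 := by
  have h1 : 1000000 * S ≤ S ^ 2 := by nlinarith
  have h2 : 8 * (2 * S ^ 2) ≤ S ^ 5 := by
    have h3 : S ^ 5 = S ^ 3 * S ^ 2 := by ring
    have h4 : 16 ≤ S ^ 3 := by
      have : S ^ 1 ≤ S ^ 3 := Nat.pow_le_pow_right (by omega) (by norm_num)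
      rw [pow_one] at this
      omega
    rw [h3]
    nlinarith
  have h5 : 1 ≤ S ^ 2 := by omega
  omega

theorem half_pow_le_S (hS : 1000000 ≤ S) : (1 / 2 : ℝ) ^ (S ^ 2 / 2) ≤ 1 / (S : ℝ) ^ 27 := by
  have hS0 : (0 : ℝ) < S := by
    have : 0 < S := by omega
    exact_mod_cast this
  rw [le_div_iff₀ (by positivity), mul_comm]
  have h1 := natCast_pow_le_two_pow S 27
  have h2 := (pow_facts' hS).2
  have h3 : (2 : ℝ) ^ (27 * S) * (1 / 2 : ℝ) ^ (S ^ 2 / 2) ≤ (1 / 2 : ℝ) ^ 0 :=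
    two_pow_mul_half_pow (by omega)
  have h4 : (0 : ℝ) ≤ (1 / 2 : ℝ) ^ (S ^ 2 / 2) := by positivity
  calc (S : ℝ) ^ 27 * (1 / 2 : ℝ) ^ (S ^ 2 / 2) ≤ (2 : ℝ) ^ (27 * S) * (1 / 2 : ℝ) ^ (S ^ 2 / 2) :=
        mul_le_mul_of_nonneg_right h1 h4
    _ ≤ 1 := by simpa using h3

theorem yF_close (hS : 1000000 ≤ S) {y : ℝ} (hy : |y| ≤ rQ S) :
    |val S (yF S (fineIdx S y)) - y| ≤ 2 * (1 / 2 : ℝ) ^ (S ^ 2) := by
  obtain ⟨h0, h1⟩ := fineIdx_range hS hy
  have h2 := yF_spec hS h0 h1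
  have h3 := yR_fineIdx hS y
  have h4 : (1 / 2 : ℝ) ^ (S ^ 5 / 8) ≤ (1 / 2 : ℝ) ^ (S ^ 2) :=
    pow_le_pow_of_le_one (by norm_num) (by norm_num) (by have := (pow_facts' hS).1; omega)
  have h5 : cellD S / 2 ^ pf S ≤ (1 / 2 : ℝ) ^ (S ^ 2) := by
    unfold pf
    rw [one_div, inv_pow, div_eq_mul_inv]
    have h6 : (0 : ℝ) ≤ ((2 : ℝ) ^ S ^ 2)⁻¹ := by positivity
    have h7 := cellD_le hS
    nlinarith
  have h8 : |val S (yF S (fineIdx S y)) - y|
      ≤ |val S (yF S (fineIdx S y)) - yR S (fineIdx S y)| + |yR S (fineIdx S y) - y| :=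
    abs_sub_le _ _ _
  linarith

theorem lip_num {n : ℕ} (hS : 1000000 ≤ S) (hn : n + 1 ≤ S) (hm : m + 1 ≤ S) {N : ℕ} (hN : N < 2 ^ S) :
    ((n : ℝ) + 1) * ((m : ℝ) + 1) * (((N : ℕ) : ℝ) + 2) * (2 * (1 / 2 : ℝ) ^ (S ^ 2))
      + (1 / 2 : ℝ) ^ (S ^ 5 / 8) ≤ (1 / 2 : ℝ) ^ (S ^ 2 / 2) := by
  obtain ⟨hp1, hp2⟩ := pow_facts' hS
  have hSle := natCast_le_two_pow S
  have hn' : (n : ℝ) + 1 ≤ 2 ^ S := by
    have : ((n : ℝ) + 1) ≤ S := by exact_mod_cast hn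
    linarith
  have hm' : (m : ℝ) + 1 ≤ 2 ^ S := by
    have : ((m : ℝ) + 1) ≤ S := by exact_mod_cast hm
    linarith
  have hN' : ((N : ℕ) : ℝ) + 2 ≤ 2 ^ (S + 1) := by
    have h1 : N + 1 ≤ 2 ^ S := hN
    have h2 : ((N : ℝ) + 1) ≤ 2 ^ S := by exact_mod_cast h1
    have h3 : (1 : ℝ) ≤ 2 ^ S := one_le_pow₀ (by norm_num)
    rw [pow_succ]
    linarith
  have hprod : ((n : ℝ) + 1) * ((m : ℝ) + 1) * (((N : ℕ) : ℝ) + 2) * 2 ≤ 2 ^ (3 * S + 2) := by
    have e : (2 : ℝ) ^ (3 * S + 2) = 2 ^ S * 2 ^ S * 2 ^ (S + 1) * 2 := by ring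
    rw [e]
    have hn0 : (0 : ℝ) ≤ (n : ℝ) + 1 := by positivity
    have hm0 : (0 : ℝ) ≤ (m : ℝ) + 1 := by positivity
    have hN0 : (0 : ℝ) ≤ ((N : ℕ) : ℝ) + 2 := by positivity
    gcongr
  have h1 : (2 : ℝ) ^ (3 * S + 2) * (1 / 2 : ℝ) ^ (S ^ 2) ≤ (1 / 2 : ℝ) ^ (S ^ 2 / 2 + 1) :=
    two_pow_mul_half_pow (by omega)
  have h2 : (1 / 2 : ℝ) ^ (S ^ 5 / 8) ≤ (1 / 2 : ℝ) ^ (S ^ 2 / 2 + 1) :=
    pow_le_pow_of_le_one (by norm_num) (by norm_num) (by omega)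
  have h3 : (1 / 2 : ℝ) ^ (S ^ 2 / 2 + 1) = (1 / 2 : ℝ) ^ (S ^ 2 / 2) * (1 / 2) := pow_succ _ _
  have h4 : (0 : ℝ) ≤ (1 / 2 : ℝ) ^ (S ^ 2) := by positivity
  have h5 := mul_le_mul_of_nonneg_right hprod h4
  have e : ((n : ℝ) + 1) * ((m : ℝ) + 1) * (((N : ℕ) : ℝ) + 2) * (2 * (1 / 2 : ℝ) ^ (S ^ 2))
      = ((n : ℝ) + 1) * ((m : ℝ) + 1) * (((N : ℕ) : ℝ) + 2) * 2 * (1 / 2 : ℝ) ^ (S ^ 2) := by ring
  rw [e]
  linarith

theorem clamp_mono {a b : ℤ} (h : a ≤ b) : clamp S a ≤ clamp S b := by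
  unfold clamp
  exact max_le_max le_rfl (min_le_min_right _ h)

theorem val_le_val {a b : ℤ} (h : val S a ≤ val S b) : a ≤ b := by
  unfold val at h
  have hp : (0 : ℝ) < 2 ^ prec S := by positivity
  rw [div_le_div_iff_of_pos_right hp] at h
  exact_mod_cast h

theorem foldl_step {f : ℤ → ℤ → ℤ} (L : List ℤ) (h : ∀ a ∈ L, ∀ s, f s a = s) (s : ℤ) :
    L.foldl f s = s := by
  induction L generalizing s with
  | nil => rfl
  | cons a L ih =>
    rw [List.foldl_cons, h a (by simp)]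
    exact ih (fun b hb => h b (by simp [hb])) s

theorem cutOK_pos {k l : ℕ} {t : Fin k → Fin l → ℤ} (ht : ∀ j i, TrialP.cutW S ≤ t j i) :
    0 < TrialP.cutOK S (lM t) := by
  have hstep : ∀ j i s, TrialP.cutStep S s (t j i) = s := by
    intro j i s
    unfold TrialP.cutStep
    rw [if_pos]
    apply SampAux.cadd_one_pos
    unfold csub
    rw [TrialP.clamp_nonneg_iff]
    have := clamp_mono (S := S) (ht j i)
    linarith
  have hall : ∀ (T : List (List ℤ)), (∀ col ∈ T, ∀ a ∈ col, ∀ s, TrialP.cutStep S s a = s) → ∀ s,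
      T.foldl (fun s col => (col.take S).foldl (fun s' a => TrialP.cutStep S s' a) s) s = s := by
    intro T
    induction T with
    | nil => intro _ s; rfl
    | cons col T ih =>
      intro h s
      rw [List.foldl_cons, foldl_step _ (fun a ha => h col (by simp) a (List.mem_of_mem_take ha))]
      exact ih (fun c hc => h c (by simp [hc])) s
  unfold TrialP.cutOK
  rw [hall _ ?_ 1]
  · norm_num
  · intro col hcol a ha s
    have hcol' := List.mem_of_mem_take hcol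
    unfold lM at hcol'
    obtain ⟨j, rfl⟩ := (List.mem_ofFn' _ _).1 hcol'
    obtain ⟨i, rfl⟩ := (List.mem_ofFn' _ _).1 ha
    exact hstep j i s

theorem cutW_val (hS : 1000000 ≤ S) :
    val S (TrialP.cutW S) ≤ 1 / (2 * (S : ℝ) ^ 26) + ulp S := by
  have hS0 : (1 : ℝ) ≤ S := by
    have : 1 ≤ S := by omega
    exact_mod_cast this
  have h26 : (S : ℤ) ^ 26 ≤ 2 ^ (26 * S) := by
    have h1 := Nat.lt_two_pow_self (n := S)
    have h2 : (S : ℤ) ≤ 2 ^ S := by exact_mod_cast h1.le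
    rw [mul_comm, pow_mul]
    exact pow_le_pow_left₀ (by positivity) h2 26
  have hw : 26 * S + 1 ≤ S ^ 4 ∧ S ^ 4 ≤ wid S := by
    have h3 : 1000000 * S ≤ S ^ 2 := by nlinarith
    have h4 : S ^ 2 ≤ S ^ 4 := Nat.pow_le_pow_right (by omega) (by norm_num)
    have h5 : S ^ 4 ≤ S ^ 6 := Nat.pow_le_pow_right (by omega) (by norm_num)
    unfold wid
    omega
  have hpos : (0 : ℤ) ≤ (S : ℤ) ^ 26 := by positivity
  have hz : 2 * (S : ℤ) ^ 26 ≤ 2 ^ (S ^ 4) := by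
    calc 2 * (S : ℤ) ^ 26 ≤ 2 * 2 ^ (26 * S) := by linarith
      _ = 2 ^ (26 * S + 1) := by ring
      _ ≤ 2 ^ (S ^ 4) := pow_le_pow_right₀ (by norm_num) hw.1
  have hzw : (2 : ℤ) ^ (S ^ 4) ≤ 2 ^ wid S := pow_le_pow_right₀ (by norm_num) hw.2
  have hc1 : clamp S ((S : ℤ) ^ 26) = (S : ℤ) ^ 26 := by
    apply clamp_eq hS
    rw [abs_of_nonneg hpos]
    linarith
  have hc2 : cadd S 1 1 = 2 := by
    have h1 : (2 : ℤ) ≤ 2 ^ wid S := by
      calc (2 : ℤ) = 2 ^ 1 := by norm_num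
        _ ≤ 2 ^ wid S := pow_le_pow_right₀ (by norm_num) (by unfold wid; exact Nat.one_le_pow _ _ (by omega))
    unfold cadd
    have h2 : clamp S 1 = 1 := SampAux.clamp_one S
    rw [h2]
    exact clamp_eq hS (by rw [abs_of_nonneg (by norm_num)]; linarith)
  have hc3 : cmul S (cadd S 1 1) (clamp S ((S : ℤ) ^ 26)) = 2 * (S : ℤ) ^ 26 := by
    unfold cmul
    have h2 : clamp S 2 = 2 := by
      rw [← hc2]
      have h1 : (2 : ℤ) ≤ 2 ^ wid S := by
        calc (2 : ℤ) = 2 ^ 1 := by norm_num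
          _ ≤ 2 ^ wid S := pow_le_pow_right₀ (by norm_num) (by unfold wid; exact Nat.one_le_pow _ _ (by omega))
      rw [hc2]
      exact clamp_eq hS (by rw [abs_of_nonneg (by norm_num)]; linarith)
    rw [hc1, hc2, h2, hc1]
    exact clamp_eq hS (by rw [abs_of_nonneg (by positivity)]; linarith)
  unfold TrialP.cutW
  rw [hc3]
  have hBig : (2 : ℝ) * (S : ℝ) ^ 26 ≤ Big S := by
    unfold Big
    exact_mod_cast hz
  have hpR : (0 : ℝ) < (S : ℝ) ^ 26 := by positivity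
  have hfint : val S (fint S (2 * (S : ℤ) ^ 26)) = 2 * (S : ℝ) ^ 26 := by
    rw [val_fint hS]
    · push_cast; ring
    · push_cast
      rw [abs_of_nonneg (by positivity)]
      exact hBig
  have hBig1 : (1 : ℝ) ≤ Big S := by
    unfold Big
    exact one_le_pow₀ (by norm_num)
  have h := val_fdiv hS (x := fone S) (y := fint S (2 * (S : ℤ) ^ 26))
    (by rw [val_fone hS, abs_one]; exact hBig1)
    (by rw [hfint, abs_of_nonneg (by positivity)]; exact hBig)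
    (by
      rw [hfint, abs_of_nonneg (by positivity)]
      have h1 : 1 / Big S ≤ 1 := by
        rw [div_le_one (by linarith)]
        exact hBig1
      have h2 : (1 : ℝ) ≤ 2 * (S : ℝ) ^ 26 := by
        have : (1 : ℝ) ≤ (S : ℝ) ^ 26 := one_le_pow₀ hS0
        linarith
      linarith)
  rw [hfint, val_fone hS] at h
  have := (abs_le.1 h).2
  linarith

end TrialPt

variable {S m : ℕ} {r : Fin m → ℕ} {c0 : ℕ} {l : List ℕ}

theorem trial_point (h : NodeOK S r (Fin.cons c0 l.get : Fin (l.length + 1) → ℕ))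
    {y : Fin (l.length + 1) × Fin m → ℝ} (hy : ∀ k, |y k| ≤ rQ S)
    (hcut : ∀ j i, cutK S ≤ tMap (iMax h.hm r) (jMax h.hn (Fin.cons c0 l.get)) r (Fin.cons c0 l.get) y j i) :
    ∃ (tw : Fin (l.length + 1) → Fin m → ℤ) (β : Fin (l.length + 1) → ℤ),
      TrialP.nodeT S ((lN r, (c0 : ℤ), lL l), lK fun k => fineIdx S (y k)) = lM tw
      ∧ solBF S (lN r) ((c0 : ℤ) :: lL l) (lK fun k => fineIdx S (y k)) = lF β
      ∧ (∀ j i, |rM S tw j i - tMap (iMax h.hm r) (jMax h.hn (Fin.cons c0 l.get)) r (Fin.cons c0 l.get) y j i|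
          ≤ (1 / 2 : ℝ) ^ (S ^ 2 / 2))
      ∧ TabRange S (rM S tw)
      ∧ 0 < TrialP.cutOK S (TrialP.nodeT S ((lN r, (c0 : ℤ), lL l), lK fun k => fineIdx S (y k)))
      ∧ (∀ j, |val S (β j)| ≤ (S : ℝ) ^ 2)
      ∧ Real.log (capa r (Fin.cons c0 l.get) (rM S tw)).toReal
          ≤ capG r (Fin.cons c0 l.get) (rM S tw) (fun j => val S (β j))
      ∧ capG r (Fin.cons c0 l.get) (rM S tw) (fun j => val S (β j))
          ≤ Real.log (capa r (Fin.cons c0 l.get) (rM S tw)).toReal + 1 / (S : ℝ) ^ 30 := by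
  classical
  have hS : 1000000 ≤ S := h.S_ge
  have hS0 : (0 : ℝ) < S := by
    have : 0 < S := by omega
    exact_mod_cast this
  have hW : (10 : ℝ) ^ 6 * (((l.length + 1 : ℕ) : ℝ) * m + 1) ^ 2 ≤ S := h.hW
  have hm0 : 0 < m := h.hm
  have hm1 : (1 : ℝ) ≤ m := by exact_mod_cast hm0
  have hn1 : (1 : ℝ) ≤ ((l.length + 1 : ℕ) : ℝ) := by
    have : 1 ≤ l.length + 1 := by omega
    exact_mod_cast this
  have hnm0 : (1 : ℝ) ≤ ((l.length + 1 : ℕ) : ℝ) * m := one_le_mul_of_one_le_of_one_le hn1 hm1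
  have hD : ((l.length + 1 : ℕ) : ℝ) * m + 1 ≤ S := by nlinarith
  have hnS : l.length + 1 + 1 ≤ S := by
    have h1 : ((l.length + 1 : ℕ) : ℝ) + 1 ≤ S := by nlinarith
    exact_mod_cast h1
  have hmS : m + 1 ≤ S := by
    have h1 : (m : ℝ) + 1 ≤ S := by nlinarith
    exact_mod_cast h1
  -- the columns
  set cc : Fin (l.length + 1) → ℕ := Fin.cons c0 l.get with hcc
  have hlN : (c0 : ℤ) :: lL l = lN cc := by
    rw [hcc, lN_cons, lN_get]
  have hN := h.hN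
  have hsum := h.hsum
  have hrS : ∀ i, r i < 2 ^ S := fun i =>
    lt_of_le_of_lt (Finset.single_le_sum (f := r) (fun _ _ => Nat.zero_le _) (Finset.mem_univ i)) hN
  have hcS : ∀ j, cc j < 2 ^ S := fun j => by
    refine lt_of_le_of_lt ?_ hN
    rw [hsum]
    exact Finset.single_le_sum (f := cc) (fun _ _ => Nat.zero_le _) (Finset.mem_univ j)
  -- the coordinates
  set y2 : Fin (l.length + 1) → Fin m → ℤ := fun j i => yF S (fineIdx S (y (j, i))) with hy2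
  have hclose : ∀ k, |y k - rY S y2 k| ≤ 2 * (1 / 2 : ℝ) ^ (S ^ 2) := fun k => by
    rw [abs_sub_comm]
    exact TrialPt.yF_close hS (hy k)
  have hy2B : ∀ j i, |val S (y2 j i)| ≤ 2 * (S : ℝ) ^ 5 := fun j i => by
    have h1 := TrialPt.yF_close hS (hy (j, i))
    have h2 := hy (j, i)
    have h3 : |val S (y2 j i)| ≤ |val S (y2 j i) - y (j, i)| + |y (j, i)| := by
      have := abs_add_le (val S (y2 j i) - y (j, i)) (y (j, i))
      simpa using this
    have h4 : (2 : ℝ) * (1 / 2 : ℝ) ^ (S ^ 2) ≤ 1 := by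
      have h5 : (1 / 2 : ℝ) ^ (S ^ 2) ≤ (1 / 2 : ℝ) ^ 1 :=
        pow_le_pow_of_le_one (by norm_num) (by norm_num) (Nat.one_le_pow _ _ (by omega))
      norm_num at h5 ⊢
      linarith
    have h5 : rQ S = 2 * (S : ℝ) ^ 4 := rfl
    have h6 : (S : ℝ) ^ 5 = S * (S : ℝ) ^ 4 := by ring
    have h7 : (1 : ℝ) ≤ (S : ℝ) ^ 4 := one_le_pow₀ (by nlinarith)
    have h8 : (4 : ℝ) ≤ S := by nlinarith
    rw [h6]
    nlinarith
  -- the matrix
  have hnodeT : TrialP.nodeT S ((lN r, (c0 : ℤ), lL l), lK fun k => fineIdx S (y k))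
      = tMapF S (((iMax h.hm r : Fin m) : ℕ) : ℤ) (((jMax h.hn cc : Fin (l.length + 1)) : ℕ) : ℤ)
          (lN r) (lN cc) (lM y2) := by
    show tabF S (lN r) ((c0 : ℤ) :: lL l) (lK fun k => fineIdx S (y k)) = _
    rw [hlN]
    unfold tabF
    rw [TrialPt.yMatF_lK (by omega) (by omega), idxMaxF_spec hS h.hm (by omega) r hrS,
      idxMaxF_spec hS h.hn (by omega) cc hcS]
    rfl
  obtain ⟨t, ht1, ht2⟩ := tMapF_spec hS hD hN hsum (iMax h.hm r) (jMax h.hn cc) y2 hy2B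
  have htT : TrialP.nodeT S ((lN r, (c0 : ℤ), lL l), lK fun k => fineIdx S (y k)) = lM t :=
    hnodeT.trans ht1
  -- closeness
  have hclose2 : ∀ j i, |rM S t j i - tMap (iMax h.hm r) (jMax h.hn cc) r cc y j i|
      ≤ (1 / 2 : ℝ) ^ (S ^ 2 / 2) := fun j i => by
    have h1 := ht2 j i
    have h2 := trTMap_lip hsum (iMax h.hm r) (jMax h.hn cc) (y := y) (y' := rY S y2)
      (a := 2 * (1 / 2 : ℝ) ^ (S ^ 2)) (by positivity) hclose j i
    have h3 := TrialPt.lip_num (m := m) (S := S) (n := l.length + 1) hS hnS hmS hN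
    have h4 : |rM S t j i - tMap (iMax h.hm r) (jMax h.hn cc) r cc y j i|
        ≤ |val S (t j i) - tMap (iMax h.hm r) (jMax h.hn cc) r cc (rY S y2) j i|
          + |tMap (iMax h.hm r) (jMax h.hn cc) r cc y j i - tMap (iMax h.hm r) (jMax h.hn cc) r cc (rY S y2) j i| := by
      rw [abs_sub_comm (tMap (iMax h.hm r) (jMax h.hn cc) r cc y j i)]
      exact abs_sub_le _ _ _
    have h5 : (((l.length + 1 : ℕ) : ℝ) + 1) * ((m : ℝ) + 1) * (((∑ l, r l : ℕ) : ℝ) + 2) * (2 * (1 / 2 : ℝ) ^ (S ^ 2))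
        + (1 / 2 : ℝ) ^ (S ^ 5 / 8) ≤ (1 / 2 : ℝ) ^ (S ^ 2 / 2) := h3
    linarith
  have htiny := TrialPt.half_pow_le_S hS
  have hS1 : (1 : ℝ) ≤ S := by nlinarith
  have hS4 : (4 : ℝ) ≤ S := by nlinarith
  -- lower bound of the entries
  have hlow : ∀ j i, 1 / (S : ℝ) ^ 26 - 1 / (S : ℝ) ^ 27 ≤ rM S t j i := fun j i => by
    have h1 := (abs_le.1 (hclose2 j i)).1
    have h2 : 1 / (S : ℝ) ^ 26 ≤ tMap (iMax h.hm r) (jMax h.hn cc) r cc y j i := hcut j i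
    linarith
  have e27 : 1 / (S : ℝ) ^ 26 = S * (1 / (S : ℝ) ^ 27) := by
    field_simp
  have hp27 : (0 : ℝ) < 1 / (S : ℝ) ^ 27 := by positivity
  have hTab : TabRange S (rM S t) := fun j i => by
    constructor
    · have := hlow j i
      rw [e27] at this
      nlinarith
    · have h1 := (abs_le.1 (hclose2 j i)).2
      have h2 := tMap_upper h.inst hW hy j i
      have h3 : (((∑ l, r l : ℕ) : ℝ) + 1) ≤ 2 ^ S := by
        have : ∑ l, r l + 1 ≤ 2 ^ S := hN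
        exact_mod_cast this
      have h4 : (0 : ℝ) ≤ (S : ℝ) ^ 5 := by positivity
      have h5 := mul_le_mul_of_nonneg_right h3 h4
      have h6 : (1 / 2 : ℝ) ^ (S ^ 2 / 2) ≤ 1 := pow_le_one₀ (by norm_num) (by norm_num)
      have h7 : (2 : ℝ) ^ S * (S : ℝ) ^ 6 = S * (2 ^ S * (S : ℝ) ^ 5) := by ring
      have h8 : (1 : ℝ) ≤ 2 ^ S * (S : ℝ) ^ 5 := by
        have h9 : (1 : ℝ) ≤ 2 ^ S := one_le_pow₀ (by norm_num)
        have h10 : (1 : ℝ) ≤ (S : ℝ) ^ 5 := one_le_pow₀ hS1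
        nlinarith
      rw [h7]
      nlinarith
  -- the cut test
  have hcutT : 0 < TrialP.cutOK S (TrialP.nodeT S ((lN r, (c0 : ℤ), lL l), lK fun k => fineIdx S (y k))) := by
    rw [htT]
    apply TrialPt.cutOK_pos
    intro j i
    apply TrialPt.val_le_val (S := S)
    have h1 := TrialPt.cutW_val hS
    have h2 := hlow j i
    have h3 : rM S t j i = val S (t j i) := rfl
    rw [← h3]
    have h4 : ulp S ≤ 1 / (S : ℝ) ^ 27 := by
      refine le_trans ?_ htiny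
      unfold ulp prec
      rw [one_div, one_div, inv_pow]
      apply inv_anti₀ (by positivity)
      apply pow_le_pow_right₀ (by norm_num)
      have := (TrialPt.pow_facts' hS).1
      have h5 : S ^ 5 / 8 ≤ S ^ 5 := Nat.div_le_self _ _
      omega
    have e : 1 / (2 * (S : ℝ) ^ 26) = S / 2 * (1 / (S : ℝ) ^ 27) := by
      field_simp
    rw [e27] at h2
    rw [e] at h1
    nlinarith
  obtain ⟨β, hb1, hb2, hb3, hb4⟩ := betaF_spec hW h.hm h.hn hsum hN hTab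
  refine ⟨t, β, htT, ?_, hclose2, hTab, hcutT, hb2, hb3, hb4⟩
  show betaF S (lN r) ((c0 : ℤ) :: lL l) (tabF S (lN r) ((c0 : ℤ) :: lL l) _) = lF β
  have e : tabF S (lN r) ((c0 : ℤ) :: lL l) (lK fun k => fineIdx S (y k)) = lM t := htT
  rw [e, hlN]
  exact hb1

end Vale.Agent.Lib.P328.Bit
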