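import Vale.Agent.Lib.P328.Bit.TrialF
import Vale.Agent.Lib.P328.Bit.TrialLip

/-!
# P328, bit model: the numbers of one row of a trial (module TRIALF-B)

`t̃`, `Bw`: the matrix and the vector `exp β` in words, `t' = rM S t̃`, `bb`: the true values of `exp β`.
`row_main`: the words `rowPF`, `rowQF` are within `(1/2)^(3 S^4)` of `p = rowP t' bb i` and of `1 - p`, and `p`, `1 - p` are at least `(1/2)^(5 S^2)`.
-/

namespace Vale.Agent.Lib.P328.Bit

open Finset Vale.Agent.Lib.P328.Cap Vale.Agent.Lib.P328.Fpras Vale.Agent.Lib.P328.Samp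

namespace TrialP

variable {S m n : ℕ}

/-! ### Lists -/

theorem idxL_ofFn {γ : Type} {k : ℕ} (hk : k ≤ S) (f : Fin k → γ) :
    (idxL S (List.ofFn f)).take S = (List.range k).map fun j : ℕ => (j : ℤ) := by
  have h1 : (List.ofFn f).length = k := by simp
  have h2 : ((List.ofFn f).take S).length = k := by
    rw [List.length_take, h1]
    exact min_eq_right hk
  rw [idxL_eq, h2]
  have h3 : (((k : ℤ)).toNat) = k := Int.toNat_natCast k
  rw [h3, min_eq_left hk]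
  exact List.take_of_length_le (by simpa using hk)

theorem map_idx_ofFn {γ δ : Type} {k : ℕ} (hk : k ≤ S) (f : Fin k → γ) (g : ℤ → δ) :
    ((idxL S (List.ofFn f)).take S).map g = List.ofFn fun a : Fin k => g ((a : ℕ) : ℤ) := by
  rw [idxL_ofFn hk, List.map_map]
  refine List.ext_getElem (by simp) fun i h1 h2 => ?_
  simp only [List.getElem_map, List.getElem_range, List.getElem_ofFn, Function.comp]

theorem getM_lM {n1 : ℕ} (hn : n1 ≤ S) (hm : m ≤ S) (t : Fin n1 → Fin m → ℤ) (j : Fin n1) (i : Fin m) :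
    getM S (lM t) ((j : ℕ) : ℤ) ((i : ℕ) : ℤ) = t j i := by
  unfold getM lM
  rw [List.take_of_length_le (by simpa using hn), Int.toNat_natCast]
  have : (List.ofFn fun j => List.ofFn (t j)).getD (j : ℕ) [] = List.ofFn (t j) := by
    rw [List.getD_eq_getElem _ _ (by simp)]
    simp
  rw [this]
  exact getL_ofFn hm _ i

/-- The value of a sum of words. -/
theorem foldl_cadd_val (hS : 1000000 ≤ S) {B : ℝ} (hB : 0 ≤ B) (L : List ℤ) (s : ℤ)
    (hL : ∀ a ∈ L, |val S a| ≤ B) (hs : |val S s| + (L.length : ℝ) * B ≤ Big S) :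
    val S (L.foldl (fun s a => cadd S s a) s) = val S s + (L.map (val S)).sum := by
  induction L generalizing s with
  | nil => simp
  | cons a L ih =>
    have ha := hL a (by simp)
    have hL' : ∀ a ∈ L, |val S a| ≤ B := fun b hb => hL b (List.mem_cons_of_mem _ hb)
    simp only [List.length_cons] at hs
    push_cast at hs
    have hlen : (0 : ℝ) ≤ L.length := Nat.cast_nonneg _
    have h0 : 0 ≤ |val S s| := abs_nonneg _
    have h1 : (L.length : ℝ) * B ≥ 0 := by positivity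
    have hsB : |val S s| ≤ Big S := by nlinarith
    have haB : |val S a| ≤ Big S := by nlinarith
    have e := val_add hS hsB haB
    rw [List.foldl_cons, ih (cadd S s a) hL', e, List.map_cons, List.sum_cons]
    · ring
    · rw [e]
      refine le_trans (add_le_add_left (abs_add_le _ _) _) ?_
      nlinarith

theorem sumL_ofFn_val (hS : 1000000 ≤ S) {k : ℕ} (hk : k ≤ S) (f : Fin k → ℤ) {B : ℝ} (hB : 0 ≤ B)
    (hf : ∀ a, |val S (f a)| ≤ B) (hkB : (k : ℝ) * B ≤ Big S) :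
    val S (sumL S (List.ofFn f)) = ∑ a, val S (f a) := by
  unfold sumL
  rw [List.take_of_length_le (by simpa using hk)]
  have h0 : val S 0 = 0 := by simp [val]
  rw [foldl_cadd_val hS hB _ 0 _ (by simpa [h0] using hkB)]
  · rw [h0, zero_add, List.map_ofFn, List.sum_ofFn]
    rfl
  · intro a ha
    rw [List.mem_ofFn] at ha
    obtain ⟨b, rfl⟩ := ha
    exact hf b

/-! ### The constants -/

/-- The numbers that are used for one row. -/
theorem row_numbers (hS : 1000000 ≤ S) :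
    (S : ℝ) ^ 27 * (2 * Real.exp ((S : ℝ) ^ 2)) * (2 ^ S * (S : ℝ) ^ 6) * (S : ℝ) * Real.exp ((S : ℝ) ^ 2) * 16
        ≤ 2 ^ (5 * S ^ 2)
      ∧ Real.exp ((S : ℝ) ^ 2) ≤ 2 ^ (2 * S ^ 2) := by
  have hE : Real.exp ((S : ℝ) ^ 2) ≤ 2 ^ (2 * S ^ 2) := by
    have h1 : Real.exp ((S : ℝ) ^ 2) = Real.exp 1 ^ (S ^ 2) := by
      rw [← Real.exp_nat_mul]
      push_cast
      rw [mul_one]
    rw [h1, pow_mul]
    have h2 : Real.exp 1 ≤ 2 ^ 2 := by
      have := Real.exp_one_lt_d9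
      norm_num
      linarith
    exact pow_le_pow_left₀ (Real.exp_pos _).le h2 _
  refine ⟨?_, hE⟩
  have hS0 : (0 : ℝ) ≤ S := Nat.cast_nonneg _
  have h27 := natCast_pow_le_two_pow S 27
  have h6 := natCast_pow_le_two_pow S 6
  have h1 := natCast_le_two_pow S
  have hE0 := Real.exp_pos ((S : ℝ) ^ 2)
  have hpow : (2 : ℝ) ^ (27 * S) * (2 * 2 ^ (2 * S ^ 2)) * (2 ^ S * 2 ^ (6 * S)) * 2 ^ S * 2 ^ (2 * S ^ 2) * 2 ^ 4
      ≤ 2 ^ (5 * S ^ 2) := by
    have e : (2 : ℝ) ^ (27 * S) * (2 * 2 ^ (2 * S ^ 2)) * (2 ^ S * 2 ^ (6 * S)) * 2 ^ S * 2 ^ (2 * S ^ 2) * 2 ^ 4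
        = 2 ^ (27 * S + (1 + 2 * S ^ 2) + (S + 6 * S) + S + 2 * S ^ 2 + 4) := by
      simp only [pow_add, pow_one]
    rw [e]
    apply pow_le_pow_right₀ (by norm_num)
    have h3 : 1000000 * S ≤ S ^ 2 := by nlinarith
    omega
  calc _ ≤ (2 : ℝ) ^ (27 * S) * (2 * 2 ^ (2 * S ^ 2)) * (2 ^ S * 2 ^ (6 * S)) * 2 ^ S * 2 ^ (2 * S ^ 2) * 2 ^ 4 := by
        have h5 : (16 : ℝ) = 2 ^ 4 := by norm_num
        rw [h5]
        gcongr
    _ ≤ _ := hpow

/-- Words of the sizes of a row are within the safe range. -/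
theorem big_facts (hS : 1000000 ≤ S) :
    (2 : ℝ) ^ (5 * S ^ 2) * 4 * (S : ℝ) ≤ Big S ∧ (S : ℝ) ≤ 2 ^ S := by
  refine ⟨?_, natCast_le_two_pow S⟩
  have h1 := natCast_le_two_pow S
  unfold Big
  calc (2 : ℝ) ^ (5 * S ^ 2) * 4 * (S : ℝ) ≤ 2 ^ (5 * S ^ 2) * 2 ^ 2 * 2 ^ S := by
        norm_num
        gcongr
    _ = 2 ^ (5 * S ^ 2 + 2 + S) := by
        simp only [pow_add]
    _ ≤ _ := by
        apply pow_le_pow_right₀ (by norm_num)
        have h2 : S ^ 4 = S ^ 2 * S ^ 2 := by ring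
        have h3 : 1000000 * 1000000 ≤ S ^ 2 := by nlinarith
        nlinarith

/-! ### One row -/

/-- The hypotheses for the rows of a trial. -/
structure RowHyp (S : ℕ) {n1 : ℕ} (tw : Fin n1 → Fin m → ℤ) (Bw : Fin n1 → ℤ) (bb : Fin n1 → ℝ) : Prop where
  hS : 1000000 ≤ S
  hn1 : n1 ≤ S
  hm : m ≤ S
  ht0 : ∀ j i, 1 / (S : ℝ) ^ 27 ≤ val S (tw j i)
  ht1 : ∀ j i, val S (tw j i) ≤ 2 ^ S * (S : ℝ) ^ 6
  hb0 : ∀ j, 1 / Real.exp ((S : ℝ) ^ 2) ≤ bb j
  hb1 : ∀ j, bb j ≤ Real.exp ((S : ℝ) ^ 2)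
  hBw : ∀ j, |val S (Bw j) - bb j| ≤ (1 / 2 : ℝ) ^ (S ^ 5 / 2)

section Row

variable {n1 : ℕ} {tw : Fin n1 → Fin m → ℤ} {Bw : Fin n1 → ℤ} {bb : Fin n1 → ℝ}

/-- The error of a cell. -/
noncomputable def errC (S : ℕ) : ℝ := ulp S + 2 ^ S * (S : ℝ) ^ 6 * (1 / 2 : ℝ) ^ (S ^ 5 / 2)

theorem S_pos (H : RowHyp S tw Bw bb) : (0 : ℝ) < S := by
  have := H.hS
  have h : 0 < S := by omega
  exact_mod_cast h

theorem ulp_le (hS : 1000000 ≤ S) : ulp S ≤ (1 / 2 : ℝ) ^ (S ^ 5 / 2) := by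
  unfold ulp prec
  rw [← one_div_pow]
  exact pow_le_pow_of_le_one (by norm_num) (by norm_num) (Nat.div_le_self _ _)

theorem errC_le (hS : 1000000 ≤ S) : errC S ≤ 2 * (2 ^ S * (S : ℝ) ^ 6) * (1 / 2 : ℝ) ^ (S ^ 5 / 2) := by
  unfold errC
  have h1 := ulp_le hS
  have h2 : (1 : ℝ) ≤ 2 ^ S * (S : ℝ) ^ 6 := by
    have h3 : (1 : ℝ) ≤ 2 ^ S := one_le_pow₀ (by norm_num)
    have h4 : (1 : ℝ) ≤ (S : ℝ) ^ 6 := one_le_pow₀ (by
      have : 1 ≤ S := by omega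
      exact_mod_cast this)
    nlinarith
  have h5 : (0 : ℝ) < (1 / 2 : ℝ) ^ (S ^ 5 / 2) := by positivity
  nlinarith

/-- A bound for a cell. -/
theorem cell_close (H : RowHyp S tw Bw bb) (j : Fin n1) (i : Fin m) :
    |val S (fmul S (tw j i) (Bw j)) - val S (tw j i) * bb j| ≤ errC S := by
  have hS := H.hS
  have hS0 := S_pos H
  obtain ⟨hN, -⟩ := row_numbers hS
  obtain ⟨hB, -⟩ := big_facts hS
  have hE0 := Real.exp_pos ((S : ℝ) ^ 2)
  have hE1 : (1 : ℝ) ≤ Real.exp ((S : ℝ) ^ 2) := Real.one_le_exp (by positivity)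
  set E := Real.exp ((S : ℝ) ^ 2) with hE
  set L : ℝ := 2 ^ S * (S : ℝ) ^ 6 with hL
  have hL1 : (1 : ℝ) ≤ L := by
    have h3 : (1 : ℝ) ≤ 2 ^ S := one_le_pow₀ (by norm_num)
    have h4 : (1 : ℝ) ≤ (S : ℝ) ^ 6 := one_le_pow₀ (by
      have : 1 ≤ S := by omega
      exact_mod_cast this)
    rw [hL]
    nlinarith
  have hS1 : (1 : ℝ) ≤ (S : ℝ) := by
    have : 1 ≤ S := by omega
    exact_mod_cast this
  have h2big : (0 : ℝ) < 2 ^ (5 * S ^ 2) := by positivity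
  -- the sizes
  have hS27 : (1 : ℝ) ≤ (S : ℝ) ^ 27 := one_le_pow₀ hS1
  have hLE : L * E * 1 ≤ 2 ^ (5 * S ^ 2) := by
    have h3 : L * E * 1 ≤ (S : ℝ) ^ 27 * (2 * E) * L * (S : ℝ) * E * 16 := by
      have h4 : 0 < L * E := by positivity
      have h5 : (1 : ℝ) ≤ (S : ℝ) ^ 27 * 2 * (S : ℝ) * E * 16 := by
        have : (1 : ℝ) ≤ (S : ℝ) ^ 27 * (S : ℝ) := by nlinarith
        nlinarith
      nlinarith
    linarith
  have hBig : (2 : ℝ) ^ (5 * S ^ 2) ≤ Big S := by nlinarith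
  have ht0 : 0 < val S (tw j i) := lt_of_lt_of_le (by positivity) (H.ht0 j i)
  have htB : |val S (tw j i)| ≤ Big S := by
    rw [abs_of_pos ht0]
    have : L ≤ L * E := by nlinarith
    linarith [H.ht1 j i]
  have hε : (1 / 2 : ℝ) ^ (S ^ 5 / 2) ≤ 1 := pow_le_one₀ (by norm_num) (by norm_num)
  have hbw : |val S (Bw j)| ≤ Big S := by
    have h3 := H.hBw j
    have h4 := abs_le.1 h3
    have h5 := H.hb0 j
    have h6 := H.hb1 j
    have h7 : 0 < bb j := lt_of_lt_of_le (by positivity) h5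
    have h8 : E + 1 ≤ 2 * (L * E) := by nlinarith
    rw [abs_le]
    constructor <;> nlinarith [(abs_le.1 h3).1, (abs_le.1 h3).2]
  have h1 := val_fmul hS htB hbw
  have h3 : |val S (tw j i) * val S (Bw j) - val S (tw j i) * bb j| ≤ L * (1 / 2 : ℝ) ^ (S ^ 5 / 2) := by
    rw [← mul_sub, abs_mul, abs_of_pos ht0]
    exact mul_le_mul (H.ht1 j i) (H.hBw j) (abs_nonneg _) (by linarith)
  have h4 := abs_sub_le (val S (fmul S (tw j i) (Bw j))) (val S (tw j i) * val S (Bw j)) (val S (tw j i) * bb j)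
  unfold errC
  linarith


theorem half_pow_facts (hS : 1000000 ≤ S) : 100 * S ^ 4 ≤ S ^ 5 / 2 ∧ 100 * S ^ 4 ≤ S ^ 5 / 4 ∧ 100 * S ^ 4 ≤ S ^ 5 / 8
    ∧ 1000000 * S ^ 2 ≤ S ^ 4 ∧ 1000000 * S ≤ S ^ 2 ∧ 1000000 * S ^ 3 ≤ S ^ 4 := by
  have h5 : S ^ 5 = S * S ^ 4 := by ring
  have h4 : 0 < S ^ 4 := by positivity
  have h42 : S ^ 4 = S ^ 2 * S ^ 2 := by ring
  have h43 : S ^ 4 = S * S ^ 3 := by ring
  have h2 : S ^ 2 = S * S := by ring
  have h3 : 1000000 * S ^ 4 ≤ S ^ 5 := by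
    rw [h5]
    exact Nat.mul_le_mul_right _ hS
  have h6 : 1000000 * S ≤ S ^ 2 := by
    rw [h2]
    exact Nat.mul_le_mul_right _ hS
  refine ⟨?_, ?_, ?_, ?_, h6, ?_⟩
  · rw [Nat.le_div_iff_mul_le (by norm_num)]
    omega
  · rw [Nat.le_div_iff_mul_le (by norm_num)]
    omega
  · rw [Nat.le_div_iff_mul_le (by norm_num)]
    omega
  · rw [h42]
    have : 1000000 ≤ S ^ 2 := by nlinarith
    exact Nat.mul_le_mul_right _ this
  · rw [h43]
    exact Nat.mul_le_mul_right _ hS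

/-- The main bound for the error of a row. -/
theorem row_err (H : RowHyp S tw Bw bb) :
    4 * ((n1 : ℝ) * errC S) * ((S : ℝ) ^ 27 * Real.exp ((S : ℝ) ^ 2))
      ≤ 2 ^ (5 * S ^ 2) * (1 / 2 : ℝ) ^ (S ^ 5 / 2) := by
  have hS := H.hS
  have hS0 := S_pos H
  obtain ⟨hN, -⟩ := row_numbers hS
  have hE1 : (1 : ℝ) ≤ Real.exp ((S : ℝ) ^ 2) := Real.one_le_exp (by positivity)
  set E := Real.exp ((S : ℝ) ^ 2) with hE
  have hn1 : (n1 : ℝ) ≤ S := by exact_mod_cast H.hn1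
  have herr := errC_le hS
  have herr0 : 0 ≤ errC S := by
    unfold errC ulp
    positivity
  set ε := (1 / 2 : ℝ) ^ (S ^ 5 / 2) with hε
  have hε0 : 0 < ε := by positivity
  set L : ℝ := 2 ^ S * (S : ℝ) ^ 6 with hL
  have hL0 : 0 < L := by positivity
  have h1 : (n1 : ℝ) * errC S ≤ S * (2 * L * ε) :=
    mul_le_mul hn1 herr herr0 hS0.le
  have hS27 : 0 < (S : ℝ) ^ 27 := by positivity
  have h2 : 4 * ((n1 : ℝ) * errC S) * ((S : ℝ) ^ 27 * E) ≤ 4 * (S * (2 * L * ε)) * ((S : ℝ) ^ 27 * E) := by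
    gcongr
  refine h2.trans ?_
  have h3 : 4 * (S * (2 * L * ε)) * ((S : ℝ) ^ 27 * E) ≤ ((S : ℝ) ^ 27 * (2 * E) * L * S * E * 16) * ε := by
    have h4 : 0 < (S : ℝ) ^ 27 * L * S * ε * E := by positivity
    nlinarith
  refine h3.trans ?_
  exact mul_le_mul_of_nonneg_right hN hε0.le

end Row

section RowMain

variable {n1 : ℕ} {tw : Fin (n + 1) → Fin m → ℤ} {Bw : Fin (n + 1) → ℤ} {bb : Fin (n + 1) → ℝ}

/-- The row terms are the cells. -/
theorem rowTerms_eq (H : RowHyp S tw Bw bb) (i : Fin m) :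
    rowTerms S (lM tw) (List.ofFn Bw) ((i : ℕ) : ℤ)
      = List.ofFn fun j => fmul S (tw j i) (Bw j) := by
  unfold rowTerms lM
  rw [map_idx_ofFn H.hn1]
  congr 1
  funext j
  have h1 := getM_lM H.hn1 H.hm tw j i
  unfold lM at h1
  rw [h1, getL_ofFn H.hn1]

theorem rowA_eq (H : RowHyp S tw Bw bb) (i : Fin m) :
    rowA S (lM tw) (List.ofFn Bw) ((i : ℕ) : ℤ) = fmul S (tw 0 i) (Bw 0) := by
  unfold rowA
  have h1 := getM_lM H.hn1 H.hm tw 0 i
  have h2 := getL_ofFn H.hn1 Bw 0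
  simp only [Fin.val_zero, Nat.cast_zero] at h1 h2
  rw [h1, h2]

/-- The sizes of a row. -/
theorem row_size (hS : 1000000 ≤ S) :
    (S : ℝ) * ((2 ^ S * (S : ℝ) ^ 6) * Real.exp ((S : ℝ) ^ 2)) * 4 ≤ Big S
      ∧ 2 * ((S : ℝ) ^ 27 * Real.exp ((S : ℝ) ^ 2)) ≤ Big S
      ∧ ((S : ℝ) ^ 27 * Real.exp ((S : ℝ) ^ 2)) * ((S : ℝ) * ((2 ^ S * (S : ℝ) ^ 6) * Real.exp ((S : ℝ) ^ 2)))
          ≤ 2 ^ (5 * S ^ 2)
      ∧ (1 : ℝ) ≤ 2 ^ S * (S : ℝ) ^ 6 ∧ (1 : ℝ) ≤ S := by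
  obtain ⟨hN, -⟩ := row_numbers hS
  obtain ⟨hB, -⟩ := big_facts hS
  have hS1 : (1 : ℝ) ≤ S := by
    have : 1 ≤ S := by omega
    exact_mod_cast this
  have hE1 : (1 : ℝ) ≤ Real.exp ((S : ℝ) ^ 2) := Real.one_le_exp (by positivity)
  set E := Real.exp ((S : ℝ) ^ 2) with hE
  have hL1 : (1 : ℝ) ≤ 2 ^ S * (S : ℝ) ^ 6 :=
    one_le_mul_of_one_le_of_one_le (one_le_pow₀ (by norm_num)) (one_le_pow₀ hS1)
  set L : ℝ := 2 ^ S * (S : ℝ) ^ 6 with hL
  have hS27 : (1 : ℝ) ≤ (S : ℝ) ^ 27 := one_le_pow₀ hS1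
  set G : ℝ := 2 ^ (5 * S ^ 2) with hG
  have hG1 : (1 : ℝ) ≤ G := one_le_pow₀ (by norm_num)
  have hGB : G ≤ Big S := by
    have h1 : G * 1 ≤ G * (4 * S) := mul_le_mul_of_nonneg_left (by linarith) (by linarith)
    have e : G * (4 * (S : ℝ)) = G * 4 * S := by ring
    linarith
  have hXE : (1 : ℝ) ≤ (S : ℝ) ^ 27 * E := one_le_mul_of_one_le_of_one_le hS27 hE1
  have hLE : (1 : ℝ) ≤ L * E := one_le_mul_of_one_le_of_one_le hL1 hE1
  have hSLE : (1 : ℝ) ≤ S * (L * E) := one_le_mul_of_one_le_of_one_le hS1 hLE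
  -- the product of `hN`
  have e1 : (S : ℝ) ^ 27 * (2 * E) * L * S * E * 16
      = ((S : ℝ) ^ 27 * E) * ((S : ℝ) * (L * E)) * 32 := by ring
  rw [e1] at hN
  have hXY : ((S : ℝ) ^ 27 * E) * ((S : ℝ) * (L * E)) ≤ G := by
    have h0 : 0 < ((S : ℝ) ^ 27 * E) * ((S : ℝ) * (L * E)) := by positivity
    linarith
  have hXY1 : (S : ℝ) ^ 27 * E ≤ ((S : ℝ) ^ 27 * E) * ((S : ℝ) * (L * E)) :=
    le_mul_of_one_le_right (by positivity) hSLE
  have hXY2 : (S : ℝ) * (L * E) ≤ ((S : ℝ) ^ 27 * E) * ((S : ℝ) * (L * E)) :=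
    le_mul_of_one_le_left (by positivity) hXE
  refine ⟨?_, ?_, hXY, hL1, hS1⟩
  · have h0 : 0 < ((S : ℝ) ^ 27 * E) * ((S : ℝ) * (L * E)) := by positivity
    linarith
  · have h0 : 0 < ((S : ℝ) ^ 27 * E) * ((S : ℝ) * (L * E)) := by positivity
    linarith

/-- **The numbers of one row.** -/
theorem row_main (H : RowHyp S tw Bw bb) (hn : 0 < n) (i : Fin m) :
    let p := rowP (rM S tw) bb i
    (1 / 2 : ℝ) ^ (5 * S ^ 2) ≤ p ∧ (1 / 2 : ℝ) ^ (5 * S ^ 2) ≤ 1 - p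
      ∧ |val S (rowPF S (lM tw) (List.ofFn Bw) ((i : ℕ) : ℤ)) - p| ≤ (1 / 2 : ℝ) ^ (3 * S ^ 4)
      ∧ |val S (rowQF S (lM tw) (List.ofFn Bw) ((i : ℕ) : ℤ)) - (1 - p)| ≤ (1 / 2 : ℝ) ^ (3 * S ^ 4) := by
  intro p
  have hS := H.hS
  have hS0 := S_pos H
  obtain ⟨hB1, hB2, hXY, hL1, hS1⟩ := row_size hS
  obtain ⟨hf1, -, -, hf4, hf5, hf6⟩ := half_pow_facts hS
  have hE1 : (1 : ℝ) ≤ Real.exp ((S : ℝ) ^ 2) := Real.one_le_exp (by positivity)
  have hq := row_err H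
  set E := Real.exp ((S : ℝ) ^ 2) with hE
  set L : ℝ := 2 ^ S * (S : ℝ) ^ 6 with hL
  set ε := (1 / 2 : ℝ) ^ (S ^ 5 / 2) with hε
  set G : ℝ := 2 ^ (5 * S ^ 2) with hG
  have hG0 : 0 < G := by positivity
  have hε0 : 0 < ε := by positivity
  have hn1 : ((n + 1 : ℕ) : ℝ) ≤ S := by exact_mod_cast H.hn1
  have hn1' : (1 : ℝ) ≤ ((n + 1 : ℕ) : ℝ) := by
    push_cast
    have : (0 : ℝ) ≤ n := Nat.cast_nonneg _
    linarith
  set t' := rM S tw with ht'
  set w : Fin (n + 1) → ℝ := fun j => t' j i * bb j with hw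
  set D := ∑ j, w j with hD
  have hS27' : 0 < (S : ℝ) ^ 27 := by positivity
  set X : ℝ := (S : ℝ) ^ 27 * E with hX
  have hX0 : 0 < X := by positivity
  have hX1 : 1 ≤ X := one_le_mul_of_one_le_of_one_le (one_le_pow₀ hS1) hE1
  set Y : ℝ := (S : ℝ) * (L * E) with hY
  have hLE1 : (1 : ℝ) ≤ L * E := one_le_mul_of_one_le_of_one_le hL1 hE1
  have hY1 : 1 ≤ Y := one_le_mul_of_one_le_of_one_le hS1 hLE1
  have hY0 : 0 < Y := by linarith
  -- the bounds of the cells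
  have hw0 : ∀ j, 1 / X ≤ w j := by
    intro j
    have h1 := H.ht0 j i
    have h2 := H.hb0 j
    have e : 1 / X = (1 / (S : ℝ) ^ 27) * (1 / E) := by
      rw [hX]
      field_simp
    rw [e]
    exact mul_le_mul h1 h2 (by positivity) ((by positivity : (0 : ℝ) ≤ 1 / (S : ℝ) ^ 27).trans h1)
  have hw00 : ∀ j, 0 < w j := fun j => lt_of_lt_of_le (by positivity) (hw0 j)
  have hw1 : ∀ j, w j ≤ L * E := by
    intro j
    have h0 : 0 < t' j i := lt_of_lt_of_le (by positivity) (H.ht0 j i)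
    have h1 := H.ht1 j i
    have h2 := H.hb1 j
    exact mul_le_mul h1 h2 (lt_of_lt_of_le (by positivity) (H.hb0 j)).le (by linarith)
  have hD0 : w 0 ≤ D := Finset.single_le_sum (fun j _ => (hw00 j).le) (mem_univ 0)
  have hD1 : D ≤ Y := by
    refine (Finset.sum_le_card_nsmul _ _ _ fun j _ => hw1 j).trans ?_
    rw [Finset.card_univ, Fintype.card_fin, nsmul_eq_mul]
    exact mul_le_mul_of_nonneg_right hn1 (by linarith)
  have hDpos : 0 < D := lt_of_lt_of_le (hw00 0) hD0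
  have hpeq : p = w 0 / D := rfl
  -- sizes
  have herr0 : 0 ≤ errC S := by
    unfold errC ulp
    positivity
  have hε1 : G * 2 * ε ≤ (1 / 2 : ℝ) ^ (3 * S ^ 4) := by
    have e : G * 2 * ε = 2 ^ (5 * S ^ 2 + 1) * ε := by
      rw [pow_add (2 : ℝ) (5 * S ^ 2) 1, pow_one]
    rw [e]
    refine two_pow_mul_half_pow ?_
    have : S ^ 2 ≤ S ^ 4 := by omega
    omega
  have hsmall : (1 / 2 : ℝ) ^ (3 * S ^ 4) ≤ 1 := pow_le_one₀ (by norm_num) (by norm_num)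
  have hGε : G * ε ≤ (1 / 2 : ℝ) ^ (3 * S ^ 4) := by
    have e : G * 2 * ε = 2 * (G * ε) := by ring
    have : 0 < G * ε := by positivity
    linarith
  set δ := ((n + 1 : ℕ) : ℝ) * errC S with hδ
  have hδ0 : 0 ≤ δ := by positivity
  have hq' : 4 * δ * X ≤ G * ε := hq
  have hδX : δ * (4 * X) ≤ 1 := by
    have e : δ * (4 * X) = 4 * δ * X := by ring
    linarith
  have herrS : δ ≤ 1 / (4 * X) := by
    rw [le_div_iff₀ (by positivity)]
    exact hδX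
  have herr1 : errC S ≤ δ := le_mul_of_one_le_left herr0 hn1'
  -- the cells in words
  have hcell := cell_close H
  have hδ1 : δ ≤ 1 := by
    have h1 : 1 / (4 * X) ≤ 1 := by
      rw [div_le_one (by positivity)]
      linarith
    linarith
  have hcellB : ∀ j, |val S (fmul S (tw j i) (Bw j))| ≤ 2 * (L * E) := by
    intro j
    have h1 := abs_le.1 (hcell j i)
    have h2 := hw1 j
    have h3 := hw00 j
    have h4 : val S (tw j i) * bb j = w j := rfl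
    rw [h4] at h1
    rw [abs_le]
    constructor <;> linarith [h1.1, h1.2]
  set A := fmul S (tw 0 i) (Bw 0) with hA
  set Dw := rowD S (lM tw) (List.ofFn Bw) ((i : ℕ) : ℤ) with hDw
  have hDval : val S Dw = ∑ j, val S (fmul S (tw j i) (Bw j)) := by
    rw [hDw]
    unfold rowD
    rw [rowTerms_eq H]
    refine sumL_ofFn_val hS H.hn1 _ (B := 2 * (L * E)) (by positivity) hcellB ?_
    have h1 : ((n + 1 : ℕ) : ℝ) * (2 * (L * E)) ≤ S * (2 * (L * E)) :=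
      mul_le_mul_of_nonneg_right hn1 (by positivity)
    have e : (S : ℝ) * (2 * (L * E)) = 2 * Y := by
      rw [hY]
      ring
    linarith
  have hDclose : |val S Dw - D| ≤ δ := by
    rw [hDval, hD, ← Finset.sum_sub_distrib]
    refine (Finset.abs_sum_le_sum_abs _ _).trans ?_
    refine (Finset.sum_le_card_nsmul _ _ _ fun j _ => hcell j i).trans ?_
    rw [Finset.card_univ, Fintype.card_fin, nsmul_eq_mul]
  have hAclose : |val S A - w 0| ≤ δ := (hcell 0 i).trans herr1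
  set μ : ℝ := 1 / (2 * X) with hμ
  have hμ0 : 0 < μ := by positivity
  have hδμ : δ ≤ μ := by
    refine herrS.trans ?_
    exact one_div_le_one_div_of_le (by positivity) (by linarith)
  have hw0' : 2 * μ ≤ w 0 := by
    have h1 := hw0 0
    have e : 2 * μ = 1 / X := by
      rw [hμ]
      field_simp
    linarith
  have hDlow : μ ≤ val S Dw := by
    have h1 := (abs_le.1 hDclose).1
    linarith
  have hDw0 : 0 < val S Dw := lt_of_lt_of_le hμ0 hDlow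
  have hDup : val S Dw ≤ Y + 1 := by
    have h1 := (abs_le.1 hDclose).2
    linarith
  have hDwB' : |val S Dw| ≤ Y + 1 := by
    rw [abs_of_pos hDw0]
    exact hDup
  have hDwB : |val S Dw| ≤ Big S := by
    linarith
  have hLEY : L * E ≤ Y := le_mul_of_one_le_left (by linarith) hS1
  have hAB' : |val S A| ≤ 2 * Y := (hcellB 0).trans (by linarith)
  have hBigY : 4 * Y ≤ Big S := by
    linarith
  have hAB : |val S A| ≤ Big S := by linarith
  have hDinv : 1 / Big S ≤ |val S Dw| := by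
    rw [abs_of_pos hDw0]
    refine le_trans ?_ hDlow
    exact one_div_le_one_div_of_le (by positivity) hB2
  -- the quotient
  have hquot := quot_close (x := val S A) (y := val S Dw) (w := w 0) (D := D) (δ := δ) (μ := μ)
    hDpos (hw00 0).le hD0 hAclose hDclose hμ0 hDlow
  have hQ : 2 * δ / μ ≤ G * ε := by
    rw [hμ]
    have e : 2 * δ / (1 / (2 * X)) = 4 * δ * X := by
      field_simp
      ring
    rw [e]
    exact hq'
  have hulp : ulp S ≤ ε := ulp_le hS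
  have hG1 : 1 ≤ G := one_le_pow₀ (by norm_num)
  have htot : ulp S + 2 * δ / μ ≤ (1 / 2 : ℝ) ^ (3 * S ^ 4) := by
    refine le_trans ?_ hε1
    have h1 : ε ≤ G * ε := le_mul_of_one_le_left hε0.le hG1
    have e : G * 2 * ε = 2 * (G * ε) := by ring
    linarith
  have hfd := val_fdiv hS hAB hDwB hDinv
  have hPclose : |val S (rowPF S (lM tw) (List.ofFn Bw) ((i : ℕ) : ℤ)) - p| ≤ (1 / 2 : ℝ) ^ (3 * S ^ 4) := by
    have e : rowPF S (lM tw) (List.ofFn Bw) ((i : ℕ) : ℤ) = fdiv S A Dw := by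
      unfold rowPF
      rw [rowA_eq H]
    rw [e, hpeq]
    have h1 := abs_sub_le (val S (fdiv S A Dw)) (val S A / val S Dw) (w 0 / D)
    linarith
  have hQclose : |val S (rowQF S (lM tw) (List.ofFn Bw) ((i : ℕ) : ℤ)) - (1 - p)| ≤ (1 / 2 : ℝ) ^ (3 * S ^ 4) := by
    have e : rowQF S (lM tw) (List.ofFn Bw) ((i : ℕ) : ℤ) = fdiv S (csub S Dw A) Dw := by
      unfold rowQF rowE
      rw [rowA_eq H]
    have hsub := val_sub hS hDwB hAB
    have hsB : |val S (csub S Dw A)| ≤ Big S := by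
      rw [hsub]
      refine (abs_sub _ _).trans ?_
      linarith
    have hfd2 := val_fdiv hS hsB hDwB hDinv
    rw [e, hpeq]
    have e2 : val S (csub S Dw A) / val S Dw = 1 - val S A / val S Dw := by
      rw [hsub]
      field_simp
    rw [e2] at hfd2
    have h1 := abs_sub_le (val S (fdiv S (csub S Dw A) Dw)) (1 - val S A / val S Dw) (1 - w 0 / D)
    have e3 : (1 - val S A / val S Dw) - (1 - w 0 / D) = -(val S A / val S Dw - w 0 / D) := by ring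
    rw [e3, abs_neg] at h1
    linarith
  -- lower bounds
  have hlow : ∀ j, (1 / 2 : ℝ) ^ (5 * S ^ 2) ≤ w j / D := by
    intro j
    calc (1 / 2 : ℝ) ^ (5 * S ^ 2) = 1 / G := by rw [one_div_pow]
      _ ≤ 1 / (X * Y) := one_div_le_one_div_of_le (by positivity) hXY
      _ = (1 / X) / Y := by
          field_simp
      _ ≤ w j / D := div_le_div₀ (hw00 j).le (hw0 j) hDpos hD1
  have hq1 : 1 - p ≥ w (Fin.succ ⟨0, hn⟩) / D := by
    rw [hpeq]
    have e : 1 - w 0 / D = (D - w 0) / D := by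
      field_simp
    rw [e]
    apply div_le_div_of_nonneg_right _ hDpos.le
    have h1 : D = w 0 + ∑ j : Fin n, w j.succ := Fin.sum_univ_succ _
    have h2 : w (Fin.succ ⟨0, hn⟩) ≤ ∑ j : Fin n, w j.succ :=
      Finset.single_le_sum (f := fun j : Fin n => w j.succ) (fun j _ => (hw00 _).le) (mem_univ _)
    linarith
  exact ⟨hlow 0, (hlow _).trans hq1, hPclose, hQclose⟩

end RowMain

end TrialP

end Vale.Agent.Lib.P328.Bit
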