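import Vale.Agent.Lib.P328.Bit.TrialRow
import Vale.Agent.Lib.P328.Bit.TrialPoint
import Vale.Agent.Lib.P328.Bit.TrialAbs

/-!
# P328, bit model: the law of one trial at a good point (module TRIALF-B)

`Pt`: the data at a good point (from `trial_point`). `ξ = S^27 (1/2)^(S^2/2)`: the matrices `t` and `t' = rM S tw` agree up to the factor `1 + ξ`, entrywise.
-/

namespace Vale.Agent.Lib.P328.Bit

open Finset Vale.Agent.Lib.P328.Cap Vale.Agent.Lib.P328.Fpras Vale.Agent.Lib.P328.Samp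

namespace TrialP

/-! ### Rows of two close matrices -/

section Rows

variable {m n : ℕ} {t t' : Fin (n + 1) → Fin m → ℝ} {b : Fin (n + 1) → ℝ} {ξ : ℝ}

theorem trRowP_le (hξ : 0 ≤ ξ) (ht : ∀ j i, 0 < t j i) (ht' : ∀ j i, 0 < t' j i)
    (h : ∀ j i, t j i ≤ (1 + ξ) * t' j i) (h' : ∀ j i, t' j i ≤ (1 + ξ) * t j i)
    (hb : ∀ j, 0 < b j) (i : Fin m) :
    rowP t b i ≤ (1 + ξ) ^ 2 * rowP t' b i ∧ 1 - rowP t b i ≤ (1 + ξ) ^ 2 * (1 - rowP t' b i) := by
  have hξ1 : 0 < 1 + ξ := by linarith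
  set x := t 0 i * b 0 with hx
  set x' := t' 0 i * b 0 with hx'
  set E := ∑ j : Fin n, t j.succ i * b j.succ with hE
  set E' := ∑ j : Fin n, t' j.succ i * b j.succ with hE'
  have hx0 : 0 < x := mul_pos (ht _ _) (hb _)
  have hx'0 : 0 < x' := mul_pos (ht' _ _) (hb _)
  have hE0 : 0 ≤ E := Finset.sum_nonneg fun j _ => mul_nonneg (ht _ _).le (hb _).le
  have hE'0 : 0 ≤ E' := Finset.sum_nonneg fun j _ => mul_nonneg (ht' _ _).le (hb _).le
  have hxx : x ≤ (1 + ξ) * x' := by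
    rw [hx, hx', ← mul_assoc]
    exact mul_le_mul_of_nonneg_right (h _ _) (hb _).le
  have hxx' : x' ≤ (1 + ξ) * x := by
    rw [hx, hx', ← mul_assoc]
    exact mul_le_mul_of_nonneg_right (h' _ _) (hb _).le
  have hEE : E ≤ (1 + ξ) * E' := by
    rw [hE, hE', Finset.mul_sum]
    refine Finset.sum_le_sum fun j _ => ?_
    rw [← mul_assoc]
    exact mul_le_mul_of_nonneg_right (h _ _) (hb _).le
  have hEE' : E' ≤ (1 + ξ) * E := by
    rw [hE, hE', Finset.mul_sum]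
    refine Finset.sum_le_sum fun j _ => ?_
    rw [← mul_assoc]
    exact mul_le_mul_of_nonneg_right (h' _ _) (hb _).le
  have hp : rowP t b i = x / (x + E) := by
    unfold rowP
    rw [Fin.sum_univ_succ]
  have hp' : rowP t' b i = x' / (x' + E') := by
    unfold rowP
    rw [Fin.sum_univ_succ]
  have hD : 0 < x + E := by linarith
  have hD' : 0 < x' + E' := by linarith
  have hq : 1 - rowP t b i = E / (x + E) := by
    rw [hp]
    field_simp
    ring
  have hq' : 1 - rowP t' b i = E' / (x' + E') := by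
    rw [hp']
    field_simp
    ring
  constructor
  · rw [hp, hp', div_le_iff₀ hD, mul_assoc, div_mul_eq_mul_div, mul_div_assoc', le_div_iff₀ hD']
    have h1 : x' + E' ≤ (1 + ξ) * (x + E) := by linarith
    calc x * (x' + E') ≤ ((1 + ξ) * x') * ((1 + ξ) * (x + E)) :=
          mul_le_mul hxx h1 hD'.le (by positivity)
      _ = _ := by ring
  · rw [hq, hq', div_le_iff₀ hD, mul_assoc, div_mul_eq_mul_div, mul_div_assoc', le_div_iff₀ hD']
    have h1 : x' + E' ≤ (1 + ξ) * (x + E) := by linarith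
    calc E * (x' + E') ≤ ((1 + ξ) * E') * ((1 + ξ) * (x + E)) :=
          mul_le_mul hEE h1 hD'.le (by positivity)
      _ = _ := by ring

theorem trRowV_le (r : Fin m → ℕ) (hξ : 0 ≤ ξ) (ht : ∀ j i, 0 < t j i) (ht' : ∀ j i, 0 < t' j i)
    (h : ∀ j i, t j i ≤ (1 + ξ) * t' j i) (h' : ∀ j i, t' j i ≤ (1 + ξ) * t j i)
    (hb : ∀ j, 0 < b j) (i : Fin m) :
    rowV r t b i ≤ (1 + ξ) ^ 4 * rowV r t' b i := by
  obtain ⟨h1, h2⟩ := trRowP_le hξ ht ht' h h' hb i
  have h3 := rowP_nonneg ht hb i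
  have h4 := rowP_le_one ht hb i
  have h5 := rowP_nonneg ht' hb i
  have h6 := rowP_le_one ht' hb i
  unfold rowV
  have hr : (0 : ℝ) ≤ r i := Nat.cast_nonneg _
  have h7 : rowP t b i * (1 - rowP t b i)
      ≤ ((1 + ξ) ^ 2 * rowP t' b i) * ((1 + ξ) ^ 2 * (1 - rowP t' b i)) :=
    mul_le_mul h1 h2 (by linarith) (by positivity)
  calc (r i : ℝ) * rowP t b i * (1 - rowP t b i) = r i * (rowP t b i * (1 - rowP t b i)) := by ring
    _ ≤ r i * (((1 + ξ) ^ 2 * rowP t' b i) * ((1 + ξ) ^ 2 * (1 - rowP t' b i))) :=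
        mul_le_mul_of_nonneg_left h7 hr
    _ = _ := by ring

theorem rowV_le_r (r : Fin m → ℕ) (ht : ∀ j i, 0 < t j i) (hb : ∀ j, 0 < b j) (i : Fin m) :
    rowV r t b i ≤ r i := by
  have h3 := rowP_nonneg ht hb i
  have h4 := rowP_le_one ht hb i
  unfold rowV
  have hr : (0 : ℝ) ≤ r i := Nat.cast_nonneg _
  have h5 : rowP t b i * (1 - rowP t b i) ≤ 1 := by nlinarith
  calc (r i : ℝ) * rowP t b i * (1 - rowP t b i) = r i * (rowP t b i * (1 - rowP t b i)) := by ring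
    _ ≤ r i * 1 := mul_le_mul_of_nonneg_left h5 hr
    _ = r i := mul_one _

theorem rowV_nonneg (r : Fin m → ℕ) (ht : ∀ j i, 0 < t j i) (hb : ∀ j, 0 < b j) (i : Fin m) :
    0 ≤ rowV r t b i := by
  have h3 := rowP_nonneg ht hb i
  have h4 := rowP_le_one ht hb i
  unfold rowV
  have hr : (0 : ℝ) ≤ r i := Nat.cast_nonneg _
  exact mul_nonneg (mul_nonneg hr h3) (by linarith)

end Rows

/-! ### The point -/

/-- The relative distance of the two matrices. -/
noncomputable def xiT (S : ℕ) : ℝ := (S : ℝ) ^ 27 * (1 / 2 : ℝ) ^ (S ^ 2 / 2)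

theorem xiT_nonneg (S : ℕ) : 0 ≤ xiT S := by
  unfold xiT
  positivity

/-- All that is used of the point. -/
structure Pt (S : ℕ) {m : ℕ} (r : Fin m → ℕ) (c0 : ℕ) (l : List ℕ) (κ : List (List ℤ))
    (t : Fin (l.length + 1) → Fin m → ℝ) (tw : Fin (l.length + 1) → Fin m → ℤ)
    (β : Fin (l.length + 1) → ℤ) : Prop where
  hok : NodeOK S r (Fin.cons c0 l.get : Fin (l.length + 1) → ℕ)
  hl : 0 < l.length
  hT : nodeT S ((lN r, (c0 : ℤ), lL l), κ) = lM tw
  hB : solBF S (lN r) ((c0 : ℤ) :: lL l) κ = lF β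
  htt : ∀ j i, |rM S tw j i - t j i| ≤ (1 / 2 : ℝ) ^ (S ^ 2 / 2)
  ht : ∀ j i, cutK S ≤ t j i
  htr : TabRange S (rM S tw)
  hcut : 0 < cutOK S (nodeT S ((lN r, (c0 : ℤ), lL l), κ))
  hβ : ∀ j, |val S (β j)| ≤ (S : ℝ) ^ 2
  hcap1 : Real.log (capa r (Fin.cons c0 l.get) (rM S tw)).toReal
    ≤ capG r (Fin.cons c0 l.get) (rM S tw) (fun j => val S (β j))
  hcap2 : capG r (Fin.cons c0 l.get) (rM S tw) (fun j => val S (β j))
    ≤ Real.log (capa r (Fin.cons c0 l.get) (rM S tw)).toReal + 1 / (S : ℝ) ^ 30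

namespace Pt

variable {S m : ℕ} {r : Fin m → ℕ} {c0 : ℕ} {l : List ℕ} {κ : List (List ℤ)}
  {t : Fin (l.length + 1) → Fin m → ℝ} {tw : Fin (l.length + 1) → Fin m → ℤ}
  {β : Fin (l.length + 1) → ℤ}

/-- The input of the trial. -/
abbrev xOf (r : Fin m → ℕ) (c0 : ℕ) (l : List ℕ) (κ : List (List ℤ)) : In := ((lN r, (c0 : ℤ), lL l), κ)

/-- The vector `exp β`. -/
noncomputable def bb (S : ℕ) (β : Fin (l.length + 1) → ℤ) : Fin (l.length + 1) → ℝ :=
  fun j => Real.exp (val S (β j))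

theorem bb_pos (j : Fin (l.length + 1)) : 0 < bb S β j := Real.exp_pos _

variable (P : Pt S r c0 l κ t tw β)

include P

theorem hS : 1000000 ≤ S := P.hok.S_ge

theorem sz : Sz S m r c0 := NodeOK.sz P.hok

theorem hmS : m ≤ S := P.sz.hm

theorem hm0 : 0 < m := P.hok.hm

theorem hW : (10 : ℝ) ^ 6 * (((l.length + 1 : ℕ) : ℝ) * m + 1) ^ 2 ≤ S := P.hok.hW

theorem hN : ∑ i, r i < 2 ^ S := P.hok.hN

theorem hsum : ∑ i, r i = c0 + ∑ j, l.get j := by
  have h := P.hok.hsum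
  rw [Fin.sum_univ_succ, Fin.cons_zero] at h
  simpa only [Fin.cons_succ] using h

theorem hmn_le : ((l.length + 1) * m + 1) ^ 2 * 1000000 ≤ S := by
  have h := P.hW
  have h2 : ((((l.length + 1) * m + 1) ^ 2 * 1000000 : ℕ) : ℝ) ≤ S := by
    push_cast
    push_cast at h
    linarith
  exact_mod_cast h2

theorem hnS : l.length + 1 ≤ S := by
  have h := P.hmn_le
  have hm := P.hm0
  have h1 : l.length + 1 ≤ (l.length + 1) * m + 1 := by nlinarith
  have h2 : 1 ≤ (l.length + 1) * m + 1 := by omega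
  nlinarith

theorem hm42 : 42 * m ≤ S := by
  have h := P.hmn_le
  have hm := P.hm0
  have h1 : m ≤ (l.length + 1) * m + 1 := by nlinarith
  have h2 : 1 ≤ (l.length + 1) * m + 1 := by omega
  nlinarith

theorem S_pos : (0 : ℝ) < S := by
  have := P.hS
  have h : 0 < S := by omega
  exact_mod_cast h

theorem ht' (j : Fin (l.length + 1)) (i : Fin m) : 0 < rM S tw j i :=
  lt_of_lt_of_le (by have := P.S_pos; positivity) (P.htr j i).1

theorem ht_pos (j : Fin (l.length + 1)) (i : Fin m) : 0 < t j i := by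
  refine lt_of_lt_of_le ?_ (P.ht j i)
  unfold cutK
  have := P.S_pos
  positivity

theorem cut_le_t (j : Fin (l.length + 1)) (i : Fin m) : 1 / (S : ℝ) ^ 27 ≤ t j i := by
  refine le_trans ?_ (P.ht j i)
  unfold cutK
  have h0 := P.S_pos
  have h1 : (1 : ℝ) ≤ S := by
    have := P.hS
    have h : 1 ≤ S := by omega
    exact_mod_cast h
  apply one_div_le_one_div_of_le (by positivity)
  exact pow_le_pow_right₀ h1 (by norm_num)

/-- `t ≤ (1 + ξ) t'`. -/
theorem t_le (j : Fin (l.length + 1)) (i : Fin m) : t j i ≤ (1 + xiT S) * rM S tw j i := by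
  have h0 := P.S_pos
  have h := rel_of_abs (u := t j i) (v := rM S tw j i) (ζ := (1 / 2 : ℝ) ^ (S ^ 2 / 2)) (lo := 1 / (S : ℝ) ^ 27) (by positivity)
    (P.htr j i).1 (by rw [abs_sub_comm]; exact P.htt j i)
  have e : (1 / 2 : ℝ) ^ (S ^ 2 / 2) / (1 / (S : ℝ) ^ 27) = xiT S := by
    unfold xiT
    field_simp
  rwa [e] at h

/-- `t' ≤ (1 + ξ) t`. -/
theorem t'_le (j : Fin (l.length + 1)) (i : Fin m) : rM S tw j i ≤ (1 + xiT S) * t j i := by
  have h0 := P.S_pos
  have h := rel_of_abs (u := rM S tw j i) (v := t j i) (ζ := (1 / 2 : ℝ) ^ (S ^ 2 / 2)) (lo := 1 / (S : ℝ) ^ 27) (by positivity)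
    (P.cut_le_t j i) (P.htt j i)
  have e : (1 / 2 : ℝ) ^ (S ^ 2 / 2) / (1 / (S : ℝ) ^ 27) = xiT S := by
    unfold xiT
    field_simp
  rwa [e] at h

/-! ### Numbers -/

omit P in
theorem xiT_small (hS : 1000000 ≤ S) : (2 : ℝ) ^ (S + 3) * xiT S ≤ (1 / 2 : ℝ) ^ (S ^ 2 / 4) := by
  unfold xiT
  have h1 := natCast_pow_le_two_pow S 27
  have h2 : 1000000 * S ≤ S ^ 2 := by nlinarith
  calc (2 : ℝ) ^ (S + 3) * ((S : ℝ) ^ 27 * (1 / 2 : ℝ) ^ (S ^ 2 / 2))
      ≤ 2 ^ (S + 3) * (2 ^ (27 * S) * (1 / 2 : ℝ) ^ (S ^ 2 / 2)) := by gcongr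
    _ = 2 ^ (S + 3 + 27 * S) * (1 / 2 : ℝ) ^ (S ^ 2 / 2) := by rw [pow_add _ (S + 3)]; ring
    _ ≤ _ := two_pow_mul_half_pow (by omega)

omit P in
theorem half_le_inv (hS : 1000000 ≤ S) {k : ℕ} (hk : k ≤ 1000) :
    (1 / 2 : ℝ) ^ (S ^ 2 / 4) ≤ 1 / (S : ℝ) ^ k := by
  have h1 := natCast_pow_le_two_pow S k
  have h2 : 1000000 * S ≤ S ^ 2 := by nlinarith
  have hS0 : (0 : ℝ) < S := by
    have h : 0 < S := by omega
    exact_mod_cast h
  have h3 : k * S ≤ S ^ 2 / 4 := by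
    have : k * S ≤ 1000 * S := Nat.mul_le_mul_right _ hk
    omega
  calc (1 / 2 : ℝ) ^ (S ^ 2 / 4) ≤ (1 / 2 : ℝ) ^ (k * S) :=
        pow_le_pow_of_le_one (by norm_num) (by norm_num) h3
    _ = 1 / 2 ^ (k * S) := by rw [one_div_pow]
    _ ≤ _ := one_div_le_one_div_of_le (by positivity) h1

omit P in
/-- The factor of the comparison of `t` and `t'`. -/
theorem F_le (hS : 1000000 ≤ S) {N : ℕ} (hN : N < 2 ^ S) :
    (1 + xiT S) ^ N ≤ 1 + (1 / 2 : ℝ) ^ (S ^ 2 / 4) := by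
  have h1 := xiT_small hS
  have h0 := xiT_nonneg S
  have hN' : (N : ℝ) ≤ 2 ^ S := by exact_mod_cast hN.le
  have h2 : (N : ℝ) * xiT S ≤ 2 ^ S * xiT S := mul_le_mul_of_nonneg_right hN' h0
  have e : (2 : ℝ) ^ (S + 3) * xiT S = 8 * (2 ^ S * xiT S) := by
    rw [pow_add]
    ring
  have h3 : (0 : ℝ) ≤ 2 ^ S * xiT S := by positivity
  have h4 : (1 / 2 : ℝ) ^ (S ^ 2 / 4) ≤ 1 := pow_le_one₀ (by norm_num) (by norm_num)
  have h5 := one_add_pow_le (k := N) h0 (by linarith)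
  linarith

/-! ### The vector `B` -/

/-- The words of the vector `exp β`. -/
noncomputable def Bw (S : ℕ) (β : Fin (l.length + 1) → ℤ) : Fin (l.length + 1) → ℤ :=
  fun j => fexp S (β j)

theorem nodeB_eq : nodeB S (xOf r c0 l κ) = List.ofFn (Bw S β) := by
  unfold nodeB
  show ((solBF S (lN r) ((c0 : ℤ) :: lL l) κ).take S).map (fexp S) = _
  rw [P.hB]
  unfold lF
  rw [List.take_of_length_le (by simpa using P.hnS), List.map_ofFn]
  rfl

theorem solR_eq : solR S (solBF S (lN r) ((c0 : ℤ) :: lL l) κ) = bb S β := by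
  rw [P.hB]
  funext j
  unfold solR bb lF
  congr 2
  have h : (j : ℕ) < (List.ofFn β).length := by
    rw [List.length_ofFn]
    exact j.2
  rw [List.getD_eq_getElem _ _ h, List.getElem_ofFn]

theorem rowHyp : RowHyp S tw (Bw S β) (bb S β) := by
  have hS6 := P.hS
  have h1 : (1 : ℝ) ≤ S := by
    have h : 1 ≤ S := by omega
    exact_mod_cast h
  refine ⟨hS6, P.hnS, P.hmS, fun j i => (P.htr j i).1, fun j i => (P.htr j i).2, fun j => ?_, fun j => ?_,
    fun j => ?_⟩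
  · have h2 := abs_le.1 (P.hβ j)
    unfold bb
    rw [one_div, ← Real.exp_neg]
    exact Real.exp_le_exp.2 (by linarith)
  · have h2 := abs_le.1 (P.hβ j)
    unfold bb
    exact Real.exp_le_exp.2 (by linarith)
  · unfold Bw bb
    refine fexp_spec hS6 ((P.hβ j).trans ?_)
    exact pow_le_pow_right₀ h1 (by norm_num)

theorem aF_eq (a : ℤ) : aF S (xOf r c0 l κ) a = rowPF S (lM tw) (List.ofFn (Bw S β)) a := by
  unfold aF
  rw [P.hT, P.nodeB_eq]

theorem bF_eq (a : ℤ) : bF S (xOf r c0 l κ) a = rowQF S (lM tw) (List.ofFn (Bw S β)) a := by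
  unfold bF
  rw [P.hT, P.nodeB_eq]

theorem pF (i : Fin m) :
    (1 / 2 : ℝ) ^ (5 * S ^ 2) ≤ rowP (rM S tw) (bb S β) i
      ∧ (1 / 2 : ℝ) ^ (5 * S ^ 2) ≤ 1 - rowP (rM S tw) (bb S β) i
      ∧ |val S (aF S (xOf r c0 l κ) ((i : ℕ) : ℤ)) - rowP (rM S tw) (bb S β) i| ≤ (1 / 2 : ℝ) ^ (3 * S ^ 4)
      ∧ |val S (bF S (xOf r c0 l κ) ((i : ℕ) : ℤ)) - (1 - rowP (rM S tw) (bb S β) i)|
        ≤ (1 / 2 : ℝ) ^ (3 * S ^ 4) := by
  rw [P.aF_eq, P.bF_eq]
  exact row_main (n := l.length) P.rowHyp P.hl i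

/-! ### P1 -/

theorem capa_t'_pos : 0 < (capa r (Fin.cons c0 l.get) (rM S tw)).toReal := by
  refine ENNReal.toReal_pos (capa_pos r _ P.hok.hsum _ P.ht').ne' (capa_lt_top _ _ _).ne

theorem capa_t_pos : 0 < (capa r (Fin.cons c0 l.get) t).toReal := by
  refine ENNReal.toReal_pos (capa_pos r _ P.hok.hsum _ P.ht_pos).ne' (capa_lt_top _ _ _).ne

theorem phi_t'_le : Phi r (Fin.cons c0 l.get) (rM S tw) (bb S β)
    ≤ Real.exp (1 / (S : ℝ) ^ 30) * (capa r (Fin.cons c0 l.get) (rM S tw)).toReal := by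
  have h1 : Phi r (Fin.cons c0 l.get) (rM S tw) (bb S β)
      = Real.exp (capG r (Fin.cons c0 l.get) (rM S tw) fun j => val S (β j)) :=
    Phi_exp r _ P.ht' (Nat.succ_pos _) _
  rw [h1]
  have h2 := Real.exp_le_exp.2 P.hcap2
  rwa [Real.exp_add, Real.exp_log P.capa_t'_pos, mul_comm] at h2

theorem exp_small : Real.exp (1 / (S : ℝ) ^ 30) ≤ 1 + 2 / (S : ℝ) ^ 30 := by
  have h0 := P.S_pos
  have h1 : (1 : ℝ) ≤ S := by
    have := P.hS
    have h : 1 ≤ S := by omega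
    exact_mod_cast h
  have hx : 0 ≤ 1 / (S : ℝ) ^ 30 := by positivity
  have hx1 : 1 / (S : ℝ) ^ 30 ≤ 1 := by
    rw [div_le_one (by positivity)]
    exact one_le_pow₀ h1
  have h3 := Real.abs_exp_sub_one_le (x := 1 / (S : ℝ) ^ 30) (by rwa [abs_of_nonneg hx])
  rw [abs_of_nonneg hx] at h3
  have h4 := (abs_le.1 h3).2
  have e : 2 / (S : ℝ) ^ 30 = 2 * (1 / (S : ℝ) ^ 30) := by ring
  linarith

/-- **P1.** -/
theorem p1 : ENNReal.ofReal (Phi r (Fin.cons c0 l.get) t (bb S β)) ≤ 2 * capa r (Fin.cons c0 l.get) t := by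
  have hS6 := P.hS
  have h0 := xiT_nonneg S
  have hF := F_le hS6 P.hN
  set F := (1 + xiT S) ^ (∑ i, r i) with hFd
  have h1 := trPhi_le r (Fin.cons c0 l.get) h0 (fun j i => (P.ht_pos j i).le) P.t_le (b := bb S β) bb_pos
  have h2 := trCapa_le r (Fin.cons c0 l.get) h0 (fun j i => (P.ht' j i).le) P.t'_le
  have h3 := P.phi_t'_le
  have hC := P.capa_t_pos
  have hF0 : 0 < F := by positivity
  set C := (capa r (Fin.cons c0 l.get) t).toReal with hC'
  set C' := (capa r (Fin.cons c0 l.get) (rM S tw)).toReal with hC''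
  have hE := P.exp_small
  have hE0 := Real.exp_pos (1 / (S : ℝ) ^ 30)
  have hmain : Phi r (Fin.cons c0 l.get) t (bb S β) ≤ 2 * C := by
    calc Phi r (Fin.cons c0 l.get) t (bb S β) ≤ F * (Real.exp (1 / (S : ℝ) ^ 30) * (F * C)) := by
          refine h1.trans (mul_le_mul_of_nonneg_left (h3.trans ?_) hF0.le)
          exact mul_le_mul_of_nonneg_left h2 hE0.le
      _ = (F * F * Real.exp (1 / (S : ℝ) ^ 30)) * C := by ring
      _ ≤ 2 * C := by
          refine mul_le_mul_of_nonneg_right ?_ hC.le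
          have h5 := half_le_inv hS6 (k := 3) (by norm_num)
          have h6 : (1000000 : ℝ) ≤ S := by exact_mod_cast hS6
          have h7 : (1 : ℝ) / (S : ℝ) ^ 3 ≤ 1 / 100 := by
            have h8 : (100 : ℝ) ≤ (S : ℝ) ^ 3 := by
              have : (1 : ℝ) ≤ S := by linarith
              nlinarith [pow_le_pow_right₀ this (show 1 ≤ 3 by norm_num)]
            exact one_div_le_one_div_of_le (by norm_num) h8
          have h9 : F ≤ 1 + 1 / 100 := by linarith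
          have h10 : (1 : ℝ) / (S : ℝ) ^ 30 ≤ 1 / 100 := by
            have h8 : (100 : ℝ) ≤ (S : ℝ) ^ 30 := by
              have : (1 : ℝ) ≤ S := by linarith
              nlinarith [pow_le_pow_right₀ this (show 1 ≤ 30 by norm_num)]
            exact one_div_le_one_div_of_le (by norm_num) h8
          have h11 : Real.exp (1 / (S : ℝ) ^ 30) ≤ 1 + 2 * (1 / 100) := by
            have e : 2 / (S : ℝ) ^ 30 = 2 * (1 / (S : ℝ) ^ 30) := by ring
            linarith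
          have h12 : F * F ≤ (1 + 1 / 100) * (1 + 1 / 100) := mul_le_mul h9 h9 hF0.le (by norm_num)
          calc F * F * Real.exp (1 / (S : ℝ) ^ 30) ≤ (1 + 1 / 100) * (1 + 1 / 100) * (1 + 2 * (1 / 100)) :=
                mul_le_mul h12 h11 hE0.le (by norm_num)
            _ ≤ 2 := by norm_num
  have h4 : capa r (Fin.cons c0 l.get) t = ENNReal.ofReal C := by
    rw [hC', ENNReal.ofReal_toReal (capa_lt_top _ _ _).ne]
  rw [h4]
  calc ENNReal.ofReal (Phi r (Fin.cons c0 l.get) t (bb S β)) ≤ ENNReal.ofReal (2 * C) :=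
        ENNReal.ofReal_le_ofReal hmain
    _ = _ := by
        rw [ENNReal.ofReal_mul (by norm_num)]
        norm_num

/-! ### P2: the tests -/

omit P in
theorem half_mono {a b : ℕ} (h : a ≤ b) : (1 / 2 : ℝ) ^ b ≤ (1 / 2 : ℝ) ^ a :=
  pow_le_pow_of_le_one (by norm_num) (by norm_num) h

omit P in
theorem big_ge (hS : 1000000 ≤ S) : (2 : ℝ) ^ (S + 3) ≤ Big S := by
  unfold Big
  apply pow_le_pow_right₀ (by norm_num)
  have h := (half_pow_facts hS).2.2.2.2.1
  have h2 := (half_pow_facts hS).2.2.2.1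
  omega

omit P in
theorem two_S_le_big (hS : 1000000 ≤ S) : (2 : ℝ) ^ S * 8 ≤ Big S := by
  have h := big_ge hS
  rw [pow_add] at h
  norm_num at h
  linarith

omit P in
theorem word_small (hS : 1000000 ≤ S) : (S : ℤ) ^ 28 ≤ 2 ^ wid S := by
  have h2 : S < 2 ^ S := Nat.lt_two_pow_self
  have h3 : (S : ℤ) ≤ 2 ^ S := by exact_mod_cast h2.le
  have h4 : (S : ℤ) ^ 28 ≤ ((2 : ℤ) ^ S) ^ 28 := pow_le_pow_left₀ (by positivity) h3 28
  refine h4.trans ?_
  rw [← pow_mul]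
  apply pow_le_pow_right₀ (by norm_num)
  unfold wid
  have h5 : S * 28 ≤ S * S := Nat.mul_le_mul_left _ (by omega)
  have h6 : S * S ≤ S ^ 6 := by
    have : S ^ 2 ≤ S ^ 6 := Nat.pow_le_pow_right (by omega) (by norm_num)
    nlinarith
  omega

omit P in
theorem big_pow28 (hS : 1000000 ≤ S) : (S : ℝ) ^ 28 ≤ Big S := by
  have h := natCast_pow_le_two_pow S 28
  refine h.trans ?_
  unfold Big
  apply pow_le_pow_right₀ (by norm_num)
  have h1 := (half_pow_facts hS).2.2.2.2.1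
  have h2 := (half_pow_facts hS).2.2.2.1
  have h3 : 28 * S ≤ 1000000 * S := Nat.mul_le_mul_right _ (by norm_num)
  omega

/-- The required variance of the second regime, as a real number. -/
noncomputable def v0R (S m c0 : ℕ) : ℝ := (c0 : ℝ) / ((S : ℝ) ^ 26 * (14 * (m : ℝ)))

theorem c0_lt : (c0 : ℝ) < 2 ^ S := by
  have h := P.sz
  have h1 : c0 < 2 ^ S := lt_of_le_of_lt h.hc0 h.hN
  exact_mod_cast h1

theorem v0F_close : |val S (v0F S (xOf r c0 l κ)) - v0R S m c0| ≤ ulp S := by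
  have hS6 := P.hS
  have hS0 := P.S_pos
  have hS1 : (1 : ℝ) ≤ S := by
    have h : 1 ≤ S := by omega
    exact_mod_cast h
  have hm1 : (1 : ℝ) ≤ m := by
    have := P.hm0
    exact_mod_cast this
  have hmS : (m : ℝ) ≤ S := by exact_mod_cast P.hmS
  have h14 : (14 : ℝ) ≤ S := by
    have : (1000000 : ℝ) ≤ S := by exact_mod_cast hS6
    linarith
  have hlen : (((lN r).take S).length : ℤ) = (m : ℤ) := by
    rw [List.length_take]
    have : (lN r).length = m := by simp [lN]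
    rw [this, min_eq_right P.hmS]
  have hB := word_small hS6
  have hw0 : (0 : ℤ) < 2 ^ wid S := by positivity
  have hmZ : (m : ℤ) ≤ S := by exact_mod_cast P.hmS
  have hS1Z : (1 : ℤ) ≤ S := by
    have h : 1 ≤ S := by omega
    exact_mod_cast h
  have h14Z : (14 : ℤ) ≤ S := by
    have : (1000000 : ℤ) ≤ S := by exact_mod_cast hS6
    linarith
  have hm0Z : (0 : ℤ) ≤ m := by positivity
  have hS26 : (S : ℤ) ^ 26 ≤ (S : ℤ) ^ 28 := pow_le_pow_right₀ hS1Z (by norm_num)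
  have hSS : (S : ℤ) * S ≤ (S : ℤ) ^ 2 := by rw [pow_two]
  have h14m : 14 * (m : ℤ) ≤ (S : ℤ) ^ 2 := by nlinarith
  have hS2 : (S : ℤ) ^ 2 ≤ (S : ℤ) ^ 28 := pow_le_pow_right₀ hS1Z (by norm_num)
  have hY0 : (S : ℤ) ^ 26 * (14 * (m : ℤ)) ≤ (S : ℤ) ^ 28 := by
    have e : (S : ℤ) ^ 28 = (S : ℤ) ^ 26 * (S : ℤ) ^ 2 := by ring
    rw [e]
    exact mul_le_mul_of_nonneg_left h14m (by positivity)
  have hword : ∀ z : ℤ, 0 ≤ z → z ≤ (S : ℤ) ^ 28 → |z| ≤ 2 ^ wid S := by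
    intro z h0 h1
    rw [abs_of_nonneg h0]
    linarith
  have hY : cmul S (clamp S ((S : ℤ) ^ 26)) (cmul S (clamp S ((14 : ℕ) : ℤ)) (((lN r).take S).length : ℤ))
      = (S : ℤ) ^ 26 * (14 * (m : ℤ)) := by
    rw [hlen, spow_eq hS6 (by norm_num),
      clamp_eq hS6 (hword _ (by positivity) (by push_cast; nlinarith)),
      FExpAux.cmul_eq hS6 (hword _ (by positivity) (by push_cast; nlinarith))
        (hword _ hm0Z (by nlinarith)) (hword _ (by positivity) (by push_cast; nlinarith)),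
      FExpAux.cmul_eq hS6 (hword _ (by positivity) hS26) (hword _ (by positivity) (by push_cast; nlinarith))
        (hword _ (by positivity) (by push_cast; exact hY0))]
    push_cast
    ring
  have hbig28 := big_pow28 hS6
  have hYR : (((S : ℤ) ^ 26 * (14 * (m : ℤ)) : ℤ) : ℝ) = (S : ℝ) ^ 26 * (14 * (m : ℝ)) := by
    push_cast
    ring
  have hY1 : (1 : ℝ) ≤ (S : ℝ) ^ 26 * (14 * (m : ℝ)) := by
    have h1 : (1 : ℝ) ≤ (S : ℝ) ^ 26 := one_le_pow₀ hS1
    nlinarith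
  have hY28 : (S : ℝ) ^ 26 * (14 * (m : ℝ)) ≤ (S : ℝ) ^ 28 := by
    have e : (S : ℝ) ^ 28 = (S : ℝ) ^ 26 * (S : ℝ) ^ 2 := by ring
    rw [e]
    exact mul_le_mul_of_nonneg_left (by nlinarith) (by positivity)
  have hYB : |(S : ℝ) ^ 26 * (14 * (m : ℝ))| ≤ Big S := by
    rw [abs_of_pos (by linarith)]
    linarith
  have hc0 := P.c0_lt
  have hbigS := two_S_le_big hS6
  have hS2pos : (0 : ℝ) < 2 ^ S := by positivity
  have hc0B : |((c0 : ℤ) : ℝ)| ≤ Big S := by
    push_cast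
    rw [abs_of_nonneg (Nat.cast_nonneg _)]
    linarith
  have hv1 : val S (fint S (c0 : ℤ)) = (c0 : ℝ) := by
    rw [val_fint hS6 hc0B]
    push_cast
    rfl
  have hv2 : val S (fint S ((S : ℤ) ^ 26 * (14 * (m : ℤ)))) = (S : ℝ) ^ 26 * (14 * (m : ℝ)) := by
    rw [val_fint hS6 (by rw [hYR]; exact hYB), hYR]
  unfold v0F
  show |val S (fdiv S (fint S (c0 : ℤ)) (fint S (cmul S (clamp S ((S : ℤ) ^ 26))
      (cmul S (clamp S ((14 : ℕ) : ℤ)) (((lN r).take S).length : ℤ))))) - v0R S m c0| ≤ ulp S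
  rw [hY]
  have h := val_fdiv hS6 (x := fint S (c0 : ℤ)) (y := fint S ((S : ℤ) ^ 26 * (14 * (m : ℤ))))
    (by rw [hv1]; simpa using hc0B) (by rw [hv2]; exact hYB)
    (by
      rw [hv2, abs_of_pos (by linarith)]
      have h1 : (1 : ℝ) ≤ Big S := by
        have : (1 : ℝ) ≤ 2 ^ S := one_le_pow₀ (by norm_num)
        linarith
      have h2 : 1 / Big S ≤ 1 := by
        rw [div_le_one (by linarith)]
        exact h1
      linarith)
  rwa [hv1, hv2] at h

theorem margF_close : |val S (margF S) - 1 / (S : ℝ)| ≤ ulp S := by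
  have hS6 := P.hS
  have hS0 := P.S_pos
  have hS1 : (1 : ℝ) ≤ S := by
    have h : 1 ≤ S := by omega
    exact_mod_cast h
  have hbig := big_pow28 hS6
  have hS28 : (S : ℝ) ≤ (S : ℝ) ^ 28 := le_self_pow₀ hS1 (by norm_num)
  have hB : |(((S : ℤ)) : ℝ)| ≤ Big S := by
    push_cast
    rw [abs_of_pos hS0]
    linarith
  have hv : val S (fint S (S : ℤ)) = (S : ℝ) := by
    rw [val_fint hS6 hB]
    push_cast
    rfl
  have h1B : (1 : ℝ) ≤ Big S := by linarith
  unfold margF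
  have h := val_fdiv hS6 (x := fone S) (y := fint S (S : ℤ))
    (by rw [val_fone hS6, abs_one]; exact h1B) (by rw [hv, abs_of_pos hS0]; linarith)
    (by
      rw [hv, abs_of_pos hS0]
      have h2 : 1 / Big S ≤ 1 := by
        rw [div_le_one (by linarith)]
        exact h1B
      linarith)
  rwa [hv, val_fone hS6] at h

theorem p_nonneg (i : Fin m) : 0 ≤ rowP (rM S tw) (bb S β) i := rowP_nonneg P.ht' (fun j => bb_pos j) i

theorem p_le_one (i : Fin m) : rowP (rM S tw) (bb S β) i ≤ 1 := rowP_le_one P.ht' (fun j => bb_pos j) i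

/-- The computed variance. -/
theorem vF_close (i : Fin m) :
    |val S (vF S (xOf r c0 l κ) ((i : ℕ) : ℤ)) - rowV r (rM S tw) (bb S β) i| ≤ (1 / 2 : ℝ) ^ (2 * S ^ 4) := by
  have hS6 := P.hS
  obtain ⟨h1, h2, h3, h4⟩ := P.pF i
  have hp0 := P.p_nonneg i
  have hp1 := P.p_le_one i
  have hrV : rowV r (rM S tw) (bb S β) i = (r i : ℝ) * (rowP (rM S tw) (bb S β) i * (1 - rowP (rM S tw) (bb S β) i)) := by
    unfold rowV
    ring
  rw [hrV]
  set p := rowP (rM S tw) (bb S β) i with hp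
  set a := aF S (xOf r c0 l κ) ((i : ℕ) : ℤ) with ha
  set b := bF S (xOf r c0 l κ) ((i : ℕ) : ℤ) with hb
  set e := (1 / 2 : ℝ) ^ (3 * S ^ 4) with he
  have he0 : 0 ≤ e := by positivity
  have he1 : e ≤ 1 := pow_le_one₀ (by norm_num) (by norm_num)
  obtain ⟨h3a, h3b⟩ := abs_le.1 h3
  obtain ⟨h4a, h4b⟩ := abs_le.1 h4
  have ha2 : |val S a| ≤ 2 := abs_le.2 ⟨by linarith, by linarith⟩
  have hb2 : |val S b| ≤ 2 := abs_le.2 ⟨by linarith, by linarith⟩
  have hbS := two_S_le_big hS6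
  have h2S : (1 : ℝ) ≤ 2 ^ S := one_le_pow₀ (by norm_num)
  have hbig : (2 : ℝ) ≤ Big S := by linarith
  have hw := val_fmul hS6 (ha2.trans hbig) (hb2.trans hbig)
  have hf := half_pow_facts hS6
  have hulp : ulp S ≤ e := by
    refine (ulp_le hS6).trans (half_mono ?_)
    omega
  set w := fmul S a b with hwd
  have hab : |val S a * val S b - p * (1 - p)| ≤ 3 * e := by
    have e0 : val S a * val S b - p * (1 - p) = (val S a - p) * val S b + p * (val S b - (1 - p)) := by ring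
    rw [e0]
    refine (abs_add_le _ _).trans ?_
    rw [abs_mul, abs_mul, abs_of_nonneg hp0]
    have h5 : |val S a - p| * |val S b| ≤ e * 2 := mul_le_mul h3 hb2 (abs_nonneg _) he0
    have h6 : p * |val S b - (1 - p)| ≤ 1 * e := mul_le_mul hp1 h4 (abs_nonneg _) zero_le_one
    linarith
  have hw1 : |val S w - p * (1 - p)| ≤ 4 * e := by
    have h5 := abs_sub_le (val S w) (val S a * val S b) (p * (1 - p))
    linarith
  have hpq : |p * (1 - p)| ≤ 1 := by
    rw [abs_of_nonneg (mul_nonneg hp0 (by linarith))]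
    nlinarith
  have hw2 : |val S w| ≤ 5 := by
    have h5 : |val S w| ≤ |val S w - p * (1 - p)| + |p * (1 - p)| := by
      have := abs_add_le (val S w - p * (1 - p)) (p * (1 - p))
      simpa using this
    linarith
  have hrr : (r i : ℝ) ≤ 2 ^ S := by
    have h5 : r i ≤ ∑ k, r k := Finset.single_le_sum (f := r) (fun _ _ => Nat.zero_le _) (Finset.mem_univ i)
    have h6 := P.hN
    have h7 : r i ≤ 2 ^ S := by omega
    exact_mod_cast h7
  have hr0 : (0 : ℝ) ≤ r i := Nat.cast_nonneg _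
  have hgetr : getL S (inR (xOf r c0 l κ)) ((i : ℕ) : ℤ) = (r i : ℤ) := getL_lN P.hmS r i
  have h5B : |val S w| ≤ Big S := hw2.trans (by linarith)
  have hrB : |((r i : ℤ) : ℝ)| ≤ Big S := by
    push_cast
    rw [abs_of_nonneg hr0]
    linarith
  have hrw : |((r i : ℤ) : ℝ) * val S w| ≤ Big S := by
    push_cast
    rw [abs_mul, abs_of_nonneg hr0]
    calc (r i : ℝ) * |val S w| ≤ 2 ^ S * 5 := mul_le_mul hrr hw2 (abs_nonneg _) (by positivity)
      _ ≤ _ := by linarith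
  have e1 : vF S (xOf r c0 l κ) ((i : ℕ) : ℤ) = cmul S (r i : ℤ) w := by
    unfold vF
    rw [hgetr]
  rw [e1, val_cmul' hS6 hrB h5B hrw]
  push_cast
  rw [← mul_sub, abs_mul, abs_of_nonneg hr0]
  calc (r i : ℝ) * |val S w - p * (1 - p)| ≤ 2 ^ S * (4 * e) :=
        mul_le_mul hrr hw1 (abs_nonneg _) (by positivity)
    _ = 2 ^ (S + 2) * (1 / 2 : ℝ) ^ (3 * S ^ 4) := by
        rw [pow_add, he]
        ring
    _ ≤ _ := two_pow_mul_half_pow (by omega)

/-- The tiny errors of the tests. -/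
theorem tiny_le : 2 * ulp S + (1 / 2 : ℝ) ^ (2 * S ^ 4) ≤ 1 / (2 * (S : ℝ)) := by
  have hS6 := P.hS
  have hS0 := P.S_pos
  have hf := half_pow_facts hS6
  have h1 : ulp S ≤ (1 / 2 : ℝ) ^ (S ^ 2 / 4) := (ulp_le hS6).trans (half_mono (by omega))
  have h2 : (1 / 2 : ℝ) ^ (2 * S ^ 4) ≤ (1 / 2 : ℝ) ^ (S ^ 2 / 4) := half_mono (by omega)
  have h3 := half_le_inv hS6 (k := 3) (by norm_num)
  have h4 : 3 * (1 / (S : ℝ) ^ 3) ≤ 1 / (2 * (S : ℝ)) := by
    have hSS : (6 : ℝ) ≤ (S : ℝ) ^ 2 := by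
      have : (1000000 : ℝ) ≤ S := by exact_mod_cast hS6
      nlinarith
    rw [mul_one_div, div_le_div_iff₀ (by positivity) (by positivity)]
    have e : 1 * (S : ℝ) ^ 3 = (S : ℝ) ^ 2 * S := by ring
    rw [e]
    nlinarith
  linarith

theorem v0R_nonneg : 0 ≤ v0R S m c0 := by
  unfold v0R
  have := P.S_pos
  positivity

theorem v0R_le : v0R S m c0 ≤ 2 ^ S := by
  unfold v0R
  have hS1 : (1 : ℝ) ≤ S := by
    have := P.hS
    have h : 1 ≤ S := by omega
    exact_mod_cast h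
  have hm1 : (1 : ℝ) ≤ m := by
    have := P.hm0
    exact_mod_cast this
  have hc := P.c0_lt
  have hY : (1 : ℝ) ≤ (S : ℝ) ^ 26 * (14 * (m : ℝ)) := by
    have h1 : (1 : ℝ) ≤ (S : ℝ) ^ 26 := one_le_pow₀ hS1
    nlinarith
  have hc0 : (0 : ℝ) ≤ c0 := Nat.cast_nonneg _
  calc (c0 : ℝ) / ((S : ℝ) ^ 26 * (14 * (m : ℝ))) ≤ c0 := div_le_self hc0 hY
    _ ≤ _ := hc.le

theorem rowV'_le (i : Fin m) : rowV r (rM S tw) (bb S β) i ≤ 2 ^ S := by
  refine (rowV_le_r r P.ht' (fun j => bb_pos j) i).trans ?_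
  have h5 : r i ≤ ∑ k, r k := Finset.single_le_sum (f := r) (fun _ _ => Nat.zero_le _) (Finset.mem_univ i)
  have h6 := P.hN
  have h7 : r i ≤ 2 ^ S := by omega
  exact_mod_cast h7

/-- The test of the row `i` in real numbers. -/
theorem rowTest_iff (i : Fin m) :
    0 < rowTest S (xOf r c0 l κ) ((i : ℕ) : ℤ)
      ↔ val S (v0F S (xOf r c0 l κ)) + val S (margF S) ≤ val S (vF S (xOf r c0 l κ) ((i : ℕ) : ℤ)) := by
  have hS6 := P.hS
  have hS1 : (1 : ℝ) ≤ S := by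
    have h : 1 ≤ S := by omega
    exact_mod_cast h
  have hS0 := P.S_pos
  have h1 := abs_le.1 P.v0F_close
  have h2 := abs_le.1 P.margF_close
  have h3 := abs_le.1 (P.vF_close i)
  have hu : ulp S ≤ 1 := by
    unfold ulp
    rw [div_le_one (by positivity)]
    exact one_le_pow₀ (by norm_num)
  have hv0 := P.v0R_nonneg
  have hv1 := P.v0R_le
  have hu0 : 0 ≤ ulp S := by
    unfold ulp
    positivity
  have hs1 : 1 / (S : ℝ) ≤ 1 := by
    rw [div_le_one hS0]
    exact hS1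
  have hs0 : 0 ≤ 1 / (S : ℝ) := by positivity
  have hV0 := rowV_nonneg r P.ht' (fun j => bb_pos (S := S) (β := β) j) i
  have hV1 := P.rowV'_le i
  have he : (1 / 2 : ℝ) ^ (2 * S ^ 4) ≤ 1 := pow_le_one₀ (by norm_num) (by norm_num)
  have he0 : (0 : ℝ) ≤ (1 / 2 : ℝ) ^ (2 * S ^ 4) := by positivity
  have hbS := two_S_le_big hS6
  have h2S : (1 : ℝ) ≤ 2 ^ S := one_le_pow₀ (by norm_num)
  have hB1 : |val S (v0F S (xOf r c0 l κ))| ≤ Big S := abs_le.2 ⟨by linarith, by linarith⟩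
  have hB2 : |val S (margF S)| ≤ Big S := abs_le.2 ⟨by linarith, by linarith⟩
  have hB3 : |val S (vF S (xOf r c0 l κ) ((i : ℕ) : ℤ))| ≤ Big S := abs_le.2 ⟨by linarith, by linarith⟩
  have hadd := val_add hS6 hB1 hB2
  have hB4 : |val S (cadd S (v0F S (xOf r c0 l κ)) (margF S))| ≤ Big S := by
    rw [hadd]
    exact abs_le.2 ⟨by linarith, by linarith⟩
  have hsub := val_sub hS6 hB3 hB4
  unfold rowTest
  rw [CoinAux.cadd_one_pos_iff hS6]
  have h0 : val S 0 = 0 := by simp [val]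
  have hkey : ∀ z : ℤ, 0 ≤ z ↔ 0 ≤ val S z := by
    intro z
    rw [← h0, val_le_iff hS6]
  rw [hkey, hsub, hadd]
  constructor <;> intro h <;> linarith

/-- A row that passes the test. -/
theorem test_pos {i : Fin m} (h : 0 < rowTest S (xOf r c0 l κ) ((i : ℕ) : ℤ)) :
    v0R S m c0 + 1 / (2 * (S : ℝ)) ≤ rowV r (rM S tw) (bb S β) i := by
  have h1 := abs_le.1 P.v0F_close
  have h2 := abs_le.1 P.margF_close
  have h3 := abs_le.1 (P.vF_close i)
  have h4 := (P.rowTest_iff i).1 h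
  have h5 := P.tiny_le
  have hS0 := P.S_pos
  have e : 1 / (S : ℝ) = 2 * (1 / (2 * (S : ℝ))) := by
    field_simp
  linarith

/-- A row that does not pass the test. -/
theorem test_neg {i : Fin m} (h : ¬ 0 < rowTest S (xOf r c0 l κ) ((i : ℕ) : ℤ)) :
    rowV r (rM S tw) (bb S β) i ≤ v0R S m c0 + 2 / (S : ℝ) := by
  have h1 := abs_le.1 P.v0F_close
  have h2 := abs_le.1 P.margF_close
  have h3 := abs_le.1 (P.vF_close i)
  have h4 : val S (vF S (xOf r c0 l κ) ((i : ℕ) : ℤ)) < val S (v0F S (xOf r c0 l κ)) + val S (margF S) :=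
    not_le.1 fun hc => h ((P.rowTest_iff i).2 hc)
  have h5 := P.tiny_le
  have hS0 := P.S_pos
  have e : 2 / (S : ℝ) = 4 * (1 / (2 * (S : ℝ))) := by
    field_simp
    norm_num
  have e' : 1 / (S : ℝ) = 2 * (1 / (2 * (S : ℝ))) := by
    field_simp
  have h6 : 0 < 1 / (2 * (S : ℝ)) := by positivity
  linarith

/-- `rowV` at `t` and at `t'`. -/
theorem rowV_t_le (i : Fin m) :
    rowV r t (bb S β) i ≤ rowV r (rM S tw) (bb S β) i + (1 / 2 : ℝ) ^ (S ^ 2 / 4) := by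
  have hS6 := P.hS
  have h0 := xiT_nonneg S
  have h1 := xiT_small hS6
  have h2 := trRowV_le r h0 P.ht_pos P.ht' P.t_le P.t'_le (fun j => bb_pos (S := S) (β := β) j) i
  have h3 := P.rowV'_le i
  have h4 := rowV_nonneg r P.ht' (fun j => bb_pos (S := S) (β := β) j) i
  have e : (2 : ℝ) ^ (S + 3) * xiT S = 8 * (2 ^ S * xiT S) := by
    rw [pow_add]
    ring
  have h5 : (2 : ℝ) ^ S * xiT S ≤ 1 / 8 := by
    have h6 : (1 / 2 : ℝ) ^ (S ^ 2 / 4) ≤ 1 := pow_le_one₀ (by norm_num) (by norm_num)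
    linarith
  have h2S : (1 : ℝ) ≤ 2 ^ S := one_le_pow₀ (by norm_num)
  have h6 : ((4 : ℕ) : ℝ) * xiT S ≤ 1 := by
    push_cast
    nlinarith
  have h7 := one_add_pow_le (k := 4) h0 h6
  push_cast at h7
  have h8 : (1 + xiT S) ^ 4 * rowV r (rM S tw) (bb S β) i
      ≤ (1 + 2 * (4 * xiT S)) * rowV r (rM S tw) (bb S β) i := mul_le_mul_of_nonneg_right h7 h4
  have h9 : xiT S * rowV r (rM S tw) (bb S β) i ≤ xiT S * 2 ^ S := mul_le_mul_of_nonneg_left h3 h0
  nlinarith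

theorem rowV_t'_le (i : Fin m) :
    rowV r (rM S tw) (bb S β) i ≤ rowV r t (bb S β) i + (1 / 2 : ℝ) ^ (S ^ 2 / 4) := by
  have hS6 := P.hS
  have h0 := xiT_nonneg S
  have h1 := xiT_small hS6
  have h2 := trRowV_le r h0 P.ht' P.ht_pos P.t'_le P.t_le (fun j => bb_pos (S := S) (β := β) j) i
  have h3 : rowV r t (bb S β) i ≤ 2 ^ S := by
    refine (rowV_le_r r P.ht_pos (fun j => bb_pos (S := S) (β := β) j) i).trans ?_
    have h5 : r i ≤ ∑ k, r k := Finset.single_le_sum (f := r) (fun _ _ => Nat.zero_le _) (Finset.mem_univ i)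
    have h6 := P.hN
    have h7 : r i ≤ 2 ^ S := by omega
    exact_mod_cast h7
  have h4 := rowV_nonneg r P.ht_pos (fun j => bb_pos (S := S) (β := β) j) i
  have e : (2 : ℝ) ^ (S + 3) * xiT S = 8 * (2 ^ S * xiT S) := by
    rw [pow_add]
    ring
  have h5 : (2 : ℝ) ^ S * xiT S ≤ 1 / 8 := by
    have h6 : (1 / 2 : ℝ) ^ (S ^ 2 / 4) ≤ 1 := pow_le_one₀ (by norm_num) (by norm_num)
    linarith
  have h2S : (1 : ℝ) ≤ 2 ^ S := one_le_pow₀ (by norm_num)
  have h6 : ((4 : ℕ) : ℝ) * xiT S ≤ 1 := by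
    push_cast
    nlinarith
  have h7 := one_add_pow_le (k := 4) h0 h6
  push_cast at h7
  have h8 : (1 + xiT S) ^ 4 * rowV r t (bb S β) i
      ≤ (1 + 2 * (4 * xiT S)) * rowV r t (bb S β) i := mul_le_mul_of_nonneg_right h7 h4
  have h9 : xiT S * rowV r t (bb S β) i ≤ xiT S * 2 ^ S := mul_le_mul_of_nonneg_left h3 h0
  nlinarith

/-! ### The regimes -/

omit P in
theorem cs_eq : (parS S).cs = S ^ 28 := rfl

theorem regF_iff : 0 < regF S (xOf r c0 l κ) ↔ (0 < l.length ∧ (parS S).cs < c0) := by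
  have hS6 := P.hS
  have hl := P.hl
  have hlen : 0 < (((lL l).take S).length : ℤ) := by
    have h1 : ((lL l).take S).length = min S l.length := by
      rw [List.length_take]
      simp [lL]
    rw [h1]
    have h2 : 0 < min S l.length := lt_min (by omega) hl
    exact_mod_cast h2
  have hword := word_small hS6
  have hc0 : ((c0 : ℤ)) ≤ 2 ^ S := by
    have h := P.sz
    have h1 : c0 ≤ 2 ^ S := (h.hc0.trans h.hN.le)
    exact_mod_cast h1
  have h2S : (2 : ℤ) ^ S ≤ 2 ^ wid S := by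
    apply pow_le_pow_right₀ (by norm_num)
    unfold wid
    exact Nat.le_self_pow (by norm_num) S
  have hS28 : (0 : ℤ) ≤ (S : ℤ) ^ 28 := by positivity
  have hc00 : (0 : ℤ) ≤ c0 := by positivity
  have hcs : csub S (c0 : ℤ) (clamp S ((S : ℤ) ^ 28)) = (c0 : ℤ) - (S : ℤ) ^ 28 := by
    rw [spow_eq hS6 (by norm_num)]
    apply FExpAux.csub_eq hS6
    · rw [abs_of_nonneg hc00]
      linarith
    · rw [abs_of_nonneg hS28]
      exact hword
    · rw [abs_le]
      constructor <;> linarith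
  unfold regF
  show (0 < if 0 < (((lL l).take S).length : ℤ) then
    if 0 < csub S (c0 : ℤ) (clamp S ((S : ℤ) ^ 28)) then (1 : ℤ) else 0 else 0) ↔ _
  rw [if_pos hlen, hcs, cs_eq]
  constructor
  · intro h
    refine ⟨hl, ?_⟩
    by_contra hc
    rw [if_neg] at h
    · exact lt_irrefl _ h
    · have : (c0 : ℤ) ≤ (S : ℤ) ^ 28 := by exact_mod_cast not_lt.1 hc
      linarith
  · rintro ⟨-, h⟩
    have : (S : ℤ) ^ 28 < c0 := by exact_mod_cast h
    rw [if_pos (by linarith)]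
    norm_num

theorem V0_two (h : 0 < l.length ∧ (parS S).cs < c0) : (parS S).V0 m l.length c0 = v0R S m c0 := by
  have hS0 := P.S_pos
  have hm1 : (0 : ℝ) < m := by
    have := P.hm0
    exact_mod_cast this
  unfold Par.V0
  rw [if_pos h]
  unfold v0R
  show 1 / (S : ℝ) ^ 26 * (c0 : ℝ) / (14 * (m : ℝ)) = _
  field_simp

omit P in
theorem V0_one (h : ¬ (0 < l.length ∧ (parS S).cs < c0)) : (parS S).V0 m l.length c0 = 0 := by
  unfold Par.V0
  rw [if_neg h]

theorem passF_eq : passF S (xOf r c0 l κ) = pickF S (xOf r c0 l κ) := by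
  unfold passF
  rw [if_pos P.hcut]

theorem pick_one (h : ¬ (0 < l.length ∧ (parS S).cs < c0)) : pickF S (xOf r c0 l κ) = 1 := by
  unfold pickF
  rw [if_neg fun hc => h (P.regF_iff.1 hc)]

/-- The trial goes on in the first regime. -/
theorem regime_one_pass (h : ¬ (0 < l.length ∧ (parS S).cs < c0)) : 0 < passF S (xOf r c0 l κ) := by
  rw [P.passF_eq, P.pick_one h]
  norm_num

theorem half_small : (1 / 2 : ℝ) ^ (S ^ 2 / 4) ≤ 1 / (2 * (S : ℝ)) := by
  have hS6 := P.hS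
  have hS0 := P.S_pos
  have h3 := half_le_inv hS6 (k := 3) (by norm_num)
  refine h3.trans ?_
  have hSS : (2 : ℝ) ≤ (S : ℝ) ^ 2 := by
    have : (1000000 : ℝ) ≤ S := by exact_mod_cast hS6
    nlinarith
  rw [div_le_div_iff₀ (by positivity) (by positivity)]
  have e : 1 * (S : ℝ) ^ 3 = (S : ℝ) ^ 2 * S := by ring
  rw [e]
  nlinarith

/-- The trial goes on: the row and its variance. -/
theorem pass_spec (hp : 0 < passF S (xOf r c0 l κ)) :
    ∃ i : Fin m, idxF S (xOf r c0 l κ) = ((i : ℕ) : ℤ)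
      ∧ (parS S).V0 m l.length c0 ≤ rowV r (rM S tw) (bb S β) i
      ∧ (parS S).V0 m l.length c0 ≤ rowV r t (bb S β) i := by
  have hS6 := P.hS
  by_cases hreg : 0 < l.length ∧ (parS S).cs < c0
  · rcases pickF_node P.hok κ (P.regF_iff.2 hreg) with ⟨h0, -⟩ | ⟨i, h1, h2⟩
    · rw [P.passF_eq, h0] at hp
      exact absurd hp (lt_irrefl _)
    · have hT := P.test_pos h2
      have hi : idxF S (xOf r c0 l κ) = ((i : ℕ) : ℤ) := by
        unfold idxF
        rw [h1, DRep.csub_one_of_pos (by positivity)]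
        · ring
        · have : (i : ℕ) + 1 ≤ S := lt_of_lt_of_le i.2 P.hmS
          exact_mod_cast this
      refine ⟨i, hi, ?_, ?_⟩
      · rw [P.V0_two hreg]
        have : 0 < 1 / (2 * (S : ℝ)) := by
          have := P.S_pos
          positivity
        linarith
      · rw [P.V0_two hreg]
        have h3 := P.rowV_t'_le i
        have h4 := P.half_small
        linarith
  · have hi : idxF S (xOf r c0 l κ) = 0 := by
      unfold idxF
      rw [P.pick_one hreg, DRep.csub_one_of_pos (by norm_num)]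
      · norm_num
      · have : 1 ≤ S := by omega
        exact_mod_cast this
    refine ⟨⟨0, P.hm0⟩, by simpa using hi, ?_, ?_⟩
    · rw [V0_one hreg]
      exact rowV_nonneg r P.ht' (fun j => bb_pos (S := S) (β := β) j) _
    · rw [V0_one hreg]
      exact rowV_nonneg r P.ht_pos (fun j => bb_pos (S := S) (β := β) j) _

/-- The trial does not go on: all variances are small. -/
theorem notpass_spec (hp : ¬ 0 < passF S (xOf r c0 l κ)) (a : Fin m) :
    rowV r t (bb S β) a ≤ (parS S).V0 m l.length c0 + 1 / (14 * (m : ℝ)) := by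
  have hS6 := P.hS
  have hS0 := P.S_pos
  have hreg : 0 < l.length ∧ (parS S).cs < c0 := by
    by_contra hc
    exact hp (P.regime_one_pass hc)
  rcases pickF_node P.hok κ (P.regF_iff.2 hreg) with ⟨-, h0⟩ | ⟨i, h1, -⟩
  · have h2 := P.test_neg (i := a) (not_lt.2 (h0 a))
    have h3 := P.rowV_t_le a
    have h4 := P.half_small
    rw [P.V0_two hreg]
    have hm1 : (0 : ℝ) < m := by
      have := P.hm0
      exact_mod_cast this
    have h42 : 42 * (m : ℝ) ≤ S := by exact_mod_cast P.hm42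
    have h5 : 3 / (S : ℝ) ≤ 1 / (14 * (m : ℝ)) := by
      rw [div_le_div_iff₀ hS0 (by positivity)]
      linarith
    have e1 : 3 / (S : ℝ) = 2 / (S : ℝ) + 2 * (1 / (2 * (S : ℝ))) := by
      field_simp
      norm_num
    have h6 : 0 < 1 / (2 * (S : ℝ)) := by positivity
    linarith
  · exfalso
    apply hp
    rw [P.passF_eq, h1]
    positivity

/-! ### The gain -/

theorem v0R_ge (h : (parS S).cs < c0) : 1 ≤ v0R S m c0 := by
  have hS6 := P.hS
  have hS0 := P.S_pos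
  have hm1 : (0 : ℝ) < m := by
    have := P.hm0
    exact_mod_cast this
  have hmS : (m : ℝ) ≤ S := by exact_mod_cast P.hmS
  have h14 : (14 : ℝ) ≤ S := by
    have : (1000000 : ℝ) ≤ S := by exact_mod_cast hS6
    linarith
  have hc : (S : ℝ) ^ 28 < c0 := by
    rw [cs_eq] at h
    exact_mod_cast h
  unfold v0R
  rw [le_div_iff₀ (by positivity), one_mul]
  have e : (S : ℝ) ^ 28 = (S : ℝ) ^ 26 * (S : ℝ) ^ 2 := by ring
  have h1 : (S : ℝ) ^ 26 * (14 * (m : ℝ)) ≤ (S : ℝ) ^ 26 * (S : ℝ) ^ 2 :=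
    mul_le_mul_of_nonneg_left (by nlinarith) (by positivity)
  linarith

theorem K_two (h : 0 < l.length ∧ (parS S).cs < c0) :
    (parS S).K m l.length c0 = Real.sqrt (v0R S m c0) := by
  unfold Par.K
  rw [if_pos h, P.V0_two h]

omit P in
theorem K_one (h : ¬ (0 < l.length ∧ (parS S).cs < c0)) : (parS S).K m l.length c0 = 1 := by
  unfold Par.K
  rw [if_neg h]

theorem K_pos : 0 < (parS S).K m l.length c0 := by
  by_cases h : 0 < l.length ∧ (parS S).cs < c0
  · rw [P.K_two h]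
    exact Real.sqrt_pos.2 (lt_of_lt_of_le one_pos (P.v0R_ge h.2))
  · rw [K_one h]
    exact one_pos

/-- The first coin has a probability. -/
theorem K_bw_le {i : Fin m} (hi : (parS S).V0 m l.length c0 ≤ rowV r (rM S tw) (bb S β) i) (v : ℕ) :
    (parS S).K m l.length c0 * bw (r i) (rowP (rM S tw) (bb S β) i) v ≤ 1 := by
  have h0 := P.p_nonneg i
  have h1 := P.p_le_one i
  unfold Par.K
  split_ifs with h
  · have h2 := bw_sqrt_le (r i) v h0 h1
    have h3 : Real.sqrt ((parS S).V0 m l.length c0)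
        ≤ Real.sqrt ((r i : ℝ) * rowP (rM S tw) (bb S β) i * (1 - rowP (rM S tw) (bb S β) i)) :=
      Real.sqrt_le_sqrt hi
    have hbw0 : 0 ≤ bw (r i) (rowP (rM S tw) (bb S β) i) v := bw_nonneg h0 h1 v
    calc _ ≤ Real.sqrt ((r i : ℝ) * rowP (rM S tw) (bb S β) i * (1 - rowP (rM S tw) (bb S β) i))
          * bw (r i) (rowP (rM S tw) (bb S β) i) v := mul_le_mul_of_nonneg_right h3 hbw0
      _ ≤ 1 := by
          rw [mul_comm]
          exact h2
  · rw [one_mul]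
    by_cases hv : v ≤ r i
    · have h2 : bw (r i) (rowP (rM S tw) (bb S β) i) v
          ≤ ∑ w ∈ range (r i + 1), bw (r i) (rowP (rM S tw) (bb S β) i) w :=
        Finset.single_le_sum (f := fun w => bw (r i) (rowP (rM S tw) (bb S β) i) w)
          (fun w _ => bw_nonneg h0 h1 w) (Finset.mem_range.2 (by omega))
      rwa [sum_bw] at h2
    · have : bw (r i) (rowP (rM S tw) (bb S β) i) v = 0 := by
        unfold bw
        rw [Nat.choose_eq_zero_of_lt (by omega)]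
        simp
      rw [this]
      exact zero_le_one

omit P in
/-- The logarithm of a word near a number in the range of the probabilities. -/
theorem flog_close (hS : 1000000 ≤ S) {w : ℤ} {q : ℝ} (hq0 : (1 / 2 : ℝ) ^ (5 * S ^ 2) ≤ q) (hq1 : q ≤ 1)
    (hw : |val S w - q| ≤ (1 / 2 : ℝ) ^ (3 * S ^ 4)) :
    |val S (flog S w) - Real.log q| ≤ (1 / 2 : ℝ) ^ (S ^ 4) := by
  have hf := half_pow_facts hS
  have h2 : 0 < S ^ 2 := by positivity
  have h4 : 0 < S ^ 4 := by positivity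
  have h41 : S ^ 2 ≤ S ^ 4 := Nat.pow_le_pow_right (by omega) (by norm_num)
  have h31 : S ^ 2 ≤ S ^ 3 := Nat.pow_le_pow_right (by omega) (by norm_num)
  set lo : ℝ := (1 / 2 : ℝ) ^ (5 * S ^ 2 + 1) with hlo
  have hlo0 : 0 < lo := by positivity
  have hlo2 : (1 / 2 : ℝ) ^ (5 * S ^ 2) = 2 * lo := by
    rw [hlo, pow_succ]
    ring
  obtain ⟨h3, h5⟩ := abs_le.1 hw
  have he : (1 / 2 : ℝ) ^ (3 * S ^ 4) ≤ lo := half_mono (by omega)
  have hw0 : lo ≤ val S w := by linarith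
  have hqlo : lo ≤ q := by linarith
  have hw1 : val S w ≤ 2 := by
    have : (1 / 2 : ℝ) ^ (3 * S ^ 4) ≤ 1 := pow_le_one₀ (by norm_num) (by norm_num)
    linarith
  have h32 : 1000000 * S ^ 2 ≤ S ^ 3 := by
    have e : S ^ 3 = S * S ^ 2 := by ring
    rw [e]
    exact Nat.mul_le_mul_right _ hS
  have h10 : (1 / 2 : ℝ) ^ (S ^ 3) ≤ lo := half_mono (by omega)
  have hfl := flog_spec hS (x := w) (h10.trans hw0)
    (hw1.trans (by
      have : (2 : ℝ) ^ 1 ≤ 2 ^ (S ^ 3) := pow_le_pow_right₀ (by norm_num) (by omega)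
      simpa using this))
  have hlog := abs_log_sub_le hlo0 hw0 hqlo
  have h6 : |Real.log (val S w) - Real.log q| ≤ (1 / 2 : ℝ) ^ (2 * S ^ 4) := by
    refine hlog.trans ?_
    rw [div_le_iff₀ hlo0]
    refine hw.trans ?_
    rw [hlo, ← pow_add]
    exact half_mono (by omega)
  have h7 : (1 / 2 : ℝ) ^ (S ^ 5 / 4) ≤ (1 / 2 : ℝ) ^ (2 * S ^ 4) := half_mono (by omega)
  have h8 := abs_sub_le (val S (flog S w)) (Real.log (val S w)) (Real.log q)
  have h9 : 2 * (1 / 2 : ℝ) ^ (2 * S ^ 4) ≤ (1 / 2 : ℝ) ^ (S ^ 4) := by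
    have := two_pow_mul_half_pow (a := 1) (b := 2 * S ^ 4) (c := S ^ 4) (by omega)
    simpa using this
  linarith

omit P in
theorem small_big (hS : 1000000 ≤ S) : (S : ℝ) ^ 3 * 2 ^ S * 128 ≤ Big S := by
  have h1 := natCast_pow_le_two_pow S 3
  have hf := half_pow_facts hS
  calc (S : ℝ) ^ 3 * 2 ^ S * 128 ≤ 2 ^ (3 * S) * 2 ^ S * 2 ^ 7 := by
        norm_num
        gcongr
    _ = 2 ^ (3 * S + S + 7) := by simp only [pow_add]
    _ ≤ _ := by
        unfold Big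
        apply pow_le_pow_right₀ (by norm_num)
        omega

omit P in
/-- The size of the logarithm of a binomial weight. -/
theorem log_bw_abs {R v : ℕ} (hv : v ≤ R) {p : ℝ} {e : ℕ} (hp0 : (1 / 2 : ℝ) ^ e ≤ p)
    (hq0 : (1 / 2 : ℝ) ^ e ≤ 1 - p) : |Real.log (bw R p v)| ≤ (e : ℝ) * R := by
  have hp : 0 < p := lt_of_lt_of_le (by positivity) hp0
  have hq : 0 < 1 - p := lt_of_lt_of_le (by positivity) hq0
  have hp1 : p ≤ 1 := by linarith
  have h1 : bw R p v ≤ 1 := by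
    have h2 : bw R p v ≤ ∑ w ∈ range (R + 1), bw R p w :=
      Finset.single_le_sum (f := fun w => bw R p w) (fun w _ => bw_nonneg hp.le hp1 w)
        (Finset.mem_range.2 (by omega))
    rwa [sum_bw] at h2
  have hlow : (1 / 2 : ℝ) ^ (e * R) ≤ bw R p v := by
    have hc : (1 : ℝ) ≤ (R.choose v : ℝ) := by
      exact_mod_cast Nat.choose_pos hv
    have e1 : (1 / 2 : ℝ) ^ (e * R) = ((1 / 2 : ℝ) ^ e) ^ v * ((1 / 2 : ℝ) ^ e) ^ (R - v) := by
      rw [← pow_add, ← pow_mul]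
      congr 2
      omega
    rw [e1]
    unfold bw
    have h3 : ((1 / 2 : ℝ) ^ e) ^ v ≤ p ^ v := pow_le_pow_left₀ (by positivity) hp0 v
    have h4 : ((1 / 2 : ℝ) ^ e) ^ (R - v) ≤ (1 - p) ^ (R - v) := pow_le_pow_left₀ (by positivity) hq0 _
    have h5 : ((1 / 2 : ℝ) ^ e) ^ v * ((1 / 2 : ℝ) ^ e) ^ (R - v) ≤ p ^ v * (1 - p) ^ (R - v) :=
      mul_le_mul h3 h4 (by positivity) (by positivity)
    have h6 : 0 ≤ p ^ v * (1 - p) ^ (R - v) := by positivity
    calc _ ≤ p ^ v * (1 - p) ^ (R - v) := h5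
      _ = 1 * (p ^ v * (1 - p) ^ (R - v)) := (one_mul _).symm
      _ ≤ (R.choose v : ℝ) * (p ^ v * (1 - p) ^ (R - v)) := mul_le_mul_of_nonneg_right hc h6
      _ = _ := by ring
  have hb0 : 0 < bw R p v := lt_of_lt_of_le (by positivity) hlow
  have h7 : Real.log (bw R p v) ≤ 0 := Real.log_nonpos hb0.le h1
  have h8 : Real.log ((1 / 2 : ℝ) ^ (e * R)) ≤ Real.log (bw R p v) := Real.log_le_log (by positivity) hlow
  rw [Real.log_pow, one_div, Real.log_inv] at h8
  have h9 := Real.log_two_lt_d9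
  have h10 : 0 < Real.log 2 := Real.log_pos (by norm_num)
  rw [abs_of_nonpos h7]
  push_cast at h8
  have h11 : (e : ℝ) * R * Real.log 2 ≤ (e : ℝ) * R * 1 :=
    mul_le_mul_of_nonneg_left (by linarith) (by positivity)
  nlinarith

/-- The logarithm of the gain. -/
theorem logKF_close :
    |val S (logKF S (xOf r c0 l κ)) - Real.log ((parS S).K m l.length c0)| ≤ (1 / 2 : ℝ) ^ (S ^ 4) := by
  have hS6 := P.hS
  by_cases hreg : 0 < l.length ∧ (parS S).cs < c0
  · have hf := half_pow_facts hS6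
    have h4 : 0 < S ^ 4 := by positivity
    rw [P.K_two hreg]
    have hlog : logKF S (xOf r c0 l κ) = flog S (fsqrt S (v0F S (xOf r c0 l κ))) := by
      unfold logKF
      rw [if_pos (P.regF_iff.2 hreg)]
    rw [hlog]
    have hV1 := P.v0R_ge hreg.2
    have hV2 := P.v0R_le
    have hclose := P.v0F_close
    set a := val S (v0F S (xOf r c0 l κ)) with ha
    set V := v0R S m c0 with hV
    set e : ℝ := (1 / 2 : ℝ) ^ (S ^ 5 / 4) with he
    have he0 : 0 ≤ e := by positivity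
    have he1 : e ≤ 1 / 4 := by
      have : (1 / 2 : ℝ) ^ (S ^ 5 / 4) ≤ (1 / 2 : ℝ) ^ 2 := half_mono (by omega)
      norm_num at this
      rw [he]
      norm_num
      exact this
    have hu0 : 0 ≤ ulp S := by
      unfold ulp
      positivity
    have hue : ulp S ≤ e := (ulp_le hS6).trans (half_mono (by omega))
    obtain ⟨h1, h2⟩ := abs_le.1 hclose
    have ha0 : 0 ≤ a := by linarith
    have hbS := two_S_le_big hS6
    have h2S : (1 : ℝ) ≤ 2 ^ S := one_le_pow₀ (by norm_num)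
    have haB : a ≤ Big S := by linarith
    have hsq := fsqrt_spec hS6 ha0 haB
    set w := fsqrt S (v0F S (xOf r c0 l κ)) with hw
    have hsV1 : 1 ≤ Real.sqrt V := by
      rw [show (1 : ℝ) = Real.sqrt 1 by simp]
      exact Real.sqrt_le_sqrt hV1
    have hsV2 : Real.sqrt V ≤ V := Real.sqrt_le_iff.2 ⟨by linarith, by nlinarith⟩
    have hsa0 := Real.sqrt_nonneg a
    have hsqdiff : |Real.sqrt a - Real.sqrt V| ≤ |a - V| := by
      have e1 : (Real.sqrt a - Real.sqrt V) * (Real.sqrt a + Real.sqrt V) = a - V := by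
        have h5 := Real.mul_self_sqrt ha0
        have h6 := Real.mul_self_sqrt (show 0 ≤ V by linarith)
        nlinarith
      rw [← e1, abs_mul]
      refine le_mul_of_one_le_right (abs_nonneg _) ?_
      rw [abs_of_nonneg (by linarith)]
      linarith
    have hw1 : |val S w - Real.sqrt V| ≤ e + ulp S := by
      have h5 := abs_sub_le (val S w) (Real.sqrt a) (Real.sqrt V)
      linarith
    obtain ⟨h6, h7⟩ := abs_le.1 hw1
    have hulp4 : ulp S ≤ 1 / 4 := hue.trans he1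
    have hw0 : 1 / 2 ≤ val S w := by linarith
    have h32 : 1000000 * S ^ 2 ≤ S ^ 3 := by
      have e : S ^ 3 = S * S ^ 2 := by ring
      rw [e]
      exact Nat.mul_le_mul_right _ hS6
    have hl1 : (1 / 2 : ℝ) ^ (S ^ 3) ≤ val S w := by
      have : (1 / 2 : ℝ) ^ (S ^ 3) ≤ (1 / 2 : ℝ) ^ 1 := half_mono (by
        have : 0 < S ^ 2 := by positivity
        omega)
      norm_num at this
      norm_num
      linarith
    have hl2 : val S w ≤ 2 ^ (S ^ 3) := by
      have : (2 : ℝ) ^ (S + 3) ≤ 2 ^ (S ^ 3) := pow_le_pow_right₀ (by norm_num) (by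
        have : 1000000 * S ≤ S ^ 2 := hf.2.2.2.2.1
        omega)
      have e8 : (2 : ℝ) ^ (S + 3) = 2 ^ S * 8 := by
        rw [pow_add]
        norm_num
      linarith
    have hflog := flog_spec hS6 hl1 hl2
    have hlog2 := abs_log_sub_le (lo := 1 / 2) (by norm_num) hw0 (show 1 / 2 ≤ Real.sqrt V by linarith)
    have h8 := abs_sub_le (val S (flog S w)) (Real.log (val S w)) (Real.log (Real.sqrt V))
    have h9 : |val S w - Real.sqrt V| / (1 / 2) = 2 * |val S w - Real.sqrt V| := by ring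
    rw [h9] at hlog2
    have h10 : 8 * e ≤ (1 / 2 : ℝ) ^ (S ^ 4) := by
      have := two_pow_mul_half_pow (a := 3) (b := S ^ 5 / 4) (c := S ^ 4) (by omega)
      norm_num at this
      rw [he]
      norm_num
      exact this
    linarith
  · rw [K_one hreg, Real.log_one, sub_zero]
    have hlog : logKF S (xOf r c0 l κ) = 0 := by
      unfold logKF
      rw [if_neg fun hc => hreg (P.regF_iff.1 hc)]
    rw [hlog]
    simp only [val]
    simp

theorem log_K_abs : |Real.log ((parS S).K m l.length c0)| ≤ S := by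
  have h0 : (0 : ℝ) ≤ S := P.S_pos.le
  by_cases hreg : 0 < l.length ∧ (parS S).cs < c0
  · rw [P.K_two hreg]
    have hV1 := P.v0R_ge hreg.2
    have hV2 := P.v0R_le
    have hsV1 : 1 ≤ Real.sqrt (v0R S m c0) := by
      rw [show (1 : ℝ) = Real.sqrt 1 by simp]
      exact Real.sqrt_le_sqrt hV1
    have hsV2 : Real.sqrt (v0R S m c0) ≤ 2 ^ S :=
      (Real.sqrt_le_iff.2 ⟨by linarith, by nlinarith⟩ : Real.sqrt (v0R S m c0) ≤ v0R S m c0).trans hV2
    rw [abs_of_nonneg (Real.log_nonneg hsV1)]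
    have h1 := Real.log_le_log (by linarith) hsV2
    rw [Real.log_pow] at h1
    have h2 := Real.log_two_lt_d9
    have h3 : (S : ℝ) * Real.log 2 ≤ S * 1 := mul_le_mul_of_nonneg_left (by linarith) h0
    linarith
  · rw [K_one hreg, Real.log_one, abs_zero]
    exact h0

/-- The logarithm of the probability of the first coin. -/
theorem coinL1_close {i : Fin m} (hidx : idxF S (xOf r c0 l κ) = ((i : ℕ) : ℤ)) {z : Fin m → ℕ}
    (hz : z ∈ lev r c0) :
    |val S (coinL1 S (xOf r c0 l κ, lN z))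
        - Real.log ((parS S).K m l.length c0 * bw (r i) (rowP (rM S tw) (bb S β) i) (z i))|
      ≤ 5 / (S : ℝ) ^ 42 := by
  have hS6 := P.hS
  have hS0 := P.S_pos
  have hf := half_pow_facts hS6
  obtain ⟨hzr, -⟩ := mem_lev.1 hz
  obtain ⟨h1, h2, h3, h4⟩ := P.pF i
  have hp0 := P.p_nonneg i
  have hp1 := P.p_le_one i
  set p := rowP (rM S tw) (bb S β) i with hp
  have h32 : 1000000 * S ^ 2 ≤ S ^ 3 := by
    have e : S ^ 3 = S * S ^ 2 := by ring
    rw [e]
    exact Nat.mul_le_mul_right _ hS6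
  have hS3 : (1 / 2 : ℝ) ^ (S ^ 3) ≤ (1 / 2 : ℝ) ^ (5 * S ^ 2) := half_mono (by omega)
  have hpos : (0 : ℝ) < (1 / 2 : ℝ) ^ (5 * S ^ 2) := by positivity
  have hl1 := flog_close hS6 h1 hp1 h3
  have hl2 := flog_close hS6 h2 (by linarith) h4
  have hRr : r i < 2 ^ S := by
    have h5 : r i ≤ ∑ k, r k := Finset.single_le_sum (f := r) (fun _ _ => Nat.zero_le _) (Finset.mem_univ i)
    have h6 := P.hN
    omega
  have hSS : (1 / 2 : ℝ) ^ (S ^ 4) ≤ (1 / 2 : ℝ) ^ (S ^ 3) := half_mono (by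
    have : 1000000 * S ^ 3 ≤ S ^ 4 := hf.2.2.2.2.2
    omega)
  have hbw := lbwF_spec hS6 hRr (hzr i) (lt_of_lt_of_le hpos h1) (by linarith) (hS3.trans h1)
    (hS3.trans h2) (hl1.trans hSS) (hl2.trans hSS)
  have hK := P.logKF_close
  have hKa := P.log_K_abs
  have hbwabs := log_bw_abs (R := r i) (v := z i) (hzr i) h1 h2
  have hbw0 : 0 < bw (r i) p (z i) := by
    unfold bw
    have hc : (0 : ℝ) < ((r i).choose (z i) : ℝ) := by exact_mod_cast Nat.choose_pos (hzr i)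
    have hpp : 0 < p := lt_of_lt_of_le hpos h1
    have hqq : 0 < 1 - p := lt_of_lt_of_le hpos h2
    positivity
  have hK0 := P.K_pos
  rw [Real.log_mul hK0.ne' hbw0.ne']
  have e1 : coinL1 S (xOf r c0 l κ, lN z) = cadd S (logKF S (xOf r c0 l κ))
      (lbwF S (r i : ℤ) (z i : ℤ) (flog S (aF S (xOf r c0 l κ) ((i : ℕ) : ℤ)))
        (flog S (bF S (xOf r c0 l κ) ((i : ℕ) : ℤ)))) := by
    unfold coinL1
    simp only
    rw [hidx]
    have e2 : getL S (inR (xOf r c0 l κ)) ((i : ℕ) : ℤ) = (r i : ℤ) := getL_lN P.hmS r i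
    have e3 : getL S (lN z) ((i : ℕ) : ℤ) = (z i : ℤ) := getL_lN P.hmS z i
    rw [e2, e3]
  rw [e1]
  -- the sizes
  have hsb := small_big hS6
  have hSpos : (0 : ℝ) < 2 ^ S := by positivity
  have h2S : (1 : ℝ) ≤ 2 ^ S := one_le_pow₀ (by norm_num)
  have hS1 : (1 : ℝ) ≤ S := by
    have : (1000000 : ℝ) ≤ S := by exact_mod_cast hS6
    linarith
  have hS3' : (1 : ℝ) ≤ (S : ℝ) ^ 3 := one_le_pow₀ hS1
  have hSS3 : (S : ℝ) ≤ (S : ℝ) ^ 3 := le_self_pow₀ hS1 (by norm_num)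
  have hbig1 : (S : ℝ) + 1 ≤ Big S := by nlinarith
  have hA : |val S (logKF S (xOf r c0 l κ))| ≤ Big S := by
    have h5 := abs_sub_abs_le_abs_sub (val S (logKF S (xOf r c0 l κ))) (Real.log ((parS S).K m l.length c0))
    have h6 : (1 / 2 : ℝ) ^ (S ^ 4) ≤ 1 := pow_le_one₀ (by norm_num) (by norm_num)
    linarith
  have hrr : (r i : ℝ) ≤ 2 ^ S := by exact_mod_cast hRr.le
  have hbwB : |Real.log (bw (r i) p (z i))| ≤ (S : ℝ) ^ 3 * 2 ^ S := by
    refine hbwabs.trans ?_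
    have h6 : ((5 * S ^ 2 : ℕ) : ℝ) ≤ (S : ℝ) ^ 3 := by
      have h7 : 5 * S ^ 2 ≤ S ^ 3 := by omega
      exact_mod_cast h7
    exact mul_le_mul h6 hrr (Nat.cast_nonneg _) (by positivity)
  have hsmall1 : 4 / (S : ℝ) ^ 42 ≤ 4 := by
    rw [div_le_iff₀ (by positivity)]
    have : (1 : ℝ) ≤ (S : ℝ) ^ 42 := one_le_pow₀ hS1
    linarith
  have hB : |val S (lbwF S (r i : ℤ) (z i : ℤ) (flog S (aF S (xOf r c0 l κ) ((i : ℕ) : ℤ)))
        (flog S (bF S (xOf r c0 l κ) ((i : ℕ) : ℤ))))| ≤ Big S := by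
    have h5 := abs_sub_abs_le_abs_sub (val S (lbwF S (r i : ℤ) (z i : ℤ) (flog S (aF S (xOf r c0 l κ) ((i : ℕ) : ℤ)))
        (flog S (bF S (xOf r c0 l κ) ((i : ℕ) : ℤ))))) (Real.log (bw (r i) p (z i)))
    have h6 : (S : ℝ) ^ 3 * 2 ^ S ≥ 1 := by nlinarith
    linarith
  rw [val_add hS6 hA hB]
  have h7 : (1 / 2 : ℝ) ^ (S ^ 4) ≤ (1 / 2 : ℝ) ^ (S ^ 2 / 4) := half_mono (by
    have : S ^ 2 ≤ S ^ 4 := Nat.pow_le_pow_right (by omega) (by norm_num)
    omega)
  have h8 := half_le_inv hS6 (k := 42) (by norm_num)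
  have e5 : 5 / (S : ℝ) ^ 42 = 4 / (S : ℝ) ^ 42 + 1 / (S : ℝ) ^ 42 := by ring
  have h9 := abs_add_le (val S (logKF S (xOf r c0 l κ)) - Real.log ((parS S).K m l.length c0))
    (val S (lbwF S (r i : ℤ) (z i : ℤ) (flog S (aF S (xOf r c0 l κ) ((i : ℕ) : ℤ)))
        (flog S (bF S (xOf r c0 l κ) ((i : ℕ) : ℤ)))) - Real.log (bw (r i) p (z i)))
  have e6 : val S (logKF S (xOf r c0 l κ)) + val S (lbwF S (r i : ℤ) (z i : ℤ) (flog S (aF S (xOf r c0 l κ) ((i : ℕ) : ℤ)))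
        (flog S (bF S (xOf r c0 l κ) ((i : ℕ) : ℤ))))
      - (Real.log ((parS S).K m l.length c0) + Real.log (bw (r i) p (z i)))
      = val S (logKF S (xOf r c0 l κ)) - Real.log ((parS S).K m l.length c0)
        + (val S (lbwF S (r i : ℤ) (z i : ℤ) (flog S (aF S (xOf r c0 l κ) ((i : ℕ) : ℤ)))
        (flog S (bF S (xOf r c0 l κ) ((i : ℕ) : ℤ)))) - Real.log (bw (r i) p (z i))) := by ring
  rw [e6]
  linarith

end Pt

end TrialP

end Vale.Agent.Lib.P328.Bit
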